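import Mathlib
import Crest.Prelude.Def_Broadcast

/-!
# Experiments on `Fin q`: likelihood families, potentials, contraction and star

A *likelihood family* is `L : Ω → Fin q → ℝ` with nonnegative entries and `∑' ω, L ω i = 1`
for each spin `i`.  For a function `f` on the simplex, `Pot f L` is the expected value of `f`
at the posterior of a uniform spin given the observation.  It is written without any measure
theory: `Pot f L = q⁻¹ ∑' ω, hom f (L ω)` with `hom f x = mass x * f (x / mass x)`.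
-/

namespace Crest.Agent.PottsTree

open Finset
open Crest.ProbabilityR.Broadcast

variable {q : ℕ}

/-- total mass of a vector -/
def mass (x : Fin q → ℝ) : ℝ := ∑ i, x i

/-- the posterior: normalised vector -/
noncomputable def post (x : Fin q → ℝ) : Fin q → ℝ := fun i => x i / mass x

/-- the `1`-homogeneous extension of a function on the simplex -/
noncomputable def hom (f : (Fin q → ℝ) → ℝ) (x : Fin q → ℝ) : ℝ := mass x * f (post x)

/-- the simplex -/
abbrev Sx (q : ℕ) : Set (Fin q → ℝ) := stdSimplex ℝ (Fin q)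

/-- bounded on the simplex -/
def BddS (f : (Fin q → ℝ) → ℝ) : Prop := ∃ C, ∀ p ∈ Sx q, |f p| ≤ C

/-- likelihood family -/
structure IsLik {Ω : Type*} (L : Ω → Fin q → ℝ) : Prop where
  nonneg : ∀ ω i, 0 ≤ L ω i
  summable : ∀ i, Summable fun ω => L ω i
  sum_one : ∀ i, ∑' ω, L ω i = 1

/-- the expected value of `f` at the posterior -/
noncomputable def Pot {Ω : Type*} (f : (Fin q → ℝ) → ℝ) (L : Ω → Fin q → ℝ) : ℝ :=
  (q : ℝ)⁻¹ * ∑' ω, hom f (L ω)

lemma mass_nonneg {x : Fin q → ℝ} (hx : ∀ i, 0 ≤ x i) : 0 ≤ mass x :=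
  Finset.sum_nonneg fun i _ => hx i

lemma eq_zero_of_mass_eq_zero {x : Fin q → ℝ} (hx : ∀ i, 0 ≤ x i) (h : mass x = 0) (i : Fin q) :
    x i = 0 :=
  (Finset.sum_eq_zero_iff_of_nonneg (fun i _ => hx i)).1 h i (Finset.mem_univ i)

lemma post_mem {x : Fin q → ℝ} (hx : ∀ i, 0 ≤ x i) (h : mass x ≠ 0) : post x ∈ Sx q := by
  have hm : 0 < mass x := lt_of_le_of_ne (mass_nonneg hx) (Ne.symm h)
  refine ⟨fun i => div_nonneg (hx i) hm.le, ?_⟩
  simp only [post]
  rw [← Finset.sum_div]
  exact div_self h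

lemma hom_of_mass_zero (f : (Fin q → ℝ) → ℝ) {x : Fin q → ℝ} (h : mass x = 0) : hom f x = 0 := by
  simp [hom, h]

lemma abs_hom_le {f : (Fin q → ℝ) → ℝ} {C : ℝ} (hf : ∀ p ∈ Sx q, |f p| ≤ C)
    {x : Fin q → ℝ} (hx : ∀ i, 0 ≤ x i) : |hom f x| ≤ C * mass x := by
  by_cases h : mass x = 0
  · simp [hom, h]
  · have hm := mass_nonneg hx
    rw [hom, abs_mul, abs_of_nonneg hm, mul_comm]
    exact mul_le_mul_of_nonneg_right (hf _ (post_mem hx h)) hm

namespace IsLik

variable {Ω : Type*} {L : Ω → Fin q → ℝ}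

lemma summable_mass (hL : IsLik L) : Summable fun ω => mass (L ω) := by
  simp only [mass]
  exact summable_sum fun i _ => hL.summable i

lemma tsum_mass (hL : IsLik L) : ∑' ω, mass (L ω) = q := by
  simp only [mass]
  rw [Summable.tsum_finsetSum fun i _ => hL.summable i]
  simp [hL.sum_one]

lemma summable_hom (hL : IsLik L) {f : (Fin q → ℝ) → ℝ} (hf : BddS f) :
    Summable fun ω => hom f (L ω) := by
  obtain ⟨C, hC⟩ := hf
  refine Summable.of_norm_bounded (g := fun ω => C * mass (L ω)) (hL.summable_mass.mul_left C) ?_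
  intro ω
  rw [Real.norm_eq_abs]
  exact abs_hom_le hC (hL.nonneg ω)

end IsLik

section BddS

lemma BddS.const (c : ℝ) : BddS (q := q) (fun _ => c) := ⟨|c|, fun _ _ => le_rfl⟩

lemma BddS.add {f g : (Fin q → ℝ) → ℝ} (hf : BddS f) (hg : BddS g) :
    BddS (fun p => f p + g p) := by
  obtain ⟨C, hC⟩ := hf
  obtain ⟨D, hD⟩ := hg
  exact ⟨C + D, fun p hp => (abs_add_le _ _).trans (add_le_add (hC p hp) (hD p hp))⟩

lemma BddS.neg {f : (Fin q → ℝ) → ℝ} (hf : BddS f) : BddS (fun p => - f p) := by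
  obtain ⟨C, hC⟩ := hf
  exact ⟨C, fun p hp => by simpa using hC p hp⟩

lemma BddS.sub {f g : (Fin q → ℝ) → ℝ} (hf : BddS f) (hg : BddS g) :
    BddS (fun p => f p - g p) := by
  simpa [sub_eq_add_neg] using hf.add hg.neg

lemma BddS.mul {f g : (Fin q → ℝ) → ℝ} (hf : BddS f) (hg : BddS g) :
    BddS (fun p => f p * g p) := by
  obtain ⟨C, hC⟩ := hf
  obtain ⟨D, hD⟩ := hg
  refine ⟨C * D, fun p hp => ?_⟩
  rw [abs_mul]
  exact mul_le_mul (hC p hp) (hD p hp) (abs_nonneg _) ((abs_nonneg _).trans (hC p hp))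

lemma BddS.const_mul (c : ℝ) {f : (Fin q → ℝ) → ℝ} (hf : BddS f) :
    BddS (fun p => c * f p) := (BddS.const c).mul hf

lemma BddS.sum {ι : Type*} (s : Finset ι) {f : ι → (Fin q → ℝ) → ℝ} (hf : ∀ i ∈ s, BddS (f i)) :
    BddS (fun p => ∑ i ∈ s, f i p) := by
  classical
  induction s using Finset.induction_on with
  | empty => simpa using BddS.const (q := q) 0
  | insert a s ha ih =>
    simp only [Finset.sum_insert ha]
    exact (hf a (Finset.mem_insert_self _ _)).add
      (ih fun i hi => hf i (Finset.mem_insert_of_mem hi))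

end BddS

section Pot

variable {Ω : Type*} {L : Ω → Fin q → ℝ}

lemma pot_add (hL : IsLik L) {f g : (Fin q → ℝ) → ℝ} (hf : BddS f) (hg : BddS g) :
    Pot (fun p => f p + g p) L = Pot f L + Pot g L := by
  simp only [Pot]
  rw [← mul_add, ← (hL.summable_hom hf).tsum_add (hL.summable_hom hg)]
  congr 2
  funext ω
  simp [hom, mul_add]

lemma pot_const_mul (c : ℝ) {f : (Fin q → ℝ) → ℝ} :
    Pot (fun p => c * f p) L = c * Pot f L := by
  simp only [Pot]
  have : (fun ω => hom (fun p => c * f p) (L ω)) = fun ω => c * hom f (L ω) := by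
    funext ω
    simp only [hom]
    ring
  rw [this, tsum_mul_left]
  ring

lemma pot_neg {f : (Fin q → ℝ) → ℝ} : Pot (fun p => - f p) L = - Pot f L := by
  have := pot_const_mul (L := L) (-1) (f := f)
  simpa using this

lemma pot_sub (hL : IsLik L) {f g : (Fin q → ℝ) → ℝ} (hf : BddS f) (hg : BddS g) :
    Pot (fun p => f p - g p) L = Pot f L - Pot g L := by
  simp only [sub_eq_add_neg]
  rw [pot_add hL hf hg.neg, pot_neg]

lemma pot_sum (hL : IsLik L) {ι : Type*} (s : Finset ι) {f : ι → (Fin q → ℝ) → ℝ}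
    (hf : ∀ i ∈ s, BddS (f i)) :
    Pot (fun p => ∑ i ∈ s, f i p) L = ∑ i ∈ s, Pot (f i) L := by
  classical
  induction s using Finset.induction_on with
  | empty =>
    simp only [Finset.sum_empty, Pot, hom, mul_zero, tsum_zero]
  | insert a s ha ih =>
    simp only [Finset.sum_insert ha]
    rw [pot_add hL (hf a (Finset.mem_insert_self _ _))
      (BddS.sum s fun i hi => hf i (Finset.mem_insert_of_mem hi)),
      ih fun i hi => hf i (Finset.mem_insert_of_mem hi)]

lemma pot_mono (hL : IsLik L) {f g : (Fin q → ℝ) → ℝ} (hf : BddS f) (hg : BddS g)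
    (hfg : ∀ p ∈ Sx q, f p ≤ g p) : Pot f L ≤ Pot g L := by
  simp only [Pot]
  refine mul_le_mul_of_nonneg_left ?_ (by positivity)
  refine (hL.summable_hom hf).tsum_le_tsum (fun ω => ?_) (hL.summable_hom hg)
  by_cases h : mass (L ω) = 0
  · simp [hom, h]
  · exact mul_le_mul_of_nonneg_left (hfg _ (post_mem (hL.nonneg ω) h)) (mass_nonneg (hL.nonneg ω))

lemma pot_congr (hL : IsLik L) {f g : (Fin q → ℝ) → ℝ}
    (hfg : ∀ p ∈ Sx q, f p = g p) : Pot f L = Pot g L := by
  simp only [Pot]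
  congr 2
  funext ω
  by_cases h : mass (L ω) = 0
  · simp [hom, h]
  · simp only [hom]
    rw [hfg _ (post_mem (hL.nonneg ω) h)]

lemma pot_const (hq : q ≠ 0) (hL : IsLik L) (c : ℝ) : Pot (fun _ => c) L = c := by
  simp only [Pot, hom]
  rw [tsum_mul_right, hL.tsum_mass]
  have : (q : ℝ) ≠ 0 := by exact_mod_cast hq
  field_simp

lemma pot_nonneg (hL : IsLik L) {f : (Fin q → ℝ) → ℝ} (hf : BddS f)
    (h0 : ∀ p ∈ Sx q, 0 ≤ f p) : 0 ≤ Pot f L := by
  simp only [Pot]
  refine mul_nonneg (by positivity) (tsum_nonneg fun ω => ?_)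
  by_cases h : mass (L ω) = 0
  · simp [hom, h]
  · exact mul_nonneg (mass_nonneg (hL.nonneg ω)) (h0 _ (post_mem (hL.nonneg ω) h))

lemma abs_pot_le (hq : q ≠ 0) (hL : IsLik L) {f : (Fin q → ℝ) → ℝ} {C : ℝ}
    (hC : ∀ p ∈ Sx q, |f p| ≤ C) : |Pot f L| ≤ C := by
  have hf : BddS f := ⟨C, hC⟩
  have h1 : Pot f L ≤ C := by
    have := pot_mono hL hf (BddS.const C) (fun p hp => (le_abs_self _).trans (hC p hp))
    rwa [pot_const hq hL] at this
  have h2 : -C ≤ Pot f L := by
    have := pot_mono hL (BddS.const (-C)) hf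
      (fun p hp => by have := hC p hp; exact (abs_le.1 this).1)
    rwa [pot_const hq hL] at this
  exact abs_le.2 ⟨h2, h1⟩

/-- Jensen / Cauchy–Schwarz for the potential. -/
lemma sq_pot_le (hq : q ≠ 0) (hL : IsLik L) {f : (Fin q → ℝ) → ℝ} (hf : BddS f) :
    (Pot f L) ^ 2 ≤ Pot (fun p => f p ^ 2) L := by
  set a := Pot f L with ha
  have hsq : BddS (fun p => f p ^ 2) := by simpa [sq] using hf.mul hf
  have h0 : 0 ≤ Pot (fun p => (f p - a) ^ 2) L := by
    refine pot_nonneg hL ?_ fun p _ => sq_nonneg _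
    simpa [sq] using (hf.sub (BddS.const a)).mul (hf.sub (BddS.const a))
  have hexp : Pot (fun p => (f p - a) ^ 2) L = Pot (fun p => f p ^ 2) L - 2 * a * Pot f L + a ^ 2 := by
    have e : (fun p => (f p - a) ^ 2) = fun p => (f p ^ 2 - (2 * a) * f p) + a ^ 2 := by
      funext p; ring
    rw [e, pot_add hL (hsq.sub (hf.const_mul _)) (BddS.const _), pot_sub hL hsq (hf.const_mul _),
      pot_const_mul, pot_const hq hL]
  rw [hexp, ← ha] at h0
  nlinarith

end Pot

end Crest.Agent.PottsTree
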