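import Crest.Agent.Lib.PottsTree.CertQ3Pos

/-!
# Potts tree, `q = 3`: the cone data

`ConeTarget 3`: the pointwise inequalities behind non-reconstruction for `q = 3`, `0 ≤ λ`, up to the
Kesten–Stigum bound.  The functional is `Xi = (2/5) r + 2 t - 2 r²` with `r = |w|²`, `t = Re w³` for
the Fourier coordinate `w` of the posterior, the multiplier of `N2` is `(27 p₀ p₁ p₂)²`.
-/

set_option linter.unusedSimpArgs false
set_option linter.unusedVariables false

noncomputable section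

namespace Crest.Agent.PottsTree.CertQ3

open Filter
open Crest.Agent.PottsTree
open Crest.ProbabilityR.Broadcast

/-- `r` and `t` in terms of the differences, for any ordering of the coordinates -/
lemma inv_forms (x y z : ℝ) (h : x + y + z = 1) :
    1 - 3 * (x * y + y * z + z * x) = rU (x - y) (y - z) ∧
      (27 * (x * y * z) - 1 + 3 * (1 - 3 * (x * y + y * z + z * x))) / 2 = tU (x - y) (y - z) := by
  have hz : z = 1 - x - y := by linarith
  subst hz
  constructor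
  · simp only [rU]; ring
  · simp only [tU]; ring

lemma chamber_aux {p : Fin 3 → ℝ} {x y z : ℝ} (hy : y ≤ x) (hz : z ≤ y) (hz0 : 0 ≤ z)
    (hs : x + y + z = 1)
    (hr : 1 - 3 * (x * y + y * z + z * x) = rr p)
    (hG : 27 * (x * y * z) = GG p) :
    ∃ u v c : ℝ, 0 ≤ u ∧ 0 ≤ v ∧ 0 ≤ c ∧ u + 2 * v + 3 * c = 1 ∧ rr p = rU u v ∧ tt p = tU u v := by
  refine ⟨x - y, y - z, z, by linarith, by linarith, hz0, by linarith, ?_, ?_⟩
  · rw [← hr]; exact (inv_forms x y z hs).1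
  · rw [← (inv_forms x y z hs).2, hr, hG]; rfl

/-- every point of the simplex has the invariants of a point of the Weyl chamber -/
lemma exists_chamber {p : Fin 3 → ℝ} (hp : p ∈ Sx 3) :
    ∃ u v c : ℝ, 0 ≤ u ∧ 0 ≤ v ∧ 0 ≤ c ∧ u + 2 * v + 3 * c = 1 ∧ rr p = rU u v ∧ tt p = tU u v := by
  obtain ⟨p0, p1, p2, hs⟩ := sx3 hp
  rcases le_total (p 0) (p 1) with h01 | h01 <;> rcases le_total (p 1) (p 2) with h12 | h12 <;>
    rcases le_total (p 0) (p 2) with h02 | h02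
  · exact chamber_aux (x := p 2) (y := p 1) (z := p 0) h12 h01 p0 (by linarith)
      (by simp only [rr, e2v] <;> ring) (by simp only [GG] <;> ring)
  · exact chamber_aux (x := p 2) (y := p 1) (z := p 0) h12 h01 p0 (by linarith)
      (by simp only [rr, e2v] <;> ring) (by simp only [GG] <;> ring)
  · exact chamber_aux (x := p 1) (y := p 2) (z := p 0) h12 h02 p0 (by linarith)
      (by simp only [rr, e2v] <;> ring) (by simp only [GG] <;> ring)
  · exact chamber_aux (x := p 1) (y := p 0) (z := p 2) h01 h02 p2 (by linarith)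
      (by simp only [rr, e2v] <;> ring) (by simp only [GG] <;> ring)
  · exact chamber_aux (x := p 2) (y := p 0) (z := p 1) h02 h01 p1 (by linarith)
      (by simp only [rr, e2v] <;> ring) (by simp only [GG] <;> ring)
  · exact chamber_aux (x := p 0) (y := p 2) (z := p 1) h02 h12 p1 (by linarith)
      (by simp only [rr, e2v] <;> ring) (by simp only [GG] <;> ring)
  · exact chamber_aux (x := p 0) (y := p 1) (z := p 2) h01 h12 p2 (by linarith)
      (by simp only [rr, e2v] <;> ring) (by simp only [GG] <;> ring)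
  · exact chamber_aux (x := p 0) (y := p 1) (z := p 2) h01 h12 p2 (by linarith)
      (by simp only [rr, e2v] <;> ring) (by simp only [GG] <;> ring)

/-- skew coordinates of a point of the simplex -/
lemma exists_skew {p : Fin 3 → ℝ} (hp : p ∈ Sx 3) :
    ∃ u v : ℝ, p 0 = xa u v ∧ p 1 = xb u v ∧ p 2 = xc u v ∧ rr p = rU u v ∧ tt p = tU u v := by
  obtain ⟨p0, p1, p2, hs⟩ := sx3 hp
  refine ⟨p 0 - p 1, p 1 - p 2, ?_, ?_, ?_, ?_, ?_⟩
  · simp only [xa]; linarith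
  · simp only [xb]; linarith
  · simp only [xc]; linarith
  · have := (inv_forms _ _ _ hs).1
    simpa only [rr, e2v] using this
  · have := (inv_forms _ _ _ hs).2
    simpa only [tt, GG, rr, e2v] using this

lemma GG_eq (p : Fin 3 → ℝ) : GG p = 1 - 3 * rr p + 2 * tt p := by
  simp only [tt]; ring

lemma XiQ_eq (p : Fin 3 → ℝ) : XiQ p = xiF (rr p) (tt p) := rfl

lemma A_eq {p : Fin 3 → ℝ} (hp : p ∈ Sx 3) : A 3 p = 2 * rr p := by
  obtain ⟨p0, p1, p2, hs⟩ := sx3 hp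
  have hz : p 2 = 1 - p 0 - p 1 := by linarith
  simp only [A, Fin.sum_univ_three, rr, e2v, hz]
  push_cast
  ring

lemma rU_nonneg (u v : ℝ) : 0 ≤ rU u v := by
  unfold rU
  nlinarith [sq_nonneg (u + v), sq_nonneg u, sq_nonneg v]

lemma rr_nonneg {p : Fin 3 → ℝ} (hp : p ∈ Sx 3) : 0 ≤ rr p := by
  obtain ⟨u, v, -, -, -, h, -⟩ := exists_skew hp
  rw [h]
  exact rU_nonneg u v

lemma rr_le_one {p : Fin 3 → ℝ} (hp : p ∈ Sx 3) : rr p ≤ 1 := by
  obtain ⟨p0, p1, p2, hs⟩ := sx3 hp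
  have h1 := mul_nonneg p0 p1
  have h2 := mul_nonneg p1 p2
  have h3 := mul_nonneg p2 p0
  simp only [rr, e2v]
  linarith

lemma GG_nonneg {p : Fin 3 → ℝ} (hp : p ∈ Sx 3) : 0 ≤ GG p := by
  obtain ⟨p0, p1, p2, hs⟩ := sx3 hp
  simp only [GG]
  positivity

lemma GG_le {p : Fin 3 → ℝ} (hp : p ∈ Sx 3) : GG p ≤ 27 := by
  obtain ⟨p0, p1, p2, hs⟩ := sx3 hp
  have h0 : p 0 ≤ 1 := by linarith
  have h1 : p 1 ≤ 1 := by linarith
  have h2 : p 2 ≤ 1 := by linarith
  have h3 : p 0 * p 1 ≤ 1 := by nlinarith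
  have h4 : p 0 * p 1 * p 2 ≤ 1 := by
    have := mul_nonneg p0 p1
    nlinarith
  simp only [GG]
  linarith

lemma tt_bound {p : Fin 3 → ℝ} (hp : p ∈ Sx 3) : -1 ≤ tt p ∧ tt p ≤ 15 := by
  have h1 := GG_nonneg hp
  have h2 := GG_le hp
  have h3 := rr_nonneg hp
  have h4 := rr_le_one hp
  simp only [tt]
  constructor <;> linarith

lemma tU_le {u v c : ℝ} (hu : 0 ≤ u) (hv : 0 ≤ v) (hc : 0 ≤ c) (he : u + 2 * v + 3 * c = 1) :
    tU u v ≤ rU u v := by
  unfold tU rU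
  have h1 : u ≤ 1 - 2 * v := by linarith
  have h2 : 0 ≤ u ^ 2 * (1 - 2 * v - u) := mul_nonneg (sq_nonneg u) (by linarith)
  have h3 : 0 ≤ u * v ^ 2 := by positivity
  have h4 : 0 ≤ v ^ 3 := by positivity
  have h5 : 0 ≤ u ^ 2 * v := by positivity
  have h6 : 0 ≤ u * v := by positivity
  have h7 : 0 ≤ v ^ 2 := by positivity
  nlinarith

lemma rhoF_nonneg {p : Fin 3 → ℝ} (hp : p ∈ Sx 3) : 0 ≤ rhoF (rr p) (tt p) := by
  obtain ⟨u, v, c, hu, hv, hc, he, h1, h2⟩ := exists_chamber hp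
  have h3 : tt p ≤ rr p := by
    rw [h1, h2]
    exact tU_le hu hv hc he
  have h4 := rr_nonneg hp
  have h5 := rr_le_one hp
  have h6 : rr p ^ 2 ≤ rr p := by nlinarith
  simp only [rhoF]
  nlinarith

theorem N2_Q {p r : Fin 3 → ℝ} (hp : p ∈ Sx 3) (hr : r ∈ Sx 3) :
    GG r ^ 2 * XiQ p + GG p ^ 2 * XiQ r ≤ B XiQ p r := by
  obtain ⟨u, v, h0, h1, h2, h3, h4⟩ := exists_skew hp
  obtain ⟨u', v', h0', h1', h2', h3', h4'⟩ := exists_skew hr
  have hB := B_Xi_ge hp hr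
  rw [h0, h1, h2, h0', h1', h2', perm6_Wf, ← h3, ← h4, ← h3', ← h4'] at hB
  obtain ⟨a, b, c, ha, hb, hc, he, h5, h6⟩ := exists_chamber hp
  obtain ⟨a', b', c', ha', hb', hc', he', h5', h6'⟩ := exists_chamber hr
  have hΦ := phi2_nonneg ha hb hc he ha' hb' hc' he'
  rw [← h5, ← h6, ← h5', ← h6'] at hΦ
  simp only [Phi2] at hΦ
  rw [GG_eq p, GG_eq r, XiQ_eq p, XiQ_eq r]
  linarith

theorem N1_Q {p r : Fin 3 → ℝ} (hp : p ∈ Sx 3) (hr : r ∈ Sx 3) :
    B (A 3) p r ≤ A 3 p + A 3 r - (2 * rhoF (rr r) (tt r)) * XiQ p -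
      (2 * rhoF (rr p) (tt p)) * XiQ r - 1 / 80 * (A 3 p * A 3 r * (A 3 p + A 3 r)) := by
  obtain ⟨u, v, h0, h1, h2, h3, h4⟩ := exists_skew hp
  obtain ⟨u', v', h0', h1', h2', h3', h4'⟩ := exists_skew hr
  have hB := B_A_le hp hr
  rw [h0, h1, h2, h0', h1', h2', perm6_W1f, ← h3, ← h4, ← h3', ← h4'] at hB
  obtain ⟨a, b, c, ha, hb, hc, he, h5, h6⟩ := exists_chamber hp
  obtain ⟨a', b', c', ha', hb', hc', he', h5', h6'⟩ := exists_chamber hr
  have hΦ := phi1_nonneg ha hb hc he ha' hb' hc' he'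
  rw [← h5, ← h6, ← h5', ← h6'] at hΦ
  simp only [Phi1] at hΦ
  rw [A_eq hp, A_eq hr, XiQ_eq p, XiQ_eq r]
  nlinarith [hB, hΦ]

lemma T_forms {p : Fin 3 → ℝ} (hp : p ∈ Sx 3) (lam : ℝ) :
    rr (T 3 lam p) = lam ^ 2 * rr p ∧ tt (T 3 lam p) = lam ^ 3 * tt p := by
  obtain ⟨p0, p1, p2, hs⟩ := sx3 hp
  have hz : p 2 = 1 - p 0 - p 1 := by linarith
  constructor
  · simp only [rr, e2v, T, hz]
    push_cast
    ring
  · simp only [tt, GG, rr, e2v, T, hz]
    push_cast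
    ring

/-- the cone data -/
def coneData3 : ConeData 3 where
  Xi := XiQ
  rho := fun p => 2 * rhoF (rr p) (tt p)
  w := fun p => GG p ^ 2
  mu := 1 / 80
  bdd_Xi := by
    refine ⟨40, fun p hp => ?_⟩
    have h1 := rr_nonneg hp
    have h2 := rr_le_one hp
    obtain ⟨h3, h4⟩ := tt_bound hp
    have h5 : rr p ^ 2 ≤ 1 := by nlinarith
    have h6 : 0 ≤ rr p ^ 2 := sq_nonneg _
    simp only [XiQ]
    rw [abs_le]
    constructor <;> linarith
  bdd_rho := by
    refine ⟨40, fun p hp => ?_⟩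
    have h1 := rr_nonneg hp
    have h2 := rr_le_one hp
    obtain ⟨h3, h4⟩ := tt_bound hp
    have h5 : rr p ^ 2 ≤ 1 := by nlinarith
    have h6 : 0 ≤ rr p ^ 2 := sq_nonneg _
    simp only [rhoF]
    rw [abs_le]
    constructor <;> linarith
  bdd_w := by
    refine ⟨729, fun p hp => ?_⟩
    have h1 := GG_nonneg hp
    have h2 := GG_le hp
    rw [abs_of_nonneg (sq_nonneg _)]
    nlinarith
  rho_nonneg := fun p hp => by
    have := rhoF_nonneg hp
    positivity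
  w_nonneg := fun p hp => sq_nonneg _
  mu_nonneg := by norm_num
  N1 := fun p hp r hr => N1_Q hp hr
  N2 := fun p hp r hr => N2_Q hp hr
  unif := by
    simp only [XiQ, tt, GG, rr, e2v]
    norm_num

/-- The pointwise statement for `q = 3`, `0 ≤ λ`. -/
theorem coneTarget3 : ConeTarget 3 := by
  refine ⟨coneData3, by norm_num [coneData3], ?_, ?_⟩
  · intro a
    show 0 ≤ XiQ (baseL 3 a)
    fin_cases a <;> simp [XiQ, tt, GG, rr, e2v, baseL] <;> norm_num
  · intro lam h0 h1 p hp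
    show lam ^ 3 * XiQ p ≤ XiQ (T 3 lam p)
    obtain ⟨h2, h3⟩ := T_forms hp lam
    have h4 := rr_nonneg hp
    simp only [XiQ, h2, h3]
    have h5 : 0 ≤ lam ^ 2 * (1 - lam) * rr p := by
      have : 0 ≤ 1 - lam := by linarith
      positivity
    have h6 : 0 ≤ lam ^ 3 * (1 - lam) * rr p ^ 2 := by
      have : 0 ≤ 1 - lam := by linarith
      positivity
    nlinarith

/-- Non-reconstruction for `q = 3`, `0 ≤ λ`, `b λ² ≤ 1`, on the regular tree. -/
theorem regular_q3 (b : ℕ) (hb : 2 ≤ b) (lam : ℝ) (h0 : 0 ≤ lam) (h1 : lam ≤ 1)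
    (hbl : (b : ℝ) * lam ^ 2 ≤ 1) : Tendsto (advantage 3 b lam) atTop (nhds 0) :=
  regular_of_target (by norm_num) coneTarget3 b hb lam h0 h1 hbl

/-- Non-reconstruction for `q = 3`, `0 ≤ λ`, `d λ² ≤ 1`, on the Poisson tree. -/
theorem poisson_q3 (d : ℝ) (hd : 0 < d) (lam : ℝ) (h0 : 0 ≤ lam) (h1 : lam ≤ 1)
    (hdl : d * lam ^ 2 ≤ 1) : Tendsto (gwAdvantage 3 lam d) atTop (nhds 0) :=
  poisson_of_target (by norm_num) coneTarget3 d hd lam h0 h1 hdl

end Crest.Agent.PottsTree.CertQ3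

end
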