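import Crest.Agent.Lib.PottsTree.CertQ3Poly

/-!
# Potts tree, `q = 3`: the star kernel against polynomial minorants, one permutation at a time
-/

set_option linter.unusedSimpArgs false
set_option linter.unusedVariables false

noncomputable section

namespace Crest.Agent.PottsTree.CertQ3

open Finset
open Crest.Agent.PottsTree

/-! ### invariants -/

def e2v (p : Fin 3 → ℝ) : ℝ := p 0 * p 1 + p 1 * p 2 + p 2 * p 0
def rr (p : Fin 3 → ℝ) : ℝ := 1 - 3 * e2v p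
def GG (p : Fin 3 → ℝ) : ℝ := 27 * (p 0 * p 1 * p 2)
def tt (p : Fin 3 → ℝ) : ℝ := (GG p - 1 + 3 * rr p) / 2
/-- the cone functional -/
def XiQ (p : Fin 3 → ℝ) : ℝ := 2 / 5 * rr p + 2 * tt p - 2 * rr p ^ 2

lemma sx3 {p : Fin 3 → ℝ} (hp : p ∈ Sx 3) :
    0 ≤ p 0 ∧ 0 ≤ p 1 ∧ 0 ≤ p 2 ∧ p 0 + p 1 + p 2 = 1 := by
  refine ⟨hp.1 0, hp.1 1, hp.1 2, ?_⟩
  have := hp.2
  rwa [Fin.sum_univ_three] at this

/-- the minorant of `Z ∙ Xi (posterior)` -/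
def Wf (a0 a1 a2 b0 b1 b2 : ℝ) : ℝ :=
  17 / 5 * Nf a0 a1 a2 b0 b1 b2 * l1 (Zf a0 a1 a2 b0 b1 b2 - 1) - Zf a0 a1 a2 b0 b1 b2
    - 2 * Nf a0 a1 a2 b0 b1 b2 ^ 2 * cc (Zf a0 a1 a2 b0 b1 b2 - 1)
    + 729 * (a0 * b0 * (a1 * b1) * (a2 * b2)) * l2 (Zf a0 a1 a2 b0 b1 b2 - 1)

/-- the majorant of `Z ∙ r (posterior)` -/
def W1f (a0 a1 a2 b0 b1 b2 : ℝ) : ℝ :=
  Zf a0 a1 a2 b0 b1 b2 - (Zf a0 a1 a2 b0 b1 b2 ^ 2 - Nf a0 a1 a2 b0 b1 b2) *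
    ell (Zf a0 a1 a2 b0 b1 b2 - 1)

/-- abstract inequality behind `Wf` -/
lemma key_W (Z N g : ℝ) (hZ : 0 < Z) (hZ3 : Z ≤ 3) (hN0 : 0 ≤ N) (hN : N ≤ Z ^ 2) (hg : 0 ≤ g) :
    17 / 5 * N * l1 (Z - 1) - Z - 2 * N ^ 2 * cc (Z - 1) + g * l2 (Z - 1) ≤
      17 / 5 * N / Z - Z + g / Z ^ 2 - 2 * N ^ 2 / Z ^ 3 := by
  have hP0 : -1 ≤ Z - 1 := by linarith
  have hP1 : Z - 1 ≤ 2 := by linarith
  have v1 := V1 (Z - 1) hP0 hP1
  have v2 := V2 (Z - 1) hP0 hP1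
  have v3 := V3 (Z - 1) hP0 hP1
  have e1 : 1 + (Z - 1) = Z := by ring
  rw [e1] at v1 v2 v3
  set A := 1 - Z * l1 (Z - 1) with hA
  set B' := 1 - cc (Z - 1) * Z ^ 3 with hB'
  set C' := 1 - Z ^ 2 * l2 (Z - 1) with hC'
  set θ := N / Z ^ 2 with hθ
  have hZ2 : 0 < Z ^ 2 := by positivity
  have hθ0 : 0 ≤ θ := by positivity
  have hθ1 : θ ≤ 1 := by
    rw [hθ, div_le_one hZ2]
    exact hN
  have h1 : 0 ≤ 17 / 5 * A - 2 * θ * B' := by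
    have := mul_nonneg (sub_nonneg.2 hθ1) v1
    have := mul_nonneg hθ0 v2
    nlinarith
  have e : (17 / 5 * N / Z - Z + g / Z ^ 2 - 2 * N ^ 2 / Z ^ 3) -
      (17 / 5 * N * l1 (Z - 1) - Z - 2 * N ^ 2 * cc (Z - 1) + g * l2 (Z - 1)) =
      N / Z * (17 / 5 * A - 2 * θ * B') + g * C' / Z ^ 2 := by
    rw [hA, hB', hC', hθ]
    field_simp
    ring
  have h2 : 0 ≤ N / Z * (17 / 5 * A - 2 * θ * B') + g * C' / Z ^ 2 := by
    have := mul_nonneg hg v3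
    positivity
  linarith

lemma K_sum {f : (Fin 3 → ℝ) → ℝ} {p y : Fin 3 → ℝ} :
    K f p y = (p 0 * y 0 + p 1 * y 1 + p 2 * y 2) * f (sp p y) := by
  unfold K
  rw [Fin.sum_univ_three]

lemma sp_eq {p y : Fin 3 → ℝ} (i : Fin 3) :
    sp p y i = p i * y i / (p 0 * y 0 + p 1 * y 1 + p 2 * y 2) := by
  unfold sp
  rw [Fin.sum_univ_three]

lemma three_K_Xi {p y : Fin 3 → ℝ} (hS : p 0 * y 0 + p 1 * y 1 + p 2 * y 2 ≠ 0) :
    3 * K XiQ p y =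
      17 / 5 * Nf (p 0) (p 1) (p 2) (y 0) (y 1) (y 2) / Zf (p 0) (p 1) (p 2) (y 0) (y 1) (y 2)
        - Zf (p 0) (p 1) (p 2) (y 0) (y 1) (y 2)
        + 729 * (p 0 * y 0 * (p 1 * y 1) * (p 2 * y 2)) /
            Zf (p 0) (p 1) (p 2) (y 0) (y 1) (y 2) ^ 2
        - 2 * Nf (p 0) (p 1) (p 2) (y 0) (y 1) (y 2) ^ 2 /
            Zf (p 0) (p 1) (p 2) (y 0) (y 1) (y 2) ^ 3 := by
  rw [K_sum]
  have h0 := sp_eq (p := p) (y := y) 0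
  have h1 := sp_eq (p := p) (y := y) 1
  have h2 := sp_eq (p := p) (y := y) 2
  simp only [XiQ, tt, rr, GG, e2v, h0, h1, h2, Nf, Zf]
  generalize p 0 * y 0 = X0 at *
  generalize p 1 * y 1 = X1 at *
  generalize p 2 * y 2 = X2 at *
  field_simp
  ring

lemma three_K_A {p y : Fin 3 → ℝ} (hS : p 0 * y 0 + p 1 * y 1 + p 2 * y 2 ≠ 0) :
    3 * K (A 3) p y =
      2 * (Nf (p 0) (p 1) (p 2) (y 0) (y 1) (y 2) / Zf (p 0) (p 1) (p 2) (y 0) (y 1) (y 2)) := by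
  rw [K_sum]
  have h0 := sp_eq (p := p) (y := y) 0
  have h1 := sp_eq (p := p) (y := y) 1
  have h2 := sp_eq (p := p) (y := y) 2
  simp only [A, Fin.sum_univ_three, h0, h1, h2, Nf, Zf]
  push_cast
  generalize p 0 * y 0 = X0 at *
  generalize p 1 * y 1 = X1 at *
  generalize p 2 * y 2 = X2 at *
  field_simp
  ring

/-- basic facts about `X_i = p_i y_i`. -/
lemma Z_N_facts {p y : Fin 3 → ℝ} (hp : p ∈ Sx 3) (hy : y ∈ Sx 3) :
    0 ≤ Zf (p 0) (p 1) (p 2) (y 0) (y 1) (y 2) ∧ Zf (p 0) (p 1) (p 2) (y 0) (y 1) (y 2) ≤ 3 ∧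
      0 ≤ Nf (p 0) (p 1) (p 2) (y 0) (y 1) (y 2) ∧
      Nf (p 0) (p 1) (p 2) (y 0) (y 1) (y 2) ≤ Zf (p 0) (p 1) (p 2) (y 0) (y 1) (y 2) ^ 2 := by
  obtain ⟨p0, p1, p2, hps⟩ := sx3 hp
  obtain ⟨y0, y1, y2, hys⟩ := sx3 hy
  have hy0 : y 0 ≤ 1 := by linarith
  have hy1 : y 1 ≤ 1 := by linarith
  have hy2 : y 2 ≤ 1 := by linarith
  have X0 : 0 ≤ p 0 * y 0 := mul_nonneg p0 y0
  have X1 : 0 ≤ p 1 * y 1 := mul_nonneg p1 y1
  have X2 : 0 ≤ p 2 * y 2 := mul_nonneg p2 y2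
  refine ⟨?_, ?_, ?_, ?_⟩
  · unfold Zf; positivity
  · unfold Zf
    have := mul_le_mul_of_nonneg_left hy0 p0
    have := mul_le_mul_of_nonneg_left hy1 p1
    have := mul_le_mul_of_nonneg_left hy2 p2
    nlinarith
  · unfold Nf Zf
    generalize p 0 * y 0 = a at *
    generalize p 1 * y 1 = b at *
    generalize p 2 * y 2 = c at *
    nlinarith [sq_nonneg (a - b), sq_nonneg (b - c), sq_nonneg (c - a)]
  · unfold Nf
    have h1 := mul_nonneg X0 X1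
    have h2 := mul_nonneg X1 X2
    have h3 := mul_nonneg X2 X0
    nlinarith

lemma Wf_le_K {p y : Fin 3 → ℝ} (hp : p ∈ Sx 3) (hy : y ∈ Sx 3) :
    Wf (p 0) (p 1) (p 2) (y 0) (y 1) (y 2) ≤ 3 * K XiQ p y := by
  obtain ⟨p0, p1, p2, hps⟩ := sx3 hp
  obtain ⟨y0, y1, y2, hys⟩ := sx3 hy
  obtain ⟨hZ0, hZ3, hN0, hN⟩ := Z_N_facts hp hy
  have X0 : 0 ≤ p 0 * y 0 := mul_nonneg p0 y0
  have X1 : 0 ≤ p 1 * y 1 := mul_nonneg p1 y1
  have X2 : 0 ≤ p 2 * y 2 := mul_nonneg p2 y2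
  by_cases hS : p 0 * y 0 + p 1 * y 1 + p 2 * y 2 = 0
  · have a0 : p 0 * y 0 = 0 := by linarith
    have a1 : p 1 * y 1 = 0 := by linarith
    have a2 : p 2 * y 2 = 0 := by linarith
    rw [K_sum, hS]
    simp only [Wf, Nf, Zf, a0, a1, a2]
    norm_num
  · have hZpos : 0 < Zf (p 0) (p 1) (p 2) (y 0) (y 1) (y 2) := by
      have : 0 < p 0 * y 0 + p 1 * y 1 + p 2 * y 2 :=
        lt_of_le_of_ne (by positivity) (Ne.symm hS)
      unfold Zf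
      linarith
    rw [three_K_Xi hS]
    have hg : 0 ≤ 729 * (p 0 * y 0 * (p 1 * y 1) * (p 2 * y 2)) := by positivity
    have := key_W _ _ _ hZpos hZ3 hN0 hN hg
    unfold Wf
    linarith

lemma K_A_le {p y : Fin 3 → ℝ} (hp : p ∈ Sx 3) (hy : y ∈ Sx 3) :
    3 * K (A 3) p y ≤ 2 * W1f (p 0) (p 1) (p 2) (y 0) (y 1) (y 2) := by
  obtain ⟨p0, p1, p2, hps⟩ := sx3 hp
  obtain ⟨y0, y1, y2, hys⟩ := sx3 hy
  obtain ⟨hZ0, hZ3, hN0, hN⟩ := Z_N_facts hp hy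
  have X0 : 0 ≤ p 0 * y 0 := mul_nonneg p0 y0
  have X1 : 0 ≤ p 1 * y 1 := mul_nonneg p1 y1
  have X2 : 0 ≤ p 2 * y 2 := mul_nonneg p2 y2
  by_cases hS : p 0 * y 0 + p 1 * y 1 + p 2 * y 2 = 0
  · have a0 : p 0 * y 0 = 0 := by linarith
    have a1 : p 1 * y 1 = 0 := by linarith
    have a2 : p 2 * y 2 = 0 := by linarith
    rw [K_sum, hS]
    simp only [W1f, Nf, Zf, a0, a1, a2]
    norm_num
  · have hZpos : 0 < Zf (p 0) (p 1) (p 2) (y 0) (y 1) (y 2) := by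
      have : 0 < p 0 * y 0 + p 1 * y 1 + p 2 * y 2 :=
        lt_of_le_of_ne (by positivity) (Ne.symm hS)
      unfold Zf
      linarith
    rw [three_K_A hS]
    unfold W1f
    set Z := Zf (p 0) (p 1) (p 2) (y 0) (y 1) (y 2)
    set N := Nf (p 0) (p 1) (p 2) (y 0) (y 1) (y 2)
    have v4 := V4 (Z - 1) (by linarith) (by linarith)
    have e1 : 1 + (Z - 1) = Z := by ring
    rw [e1] at v4
    have : Z - (Z ^ 2 - N) * ell (Z - 1) - N / Z = (Z ^ 2 - N) * (1 - Z * ell (Z - 1)) / Z := by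
      field_simp
      ring
    have h2 : 0 ≤ (Z ^ 2 - N) * (1 - Z * ell (Z - 1)) / Z :=
      div_nonneg (mul_nonneg (by linarith) v4) hZpos.le
    linarith

/-! ### the sum over permutations -/

lemma sum_perm3 (F : ℝ → ℝ → ℝ → ℝ) (r : Fin 3 → ℝ) :
    ∑ π : Equiv.Perm (Fin 3), F (r (π 0)) (r (π 1)) (r (π 2)) = perm6 F (r 0) (r 1) (r 2) := by
  have hu : (Finset.univ : Finset (Equiv.Perm (Fin 3))) =
      {1, c[0, 1, 2], c[0, 2, 1], Equiv.swap 1 2, Equiv.swap 0 2, Equiv.swap 0 1} := by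
    decide
  rw [hu]
  rw [Finset.sum_insert (by decide), Finset.sum_insert (by decide), Finset.sum_insert (by decide),
    Finset.sum_insert (by decide), Finset.sum_insert (by decide), Finset.sum_singleton]
  have a1 : (c[0, 1, 2] : Equiv.Perm (Fin 3)) 0 = 1 := by decide
  have a2 : (c[0, 1, 2] : Equiv.Perm (Fin 3)) 1 = 2 := by decide
  have a3 : (c[0, 1, 2] : Equiv.Perm (Fin 3)) 2 = 0 := by decide
  have b1 : (c[0, 2, 1] : Equiv.Perm (Fin 3)) 0 = 2 := by decide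
  have b2 : (c[0, 2, 1] : Equiv.Perm (Fin 3)) 1 = 0 := by decide
  have b3 : (c[0, 2, 1] : Equiv.Perm (Fin 3)) 2 = 1 := by decide
  have s1 : (Equiv.swap 1 2 : Equiv.Perm (Fin 3)) 0 = 0 := by decide
  have s2 : (Equiv.swap 1 2 : Equiv.Perm (Fin 3)) 1 = 2 := by decide
  have s3 : (Equiv.swap 1 2 : Equiv.Perm (Fin 3)) 2 = 1 := by decide
  have t1 : (Equiv.swap 0 2 : Equiv.Perm (Fin 3)) 0 = 2 := by decide
  have t2 : (Equiv.swap 0 2 : Equiv.Perm (Fin 3)) 1 = 1 := by decide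
  have t3 : (Equiv.swap 0 2 : Equiv.Perm (Fin 3)) 2 = 0 := by decide
  have u1 : (Equiv.swap 0 1 : Equiv.Perm (Fin 3)) 0 = 1 := by decide
  have u2 : (Equiv.swap 0 1 : Equiv.Perm (Fin 3)) 1 = 0 := by decide
  have u3 : (Equiv.swap 0 1 : Equiv.Perm (Fin 3)) 2 = 2 := by decide
  simp only [a1, a2, a3, b1, b2, b3, s1, s2, s3, t1, t2, t3, u1, u2, u3, Equiv.Perm.coe_one, id,
    perm6]
  ring

lemma card_perm3 : ((Fintype.card (Equiv.Perm (Fin 3)) : ℕ) : ℝ) = 6 := by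
  rw [Fintype.card_perm, Fintype.card_fin]
  norm_num [Nat.factorial]

/-- the lower bound of the kernel `B Xi` by a sum of minorants -/
lemma B_Xi_ge {p r : Fin 3 → ℝ} (hp : p ∈ Sx 3) (hr : r ∈ Sx 3) :
    perm6 (Wf (p 0) (p 1) (p 2)) (r 0) (r 1) (r 2) / 6 ≤ B XiQ p r := by
  unfold B
  rw [card_perm3, ← sum_perm3]
  have h : ∑ π : Equiv.Perm (Fin 3), Wf (p 0) (p 1) (p 2) (r (π 0)) (r (π 1)) (r (π 2)) ≤
      ∑ π : Equiv.Perm (Fin 3), ((3 : ℕ) : ℝ) * K XiQ p (rel π r) := by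
    refine Finset.sum_le_sum fun π _ => ?_
    have := Wf_le_K hp (rel_mem π hr)
    simpa [rel] using this
  have h6 : (0 : ℝ) < 6 := by norm_num
  rw [div_eq_inv_mul]
  exact mul_le_mul_of_nonneg_left h (inv_nonneg.2 h6.le)

/-- the upper bound of the kernel `B A` by a sum of majorants -/
lemma B_A_le {p r : Fin 3 → ℝ} (hp : p ∈ Sx 3) (hr : r ∈ Sx 3) :
    B (A 3) p r ≤ 2 * perm6 (W1f (p 0) (p 1) (p 2)) (r 0) (r 1) (r 2) / 6 := by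
  unfold B
  rw [card_perm3, ← sum_perm3]
  have h : ∑ π : Equiv.Perm (Fin 3), ((3 : ℕ) : ℝ) * K (A 3) p (rel π r) ≤
      ∑ π : Equiv.Perm (Fin 3), 2 * W1f (p 0) (p 1) (p 2) (r (π 0)) (r (π 1)) (r (π 2)) := by
    refine Finset.sum_le_sum fun π _ => ?_
    have := K_A_le hp (rel_mem π hr)
    simpa [rel] using this
  have e2 : ∑ π : Equiv.Perm (Fin 3), 2 * W1f (p 0) (p 1) (p 2) (r (π 0)) (r (π 1)) (r (π 2)) =
      2 * ∑ π : Equiv.Perm (Fin 3), W1f (p 0) (p 1) (p 2) (r (π 0)) (r (π 1)) (r (π 2)) := by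
    rw [Finset.mul_sum]
  rw [e2] at h
  have h6 : (0 : ℝ) < 6 := by norm_num
  rw [div_eq_inv_mul]
  exact mul_le_mul_of_nonneg_left h (inv_nonneg.2 h6.le)

end Crest.Agent.PottsTree.CertQ3

end
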