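import Crest.Agent.Lib.PottsTree.CertQ3Defs

namespace Crest.Agent.PottsTree.CertQ3

theorem mom_mNN4 (u v u' v' : ℝ) :
    perm6 (fun b0 b1 b2 => Nf (xa u v) (xb u v) (xc u v) b0 b1 b2 ^ 2 * (Zf (xa u v) (xb u v) (xc u v) b0 b1 b2 - 1) ^ 4) (xa u' v') (xb u' v') (xc u' v') =
      6 * mNN4 (rU u v) (tU u v) (rU u' v') (tU u' v') := by
  simp only [perm6, Nf, Zf, xa, xb, xc, mNN4, rU, tU]
  ring

end Crest.Agent.PottsTree.CertQ3
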