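import Crest.Agent.Lib.PottsTree.Tail48B
import Crest.Agent.Lib.PottsTree.CertQ3PairA
import Crest.Agent.Lib.PottsTree.CertQ3PairD
import Crest.Agent.Lib.PottsTree.CertQ3PairE

/-! The three pair bounds in the form wanted by the tail `T48`. -/

noncomputable section

namespace Crest.Agent.PottsTree.CertQ3.T48

open Crest.Agent.PottsTree

theorem pair48 : Pair48 where
  P1 := fun p hp r hr => by
    have h := pair_r_le hp hr
    have h1 := rr_nonneg hp
    have h2 := rr_nonneg hr
    have h3 := mul_nonneg h1 h2
    simp only [r_le_T] at h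
    linarith
  P2 := fun p hp r hr => by
    have h := pair_P2 hp hr
    simp only [P2_T] at h
    linarith
  P3 := fun p hp r hr => by
    have h : B ss p r ≤ rr p ^ 2 + rr r ^ 2 + P3_T (rr p) (tt p) (rr r) (tt r) := pair_P3 hp hr
    simp only [P3_T] at h
    simp only [ss]
    linarith

end Crest.Agent.PottsTree.CertQ3.T48

end
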