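import Crest.Agent.Lib.PottsTree.CertQ3Rec

/-! More moments by the degree-six recursion. -/

set_option linter.unusedSimpArgs false
set_option linter.unusedVariables false

noncomputable section

namespace Crest.Agent.PottsTree.CertQ3

def mP9 (r t r' t' : ℝ) : ℝ := rec6poly (mP3 r t r' t') (mP4 r t r' t') (mP5 r t r' t') (mP6 r t r' t') (mP7 r t r' t') r t r' t'
def mP10 (r t r' t' : ℝ) : ℝ := rec6poly (mP4 r t r' t') (mP5 r t r' t') (mP6 r t r' t') (mP7 r t r' t') (mP8 r t r' t') r t r' t'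
def mP11 (r t r' t' : ℝ) : ℝ := rec6poly (mP5 r t r' t') (mP6 r t r' t') (mP7 r t r' t') (mP8 r t r' t') (mP9 r t r' t') r t r' t'
def mP12 (r t r' t' : ℝ) : ℝ := rec6poly (mP6 r t r' t') (mP7 r t r' t') (mP8 r t r' t') (mP9 r t r' t') (mP10 r t r' t') r t r' t'
def mN7 (r t r' t' : ℝ) : ℝ := rec6poly (mN1 r t r' t') (mN2 r t r' t') (mN3 r t r' t') (mN4 r t r' t') (mN5 r t r' t') r t r' t'
def mN8 (r t r' t' : ℝ) : ℝ := rec6poly (mN2 r t r' t') (mN3 r t r' t') (mN4 r t r' t') (mN5 r t r' t') (mN6 r t r' t') r t r' t'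
def mN9 (r t r' t' : ℝ) : ℝ := rec6poly (mN3 r t r' t') (mN4 r t r' t') (mN5 r t r' t') (mN6 r t r' t') (mN7 r t r' t') r t r' t'
def mN10 (r t r' t' : ℝ) : ℝ := rec6poly (mN4 r t r' t') (mN5 r t r' t') (mN6 r t r' t') (mN7 r t r' t') (mN8 r t r' t') r t r' t'
def mNN9 (r t r' t' : ℝ) : ℝ := rec6poly (mNN3 r t r' t') (mNN4 r t r' t') (mNN5 r t r' t') (mNN6 r t r' t') (mNN7 r t r' t') r t r' t'
def mNN10 (r t r' t' : ℝ) : ℝ := rec6poly (mNN4 r t r' t') (mNN5 r t r' t') (mNN6 r t r' t') (mNN7 r t r' t') (mNN8 r t r' t') r t r' t'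

theorem mom_mP9 (u v u' v' : ℝ) :
    perm6 (fun b0 b1 b2 => (Zf (xa u v) (xb u v) (xc u v) b0 b1 b2 - 1) ^ 9) (xa u' v') (xb u' v') (xc u' v') =
      6 * mP9 (rU u v) (tU u v) (rU u' v') (tU u' v') := by
  have h := rec6 (fun _ _ _ => 1) 3 u v u' v'
  simp only [one_mul, Nat.reduceAdd] at h
  rw [h, mom_mP7, mom_mP6, mom_mP5, mom_mP4, mom_mP3]
  simp only [mP9, rec6poly]
  ring

theorem mom_mP10 (u v u' v' : ℝ) :
    perm6 (fun b0 b1 b2 => (Zf (xa u v) (xb u v) (xc u v) b0 b1 b2 - 1) ^ 10) (xa u' v') (xb u' v') (xc u' v') =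
      6 * mP10 (rU u v) (tU u v) (rU u' v') (tU u' v') := by
  have h := rec6 (fun _ _ _ => 1) 4 u v u' v'
  simp only [one_mul, Nat.reduceAdd] at h
  rw [h, mom_mP8, mom_mP7, mom_mP6, mom_mP5, mom_mP4]
  simp only [mP10, rec6poly]
  ring

theorem mom_mP11 (u v u' v' : ℝ) :
    perm6 (fun b0 b1 b2 => (Zf (xa u v) (xb u v) (xc u v) b0 b1 b2 - 1) ^ 11) (xa u' v') (xb u' v') (xc u' v') =
      6 * mP11 (rU u v) (tU u v) (rU u' v') (tU u' v') := by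
  have h := rec6 (fun _ _ _ => 1) 5 u v u' v'
  simp only [one_mul, Nat.reduceAdd] at h
  rw [h, mom_mP9, mom_mP8, mom_mP7, mom_mP6, mom_mP5]
  simp only [mP11, rec6poly]
  ring

theorem mom_mP12 (u v u' v' : ℝ) :
    perm6 (fun b0 b1 b2 => (Zf (xa u v) (xb u v) (xc u v) b0 b1 b2 - 1) ^ 12) (xa u' v') (xb u' v') (xc u' v') =
      6 * mP12 (rU u v) (tU u v) (rU u' v') (tU u' v') := by
  have h := rec6 (fun _ _ _ => 1) 6 u v u' v'
  simp only [one_mul, Nat.reduceAdd] at h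
  rw [h, mom_mP10, mom_mP9, mom_mP8, mom_mP7, mom_mP6]
  simp only [mP12, rec6poly]
  ring

theorem mom_mN7 (u v u' v' : ℝ) :
    perm6 (fun b0 b1 b2 => Nf (xa u v) (xb u v) (xc u v) b0 b1 b2 * (Zf (xa u v) (xb u v) (xc u v) b0 b1 b2 - 1) ^ 7) (xa u' v') (xb u' v') (xc u' v') =
      6 * mN7 (rU u v) (tU u v) (rU u' v') (tU u' v') := by
  have h := rec6 (fun b0 b1 b2 => Nf (xa u v) (xb u v) (xc u v) b0 b1 b2) 1 u v u' v'
  simp only [Nat.reduceAdd] at h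
  rw [h, mom_mN5, mom_mN4, mom_mN3, mom_mN2, mom_mN1]
  simp only [mN7, rec6poly]
  ring

theorem mom_mN8 (u v u' v' : ℝ) :
    perm6 (fun b0 b1 b2 => Nf (xa u v) (xb u v) (xc u v) b0 b1 b2 * (Zf (xa u v) (xb u v) (xc u v) b0 b1 b2 - 1) ^ 8) (xa u' v') (xb u' v') (xc u' v') =
      6 * mN8 (rU u v) (tU u v) (rU u' v') (tU u' v') := by
  have h := rec6 (fun b0 b1 b2 => Nf (xa u v) (xb u v) (xc u v) b0 b1 b2) 2 u v u' v'
  simp only [Nat.reduceAdd] at h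
  rw [h, mom_mN6, mom_mN5, mom_mN4, mom_mN3, mom_mN2]
  simp only [mN8, rec6poly]
  ring

theorem mom_mN9 (u v u' v' : ℝ) :
    perm6 (fun b0 b1 b2 => Nf (xa u v) (xb u v) (xc u v) b0 b1 b2 * (Zf (xa u v) (xb u v) (xc u v) b0 b1 b2 - 1) ^ 9) (xa u' v') (xb u' v') (xc u' v') =
      6 * mN9 (rU u v) (tU u v) (rU u' v') (tU u' v') := by
  have h := rec6 (fun b0 b1 b2 => Nf (xa u v) (xb u v) (xc u v) b0 b1 b2) 3 u v u' v'
  simp only [Nat.reduceAdd] at h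
  rw [h, mom_mN7, mom_mN6, mom_mN5, mom_mN4, mom_mN3]
  simp only [mN9, rec6poly]
  ring

theorem mom_mN10 (u v u' v' : ℝ) :
    perm6 (fun b0 b1 b2 => Nf (xa u v) (xb u v) (xc u v) b0 b1 b2 * (Zf (xa u v) (xb u v) (xc u v) b0 b1 b2 - 1) ^ 10) (xa u' v') (xb u' v') (xc u' v') =
      6 * mN10 (rU u v) (tU u v) (rU u' v') (tU u' v') := by
  have h := rec6 (fun b0 b1 b2 => Nf (xa u v) (xb u v) (xc u v) b0 b1 b2) 4 u v u' v'
  simp only [Nat.reduceAdd] at h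
  rw [h, mom_mN8, mom_mN7, mom_mN6, mom_mN5, mom_mN4]
  simp only [mN10, rec6poly]
  ring

theorem mom_mNN9 (u v u' v' : ℝ) :
    perm6 (fun b0 b1 b2 => Nf (xa u v) (xb u v) (xc u v) b0 b1 b2 ^ 2 * (Zf (xa u v) (xb u v) (xc u v) b0 b1 b2 - 1) ^ 9) (xa u' v') (xb u' v') (xc u' v') =
      6 * mNN9 (rU u v) (tU u v) (rU u' v') (tU u' v') := by
  have h := rec6 (fun b0 b1 b2 => Nf (xa u v) (xb u v) (xc u v) b0 b1 b2 ^ 2) 3 u v u' v'
  simp only [Nat.reduceAdd] at h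
  rw [h, mom_mNN7, mom_mNN6, mom_mNN5, mom_mNN4, mom_mNN3]
  simp only [mNN9, rec6poly]
  ring

theorem mom_mNN10 (u v u' v' : ℝ) :
    perm6 (fun b0 b1 b2 => Nf (xa u v) (xb u v) (xc u v) b0 b1 b2 ^ 2 * (Zf (xa u v) (xb u v) (xc u v) b0 b1 b2 - 1) ^ 10) (xa u' v') (xb u' v') (xc u' v') =
      6 * mNN10 (rU u v) (tU u v) (rU u' v') (tU u' v') := by
  have h := rec6 (fun b0 b1 b2 => Nf (xa u v) (xb u v) (xc u v) b0 b1 b2 ^ 2) 4 u v u' v'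
  simp only [Nat.reduceAdd] at h
  rw [h, mom_mNN8, mom_mNN7, mom_mNN6, mom_mNN5, mom_mNN4]
  simp only [mNN10, rec6poly]
  ring

end Crest.Agent.PottsTree.CertQ3

end
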