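import Crest.Agent.Lib.PottsTree.CertQ3
import Crest.Agent.Lib.PottsTree.CertQ3Rec2

/-!
# Potts tree, `q = 3`: per-permutation bounds for `r`, `t`, `r²`, for pair bounds of the star kernel

All the bounds are stated for arbitrary one-dimensional functions given with their validity on
`[-1, 2]`.
-/

set_option linter.unusedSimpArgs false
set_option linter.unusedVariables false

noncomputable section

namespace Crest.Agent.PottsTree.CertQ3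

open Finset
open Crest.Agent.PottsTree

/-- `g = 729 X₀ X₁ X₂` -/
def Gf (a0 a1 a2 b0 b1 b2 : ℝ) : ℝ := 729 * (a0 * b0 * (a1 * b1) * (a2 * b2))

lemma three_K_rr {p y : Fin 3 → ℝ} (hS : p 0 * y 0 + p 1 * y 1 + p 2 * y 2 ≠ 0) :
    3 * K rr p y =
      Nf (p 0) (p 1) (p 2) (y 0) (y 1) (y 2) / Zf (p 0) (p 1) (p 2) (y 0) (y 1) (y 2) := by
  rw [K_sum]
  have h0 := sp_eq (p := p) (y := y) 0
  have h1 := sp_eq (p := p) (y := y) 1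
  have h2 := sp_eq (p := p) (y := y) 2
  simp only [rr, e2v, h0, h1, h2, Nf, Zf]
  generalize p 0 * y 0 = X0 at *
  generalize p 1 * y 1 = X1 at *
  generalize p 2 * y 2 = X2 at *
  field_simp
  ring

lemma three_K_tt {p y : Fin 3 → ℝ} (hS : p 0 * y 0 + p 1 * y 1 + p 2 * y 2 ≠ 0) :
    3 * K tt p y =
      (Gf (p 0) (p 1) (p 2) (y 0) (y 1) (y 2) / Zf (p 0) (p 1) (p 2) (y 0) (y 1) (y 2) ^ 2
        - Zf (p 0) (p 1) (p 2) (y 0) (y 1) (y 2)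
        + 3 * (Nf (p 0) (p 1) (p 2) (y 0) (y 1) (y 2) /
            Zf (p 0) (p 1) (p 2) (y 0) (y 1) (y 2))) / 2 := by
  rw [K_sum]
  have h0 := sp_eq (p := p) (y := y) 0
  have h1 := sp_eq (p := p) (y := y) 1
  have h2 := sp_eq (p := p) (y := y) 2
  simp only [tt, GG, rr, e2v, h0, h1, h2, Nf, Zf, Gf]
  generalize p 0 * y 0 = X0 at *
  generalize p 1 * y 1 = X1 at *
  generalize p 2 * y 2 = X2 at *
  field_simp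
  ring

/-- the function `r²` -/
def rr2 (p : Fin 3 → ℝ) : ℝ := rr p ^ 2

lemma three_K_rr2 {p y : Fin 3 → ℝ} (hS : p 0 * y 0 + p 1 * y 1 + p 2 * y 2 ≠ 0) :
    3 * K rr2 p y =
      Nf (p 0) (p 1) (p 2) (y 0) (y 1) (y 2) ^ 2 / Zf (p 0) (p 1) (p 2) (y 0) (y 1) (y 2) ^ 3 := by
  rw [K_sum]
  have h0 := sp_eq (p := p) (y := y) 0
  have h1 := sp_eq (p := p) (y := y) 1
  have h2 := sp_eq (p := p) (y := y) 2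
  simp only [rr2, rr, e2v, h0, h1, h2, Nf, Zf]
  generalize p 0 * y 0 = X0 at *
  generalize p 1 * y 1 = X1 at *
  generalize p 2 * y 2 = X2 at *
  field_simp
  ring

lemma Gf_facts {p y : Fin 3 → ℝ} (hp : p ∈ Sx 3) (hy : y ∈ Sx 3) :
    0 ≤ Gf (p 0) (p 1) (p 2) (y 0) (y 1) (y 2) ∧
      Gf (p 0) (p 1) (p 2) (y 0) (y 1) (y 2) ≤ Zf (p 0) (p 1) (p 2) (y 0) (y 1) (y 2) ^ 3 := by
  obtain ⟨p0, p1, p2, hps⟩ := sx3 hp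
  obtain ⟨y0, y1, y2, hys⟩ := sx3 hy
  have X0 : 0 ≤ p 0 * y 0 := mul_nonneg p0 y0
  have X1 : 0 ≤ p 1 * y 1 := mul_nonneg p1 y1
  have X2 : 0 ≤ p 2 * y 2 := mul_nonneg p2 y2
  unfold Gf Zf
  generalize p 0 * y 0 = a at *
  generalize p 1 * y 1 = b at *
  generalize p 2 * y 2 = c at *
  constructor
  · positivity
  · nlinarith [mul_nonneg X0 (sq_nonneg (b - c)), mul_nonneg X1 (sq_nonneg (a - c)),
      mul_nonneg X2 (sq_nonneg (a - b)), mul_nonneg X0 (sq_nonneg (a - b)),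
      mul_nonneg X0 (sq_nonneg (a - c)), mul_nonneg X1 (sq_nonneg (b - a)),
      mul_nonneg X1 (sq_nonneg (b - c)), mul_nonneg X2 (sq_nonneg (c - a)),
      mul_nonneg X2 (sq_nonneg (c - b)), mul_nonneg (mul_nonneg X0 X1) X2]

/-- all the data vanish when the inner product vanishes -/
lemma zero_case {p y : Fin 3 → ℝ} (hp : p ∈ Sx 3) (hy : y ∈ Sx 3)
    (hS : p 0 * y 0 + p 1 * y 1 + p 2 * y 2 = 0) :
    Zf (p 0) (p 1) (p 2) (y 0) (y 1) (y 2) = 0 ∧ Nf (p 0) (p 1) (p 2) (y 0) (y 1) (y 2) = 0 ∧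
      Gf (p 0) (p 1) (p 2) (y 0) (y 1) (y 2) = 0 := by
  obtain ⟨p0, p1, p2, hps⟩ := sx3 hp
  obtain ⟨y0, y1, y2, hys⟩ := sx3 hy
  have X0 : 0 ≤ p 0 * y 0 := mul_nonneg p0 y0
  have X1 : 0 ≤ p 1 * y 1 := mul_nonneg p1 y1
  have X2 : 0 ≤ p 2 * y 2 := mul_nonneg p2 y2
  have a0 : p 0 * y 0 = 0 := by linarith
  have a1 : p 1 * y 1 = 0 := by linarith
  have a2 : p 2 * y 2 = 0 := by linarith
  simp only [Nf, Zf, Gf, a0, a1, a2]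
  norm_num

lemma Z_pos {p y : Fin 3 → ℝ} (hp : p ∈ Sx 3) (hy : y ∈ Sx 3)
    (hS : p 0 * y 0 + p 1 * y 1 + p 2 * y 2 ≠ 0) :
    0 < Zf (p 0) (p 1) (p 2) (y 0) (y 1) (y 2) := by
  obtain ⟨p0, p1, p2, hps⟩ := sx3 hp
  obtain ⟨y0, y1, y2, hys⟩ := sx3 hy
  have X0 : 0 ≤ p 0 * y 0 := mul_nonneg p0 y0
  have X1 : 0 ≤ p 1 * y 1 := mul_nonneg p1 y1
  have X2 : 0 ≤ p 2 * y 2 := mul_nonneg p2 y2
  have : 0 < p 0 * y 0 + p 1 * y 1 + p 2 * y 2 :=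
    lt_of_le_of_ne (by positivity) (Ne.symm hS)
  unfold Zf
  linarith

/-! ### abstract one-dimensional forms -/

lemma div_Z_ge (ℓ : ℝ → ℝ) {Z N : ℝ} (hZ : 0 < Z) (hN : 0 ≤ N) (h : 0 ≤ 1 - Z * ℓ (Z - 1)) :
    N * ℓ (Z - 1) ≤ N / Z := by
  have e : N / Z - N * ℓ (Z - 1) = N * (1 - Z * ℓ (Z - 1)) / Z := by
    field_simp
  have := div_nonneg (mul_nonneg hN h) hZ.le
  linarith

lemma div_Z_le (ℓ : ℝ → ℝ) {Z N : ℝ} (hZ : 0 < Z) (hN : N ≤ Z ^ 2) (h : 0 ≤ 1 - Z * ℓ (Z - 1)) :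
    N / Z ≤ Z - (Z ^ 2 - N) * ℓ (Z - 1) := by
  have e : Z - (Z ^ 2 - N) * ℓ (Z - 1) - N / Z = (Z ^ 2 - N) * (1 - Z * ℓ (Z - 1)) / Z := by
    field_simp
    ring
  have := div_nonneg (mul_nonneg (sub_nonneg.2 hN) h) hZ.le
  linarith

lemma g_div_ge (ℓ₂ : ℝ → ℝ) {Z g : ℝ} (hZ : 0 < Z) (hg : 0 ≤ g)
    (h : 0 ≤ 1 - Z ^ 2 * ℓ₂ (Z - 1)) : g * ℓ₂ (Z - 1) ≤ g / Z ^ 2 := by
  have e : g / Z ^ 2 - g * ℓ₂ (Z - 1) = g * (1 - Z ^ 2 * ℓ₂ (Z - 1)) / Z ^ 2 := by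
    field_simp
  have := div_nonneg (mul_nonneg hg h) (sq_nonneg Z)
  linarith

lemma g_div_le (μ ν : ℝ → ℝ) {Z g : ℝ} (hZ : 0 < Z) (hg : 0 ≤ g) (hg3 : g ≤ Z ^ 3)
    (h0 : 0 ≤ ν (Z - 1)) (h1 : Z - μ (Z - 1) * Z ^ 3 ≤ ν (Z - 1)) :
    g / Z ^ 2 ≤ g * μ (Z - 1) + ν (Z - 1) := by
  have hZ2 : 0 < Z ^ 2 := by positivity
  rw [div_le_iff₀ hZ2]
  by_cases hc : 0 ≤ 1 - μ (Z - 1) * Z ^ 2
  · have h2 : g * (1 - μ (Z - 1) * Z ^ 2) ≤ Z ^ 3 * (1 - μ (Z - 1) * Z ^ 2) :=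
      mul_le_mul_of_nonneg_right hg3 hc
    have h3 : (Z - μ (Z - 1) * Z ^ 3) * Z ^ 2 ≤ ν (Z - 1) * Z ^ 2 :=
      mul_le_mul_of_nonneg_right h1 hZ2.le
    nlinarith
  · push Not at hc
    have h2 : g * (1 - μ (Z - 1) * Z ^ 2) ≤ 0 := mul_nonpos_of_nonneg_of_nonpos hg hc.le
    have h3 : 0 ≤ ν (Z - 1) * Z ^ 2 := mul_nonneg h0 hZ2.le
    nlinarith

lemma N2_div_ge (c : ℝ → ℝ) {Z N : ℝ} (hZ : 0 < Z) (h : 0 ≤ 1 - c (Z - 1) * Z ^ 3) :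
    N ^ 2 * c (Z - 1) ≤ N ^ 2 / Z ^ 3 := by
  have e : N ^ 2 / Z ^ 3 - N ^ 2 * c (Z - 1) = N ^ 2 * (1 - c (Z - 1) * Z ^ 3) / Z ^ 3 := by
    field_simp
  have := div_nonneg (mul_nonneg (sq_nonneg N) h) (by positivity : (0 : ℝ) ≤ Z ^ 3)
  linarith

lemma N2_div_le (c ν : ℝ → ℝ) {Z N : ℝ} (hZ : 0 < Z) (hN0 : 0 ≤ N) (hN : N ≤ Z ^ 2)
    (h0 : 0 ≤ ν (Z - 1)) (h1 : Z - c (Z - 1) * Z ^ 4 ≤ ν (Z - 1)) :
    N ^ 2 / Z ^ 3 ≤ N ^ 2 * c (Z - 1) + ν (Z - 1) := by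
  have hZ3 : 0 < Z ^ 3 := by positivity
  rw [div_le_iff₀ hZ3]
  by_cases hc : 0 ≤ 1 - c (Z - 1) * Z ^ 3
  · have hN2 : N ^ 2 ≤ Z ^ 4 := by nlinarith
    have h2 : N ^ 2 * (1 - c (Z - 1) * Z ^ 3) ≤ Z ^ 4 * (1 - c (Z - 1) * Z ^ 3) :=
      mul_le_mul_of_nonneg_right hN2 hc
    have h3 : (Z - c (Z - 1) * Z ^ 4) * Z ^ 3 ≤ ν (Z - 1) * Z ^ 3 :=
      mul_le_mul_of_nonneg_right h1 hZ3.le
    nlinarith
  · push Not at hc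
    have h2 : N ^ 2 * (1 - c (Z - 1) * Z ^ 3) ≤ 0 :=
      mul_nonpos_of_nonneg_of_nonpos (sq_nonneg N) hc.le
    have h3 : 0 ≤ ν (Z - 1) * Z ^ 3 := mul_nonneg h0 hZ3.le
    nlinarith

/-! ### per-permutation bounds -/

section perPerm

variable {p y : Fin 3 → ℝ}

local notation "ZZ" => Zf (p 0) (p 1) (p 2) (y 0) (y 1) (y 2)
local notation "NN" => Nf (p 0) (p 1) (p 2) (y 0) (y 1) (y 2)
local notation "GGG" => Gf (p 0) (p 1) (p 2) (y 0) (y 1) (y 2)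

lemma P_range (hp : p ∈ Sx 3) (hy : y ∈ Sx 3) : -1 ≤ ZZ - 1 ∧ ZZ - 1 ≤ 2 := by
  obtain ⟨hZ0, hZ3, -, -⟩ := Z_N_facts hp hy
  constructor <;> linarith

/-- validity hypotheses are of the form `∀ P, -1 ≤ P → P ≤ 2 → …` -/
lemma rr_ge (ℓ : ℝ → ℝ) (h : ∀ P : ℝ, -1 ≤ P → P ≤ 2 → 0 ≤ 1 - (1 + P) * ℓ P) (hp : p ∈ Sx 3)
    (hy : y ∈ Sx 3) : NN * ℓ (ZZ - 1) ≤ 3 * K rr p y := by
  obtain ⟨hZ0, hZ3, hN0, hN⟩ := Z_N_facts hp hy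
  obtain ⟨h1, h2⟩ := P_range hp hy
  by_cases hS : p 0 * y 0 + p 1 * y 1 + p 2 * y 2 = 0
  · obtain ⟨a, b, c⟩ := zero_case hp hy hS
    rw [K_sum, hS, b]
    simp
  · have hv := h _ h1 h2
    rw [show 1 + (ZZ - 1) = ZZ by ring] at hv
    rw [three_K_rr hS]
    exact div_Z_ge ℓ (Z_pos hp hy hS) hN0 hv

lemma rr_le (ℓ : ℝ → ℝ) (h : ∀ P : ℝ, -1 ≤ P → P ≤ 2 → 0 ≤ 1 - (1 + P) * ℓ P) (hp : p ∈ Sx 3)
    (hy : y ∈ Sx 3) : 3 * K rr p y ≤ ZZ - (ZZ ^ 2 - NN) * ℓ (ZZ - 1) := by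
  obtain ⟨hZ0, hZ3, hN0, hN⟩ := Z_N_facts hp hy
  obtain ⟨h1, h2⟩ := P_range hp hy
  by_cases hS : p 0 * y 0 + p 1 * y 1 + p 2 * y 2 = 0
  · obtain ⟨a, b, c⟩ := zero_case hp hy hS
    rw [K_sum, hS, a, b]
    simp
  · have hv := h _ h1 h2
    rw [show 1 + (ZZ - 1) = ZZ by ring] at hv
    rw [three_K_rr hS]
    exact div_Z_le ℓ (Z_pos hp hy hS) hN hv

lemma tt_ge (ℓ ℓ₂ : ℝ → ℝ) (h : ∀ P : ℝ, -1 ≤ P → P ≤ 2 → 0 ≤ 1 - (1 + P) * ℓ P)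
    (h₂ : ∀ P : ℝ, -1 ≤ P → P ≤ 2 → 0 ≤ 1 - (1 + P) ^ 2 * ℓ₂ P) (hp : p ∈ Sx 3) (hy : y ∈ Sx 3) :
    (GGG * ℓ₂ (ZZ - 1) - ZZ + 3 * (NN * ℓ (ZZ - 1))) / 2 ≤ 3 * K tt p y := by
  obtain ⟨hZ0, hZ3, hN0, hN⟩ := Z_N_facts hp hy
  obtain ⟨h1, h2⟩ := P_range hp hy
  obtain ⟨hg0, hg3⟩ := Gf_facts hp hy
  by_cases hS : p 0 * y 0 + p 1 * y 1 + p 2 * y 2 = 0
  · obtain ⟨a, b, c⟩ := zero_case hp hy hS
    rw [K_sum, hS, a, b, c]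
    simp
  · have hv := h _ h1 h2
    have hv2 := h₂ _ h1 h2
    rw [show 1 + (ZZ - 1) = ZZ by ring] at hv hv2
    rw [three_K_tt hS]
    have e1 := div_Z_ge ℓ (Z_pos hp hy hS) hN0 hv
    have e2 := g_div_ge ℓ₂ (Z_pos hp hy hS) hg0 hv2
    linarith

lemma tt_le (ℓ μ ν : ℝ → ℝ) (h : ∀ P : ℝ, -1 ≤ P → P ≤ 2 → 0 ≤ 1 - (1 + P) * ℓ P)
    (h0 : ∀ P : ℝ, -1 ≤ P → P ≤ 2 → 0 ≤ ν P)
    (h₁ : ∀ P : ℝ, -1 ≤ P → P ≤ 2 → (1 + P) - μ P * (1 + P) ^ 3 ≤ ν P) (hp : p ∈ Sx 3)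
    (hy : y ∈ Sx 3) :
    3 * K tt p y ≤ (GGG * μ (ZZ - 1) + ν (ZZ - 1) - ZZ +
      3 * (ZZ - (ZZ ^ 2 - NN) * ℓ (ZZ - 1))) / 2 := by
  obtain ⟨hZ0, hZ3, hN0, hN⟩ := Z_N_facts hp hy
  obtain ⟨h1, h2⟩ := P_range hp hy
  obtain ⟨hg0, hg3⟩ := Gf_facts hp hy
  by_cases hS : p 0 * y 0 + p 1 * y 1 + p 2 * y 2 = 0
  · obtain ⟨a, b, c⟩ := zero_case hp hy hS
    have hν := h0 _ h1 h2
    rw [a] at hν
    rw [K_sum, hS, a, b, c]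
    norm_num at hν ⊢
    linarith
  · have hv := h _ h1 h2
    have hν := h0 _ h1 h2
    have hν1 := h₁ _ h1 h2
    rw [show 1 + (ZZ - 1) = ZZ by ring] at hv hν1
    rw [three_K_tt hS]
    have e1 := div_Z_le ℓ (Z_pos hp hy hS) hN hv
    have e2 := g_div_le μ ν (Z_pos hp hy hS) hg0 hg3 hν hν1
    linarith

lemma rr2_ge (c : ℝ → ℝ) (h : ∀ P : ℝ, -1 ≤ P → P ≤ 2 → 0 ≤ 1 - c P * (1 + P) ^ 3)
    (hp : p ∈ Sx 3) (hy : y ∈ Sx 3) : NN ^ 2 * c (ZZ - 1) ≤ 3 * K rr2 p y := by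
  obtain ⟨h1, h2⟩ := P_range hp hy
  by_cases hS : p 0 * y 0 + p 1 * y 1 + p 2 * y 2 = 0
  · obtain ⟨a, b, d⟩ := zero_case hp hy hS
    rw [K_sum, hS, b]
    simp
  · have hv := h _ h1 h2
    rw [show 1 + (ZZ - 1) = ZZ by ring] at hv
    rw [three_K_rr2 hS]
    exact N2_div_ge c (Z_pos hp hy hS) hv

lemma rr2_le (c ν : ℝ → ℝ) (h0 : ∀ P : ℝ, -1 ≤ P → P ≤ 2 → 0 ≤ ν P)
    (h₁ : ∀ P : ℝ, -1 ≤ P → P ≤ 2 → (1 + P) - c P * (1 + P) ^ 4 ≤ ν P) (hp : p ∈ Sx 3)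
    (hy : y ∈ Sx 3) : 3 * K rr2 p y ≤ NN ^ 2 * c (ZZ - 1) + ν (ZZ - 1) := by
  obtain ⟨hZ0, hZ3, hN0, hN⟩ := Z_N_facts hp hy
  obtain ⟨h1, h2⟩ := P_range hp hy
  by_cases hS : p 0 * y 0 + p 1 * y 1 + p 2 * y 2 = 0
  · obtain ⟨a, b, d⟩ := zero_case hp hy hS
    have hν := h0 _ h1 h2
    rw [K_sum, hS, b]
    simpa using hν
  · have hν := h0 _ h1 h2
    have hν1 := h₁ _ h1 h2
    rw [show 1 + (ZZ - 1) = ZZ by ring] at hν1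
    rw [three_K_rr2 hS]
    exact N2_div_le c ν (Z_pos hp hy hS) hN0 hN hν hν1

end perPerm

/-- `J = (3/2) Z (Z² - N) - g/2 ≥ 0` -/
lemma J_nonneg {p y : Fin 3 → ℝ} (hp : p ∈ Sx 3) (hy : y ∈ Sx 3) :
    0 ≤ 3 / 2 * Zf (p 0) (p 1) (p 2) (y 0) (y 1) (y 2) *
        (Zf (p 0) (p 1) (p 2) (y 0) (y 1) (y 2) ^ 2 - Nf (p 0) (p 1) (p 2) (y 0) (y 1) (y 2)) -
      Gf (p 0) (p 1) (p 2) (y 0) (y 1) (y 2) / 2 := by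
  obtain ⟨p0, p1, p2, hps⟩ := sx3 hp
  obtain ⟨y0, y1, y2, hys⟩ := sx3 hy
  have X0 : 0 ≤ p 0 * y 0 := mul_nonneg p0 y0
  have X1 : 0 ≤ p 1 * y 1 := mul_nonneg p1 y1
  have X2 : 0 ≤ p 2 * y 2 := mul_nonneg p2 y2
  unfold Gf Nf Zf
  generalize p 0 * y 0 = a at *
  generalize p 1 * y 1 = b at *
  generalize p 2 * y 2 = c at *
  have e : 3 / 2 * (3 * (a + b + c)) * ((3 * (a + b + c)) ^ 2 -
        ((3 * (a + b + c)) ^ 2 - 27 * (a * b + b * c + c * a))) - 729 * (a * b * c) / 2 =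
      243 / 2 * (a ^ 2 * b + a ^ 2 * c + b ^ 2 * a + b ^ 2 * c + c ^ 2 * a + c ^ 2 * b) := by ring
  rw [e]
  positivity

lemma tt_le2 {p y : Fin 3 → ℝ} (ℓ₂ : ℝ → ℝ)
    (h₂ : ∀ P : ℝ, -1 ≤ P → P ≤ 2 → 0 ≤ 1 - (1 + P) ^ 2 * ℓ₂ P) (hp : p ∈ Sx 3) (hy : y ∈ Sx 3) :
    3 * K tt p y ≤ Zf (p 0) (p 1) (p 2) (y 0) (y 1) (y 2) -
      (3 / 2 * Zf (p 0) (p 1) (p 2) (y 0) (y 1) (y 2) *
        (Zf (p 0) (p 1) (p 2) (y 0) (y 1) (y 2) ^ 2 - Nf (p 0) (p 1) (p 2) (y 0) (y 1) (y 2)) -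
      Gf (p 0) (p 1) (p 2) (y 0) (y 1) (y 2) / 2) *
        ℓ₂ (Zf (p 0) (p 1) (p 2) (y 0) (y 1) (y 2) - 1) := by
  obtain ⟨h1, h2⟩ := P_range hp hy
  have hJ := J_nonneg hp hy
  by_cases hS : p 0 * y 0 + p 1 * y 1 + p 2 * y 2 = 0
  · obtain ⟨a, b, c⟩ := zero_case hp hy hS
    rw [K_sum, hS, a, b, c]
    simp
  · have hZ := Z_pos hp hy hS
    have hv2 := h₂ _ h1 h2
    rw [show 1 + (Zf (p 0) (p 1) (p 2) (y 0) (y 1) (y 2) - 1) =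
      Zf (p 0) (p 1) (p 2) (y 0) (y 1) (y 2) by ring] at hv2
    rw [three_K_tt hS]
    set Z := Zf (p 0) (p 1) (p 2) (y 0) (y 1) (y 2)
    set N := Nf (p 0) (p 1) (p 2) (y 0) (y 1) (y 2)
    set g := Gf (p 0) (p 1) (p 2) (y 0) (y 1) (y 2)
    have e : (Z - (3 / 2 * Z * (Z ^ 2 - N) - g / 2) * ℓ₂ (Z - 1)) -
        (g / Z ^ 2 - Z + 3 * (N / Z)) / 2 =
        (3 / 2 * Z * (Z ^ 2 - N) - g / 2) * (1 - Z ^ 2 * ℓ₂ (Z - 1)) / Z ^ 2 := by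
      field_simp
      ring
    have := div_nonneg (mul_nonneg hJ hv2) (sq_nonneg Z)
    linarith

lemma rr2_le2 {p y : Fin 3 → ℝ} (ℓ c : ℝ → ℝ)
    (h : ∀ P : ℝ, -1 ≤ P → P ≤ 2 → 0 ≤ 1 - (1 + P) * ℓ P)
    (hc : ∀ P : ℝ, -1 ≤ P → P ≤ 2 → 0 ≤ 1 - c P * (1 + P) ^ 3) (hp : p ∈ Sx 3) (hy : y ∈ Sx 3) :
    3 * K rr2 p y ≤ Zf (p 0) (p 1) (p 2) (y 0) (y 1) (y 2) -
      (Zf (p 0) (p 1) (p 2) (y 0) (y 1) (y 2) ^ 2 - Nf (p 0) (p 1) (p 2) (y 0) (y 1) (y 2)) *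
        ℓ (Zf (p 0) (p 1) (p 2) (y 0) (y 1) (y 2) - 1) -
      (Zf (p 0) (p 1) (p 2) (y 0) (y 1) (y 2) ^ 2 - Nf (p 0) (p 1) (p 2) (y 0) (y 1) (y 2)) *
        Nf (p 0) (p 1) (p 2) (y 0) (y 1) (y 2) *
        c (Zf (p 0) (p 1) (p 2) (y 0) (y 1) (y 2) - 1) := by
  obtain ⟨hZ0, hZ3, hN0, hN⟩ := Z_N_facts hp hy
  obtain ⟨h1, h2⟩ := P_range hp hy
  by_cases hS : p 0 * y 0 + p 1 * y 1 + p 2 * y 2 = 0
  · obtain ⟨a, b, d⟩ := zero_case hp hy hS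
    rw [K_sum, hS, a, b]
    simp
  · have hZ := Z_pos hp hy hS
    have hv := h _ h1 h2
    have hv2 := hc _ h1 h2
    rw [show 1 + (Zf (p 0) (p 1) (p 2) (y 0) (y 1) (y 2) - 1) =
      Zf (p 0) (p 1) (p 2) (y 0) (y 1) (y 2) by ring] at hv hv2
    rw [three_K_rr2 hS]
    set Z := Zf (p 0) (p 1) (p 2) (y 0) (y 1) (y 2)
    set N := Nf (p 0) (p 1) (p 2) (y 0) (y 1) (y 2)
    have e : (Z - (Z ^ 2 - N) * ℓ (Z - 1) - (Z ^ 2 - N) * N * c (Z - 1)) - N ^ 2 / Z ^ 3 =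
        (Z ^ 2 - N) * (1 - Z * ℓ (Z - 1)) / Z + (Z ^ 2 - N) * N * (1 - c (Z - 1) * Z ^ 3) / Z ^ 3 := by
      field_simp
      ring
    have hE : 0 ≤ Z ^ 2 - N := by linarith
    have a1 := div_nonneg (mul_nonneg hE hv) hZ.le
    have a2 := div_nonneg (mul_nonneg (mul_nonneg hE hN0) hv2) (by positivity : (0 : ℝ) ≤ Z ^ 3)
    linarith

/-- `A = 2 r` on the kernel -/
lemma K_A_eq {p y : Fin 3 → ℝ} (hp : p ∈ Sx 3) (hy : y ∈ Sx 3) :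
    K (A 3) p y = 2 * K rr p y := by
  by_cases hS : p 0 * y 0 + p 1 * y 1 + p 2 * y 2 = 0
  · rw [K_sum, K_sum, hS]; ring
  · have h1 := three_K_A hS
    have h2 := three_K_rr hS
    linarith

lemma B_A_eq {p r : Fin 3 → ℝ} (hp : p ∈ Sx 3) (hr : r ∈ Sx 3) :
    B (A 3) p r = 2 * B rr p r := by
  unfold B
  have h : ∑ π : Equiv.Perm (Fin 3), ((3 : ℕ) : ℝ) * K (A 3) p (rel π r) =
      2 * ∑ π : Equiv.Perm (Fin 3), ((3 : ℕ) : ℝ) * K rr p (rel π r) := by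
    rw [Finset.mul_sum]
    refine Finset.sum_congr rfl fun π _ => ?_
    rw [K_A_eq hp (rel_mem π hr)]
    ring
  rw [h]
  ring

/-! ### from permutations to `B` -/

lemma B_ge_perm {f : (Fin 3 → ℝ) → ℝ} {p r : Fin 3 → ℝ} (W : ℝ → ℝ → ℝ → ℝ) (hr : r ∈ Sx 3)
    (h : ∀ y ∈ Sx 3, W (y 0) (y 1) (y 2) ≤ 3 * K f p y) :
    perm6 W (r 0) (r 1) (r 2) / 6 ≤ B f p r := by
  unfold B
  rw [card_perm3, ← sum_perm3]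
  have h1 : ∑ π : Equiv.Perm (Fin 3), W (r (π 0)) (r (π 1)) (r (π 2)) ≤
      ∑ π : Equiv.Perm (Fin 3), ((3 : ℕ) : ℝ) * K f p (rel π r) := by
    refine Finset.sum_le_sum fun π _ => ?_
    have := h _ (rel_mem π hr)
    simpa [rel] using this
  have h6 : (0 : ℝ) < 6 := by norm_num
  rw [div_eq_inv_mul]
  exact mul_le_mul_of_nonneg_left h1 (inv_nonneg.2 h6.le)

lemma B_le_perm {f : (Fin 3 → ℝ) → ℝ} {p r : Fin 3 → ℝ} (W : ℝ → ℝ → ℝ → ℝ) (hr : r ∈ Sx 3)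
    (h : ∀ y ∈ Sx 3, 3 * K f p y ≤ W (y 0) (y 1) (y 2)) :
    B f p r ≤ perm6 W (r 0) (r 1) (r 2) / 6 := by
  unfold B
  rw [card_perm3, ← sum_perm3]
  have h1 : ∑ π : Equiv.Perm (Fin 3), ((3 : ℕ) : ℝ) * K f p (rel π r) ≤
      ∑ π : Equiv.Perm (Fin 3), W (r (π 0)) (r (π 1)) (r (π 2)) := by
    refine Finset.sum_le_sum fun π _ => ?_
    have := h _ (rel_mem π hr)
    simpa [rel] using this
  have h6 : (0 : ℝ) < 6 := by norm_num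
  rw [div_eq_inv_mul]
  exact mul_le_mul_of_nonneg_left h1 (inv_nonneg.2 h6.le)

/-- reduction of a statement on the simplex to the chambers and skew coordinates -/
lemma B1_chamber (M : List (List ℤ)) (h : checkBil M TB1 45 = true) {p r : Fin 3 → ℝ}
    (hp : p ∈ Sx 3) (hr : r ∈ Sx 3) :
    0 ≤ bilR M (invB1 (rr p) (tt p)) (invB1 (rr r) (tt r)) := by
  obtain ⟨a, b, c, ha, hb, hc, he, h5, h6⟩ := exists_chamber hp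
  obtain ⟨a', b', c', ha', hb', hc', he', h5', h6'⟩ := exists_chamber hr
  have := bil_nonneg (M := M) (T := TB1) (m := monsB1 a b c) (m' := monsB1 a' b' c') h
    (monsB1_nonneg a b c ha hb hc) (monsB1_nonneg a' b' c' ha' hb' hc')
  rw [evalRowsB1 a b c he, evalRowsB1 a' b' c' he'] at this
  rw [h5, h6, h5', h6']
  exact this

lemma B2_chamber (M : List (List ℤ)) (h : checkBil M TB2 91 = true) {p r : Fin 3 → ℝ}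
    (hp : p ∈ Sx 3) (hr : r ∈ Sx 3) :
    0 ≤ bilR M (invB2 (rr p) (tt p)) (invB2 (rr r) (tt r)) := by
  obtain ⟨a, b, c, ha, hb, hc, he, h5, h6⟩ := exists_chamber hp
  obtain ⟨a', b', c', ha', hb', hc', he', h5', h6'⟩ := exists_chamber hr
  have := bil_nonneg (M := M) (T := TB2) (m := monsB2 a b c) (m' := monsB2 a' b' c') h
    (monsB2_nonneg a b c ha hb hc) (monsB2_nonneg a' b' c' ha' hb' hc')
  rw [evalRowsB2 a b c he, evalRowsB2 a' b' c' he'] at this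
  rw [h5, h6, h5', h6']
  exact this

end Crest.Agent.PottsTree.CertQ3

end
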