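import Crest.Agent.Lib.PottsTree.CertQ3Defs

/-!
# Potts tree, `q = 3`: one-dimensional polynomial bounds
-/

noncomputable section

namespace Crest.Agent.PottsTree.CertQ3

def l1 (P : ℝ) : ℝ := 1 + (-1)*P + (530561/1048576)*P^2 + (86749/131072)*P^3 + (-1584449/1048576)*P^4 + (592425/524288)*P^5 + (-175779/524288)*P^6
def l2 (P : ℝ) : ℝ := 1 + (-2)*P + (1170139/524288)*P^2 + (-3745233/1048576)*P^3 + (1491291/1048576)*P^4
def cc (P : ℝ) : ℝ := 1 + (-3)*P + (2789813/524288)*P^2 + (-6586835/1048576)*P^3 + (5139779/1048576)*P^4 + (-2601277/1048576)*P^5 + (822651/1048576)*P^6 + (-307/2048)*P^7 + (13443/1048576)*P^8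
def ell (P : ℝ) : ℝ := 1 + (-1)*P + (1877/2048)*P^2 + (-2913/4096)*P^3 + (1667/4096)*P^4 + (-659/4096)*P^5 + (127/4096)*P^6

theorem V1 (P : ℝ) (h0 : -1 ≤ P) (h1 : P ≤ 2) : 0 ≤ 1 - (1+P)*l1 P := by
  have key : ∀ a b : ℝ, 0 ≤ a → 0 ≤ b → 0 ≤ (1/531441)*a^0*b^12 + (38951/967458816)*a^1*b^11 + (4090603/23219011584)*a^2*b^10 + (174169129/557256278016)*a^3*b^9 + (4542637/20639121408)*a^4*b^8 + (230683/30958682112)*a^5*b^7 + (807415/92876046336)*a^6*b^6 + (108235/859963392)*a^7*b^5 + (711007/7739670528)*a^8*b^4 + (1473677/278628139008)*a^9*b^3 + (19231/30958682112)*a^10*b^2 + (2387093/185752092672)*a^11*b^1 + (2744713/557256278016)*a^12*b^0 := by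
    intro a b ha hb
    positivity
  have e : 1 - (1+P)*l1 P = P^2 * ((1/531441)*(P+1)^0*(2-P)^12 + (38951/967458816)*(P+1)^1*(2-P)^11 + (4090603/23219011584)*(P+1)^2*(2-P)^10 + (174169129/557256278016)*(P+1)^3*(2-P)^9 + (4542637/20639121408)*(P+1)^4*(2-P)^8 + (230683/30958682112)*(P+1)^5*(2-P)^7 + (807415/92876046336)*(P+1)^6*(2-P)^6 + (108235/859963392)*(P+1)^7*(2-P)^5 + (711007/7739670528)*(P+1)^8*(2-P)^4 + (1473677/278628139008)*(P+1)^9*(2-P)^3 + (19231/30958682112)*(P+1)^10*(2-P)^2 + (2387093/185752092672)*(P+1)^11*(2-P)^1 + (2744713/557256278016)*(P+1)^12*(2-P)^0) := by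
    unfold l1
    ring
  rw [e]
  exact mul_nonneg (sq_nonneg P) (key _ _ (by linarith) (by linarith))

theorem V2 (P : ℝ) (h0 : -1 ≤ P) (h1 : P ≤ 2) : 0 ≤ 17/5*(1 - (1+P)*l1 P) - 2*(1 - cc P*(1+P)^3) := by
  have key : ∀ a b : ℝ, 0 ≤ a → 0 ≤ b → 0 ≤ (7/2657205)*a^0*b^12 + (334487/4837294080)*a^1*b^11 + (72091/116095057920)*a^2*b^10 + (5766643/2786281390080)*a^3*b^9 + (44898199/103195607040)*a^4*b^8 + (31698023/77396705280)*a^5*b^7 + (807407/92876046336)*a^6*b^6 + (69481/1146617856)*a^7*b^5 + (7421993/77396705280)*a^8*b^4 + (2881559/1393140695040)*a^9*b^3 + (47441/77396705280)*a^10*b^2 + (104831/928760463360)*a^11*b^1 + (33001/2786281390080)*a^12*b^0 := by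
    intro a b ha hb
    positivity
  have e : 17/5*(1 - (1+P)*l1 P) - 2*(1 - cc P*(1+P)^3) = P^2 * ((7/2657205)*(P+1)^0*(2-P)^12 + (334487/4837294080)*(P+1)^1*(2-P)^11 + (72091/116095057920)*(P+1)^2*(2-P)^10 + (5766643/2786281390080)*(P+1)^3*(2-P)^9 + (44898199/103195607040)*(P+1)^4*(2-P)^8 + (31698023/77396705280)*(P+1)^5*(2-P)^7 + (807407/92876046336)*(P+1)^6*(2-P)^6 + (69481/1146617856)*(P+1)^7*(2-P)^5 + (7421993/77396705280)*(P+1)^8*(2-P)^4 + (2881559/1393140695040)*(P+1)^9*(2-P)^3 + (47441/77396705280)*(P+1)^10*(2-P)^2 + (104831/928760463360)*(P+1)^11*(2-P)^1 + (33001/2786281390080)*(P+1)^12*(2-P)^0) := by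
    unfold l1 cc
    ring
  rw [e]
  exact mul_nonneg (sq_nonneg P) (key _ _ (by linarith) (by linarith))

theorem V3 (P : ℝ) (h0 : -1 ≤ P) (h1 : P ≤ 2) : 0 ≤ 1 - (1+P)^2*l2 P := by
  have key : ∀ a b : ℝ, 0 ≤ a → 0 ≤ b → 0 ≤ (1/531441)*a^0*b^12 + (2/59049)*a^1*b^11 + (11703469/92876046336)*a^2*b^10 + (76455625/557256278016)*a^3*b^9 + (6007/1289945088)*a^4*b^8 + (8244059/15479341056)*a^5*b^7 + (119318129/46438023168)*a^6*b^6 + (5507137/1146617856)*a^7*b^5 + (73445/15116544)*a^8*b^4 + (395004811/139314069504)*a^9*b^3 + (27989971/30958682112)*a^10*b^2 + (22793075/185752092672)*a^11*b^1 + (41/4353564672)*a^12*b^0 := by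
    intro a b ha hb
    positivity
  have e : 1 - (1+P)^2*l2 P = P^2 * ((1/531441)*(P+1)^0*(2-P)^12 + (2/59049)*(P+1)^1*(2-P)^11 + (11703469/92876046336)*(P+1)^2*(2-P)^10 + (76455625/557256278016)*(P+1)^3*(2-P)^9 + (6007/1289945088)*(P+1)^4*(2-P)^8 + (8244059/15479341056)*(P+1)^5*(2-P)^7 + (119318129/46438023168)*(P+1)^6*(2-P)^6 + (5507137/1146617856)*(P+1)^7*(2-P)^5 + (73445/15116544)*(P+1)^8*(2-P)^4 + (395004811/139314069504)*(P+1)^9*(2-P)^3 + (27989971/30958682112)*(P+1)^10*(2-P)^2 + (22793075/185752092672)*(P+1)^11*(2-P)^1 + (41/4353564672)*(P+1)^12*(2-P)^0) := by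
    unfold l2
    ring
  rw [e]
  exact mul_nonneg (sq_nonneg P) (key _ _ (by linarith) (by linarith))

theorem V4 (P : ℝ) (h0 : -1 ≤ P) (h1 : P ≤ 2) : 0 ≤ 1 - (1+P)*ell P := by
  have key : ∀ a b : ℝ, 0 ≤ a → 0 ≤ b → 0 ≤ (1/2187)*a^0*b^7 + (41/279936)*a^1*b^6 + (37/746496)*a^2*b^5 + (3469/4478976)*a^3*b^4 + (719/8957952)*a^4*b^3 + (37/746496)*a^5*b^2 + (3463/8957952)*a^6*b^1 + (7/2239488)*a^7*b^0 := by
    intro a b ha hb
    positivity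
  have e : 1 - (1+P)*ell P = P^2 * ((1/2187)*(P+1)^0*(2-P)^7 + (41/279936)*(P+1)^1*(2-P)^6 + (37/746496)*(P+1)^2*(2-P)^5 + (3469/4478976)*(P+1)^3*(2-P)^4 + (719/8957952)*(P+1)^4*(2-P)^3 + (37/746496)*(P+1)^5*(2-P)^2 + (3463/8957952)*(P+1)^6*(2-P)^1 + (7/2239488)*(P+1)^7*(2-P)^0) := by
    unfold ell
    ring
  rw [e]
  exact mul_nonneg (sq_nonneg P) (key _ _ (by linarith) (by linarith))

end Crest.Agent.PottsTree.CertQ3

end
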