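import Crest.Agent.Lib.PottsTree.CertQ3Defs
import Crest.Agent.Lib.PottsTree.CertQ3DataB1

set_option linter.unusedSimpArgs false

noncomputable section

namespace Crest.Agent.PottsTree.CertQ3

theorem rowB1_0 (u v c : ℝ) :
    rdot TB1_0 (monsB1 u v c) = rU u v ^ 0 * (2 * tU u v) ^ 1 * (u + 2 * v + 3 * c) ^ 5 := by
  simp only [TB1_0, monsB1, rdot, rU, tU, Int.cast_ofNat_Int, Int.cast_negSucc]
  push_cast
  ring

theorem rowB1_1 (u v c : ℝ) :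
    rdot TB1_1 (monsB1 u v c) = rU u v ^ 0 * (2 * tU u v) ^ 2 * (u + 2 * v + 3 * c) ^ 2 := by
  simp only [TB1_1, monsB1, rdot, rU, tU, Int.cast_ofNat_Int, Int.cast_negSucc]
  push_cast
  ring

theorem rowB1_2 (u v c : ℝ) :
    rdot TB1_2 (monsB1 u v c) = rU u v ^ 1 * (2 * tU u v) ^ 0 * (u + 2 * v + 3 * c) ^ 6 := by
  simp only [TB1_2, monsB1, rdot, rU, tU, Int.cast_ofNat_Int, Int.cast_negSucc]
  push_cast
  ring

theorem rowB1_3 (u v c : ℝ) :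
    rdot TB1_3 (monsB1 u v c) = rU u v ^ 1 * (2 * tU u v) ^ 1 * (u + 2 * v + 3 * c) ^ 3 := by
  simp only [TB1_3, monsB1, rdot, rU, tU, Int.cast_ofNat_Int, Int.cast_negSucc]
  push_cast
  ring

theorem rowB1_4 (u v c : ℝ) :
    rdot TB1_4 (monsB1 u v c) = rU u v ^ 1 * (2 * tU u v) ^ 2 * (u + 2 * v + 3 * c) ^ 0 := by
  simp only [TB1_4, monsB1, rdot, rU, tU, Int.cast_ofNat_Int, Int.cast_negSucc]
  push_cast
  ring

theorem rowB1_5 (u v c : ℝ) :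
    rdot TB1_5 (monsB1 u v c) = rU u v ^ 2 * (2 * tU u v) ^ 0 * (u + 2 * v + 3 * c) ^ 4 := by
  simp only [TB1_5, monsB1, rdot, rU, tU, Int.cast_ofNat_Int, Int.cast_negSucc]
  push_cast
  ring

theorem rowB1_6 (u v c : ℝ) :
    rdot TB1_6 (monsB1 u v c) = rU u v ^ 2 * (2 * tU u v) ^ 1 * (u + 2 * v + 3 * c) ^ 1 := by
  simp only [TB1_6, monsB1, rdot, rU, tU, Int.cast_ofNat_Int, Int.cast_negSucc]
  push_cast
  ring

theorem rowB1_7 (u v c : ℝ) :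
    rdot TB1_7 (monsB1 u v c) = rU u v ^ 3 * (2 * tU u v) ^ 0 * (u + 2 * v + 3 * c) ^ 2 := by
  simp only [TB1_7, monsB1, rdot, rU, tU, Int.cast_ofNat_Int, Int.cast_negSucc]
  push_cast
  ring

theorem rowB1_8 (u v c : ℝ) :
    rdot TB1_8 (monsB1 u v c) = rU u v ^ 4 * (2 * tU u v) ^ 0 * (u + 2 * v + 3 * c) ^ 0 := by
  simp only [TB1_8, monsB1, rdot, rU, tU, Int.cast_ofNat_Int, Int.cast_negSucc]
  push_cast
  ring

end Crest.Agent.PottsTree.CertQ3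

end
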