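import Crest.Agent.Lib.PottsTree.CertQ3Defs
import Crest.Agent.Lib.PottsTree.CertQ3DataB2

set_option linter.unusedSimpArgs false

noncomputable section

namespace Crest.Agent.PottsTree.CertQ3

theorem rowB2_0 (u v c : ℝ) :
    rdot TB2_0 (monsB2 u v c) = rU u v ^ 0 * (2 * tU u v) ^ 1 * (u + 2 * v + 3 * c) ^ 9 := by
  simp only [TB2_0, monsB2, rdot, rU, tU, Int.cast_ofNat_Int, Int.cast_negSucc]
  push_cast
  ring

theorem rowB2_1 (u v c : ℝ) :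
    rdot TB2_1 (monsB2 u v c) = rU u v ^ 0 * (2 * tU u v) ^ 2 * (u + 2 * v + 3 * c) ^ 6 := by
  simp only [TB2_1, monsB2, rdot, rU, tU, Int.cast_ofNat_Int, Int.cast_negSucc]
  push_cast
  ring

theorem rowB2_2 (u v c : ℝ) :
    rdot TB2_2 (monsB2 u v c) = rU u v ^ 0 * (2 * tU u v) ^ 3 * (u + 2 * v + 3 * c) ^ 3 := by
  simp only [TB2_2, monsB2, rdot, rU, tU, Int.cast_ofNat_Int, Int.cast_negSucc]
  push_cast
  ring

theorem rowB2_3 (u v c : ℝ) :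
    rdot TB2_3 (monsB2 u v c) = rU u v ^ 0 * (2 * tU u v) ^ 4 * (u + 2 * v + 3 * c) ^ 0 := by
  simp only [TB2_3, monsB2, rdot, rU, tU, Int.cast_ofNat_Int, Int.cast_negSucc]
  push_cast
  ring

theorem rowB2_4 (u v c : ℝ) :
    rdot TB2_4 (monsB2 u v c) = rU u v ^ 1 * (2 * tU u v) ^ 0 * (u + 2 * v + 3 * c) ^ 10 := by
  simp only [TB2_4, monsB2, rdot, rU, tU, Int.cast_ofNat_Int, Int.cast_negSucc]
  push_cast
  ring

theorem rowB2_5 (u v c : ℝ) :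
    rdot TB2_5 (monsB2 u v c) = rU u v ^ 1 * (2 * tU u v) ^ 1 * (u + 2 * v + 3 * c) ^ 7 := by
  simp only [TB2_5, monsB2, rdot, rU, tU, Int.cast_ofNat_Int, Int.cast_negSucc]
  push_cast
  ring

theorem rowB2_6 (u v c : ℝ) :
    rdot TB2_6 (monsB2 u v c) = rU u v ^ 1 * (2 * tU u v) ^ 2 * (u + 2 * v + 3 * c) ^ 4 := by
  simp only [TB2_6, monsB2, rdot, rU, tU, Int.cast_ofNat_Int, Int.cast_negSucc]
  push_cast
  ring

theorem rowB2_7 (u v c : ℝ) :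
    rdot TB2_7 (monsB2 u v c) = rU u v ^ 1 * (2 * tU u v) ^ 3 * (u + 2 * v + 3 * c) ^ 1 := by
  simp only [TB2_7, monsB2, rdot, rU, tU, Int.cast_ofNat_Int, Int.cast_negSucc]
  push_cast
  ring

theorem rowB2_8 (u v c : ℝ) :
    rdot TB2_8 (monsB2 u v c) = rU u v ^ 2 * (2 * tU u v) ^ 0 * (u + 2 * v + 3 * c) ^ 8 := by
  simp only [TB2_8, monsB2, rdot, rU, tU, Int.cast_ofNat_Int, Int.cast_negSucc]
  push_cast
  ring

theorem rowB2_9 (u v c : ℝ) :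
    rdot TB2_9 (monsB2 u v c) = rU u v ^ 2 * (2 * tU u v) ^ 1 * (u + 2 * v + 3 * c) ^ 5 := by
  simp only [TB2_9, monsB2, rdot, rU, tU, Int.cast_ofNat_Int, Int.cast_negSucc]
  push_cast
  ring

theorem rowB2_10 (u v c : ℝ) :
    rdot TB2_10 (monsB2 u v c) = rU u v ^ 2 * (2 * tU u v) ^ 2 * (u + 2 * v + 3 * c) ^ 2 := by
  simp only [TB2_10, monsB2, rdot, rU, tU, Int.cast_ofNat_Int, Int.cast_negSucc]
  push_cast
  ring

theorem rowB2_11 (u v c : ℝ) :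
    rdot TB2_11 (monsB2 u v c) = rU u v ^ 3 * (2 * tU u v) ^ 0 * (u + 2 * v + 3 * c) ^ 6 := by
  simp only [TB2_11, monsB2, rdot, rU, tU, Int.cast_ofNat_Int, Int.cast_negSucc]
  push_cast
  ring

theorem rowB2_12 (u v c : ℝ) :
    rdot TB2_12 (monsB2 u v c) = rU u v ^ 3 * (2 * tU u v) ^ 1 * (u + 2 * v + 3 * c) ^ 3 := by
  simp only [TB2_12, monsB2, rdot, rU, tU, Int.cast_ofNat_Int, Int.cast_negSucc]
  push_cast
  ring

theorem rowB2_13 (u v c : ℝ) :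
    rdot TB2_13 (monsB2 u v c) = rU u v ^ 3 * (2 * tU u v) ^ 2 * (u + 2 * v + 3 * c) ^ 0 := by
  simp only [TB2_13, monsB2, rdot, rU, tU, Int.cast_ofNat_Int, Int.cast_negSucc]
  push_cast
  ring

theorem rowB2_14 (u v c : ℝ) :
    rdot TB2_14 (monsB2 u v c) = rU u v ^ 4 * (2 * tU u v) ^ 0 * (u + 2 * v + 3 * c) ^ 4 := by
  simp only [TB2_14, monsB2, rdot, rU, tU, Int.cast_ofNat_Int, Int.cast_negSucc]
  push_cast
  ring

theorem rowB2_15 (u v c : ℝ) :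
    rdot TB2_15 (monsB2 u v c) = rU u v ^ 4 * (2 * tU u v) ^ 1 * (u + 2 * v + 3 * c) ^ 1 := by
  simp only [TB2_15, monsB2, rdot, rU, tU, Int.cast_ofNat_Int, Int.cast_negSucc]
  push_cast
  ring

theorem rowB2_16 (u v c : ℝ) :
    rdot TB2_16 (monsB2 u v c) = rU u v ^ 5 * (2 * tU u v) ^ 0 * (u + 2 * v + 3 * c) ^ 2 := by
  simp only [TB2_16, monsB2, rdot, rU, tU, Int.cast_ofNat_Int, Int.cast_negSucc]
  push_cast
  ring

theorem rowB2_17 (u v c : ℝ) :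
    rdot TB2_17 (monsB2 u v c) = rU u v ^ 6 * (2 * tU u v) ^ 0 * (u + 2 * v + 3 * c) ^ 0 := by
  simp only [TB2_17, monsB2, rdot, rU, tU, Int.cast_ofNat_Int, Int.cast_negSucc]
  push_cast
  ring

end Crest.Agent.PottsTree.CertQ3

end
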