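import Crest.Agent.Lib.PottsTree.CertQ3Rec
import Crest.Agent.Lib.PottsTree.CertQ3RowsB1
import Crest.Agent.Lib.PottsTree.CertQ3RowsB2

/-!
# Potts tree, `q = 3`: nonnegativity of the two final polynomials on the product of Weyl chambers
-/

set_option linter.unusedSimpArgs false
set_option linter.unusedVariables false
set_option maxRecDepth 100000

noncomputable section

namespace Crest.Agent.PottsTree.CertQ3

def invB1 (r t : ℝ) : List ℝ := [r ^ 0 * (2 * t) ^ 1, r ^ 0 * (2 * t) ^ 2, r ^ 1 * (2 * t) ^ 0, r ^ 1 * (2 * t) ^ 1, r ^ 1 * (2 * t) ^ 2, r ^ 2 * (2 * t) ^ 0, r ^ 2 * (2 * t) ^ 1, r ^ 3 * (2 * t) ^ 0, r ^ 4 * (2 * t) ^ 0]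

theorem bilB1_eq (r t r' t' : ℝ) :
    bilR MB1 (invB1 r t) (invB1 r' t') = 40960 * Phi1 r t r' t' := by
  simp only [bilR, MB1, invB1, List.map_cons, List.map_nil, rdot, rrdot, Int.cast_ofNat_Int,
    Int.cast_negSucc]
  push_cast
  simp only [Phi1, Psi1, Psi1, Psi2, rec6poly, xiF, rhoF, mP0, mP1, mP2, mP3, mP4, mP5, mP6, mP7, mP8,
    mN0, mN1, mN2, mN3, mN4, mN5, mN6, mNN0, mNN1, mNN2, mNN3, mNN4, mNN5, mNN6, mNN7, mNN8]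
  ring

theorem evalRowsB1 (u v c : ℝ) (he : u + 2 * v + 3 * c = 1) :
    evalRows TB1 (monsB1 u v c) = invB1 (rU u v) (tU u v) := by
  simp only [evalRows, TB1, List.map_cons, List.map_nil, rowB1_0, rowB1_1, rowB1_2, rowB1_3, rowB1_4, rowB1_5, rowB1_6, rowB1_7, rowB1_8, he, one_pow, mul_one, invB1]

theorem monsB1_nonneg (u v c : ℝ) (hu : 0 ≤ u) (hv : 0 ≤ v) (hc : 0 ≤ c) :
    ∀ x ∈ monsB1 u v c, 0 ≤ x := by
  unfold monsB1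
  repeat' refine List.forall_mem_cons.2 ⟨by positivity, ?_⟩
  exact List.forall_mem_nil _

theorem phi1_nonneg {u v c u' v' c' : ℝ} (hu : 0 ≤ u) (hv : 0 ≤ v) (hc : 0 ≤ c)
    (he : u + 2 * v + 3 * c = 1) (hu' : 0 ≤ u') (hv' : 0 ≤ v') (hc' : 0 ≤ c')
    (he' : u' + 2 * v' + 3 * c' = 1) :
    0 ≤ Phi1 (rU u v) (tU u v) (rU u' v') (tU u' v') := by
  have h := bil_nonneg (M := MB1) (T := TB1) (m := monsB1 u v c) (m' := monsB1 u' v' c')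
    checkB1 (monsB1_nonneg u v c hu hv hc) (monsB1_nonneg u' v' c' hu' hv' hc')
  rw [evalRowsB1 u v c he, evalRowsB1 u' v' c' he', bilB1_eq] at h
  linarith

def invB2 (r t : ℝ) : List ℝ := [r ^ 0 * (2 * t) ^ 1, r ^ 0 * (2 * t) ^ 2, r ^ 0 * (2 * t) ^ 3, r ^ 0 * (2 * t) ^ 4, r ^ 1 * (2 * t) ^ 0, r ^ 1 * (2 * t) ^ 1, r ^ 1 * (2 * t) ^ 2, r ^ 1 * (2 * t) ^ 3, r ^ 2 * (2 * t) ^ 0, r ^ 2 * (2 * t) ^ 1, r ^ 2 * (2 * t) ^ 2, r ^ 3 * (2 * t) ^ 0, r ^ 3 * (2 * t) ^ 1, r ^ 3 * (2 * t) ^ 2, r ^ 4 * (2 * t) ^ 0, r ^ 4 * (2 * t) ^ 1, r ^ 5 * (2 * t) ^ 0, r ^ 6 * (2 * t) ^ 0]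

theorem bilB2_eq (r t r' t' : ℝ) :
    bilR MB2 (invB2 r t) (invB2 r' t') = 10485760 * Phi2 r t r' t' := by
  simp only [bilR, MB2, invB2, List.map_cons, List.map_nil, rdot, rrdot, Int.cast_ofNat_Int,
    Int.cast_negSucc]
  push_cast
  simp only [Phi2, Psi2, Psi1, Psi2, rec6poly, xiF, rhoF, mP0, mP1, mP2, mP3, mP4, mP5, mP6, mP7, mP8,
    mN0, mN1, mN2, mN3, mN4, mN5, mN6, mNN0, mNN1, mNN2, mNN3, mNN4, mNN5, mNN6, mNN7, mNN8]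
  ring

theorem evalRowsB2 (u v c : ℝ) (he : u + 2 * v + 3 * c = 1) :
    evalRows TB2 (monsB2 u v c) = invB2 (rU u v) (tU u v) := by
  simp only [evalRows, TB2, List.map_cons, List.map_nil, rowB2_0, rowB2_1, rowB2_2, rowB2_3, rowB2_4, rowB2_5, rowB2_6, rowB2_7, rowB2_8, rowB2_9, rowB2_10, rowB2_11, rowB2_12, rowB2_13, rowB2_14, rowB2_15, rowB2_16, rowB2_17, he, one_pow, mul_one, invB2]

theorem monsB2_nonneg (u v c : ℝ) (hu : 0 ≤ u) (hv : 0 ≤ v) (hc : 0 ≤ c) :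
    ∀ x ∈ monsB2 u v c, 0 ≤ x := by
  unfold monsB2
  repeat' refine List.forall_mem_cons.2 ⟨by positivity, ?_⟩
  exact List.forall_mem_nil _

theorem phi2_nonneg {u v c u' v' c' : ℝ} (hu : 0 ≤ u) (hv : 0 ≤ v) (hc : 0 ≤ c)
    (he : u + 2 * v + 3 * c = 1) (hu' : 0 ≤ u') (hv' : 0 ≤ v') (hc' : 0 ≤ c')
    (he' : u' + 2 * v' + 3 * c' = 1) :
    0 ≤ Phi2 (rU u v) (tU u v) (rU u' v') (tU u' v') := by
  have h := bil_nonneg (M := MB2) (T := TB2) (m := monsB2 u v c) (m' := monsB2 u' v' c')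
    checkB2 (monsB2_nonneg u v c hu hv hc) (monsB2_nonneg u' v' c' hu' hv' hc')
  rw [evalRowsB2 u v c he, evalRowsB2 u' v' c' he', bilB2_eq] at h
  linarith

end Crest.Agent.PottsTree.CertQ3

end
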