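import Mathlib

/-!
# Potts tree, `q = 3`: reflection for sign checks of bilinear forms in Bernstein coefficients

All computations are on lists of integers and are run by the kernel.
-/

set_option linter.unusedVariables false

noncomputable section

namespace Crest.Agent.PottsTree.CertQ3

/-- `∑ c_i x_i`, truncated to the shorter list -/
def rdot : List ℤ → List ℝ → ℝ
  | c :: cs, x :: xs => (c : ℝ) * x + rdot cs xs
  | _, _ => 0

/-- `∑ y_i x_i` for real lists -/
def rrdot : List ℝ → List ℝ → ℝ
  | y :: ys, x :: xs => y * x + rrdot ys xs
  | _, _ => 0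

/-- padded sum of integer lists -/
def ladd : List ℤ → List ℤ → List ℤ
  | a :: as, b :: bs => (a + b) :: ladd as bs
  | [], bs => bs
  | as, [] => as

/-- scalar multiple -/
def lsmul (c : ℤ) : List ℤ → List ℤ
  | [] => []
  | a :: as => (c * a) :: lsmul c as

/-- `∑ c_k T_k`, row combination -/
def comb : List ℤ → List (List ℤ) → List ℤ
  | c :: cs, t :: ts => ladd (lsmul c t) (comb cs ts)
  | _, _ => []

/-- first column -/
def heads : List (List ℤ) → List ℤ
  | [] => []
  | r :: rs => r.headD 0 :: heads rs

/-- remove the first column -/
def tails : List (List ℤ) → List (List ℤ)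
  | [] => []
  | r :: rs => r.tail :: tails rs

def allNonneg : List ℤ → Bool
  | [] => true
  | a :: as => decide (0 ≤ a) && allNonneg as

/-- all columns of `ρ` combined through `T` have nonnegative entries -/
def checkCols (T : List (List ℤ)) : ℕ → List (List ℤ) → Bool
  | 0, _ => true
  | n + 1, ρ => allNonneg (comb (heads ρ) T) && checkCols T n (tails ρ)

/-- the check: `Tᵀ M T` has nonnegative entries -/
def checkBil (M T : List (List ℤ)) (n : ℕ) : Bool :=
  checkCols T n (M.map fun row => comb row T)

lemma rdot_ladd (u v : List ℤ) (m : List ℝ) : rdot (ladd u v) m = rdot u m + rdot v m := by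
  induction u generalizing v m with
  | nil =>
    cases v <;> cases m <;> simp [ladd, rdot]
  | cons a as ih =>
    cases v with
    | nil => cases m <;> simp [ladd, rdot]
    | cons b bs =>
      cases m with
      | nil => simp [ladd, rdot]
      | cons x xs =>
        simp only [ladd, rdot, ih]
        push_cast
        ring

lemma rdot_lsmul (c : ℤ) (u : List ℤ) (m : List ℝ) : rdot (lsmul c u) m = c * rdot u m := by
  induction u generalizing m with
  | nil => simp [lsmul, rdot]
  | cons a as ih =>
    cases m with
    | nil => simp [lsmul, rdot]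
    | cons x xs =>
      simp only [lsmul, rdot, ih]
      push_cast
      ring

/-- the list of values of rows `T` at `m` -/
def evalRows (T : List (List ℤ)) (m : List ℝ) : List ℝ := T.map fun t => rdot t m

lemma rdot_comb (c : List ℤ) (T : List (List ℤ)) (m : List ℝ) :
    rdot (comb c T) m = rdot c (evalRows T m) := by
  induction c generalizing T with
  | nil => simp [comb, rdot]
  | cons a as ih =>
    cases T with
    | nil => simp [comb, rdot, evalRows]
    | cons t ts =>
      have h := ih ts
      simp only [evalRows, List.map_cons] at h ⊢
      simp only [comb, rdot, rdot_ladd, rdot_lsmul, h]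

lemma rdot_nonneg_of_allNonneg {c : List ℤ} (hc : allNonneg c = true) {m : List ℝ}
    (hm : ∀ x ∈ m, 0 ≤ x) : 0 ≤ rdot c m := by
  induction c generalizing m with
  | nil => simp [rdot]
  | cons a as ih =>
    cases m with
    | nil => simp [rdot]
    | cons x xs =>
      simp only [allNonneg, Bool.and_eq_true, decide_eq_true_eq] at hc
      simp only [rdot]
      have h1 : (0 : ℝ) ≤ a := by exact_mod_cast hc.1
      have h2 := hm x (by simp)
      have h3 := ih hc.2 (m := xs) (fun y hy => hm y (by simp [hy]))
      positivity

/-- value of the form with rows `ρ` at `(m, Y)` -/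
def valRho (ρ : List (List ℤ)) (m Y : List ℝ) : ℝ :=
  rrdot (evalRows ρ m) Y

lemma rrdot_heads_tails (ρ : List (List ℤ)) (x : ℝ) (xs Y : List ℝ) :
    rrdot (evalRows ρ (x :: xs)) Y =
      x * rdot (heads ρ) Y + rrdot (evalRows (tails ρ) xs) Y := by
  induction ρ generalizing Y with
  | nil => simp [evalRows, heads, tails, rrdot, rdot]
  | cons r rs ih =>
    cases Y with
    | nil => simp [evalRows, heads, tails, rrdot, rdot]
    | cons y ys =>
      have h := ih ys
      simp only [evalRows, List.map_cons, heads, tails, rrdot, rdot] at h ⊢
      rw [h]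
      cases r with
      | nil => simp [rdot]
      | cons a as =>
        simp only [rdot, List.headD_cons, List.tail_cons]
        ring

lemma checkCols_sound {T : List (List ℤ)} {m' : List ℝ} (hm' : ∀ x ∈ m', 0 ≤ x) (m : List ℝ)
    (hm : ∀ x ∈ m, 0 ≤ x) (ρ : List (List ℤ)) (h : checkCols T m.length ρ = true) :
    0 ≤ rrdot (evalRows ρ m) (evalRows T m') := by
  induction m generalizing ρ with
  | nil =>
    have : ∀ (ρ : List (List ℤ)) (Y : List ℝ), rrdot (evalRows ρ []) Y = 0 := by
      intro ρ
      induction ρ with
      | nil => intro Y; simp [evalRows, rrdot]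
      | cons r rs ih =>
        intro Y
        have hr : rdot r [] = 0 := by cases r <;> simp [rdot]
        cases Y with
        | nil => simp [evalRows, rrdot]
        | cons y ys =>
          have := ih ys
          simp only [evalRows, List.map_cons, rrdot] at this ⊢
          rw [this, hr]; ring
    rw [this]
  | cons x xs ih =>
    simp only [List.length_cons, checkCols, Bool.and_eq_true] at h
    rw [rrdot_heads_tails]
    have h1 : 0 ≤ rdot (heads ρ) (evalRows T m') := by
      rw [← rdot_comb]
      exact rdot_nonneg_of_allNonneg h.1 hm'
    have h2 := ih (fun y hy => hm y (by simp [hy])) (tails ρ) h.2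
    have h3 := hm x (by simp)
    positivity

/-- bilinear form with matrix `M`: `∑_l Y_l ∑_k M_lk X_k` -/
def bilR (M : List (List ℤ)) (X Y : List ℝ) : ℝ :=
  rrdot (M.map fun row => rdot row X) Y

/-- **Soundness of the check.** -/
theorem bil_nonneg {M T : List (List ℤ)} {m m' : List ℝ} (h : checkBil M T m.length = true)
    (hm : ∀ x ∈ m, 0 ≤ x) (hm' : ∀ x ∈ m', 0 ≤ x) :
    0 ≤ bilR M (evalRows T m) (evalRows T m') := by
  have key := checkCols_sound hm' m hm (M.map fun row => comb row T) h
  have e : evalRows (M.map fun row => comb row T) m = M.map fun row => rdot row (evalRows T m) := by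
    simp only [evalRows, List.map_map]
    apply List.map_congr_left
    intro row _
    simp only [Function.comp, rdot_comb]
    rfl
  rw [e] at key
  exact key

end Crest.Agent.PottsTree.CertQ3

end
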