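import Crest.Agent.Lib.PottsTree.PairQ4

/-!
# Per-permutation surrogates for the `q = 4` cone certificate (module M-PerPerm of #1254)

For `p, s ∈ Sx 4` (later `s = rel π r`) put `x i = 16 p i s i`, `D = (∑ x i) / 4 = 4 ⟨p, s⟩` and let
`N₁, N₂, N₃` be the Fourier coefficients of `x`.  With `t = ∑ Nⱼ²`, `n = N₁N₂N₃`,
`s = N₁²N₂² + N₂²N₃² + N₃²N₁²`, `Y = 4 n D² - α t² D - β s D + γ t n` one has, on `D > 0`,
`D * A (post) = t / D`, `D * Xi (post) = Y / D⁴`, and the two polynomial surrogates: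

* `pp1` : `4 K (A 4) p s ≤ t * pp (D - 1) + rr (D - 1)`;
* `pp2` : `QQ (D - 1) * Y - ee (D - 1) ≤ 4 K Xi p s`.

Also: the radial property of `Xi`, its values at vertices and at the uniform point, `Xi ≤ 4 τ`,
boundedness of `Xi` and of every continuous function of `(A, τ, ssq)`.
-/

namespace Crest.Agent.PottsTree.CertQ4PP

open Finset
open Crest.Agent.PottsTree
open Crest.Agent.PottsTree.PairQ4

variable {p r s : Fin 4 → ℝ}

/-- `x i = 16 p i s i` -/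
def xx (p s : Fin 4 → ℝ) (i : Fin 4) : ℝ := 16 * p i * s i

/-- `D = (∑ x i) / 4` -/
noncomputable def DD (p s : Fin 4 → ℝ) : ℝ := (xx p s 0 + xx p s 1 + xx p s 2 + xx p s 3) / 4

/-- first Fourier coefficient of `x` -/
noncomputable def Nn1 (p s : Fin 4 → ℝ) : ℝ := (xx p s 0 + xx p s 1 - xx p s 2 - xx p s 3) / 4
/-- second Fourier coefficient of `x` -/
noncomputable def Nn2 (p s : Fin 4 → ℝ) : ℝ := (xx p s 0 - xx p s 1 + xx p s 2 - xx p s 3) / 4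
/-- third Fourier coefficient of `x` -/
noncomputable def Nn3 (p s : Fin 4 → ℝ) : ℝ := (xx p s 0 - xx p s 1 - xx p s 2 + xx p s 3) / 4

/-- `t = N₁² + N₂² + N₃²` -/
noncomputable def tt (p s : Fin 4 → ℝ) : ℝ := Nn1 p s ^ 2 + Nn2 p s ^ 2 + Nn3 p s ^ 2
/-- `n = N₁ N₂ N₃` -/
noncomputable def nn (p s : Fin 4 → ℝ) : ℝ := Nn1 p s * Nn2 p s * Nn3 p s
/-- `s = N₁²N₂² + N₂²N₃² + N₃²N₁²` -/
noncomputable def ss (p s : Fin 4 → ℝ) : ℝ :=
  Nn1 p s ^ 2 * Nn2 p s ^ 2 + Nn2 p s ^ 2 * Nn3 p s ^ 2 + Nn3 p s ^ 2 * Nn1 p s ^ 2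

/-- the candidate functional `Xi = 4 τ - α A² - β S + γ A τ` -/
noncomputable def Xi (al be ga : ℝ) (p : Fin 4 → ℝ) : ℝ :=
  4 * tau p - al * A 4 p ^ 2 - be * ssq p + ga * A 4 p * tau p

/-- the polynomial `Y = 4 n D² - α t² D - β s D + γ t n = D⁵ Xi (post)` -/
noncomputable def YY (al be ga : ℝ) (p s : Fin 4 → ℝ) : ℝ :=
  4 * nn p s * DD p s ^ 2 - al * tt p s ^ 2 * DD p s - be * ss p s * DD p s +
    ga * tt p s * nn p s

lemma xx_rel (π : Equiv.Perm (Fin 4)) (i : Fin 4) :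
    xx p (rel π r) i = (4 * p i) * (4 * r (π i)) := by
  simp only [xx, rel]
  ring

lemma xx_nonneg (hp : p ∈ Sx 4) (hs : s ∈ Sx 4) (i : Fin 4) : 0 ≤ xx p s i := by
  have h1 := hp.1 i
  have h2 := hs.1 i
  unfold xx
  positivity

lemma DD_eq (p s : Fin 4 → ℝ) : DD p s = 4 * ∑ j, p j * s j := by
  simp only [DD, xx, Fin.sum_univ_four]
  ring

lemma dot_eq_DD (p s : Fin 4 → ℝ) : ∑ j, p j * s j = DD p s / 4 := by
  rw [DD_eq]
  ring

lemma DD_nonneg (hp : p ∈ Sx 4) (hs : s ∈ Sx 4) : 0 ≤ DD p s := by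
  rw [DD_eq]
  have := dot_nonneg hp hs
  linarith

lemma DD_le (hp : p ∈ Sx 4) (hs : s ∈ Sx 4) : DD p s ≤ 4 := by
  rw [DD_eq]
  have := dot_le_one hp hs
  linarith

/-- The range of `P = D - 1`. -/
lemma P_mem (hp : p ∈ Sx 4) (hs : s ∈ Sx 4) : -1 ≤ DD p s - 1 ∧ DD p s - 1 ≤ 3 := by
  have h0 := DD_nonneg hp hs
  have h4 := DD_le hp hs
  constructor <;> linarith

lemma four_mul_K (f : (Fin 4 → ℝ) → ℝ) (p s : Fin 4 → ℝ) :
    4 * K f p s = DD p s * f (sp p s) := by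
  simp only [K]
  rw [dot_eq_DD]
  ring

lemma xx_zero_of_DD (hp : p ∈ Sx 4) (hs : s ∈ Sx 4) (h : DD p s = 0) (i : Fin 4) : xx p s i = 0 := by
  have h0 := xx_nonneg hp hs 0
  have h1 := xx_nonneg hp hs 1
  have h2 := xx_nonneg hp hs 2
  have h3 := xx_nonneg hp hs 3
  have hsum : xx p s 0 + xx p s 1 + xx p s 2 + xx p s 3 = 0 := by
    unfold DD at h
    linarith
  rcases fin4_cases i with rfl | rfl | rfl | rfl <;> linarith

lemma Nn_zero_of_DD (hp : p ∈ Sx 4) (hs : s ∈ Sx 4) (h : DD p s = 0) :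
    Nn1 p s = 0 ∧ Nn2 p s = 0 ∧ Nn3 p s = 0 := by
  have t := xx_zero_of_DD hp hs h
  simp only [Nn1, Nn2, Nn3, t]
  norm_num

lemma ca_sp (h : DD p s ≠ 0) : ca (sp p s) = Nn1 p s / DD p s := by
  have hS : ∑ j, p j * s j = DD p s / 4 := dot_eq_DD p s
  simp only [ca, sp, hS, Nn1, xx]
  field_simp
  ring

lemma cb_sp (h : DD p s ≠ 0) : cb (sp p s) = Nn2 p s / DD p s := by
  have hS : ∑ j, p j * s j = DD p s / 4 := dot_eq_DD p s
  simp only [cb, sp, hS, Nn2, xx]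
  field_simp
  ring

lemma cc_sp (h : DD p s ≠ 0) : cc (sp p s) = Nn3 p s / DD p s := by
  have hS : ∑ j, p j * s j = DD p s / 4 := dot_eq_DD p s
  simp only [cc, sp, hS, Nn3, xx]
  field_simp
  ring

lemma sp_mem_of_DD (hp : p ∈ Sx 4) (hs : s ∈ Sx 4) (h : DD p s ≠ 0) : sp p s ∈ Sx 4 := by
  apply PairQ4.sp_mem hp hs
  rw [dot_eq_DD]
  intro h'
  apply h
  linarith

lemma A_sp (hp : p ∈ Sx 4) (hs : s ∈ Sx 4) (h : DD p s ≠ 0) :
    A 4 (sp p s) = tt p s / DD p s ^ 2 := by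
  rw [A_eq (sp_mem_of_DD hp hs h), ca_sp h, cb_sp h, cc_sp h]
  simp only [tt]
  field_simp

lemma tau_sp (h : DD p s ≠ 0) : tau (sp p s) = nn p s / DD p s ^ 3 := by
  simp only [tau, ca_sp h, cb_sp h, cc_sp h, nn]
  field_simp

lemma ssq_sp (h : DD p s ≠ 0) : ssq (sp p s) = ss p s / DD p s ^ 4 := by
  simp only [ssq, ca_sp h, cb_sp h, cc_sp h, ss]
  field_simp

/-- `D⁵ Xi (post) = Y`. -/
lemma YY_eq (al be ga : ℝ) (hp : p ∈ Sx 4) (hs : s ∈ Sx 4) (h : DD p s ≠ 0) :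
    YY al be ga p s = DD p s ^ 5 * Xi al be ga (sp p s) := by
  simp only [Xi, YY]
  rw [A_sp hp hs h, tau_sp h, ssq_sp h]
  field_simp

/-- `4 K (A 4) = t / D` -/
lemma four_K_A (hp : p ∈ Sx 4) (hs : s ∈ Sx 4) : 4 * K (A 4) p s = tt p s / DD p s := by
  rw [four_mul_K]
  by_cases h : DD p s = 0
  · simp [h]
  · rw [A_sp hp hs h]
    field_simp

/-- `4 K Xi = Y / D⁴` -/
lemma four_K_Xi (al be ga : ℝ) (hp : p ∈ Sx 4) (hs : s ∈ Sx 4) :
    4 * K (Xi al be ga) p s = YY al be ga p s / DD p s ^ 4 := by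
  rw [four_mul_K]
  by_cases h : DD p s = 0
  · simp [h]
  · rw [YY_eq al be ga hp hs h]
    field_simp

/-- **(PP1)**, the per-permutation upper surrogate for `A`. -/
theorem pp1 {pp rr : ℝ → ℝ}
    (h0 : ∀ P, -1 ≤ P → P ≤ 3 → 0 ≤ rr P)
    (h1 : ∀ P, -1 ≤ P → P ≤ 3 → 3 * (1 + P) ≤ 3 * (1 + P) ^ 2 * pp P + rr P)
    (hp : p ∈ Sx 4) (hs : s ∈ Sx 4) :
    4 * K (A 4) p s ≤ tt p s * pp (DD p s - 1) + rr (DD p s - 1) := by
  obtain ⟨hP1, hP3⟩ := P_mem hp hs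
  have hr := h0 _ hP1 hP3
  by_cases h : DD p s = 0
  · obtain ⟨e1, e2, e3⟩ := Nn_zero_of_DD hp hs h
    rw [four_mul_K, h]
    simp only [tt, e1, e2, e3]
    rw [h] at hr
    simpa using hr
  · have hD : 0 < DD p s := lt_of_le_of_ne (DD_nonneg hp hs) (Ne.symm h)
    have hu := sp_mem_of_DD hp hs h
    have hA0 := A_nonneg hu
    have hA3 := A_le_three hu
    have hq := h1 _ hP1 hP3
    have e : 1 + (DD p s - 1) = DD p s := by ring
    rw [e] at hq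
    set P := DD p s - 1 with hPdef
    set a := A 4 (sp p s) with ha
    have ht : tt p s = a * DD p s ^ 2 := by
      rw [ha, A_sp hp hs h]
      field_simp
    rw [four_mul_K, ht]
    have h2 : 0 ≤ a / 3 := by positivity
    have h3 := mul_le_mul_of_nonneg_left hq h2
    have h4 : (a / 3) * rr P ≤ rr P := by
      have : a / 3 ≤ 1 := by linarith
      nlinarith
    have h5 : a / 3 * (3 * DD p s) = DD p s * a := by ring
    have h6 : a / 3 * (3 * DD p s ^ 2 * pp P + rr P) =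
        a * DD p s ^ 2 * pp P + (a / 3) * rr P := by ring
    linarith

/-- **(PP2)**, the per-permutation lower surrogate for `Xi`. -/
theorem pp2 {al be ga kap : ℝ} {QQ ee : ℝ → ℝ}
    (hXi : ∀ z ∈ Sx 4, -kap ≤ Xi al be ga z) (hkap : 0 ≤ kap)
    (hQ : ∀ P, -1 ≤ P → P ≤ 3 → (1 + P) ^ 4 * QQ P ≤ 1)
    (he : ∀ P, -1 ≤ P → P ≤ 3 → kap * ((1 + P) - (1 + P) ^ 5 * QQ P) ≤ ee P)
    (hp : p ∈ Sx 4) (hs : s ∈ Sx 4) :
    QQ (DD p s - 1) * YY al be ga p s - ee (DD p s - 1) ≤ 4 * K (Xi al be ga) p s := by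
  obtain ⟨hP1, hP3⟩ := P_mem hp hs
  have he' := he _ hP1 hP3
  have hQ' := hQ _ hP1 hP3
  have e : 1 + (DD p s - 1) = DD p s := by ring
  rw [e] at he' hQ'
  by_cases h : DD p s = 0
  · obtain ⟨e1, e2, e3⟩ := Nn_zero_of_DD hp hs h
    rw [four_mul_K, h]
    rw [h] at he'
    have hY : YY al be ga p s = 0 := by
      simp only [YY, nn, tt, ss, e1, e2, e3, h]
      ring
    rw [hY]
    norm_num at he' ⊢
    exact he'
  · have hD : 0 < DD p s := lt_of_le_of_ne (DD_nonneg hp hs) (Ne.symm h)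
    have hu := sp_mem_of_DD hp hs h
    rw [four_mul_K, YY_eq al be ga hp hs h]
    set v := Xi al be ga (sp p s) with hv
    set P := DD p s - 1 with hPdef
    have hv' : -kap ≤ v := hXi _ hu
    have hX : 0 ≤ DD p s - DD p s ^ 5 * QQ P := by
      have : DD p s ^ 5 * QQ P = DD p s * (DD p s ^ 4 * QQ P) := by ring
      rw [this]
      nlinarith
    have h1 : -kap * (DD p s - DD p s ^ 5 * QQ P) ≤ v * (DD p s - DD p s ^ 5 * QQ P) :=
      mul_le_mul_of_nonneg_right hv' hX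
    nlinarith

/-- (PP1) at `s = rel π r`. -/
theorem pp1_rel {pp rr : ℝ → ℝ}
    (h0 : ∀ P, -1 ≤ P → P ≤ 3 → 0 ≤ rr P)
    (h1 : ∀ P, -1 ≤ P → P ≤ 3 → 3 * (1 + P) ≤ 3 * (1 + P) ^ 2 * pp P + rr P)
    (hp : p ∈ Sx 4) (hr : r ∈ Sx 4) (π : Equiv.Perm (Fin 4)) :
    4 * K (A 4) p (rel π r) ≤
      tt p (rel π r) * pp (DD p (rel π r) - 1) + rr (DD p (rel π r) - 1) :=
  pp1 h0 h1 hp (rel_mem π hr)

/-- (PP2) at `s = rel π r`. -/
theorem pp2_rel {al be ga kap : ℝ} {QQ ee : ℝ → ℝ}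
    (hXi : ∀ z ∈ Sx 4, -kap ≤ Xi al be ga z) (hkap : 0 ≤ kap)
    (hQ : ∀ P, -1 ≤ P → P ≤ 3 → (1 + P) ^ 4 * QQ P ≤ 1)
    (he : ∀ P, -1 ≤ P → P ≤ 3 → kap * ((1 + P) - (1 + P) ^ 5 * QQ P) ≤ ee P)
    (hp : p ∈ Sx 4) (hr : r ∈ Sx 4) (π : Equiv.Perm (Fin 4)) :
    QQ (DD p (rel π r) - 1) * YY al be ga p (rel π r) - ee (DD p (rel π r) - 1) ≤
      4 * K (Xi al be ga) p (rel π r) :=
  pp2 hXi hkap hQ he hp (rel_mem π hr)

/-- The rewriting of `B` as an average over the group. -/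
lemma B_eq_avg (f : (Fin 4 → ℝ) → ℝ) (p r : Fin 4 → ℝ) :
    B f p r = (1 / 24) * ∑ π : Equiv.Perm (Fin 4), (4 : ℝ) * K f p (rel π r) :=
  PairQ4.B_eq f p r

/-! ### the functional `Xi` -/

lemma ssq_T (lam : ℝ) (p : Fin 4 → ℝ) : ssq (T 4 lam p) = lam ^ 4 * ssq p := by
  simp only [ssq, ca_T, cb_T, cc_T]
  ring

lemma Xi_T (al be ga lam : ℝ) (hp : p ∈ Sx 4) :
    Xi al be ga (T 4 lam p) =
      4 * lam ^ 3 * tau p - al * lam ^ 4 * A 4 p ^ 2 - be * lam ^ 4 * ssq p +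
        ga * lam ^ 5 * A 4 p * tau p := by
  simp only [Xi, tau_T, ssq_T]
  rw [A_T (by norm_num) lam hp]
  ring

/-- The hypothesis of the radial property follows from `|τ| ≤ A / 3`. -/
lemma radial_hyp {al be ga : ℝ} (hga : 0 ≤ ga) (hal : 2 * ga / 3 ≤ al) (hbe : 0 ≤ be)
    {z : Fin 4 → ℝ} (hz : z ∈ Sx 4) :
    ga * 2 * A 4 z * tau z ≤ al * A 4 z ^ 2 + be * ssq z := by
  have hA := A_nonneg hz
  have ht := (abs_le.1 (abs_tau_le hz)).2
  have hS := ssq_nonneg z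
  have h1 : A 4 z * tau z ≤ A 4 z * (A 4 z / 3) := mul_le_mul_of_nonneg_left ht hA
  have h2 : ga * 2 * (A 4 z * tau z) ≤ ga * 2 * (A 4 z * (A 4 z / 3)) :=
    mul_le_mul_of_nonneg_left h1 (by positivity)
  have h3 : (2 * ga / 3) * A 4 z ^ 2 ≤ al * A 4 z ^ 2 :=
    mul_le_mul_of_nonneg_right hal (sq_nonneg _)
  have h4 : 0 ≤ be * ssq z := mul_nonneg hbe hS
  nlinarith

/-- The radial property: `λ³ Xi p ≤ Xi (T 4 λ p)` for `0 ≤ λ ≤ 1`. -/
theorem Xi_radial {al be ga lam : ℝ} (hal : 0 ≤ al) (hbe : 0 ≤ be)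
    (hyp : ∀ z ∈ Sx 4, ga * 2 * A 4 z * tau z ≤ al * A 4 z ^ 2 + be * ssq z)
    (h0 : 0 ≤ lam) (h1 : lam ≤ 1) (hp : p ∈ Sx 4) :
    lam ^ 3 * Xi al be ga p ≤ Xi al be ga (T 4 lam p) := by
  rw [Xi_T al be ga lam hp]
  simp only [Xi]
  have hS := ssq_nonneg p
  have hh := hyp p hp
  set a := A 4 p
  set t := tau p
  set S := ssq p
  have hid : (4 * lam ^ 3 * t - al * lam ^ 4 * a ^ 2 - be * lam ^ 4 * S + ga * lam ^ 5 * a * t) -
      lam ^ 3 * (4 * t - al * a ^ 2 - be * S + ga * a * t) =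
      lam ^ 3 * (1 - lam) * (al * a ^ 2 + be * S - ga * (1 + lam) * (a * t)) := by ring
  have hnn : 0 ≤ al * a ^ 2 + be * S - ga * (1 + lam) * (a * t) := by
    have h5 : 0 ≤ al * a ^ 2 + be * S := by positivity
    by_cases hc : 0 ≤ ga * (a * t)
    · have h6 : (1 + lam) * (ga * (a * t)) ≤ 2 * (ga * (a * t)) :=
        mul_le_mul_of_nonneg_right (by linarith) hc
      nlinarith
    · push Not at hc
      have h6 : (1 + lam) * (ga * (a * t)) ≤ 0 :=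
        mul_nonpos_of_nonneg_of_nonpos (by linarith) hc.le
      nlinarith
  have h7 : 0 ≤ lam ^ 3 * (1 - lam) := mul_nonneg (by positivity) (by linarith)
  have := mul_nonneg h7 hnn
  linarith

/-- `Xi ≤ 4 τ` on the simplex. -/
theorem Xi_le_four_tau {al be ga : ℝ} (hal : 0 ≤ al) (hbe : 0 ≤ be)
    (hyp : ∀ z ∈ Sx 4, ga * 2 * A 4 z * tau z ≤ al * A 4 z ^ 2 + be * ssq z)
    (hp : p ∈ Sx 4) : Xi al be ga p ≤ 4 * tau p := by
  simp only [Xi]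
  have hS := ssq_nonneg p
  have hh := hyp p hp
  set a := A 4 p
  set t := tau p
  set S := ssq p
  have h5 : 0 ≤ al * a ^ 2 + be * S := by positivity
  by_cases hc : 0 ≤ ga * (a * t)
  · nlinarith
  · push Not at hc
    nlinarith

lemma ssq_baseL (a : Fin 4) : ssq (baseL 4 a) = 3 := by
  rcases fin4_cases a with rfl | rfl | rfl | rfl <;>
    norm_num [ssq, ca, cb, cc, baseL, Fin.ext_iff]

/-- The value of `Xi` at a vertex. -/
theorem Xi_baseL (al be ga : ℝ) (a : Fin 4) :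
    Xi al be ga (baseL 4 a) = 4 - 9 * al - 3 * be + 3 * ga := by
  simp only [Xi, tau_baseL, A_baseL, ssq_baseL]
  ring

/-- `Xi` at a vertex is nonnegative. -/
theorem Xi_baseL_nonneg {al be ga : ℝ} (h : 9 * al + 3 * be ≤ 4 + 3 * ga) (a : Fin 4) :
    0 ≤ Xi al be ga (baseL 4 a) := by
  rw [Xi_baseL]
  linarith

lemma A_uniform : A 4 (fun _ : Fin 4 => (1 / 4 : ℝ)) = 0 := by
  simp only [A, Fin.sum_univ_four]
  norm_num

lemma ssq_uniform : ssq (fun _ : Fin 4 => (1 / 4 : ℝ)) = 0 := by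
  norm_num [ssq, ca, cb, cc]

/-- `Xi` vanishes at the uniform point. -/
theorem Xi_uniform (al be ga : ℝ) : Xi al be ga (fun _ : Fin 4 => (1 / 4 : ℝ)) = 0 := by
  simp only [Xi, tau_uniform, A_uniform, ssq_uniform]
  ring

/-! ### boundedness -/

lemma ssq_le_three (hp : p ∈ Sx 4) : ssq p ≤ 3 := by
  have ha := abs_ca_le hp
  have hb := abs_cb_le hp
  have hc := abs_cc_le hp
  have ha2 : ca p ^ 2 ≤ 1 := by
    rw [← sq_abs]
    have := abs_nonneg (ca p)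
    nlinarith
  have hb2 : cb p ^ 2 ≤ 1 := by
    rw [← sq_abs]
    have := abs_nonneg (cb p)
    nlinarith
  have hc2 : cc p ^ 2 ≤ 1 := by
    rw [← sq_abs]
    have := abs_nonneg (cc p)
    nlinarith
  have h1 : ca p ^ 2 * cb p ^ 2 ≤ 1 := by
    have := sq_nonneg (ca p)
    have := sq_nonneg (cb p)
    nlinarith
  have h2 : cb p ^ 2 * cc p ^ 2 ≤ 1 := by
    have := sq_nonneg (cb p)
    have := sq_nonneg (cc p)
    nlinarith
  have h3 : cc p ^ 2 * ca p ^ 2 ≤ 1 := by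
    have := sq_nonneg (cc p)
    have := sq_nonneg (ca p)
    nlinarith
  unfold ssq
  linarith

lemma bddS_ssq : BddS (q := 4) ssq :=
  ⟨3, fun p hp => by
    rw [abs_of_nonneg (ssq_nonneg p)]
    exact ssq_le_three hp⟩

/-- Any continuous function of `(A, τ, ssq)` is bounded on the simplex; in particular any
polynomial. -/
theorem bddS_of_continuous {F : ℝ × ℝ × ℝ → ℝ} (hF : Continuous F) :
    BddS (q := 4) (fun p => F (A 4 p, tau p, ssq p)) := by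
  have hK : IsCompact (Set.Icc (0 : ℝ) 3 ×ˢ (Set.Icc (-1 : ℝ) 1 ×ˢ Set.Icc (0 : ℝ) 3)) :=
    isCompact_Icc.prod (isCompact_Icc.prod isCompact_Icc)
  obtain ⟨C, hC⟩ := hK.exists_bound_of_continuousOn hF.continuousOn
  refine ⟨C, fun p hp => ?_⟩
  have h := hC (A 4 p, tau p, ssq p) ?_
  · simpa using h
  · have h1 := abs_le.1 (abs_tau_le hp)
    have h2 := A_le_three hp
    refine ⟨⟨A_nonneg hp, h2⟩, ⟨⟨?_, ?_⟩, ⟨ssq_nonneg p, ssq_le_three hp⟩⟩⟩ <;> linarith [h1.1, h1.2]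

lemma bddS_Xi (al be ga : ℝ) : BddS (q := 4) (Xi al be ga) := by
  have h := bddS_of_continuous (F := fun x : ℝ × ℝ × ℝ =>
      4 * x.2.1 - al * x.1 ^ 2 - be * x.2.2 + ga * x.1 * x.2.1) (by fun_prop)
  exact h

end Crest.Agent.PottsTree.CertQ4PP
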