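import Crest.Agent.Lib.PottsTree.CertQ4Form
import Crest.Agent.Lib.PottsTree.CertQ4PerPerm
import Crest.Agent.Lib.PottsTree.CertQ4OneD

/-!
# The `q = 4` certificate: the average over the group, and the functionals

`sum_valS_xx`: the average over the group of a table at `x i = 16 p i r (π i)` is a diagonal bilinear
form.  The functions of the certificate: `Xi`, `rhoF`, `wF`.
-/

set_option linter.unusedVariables false

noncomputable section

namespace Crest.Agent.PottsTree.CertQ4.Avg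

open Kron Rows Sy Tab Form OneD
open Crest.Agent.PottsTree Crest.Agent.PottsTree.PairQ4 Crest.Agent.PottsTree.CertQ4PP

lemma valD_smulL (p r : Fin 4 → ℝ) (c : ℤ) (L : SL) :
    valD p r (smulL c L) = (c : ℝ) * valD p r L := by
  induction L with
  | nil => simp [smulL, valD]
  | cons h t ih =>
    change (Int.mul c h.2 : ℝ) * (16 : ℝ) ^ degE h.1 * (Sy p h.1 * Sy r h.1) + valD p r (smulL c t) = _
    have hI : ((Int.mul c h.2 : ℤ) : ℝ) = (c : ℝ) * h.2 := by
      exact_mod_cast Int.cast_mul c h.2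
    simp only [valD, hI, ih]
    ring

/-- the average of a table at the relabellings -/
lemma sum_valS_xx (p r : Fin 4 → ℝ) (L : SL) :
    ∑ π : Equiv.Perm (Fin 4), valS (xx p (rel π r)) L = valD p r L := by
  induction L with
  | nil => simp [valD]
  | cons h t ih =>
    simp only [valS_cons, Finset.sum_add_distrib, ih, valD]
    congr 1
    rw [← Finset.mul_sum]
    have h1 : ∑ π : Equiv.Perm (Fin 4), Sy (xx p (rel π r)) h.1 =
        Sy (fun j => 4 * p j) h.1 * Sy (fun j => 4 * r j) h.1 := by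
      rw [← sum_Sy_mul]
      refine Finset.sum_congr rfl fun π _ => ?_
      congr 1
      funext i
      exact xx_rel π i
    rw [h1, Sy_scale, Sy_scale, ← degE_eq]
    have e : (16 : ℝ) ^ degE h.1 = 4 ^ degE h.1 * 4 ^ degE h.1 := by
      rw [← mul_pow]
      norm_num
    rw [e]
    ring

/-- the sum of the coordinates -/
def sumX (x : Fin 4 → ℝ) : ℝ := x 0 + x 1 + x 2 + x 3

/-- the Fourier coefficient of `x` -/
def n1X (x : Fin 4 → ℝ) : ℝ := (x 0 + x 1 - x 2 - x 3) / 4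
/-- the Fourier coefficient of `x` -/
def n2X (x : Fin 4 → ℝ) : ℝ := (x 0 - x 1 + x 2 - x 3) / 4
/-- the Fourier coefficient of `x` -/
def n3X (x : Fin 4 → ℝ) : ℝ := (x 0 - x 1 - x 2 + x 3) / 4

/-- `t` -/
def tX (x : Fin 4 → ℝ) : ℝ := n1X x ^ 2 + n2X x ^ 2 + n3X x ^ 2

/-- `Y` -/
def yX (al be ga : ℝ) (x : Fin 4 → ℝ) : ℝ :=
  4 * (n1X x * n2X x * n3X x) * (sumX x / 4) ^ 2 - al * tX x ^ 2 * (sumX x / 4) -
    be * (n1X x ^ 2 * n2X x ^ 2 + n2X x ^ 2 * n3X x ^ 2 + n3X x ^ 2 * n1X x ^ 2) * (sumX x / 4) +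
    ga * tX x * (n1X x * n2X x * n3X x)

lemma DD_eq_sumX (p s : Fin 4 → ℝ) : DD p s = sumX (xx p s) / 4 := rfl
lemma tt_eq_tX (p s : Fin 4 → ℝ) : tt p s = tX (xx p s) := rfl
lemma YY_eq_yX (al be ga : ℝ) (p s : Fin 4 → ℝ) : YY al be ga p s = yX al be ga (xx p s) := rfl

/-- the constants of the functional -/
abbrev al0 : ℝ := 11 / 25
/-- the constants of the functional -/
abbrev be0 : ℝ := 7 / 25
/-- the constants of the functional -/
abbrev ga0 : ℝ := 9 / 20

/-- the functional -/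
abbrev Xi0 : (Fin 4 → ℝ) → ℝ := Xi al0 be0 ga0

lemma m_eq_one {p : Fin 4 → ℝ} (hp : p ∈ Sx 4) : p 0 + p 1 + p 2 + p 3 = 1 := by
  have h : ∑ i, p i = 1 := hp.2
  simpa [Fin.sum_univ_four] using h

end Crest.Agent.PottsTree.CertQ4.Avg

end

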