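import Crest.Agent.Lib.PottsTree.CertQ4RowsN2
import Crest.Agent.Lib.PottsTree.CertQ4Avg

/-!
# The `q = 4` certificate: the second inequality
-/

set_option maxRecDepth 100000
set_option linter.unusedVariables false

noncomputable section

namespace Crest.Agent.PottsTree.CertQ4.N2

open Kron Rows Sy Tab Form Avg OneD DataN2
open Crest.Agent.PottsTree Crest.Agent.PottsTree.PairQ4 Crest.Agent.PottsTree.CertQ4PP

/-- the multiplier of the second inequality -/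
def wF (p : Fin 4 → ℝ) : ℝ :=
  let A := A 4 p
  let t := tau p
  let S := ssq p
  1 +
    (-917 / 500) * (A) +
    (-1483 / 500) * (t) +
    (7031 / 1000) * (S) +
    (1141 / 1000) * (A ^ 2) +
    (-1278 / 125) * (A * t) +
    20 * (t ^ 2) +
    (-621 / 50) * (A * S) +
    (1023 / 500) * (A ^ 3) +
    (-4427 / 500) * (t * S) +
    (3641 / 200) * (A ^ 2 * t) +
    (-16799 / 1000) * (S ^ 2) +
    (-20) * (A * t ^ 2) +
    (257 / 25) * (A ^ 2 * S) +
    (-1557 / 500) * (A ^ 4) +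
    (-20) * (t ^ 3) +
    (7947 / 500) * (A * t * S) +
    (59 / 500) * (A ^ 3 * t) +
    (-20) * (t ^ 2 * S) +
    (299 / 40) * (A * S ^ 2) +
    (841 / 500) * (A ^ 2 * t ^ 2) +
    (-1161 / 250) * (A ^ 3 * S) +
    (761 / 1000) * (A ^ 5)

/-- the table of the second inequality -/
def cTab : SL :=
  polyL Es0 T1 ++ polyL2 Qs Es1 TY (pushL (pushL (pushL (pushL (pushL T1)))))

/-- the whole form -/
def chain : Option Acc4 :=
  Option.bind (accDiag (fullT (2 ^ 160) ((2 ^ 160) ^ 64) P Ps) (smulL (Int.negSucc 124) cTab)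
    (0, 0, 0, 0)) fun a =>
  Option.bind (accPair (fullT (2 ^ 160) ((2 ^ 160) ^ 64) P Ps) (Int.ofNat 36893488147419103232)
    xiT wT a) fun a =>
  accPair (fullT (2 ^ 160) ((2 ^ 160) ^ 64) P Ps) (Int.ofNat 36893488147419103232) wT xiT a

theorem mcheck :
    checkOpt (finalCheck (2 ^ 160) ((2 ^ 160) ^ 64) 68719476736 Mp Mm) chain = true := by
  decide +kernel

theorem P_len : P.length = 64 := by decide +kernel
theorem Mp_isM : IsM 64 Mp := ⟨by decide +kernel, by decide +kernel⟩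
theorem Mm_isM : IsM 64 Mm := ⟨by decide +kernel, by decide +kernel⟩

/-- the value of the form -/
def valF (p r : Fin 4 → ℝ) : ℝ :=
  valD p r (smulL (Int.negSucc 124) cTab) +
    ((Int.ofNat 36893488147419103232 : ℤ) : ℝ) * valS p xiT * valS r wT +
    ((Int.ofNat 36893488147419103232 : ℤ) : ℝ) * valS p wT * valS r xiT

theorem chain_spec {acc : Acc4} (h : chain = some acc) :
    AccP 64 (2 ^ 160) ((2 ^ 160) ^ 64) P acc valF := by
  have hT := fullT_good (N := 64) (Z := 2 ^ 160) (Z' := (2 ^ 160) ^ 64) (P := P) P_len Ps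
  simp only [chain, Option.bind_eq_some_iff] at h
  obtain ⟨a1, h1, a2, h2, h3⟩ := h
  have z := accP_zero 64 (2 ^ 160) ((2 ^ 160) ^ 64) P
  have s1 := accDiag_spec hT (smulL (Int.negSucc 124) cTab) z h1
  have s2 := accPair_spec hT _ xiT wT s1 h2
  have s3 := accPair_spec hT _ wT xiT s2 h3
  have s4 : AccP 64 (2 ^ 160) ((2 ^ 160) ^ 64) P acc (fun p r =>
      valD p r (smulL (Int.negSucc 124) cTab) +
      ((Int.ofNat 36893488147419103232 : ℤ) : ℝ) * valS p xiT * valS r wT +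
      ((Int.ofNat 36893488147419103232 : ℤ) : ℝ) * valS p wT * valS r xiT) := by
    simpa only [zero_add] using s3
  exact s4

/-- the form is nonpositive -/
theorem valF_nonpos {p r : Fin 4 → ℝ} (hp : p ∈ Sx 4) (hr : r ∈ Sx 4) : valF p r ≤ 0 := by
  obtain ⟨acc, hc, hm'⟩ := of_checkOpt mcheck
  have h := AccP.final (N := 64) (Z := 2 ^ 160) (g := 68719476736) (chain_spec hc) (by norm_num)
    (by norm_num) Mp_isM Mm_isM hm' p r (m_eq_one hp) (m_eq_one hr)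
  rw [h]
  exact mul_nonpos_of_nonneg_of_nonpos (Nat.cast_nonneg _) (sub_nonpos.2 (RowsN2.form_ineq hp.1 hr.1))

/-! ### the tables -/

lemma tab_T1 (z : Fin 4 → ℝ) : valS z T1 = 24 := by
  simp only [T1, valS_cons, valS_nil, Sy, sSum]
  norm_num

lemma tab_xi (p : Fin 4 → ℝ) (hp : p ∈ Sx 4) : valS p xiT = 600 * Xi0 p := by
  have hm := m_eq_one hp
  have e : valS p xiT = 600 * (4 * (ca p * cb p * cc p) * (p 0 + p 1 + p 2 + p 3) ^ 2 -
      al0 * (ca p ^ 2 + cb p ^ 2 + cc p ^ 2) ^ 2 * (p 0 + p 1 + p 2 + p 3) -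
      be0 * ssq p * (p 0 + p 1 + p 2 + p 3) +
      ga0 * (ca p ^ 2 + cb p ^ 2 + cc p ^ 2) * (ca p * cb p * cc p)) := by
    simp only [xiT, valS_cons, valS_nil, Sy, sSum, ssq, ca, cb, cc, Int.cast_negSucc, al0, be0, ga0]
    push_cast
    ring
  rw [e, hm]
  simp only [Xi0, Xi, tau, A_eq hp]
  ring

lemma tab_w (p : Fin 4 → ℝ) (hp : p ∈ Sx 4) : valS p wT = 1500 * wF p := by
  have hm := m_eq_one hp
  have e : valS p wT = 1500 * (
      1 * ((p 0 + p 1 + p 2 + p 3) ^ 10) +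
      (-917 / 500) * ((ca p ^ 2 + cb p ^ 2 + cc p ^ 2) * (p 0 + p 1 + p 2 + p 3) ^ 8) +
      (-1483 / 500) * ((ca p * cb p * cc p) * (p 0 + p 1 + p 2 + p 3) ^ 7) +
      (7031 / 1000) * (ssq p * (p 0 + p 1 + p 2 + p 3) ^ 6) +
      (1141 / 1000) * ((ca p ^ 2 + cb p ^ 2 + cc p ^ 2) ^ 2 * (p 0 + p 1 + p 2 + p 3) ^ 6) +
      (-1278 / 125) * ((ca p ^ 2 + cb p ^ 2 + cc p ^ 2) * (ca p * cb p * cc p) * (p 0 + p 1 + p 2 + p 3) ^ 5) +
      20 * ((ca p * cb p * cc p) ^ 2 * (p 0 + p 1 + p 2 + p 3) ^ 4) +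
      (-621 / 50) * ((ca p ^ 2 + cb p ^ 2 + cc p ^ 2) * ssq p * (p 0 + p 1 + p 2 + p 3) ^ 4) +
      (1023 / 500) * ((ca p ^ 2 + cb p ^ 2 + cc p ^ 2) ^ 3 * (p 0 + p 1 + p 2 + p 3) ^ 4) +
      (-4427 / 500) * ((ca p * cb p * cc p) * ssq p * (p 0 + p 1 + p 2 + p 3) ^ 3) +
      (3641 / 200) * ((ca p ^ 2 + cb p ^ 2 + cc p ^ 2) ^ 2 * (ca p * cb p * cc p) * (p 0 + p 1 + p 2 + p 3) ^ 3) +
      (-16799 / 1000) * (ssq p ^ 2 * (p 0 + p 1 + p 2 + p 3) ^ 2) +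
      (-20) * ((ca p ^ 2 + cb p ^ 2 + cc p ^ 2) * (ca p * cb p * cc p) ^ 2 * (p 0 + p 1 + p 2 + p 3) ^ 2) +
      (257 / 25) * ((ca p ^ 2 + cb p ^ 2 + cc p ^ 2) ^ 2 * ssq p * (p 0 + p 1 + p 2 + p 3) ^ 2) +
      (-1557 / 500) * ((ca p ^ 2 + cb p ^ 2 + cc p ^ 2) ^ 4 * (p 0 + p 1 + p 2 + p 3) ^ 2) +
      (-20) * ((ca p * cb p * cc p) ^ 3 * (p 0 + p 1 + p 2 + p 3)) +
      (7947 / 500) * ((ca p ^ 2 + cb p ^ 2 + cc p ^ 2) * (ca p * cb p * cc p) * ssq p * (p 0 + p 1 + p 2 + p 3)) +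
      (59 / 500) * ((ca p ^ 2 + cb p ^ 2 + cc p ^ 2) ^ 3 * (ca p * cb p * cc p) * (p 0 + p 1 + p 2 + p 3)) +
      (-20) * ((ca p * cb p * cc p) ^ 2 * ssq p) +
      (299 / 40) * ((ca p ^ 2 + cb p ^ 2 + cc p ^ 2) * ssq p ^ 2) +
      (841 / 500) * ((ca p ^ 2 + cb p ^ 2 + cc p ^ 2) ^ 2 * (ca p * cb p * cc p) ^ 2) +
      (-1161 / 250) * ((ca p ^ 2 + cb p ^ 2 + cc p ^ 2) ^ 3 * ssq p) +
      (761 / 1000) * ((ca p ^ 2 + cb p ^ 2 + cc p ^ 2) ^ 5)) := by
    simp only [wT, valS_cons, valS_nil, Sy, sSum, ssq, ca, cb, cc, Int.cast_negSucc]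
    push_cast
    ring
  rw [e, hm]
  simp only [wF, tau, A_eq hp]
  ring

lemma tab_Y (x : Fin 4 → ℝ) : valS x TY = 614400 * yX al0 be0 ga0 x := by
  simp only [TY, valS_cons, valS_nil, Sy, sSum, yX, tX, sumX, n1X, n2X, n3X, Int.cast_negSucc, al0,
    be0, ga0]
  push_cast
  ring

lemma poly_Q (X : ℝ) : polyV Qs X = 18014398509481984 * QQF (X / 4 - 1) := by
  simp only [Qs, polyV, QQF, Int.cast_negSucc]
  push_cast
  ring

lemma poly_E (X : ℝ) : polyV Es0 X + X ^ 5 * polyV Es1 X =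
    -(25 * 18446744073709551616 * eeF (X / 4 - 1)) := by
  simp only [Es0, Es1, polyV, eeF, Int.cast_negSucc]
  push_cast
  ring

/-- the polynomial of the second inequality at `x` -/
def G2 (x : Fin 4 → ℝ) : ℝ :=
  QQF (sumX x / 4 - 1) * yX al0 be0 ga0 x - eeF (sumX x / 4 - 1)

lemma tab_G2 (x : Fin 4 → ℝ) : valS x cTab = 11068046444225730969600 * G2 x := by
  have h1 := tab_T1 x
  have h2 := tab_Y x
  rw [cTab, valS_append, valS_polyL, valS_polyL2, valS_pushL, valS_pushL, valS_pushL, valS_pushL,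
    valS_pushL, h1, h2]
  have h3 := poly_Q (x 0 + x 1 + x 2 + x 3)
  have h4 := poly_E (x 0 + x 1 + x 2 + x 3)
  rw [h3]
  simp only [G2, sumX]
  set X := x 0 + x 1 + x 2 + x 3
  have h5 : polyV Es0 X * 24 + (18014398509481984 * QQF (X / 4 - 1) * (614400 * yX al0 be0 ga0 x) +
      polyV Es1 X * (24 * X * X * X * X * X)) =
      24 * (polyV Es0 X + X ^ 5 * polyV Es1 X) +
        18014398509481984 * QQF (X / 4 - 1) * (614400 * yX al0 be0 ga0 x) := by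
    ring
  rw [h5, h4]
  ring

/-- **The second inequality**, given the lower bound of the functional. -/
theorem N2_ineq (hXi : ∀ z ∈ Sx 4, -(443 / 1000) ≤ Xi0 z)
    {p r : Fin 4 → ℝ} (hp : p ∈ Sx 4) (hr : r ∈ Sx 4) :
    wF r * Xi0 p + wF p * Xi0 r ≤ B Xi0 p r := by
  have h0 := valF_nonpos hp hr
  have h1 : ∀ π : Equiv.Perm (Fin 4), G2 (xx p (rel π r)) ≤ 4 * K Xi0 p (rel π r) := fun π => by
    have h := pp2_rel (al := al0) (be := be0) (ga := ga0) (kap := 443 / 1000) hXi (by norm_num)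
      QQ_valid ee_valid hp hr π
    simpa only [G2, DD_eq_sumX, YY_eq_yX] using h
  have h2 : (1 / 24) * ∑ π : Equiv.Perm (Fin 4), G2 (xx p (rel π r)) ≤ B Xi0 p r := by
    rw [B_eq_avg]
    exact mul_le_mul_of_nonneg_left (Finset.sum_le_sum fun π _ => h1 π) (by norm_num)
  have h3 : valD p r cTab = 11068046444225730969600 * ∑ π : Equiv.Perm (Fin 4), G2 (xx p (rel π r)) := by
    rw [← sum_valS_xx, Finset.mul_sum]
    exact Finset.sum_congr rfl fun π _ => tab_G2 _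
  have hk : ((Int.negSucc 124 : ℤ) : ℝ) = -125 := by
    rw [Int.cast_negSucc]
    norm_num
  have hk1 : ((Int.ofNat 36893488147419103232 : ℤ) : ℝ) = 36893488147419103232 := by norm_num
  simp only [valF, valD_smulL, h3, tab_xi p hp, tab_xi r hr, tab_w p hp, tab_w r hr, hk, hk1] at h0
  have h4 : wF r * Xi0 p + wF p * Xi0 r ≤ (1 / 24) * ∑ π : Equiv.Perm (Fin 4), G2 (xx p (rel π r)) := by
    linarith
  linarith

end Crest.Agent.PottsTree.CertQ4.N2

end
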