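import Crest.Agent.Lib.PottsTree.CertQ4DataN1
import Crest.Agent.Lib.PottsTree.CertQ4DataN2

/-! Nonnegativity of the multipliers and the lower bound for the functional of the `q = 4`
certificate (generated): Pólya's theorem in the sorted chamber, with an exponent found by search. -/

set_option maxRecDepth 100000
set_option linter.unusedVariables false

namespace Crest.Agent.PottsTree.CertQ4.Unary

open Kron Rows Sy Tab Form

/-- the table of the lower bound -/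
def xiKT : SL := [((5,0,0,0),Int.ofNat 2200),((4,1,0,0),Int.ofNat 40200),((3,2,0,0),Int.negSucc 131279),((2,2,1,0),Int.negSucc 235919),((2,1,1,1),Int.ofNat 120320),((3,1,1,0),Int.ofNat 204480),((0,0,0,0),Int.ofNat 443)]

theorem hinj8 : ∀ s s' : Fin 4 →₀ ℕ, degOf s = 8 → degOf s' = 8 →
    Kron.keyOf (wOf 1 9 81) s = Kron.keyOf (wOf 1 9 81) s' → s = s' := by
  intro s s' hs hs' hk
  have h1 : s 0 + s 1 + s 2 + s 3 = 8 := by simpa [degOf, Fin.sum_univ_four] using hs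
  have h2 : s' 0 + s' 1 + s' 2 + s' 3 = 8 := by simpa [degOf, Fin.sum_univ_four] using hs'
  have h3 : s 1 + 9 * s 2 + 81 * s 3 = s' 1 + 9 * s' 2 + 81 * s' 3 := by
    simpa [keyOf, wOf, Fin.sum_univ_four] using hk
  have b1 : s 1 + 9 * s 2 ≤ 9 * 8 := by omega
  have b2 : s' 1 + 9 * s' 2 ≤ 9 * 8 := by omega
  have e3 : s 3 = s' 3 := by omega
  have e2 : s 2 = s' 2 := by omega
  have e1 : s 1 = s' 1 := by omega
  have e0 : s 0 = s' 0 := by omega
  ext i
  fin_cases i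
  · exact e0
  · exact e1
  · exact e2
  · exact e3

theorem hJ8 : ∀ s : Fin 4 →₀ ℕ, degOf s = 8 → Kron.keyOf (wOf 1 9 81) s < 649 := by
  intro s hs
  have h1 : s 0 + s 1 + s 2 + s 3 = 8 := by simpa [degOf, Fin.sum_univ_four] using hs
  have h3 : Kron.keyOf (wOf 1 9 81) s = s 1 + 9 * s 2 + 81 * s 3 := by
    simp [keyOf, wOf, Fin.sum_univ_four]
  rw [h3]
  omega

/-- nonnegativity -/
theorem rho_nn {z : Fin 4 → ℝ} (hz : ∀ i, 0 ≤ z i) (hsum : z 0 + z 1 + z 2 + z 3 = 1) :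
    0 ≤ valS z DataN1.rhoT :=
  valS_nonneg (n := 8) (L := 37) (J := 649) (w1 := 1) (w2 := 9) (w3 := 81) (by norm_num) hinj8 hJ8
    DataN1.rhoT (by decide +kernel) (by decide +kernel) (by decide +kernel) (by decide +kernel) hz hsum

theorem hinj14 : ∀ s s' : Fin 4 →₀ ℕ, degOf s = 14 → degOf s' = 14 →
    Kron.keyOf (wOf 1 15 225) s = Kron.keyOf (wOf 1 15 225) s' → s = s' := by
  intro s s' hs hs' hk
  have h1 : s 0 + s 1 + s 2 + s 3 = 14 := by simpa [degOf, Fin.sum_univ_four] using hs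
  have h2 : s' 0 + s' 1 + s' 2 + s' 3 = 14 := by simpa [degOf, Fin.sum_univ_four] using hs'
  have h3 : s 1 + 15 * s 2 + 225 * s 3 = s' 1 + 15 * s' 2 + 225 * s' 3 := by
    simpa [keyOf, wOf, Fin.sum_univ_four] using hk
  have b1 : s 1 + 15 * s 2 ≤ 15 * 14 := by omega
  have b2 : s' 1 + 15 * s' 2 ≤ 15 * 14 := by omega
  have e3 : s 3 = s' 3 := by omega
  have e2 : s 2 = s' 2 := by omega
  have e1 : s 1 = s' 1 := by omega
  have e0 : s 0 = s' 0 := by omega
  ext i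
  fin_cases i
  · exact e0
  · exact e1
  · exact e2
  · exact e3

theorem hJ14 : ∀ s : Fin 4 →₀ ℕ, degOf s = 14 → Kron.keyOf (wOf 1 15 225) s < 3151 := by
  intro s hs
  have h1 : s 0 + s 1 + s 2 + s 3 = 14 := by simpa [degOf, Fin.sum_univ_four] using hs
  have h3 : Kron.keyOf (wOf 1 15 225) s = s 1 + 15 * s 2 + 225 * s 3 := by
    simp [keyOf, wOf, Fin.sum_univ_four]
  rw [h3]
  omega

/-- nonnegativity -/
theorem w_nn {z : Fin 4 → ℝ} (hz : ∀ i, 0 ≤ z i) (hsum : z 0 + z 1 + z 2 + z 3 = 1) :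
    0 ≤ valS z DataN2.wT :=
  valS_nonneg (n := 14) (L := 60) (J := 3151) (w1 := 1) (w2 := 15) (w3 := 225) (by norm_num) hinj14 hJ14
    DataN2.wT (by decide +kernel) (by decide +kernel) (by decide +kernel) (by decide +kernel) hz hsum

theorem hinj5 : ∀ s s' : Fin 4 →₀ ℕ, degOf s = 5 → degOf s' = 5 →
    Kron.keyOf (wOf 1 6 36) s = Kron.keyOf (wOf 1 6 36) s' → s = s' := by
  intro s s' hs hs' hk
  have h1 : s 0 + s 1 + s 2 + s 3 = 5 := by simpa [degOf, Fin.sum_univ_four] using hs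
  have h2 : s' 0 + s' 1 + s' 2 + s' 3 = 5 := by simpa [degOf, Fin.sum_univ_four] using hs'
  have h3 : s 1 + 6 * s 2 + 36 * s 3 = s' 1 + 6 * s' 2 + 36 * s' 3 := by
    simpa [keyOf, wOf, Fin.sum_univ_four] using hk
  have b1 : s 1 + 6 * s 2 ≤ 6 * 5 := by omega
  have b2 : s' 1 + 6 * s' 2 ≤ 6 * 5 := by omega
  have e3 : s 3 = s' 3 := by omega
  have e2 : s 2 = s' 2 := by omega
  have e1 : s 1 = s' 1 := by omega
  have e0 : s 0 = s' 0 := by omega
  ext i
  fin_cases i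
  · exact e0
  · exact e1
  · exact e2
  · exact e3

theorem hJ5 : ∀ s : Fin 4 →₀ ℕ, degOf s = 5 → Kron.keyOf (wOf 1 6 36) s < 181 := by
  intro s hs
  have h1 : s 0 + s 1 + s 2 + s 3 = 5 := by simpa [degOf, Fin.sum_univ_four] using hs
  have h3 : Kron.keyOf (wOf 1 6 36) s = s 1 + 6 * s 2 + 36 * s 3 := by
    simp [keyOf, wOf, Fin.sum_univ_four]
  rw [h3]
  omega

/-- nonnegativity -/
theorem xi_nn {z : Fin 4 → ℝ} (hz : ∀ i, 0 ≤ z i) (hsum : z 0 + z 1 + z 2 + z 3 = 1) :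
    0 ≤ valS z xiKT :=
  valS_nonneg (n := 5) (L := 33) (J := 181) (w1 := 1) (w2 := 6) (w3 := 36) (by norm_num) hinj5 hJ5
    xiKT (by decide +kernel) (by decide +kernel) (by decide +kernel) (by decide +kernel) hz hsum

end Crest.Agent.PottsTree.CertQ4.Unary
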