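import Crest.Agent.Lib.PottsTree.Regular

/-!
# Pair bounds for `q = 4`: the functionals `A` and `tau` under the star product

Fourier coordinates on `Fin 4`: `4 p_g = 1 + a χ₁(g) + b χ₂(g) + c χ₃(g)`, so that
`A 4 p = a² + b² + c²`, and the cubic invariant is `tau p = a b c`.  Main results, for `p, r ∈ Sx 4`:

* `B_A_ge` : `A p + A r - 4 (A p * tau r + A r * tau p) - 6 tau p * tau r ≤ B (A 4) p r`;
* `B_tau_le` : `B tau p r ≤ tau p + tau r + (166/9) * A p * A r`;
* `tau_T` : `tau (T 4 lam p) = lam ^ 3 * tau p`;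
* the same at the level of experiments: `pot_A_star_ge`, `pot_tau_star_le`, `pot_tau_contract`.
-/

set_option linter.unusedSimpArgs false
set_option linter.unusedTactic false
set_option linter.unreachableTactic false
set_option linter.unnecessarySeqFocus false

namespace Crest.Agent.PottsTree.PairQ4

open Finset
open Crest.Agent.PottsTree

/-- first Fourier coordinate -/
def ca (p : Fin 4 → ℝ) : ℝ := p 0 + p 1 - p 2 - p 3
/-- second Fourier coordinate -/
def cb (p : Fin 4 → ℝ) : ℝ := p 0 - p 1 + p 2 - p 3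
/-- third Fourier coordinate -/
def cc (p : Fin 4 → ℝ) : ℝ := p 0 - p 1 - p 2 + p 3

/-- the cubic invariant -/
def tau (p : Fin 4 → ℝ) : ℝ := ca p * cb p * cc p

/-- the quartic invariant `a²b² + b²c² + c²a²` -/
def ssq (p : Fin 4 → ℝ) : ℝ := ca p ^ 2 * cb p ^ 2 + cb p ^ 2 * cc p ^ 2 + cc p ^ 2 * ca p ^ 2

/-! ### enumerating the permutations of `Fin 4` -/

/-- a permutation from its table of values and the table of its inverse -/
def mkP (a b c d a' b' c' d' : Fin 4)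
    (h1 : Function.LeftInverse ![a', b', c', d'] ![a, b, c, d] := by decide)
    (h2 : Function.RightInverse ![a', b', c', d'] ![a, b, c, d] := by decide) :
    Equiv.Perm (Fin 4) :=
  ⟨![a, b, c, d], ![a', b', c', d'], h1, h2⟩

/-- enumeration -/
def pp0 : Equiv.Perm (Fin 4) := mkP 0 1 2 3 0 1 2 3
/-- enumeration -/
def pp1 : Equiv.Perm (Fin 4) := mkP 0 1 3 2 0 1 3 2
/-- enumeration -/
def pp2 : Equiv.Perm (Fin 4) := mkP 0 2 1 3 0 2 1 3
/-- enumeration -/
def pp3 : Equiv.Perm (Fin 4) := mkP 0 2 3 1 0 3 1 2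
/-- enumeration -/
def pp4 : Equiv.Perm (Fin 4) := mkP 0 3 1 2 0 2 3 1
/-- enumeration -/
def pp5 : Equiv.Perm (Fin 4) := mkP 0 3 2 1 0 3 2 1
/-- enumeration -/
def pp6 : Equiv.Perm (Fin 4) := mkP 1 0 2 3 1 0 2 3
/-- enumeration -/
def pp7 : Equiv.Perm (Fin 4) := mkP 1 0 3 2 1 0 3 2
/-- enumeration -/
def pp8 : Equiv.Perm (Fin 4) := mkP 1 2 0 3 2 0 1 3
/-- enumeration -/
def pp9 : Equiv.Perm (Fin 4) := mkP 1 2 3 0 3 0 1 2
/-- enumeration -/
def pp10 : Equiv.Perm (Fin 4) := mkP 1 3 0 2 2 0 3 1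
/-- enumeration -/
def pp11 : Equiv.Perm (Fin 4) := mkP 1 3 2 0 3 0 2 1
/-- enumeration -/
def pp12 : Equiv.Perm (Fin 4) := mkP 2 0 1 3 1 2 0 3
/-- enumeration -/
def pp13 : Equiv.Perm (Fin 4) := mkP 2 0 3 1 1 3 0 2
/-- enumeration -/
def pp14 : Equiv.Perm (Fin 4) := mkP 2 1 0 3 2 1 0 3
/-- enumeration -/
def pp15 : Equiv.Perm (Fin 4) := mkP 2 1 3 0 3 1 0 2
/-- enumeration -/
def pp16 : Equiv.Perm (Fin 4) := mkP 2 3 0 1 2 3 0 1
/-- enumeration -/
def pp17 : Equiv.Perm (Fin 4) := mkP 2 3 1 0 3 2 0 1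
/-- enumeration -/
def pp18 : Equiv.Perm (Fin 4) := mkP 3 0 1 2 1 2 3 0
/-- enumeration -/
def pp19 : Equiv.Perm (Fin 4) := mkP 3 0 2 1 1 3 2 0
/-- enumeration -/
def pp20 : Equiv.Perm (Fin 4) := mkP 3 1 0 2 2 1 3 0
/-- enumeration -/
def pp21 : Equiv.Perm (Fin 4) := mkP 3 1 2 0 3 1 2 0
/-- enumeration -/
def pp22 : Equiv.Perm (Fin 4) := mkP 3 2 0 1 2 3 1 0
/-- enumeration -/
def pp23 : Equiv.Perm (Fin 4) := mkP 3 2 1 0 3 2 1 0

lemma univ_perm : (Finset.univ : Finset (Equiv.Perm (Fin 4))) =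
    {pp0, pp1, pp2, pp3, pp4, pp5, pp6, pp7, pp8, pp9, pp10, pp11, pp12, pp13, pp14, pp15, pp16, pp17, pp18, pp19, pp20, pp21, pp22, pp23} := by
  decide

lemma sum_perm (G : Equiv.Perm (Fin 4) → ℝ) : ∑ π, G π =
    G pp0 + G pp1 + G pp2 + G pp3 + G pp4 + G pp5 + G pp6 + G pp7 + G pp8 + G pp9 + G pp10 + G pp11 + G pp12 + G pp13 + G pp14 + G pp15 + G pp16 + G pp17 + G pp18 + G pp19 + G pp20 + G pp21 + G pp22 + G pp23 := by
  rw [univ_perm]
  rw [Finset.sum_insert (by decide), Finset.sum_insert (by decide), Finset.sum_insert (by decide), Finset.sum_insert (by decide), Finset.sum_insert (by decide), Finset.sum_insert (by decide), Finset.sum_insert (by decide), Finset.sum_insert (by decide), Finset.sum_insert (by decide), Finset.sum_insert (by decide), Finset.sum_insert (by decide), Finset.sum_insert (by decide), Finset.sum_insert (by decide), Finset.sum_insert (by decide), Finset.sum_insert (by decide), Finset.sum_insert (by decide),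 Finset.sum_insert (by decide), Finset.sum_insert (by decide), Finset.sum_insert (by decide), Finset.sum_insert (by decide), Finset.sum_insert (by decide), Finset.sum_insert (by decide), Finset.sum_insert (by decide), Finset.sum_singleton]
  ring

lemma sum_perm_coord (F : ℝ → ℝ → ℝ → ℝ) (r : Fin 4 → ℝ) (x y z : ℝ) (hx : ca r = x) (hy : cb r = y)
    (hz : cc r = z) :
    ∑ π : Equiv.Perm (Fin 4), F (ca (rel π r)) (cb (rel π r)) (cc (rel π r)) =
      F x y z +
      F x z y +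
      F y x z +
      F y z x +
      F z x y +
      F z y x +
      F x (-z) (-y) +
      F x (-y) (-z) +
      F (-z) x (-y) +
      F (-z) (-y) x +
      F (-y) x (-z) +
      F (-y) (-z) x +
      F y (-z) (-x) +
      F y (-x) (-z) +
      F (-z) y (-x) +
      F (-z) (-x) y +
      F (-x) y (-z) +
      F (-x) (-z) y +
      F z (-y) (-x) +
      F z (-x) (-y) +
      F (-y) z (-x) +
      F (-y) (-x) z +
      F (-x) z (-y) +
      F (-x) (-y) z := by
  subst hx hy hz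
  rw [sum_perm]
  have e0_0 : ca (rel pp0 r) = ca r := by
    show r 0 + r 1 - r 2 - r 3 = _
    simp only [ca, cb, cc] <;> ring
  have e0_1 : cb (rel pp0 r) = cb r := by
    show r 0 - r 1 + r 2 - r 3 = _
    simp only [ca, cb, cc] <;> ring
  have e0_2 : cc (rel pp0 r) = cc r := by
    show r 0 - r 1 - r 2 + r 3 = _
    simp only [ca, cb, cc] <;> ring
  have e1_0 : ca (rel pp1 r) = ca r := by
    show r 0 + r 1 - r 3 - r 2 = _
    simp only [ca, cb, cc] <;> ring
  have e1_1 : cb (rel pp1 r) = cc r := by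
    show r 0 - r 1 + r 3 - r 2 = _
    simp only [ca, cb, cc] <;> ring
  have e1_2 : cc (rel pp1 r) = cb r := by
    show r 0 - r 1 - r 3 + r 2 = _
    simp only [ca, cb, cc] <;> ring
  have e2_0 : ca (rel pp2 r) = cb r := by
    show r 0 + r 2 - r 1 - r 3 = _
    simp only [ca, cb, cc] <;> ring
  have e2_1 : cb (rel pp2 r) = ca r := by
    show r 0 - r 2 + r 1 - r 3 = _
    simp only [ca, cb, cc] <;> ring
  have e2_2 : cc (rel pp2 r) = cc r := by
    show r 0 - r 2 - r 1 + r 3 = _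
    simp only [ca, cb, cc] <;> ring
  have e3_0 : ca (rel pp3 r) = cb r := by
    show r 0 + r 2 - r 3 - r 1 = _
    simp only [ca, cb, cc] <;> ring
  have e3_1 : cb (rel pp3 r) = cc r := by
    show r 0 - r 2 + r 3 - r 1 = _
    simp only [ca, cb, cc] <;> ring
  have e3_2 : cc (rel pp3 r) = ca r := by
    show r 0 - r 2 - r 3 + r 1 = _
    simp only [ca, cb, cc] <;> ring
  have e4_0 : ca (rel pp4 r) = cc r := by
    show r 0 + r 3 - r 1 - r 2 = _
    simp only [ca, cb, cc] <;> ring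
  have e4_1 : cb (rel pp4 r) = ca r := by
    show r 0 - r 3 + r 1 - r 2 = _
    simp only [ca, cb, cc] <;> ring
  have e4_2 : cc (rel pp4 r) = cb r := by
    show r 0 - r 3 - r 1 + r 2 = _
    simp only [ca, cb, cc] <;> ring
  have e5_0 : ca (rel pp5 r) = cc r := by
    show r 0 + r 3 - r 2 - r 1 = _
    simp only [ca, cb, cc] <;> ring
  have e5_1 : cb (rel pp5 r) = cb r := by
    show r 0 - r 3 + r 2 - r 1 = _
    simp only [ca, cb, cc] <;> ring
  have e5_2 : cc (rel pp5 r) = ca r := by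
    show r 0 - r 3 - r 2 + r 1 = _
    simp only [ca, cb, cc] <;> ring
  have e6_0 : ca (rel pp6 r) = ca r := by
    show r 1 + r 0 - r 2 - r 3 = _
    simp only [ca, cb, cc] <;> ring
  have e6_1 : cb (rel pp6 r) = -cc r := by
    show r 1 - r 0 + r 2 - r 3 = _
    simp only [ca, cb, cc] <;> ring
  have e6_2 : cc (rel pp6 r) = -cb r := by
    show r 1 - r 0 - r 2 + r 3 = _
    simp only [ca, cb, cc] <;> ring
  have e7_0 : ca (rel pp7 r) = ca r := by
    show r 1 + r 0 - r 3 - r 2 = _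
    simp only [ca, cb, cc] <;> ring
  have e7_1 : cb (rel pp7 r) = -cb r := by
    show r 1 - r 0 + r 3 - r 2 = _
    simp only [ca, cb, cc] <;> ring
  have e7_2 : cc (rel pp7 r) = -cc r := by
    show r 1 - r 0 - r 3 + r 2 = _
    simp only [ca, cb, cc] <;> ring
  have e8_0 : ca (rel pp8 r) = -cc r := by
    show r 1 + r 2 - r 0 - r 3 = _
    simp only [ca, cb, cc] <;> ring
  have e8_1 : cb (rel pp8 r) = ca r := by
    show r 1 - r 2 + r 0 - r 3 = _
    simp only [ca, cb, cc] <;> ring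
  have e8_2 : cc (rel pp8 r) = -cb r := by
    show r 1 - r 2 - r 0 + r 3 = _
    simp only [ca, cb, cc] <;> ring
  have e9_0 : ca (rel pp9 r) = -cc r := by
    show r 1 + r 2 - r 3 - r 0 = _
    simp only [ca, cb, cc] <;> ring
  have e9_1 : cb (rel pp9 r) = -cb r := by
    show r 1 - r 2 + r 3 - r 0 = _
    simp only [ca, cb, cc] <;> ring
  have e9_2 : cc (rel pp9 r) = ca r := by
    show r 1 - r 2 - r 3 + r 0 = _
    simp only [ca, cb, cc] <;> ring
  have e10_0 : ca (rel pp10 r) = -cb r := by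
    show r 1 + r 3 - r 0 - r 2 = _
    simp only [ca, cb, cc] <;> ring
  have e10_1 : cb (rel pp10 r) = ca r := by
    show r 1 - r 3 + r 0 - r 2 = _
    simp only [ca, cb, cc] <;> ring
  have e10_2 : cc (rel pp10 r) = -cc r := by
    show r 1 - r 3 - r 0 + r 2 = _
    simp only [ca, cb, cc] <;> ring
  have e11_0 : ca (rel pp11 r) = -cb r := by
    show r 1 + r 3 - r 2 - r 0 = _
    simp only [ca, cb, cc] <;> ring
  have e11_1 : cb (rel pp11 r) = -cc r := by
    show r 1 - r 3 + r 2 - r 0 = _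
    simp only [ca, cb, cc] <;> ring
  have e11_2 : cc (rel pp11 r) = ca r := by
    show r 1 - r 3 - r 2 + r 0 = _
    simp only [ca, cb, cc] <;> ring
  have e12_0 : ca (rel pp12 r) = cb r := by
    show r 2 + r 0 - r 1 - r 3 = _
    simp only [ca, cb, cc] <;> ring
  have e12_1 : cb (rel pp12 r) = -cc r := by
    show r 2 - r 0 + r 1 - r 3 = _
    simp only [ca, cb, cc] <;> ring
  have e12_2 : cc (rel pp12 r) = -ca r := by
    show r 2 - r 0 - r 1 + r 3 = _
    simp only [ca, cb, cc] <;> ring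
  have e13_0 : ca (rel pp13 r) = cb r := by
    show r 2 + r 0 - r 3 - r 1 = _
    simp only [ca, cb, cc] <;> ring
  have e13_1 : cb (rel pp13 r) = -ca r := by
    show r 2 - r 0 + r 3 - r 1 = _
    simp only [ca, cb, cc] <;> ring
  have e13_2 : cc (rel pp13 r) = -cc r := by
    show r 2 - r 0 - r 3 + r 1 = _
    simp only [ca, cb, cc] <;> ring
  have e14_0 : ca (rel pp14 r) = -cc r := by
    show r 2 + r 1 - r 0 - r 3 = _
    simp only [ca, cb, cc] <;> ring
  have e14_1 : cb (rel pp14 r) = cb r := by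
    show r 2 - r 1 + r 0 - r 3 = _
    simp only [ca, cb, cc] <;> ring
  have e14_2 : cc (rel pp14 r) = -ca r := by
    show r 2 - r 1 - r 0 + r 3 = _
    simp only [ca, cb, cc] <;> ring
  have e15_0 : ca (rel pp15 r) = -cc r := by
    show r 2 + r 1 - r 3 - r 0 = _
    simp only [ca, cb, cc] <;> ring
  have e15_1 : cb (rel pp15 r) = -ca r := by
    show r 2 - r 1 + r 3 - r 0 = _
    simp only [ca, cb, cc] <;> ring
  have e15_2 : cc (rel pp15 r) = cb r := by
    show r 2 - r 1 - r 3 + r 0 = _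
    simp only [ca, cb, cc] <;> ring
  have e16_0 : ca (rel pp16 r) = -ca r := by
    show r 2 + r 3 - r 0 - r 1 = _
    simp only [ca, cb, cc] <;> ring
  have e16_1 : cb (rel pp16 r) = cb r := by
    show r 2 - r 3 + r 0 - r 1 = _
    simp only [ca, cb, cc] <;> ring
  have e16_2 : cc (rel pp16 r) = -cc r := by
    show r 2 - r 3 - r 0 + r 1 = _
    simp only [ca, cb, cc] <;> ring
  have e17_0 : ca (rel pp17 r) = -ca r := by
    show r 2 + r 3 - r 1 - r 0 = _
    simp only [ca, cb, cc] <;> ring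
  have e17_1 : cb (rel pp17 r) = -cc r := by
    show r 2 - r 3 + r 1 - r 0 = _
    simp only [ca, cb, cc] <;> ring
  have e17_2 : cc (rel pp17 r) = cb r := by
    show r 2 - r 3 - r 1 + r 0 = _
    simp only [ca, cb, cc] <;> ring
  have e18_0 : ca (rel pp18 r) = cc r := by
    show r 3 + r 0 - r 1 - r 2 = _
    simp only [ca, cb, cc] <;> ring
  have e18_1 : cb (rel pp18 r) = -cb r := by
    show r 3 - r 0 + r 1 - r 2 = _
    simp only [ca, cb, cc] <;> ring
  have e18_2 : cc (rel pp18 r) = -ca r := by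
    show r 3 - r 0 - r 1 + r 2 = _
    simp only [ca, cb, cc] <;> ring
  have e19_0 : ca (rel pp19 r) = cc r := by
    show r 3 + r 0 - r 2 - r 1 = _
    simp only [ca, cb, cc] <;> ring
  have e19_1 : cb (rel pp19 r) = -ca r := by
    show r 3 - r 0 + r 2 - r 1 = _
    simp only [ca, cb, cc] <;> ring
  have e19_2 : cc (rel pp19 r) = -cb r := by
    show r 3 - r 0 - r 2 + r 1 = _
    simp only [ca, cb, cc] <;> ring
  have e20_0 : ca (rel pp20 r) = -cb r := by
    show r 3 + r 1 - r 0 - r 2 = _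
    simp only [ca, cb, cc] <;> ring
  have e20_1 : cb (rel pp20 r) = cc r := by
    show r 3 - r 1 + r 0 - r 2 = _
    simp only [ca, cb, cc] <;> ring
  have e20_2 : cc (rel pp20 r) = -ca r := by
    show r 3 - r 1 - r 0 + r 2 = _
    simp only [ca, cb, cc] <;> ring
  have e21_0 : ca (rel pp21 r) = -cb r := by
    show r 3 + r 1 - r 2 - r 0 = _
    simp only [ca, cb, cc] <;> ring
  have e21_1 : cb (rel pp21 r) = -ca r := by
    show r 3 - r 1 + r 2 - r 0 = _
    simp only [ca, cb, cc] <;> ring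
  have e21_2 : cc (rel pp21 r) = cc r := by
    show r 3 - r 1 - r 2 + r 0 = _
    simp only [ca, cb, cc] <;> ring
  have e22_0 : ca (rel pp22 r) = -ca r := by
    show r 3 + r 2 - r 0 - r 1 = _
    simp only [ca, cb, cc] <;> ring
  have e22_1 : cb (rel pp22 r) = cc r := by
    show r 3 - r 2 + r 0 - r 1 = _
    simp only [ca, cb, cc] <;> ring
  have e22_2 : cc (rel pp22 r) = -cb r := by
    show r 3 - r 2 - r 0 + r 1 = _
    simp only [ca, cb, cc] <;> ring
  have e23_0 : ca (rel pp23 r) = -ca r := by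
    show r 3 + r 2 - r 1 - r 0 = _
    simp only [ca, cb, cc] <;> ring
  have e23_1 : cb (rel pp23 r) = -cb r := by
    show r 3 - r 2 + r 1 - r 0 = _
    simp only [ca, cb, cc] <;> ring
  have e23_2 : cc (rel pp23 r) = cc r := by
    show r 3 - r 2 - r 1 + r 0 = _
    simp only [ca, cb, cc] <;> ring
  rw [e0_0, e0_1, e0_2, e1_0, e1_1, e1_2, e2_0, e2_1, e2_2, e3_0, e3_1, e3_2, e4_0, e4_1, e4_2, e5_0, e5_1, e5_2, e6_0, e6_1, e6_2, e7_0, e7_1, e7_2, e8_0, e8_1, e8_2, e9_0, e9_1, e9_2, e10_0, e10_1, e10_2, e11_0, e11_1, e11_2, e12_0, e12_1, e12_2, e13_0, e13_1, e13_2, e14_0, e14_1, e14_2, e15_0, e15_1, e15_2, e16_0, e16_1, e16_2, e17_0, e17_1, e17_2, e18_0, e18_1, e18_2, e19_0, e19_1, e19_2, e20_0, e20_1, e20_2, e21_0, e21_1, e21_2, e22_0, e22_1, e22_2, e23_0, e23_1, e23_2]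


/-! ### coordinates -/

variable {p r s : Fin 4 → ℝ}

lemma sum_eq_one (hp : p ∈ Sx 4) : p 0 + p 1 + p 2 + p 3 = 1 := by
  have h := hp.2
  simpa [Fin.sum_univ_four] using h

lemma nonneg_of_mem (hp : p ∈ Sx 4) (i : Fin 4) : 0 ≤ p i := hp.1 i

lemma A_eq (hp : p ∈ Sx 4) : A 4 p = ca p ^ 2 + cb p ^ 2 + cc p ^ 2 := by
  have h := sum_eq_one hp
  have h3 : p 3 = 1 - p 0 - p 1 - p 2 := by linarith
  simp only [A, ca, cb, cc, Fin.sum_univ_four]
  push_cast
  rw [h3]
  ring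

lemma abs_ca_le (hp : p ∈ Sx 4) : |ca p| ≤ 1 := by
  have h := sum_eq_one hp
  have h0 := hp.1 0
  have h1 := hp.1 1
  have h2 := hp.1 2
  have h3 := hp.1 3
  simp only [ca]
  rw [abs_le]
  constructor <;> linarith

lemma abs_cb_le (hp : p ∈ Sx 4) : |cb p| ≤ 1 := by
  have h := sum_eq_one hp
  have h0 := hp.1 0
  have h1 := hp.1 1
  have h2 := hp.1 2
  have h3 := hp.1 3
  simp only [cb]
  rw [abs_le]
  constructor <;> linarith

lemma abs_cc_le (hp : p ∈ Sx 4) : |cc p| ≤ 1 := by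
  have h := sum_eq_one hp
  have h0 := hp.1 0
  have h1 := hp.1 1
  have h2 := hp.1 2
  have h3 := hp.1 3
  simp only [cc]
  rw [abs_le]
  constructor <;> linarith

lemma A_le_three (hp : p ∈ Sx 4) : A 4 p ≤ 3 := by
  rw [A_eq hp]
  have h1 := abs_ca_le hp
  have h2 := abs_cb_le hp
  have h3 := abs_cc_le hp
  have h1' := sq_le_one_iff_abs_le_one (ca p) |>.2 h1
  have h2' := sq_le_one_iff_abs_le_one (cb p) |>.2 h2
  have h3' := sq_le_one_iff_abs_le_one (cc p) |>.2 h3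
  linarith

lemma abs_mul_three_le {a b c : ℝ} (ha : |a| ≤ 1) (hb : |b| ≤ 1) (hc : |c| ≤ 1) :
    |a * b * c| ≤ (a ^ 2 + b ^ 2 + c ^ 2) / 3 := by
  have e : |a * b * c| = |a| * |b| * |c| := by rw [abs_mul, abs_mul]
  have e1 : 2 * (|a| * |b|) ≤ a ^ 2 + b ^ 2 := by
    have := sq_nonneg (|a| - |b|)
    rw [sub_sq, sq_abs, sq_abs] at this
    linarith
  have e2 : 2 * (|b| * |c|) ≤ b ^ 2 + c ^ 2 := by
    have := sq_nonneg (|b| - |c|)
    rw [sub_sq, sq_abs, sq_abs] at this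
    linarith
  have e3 : 2 * (|c| * |a|) ≤ c ^ 2 + a ^ 2 := by
    have := sq_nonneg (|c| - |a|)
    rw [sub_sq, sq_abs, sq_abs] at this
    linarith
  rw [e]
  have ha0 := abs_nonneg a
  have hb0 := abs_nonneg b
  have hc0 := abs_nonneg c
  have h1 : |a| * |b| * |c| ≤ |a| * |b| :=
    mul_le_of_le_one_right (mul_nonneg ha0 hb0) hc
  have h2 : |a| * |b| * |c| ≤ |b| * |c| := by
    have : |a| * (|b| * |c|) ≤ 1 * (|b| * |c|) :=
      mul_le_mul_of_nonneg_right ha (mul_nonneg hb0 hc0)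
    linarith [mul_assoc |a| |b| |c|]
  have h3 : |a| * |b| * |c| ≤ |c| * |a| := by
    have : |b| * (|c| * |a|) ≤ 1 * (|c| * |a|) :=
      mul_le_mul_of_nonneg_right hb (mul_nonneg hc0 ha0)
    have e2 : |a| * |b| * |c| = |b| * (|c| * |a|) := by ring
    linarith
  linarith

lemma abs_tau_le (hp : p ∈ Sx 4) : |tau p| ≤ A 4 p / 3 := by
  rw [A_eq hp]
  exact abs_mul_three_le (abs_ca_le hp) (abs_cb_le hp) (abs_cc_le hp)

lemma tau_le_one (hp : p ∈ Sx 4) : tau p ≤ 1 := by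
  have h1 := abs_tau_le hp
  have h2 := A_le_three hp
  have := le_abs_self (tau p)
  linarith

lemma bddS_tau : BddS (q := 4) tau :=
  ⟨1, fun p hp => by
    have h1 := abs_tau_le hp
    have h2 := A_le_three hp
    linarith⟩

lemma ssq_nonneg (p : Fin 4 → ℝ) : 0 ≤ ssq p := by
  unfold ssq
  positivity

lemma ca_T (lam : ℝ) (p : Fin 4 → ℝ) : ca (T 4 lam p) = lam * ca p := by
  simp only [ca, T]
  ring

lemma cb_T (lam : ℝ) (p : Fin 4 → ℝ) : cb (T 4 lam p) = lam * cb p := by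
  simp only [cb, T]
  ring

lemma cc_T (lam : ℝ) (p : Fin 4 → ℝ) : cc (T 4 lam p) = lam * cc p := by
  simp only [cc, T]
  ring

lemma tau_T (lam : ℝ) (p : Fin 4 → ℝ) : tau (T 4 lam p) = lam ^ 3 * tau p := by
  simp only [tau, ca_T, cb_T, cc_T]
  ring

lemma fin4_cases (a : Fin 4) : a = 0 ∨ a = 1 ∨ a = 2 ∨ a = 3 := by
  revert a
  decide

lemma tau_baseL (a : Fin 4) : tau (baseL 4 a) = 1 := by
  rcases fin4_cases a with rfl | rfl | rfl | rfl <;> norm_num [tau, ca, cb, cc, baseL, Fin.ext_iff]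

lemma A_baseL (a : Fin 4) : A 4 (baseL 4 a) = 3 := by
  rcases fin4_cases a with rfl | rfl | rfl | rfl <;> simp only [A, baseL, Fin.sum_univ_four] <;>
    norm_num [Fin.ext_iff]

lemma pot_tau_baseL : Pot tau (baseL 4) = 1 := by
  rw [pot_baseL]
  simp [tau_baseL]

lemma pot_A_baseL : Pot (A 4) (baseL 4) = 3 := by
  rw [pot_baseL]
  simp [A_baseL]

lemma tau_uniform : tau (fun _ : Fin 4 => (1 / 4 : ℝ)) = 0 := by
  norm_num [tau, ca, cb, cc]

/-! ### the star product in coordinates -/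

/-- first numerator -/
def N1 (a b c x y z : ℝ) : ℝ := a + x + b * z + c * y
/-- second numerator -/
def N2 (a b c x y z : ℝ) : ℝ := b + y + a * z + c * x
/-- third numerator -/
def N3 (a b c x y z : ℝ) : ℝ := c + z + a * y + b * x
/-- the bilinear pairing, `4 ⟨p, s⟩ - 1` -/
def PP (a b c x y z : ℝ) : ℝ := a * x + b * y + c * z

lemma dot_eq (hp : p ∈ Sx 4) (hs : s ∈ Sx 4) :
    4 * ∑ j, p j * s j = 1 + PP (ca p) (cb p) (cc p) (ca s) (cb s) (cc s) := by
  have h := sum_eq_one hp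
  have h' := sum_eq_one hs
  have h3 : p 3 = 1 - p 0 - p 1 - p 2 := by linarith
  have h3' : s 3 = 1 - s 0 - s 1 - s 2 := by linarith
  simp only [PP, ca, cb, cc, Fin.sum_univ_four]
  rw [h3, h3']
  ring

lemma n1_eq (hp : p ∈ Sx 4) (hs : s ∈ Sx 4) :
    4 * (p 0 * s 0 + p 1 * s 1 - p 2 * s 2 - p 3 * s 3) =
      N1 (ca p) (cb p) (cc p) (ca s) (cb s) (cc s) := by
  have h := sum_eq_one hp
  have h' := sum_eq_one hs
  have h3 : p 3 = 1 - p 0 - p 1 - p 2 := by linarith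
  have h3' : s 3 = 1 - s 0 - s 1 - s 2 := by linarith
  simp only [N1, ca, cb, cc]
  rw [h3, h3']
  ring

lemma n2_eq (hp : p ∈ Sx 4) (hs : s ∈ Sx 4) :
    4 * (p 0 * s 0 - p 1 * s 1 + p 2 * s 2 - p 3 * s 3) =
      N2 (ca p) (cb p) (cc p) (ca s) (cb s) (cc s) := by
  have h := sum_eq_one hp
  have h' := sum_eq_one hs
  have h3 : p 3 = 1 - p 0 - p 1 - p 2 := by linarith
  have h3' : s 3 = 1 - s 0 - s 1 - s 2 := by linarith
  simp only [N2, ca, cb, cc]
  rw [h3, h3']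
  ring

lemma n3_eq (hp : p ∈ Sx 4) (hs : s ∈ Sx 4) :
    4 * (p 0 * s 0 - p 1 * s 1 - p 2 * s 2 + p 3 * s 3) =
      N3 (ca p) (cb p) (cc p) (ca s) (cb s) (cc s) := by
  have h := sum_eq_one hp
  have h' := sum_eq_one hs
  have h3 : p 3 = 1 - p 0 - p 1 - p 2 := by linarith
  have h3' : s 3 = 1 - s 0 - s 1 - s 2 := by linarith
  simp only [N3, ca, cb, cc]
  rw [h3, h3']
  ring

lemma dot_nonneg (hp : p ∈ Sx 4) (hs : s ∈ Sx 4) : 0 ≤ ∑ j, p j * s j :=
  Finset.sum_nonneg fun j _ => mul_nonneg (hp.1 j) (hs.1 j)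

lemma dot_le_one (hp : p ∈ Sx 4) (hs : s ∈ Sx 4) : ∑ j, p j * s j ≤ 1 := by
  calc ∑ j, p j * s j ≤ ∑ j, p j * 1 := Finset.sum_le_sum fun j _ =>
        mul_le_mul_of_nonneg_left (coord_le_one hs j) (hp.1 j)
    _ = 1 := by simpa using hp.2

lemma terms_zero (hp : p ∈ Sx 4) (hs : s ∈ Sx 4) (h : ∑ j, p j * s j = 0) (j : Fin 4) :
    p j * s j = 0 :=
  (Finset.sum_eq_zero_iff_of_nonneg fun j _ => mul_nonneg (hp.1 j) (hs.1 j)).1 h j (Finset.mem_univ j)

lemma sp_mem (hp : p ∈ Sx 4) (hs : s ∈ Sx 4) (h : ∑ j, p j * s j ≠ 0) : sp p s ∈ Sx 4 := by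
  have h0 : 0 < ∑ j, p j * s j := lt_of_le_of_ne (dot_nonneg hp hs) (Ne.symm h)
  refine ⟨fun i => div_nonneg (mul_nonneg (hp.1 i) (hs.1 i)) h0.le, ?_⟩
  simp only [sp]
  rw [← Finset.sum_div]
  exact div_self h

/-- coordinates of the star product -/
lemma coords_sp (hp : p ∈ Sx 4) (hs : s ∈ Sx 4) (h : ∑ j, p j * s j ≠ 0) :
    ca (sp p s) * (1 + PP (ca p) (cb p) (cc p) (ca s) (cb s) (cc s)) =
        N1 (ca p) (cb p) (cc p) (ca s) (cb s) (cc s) ∧
    cb (sp p s) * (1 + PP (ca p) (cb p) (cc p) (ca s) (cb s) (cc s)) =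
        N2 (ca p) (cb p) (cc p) (ca s) (cb s) (cc s) ∧
    cc (sp p s) * (1 + PP (ca p) (cb p) (cc p) (ca s) (cb s) (cc s)) =
        N3 (ca p) (cb p) (cc p) (ca s) (cb s) (cc s) := by
  rw [← dot_eq hp hs, ← n1_eq hp hs, ← n2_eq hp hs, ← n3_eq hp hs]
  simp only [ca, cb, cc, sp]
  refine ⟨?_, ?_, ?_⟩ <;> field_simp

/-- per-permutation lower bound for `A` -/
lemma K_A_ge (hp : p ∈ Sx 4) (hs : s ∈ Sx 4) :
    let n1 := N1 (ca p) (cb p) (cc p) (ca s) (cb s) (cc s)
    let n2 := N2 (ca p) (cb p) (cc p) (ca s) (cb s) (cc s)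
    let n3 := N3 (ca p) (cb p) (cc p) (ca s) (cb s) (cc s)
    let P := PP (ca p) (cb p) (cc p) (ca s) (cb s) (cc s)
    (n1 ^ 2 + n2 ^ 2 + n3 ^ 2) * (1 - P) ≤ 4 * K (A 4) p s := by
  intro n1 n2 n3 P
  by_cases h : ∑ j, p j * s j = 0
  · have t := terms_zero hp hs h
    have e1 : n1 = 0 := by
      simp only [n1]
      rw [← n1_eq hp hs, t 0, t 1, t 2, t 3]
      ring
    have e2 : n2 = 0 := by
      simp only [n2]
      rw [← n2_eq hp hs, t 0, t 1, t 2, t 3]
      ring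
    have e3 : n3 = 0 := by
      simp only [n3]
      rw [← n3_eq hp hs, t 0, t 1, t 2, t 3]
      ring
    simp only [K, h, e1, e2, e3]
    norm_num
  · obtain ⟨c1, c2, c3⟩ := coords_sp hp hs h
    have hu := sp_mem hp hs h
    have hD : 4 * ∑ j, p j * s j = 1 + P := dot_eq hp hs
    have h0 : 0 < ∑ j, p j * s j := lt_of_le_of_ne (dot_nonneg hp hs) (Ne.symm h)
    have hD0 : 0 < 1 + P := by linarith
    set u := sp p s with hu'
    have hK : 4 * K (A 4) p s = (1 + P) * (ca u ^ 2 + cb u ^ 2 + cc u ^ 2) := by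
      simp only [K]
      rw [← hu', A_eq hu, ← hD]
      ring
    rw [hK]
    have e1 : n1 = ca u * (1 + P) := c1.symm
    have e2 : n2 = cb u * (1 + P) := c2.symm
    have e3 : n3 = cc u * (1 + P) := c3.symm
    rw [e1, e2, e3]
    have hA : 0 ≤ ca u ^ 2 + cb u ^ 2 + cc u ^ 2 := by positivity
    have : (ca u * (1 + P)) ^ 2 + (cb u * (1 + P)) ^ 2 + (cc u * (1 + P)) ^ 2 =
        (1 + P) * ((1 + P) * (ca u ^ 2 + cb u ^ 2 + cc u ^ 2)) := by ring
    rw [this]
    have h2 : (1 + P) * (1 - P) ≤ 1 := by nlinarith [sq_nonneg P]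
    nlinarith [mul_nonneg hD0.le (mul_nonneg hD0.le hA),
      mul_le_mul_of_nonneg_right h2 (mul_nonneg hD0.le hA)]

/-- per-permutation upper bound for `tau` -/
lemma K_tau_le (hp : p ∈ Sx 4) (hs : s ∈ Sx 4) :
    let n1 := N1 (ca p) (cb p) (cc p) (ca s) (cb s) (cc s)
    let n2 := N2 (ca p) (cb p) (cc p) (ca s) (cb s) (cc s)
    let n3 := N3 (ca p) (cb p) (cc p) (ca s) (cb s) (cc s)
    let P := PP (ca p) (cb p) (cc p) (ca s) (cb s) (cc s)
    4 * K tau p s ≤ n1 * n2 * n3 * (1 - 2 * P) + 36 * P ^ 2 := by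
  intro n1 n2 n3 P
  by_cases h : ∑ j, p j * s j = 0
  · have t := terms_zero hp hs h
    have e1 : n1 = 0 := by
      simp only [n1]
      rw [← n1_eq hp hs, t 0, t 1, t 2, t 3]
      ring
    simp only [K, h, e1]
    have := sq_nonneg P
    norm_num
    positivity
  · obtain ⟨c1, c2, c3⟩ := coords_sp hp hs h
    have hu := sp_mem hp hs h
    have hD : 4 * ∑ j, p j * s j = 1 + P := dot_eq hp hs
    have h0 : 0 < ∑ j, p j * s j := lt_of_le_of_ne (dot_nonneg hp hs) (Ne.symm h)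
    have hD1 := dot_le_one hp hs
    have hD0 : 0 < 1 + P := by linarith
    have hD4 : 1 + P ≤ 4 := by linarith
    set u := sp p s with hu'
    have hK : 4 * K tau p s = (1 + P) * tau u := by
      simp only [K]
      rw [← hu', ← hD]
      ring
    rw [hK]
    have e1 : n1 = ca u * (1 + P) := c1.symm
    have e2 : n2 = cb u * (1 + P) := c2.symm
    have e3 : n3 = cc u * (1 + P) := c3.symm
    have e : n1 * n2 * n3 = tau u * (1 + P) ^ 3 := by
      rw [e1, e2, e3]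
      simp only [tau]
      ring
    rw [e]
    have ht := tau_le_one hu
    have hid : tau u * (1 + P) ^ 3 * (1 - 2 * P) + 36 * P ^ 2 - (1 + P) * tau u =
        P ^ 2 * (36 - (1 + P) * (3 + 2 * P) * tau u) := by ring
    have hb : (1 + P) * (3 + 2 * P) * tau u ≤ 36 := by
      by_cases ht0 : tau u ≤ 0
      · have : 0 ≤ (1 + P) * (3 + 2 * P) := by
          apply mul_nonneg hD0.le
          linarith
        have := mul_nonpos_of_nonneg_of_nonpos this ht0
        linarith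
      · push Not at ht0
        have h1 : (1 + P) * (3 + 2 * P) ≤ 36 := by nlinarith
        have h2 : 0 ≤ (1 + P) * (3 + 2 * P) := by
          apply mul_nonneg hD0.le
          linarith
        nlinarith
    have : 0 ≤ P ^ 2 * (36 - (1 + P) * (3 + 2 * P) * tau u) :=
      mul_nonneg (sq_nonneg _) (by linarith)
    linarith

/-! ### the two averages over the group -/

lemma card_perm : (Fintype.card (Equiv.Perm (Fin 4)) : ℝ) = 24 := by
  rw [Fintype.card_perm]
  norm_num [Nat.factorial]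

lemma avg_A (a b c x y z : ℝ) :
    let F : ℝ → ℝ → ℝ → ℝ := fun x y z =>
      (N1 a b c x y z ^ 2 + N2 a b c x y z ^ 2 + N3 a b c x y z ^ 2) * (1 - PP a b c x y z)
    F x y z +
      F x z y +
      F y x z +
      F y z x +
      F z x y +
      F z y x +
      F x (-z) (-y) +
      F x (-y) (-z) +
      F (-z) x (-y) +
      F (-z) (-y) x +
      F (-y) x (-z) +
      F (-y) (-z) x +
      F y (-z) (-x) +
      F y (-x) (-z) +
      F (-z) y (-x) +
      F (-z) (-x) y +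
      F (-x) y (-z) +
      F (-x) (-z) y +
      F z (-y) (-x) +
      F z (-x) (-y) +
      F (-y) z (-x) +
      F (-y) (-x) z +
      F (-x) z (-y) +
      F (-x) (-y) z =
      24 * ((a ^ 2 + b ^ 2 + c ^ 2) + (x ^ 2 + y ^ 2 + z ^ 2)
        - 4 * ((a ^ 2 + b ^ 2 + c ^ 2) * (x * y * z) + (x ^ 2 + y ^ 2 + z ^ 2) * (a * b * c))
        - 6 * (a * b * c) * (x * y * z)) := by
  intro F
  simp only [F, N1, N2, N3, PP]
  ring

lemma avg_tau (a b c x y z : ℝ) :
    let F : ℝ → ℝ → ℝ → ℝ := fun x y z =>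
      N1 a b c x y z * N2 a b c x y z * N3 a b c x y z * (1 - 2 * PP a b c x y z)
        + 36 * PP a b c x y z ^ 2
    F x y z +
      F x z y +
      F y x z +
      F y z x +
      F z x y +
      F z y x +
      F x (-z) (-y) +
      F x (-y) (-z) +
      F (-z) x (-y) +
      F (-z) (-y) x +
      F (-y) x (-z) +
      F (-y) (-z) x +
      F y (-z) (-x) +
      F y (-x) (-z) +
      F (-z) y (-x) +
      F (-z) (-x) y +
      F (-x) y (-z) +
      F (-x) (-z) y +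
      F z (-y) (-x) +
      F z (-x) (-y) +
      F (-y) z (-x) +
      F (-y) (-x) z +
      F (-x) z (-y) +
      F (-x) (-y) z =
      24 * (a * b * c + x * y * z
        + (38 / 3) * ((a ^ 2 + b ^ 2 + c ^ 2) * (x ^ 2 + y ^ 2 + z ^ 2))
        - ((a ^ 2 + b ^ 2 + c ^ 2) * (x * y * z) + (x ^ 2 + y ^ 2 + z ^ 2) * (a * b * c))
        - (4 / 3) * ((a ^ 2 + b ^ 2 + c ^ 2) * (x ^ 2 * y ^ 2 + y ^ 2 * z ^ 2 + z ^ 2 * x ^ 2)
            + (x ^ 2 + y ^ 2 + z ^ 2) * (a ^ 2 * b ^ 2 + b ^ 2 * c ^ 2 + c ^ 2 * a ^ 2))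
        - 2 * ((a ^ 2 + b ^ 2 + c ^ 2) ^ 2 * (x * y * z) + (x ^ 2 + y ^ 2 + z ^ 2) ^ 2 * (a * b * c))
        - (4 / 3) * ((a ^ 2 * b ^ 2 + b ^ 2 * c ^ 2 + c ^ 2 * a ^ 2) * (x ^ 2 * y ^ 2 + y ^ 2 * z ^ 2 + z ^ 2 * x ^ 2))
        - 10 * (a * b * c) * (x * y * z)) := by
  intro F
  simp only [F, N1, N2, N3, PP]
  ring

/-! ### the pair bounds -/

lemma B_eq (f : (Fin 4 → ℝ) → ℝ) (p r : Fin 4 → ℝ) :
    B f p r = (1 / 24) * ∑ π : Equiv.Perm (Fin 4), (4 : ℝ) * K f p (rel π r) := by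
  unfold B
  rw [card_perm]
  push_cast
  norm_num

lemma sum_K_A_ge (hp : p ∈ Sx 4) (hr : r ∈ Sx 4) :
    24 * ((ca p ^ 2 + cb p ^ 2 + cc p ^ 2) + (ca r ^ 2 + cb r ^ 2 + cc r ^ 2)
        - 4 * ((ca p ^ 2 + cb p ^ 2 + cc p ^ 2) * (ca r * cb r * cc r)
          + (ca r ^ 2 + cb r ^ 2 + cc r ^ 2) * (ca p * cb p * cc p))
        - 6 * (ca p * cb p * cc p) * (ca r * cb r * cc r)) ≤
      ∑ π : Equiv.Perm (Fin 4), (4 : ℝ) * K (A 4) p (rel π r) := by
  let F : ℝ → ℝ → ℝ → ℝ := fun x y z =>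
      (N1 (ca p) (cb p) (cc p) x y z ^ 2 + N2 (ca p) (cb p) (cc p) x y z ^ 2 +
        N3 (ca p) (cb p) (cc p) x y z ^ 2) * (1 - PP (ca p) (cb p) (cc p) x y z)
  have h1 : ∑ π : Equiv.Perm (Fin 4), F (ca (rel π r)) (cb (rel π r)) (cc (rel π r)) ≤
      ∑ π : Equiv.Perm (Fin 4), (4 : ℝ) * K (A 4) p (rel π r) :=
    Finset.sum_le_sum fun π _ => K_A_ge hp (rel_mem π hr)
  rw [sum_perm_coord F r _ _ _ rfl rfl rfl] at h1
  have h2 := avg_A (ca p) (cb p) (cc p) (ca r) (cb r) (cc r)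
  exact h2.symm.le.trans h1

/-- **U1**: the pair lower bound for `A`. -/
theorem B_A_ge (hp : p ∈ Sx 4) (hr : r ∈ Sx 4) :
    A 4 p + A 4 r - 4 * (A 4 p * tau r + A 4 r * tau p) - 6 * tau p * tau r ≤ B (A 4) p r := by
  have h1 := sum_K_A_ge hp hr
  rw [B_eq, A_eq hp, A_eq hr]
  simp only [tau]
  linarith

lemma sum_K_tau_le (hp : p ∈ Sx 4) (hr : r ∈ Sx 4) :
    ∑ π : Equiv.Perm (Fin 4), (4 : ℝ) * K tau p (rel π r) ≤
      24 * (ca p * cb p * cc p + ca r * cb r * cc r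
        + (38 / 3) * ((ca p ^ 2 + cb p ^ 2 + cc p ^ 2) * (ca r ^ 2 + cb r ^ 2 + cc r ^ 2))
        - ((ca p ^ 2 + cb p ^ 2 + cc p ^ 2) * (ca r * cb r * cc r)
            + (ca r ^ 2 + cb r ^ 2 + cc r ^ 2) * (ca p * cb p * cc p))
        - (4 / 3) * ((ca p ^ 2 + cb p ^ 2 + cc p ^ 2) *
              (ca r ^ 2 * cb r ^ 2 + cb r ^ 2 * cc r ^ 2 + cc r ^ 2 * ca r ^ 2)
            + (ca r ^ 2 + cb r ^ 2 + cc r ^ 2) *
              (ca p ^ 2 * cb p ^ 2 + cb p ^ 2 * cc p ^ 2 + cc p ^ 2 * ca p ^ 2))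
        - 2 * ((ca p ^ 2 + cb p ^ 2 + cc p ^ 2) ^ 2 * (ca r * cb r * cc r)
            + (ca r ^ 2 + cb r ^ 2 + cc r ^ 2) ^ 2 * (ca p * cb p * cc p))
        - (4 / 3) * ((ca p ^ 2 * cb p ^ 2 + cb p ^ 2 * cc p ^ 2 + cc p ^ 2 * ca p ^ 2) *
            (ca r ^ 2 * cb r ^ 2 + cb r ^ 2 * cc r ^ 2 + cc r ^ 2 * ca r ^ 2))
        - 10 * (ca p * cb p * cc p) * (ca r * cb r * cc r)) := by
  let F : ℝ → ℝ → ℝ → ℝ := fun x y z =>
      N1 (ca p) (cb p) (cc p) x y z * N2 (ca p) (cb p) (cc p) x y z *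
        N3 (ca p) (cb p) (cc p) x y z * (1 - 2 * PP (ca p) (cb p) (cc p) x y z)
        + 36 * PP (ca p) (cb p) (cc p) x y z ^ 2
  have h1 : ∑ π : Equiv.Perm (Fin 4), (4 : ℝ) * K tau p (rel π r) ≤
      ∑ π : Equiv.Perm (Fin 4), F (ca (rel π r)) (cb (rel π r)) (cc (rel π r)) :=
    Finset.sum_le_sum fun π _ => K_tau_le hp (rel_mem π hr)
  rw [sum_perm_coord F r _ _ _ rfl rfl rfl] at h1
  have h2 := avg_tau (ca p) (cb p) (cc p) (ca r) (cb r) (cc r)
  exact h1.trans h2.le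

lemma remainder_le {a a' t t' s1 s2 : ℝ} (hA0 : 0 ≤ a) (hA1 : 0 ≤ a') (hA3 : a ≤ 3) (hA3' : a' ≤ 3)
    (ht : |t| ≤ a / 3) (ht' : |t'| ≤ a' / 3) (hS : 0 ≤ s1) (hS' : 0 ≤ s2) :
    (38 / 3) * (a * a') - (a * t' + a' * t) - (4 / 3) * (a * s2 + a' * s1)
      - 2 * (a ^ 2 * t' + a' ^ 2 * t) - (4 / 3) * (s1 * s2) - 10 * t * t' ≤ (166 / 9) * (a * a') := by
  have ht1 := abs_le.1 ht
  have ht1' := abs_le.1 ht'
  have i1 : -(a * t') ≤ a * a' / 3 := by nlinarith [mul_le_mul_of_nonneg_left ht1'.1 hA0]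
  have i2 : -(a' * t) ≤ a * a' / 3 := by nlinarith [mul_le_mul_of_nonneg_left ht1.1 hA1]
  have haa : 0 ≤ a * a' := mul_nonneg hA0 hA1
  have i3 : -(a ^ 2 * t') ≤ a * a' := by
    have h3 : -(a * t') * a ≤ (a * a' / 3) * 3 :=
      mul_le_mul i1 hA3 hA0 (by positivity)
    nlinarith
  have i4 : -(a' ^ 2 * t) ≤ a * a' := by
    have h3 : -(a' * t) * a' ≤ (a * a' / 3) * 3 :=
      mul_le_mul i2 hA3' hA1 (by positivity)
    nlinarith
  have i5 : -(t * t') ≤ a * a' / 9 := by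
    have h5 : |t * t'| ≤ a / 3 * (a' / 3) := by
      rw [abs_mul]
      exact mul_le_mul ht ht' (abs_nonneg _) (by positivity)
    have := (abs_le.1 h5).1
    nlinarith
  have i6 : 0 ≤ a * s2 := mul_nonneg hA0 hS'
  have i7 : 0 ≤ a' * s1 := mul_nonneg hA1 hS
  have i8 : 0 ≤ s1 * s2 := mul_nonneg hS hS'
  nlinarith

/-- **U2**: the pair upper bound for `tau`. -/
theorem B_tau_le (hp : p ∈ Sx 4) (hr : r ∈ Sx 4) :
    B tau p r ≤ tau p + tau r + (166 / 9) * (A 4 p * A 4 r) := by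
  have h1 := sum_K_tau_le hp hr
  have hA0 := A_nonneg hp
  have hA1 := A_nonneg hr
  have hA3 := A_le_three hp
  have hA3' := A_le_three hr
  have h3 := remainder_le hA0 hA1 hA3 hA3' (abs_tau_le hp) (abs_tau_le hr)
    (ssq_nonneg p) (ssq_nonneg r)
  rw [B_eq]
  rw [A_eq hp, A_eq hr] at h3 ⊢
  simp only [tau, ssq] at h3 ⊢
  linarith

/-! ### experiments -/

section Experiments

variable {Ω Ω' : Type*} {L : Ω → Fin 4 → ℝ} {L' : Ω' → Fin 4 → ℝ}

lemma bddS_A4 : BddS (q := 4) (A 4) := bddS_A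

/-- the pair lower bound on experiments -/
theorem pot_A_star_ge (hL : IsLik L) (hL' : IsLik L') (hS' : SymLik L') :
    Pot (A 4) L + Pot (A 4) L' - 4 * (Pot (A 4) L * Pot tau L' + Pot (A 4) L' * Pot tau L)
      - 6 * Pot tau L * Pot tau L' ≤ Pot (A 4) (star L L') := by
  have hq : (4 : ℕ) ≠ 0 := by norm_num
  have := sum_le_pot_star hq hL hL' hS' (bddS_A (q := 4)) (Finset.univ : Finset (Fin 5))
    (u := ![A 4, fun _ => 1, fun p => (-4) * A 4 p, fun p => (-4) * tau p, fun p => (-6) * tau p])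
    (v := ![fun _ => 1, A 4, tau, A 4, tau])
    (by
      intro k _
      fin_cases k
      · exact bddS_A
      · exact BddS.const 1
      · exact BddS.const_mul _ bddS_A
      · exact BddS.const_mul _ bddS_tau
      · exact BddS.const_mul _ bddS_tau)
    (by
      intro k _
      fin_cases k
      · exact BddS.const 1
      · exact bddS_A
      · exact bddS_tau
      · exact bddS_A
      · exact bddS_tau)
    (by
      intro p hp r hr
      have := B_A_ge hp hr
      simp only [Fin.sum_univ_five]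
      simp only [Fin.isValue, Matrix.cons_val]
      nlinarith)
  simp only [Fin.sum_univ_five, Fin.isValue, Matrix.cons_val] at this
  simp only [pot_const hq hL, pot_const hq hL', pot_const_mul] at this
  linarith

/-- the pair upper bound on experiments -/
theorem pot_tau_star_le (hL : IsLik L) (hL' : IsLik L') (hS' : SymLik L') :
    Pot tau (star L L') ≤ Pot tau L + Pot tau L' + (166 / 9) * (Pot (A 4) L * Pot (A 4) L') := by
  have hq : (4 : ℕ) ≠ 0 := by norm_num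
  have := pot_star_le_sum hq hL hL' hS' (bddS_tau) (Finset.univ : Finset (Fin 3))
    (u := ![tau, fun _ => 1, fun p => (166 / 9) * A 4 p])
    (v := ![fun _ => 1, tau, A 4])
    (by
      intro k _
      fin_cases k
      · exact bddS_tau
      · exact BddS.const 1
      · exact BddS.const_mul _ bddS_A)
    (by
      intro k _
      fin_cases k
      · exact BddS.const 1
      · exact bddS_tau
      · exact bddS_A)
    (by
      intro p hp r hr
      have := B_tau_le hp hr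
      simp only [Fin.sum_univ_three]
      simp only [Fin.isValue, Matrix.cons_val]
      nlinarith)
  simp only [Fin.sum_univ_three, Fin.isValue, Matrix.cons_val] at this
  simp only [pot_const hq hL, pot_const hq hL', pot_const_mul] at this
  linarith

/-- `tau` under the channel -/
theorem pot_tau_contract (lam : ℝ) (L : Ω → Fin 4 → ℝ) :
    Pot tau (contract lam L) = lam ^ 3 * Pot tau L := by
  have hq : (4 : ℕ) ≠ 0 := by norm_num
  rw [pot_contract hq]
  simp only [tau_T]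
  rw [pot_const_mul]

/-- `|Pot tau| ≤ Pot A / 3` -/
theorem abs_pot_tau_le (hL : IsLik L) : |Pot tau L| ≤ Pot (A 4) L / 3 := by
  have hb : BddS (q := 4) (fun p => A 4 p * (1 / 3)) := by
    simpa [mul_comm] using BddS.const_mul (1 / 3) (bddS_A (q := 4))
  rw [abs_le]
  constructor
  · have := pot_mono hL (f := fun p => (-1 / 3) * A 4 p) (g := tau)
      (BddS.const_mul _ bddS_A) bddS_tau (fun p hp => by
        have := (abs_le.1 (abs_tau_le hp)).1
        linarith)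
    rw [pot_const_mul] at this
    linarith
  · have := pot_mono hL (f := tau) (g := fun p => (1 / 3) * A 4 p)
      bddS_tau (BddS.const_mul _ bddS_A) (fun p hp => by
        have := (abs_le.1 (abs_tau_le hp)).2
        linarith)
    rw [pot_const_mul] at this
    linarith

end Experiments

end Crest.Agent.PottsTree.PairQ4
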