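import Crest.Agent.Lib.PottsTree.Glue246B
import Crest.Agent.Lib.PottsTree.PairQ4

/-!
# The pair data of `S0246` from the pair bounds of `PairQ4`

All of `PairData` except the comparison `Xi ≤ c * tau`, which concerns the functional of the cone.
-/

namespace Crest.Agent.PottsTree.PairQ4

open Crest.Agent.PottsTree

/-- `PairData` with the functional `tau` of `PairQ4`; the only input is `Xi ≤ c * tau`. -/
noncomputable def pairData (C : ConeData 4) (c : ℝ) (hc : 0 < c)
    (hXi : ∀ p ∈ Sx 4, C.Xi p ≤ c * tau p) : PairData C where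
  tau := tau
  Kpw := 166 / 9
  Kpw_nonneg := by norm_num
  bdd_tau := bddS_tau
  tau_unif := by norm_num [tau, ca]
  tau_atom := tau_baseL
  tau_T := fun lam p _ => tau_T lam p
  U1 := fun p hp r hr => by
    have := B_A_ge hp hr
    linarith
  U2 := fun p hp r hr => B_tau_le hp hr
  c := c
  c_pos := hc
  Xi_le := hXi

end Crest.Agent.PottsTree.PairQ4
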