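import Crest.Agent.Lib.PottsTree.CertQ4N1
import Crest.Agent.Lib.PottsTree.CertQ4N2
import Crest.Agent.Lib.PottsTree.CertQ4Unary
import Crest.Agent.Lib.PottsTree.PairQ4Data

/-!
# The `q = 4` certificate: the cone data

The functional is `Xi = 4 τ - (11/25) A² - (7/25) S + (9/20) A τ`, the multipliers are the polynomials
`rhoF`, `wF` of the two inequalities `N1_ineq` and `N2_ineq`, and `μ = 1/200`.
-/

set_option maxRecDepth 100000
set_option linter.unusedVariables false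

noncomputable section

namespace Crest.Agent.PottsTree.CertQ4

open Kron Rows Sy Tab Form Avg OneD
open Crest.Agent.PottsTree Crest.Agent.PottsTree.PairQ4 Crest.Agent.PottsTree.CertQ4PP

lemma tab_xiK (p : Fin 4 → ℝ) (hp : p ∈ Sx 4) : valS p Unary.xiKT = 24000 * Xi0 p + 10632 := by
  have hm := m_eq_one hp
  have e : valS p Unary.xiKT = 24000 * (4 * (ca p * cb p * cc p) * (p 0 + p 1 + p 2 + p 3) ^ 2 -
      al0 * (ca p ^ 2 + cb p ^ 2 + cc p ^ 2) ^ 2 * (p 0 + p 1 + p 2 + p 3) -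
      be0 * ssq p * (p 0 + p 1 + p 2 + p 3) +
      ga0 * (ca p ^ 2 + cb p ^ 2 + cc p ^ 2) * (ca p * cb p * cc p)) + 10632 := by
    simp only [Unary.xiKT, valS_cons, valS_nil, Sy, sSum, ssq, ca, cb, cc, Int.cast_negSucc, al0, be0,
      ga0]
    push_cast
    ring
  rw [e, hm]
  simp only [Xi0, Xi, tau, A_eq hp]
  ring

/-- the lower bound of the functional -/
theorem xi_lower (z : Fin 4 → ℝ) (hz : z ∈ Sx 4) : -(443 / 1000) ≤ Xi0 z := by
  have h := Unary.xi_nn hz.1 (m_eq_one hz)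
  rw [tab_xiK z hz] at h
  linarith

theorem rho_nonneg (z : Fin 4 → ℝ) (hz : z ∈ Sx 4) : 0 ≤ N1.rhoF z := by
  have h := Unary.rho_nn hz.1 (m_eq_one hz)
  rw [N1.tab_rho z hz] at h
  linarith

theorem w_nonneg (z : Fin 4 → ℝ) (hz : z ∈ Sx 4) : 0 ≤ N2.wF z := by
  have h := Unary.w_nn hz.1 (m_eq_one hz)
  rw [N2.tab_w z hz] at h
  linarith

lemma bdd_rho : BddS (q := 4) N1.rhoF := by
  have h := bddS_of_continuous (F := fun x : ℝ × ℝ × ℝ =>
    x.1 - 3 / 4 * x.2.1 + (-47 / 50) * x.2.2 + (-11 / 50) * x.1 ^ 2 + (129 / 50) * (x.1 * x.2.1) +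
    (301 / 100) * x.2.1 ^ 2 +
    (-181 / 50) * (x.1 * x.2.2) + (9 / 10) * x.1 ^ 3 + (727 / 100) * (x.2.1 * x.2.2) +
    (-57 / 20) * (x.1 ^ 2 * x.2.1) +
    (-647 / 100) * x.2.2 ^ 2 + (31 / 50) * (x.1 * x.2.1 ^ 2) + (407 / 100) * (x.1 ^ 2 * x.2.2) +
    (-61 / 100) * x.1 ^ 4) (by fun_prop)
  exact h

lemma bdd_w : BddS (q := 4) N2.wF := by
  have h := bddS_of_continuous (F := fun x : ℝ × ℝ × ℝ =>
    1 +
    (-917 / 500) * (x.1) +
    (-1483 / 500) * (x.2.1) +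
    (7031 / 1000) * (x.2.2) +
    (1141 / 1000) * (x.1 ^ 2) +
    (-1278 / 125) * (x.1 * x.2.1) +
    20 * (x.2.1 ^ 2) +
    (-621 / 50) * (x.1 * x.2.2) +
    (1023 / 500) * (x.1 ^ 3) +
    (-4427 / 500) * (x.2.1 * x.2.2) +
    (3641 / 200) * (x.1 ^ 2 * x.2.1) +
    (-16799 / 1000) * (x.2.2 ^ 2) +
    (-20) * (x.1 * x.2.1 ^ 2) +
    (257 / 25) * (x.1 ^ 2 * x.2.2) +
    (-1557 / 500) * (x.1 ^ 4) +
    (-20) * (x.2.1 ^ 3) +
    (7947 / 500) * (x.1 * x.2.1 * x.2.2) +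
    (59 / 500) * (x.1 ^ 3 * x.2.1) +
    (-20) * (x.2.1 ^ 2 * x.2.2) +
    (299 / 40) * (x.1 * x.2.2 ^ 2) +
    (841 / 500) * (x.1 ^ 2 * x.2.1 ^ 2) +
    (-1161 / 250) * (x.1 ^ 3 * x.2.2) +
    (761 / 1000) * (x.1 ^ 5)) (by fun_prop)
  exact h

/-- **The cone data for `q = 4`.** -/
def coneData : ConeData 4 where
  Xi := Xi0
  rho := N1.rhoF
  w := N2.wF
  mu := 1 / 200
  bdd_Xi := bddS_Xi al0 be0 ga0
  bdd_rho := bdd_rho
  bdd_w := bdd_w
  rho_nonneg := rho_nonneg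
  w_nonneg := w_nonneg
  mu_nonneg := by norm_num
  N1 := fun p hp r hr => N1.N1_ineq hp hr
  N2 := fun p hp r hr => N2.N2_ineq xi_lower hp hr
  unif := by
    have h := Xi_uniform al0 be0 ga0
    have e : (fun _ : Fin 4 => 1 / ((4 : ℕ) : ℝ)) = (fun _ : Fin 4 => (1 / 4 : ℝ)) := by
      funext _
      norm_num
    rw [e]
    exact h.ge

lemma radial_hyp0 : ∀ z ∈ Sx 4, ga0 * 2 * A 4 z * tau z ≤ al0 * A 4 z ^ 2 + be0 * ssq z :=
  fun z hz => radial_hyp (by norm_num) (by norm_num) (by norm_num) hz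

lemma vertex0 (a : Fin 4) : 0 ≤ Xi0 (baseL 4 a) :=
  Xi_baseL_nonneg (by norm_num) a

lemma radial0 (lam : ℝ) (h0 : 0 ≤ lam) (h1 : lam ≤ 1) (p : Fin 4 → ℝ) (hp : p ∈ Sx 4) :
    lam ^ 3 * Xi0 p ≤ Xi0 (T 4 lam p) :=
  Xi_radial (by norm_num) (by norm_num) radial_hyp0 h0 h1 hp

/-- The target of `S0245`. -/
theorem coneTarget4 : ConeTarget 4 :=
  ⟨coneData, by norm_num [coneData], vertex0, radial0⟩

/-- The target of `S0246`. -/
theorem target246 : Target246 :=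
  ⟨coneData, by norm_num [coneData], vertex0, radial0,
    ⟨pairData coneData 4 (by norm_num) fun p hp => Xi_le_four_tau (by norm_num) (by norm_num)
      radial_hyp0 hp⟩⟩

end Crest.Agent.PottsTree.CertQ4

end
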