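import Crest.Agent.Lib.PottsTree.CertQ4Tab

/-!
# Bilinear forms and linear forms in symmetric functions: nonnegativity from Kronecker numbers
-/

set_option linter.unusedVariables false

namespace Crest.Agent.PottsTree.CertQ4.Form

open Kron Rows Sy Tab

/-- the weights of the substitution -/
def wOf (w1 w2 w3 : ℕ) : Fin 4 → ℕ := ![0, w1, w2, w3]

/-- the numbers of the coordinates of the sorted point -/
structure YS where
  /-- first coordinate -/
  y0 : ℕ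
  /-- second coordinate -/
  y1 : ℕ
  /-- third coordinate -/
  y2 : ℕ
  /-- fourth coordinate -/
  y3 : ℕ

/-- the coordinates under the substitution -/
noncomputable def ysN (w1 w2 w3 Z : ℕ) : YS :=
  let a2 := Nat.add 1 (Nat.pow Z w1)
  let a1 := Nat.add a2 (Nat.pow Z w2)
  ⟨Nat.add a1 (Nat.pow Z w3), a1, a2, 1⟩

/-- the numbers of the top symmetric functions -/
noncomputable def bNum (ys : YS) (P : List Ex) : List ℕ :=
  List.rec [] (fun e _ ih => rawS ys.y0 ys.y1 ys.y2 ys.y3 e :: ih) P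

lemma Phi_ys (w1 w2 w3 Z : ℕ) :
    Phi (wOf w1 w2 w3) Z y0P = (ysN w1 w2 w3 Z).y0 ∧ Phi (wOf w1 w2 w3) Z y1P = (ysN w1 w2 w3 Z).y1 ∧
      Phi (wOf w1 w2 w3) Z y2P = (ysN w1 w2 w3 Z).y2 ∧
      Phi (wOf w1 w2 w3) Z y3P = (ysN w1 w2 w3 Z).y3 := by
  simp [y0P, y1P, y2P, y3P, ysN, wOf]

lemma Phi_Bp (w1 w2 w3 Z : ℕ) (e : Ex) :
    Phi (wOf w1 w2 w3) Z (Bp e) =
      rawS (ysN w1 w2 w3 Z).y0 (ysN w1 w2 w3 Z).y1 (ysN w1 w2 w3 Z).y2 (ysN w1 w2 w3 Z).y3 e := by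
  obtain ⟨h0, h1, h2, h3⟩ := Phi_ys w1 w2 w3 Z
  rw [Bp, map_sSum, h0, h1, h2, h3, rawS_eq]

lemma map_Phi_Bp (w1 w2 w3 Z : ℕ) (P : List Ex) :
    (P.map Bp).map (Phi (wOf w1 w2 w3) Z) = bNum (ysN w1 w2 w3 Z) P := by
  induction P with
  | nil => rfl
  | cons e t ih =>
    simp only [List.map_cons, ih, Phi_Bp]
    rfl

/-- all the keys of the exponents of degree `n` -/
def allKeys (n w1 w2 w3 : ℕ) : List ℕ :=
  (List.range (n + 1)).flatMap fun c =>
    (List.range (n + 1 - c)).flatMap fun b =>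
      (List.range (n + 1 - c - b)).map fun a => w1 * a + w2 * b + w3 * c

lemma keyOf_mem_allKeys {n w1 w2 w3 : ℕ} {s : Fin 4 →₀ ℕ} (hs : degOf s = n) :
    keyOf (wOf w1 w2 w3) s ∈ allKeys n w1 w2 w3 := by
  have hd : s 0 + s 1 + s 2 + s 3 = n := by
    simpa [degOf, Fin.sum_univ_four] using hs
  have hk : keyOf (wOf w1 w2 w3) s = w1 * s 1 + w2 * s 2 + w3 * s 3 := by
    simp [keyOf, wOf, Fin.sum_univ_four]
  rw [hk, allKeys]
  refine List.mem_flatMap.2 ⟨s 3, List.mem_range.2 (by omega), ?_⟩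
  refine List.mem_flatMap.2 ⟨s 2, List.mem_range.2 (by omega), ?_⟩
  exact List.mem_map.2 ⟨s 1, List.mem_range.2 (by omega), rfl⟩

/-- the values of the top symmetric functions are those at a sorted point -/
lemma exists_chamber {z : Fin 4 → ℝ} (hz : ∀ i, 0 ≤ z i) : ∃ d : Fin 4 → ℝ, (∀ i, 0 ≤ d i) ∧
    ∀ e, evR d (Bp e) = Sy z e := by
  obtain ⟨ρ, h1, h2, h3⟩ := exists_sorted z
  refine ⟨dOf (fun i => z (ρ i)), dOf_nonneg (hz _) h1 h2 h3, fun e => ?_⟩
  rw [evR_Bp, Sy_rel]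

/-- **The bilinear inequality on the positive orthants.** -/
theorem form_le {n L J w1 w2 w3 : ℕ} (hL : 1 ≤ L)
    (hinj : ∀ s s' : Fin 4 →₀ ℕ, degOf s = n → degOf s' = n →
      keyOf (wOf w1 w2 w3) s = keyOf (wOf w1 w2 w3) s' → s = s')
    (hJ : ∀ s : Fin 4 →₀ ℕ, degOf s = n → keyOf (wOf w1 w2 w3) s < J)
    (P : List Ex) (hdeg : ∀ e ∈ P, e.1 + e.2.1 + e.2.2.1 + e.2.2.2 = n) (Mp Mm : List (List ℕ))
    (hones : ∀ N ∈ bNum (ysN w1 w2 w3 1) P, N < 2 ^ L)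
    (hbp : combN (bNum (ysN w1 w2 w3 1) P) (colsN Mp (bNum (ysN w1 w2 w3 1) P)) < 2 ^ (L - 1))
    (hbm : combN (bNum (ysN w1 w2 w3 1) P) (colsN Mm (bNum (ysN w1 w2 w3 1) P)) < 2 ^ (L - 1))
    (hrows : ∀ k ∈ allKeys n w1 w2 w3,
      rowTest L (2 ^ L) (guardN L J) k (bNum (ysN w1 w2 w3 (2 ^ L)) P)
        (colsN Mp (bNum (ysN w1 w2 w3 (2 ^ L)) P)) (colsN Mm (bNum (ysN w1 w2 w3 (2 ^ L)) P)) = true)
    {p r : Fin 4 → ℝ} (hp : ∀ i, 0 ≤ p i) (hr : ∀ i, 0 ≤ r i) :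
    bil Mp (P.map (Sy p)) (P.map (Sy r)) ≤ bil Mm (P.map (Sy p)) (P.map (Sy r)) := by
  obtain ⟨d, hd, hdS⟩ := exists_chamber hp
  obtain ⟨d', hd', hdS'⟩ := exists_chamber hr
  have hmap : ∀ (d : Fin 4 → ℝ) (z : Fin 4 → ℝ), (∀ e, evR d (Bp e) = Sy z e) →
      (P.map Bp).map (evR d) = P.map (Sy z) := by
    intro d z h
    rw [List.map_map]
    exact List.map_congr_left fun e _ => h e
  have hb : ∀ b ∈ P.map Bp, b.IsHomogeneous n := by
    intro b hb
    obtain ⟨e, he, rfl⟩ := List.mem_map.1 hb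
    rw [← hdeg e he]
    exact Bp_hom e
  have key := bil_le_of_rows (w := wOf w1 w2 w3) (n := n) (L := L) (J := J) hL hinj hJ (P.map Bp) hb
    Mp Mm (by rw [map_Phi_Bp]; exact hones) (by rw [map_Phi_Bp]; exact hbp)
    (by rw [map_Phi_Bp]; exact hbm)
    (by
      intro s hs
      rw [map_Phi_Bp]
      exact hrows _ (keyOf_mem_allKeys hs)) hd hd'
  rwa [hmap d p hdS, hmap d' r hdS'] at key

/-! ### linear forms -/

/-- positive part of an integer -/
def posP (c : ℤ) : ℕ :=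
  match c with
  | Int.ofNat k => k
  | Int.negSucc _ => 0

/-- negative part of an integer -/
def negP (c : ℤ) : ℕ :=
  match c with
  | Int.ofNat _ => 0
  | Int.negSucc k => Nat.succ k

lemma posP_sub_negP (c : ℤ) : ((posP c : ℕ) : ℝ) - (negP c : ℕ) = c := by
  cases c with
  | ofNat k => simp [posP, negP]
  | negSucc k =>
    simp [posP, negP]

/-- the polynomial of `S_e (∑ z) ^ (n - |e|)` -/
noncomputable def qP (n : ℕ) (e : Ex) : MP := Bp e * (y0P + y1P + y2P + y3P) ^ (n - degE e)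

/-- combination with coefficients `f` -/
noncomputable def unP (f : ℤ → ℕ) (n : ℕ) : SL → MP
  | [] => 0
  | h :: t => (f h.2 : MP) * qP n h.1 + unP f n t

/-- combination with coefficients `f`, numbers -/
noncomputable def unN (f : ℤ → ℕ) (n : ℕ) (ys : YS) (T : SL) : ℕ :=
  List.rec 0 (fun h _ ih => Nat.add (Nat.mul (f h.2)
    (Nat.mul (rawS ys.y0 ys.y1 ys.y2 ys.y3 h.1)
      (Nat.pow (Nat.add (Nat.add (Nat.add ys.y0 ys.y1) ys.y2) ys.y3) (Nat.sub n (degE h.1))))) ih) T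

lemma Phi_unP (f : ℤ → ℕ) (n w1 w2 w3 Z : ℕ) (T : SL) :
    Phi (wOf w1 w2 w3) Z (unP f n T) = unN f n (ysN w1 w2 w3 Z) T := by
  obtain ⟨h0, h1, h2, h3⟩ := Phi_ys w1 w2 w3 Z
  induction T with
  | nil => simp [unP, unN]
  | cons h t ih =>
    simp only [unP, map_add, map_mul, Phi_natCast, ih, qP, Phi_Bp, map_pow, h0, h1, h2, h3]
    rfl

lemma degE_eq (e : Ex) : degE e = e.1 + e.2.1 + e.2.2.1 + e.2.2.2 := rfl

lemma qP_hom {n : ℕ} {e : Ex} (he : degE e ≤ n) : (qP n e).IsHomogeneous n := by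
  have h := (Bp_hom e).mul
    (((((y0P_hom.add y1P_hom).add y2P_hom).add y3P_hom)).pow (n - degE e))
  rw [← degE_eq] at h
  have e2 : degE e + 1 * (n - degE e) = n := by omega
  rw [e2] at h
  exact h

lemma unP_hom (f : ℤ → ℕ) {n : ℕ} {T : SL} (hT : ∀ h ∈ T, degE h.1 ≤ n) :
    (unP f n T).IsHomogeneous n := by
  induction T with
  | nil => exact MvPolynomial.isHomogeneous_zero _ _ _
  | cons h t ih =>
    refine MvPolynomial.IsHomogeneous.add ?_ (ih fun x hx => hT x (List.mem_cons_of_mem _ hx))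
    have h1 := (MvPolynomial.isHomogeneous_C (Fin 4) (f h.2)).mul
      (qP_hom (hT h List.mem_cons_self))
    simpa using h1

lemma evR_ys (z : Fin 4 → ℝ) (d : Fin 4 → ℝ) (hd : d = dOf z) :
    evR d (y0P + y1P + y2P + y3P) = z 0 + z 1 + z 2 + z 3 := by
  subst hd
  simp [y0P, y1P, y2P, y3P, evR, dOf]

/-- **Nonnegativity of a linear form on the simplex.** -/
theorem valS_nonneg {n L J w1 w2 w3 : ℕ} (hL : 1 ≤ L)
    (hinj : ∀ s s' : Fin 4 →₀ ℕ, degOf s = n → degOf s' = n →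
      keyOf (wOf w1 w2 w3) s = keyOf (wOf w1 w2 w3) s' → s = s')
    (hJ : ∀ s : Fin 4 →₀ ℕ, degOf s = n → keyOf (wOf w1 w2 w3) s < J)
    (T : SL) (hT : ∀ h ∈ T, degE h.1 ≤ n)
    (hbp : unN posP n (ysN w1 w2 w3 1) T < 2 ^ (L - 1))
    (hbm : unN negP n (ysN w1 w2 w3 1) T < 2 ^ (L - 1))
    (htest : Nat.beq (Nat.land (Nat.sub (Nat.add (unN posP n (ysN w1 w2 w3 (2 ^ L)) T) (guardN L J))
      (unN negP n (ysN w1 w2 w3 (2 ^ L)) T)) (guardN L J)) (guardN L J) = true)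
    {z : Fin 4 → ℝ} (hz : ∀ i, 0 ≤ z i) (hsum : z 0 + z 1 + z 2 + z 3 = 1) : 0 ≤ valS z T := by
  obtain ⟨ρ, h1, h2, h3⟩ := exists_sorted z
  set z' : Fin 4 → ℝ := fun i => z (ρ i) with hz'
  have hz'nn : ∀ i, 0 ≤ z' i := fun i => hz _
  have hsum' : z' 0 + z' 1 + z' 2 + z' 3 = 1 := by
    have : ∑ i, z' i = ∑ i, z i := Equiv.sum_comp ρ z
    simp only [Fin.sum_univ_four] at this
    linarith
  have hval : ∀ T : SL, valS z' T = valS z T := by
    intro T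
    induction T with
    | nil => rfl
    | cons h t ih =>
      rw [valS_cons, valS_cons, ih, show Sy z' h.1 = Sy z h.1 from Sy_rel z ρ h.1]
  set d := dOf z' with hd
  have hdnn : ∀ i, 0 ≤ d i := dOf_nonneg (hz'nn _) h1 h2 h3
  have hq : ∀ e, evR d (qP n e) = Sy z' e := by
    intro e
    rw [qP, map_mul, map_pow, evR_ys z' d hd, hsum', one_pow, mul_one, hd, evR_Bp]
  have hev : ∀ (f : ℤ → ℕ) (T : SL), evR d (unP f n T) =
      (fun U => U) (List.foldr (fun h acc => ((f h.2 : ℕ) : ℝ) * Sy z' h.1 + acc) 0 T) := by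
    intro f T
    induction T with
    | nil => simp [unP]
    | cons h t ih =>
      simp only [unP, map_add, map_mul, map_natCast, hq, ih, List.foldr_cons]
  have hsplit : ∀ T : SL, List.foldr (fun h acc => ((posP h.2 : ℕ) : ℝ) * Sy z' h.1 + acc) 0 T -
      List.foldr (fun h acc => ((negP h.2 : ℕ) : ℝ) * Sy z' h.1 + acc) 0 T = valS z' T := by
    intro T
    induction T with
    | nil => simp
    | cons h t ih =>
      simp only [List.foldr_cons, valS_cons, ← ih, ← posP_sub_negP h.2]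
      ring
  have hle : evR d (unP negP n T) ≤ evR d (unP posP n T) := by
    refine evR_mono hdnn fun s => ?_
    refine coeff_le_of_test hL hinj hJ (unP_hom _ hT) (unP_hom _ hT) ?_ ?_ ?_ s
    · rw [Phi_unP]
      exact hbm
    · rw [Phi_unP]
      exact hbp
    · rw [Phi_unP, Phi_unP]
      exact Nat.eq_of_beq_eq_true htest
  rw [hev, hev] at hle
  rw [← hval, ← hsplit]
  simp only at hle
  linarith

end Crest.Agent.PottsTree.CertQ4.Form
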