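import Mathlib

/-!
# Kronecker substitution for homogeneous polynomials with natural coefficients

All the polynomial inequalities of the `q = 4` certificate reduce to coefficientwise comparisons of
homogeneous polynomials in four variables with natural coefficients.  Such a comparison is made on
big natural numbers, by the substitution `X i ↦ Z ^ w i`, with `Z = 2 ^ L`:

* `eval_digit`: the base `Z` digits of `f.eval Z` are the coefficients of `f`;
* `coeff_le_of_land`: one `land` with a guard word compares all the coefficients at once;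
* `phi_digit`, `coeff_le_of_test`: the same for homogeneous `MvPolynomial`s;
* `aeval_mono`: coefficientwise comparisons give inequalities at nonnegative real points.
-/

namespace Crest.Agent.PottsTree.CertQ4.Kron

open Finset

/-! ### one variable -/

lemma eval_eq_divX (f : Polynomial ℕ) (Z : ℕ) : f.eval Z = f.divX.eval Z * Z + f.coeff 0 := by
  conv_lhs => rw [← Polynomial.divX_mul_X_add f]
  simp

/-- The base `Z` digits of `f.eval Z` are the coefficients of `f`. -/
lemma eval_digit {Z : ℕ} (hZ : 0 < Z) (f : Polynomial ℕ) (hf : ∀ i, f.coeff i < Z) (j : ℕ) :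
    (f.eval Z / Z ^ j) % Z = f.coeff j := by
  induction j generalizing f with
  | zero =>
    rw [pow_zero, Nat.div_one, eval_eq_divX, Nat.mul_comm, Nat.mul_add_mod, Nat.mod_eq_of_lt (hf 0)]
  | succ j ih =>
    have e : f.eval Z / Z ^ (j + 1) = f.divX.eval Z / Z ^ j := by
      rw [pow_succ', ← Nat.div_div_eq_div_mul, eval_eq_divX, Nat.mul_comm, Nat.mul_add_div hZ,
        Nat.div_eq_of_lt (hf 0), Nat.add_zero]
    rw [e, ih f.divX (fun i => by rw [Polynomial.coeff_divX]; exact hf _), Polynomial.coeff_divX]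

lemma coeff_le_eval_one (f : Polynomial ℕ) (k : ℕ) : f.coeff k ≤ f.eval 1 := by
  rw [Polynomial.eval_eq_sum_range]
  by_cases hk : k ≤ f.natDegree
  · have := Finset.single_le_sum (f := fun i => f.coeff i * 1 ^ i) (s := Finset.range (f.natDegree + 1))
      (fun _ _ => Nat.zero_le _) (Finset.mem_range.2 (Nat.lt_succ_of_le hk))
    simpa using this
  · rw [Polynomial.coeff_eq_zero_of_natDegree_lt (by omega)]
    exact Nat.zero_le _

/-- the guard polynomial -/
noncomputable def guardP (c J : ℕ) : Polynomial ℕ :=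
  ∑ k ∈ Finset.range J, Polynomial.C c * Polynomial.X ^ k

lemma guardP_coeff (c J k : ℕ) : (guardP c J).coeff k = if k < J then c else 0 := by
  simp only [guardP, Polynomial.finsetSum_coeff, Polynomial.coeff_C_mul, Polynomial.coeff_X_pow]
  by_cases h : k < J
  · rw [Finset.sum_eq_single k]
    · simp [h]
    · intro b _ hb
      simp [Ne.symm hb]
    · intro h'
      exact absurd (Finset.mem_range.2 h) h'
  · rw [Finset.sum_eq_zero]
    · simp [h]
    · intro b hb
      have : b < J := Finset.mem_range.1 hb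
      have hne : k ≠ b := by omega
      simp [hne]

/-- the guard word -/
def guardN (L J : ℕ) : ℕ := 2 ^ (L - 1) * (((2 ^ L) ^ J - 1) / (2 ^ L - 1))

lemma eval_guard {L : ℕ} (hL : 1 ≤ L) (J : ℕ) : (guardP (2 ^ (L - 1)) J).eval (2 ^ L) = guardN L J := by
  have h2 : 2 ≤ 2 ^ L := by
    calc 2 = 2 ^ 1 := rfl
      _ ≤ 2 ^ L := Nat.pow_le_pow_right (by norm_num) hL
  simp only [guardP, Polynomial.eval_finsetSum, Polynomial.eval_mul, Polynomial.eval_C,
    Polynomial.eval_pow, Polynomial.eval_X, ← Finset.mul_sum, guardN]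
  rw [Nat.geomSum_eq h2]

lemma testBit_digit (M L j : ℕ) (hL : 1 ≤ L) :
    M.testBit (L - 1 + L * j) = ((M / (2 ^ L) ^ j) % 2 ^ L).testBit (L - 1) := by
  rw [← pow_mul, Nat.testBit_mod_two_pow, Nat.testBit_div_two_pow]
  have : L - 1 < L := by omega
  simp [this]

/-- One `land` with the guard word compares all the coefficients. -/
theorem coeff_le_of_land {L J : ℕ} (hL : 1 ≤ L) (f g : Polynomial ℕ)
    (hf : ∀ i, f.coeff i < 2 ^ (L - 1)) (hg : ∀ i, g.coeff i < 2 ^ (L - 1))
    (hfJ : ∀ i, J ≤ i → f.coeff i = 0)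
    (htest : ((g.eval (2 ^ L) + guardN L J) - f.eval (2 ^ L)) &&& guardN L J = guardN L J)
    {j : ℕ} (hj : j < J) : f.coeff j ≤ g.coeff j := by
  have hpow : 2 ^ L = 2 ^ (L - 1) + 2 ^ (L - 1) := by
    obtain ⟨m, rfl⟩ : ∃ m, L = m + 1 := ⟨L - 1, by omega⟩
    simp [pow_succ]
    ring
  have hZ : 0 < 2 ^ L := by positivity
  -- the polynomial of the differences
  set H := guardP (2 ^ (L - 1)) J with hH
  set M := max (g.natDegree + 1) J with hM
  set h : Polynomial ℕ := ∑ k ∈ Finset.range M,
      Polynomial.C (g.coeff k + H.coeff k - f.coeff k) * Polynomial.X ^ k with hh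
  have hcoeff : ∀ k, h.coeff k = g.coeff k + H.coeff k - f.coeff k := by
    intro k
    simp only [hh, Polynomial.finsetSum_coeff, Polynomial.coeff_C_mul, Polynomial.coeff_X_pow]
    by_cases hk : k < M
    · rw [Finset.sum_eq_single k]
      · simp
      · intro b _ hb
        simp [Ne.symm hb]
      · intro h'
        exact absurd (Finset.mem_range.2 hk) h'
    · rw [Finset.sum_eq_zero]
      · have h1 : g.natDegree < k := by omega
        have h2 : J ≤ k := by omega
        rw [Polynomial.coeff_eq_zero_of_natDegree_lt h1, guardP_coeff, if_neg (by omega), hfJ k h2]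
        rfl
      · intro b hb
        have : b < M := Finset.mem_range.1 hb
        have hne : k ≠ b := by omega
        simp [hne]
  have hsum : h + f = g + H := by
    ext k
    rw [Polynomial.coeff_add, Polynomial.coeff_add, hcoeff]
    by_cases hk : k < J
    · have h1 := hf k
      have h2 : H.coeff k = 2 ^ (L - 1) := by rw [guardP_coeff, if_pos hk]
      omega
    · rw [hfJ k (by omega)]
      omega
  have hev : (g.eval (2 ^ L) + guardN L J) - f.eval (2 ^ L) = h.eval (2 ^ L) := by
    have := congrArg (Polynomial.eval (2 ^ L)) hsum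
    rw [Polynomial.eval_add, Polynomial.eval_add, hH, eval_guard hL] at this
    omega
  rw [hev] at htest
  have hHj : H.coeff j = 2 ^ (L - 1) := by rw [guardP_coeff, if_pos hj]
  have hdH : ∀ i, H.coeff i < 2 ^ L := by
    intro i
    rw [guardP_coeff]
    split_ifs <;> omega
  have hdh : ∀ i, h.coeff i < 2 ^ L := by
    intro i
    rw [hcoeff]
    have h1 := hg i
    have h2 := hdH i
    have h3 : H.coeff i ≤ 2 ^ (L - 1) := by
      rw [guardP_coeff]
      split_ifs <;> omega
    omega
  -- the bit of the guard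
  have hbit : (guardN L J).testBit (L - 1 + L * j) = true := by
    rw [testBit_digit _ _ _ hL, ← eval_guard hL, ← hH, eval_digit hZ H hdH, hHj]
    exact Nat.testBit_two_pow_self
  have hbit2 : (h.eval (2 ^ L)).testBit (L - 1 + L * j) = true := by
    have := congrArg (fun x => Nat.testBit x (L - 1 + L * j)) htest
    simp only [Nat.testBit_land, hbit, Bool.and_true] at this
    exact this
  rw [testBit_digit _ _ _ hL, eval_digit hZ h hdh] at hbit2
  have hge := Nat.ge_two_pow_of_testBit hbit2
  rw [hcoeff, hHj] at hge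
  have h1 := hf j
  omega

/-! ### four variables -/

/-- polynomials in four variables with natural coefficients -/
abbrev MP := MvPolynomial (Fin 4) ℕ

/-- the key of an exponent vector -/
def keyOf (w : Fin 4 → ℕ) (s : Fin 4 →₀ ℕ) : ℕ := ∑ i, w i * s i

/-- the substitution `X i ↦ T ^ w i` -/
noncomputable def toU (w : Fin 4 → ℕ) : MP →ₐ[ℕ] Polynomial ℕ :=
  MvPolynomial.aeval (fun i => Polynomial.X ^ w i)

lemma toU_eq_sum (w : Fin 4 → ℕ) (p : MP) :
    toU w p = ∑ s ∈ p.support, Polynomial.C (p.coeff s) * Polynomial.X ^ keyOf w s := by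
  rw [toU, MvPolynomial.aeval_def, MvPolynomial.eval₂_eq']
  refine Finset.sum_congr rfl fun s _ => ?_
  congr 1
  simp only [keyOf, ← pow_mul]
  exact Finset.prod_pow_eq_pow_sum _ _ _

/-- total degree of an exponent vector -/
def degOf (s : Fin 4 →₀ ℕ) : ℕ := ∑ i, s i

lemma degOf_of_mem {p : MP} {n : ℕ} (hp : p.IsHomogeneous n) {s : Fin 4 →₀ ℕ} (hs : s ∈ p.support) :
    degOf s = n := by
  have h := hp (MvPolynomial.mem_support_iff.1 hs)
  simpa [Finsupp.degree, degOf, Finsupp.sum_fintype, Finsupp.weight_apply] using h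

/-- the coefficients of the substitution -/
lemma toU_coeff {w : Fin 4 → ℕ} {n : ℕ}
    (hinj : ∀ s s' : Fin 4 →₀ ℕ, degOf s = n → degOf s' = n → keyOf w s = keyOf w s' → s = s')
    {p : MP} (hp : p.IsHomogeneous n) {s : Fin 4 →₀ ℕ} (hs : degOf s = n) :
    (toU w p).coeff (keyOf w s) = p.coeff s := by
  rw [toU_eq_sum, Polynomial.finsetSum_coeff]
  simp only [Polynomial.coeff_C_mul, Polynomial.coeff_X_pow]
  by_cases hsp : s ∈ p.support
  · rw [Finset.sum_eq_single s]
    · simp
    · intro b hb hne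
      have h1 := degOf_of_mem hp hb
      have : keyOf w s ≠ keyOf w b := fun h => hne (hinj s b hs h1 h).symm
      simp [this]
    · intro h
      exact absurd hsp h
  · rw [Finset.sum_eq_zero]
    · exact (MvPolynomial.notMem_support_iff.1 hsp).symm
    · intro b hb
      have h1 := degOf_of_mem hp hb
      have : keyOf w s ≠ keyOf w b := by
        intro h
        have := hinj s b hs h1 h
        subst this
        exact hsp hb
      simp [this]

lemma toU_coeff_zero {w : Fin 4 → ℕ} {n J : ℕ}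
    (hJ : ∀ s : Fin 4 →₀ ℕ, degOf s = n → keyOf w s < J)
    {p : MP} (hp : p.IsHomogeneous n) {i : ℕ} (hi : J ≤ i) : (toU w p).coeff i = 0 := by
  rw [toU_eq_sum, Polynomial.finsetSum_coeff]
  refine Finset.sum_eq_zero fun b hb => ?_
  have h1 := hJ b (degOf_of_mem hp hb)
  have : i ≠ keyOf w b := by omega
  simp [Polynomial.coeff_X_pow, this]

/-- the Kronecker substitution, as a ring homomorphism -/
noncomputable def Phi (w : Fin 4 → ℕ) (Z : ℕ) : MP →+* ℕ :=
  (Polynomial.evalRingHom Z).comp (toU w).toRingHom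

lemma Phi_apply (w : Fin 4 → ℕ) (Z : ℕ) (p : MP) : Phi w Z p = (toU w p).eval Z := rfl

@[simp] lemma Phi_X (w : Fin 4 → ℕ) (Z : ℕ) (i : Fin 4) :
    Phi w Z (MvPolynomial.X i) = Z ^ w i := by
  simp [Phi_apply, toU]

@[simp] lemma Phi_natCast (w : Fin 4 → ℕ) (Z : ℕ) (c : ℕ) :
    Phi w Z (c : MP) = c := map_natCast _ _

lemma coeff_le_ones {w : Fin 4 → ℕ} {n : ℕ}
    (hinj : ∀ s s' : Fin 4 →₀ ℕ, degOf s = n → degOf s' = n → keyOf w s = keyOf w s' → s = s')
    {p : MP} (hp : p.IsHomogeneous n) (s : Fin 4 →₀ ℕ) : p.coeff s ≤ Phi w 1 p := by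
  by_cases hs : s ∈ p.support
  · have h1 := degOf_of_mem hp hs
    rw [← toU_coeff hinj hp h1, Phi_apply]
    exact coeff_le_eval_one _ _
  · rw [MvPolynomial.notMem_support_iff.1 hs]
    exact Nat.zero_le _

/-- the digits of the substitution are the coefficients -/
theorem phi_digit {w : Fin 4 → ℕ} {n L : ℕ}
    (hinj : ∀ s s' : Fin 4 →₀ ℕ, degOf s = n → degOf s' = n → keyOf w s = keyOf w s' → s = s')
    {p : MP} (hp : p.IsHomogeneous n) (hb : Phi w 1 p < 2 ^ L) {s : Fin 4 →₀ ℕ} (hs : degOf s = n) :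
    (Phi w (2 ^ L) p / (2 ^ L) ^ keyOf w s) % 2 ^ L = p.coeff s := by
  rw [Phi_apply, eval_digit (by positivity) _ ?_, toU_coeff hinj hp hs]
  intro i
  exact (coeff_le_eval_one _ _).trans_lt hb

/-- the comparison of two homogeneous polynomials on the Kronecker numbers -/
theorem coeff_le_of_test {w : Fin 4 → ℕ} {n L J : ℕ} (hL : 1 ≤ L)
    (hinj : ∀ s s' : Fin 4 →₀ ℕ, degOf s = n → degOf s' = n → keyOf w s = keyOf w s' → s = s')
    (hJ : ∀ s : Fin 4 →₀ ℕ, degOf s = n → keyOf w s < J)
    {p q : MP} (hp : p.IsHomogeneous n) (hq : q.IsHomogeneous n)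
    (hbp : Phi w 1 p < 2 ^ (L - 1)) (hbq : Phi w 1 q < 2 ^ (L - 1))
    (htest : ((Phi w (2 ^ L) q + guardN L J) - Phi w (2 ^ L) p) &&& guardN L J = guardN L J)
    (s : Fin 4 →₀ ℕ) : p.coeff s ≤ q.coeff s := by
  by_cases hs : s ∈ p.support
  · have h1 := degOf_of_mem hp hs
    rw [← toU_coeff hinj hp h1, ← toU_coeff hinj hq h1]
    exact coeff_le_of_land hL _ _ (fun i => (coeff_le_eval_one _ _).trans_lt hbp)
      (fun i => (coeff_le_eval_one _ _).trans_lt hbq)
      (fun i hi => toU_coeff_zero hJ hp hi) htest (hJ s h1)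
  · rw [MvPolynomial.notMem_support_iff.1 hs]
    exact Nat.zero_le _

/-! ### real points -/

/-- the value of a monomial -/
noncomputable def monV (d : Fin 4 → ℝ) (s : Fin 4 →₀ ℕ) : ℝ := ∏ i, d i ^ s i

lemma monV_nonneg {d : Fin 4 → ℝ} (hd : ∀ i, 0 ≤ d i) (s : Fin 4 →₀ ℕ) : 0 ≤ monV d s :=
  Finset.prod_nonneg fun i _ => pow_nonneg (hd i) _

/-- the real value of a polynomial -/
noncomputable def evR (d : Fin 4 → ℝ) : MP →ₐ[ℕ] ℝ := MvPolynomial.aeval d

lemma evR_eq_sum (d : Fin 4 → ℝ) (p : MP) :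
    evR d p = ∑ s ∈ p.support, ((p.coeff s : ℕ) : ℝ) * monV d s := by
  rw [evR, MvPolynomial.aeval_def, MvPolynomial.eval₂_eq']
  rfl

lemma evR_eq_sum_of_subset (d : Fin 4 → ℝ) (p : MP) {T : Finset (Fin 4 →₀ ℕ)} (hT : p.support ⊆ T) :
    evR d p = ∑ s ∈ T, ((p.coeff s : ℕ) : ℝ) * monV d s := by
  rw [evR_eq_sum]
  refine Finset.sum_subset hT fun s _ hs => ?_
  simp [MvPolynomial.notMem_support_iff.1 hs]

/-- coefficientwise comparisons give inequalities at nonnegative points -/
theorem evR_mono {d : Fin 4 → ℝ} (hd : ∀ i, 0 ≤ d i) {p q : MP} (h : ∀ s, p.coeff s ≤ q.coeff s) :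
    evR d p ≤ evR d q := by
  rw [evR_eq_sum_of_subset d p (Finset.subset_union_left (s₂ := q.support)),
    evR_eq_sum_of_subset d q (Finset.subset_union_right (s₁ := p.support))]
  refine Finset.sum_le_sum fun s _ => ?_
  exact mul_le_mul_of_nonneg_right (by exact_mod_cast h s) (monV_nonneg hd s)

end Crest.Agent.PottsTree.CertQ4.Kron
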