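import Crest.Agent.Lib.PottsTree.CertQ4RowsN1
import Crest.Agent.Lib.PottsTree.CertQ4Avg

/-!
# The `q = 4` certificate: the first inequality
-/

set_option maxRecDepth 100000
set_option linter.unusedVariables false

noncomputable section

namespace Crest.Agent.PottsTree.CertQ4.N1

open Kron Rows Sy Tab Form Avg OneD DataN1
open Crest.Agent.PottsTree Crest.Agent.PottsTree.PairQ4 Crest.Agent.PottsTree.CertQ4PP

/-- the multiplier of the first inequality -/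
def rhoF (p : Fin 4 → ℝ) : ℝ :=
  let A := A 4 p
  let t := tau p
  let S := ssq p
  A - 3 / 4 * t + (-47 / 50) * S + (-11 / 50) * A ^ 2 + (129 / 50) * (A * t) + (301 / 100) * t ^ 2 +
    (-181 / 50) * (A * S) + (9 / 10) * A ^ 3 + (727 / 100) * (t * S) + (-57 / 20) * (A ^ 2 * t) +
    (-647 / 100) * S ^ 2 + (31 / 50) * (A * t ^ 2) + (407 / 100) * (A ^ 2 * S) +
    (-61 / 100) * A ^ 4

/-- the table of the first inequality -/
def cTab : SL := polyL Rs0 T1 ++ polyL2 Ps' Rs1 Tt (pushL (pushL T1))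

/-- the whole form -/
def chain : Option Acc4 :=
  Option.bind (accDiag (fullT (2 ^ 128) ((2 ^ 128) ^ 34) P Ps) cTab (0, 0, 0, 0)) fun a =>
  Option.bind (accPair (fullT (2 ^ 128) ((2 ^ 128) ^ 34) P Ps) (Int.negSucc 3932159999) aT T1 a) fun a =>
  Option.bind (accPair (fullT (2 ^ 128) ((2 ^ 128) ^ 34) P Ps) (Int.negSucc 3932159999) T1 aT a) fun a =>
  Option.bind (accPair (fullT (2 ^ 128) ((2 ^ 128) ^ 34) P Ps) (Int.ofNat 524288) rhoT xiT a) fun a =>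
  Option.bind (accPair (fullT (2 ^ 128) ((2 ^ 128) ^ 34) P Ps) (Int.ofNat 524288) xiT rhoT a) fun a =>
  Option.bind (accPair (fullT (2 ^ 128) ((2 ^ 128) ^ 34) P Ps) (Int.ofNat 235929600) a2T aT a) fun a =>
  accPair (fullT (2 ^ 128) ((2 ^ 128) ^ 34) P Ps) (Int.ofNat 235929600) aT a2T a

theorem mcheck :
    checkOpt (finalCheck (2 ^ 128) ((2 ^ 128) ^ 34) 4194304 Mp Mm) chain = true := by
  decide +kernel

theorem P_len : P.length = 34 := by decide +kernel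
theorem Mp_isM : IsM 34 Mp := ⟨by decide +kernel, by decide +kernel⟩
theorem Mm_isM : IsM 34 Mm := ⟨by decide +kernel, by decide +kernel⟩

/-- the value of the form -/
def valF (p r : Fin 4 → ℝ) : ℝ :=
  valD p r cTab + ((Int.negSucc 3932159999 : ℤ) : ℝ) * valS p aT * valS r T1 +
    ((Int.negSucc 3932159999 : ℤ) : ℝ) * valS p T1 * valS r aT +
    ((Int.ofNat 524288 : ℤ) : ℝ) * valS p rhoT * valS r xiT +
    ((Int.ofNat 524288 : ℤ) : ℝ) * valS p xiT * valS r rhoT +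
    ((Int.ofNat 235929600 : ℤ) : ℝ) * valS p a2T * valS r aT +
    ((Int.ofNat 235929600 : ℤ) : ℝ) * valS p aT * valS r a2T

theorem chain_spec {acc : Acc4} (h : chain = some acc) :
    AccP 34 (2 ^ 128) ((2 ^ 128) ^ 34) P acc valF := by
  have hT := fullT_good (N := 34) (Z := 2 ^ 128) (Z' := (2 ^ 128) ^ 34) (P := P) P_len Ps
  simp only [chain, Option.bind_eq_some_iff] at h
  obtain ⟨a1, h1, a2, h2, a3, h3, a4, h4, a5, h5, a6, h6, h7⟩ := h
  have z := accP_zero 34 (2 ^ 128) ((2 ^ 128) ^ 34) P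
  have s1 := accDiag_spec hT cTab z h1
  have s2 := accPair_spec hT _ aT T1 s1 h2
  have s3 := accPair_spec hT _ T1 aT s2 h3
  have s4 := accPair_spec hT _ rhoT xiT s3 h4
  have s5 := accPair_spec hT _ xiT rhoT s4 h5
  have s6 := accPair_spec hT _ a2T aT s5 h6
  have s7 := accPair_spec hT _ aT a2T s6 h7
  have s8 : AccP 34 (2 ^ 128) ((2 ^ 128) ^ 34) P acc (fun p r => valD p r cTab +
      ((Int.negSucc 3932159999 : ℤ) : ℝ) * valS p aT * valS r T1 +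
      ((Int.negSucc 3932159999 : ℤ) : ℝ) * valS p T1 * valS r aT +
      ((Int.ofNat 524288 : ℤ) : ℝ) * valS p rhoT * valS r xiT +
      ((Int.ofNat 524288 : ℤ) : ℝ) * valS p xiT * valS r rhoT +
      ((Int.ofNat 235929600 : ℤ) : ℝ) * valS p a2T * valS r aT +
      ((Int.ofNat 235929600 : ℤ) : ℝ) * valS p aT * valS r a2T) := by
    simpa only [zero_add] using s7
  exact s8

/-- the form is nonpositive -/
theorem valF_nonpos {p r : Fin 4 → ℝ} (hp : p ∈ Sx 4) (hr : r ∈ Sx 4) : valF p r ≤ 0 := by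
  obtain ⟨acc, hc, hm'⟩ := of_checkOpt mcheck
  have h := AccP.final (N := 34) (Z := 2 ^ 128) (g := 4194304) (chain_spec hc) (by norm_num)
    (by norm_num) Mp_isM Mm_isM hm' p r (m_eq_one hp) (m_eq_one hr)
  rw [h]
  exact mul_nonpos_of_nonneg_of_nonpos (Nat.cast_nonneg _) (sub_nonpos.2 (RowsN1.form_ineq hp.1 hr.1))

/-! ### the tables -/

lemma tab_T1 (z : Fin 4 → ℝ) : valS z T1 = 24 := by
  simp only [T1, valS_cons, valS_nil, Sy, sSum]
  norm_num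

lemma tab_a (p : Fin 4 → ℝ) (hp : p ∈ Sx 4) : valS p aT = 2 * A 4 p := by
  rw [A_eq hp]
  simp only [aT, valS_cons, valS_nil, Sy, sSum, ca, cb, cc, Int.cast_negSucc]
  have hm := m_eq_one hp
  push_cast
  ring

lemma tab_a2 (p : Fin 4 → ℝ) (hp : p ∈ Sx 4) : valS p a2T = 2 * A 4 p ^ 2 := by
  rw [A_eq hp]
  simp only [a2T, valS_cons, valS_nil, Sy, sSum, ca, cb, cc, Int.cast_negSucc]
  push_cast
  ring

lemma tab_xi (p : Fin 4 → ℝ) (hp : p ∈ Sx 4) : valS p xiT = 600 * Xi0 p := by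
  have hm := m_eq_one hp
  have e : valS p xiT = 600 * (4 * (ca p * cb p * cc p) * (p 0 + p 1 + p 2 + p 3) ^ 2 -
      al0 * (ca p ^ 2 + cb p ^ 2 + cc p ^ 2) ^ 2 * (p 0 + p 1 + p 2 + p 3) -
      be0 * ssq p * (p 0 + p 1 + p 2 + p 3) +
      ga0 * (ca p ^ 2 + cb p ^ 2 + cc p ^ 2) * (ca p * cb p * cc p)) := by
    simp only [xiT, valS_cons, valS_nil, Sy, sSum, ssq, ca, cb, cc, Int.cast_negSucc, al0, be0, ga0]
    push_cast
    ring
  rw [e, hm]
  simp only [Xi0, Xi, tau, A_eq hp]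
  ring

lemma tab_rho (p : Fin 4 → ℝ) (hp : p ∈ Sx 4) : valS p rhoT = 600 * rhoF p := by
  have hm := m_eq_one hp
  have e : valS p rhoT = 600 * (
      (ca p ^ 2 + cb p ^ 2 + cc p ^ 2) * (p 0 + p 1 + p 2 + p 3) ^ 6 -
      3 / 4 * (ca p * cb p * cc p) * (p 0 + p 1 + p 2 + p 3) ^ 5 +
      (-47 / 50) * ssq p * (p 0 + p 1 + p 2 + p 3) ^ 4 +
      (-11 / 50) * (ca p ^ 2 + cb p ^ 2 + cc p ^ 2) ^ 2 * (p 0 + p 1 + p 2 + p 3) ^ 4 +
      (129 / 50) * ((ca p ^ 2 + cb p ^ 2 + cc p ^ 2) * (ca p * cb p * cc p)) *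
        (p 0 + p 1 + p 2 + p 3) ^ 3 +
      (301 / 100) * (ca p * cb p * cc p) ^ 2 * (p 0 + p 1 + p 2 + p 3) ^ 2 +
      (-181 / 50) * ((ca p ^ 2 + cb p ^ 2 + cc p ^ 2) * ssq p) * (p 0 + p 1 + p 2 + p 3) ^ 2 +
      (9 / 10) * (ca p ^ 2 + cb p ^ 2 + cc p ^ 2) ^ 3 * (p 0 + p 1 + p 2 + p 3) ^ 2 +
      (727 / 100) * ((ca p * cb p * cc p) * ssq p) * (p 0 + p 1 + p 2 + p 3) +
      (-57 / 20) * ((ca p ^ 2 + cb p ^ 2 + cc p ^ 2) ^ 2 * (ca p * cb p * cc p)) *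
        (p 0 + p 1 + p 2 + p 3) +
      (-647 / 100) * ssq p ^ 2 +
      (31 / 50) * ((ca p ^ 2 + cb p ^ 2 + cc p ^ 2) * (ca p * cb p * cc p) ^ 2) +
      (407 / 100) * ((ca p ^ 2 + cb p ^ 2 + cc p ^ 2) ^ 2 * ssq p) +
      (-61 / 100) * (ca p ^ 2 + cb p ^ 2 + cc p ^ 2) ^ 4) := by
    simp only [rhoT, valS_cons, valS_nil, Sy, sSum, ssq, ca, cb, cc, Int.cast_negSucc]
    push_cast
    ring
  rw [e, hm]
  simp only [rhoF, tau, A_eq hp]
  ring

lemma tab_t (x : Fin 4 → ℝ) : valS x Tt = 32 * tX x := by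
  simp only [Tt, valS_cons, valS_nil, Sy, sSum, tX, n1X, n2X, n3X, Int.cast_negSucc]
  push_cast
  ring

lemma poly_pp (X : ℝ) : polyV Ps' X = 96 * 2560000 * ppF (X / 4 - 1) := by
  simp only [Ps', polyV, ppF, Int.cast_negSucc]
  push_cast
  ring

lemma poly_rr (X : ℝ) : polyV Rs0 X + X ^ 2 * polyV Rs1 X = 327680000 * rrF (X / 4 - 1) := by
  simp only [Rs0, Rs1, polyV, rrF, Int.cast_negSucc]
  push_cast
  ring

/-- the polynomial of the first inequality at `x` -/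
def G1 (x : Fin 4 → ℝ) : ℝ := tX x * ppF (sumX x / 4 - 1) + rrF (sumX x / 4 - 1)

lemma tab_G1 (x : Fin 4 → ℝ) : valS x cTab = 7864320000 * G1 x := by
  have h1 := tab_T1 x
  have h2 := tab_t x
  rw [cTab, valS_append, valS_polyL, valS_polyL2, valS_pushL, valS_pushL, h1, h2]
  have h3 := poly_pp (x 0 + x 1 + x 2 + x 3)
  have h4 := poly_rr (x 0 + x 1 + x 2 + x 3)
  rw [h3]
  simp only [G1, sumX]
  set X := x 0 + x 1 + x 2 + x 3
  have h5 : polyV Rs0 X * 24 + (96 * 2560000 * ppF (X / 4 - 1) * (32 * tX x) + polyV Rs1 X * (24 * X * X)) =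
      24 * (polyV Rs0 X + X ^ 2 * polyV Rs1 X) + 96 * 2560000 * ppF (X / 4 - 1) * (32 * tX x) := by
    ring
  rw [h5, h4]
  ring

/-- **The first inequality.** -/
theorem N1_ineq {p r : Fin 4 → ℝ} (hp : p ∈ Sx 4) (hr : r ∈ Sx 4) :
    B (A 4) p r ≤ A 4 p + A 4 r - rhoF r * Xi0 p - rhoF p * Xi0 r -
      (1 / 200) * (A 4 p * A 4 r * (A 4 p + A 4 r)) := by
  have h0 := valF_nonpos hp hr
  have h1 : ∀ π : Equiv.Perm (Fin 4), 4 * K (A 4) p (rel π r) ≤ G1 (xx p (rel π r)) := fun π =>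
    pp1_rel rr_nn pp_valid hp hr π
  have h2 : B (A 4) p r ≤ (1 / 24) * ∑ π : Equiv.Perm (Fin 4), G1 (xx p (rel π r)) := by
    rw [B_eq_avg]
    exact mul_le_mul_of_nonneg_left (Finset.sum_le_sum fun π _ => h1 π) (by norm_num)
  have h3 : valD p r cTab = 7864320000 * ∑ π : Equiv.Perm (Fin 4), G1 (xx p (rel π r)) := by
    rw [← sum_valS_xx, Finset.mul_sum]
    exact Finset.sum_congr rfl fun π _ => tab_G1 _
  have hk : ((Int.negSucc 3932159999 : ℤ) : ℝ) = -3932160000 := by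
    rw [Int.cast_negSucc]
    norm_num
  simp only [valF, h3, tab_a p hp, tab_a r hr, tab_a2 p hp, tab_a2 r hr, tab_xi p hp, tab_xi r hr,
    tab_rho p hp, tab_rho r hr, tab_T1, hk] at h0
  have hk1 : ((Int.ofNat 524288 : ℤ) : ℝ) = 524288 := by norm_num
  have hk2 : ((Int.ofNat 235929600 : ℤ) : ℝ) = 235929600 := by norm_num
  rw [hk1, hk2] at h0
  have h4 : (1 / 24) * ∑ π : Equiv.Perm (Fin 4), G1 (xx p (rel π r)) ≤
      A 4 p + A 4 r - rhoF r * Xi0 p - rhoF p * Xi0 r -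
        (1 / 200) * (A 4 p * A 4 r * (A 4 p + A 4 r)) := by
    linarith
  linarith

end Crest.Agent.PottsTree.CertQ4.N1

end
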