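import Crest.Agent.Lib.PottsTree.CertQ4Kron

/-!
# Bilinear forms on the product of two orthants, checked row by row on Kronecker numbers

`bP` is a list of homogeneous polynomials with natural coefficients, `Mp`, `Mm` are matrices with
natural entries.  `bil_le_of_rows`: the form `∑ (Mp - Mm)ᵢⱼ bᵢ(d) bⱼ(d')` is nonpositive for `d, d' ≥ 0`
as soon as, for each exponent `s`, a comparison of two big numbers holds.
-/

set_option linter.unusedVariables false

namespace Crest.Agent.PottsTree.CertQ4.Rows

open Kron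

/-! ### the computation, with raw recursors -/

/-- `∑ aᵢ bᵢ` -/
noncomputable def combN (as : List ℕ) : List ℕ → ℕ :=
  List.rec (fun _ => 0)
    (fun a _ ih bs => List.rec 0 (fun b t _ => Nat.add (Nat.mul a b) (ih t)) bs) as

@[simp] lemma combN_nil (bs : List ℕ) : combN [] bs = 0 := rfl
@[simp] lemma combN_nil' (a : ℕ) (as : List ℕ) : combN (a :: as) [] = 0 := rfl
@[simp] lemma combN_cons (a b : ℕ) (as bs : List ℕ) :
    combN (a :: as) (b :: bs) = a * b + combN as bs := rfl

/-- `∑ digit(Bᵢ) Cᵢ`, with the digit at position `key` -/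
noncomputable def combD (L Z key : ℕ) (B : List ℕ) : List ℕ → ℕ :=
  List.rec (fun _ => 0)
    (fun N _ ih C => List.rec 0 (fun c t _ =>
      Nat.add (Nat.mul (Nat.mod (Nat.shiftRight N (Nat.mul L key)) Z) c) (ih t)) C) B

lemma combD_eq (L key : ℕ) (B C : List ℕ) :
    combD L (2 ^ L) key B C = combN (B.map fun N => (N / (2 ^ L) ^ key) % 2 ^ L) C := by
  induction B generalizing C with
  | nil => rfl
  | cons N t ih =>
    cases C with
    | nil => rfl
    | cons c C =>
      have h := ih C
      have e : Nat.shiftRight N (Nat.mul L key) = N / (2 ^ L) ^ key := by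
        rw [← pow_mul]
        exact Nat.shiftRight_eq_div_pow _ _
      change Nat.add (Nat.mul (Nat.mod (Nat.shiftRight N (Nat.mul L key)) (2 ^ L)) c)
        (combD L (2 ^ L) key t C) = _
      rw [e, h]
      rfl

/-- the comparison at a row -/
noncomputable def rowTest (L Z H key : ℕ) (B CP CM : List ℕ) : Bool :=
  Nat.beq (Nat.land (Nat.sub (Nat.add (combD L Z key B CM) H) (combD L Z key B CP)) H) H

/-- all the rows of a list -/
noncomputable def allRows (L Z H : ℕ) (B CP CM : List ℕ) (keys : List ℕ) : Bool :=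
  List.rec true (fun key _ ih =>
    Bool.rec false ih (rowTest L Z H key B CP CM)) keys

lemma allRows_mem {L Z H : ℕ} {B CP CM keys : List ℕ} (h : allRows L Z H B CP CM keys = true)
    {key : ℕ} (hk : key ∈ keys) : rowTest L Z H key B CP CM = true := by
  induction keys with
  | nil => simp at hk
  | cons k t ih =>
    have h' : (Bool.rec false (allRows L Z H B CP CM t) (rowTest L Z H k B CP CM) : Bool) = true := h
    cases hr : rowTest L Z H k B CP CM with
    | false =>
      rw [hr] at h'
      exact absurd h' (by simp)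
    | true =>
      rw [hr] at h'
      rcases List.mem_cons.1 hk with rfl | hk
      · exact hr
      · exact ih h' hk

/-- force the elements of a list of numbers to literals, in the kernel -/
noncomputable def forceL {α : Type} (l : List ℕ) : (List ℕ → α) → α :=
  List.rec (fun k => k [])
    (fun x _ ih k => Nat.rec (ih fun ys => k (0 :: ys))
      (fun m _ => ih fun ys => k (Nat.succ m :: ys)) x) l

lemma forceL_eq {α : Type} (l : List ℕ) (k : List ℕ → α) : forceL l k = k l := by
  induction l generalizing k with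
  | nil => rfl
  | cons x t ih =>
    cases x with
    | zero =>
      change forceL t (fun ys => k (0 :: ys)) = _
      rw [ih]
    | succ m =>
      change forceL t (fun ys => k (Nat.succ m :: ys)) = _
      rw [ih]

/-- the columns `∑ⱼ Mᵢⱼ bⱼ` -/
noncomputable def colsN (M : List (List ℕ)) (B : List ℕ) : List ℕ :=
  List.rec [] (fun r _ ih => combN r B :: ih) M

lemma colsN_eq (M : List (List ℕ)) (B : List ℕ) : colsN M B = M.map (fun r => combN r B) := by
  induction M with
  | nil => rfl
  | cons r t ih => simp only [List.map_cons, ← ih]; rfl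

/-- the check of a chunk of rows -/
noncomputable def chunkCheck (L Z H : ℕ) (B : List ℕ) (Mp Mm : List (List ℕ)) (keys : List ℕ) :
    Bool :=
  forceL B fun B' => forceL (colsN Mp B') fun CP => forceL (colsN Mm B') fun CM =>
    allRows L Z H B' CP CM keys

lemma chunkCheck_eq (L Z H : ℕ) (B : List ℕ) (Mp Mm : List (List ℕ)) (keys : List ℕ) :
    chunkCheck L Z H B Mp Mm keys = allRows L Z H B (colsN Mp B) (colsN Mm B) keys := by
  simp only [chunkCheck, forceL_eq]

/-! ### the meaning -/

/-- linear combination of polynomials -/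
noncomputable def combP : List ℕ → List MP → MP
  | a :: as, b :: bs => (a : MP) * b + combP as bs
  | _, _ => 0

@[simp] lemma combP_nil (bs : List MP) : combP [] bs = 0 := rfl
@[simp] lemma combP_nil' (as : List ℕ) : combP as [] = 0 := by cases as <;> rfl
@[simp] lemma combP_cons (a : ℕ) (b : MP) (as : List ℕ) (bs : List MP) :
    combP (a :: as) (b :: bs) = (a : MP) * b + combP as bs := rfl

lemma combP_hom {n : ℕ} (as : List ℕ) (bs : List MP) (h : ∀ b ∈ bs, b.IsHomogeneous n) :
    (combP as bs).IsHomogeneous n := by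
  induction as generalizing bs with
  | nil => exact MvPolynomial.isHomogeneous_zero _ _ _
  | cons a as ih =>
    cases bs with
    | nil => exact MvPolynomial.isHomogeneous_zero _ _ _
    | cons b bs =>
      rw [combP_cons]
      refine MvPolynomial.IsHomogeneous.add ?_ (ih bs fun x hx => h x (List.mem_cons_of_mem _ hx))
      have h1 := (MvPolynomial.isHomogeneous_C (Fin 4) (a : ℕ)).mul (h b List.mem_cons_self)
      simpa using h1

lemma Phi_combP (w : Fin 4 → ℕ) (Z : ℕ) (as : List ℕ) (bs : List MP) :
    Phi w Z (combP as bs) = combN as (bs.map (Phi w Z)) := by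
  induction as generalizing bs with
  | nil => simp
  | cons a as ih =>
    cases bs with
    | nil => simp
    | cons b bs =>
      simp only [combP_cons, map_add, map_mul, Phi_natCast, ih, List.map_cons, combN_cons]

/-- `∑ aᵢ xᵢ` -/
noncomputable def dotR : List ℕ → List ℝ → ℝ
  | a :: as, x :: xs => (a : ℝ) * x + dotR as xs
  | _, _ => 0

@[simp] lemma dotR_nil (xs : List ℝ) : dotR [] xs = 0 := rfl
@[simp] lemma dotR_nil' (as : List ℕ) : dotR as [] = 0 := by cases as <;> rfl
@[simp] lemma dotR_cons (a : ℕ) (x : ℝ) (as : List ℕ) (xs : List ℝ) :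
    dotR (a :: as) (x :: xs) = (a : ℝ) * x + dotR as xs := rfl

lemma evR_combP (d : Fin 4 → ℝ) (as : List ℕ) (bs : List MP) :
    evR d (combP as bs) = dotR as (bs.map (evR d)) := by
  induction as generalizing bs with
  | nil => simp
  | cons a as ih =>
    cases bs with
    | nil => simp
    | cons b bs =>
      simp only [combP_cons, map_add, map_mul, map_natCast, ih, List.map_cons, dotR_cons]

/-- `∑ xᵢ yᵢ` -/
noncomputable def dotRR : List ℝ → List ℝ → ℝ
  | x :: xs, y :: ys => x * y + dotRR xs ys
  | _, _ => 0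

@[simp] lemma dotRR_nil (ys : List ℝ) : dotRR [] ys = 0 := rfl
@[simp] lemma dotRR_nil' (xs : List ℝ) : dotRR xs [] = 0 := by cases xs <;> rfl
@[simp] lemma dotRR_cons (x y : ℝ) (xs ys : List ℝ) :
    dotRR (x :: xs) (y :: ys) = x * y + dotRR xs ys := rfl

/-- the bilinear form of a matrix with natural entries -/
noncomputable def bil : List (List ℕ) → List ℝ → List ℝ → ℝ
  | r :: rs, x :: xs, ys => x * dotR r ys + bil rs xs ys
  | _, _, _ => 0

@[simp] lemma bil_nil (xs ys : List ℝ) : bil [] xs ys = 0 := rfl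
@[simp] lemma bil_nil' (A : List (List ℕ)) (ys : List ℝ) : bil A [] ys = 0 := by cases A <;> rfl
@[simp] lemma bil_cons (r : List ℕ) (rs : List (List ℕ)) (x : ℝ) (xs ys : List ℝ) :
    bil (r :: rs) (x :: xs) ys = x * dotR r ys + bil rs xs ys := rfl

lemma dotRR_cols (d' : Fin 4 → ℝ) (A : List (List ℕ)) (xs : List ℝ) (bP : List MP) :
    dotRR xs ((A.map fun r => combP r bP).map (evR d')) = bil A xs (bP.map (evR d')) := by
  induction A generalizing xs with
  | nil => simp
  | cons r rs ih =>
    cases xs with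
    | nil => simp
    | cons x xs =>
      simp only [List.map_cons, dotRR_cons, bil_cons, ih, evR_combP]

/-- expansion along the monomials of the first factor -/
lemma dotRR_expand (d : Fin 4 → ℝ) (T : Finset (Fin 4 →₀ ℕ)) (bP : List MP)
    (hT : ∀ b ∈ bP, b.support ⊆ T) (ys : List ℝ) :
    dotRR (bP.map (evR d)) ys =
      ∑ s ∈ T, monV d s * dotR (bP.map fun b => b.coeff s) ys := by
  induction bP generalizing ys with
  | nil => simp
  | cons b bs ih =>
    cases ys with
    | nil => simp
    | cons y ys =>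
      simp only [List.map_cons, dotRR_cons, dotR_cons]
      rw [ih (fun x hx => hT x (List.mem_cons_of_mem _ hx)) ys,
        evR_eq_sum_of_subset d b (hT b List.mem_cons_self), Finset.sum_mul,
        ← Finset.sum_add_distrib]
      refine Finset.sum_congr rfl fun s _ => ?_
      ring

lemma combN_mono {as as' bs : List ℕ} (h : List.Forall₂ (· ≤ ·) as as') :
    combN as bs ≤ combN as' bs := by
  induction h generalizing bs with
  | nil => exact le_rfl
  | cons h1 _ ih =>
    cases bs with
    | nil => exact le_rfl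
    | cons b bs =>
      simp only [combN_cons]
      exact Nat.add_le_add (Nat.mul_le_mul_right _ h1) ih

lemma exists_support_set {n : ℕ} (bP : List MP) (hb : ∀ b ∈ bP, b.IsHomogeneous n) :
    ∃ T : Finset (Fin 4 →₀ ℕ), (∀ b ∈ bP, b.support ⊆ T) ∧ ∀ s ∈ T, degOf s = n := by
  classical
  induction bP with
  | nil => exact ⟨∅, by simp, by simp⟩
  | cons b bs ih =>
    obtain ⟨T, h1, h2⟩ := ih fun x hx => hb x (List.mem_cons_of_mem _ hx)
    refine ⟨b.support ∪ T, ?_, ?_⟩
    · intro x hx
      rcases List.mem_cons.1 hx with rfl | hx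
      · exact Finset.subset_union_left
      · exact (h1 x hx).trans Finset.subset_union_right
    · intro s hs
      rcases Finset.mem_union.1 hs with hs | hs
      · exact degOf_of_mem (hb b List.mem_cons_self) hs
      · exact h2 s hs

lemma combN_coeff_le {w : Fin 4 → ℕ} {n : ℕ}
    (hinj : ∀ s s' : Fin 4 →₀ ℕ, degOf s = n → degOf s' = n → keyOf w s = keyOf w s' → s = s')
    (bP : List MP) (hb : ∀ b ∈ bP, b.IsHomogeneous n) (s : Fin 4 →₀ ℕ) (cs : List ℕ) :
    combN (bP.map fun b => b.coeff s) cs ≤ combN (bP.map (Phi w 1)) cs := by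
  induction bP generalizing cs with
  | nil => exact le_rfl
  | cons b bs ih =>
    cases cs with
    | nil => exact le_rfl
    | cons c cs =>
      simp only [List.map_cons, combN_cons]
      exact Nat.add_le_add
        (Nat.mul_le_mul_right _ (coeff_le_ones hinj (hb b List.mem_cons_self) s))
        (ih (fun x hx => hb x (List.mem_cons_of_mem _ hx)) cs)

/-- **The row check.** -/
theorem bil_le_of_rows {w : Fin 4 → ℕ} {n L J : ℕ} (hL : 1 ≤ L)
    (hinj : ∀ s s' : Fin 4 →₀ ℕ, degOf s = n → degOf s' = n → keyOf w s = keyOf w s' → s = s')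
    (hJ : ∀ s : Fin 4 →₀ ℕ, degOf s = n → keyOf w s < J)
    (bP : List MP) (hb : ∀ b ∈ bP, b.IsHomogeneous n) (Mp Mm : List (List ℕ))
    (hones : ∀ N ∈ bP.map (Phi w 1), N < 2 ^ L)
    (hbp : combN (bP.map (Phi w 1)) (colsN Mp (bP.map (Phi w 1))) < 2 ^ (L - 1))
    (hbm : combN (bP.map (Phi w 1)) (colsN Mm (bP.map (Phi w 1))) < 2 ^ (L - 1))
    (hrows : ∀ s : Fin 4 →₀ ℕ, degOf s = n →
      rowTest L (2 ^ L) (guardN L J) (keyOf w s) (bP.map (Phi w (2 ^ L)))
        (colsN Mp (bP.map (Phi w (2 ^ L)))) (colsN Mm (bP.map (Phi w (2 ^ L)))) = true)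
    {d d' : Fin 4 → ℝ} (hd : ∀ i, 0 ≤ d i) (hd' : ∀ i, 0 ≤ d' i) :
    bil Mp (bP.map (evR d)) (bP.map (evR d')) ≤ bil Mm (bP.map (evR d)) (bP.map (evR d')) := by
  have hcolsPhi : ∀ (M : List (List ℕ)) (Z : ℕ),
      colsN M (bP.map (Phi w Z)) = (M.map fun r => combP r bP).map (Phi w Z) := by
    intro M Z
    rw [colsN_eq, List.map_map]
    refine List.map_congr_left fun r _ => ?_
    simp only [Function.comp, Phi_combP]
  obtain ⟨T, hT, hTdeg⟩ := exists_support_set bP hb
  rw [← dotRR_cols d' Mp, ← dotRR_cols d' Mm, dotRR_expand d T bP hT, dotRR_expand d T bP hT]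
  refine Finset.sum_le_sum fun s hs => mul_le_mul_of_nonneg_left ?_ (monV_nonneg hd s)
  have hsn := hTdeg s hs
  set as : List ℕ := bP.map fun b => b.coeff s with has
  set CP : List MP := Mp.map fun r => combP r bP with hCP
  set CM : List MP := Mm.map fun r => combP r bP with hCM
  rw [← evR_combP d', ← evR_combP d']
  refine evR_mono hd' fun t => ?_
  have hhomC : ∀ (M : List (List ℕ)), ∀ c ∈ M.map (fun r => combP r bP), c.IsHomogeneous n := by
    intro M c hc
    obtain ⟨r, _, rfl⟩ := List.mem_map.1 hc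
    exact combP_hom r bP hb
  have hp : (combP as CP).IsHomogeneous n := combP_hom as CP (hhomC Mp)
  have hq : (combP as CM).IsHomogeneous n := combP_hom as CM (hhomC Mm)
  have hb1 : Phi w 1 (combP as CP) < 2 ^ (L - 1) := by
    rw [Phi_combP, ← hcolsPhi]
    exact (combN_coeff_le hinj bP hb s _).trans_lt hbp
  have hb2 : Phi w 1 (combP as CM) < 2 ^ (L - 1) := by
    rw [Phi_combP, ← hcolsPhi]
    exact (combN_coeff_le hinj bP hb s _).trans_lt hbm
  refine coeff_le_of_test hL hinj hJ hp hq hb1 hb2 ?_ t
  have hdig : (bP.map (Phi w (2 ^ L))).map (fun N => (N / (2 ^ L) ^ keyOf w s) % 2 ^ L) = as := by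
    rw [List.map_map, has]
    refine List.map_congr_left fun b hbm' => ?_
    exact phi_digit hinj (hb b hbm') (hones _ (List.mem_map_of_mem hbm')) hsn
  have h := Nat.eq_of_beq_eq_true (hrows s hsn)
  have e1 : combD L (2 ^ L) (keyOf w s) (bP.map (Phi w (2 ^ L)))
      (colsN Mp (bP.map (Phi w (2 ^ L)))) = Phi w (2 ^ L) (combP as CP) := by
    rw [combD_eq, hdig, Phi_combP, hcolsPhi]
  have e2 : combD L (2 ^ L) (keyOf w s) (bP.map (Phi w (2 ^ L)))
      (colsN Mm (bP.map (Phi w (2 ^ L)))) = Phi w (2 ^ L) (combP as CM) := by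
    rw [combD_eq, hdig, Phi_combP, hcolsPhi]
  rw [e1, e2] at h
  exact h

end Crest.Agent.PottsTree.CertQ4.Rows
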