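import Crest.Agent.Lib.PottsTree.CertQ4DataN1

/-! The rows of the inequality `N1` of the `q = 4` certificate (generated). -/

set_option maxRecDepth 100000
set_option linter.unusedVariables false
set_option Elab.async false

namespace Crest.Agent.PottsTree.CertQ4.RowsN1

open Kron Rows Sy Tab Form DataN1

/-- the keys of a chunk of rows -/
noncomputable def K (i : ℕ) : List ℕ := ((allKeys 12 1 13 169).drop (200 * i)).take 200

theorem chunk0 : chunkCheck 96 (2 ^ 96) (guardN 96 2029) (bNum (ysN 1 13 169 (2 ^ 96)) P) Mp Mm (K 0) = true := by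
  decide +kernel

theorem chunk1 : chunkCheck 96 (2 ^ 96) (guardN 96 2029) (bNum (ysN 1 13 169 (2 ^ 96)) P) Mp Mm (K 1) = true := by
  decide +kernel

theorem chunk2 : chunkCheck 96 (2 ^ 96) (guardN 96 2029) (bNum (ysN 1 13 169 (2 ^ 96)) P) Mp Mm (K 2) = true := by
  decide +kernel

theorem keys_split : allKeys 12 1 13 169 = K 0 ++ K 1 ++ K 2 := by
  decide +kernel

theorem rows_all : ∀ k ∈ allKeys 12 1 13 169, rowTest 96 (2 ^ 96) (guardN 96 2029) k (bNum (ysN 1 13 169 (2 ^ 96)) P)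
    (colsN Mp (bNum (ysN 1 13 169 (2 ^ 96)) P)) (colsN Mm (bNum (ysN 1 13 169 (2 ^ 96)) P)) = true := by
  have of : ∀ {keys : List ℕ}, chunkCheck 96 (2 ^ 96) (guardN 96 2029) (bNum (ysN 1 13 169 (2 ^ 96)) P) Mp Mm keys = true → ∀ k ∈ keys,
      rowTest 96 (2 ^ 96) (guardN 96 2029) k (bNum (ysN 1 13 169 (2 ^ 96)) P) (colsN Mp (bNum (ysN 1 13 169 (2 ^ 96)) P)) (colsN Mm (bNum (ysN 1 13 169 (2 ^ 96)) P)) = true := by
    intro keys h k hk
    rw [chunkCheck_eq] at h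
    exact allRows_mem h hk
  intro k hk
  rw [keys_split] at hk
  simp only [List.mem_append] at hk
  rcases hk with ((h0 | h1) | h2)
  · exact of chunk0 k h0
  · exact of chunk1 k h1
  · exact of chunk2 k h2

theorem hinj : ∀ s s' : Fin 4 →₀ ℕ, degOf s = 12 → degOf s' = 12 →
    Kron.keyOf (wOf 1 13 169) s = Kron.keyOf (wOf 1 13 169) s' → s = s' := by
  intro s s' hs hs' hk
  have h1 : s 0 + s 1 + s 2 + s 3 = 12 := by simpa [degOf, Fin.sum_univ_four] using hs
  have h2 : s' 0 + s' 1 + s' 2 + s' 3 = 12 := by simpa [degOf, Fin.sum_univ_four] using hs'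
  have h3 : s 1 + 13 * s 2 + 169 * s 3 = s' 1 + 13 * s' 2 + 169 * s' 3 := by
    simpa [keyOf, wOf, Fin.sum_univ_four] using hk
  have b1 : s 1 + 13 * s 2 ≤ 13 * 12 := by omega
  have b2 : s' 1 + 13 * s' 2 ≤ 13 * 12 := by omega
  have e3 : s 3 = s' 3 := by omega
  have e2 : s 2 = s' 2 := by omega
  have e1 : s 1 = s' 1 := by omega
  have e0 : s 0 = s' 0 := by omega
  ext i
  fin_cases i
  · exact e0
  · exact e1
  · exact e2
  · exact e3

theorem hJ : ∀ s : Fin 4 →₀ ℕ, degOf s = 12 → Kron.keyOf (wOf 1 13 169) s < 2029 := by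
  intro s hs
  have h1 : s 0 + s 1 + s 2 + s 3 = 12 := by simpa [degOf, Fin.sum_univ_four] using hs
  have h3 : Kron.keyOf (wOf 1 13 169) s = s 1 + 13 * s 2 + 169 * s 3 := by
    simp [keyOf, wOf, Fin.sum_univ_four]
  rw [h3]
  omega

theorem hdeg : ∀ e ∈ P, e.1 + e.2.1 + e.2.2.1 + e.2.2.2 = 12 := by
  decide +kernel

theorem hones : ∀ N ∈ (bNum (ysN 1 13 169 1) P), N < 2 ^ 96 := by
  decide +kernel

theorem hbp : combN (bNum (ysN 1 13 169 1) P) (colsN Mp (bNum (ysN 1 13 169 1) P)) < 2 ^ (96 - 1) := by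
  decide +kernel

theorem hbm : combN (bNum (ysN 1 13 169 1) P) (colsN Mm (bNum (ysN 1 13 169 1) P)) < 2 ^ (96 - 1) := by
  decide +kernel

/-- **The bilinear inequality.** -/
theorem form_ineq {p r : Fin 4 → ℝ} (hp : ∀ i, 0 ≤ p i) (hr : ∀ i, 0 ≤ r i) :
    bil Mp (P.map (Sy p)) (P.map (Sy r)) ≤ bil Mm (P.map (Sy p)) (P.map (Sy r)) :=
  form_le (n := 12) (L := 96) (J := 2029) (w1 := 1) (w2 := 13) (w3 := 169) (by norm_num) hinj hJ P hdeg Mp Mm
    hones hbp hbm rows_all hp hr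

end Crest.Agent.PottsTree.CertQ4.RowsN1
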