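import Crest.Agent.Lib.PottsTree.CertQ4DataN2

/-! The rows of the inequality `N2` of the `q = 4` certificate (generated). -/

set_option maxRecDepth 100000
set_option linter.unusedVariables false
set_option Elab.async false

namespace Crest.Agent.PottsTree.CertQ4.RowsN2

open Kron Rows Sy Tab Form DataN2

/-- the keys of a chunk of rows -/
noncomputable def K (i : ℕ) : List ℕ := ((allKeys 16 1 17 289).drop (100 * i)).take 100

theorem chunk0 : chunkCheck 156 (2 ^ 156) (guardN 156 4625) (bNum (ysN 1 17 289 (2 ^ 156)) P) Mp Mm (K 0) = true := by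
  decide +kernel

theorem chunk1 : chunkCheck 156 (2 ^ 156) (guardN 156 4625) (bNum (ysN 1 17 289 (2 ^ 156)) P) Mp Mm (K 1) = true := by
  decide +kernel

theorem chunk2 : chunkCheck 156 (2 ^ 156) (guardN 156 4625) (bNum (ysN 1 17 289 (2 ^ 156)) P) Mp Mm (K 2) = true := by
  decide +kernel

theorem chunk3 : chunkCheck 156 (2 ^ 156) (guardN 156 4625) (bNum (ysN 1 17 289 (2 ^ 156)) P) Mp Mm (K 3) = true := by
  decide +kernel

theorem chunk4 : chunkCheck 156 (2 ^ 156) (guardN 156 4625) (bNum (ysN 1 17 289 (2 ^ 156)) P) Mp Mm (K 4) = true := by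
  decide +kernel

theorem chunk5 : chunkCheck 156 (2 ^ 156) (guardN 156 4625) (bNum (ysN 1 17 289 (2 ^ 156)) P) Mp Mm (K 5) = true := by
  decide +kernel

theorem chunk6 : chunkCheck 156 (2 ^ 156) (guardN 156 4625) (bNum (ysN 1 17 289 (2 ^ 156)) P) Mp Mm (K 6) = true := by
  decide +kernel

theorem chunk7 : chunkCheck 156 (2 ^ 156) (guardN 156 4625) (bNum (ysN 1 17 289 (2 ^ 156)) P) Mp Mm (K 7) = true := by
  decide +kernel

theorem chunk8 : chunkCheck 156 (2 ^ 156) (guardN 156 4625) (bNum (ysN 1 17 289 (2 ^ 156)) P) Mp Mm (K 8) = true := by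
  decide +kernel

theorem chunk9 : chunkCheck 156 (2 ^ 156) (guardN 156 4625) (bNum (ysN 1 17 289 (2 ^ 156)) P) Mp Mm (K 9) = true := by
  decide +kernel

theorem keys_split : allKeys 16 1 17 289 = K 0 ++ K 1 ++ K 2 ++ K 3 ++ K 4 ++ K 5 ++ K 6 ++ K 7 ++ K 8 ++ K 9 := by
  decide +kernel

theorem rows_all : ∀ k ∈ allKeys 16 1 17 289, rowTest 156 (2 ^ 156) (guardN 156 4625) k (bNum (ysN 1 17 289 (2 ^ 156)) P)
    (colsN Mp (bNum (ysN 1 17 289 (2 ^ 156)) P)) (colsN Mm (bNum (ysN 1 17 289 (2 ^ 156)) P)) = true := by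
  have of : ∀ {keys : List ℕ}, chunkCheck 156 (2 ^ 156) (guardN 156 4625) (bNum (ysN 1 17 289 (2 ^ 156)) P) Mp Mm keys = true → ∀ k ∈ keys,
      rowTest 156 (2 ^ 156) (guardN 156 4625) k (bNum (ysN 1 17 289 (2 ^ 156)) P) (colsN Mp (bNum (ysN 1 17 289 (2 ^ 156)) P)) (colsN Mm (bNum (ysN 1 17 289 (2 ^ 156)) P)) = true := by
    intro keys h k hk
    rw [chunkCheck_eq] at h
    exact allRows_mem h hk
  intro k hk
  rw [keys_split] at hk
  simp only [List.mem_append] at hk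
  rcases hk with (((((((((h0 | h1) | h2) | h3) | h4) | h5) | h6) | h7) | h8) | h9)
  · exact of chunk0 k h0
  · exact of chunk1 k h1
  · exact of chunk2 k h2
  · exact of chunk3 k h3
  · exact of chunk4 k h4
  · exact of chunk5 k h5
  · exact of chunk6 k h6
  · exact of chunk7 k h7
  · exact of chunk8 k h8
  · exact of chunk9 k h9

theorem hinj : ∀ s s' : Fin 4 →₀ ℕ, degOf s = 16 → degOf s' = 16 →
    Kron.keyOf (wOf 1 17 289) s = Kron.keyOf (wOf 1 17 289) s' → s = s' := by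
  intro s s' hs hs' hk
  have h1 : s 0 + s 1 + s 2 + s 3 = 16 := by simpa [degOf, Fin.sum_univ_four] using hs
  have h2 : s' 0 + s' 1 + s' 2 + s' 3 = 16 := by simpa [degOf, Fin.sum_univ_four] using hs'
  have h3 : s 1 + 17 * s 2 + 289 * s 3 = s' 1 + 17 * s' 2 + 289 * s' 3 := by
    simpa [keyOf, wOf, Fin.sum_univ_four] using hk
  have b1 : s 1 + 17 * s 2 ≤ 17 * 16 := by omega
  have b2 : s' 1 + 17 * s' 2 ≤ 17 * 16 := by omega
  have e3 : s 3 = s' 3 := by omega
  have e2 : s 2 = s' 2 := by omega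
  have e1 : s 1 = s' 1 := by omega
  have e0 : s 0 = s' 0 := by omega
  ext i
  fin_cases i
  · exact e0
  · exact e1
  · exact e2
  · exact e3

theorem hJ : ∀ s : Fin 4 →₀ ℕ, degOf s = 16 → Kron.keyOf (wOf 1 17 289) s < 4625 := by
  intro s hs
  have h1 : s 0 + s 1 + s 2 + s 3 = 16 := by simpa [degOf, Fin.sum_univ_four] using hs
  have h3 : Kron.keyOf (wOf 1 17 289) s = s 1 + 17 * s 2 + 289 * s 3 := by
    simp [keyOf, wOf, Fin.sum_univ_four]
  rw [h3]
  omega

theorem hdeg : ∀ e ∈ P, e.1 + e.2.1 + e.2.2.1 + e.2.2.2 = 16 := by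
  decide +kernel

theorem hones : ∀ N ∈ (bNum (ysN 1 17 289 1) P), N < 2 ^ 156 := by
  decide +kernel

theorem hbp : combN (bNum (ysN 1 17 289 1) P) (colsN Mp (bNum (ysN 1 17 289 1) P)) < 2 ^ (156 - 1) := by
  decide +kernel

theorem hbm : combN (bNum (ysN 1 17 289 1) P) (colsN Mm (bNum (ysN 1 17 289 1) P)) < 2 ^ (156 - 1) := by
  decide +kernel

/-- **The bilinear inequality.** -/
theorem form_ineq {p r : Fin 4 → ℝ} (hp : ∀ i, 0 ≤ p i) (hr : ∀ i, 0 ≤ r i) :
    bil Mp (P.map (Sy p)) (P.map (Sy r)) ≤ bil Mm (P.map (Sy p)) (P.map (Sy r)) :=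
  form_le (n := 16) (L := 156) (J := 4625) (w1 := 1) (w2 := 17) (w3 := 289) (by norm_num) hinj hJ P hdeg Mp Mm
    hones hbp hbm rows_all hp hr

end Crest.Agent.PottsTree.CertQ4.RowsN2
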