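import Crest.Agent.Lib.PottsTree.PairQ4

/-!
# Symmetrisation of polynomials over `S₄`: pure algebra for the `q = 4` certificates

For `u, y : Fin 4 → ℝ` and exponents `τ`:

* `avg_mono` : averaging a monomial of `x i = u i * y (π i)` over `π` splits it;
* `avg_of_invariant` : the average of an `S₄`-invariant polynomial of `x` is a bilinear form in the
  symmetrised monomials `Mavg τ u`, `Mavg τ y`;
* `Mavg_eq` : Möbius inversion, `Mavg` in terms of the power sums `pw k u`;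
* `pw_add_four`, `pw_zero`, …: Newton's recursion for the power sums, when `∑ u = 4`, in terms of the
  invariants `nA`, `nB`, `nS` (which for `u = 4 p` are `A 4 p`, `tau p`, `ssq p`).
-/

namespace Crest.Agent.PottsTree.CertQ4

open Finset
open Crest.Agent.PottsTree
open Crest.Agent.PottsTree.PairQ4

/-- a monomial -/
def mono (τ : Fin 4 → ℕ) (x : Fin 4 → ℝ) : ℝ := ∏ i, x i ^ τ i

/-- the symmetrised monomial -/
noncomputable def Mavg (τ : Fin 4 → ℕ) (y : Fin 4 → ℝ) : ℝ :=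
  (1 / 24) * ∑ π : Equiv.Perm (Fin 4), ∏ i, y (π i) ^ τ i

/-- power sums, with the convention `0 ^ 0 = 1` -/
def pw (k : ℕ) (u : Fin 4 → ℝ) : ℝ := ∑ i, u i ^ k

lemma mono_eq (τ : Fin 4 → ℕ) (x : Fin 4 → ℝ) :
    mono τ x = x 0 ^ τ 0 * x 1 ^ τ 1 * x 2 ^ τ 2 * x 3 ^ τ 3 := by
  simp [mono, Fin.prod_univ_four]

lemma Mavg_eq_mono (τ : Fin 4 → ℕ) (y : Fin 4 → ℝ) :
    Mavg τ y = (1 / 24) * ∑ π : Equiv.Perm (Fin 4), mono τ (fun i => y (π i)) := rfl

lemma mono_cons (a b c d : ℕ) (x : Fin 4 → ℝ) :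
    mono ![a, b, c, d] x = x 0 ^ a * x 1 ^ b * x 2 ^ c * x 3 ^ d := by
  simp [mono_eq]

/-- `Mavg` does not depend on the order of the exponents. -/
lemma Mavg_comp (τ : Fin 4 → ℕ) (ρ : Equiv.Perm (Fin 4)) (y : Fin 4 → ℝ) :
    Mavg (fun i => τ (ρ i)) y = Mavg τ y := by
  simp only [Mavg]
  congr 1
  rw [← Equiv.sum_comp (Equiv.mulRight ρ) (fun π : Equiv.Perm (Fin 4) => ∏ i, y (π i) ^ τ (ρ i))]
  refine Finset.sum_congr rfl fun π _ => ?_
  exact Equiv.prod_comp ρ (fun i => y (π i) ^ τ i)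

/-- `Mavg` does not see a relabelling of the point. -/
lemma Mavg_rel (τ : Fin 4 → ℕ) (ρ : Equiv.Perm (Fin 4)) (y : Fin 4 → ℝ) :
    Mavg τ (fun i => y (ρ i)) = Mavg τ y := by
  simp only [Mavg]
  congr 1
  exact Equiv.sum_comp (Equiv.mulLeft ρ) (fun π : Equiv.Perm (Fin 4) => ∏ i, y (π i) ^ τ i)

/-- **(i)** Averaging a monomial over the relabellings of one factor. -/
lemma avg_mono (τ : Fin 4 → ℕ) (u y : Fin 4 → ℝ) :
    (1 / 24) * ∑ π : Equiv.Perm (Fin 4), mono τ (fun i => u i * y (π i)) =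
      mono τ u * Mavg τ y := by
  simp only [mono, Mavg, mul_pow, Finset.prod_mul_distrib]
  rw [← Finset.mul_sum]
  ring

/-- The average over relabellings of an invariant function does not see a relabelling of `u`. -/
lemma avg_comp_left {G : (Fin 4 → ℝ) → ℝ} (hinv : ∀ (ρ : Equiv.Perm (Fin 4)) (x : Fin 4 → ℝ),
    G (fun i => x (ρ i)) = G x) (u y : Fin 4 → ℝ) (ρ : Equiv.Perm (Fin 4)) :
    ∑ π : Equiv.Perm (Fin 4), G (fun i => u (ρ i) * y (π i)) =
      ∑ π : Equiv.Perm (Fin 4), G (fun i => u i * y (π i)) := by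
  rw [← Equiv.sum_comp (Equiv.mulRight ρ) (fun π : Equiv.Perm (Fin 4) => G (fun i => u (ρ i) * y (π i)))]
  refine Finset.sum_congr rfl fun π _ => ?_
  rw [← hinv ρ (fun i => u i * y (π i))]
  rfl

/-- **(ii)** The average of an invariant polynomial of `x i = u i * y (π i)` is a bilinear form in the
symmetrised monomials of `u` and `y`. -/
theorem avg_of_invariant {J : Type*} (L : Finset J) (τ : J → Fin 4 → ℕ) (g : J → ℝ)
    {G : (Fin 4 → ℝ) → ℝ}
    (hinv : ∀ (ρ : Equiv.Perm (Fin 4)) (x : Fin 4 → ℝ), G (fun i => x (ρ i)) = G x)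
    (hG : ∀ x, G x = ∑ j ∈ L, g j * mono (τ j) x) (u y : Fin 4 → ℝ) :
    (1 / 24) * ∑ π : Equiv.Perm (Fin 4), G (fun i => u i * y (π i)) =
      ∑ j ∈ L, g j * (Mavg (τ j) u * Mavg (τ j) y) := by
  have h1 : ∀ v : Fin 4 → ℝ, (1 / 24) * ∑ π : Equiv.Perm (Fin 4), G (fun i => v i * y (π i)) =
      ∑ j ∈ L, g j * (mono (τ j) v * Mavg (τ j) y) := by
    intro v
    simp only [hG, Finset.mul_sum]
    rw [Finset.sum_comm]
    refine Finset.sum_congr rfl fun j _ => ?_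
    rw [← avg_mono, Finset.mul_sum, Finset.mul_sum]
    exact Finset.sum_congr rfl fun π _ => by ring
  have h2 : ∀ ρ : Equiv.Perm (Fin 4), (1 / 24) * ∑ π : Equiv.Perm (Fin 4), G (fun i => u i * y (π i)) =
      ∑ j ∈ L, g j * (mono (τ j) (fun i => u (ρ i)) * Mavg (τ j) y) := by
    intro ρ
    rw [← h1 (fun i => u (ρ i)), avg_comp_left hinv]
  have hcard : ∑ _ρ : Equiv.Perm (Fin 4), (1 / 24 : ℝ) = 1 := by
    simp only [Finset.sum_const, Finset.card_univ, Fintype.card_perm, Fintype.card_fin, nsmul_eq_mul]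
    norm_num [Nat.factorial]
  calc (1 / 24) * ∑ π : Equiv.Perm (Fin 4), G (fun i => u i * y (π i))
      = ∑ _ρ : Equiv.Perm (Fin 4), (1 / 24 : ℝ) *
          ((1 / 24) * ∑ π : Equiv.Perm (Fin 4), G (fun i => u i * y (π i))) := by
        rw [← Finset.sum_mul, hcard, one_mul]
    _ = ∑ ρ : Equiv.Perm (Fin 4), (1 / 24 : ℝ) *
          ∑ j ∈ L, g j * (mono (τ j) (fun i => u (ρ i)) * Mavg (τ j) y) :=
        Finset.sum_congr rfl fun ρ _ => by rw [h2 ρ]
    _ = ∑ j ∈ L, g j * (Mavg (τ j) u * Mavg (τ j) y) := by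
        simp only [Finset.mul_sum]
        rw [Finset.sum_comm]
        refine Finset.sum_congr rfl fun j _ => ?_
        rw [Mavg_eq_mono (τ j) u, Finset.mul_sum, Finset.sum_mul, Finset.mul_sum]
        refine Finset.sum_congr rfl fun ρ _ => ?_
        ring

/-- **(iii)** Möbius inversion on the partitions of four indices. -/
theorem Mavg_eq (a b c d : ℕ) (u : Fin 4 → ℝ) :
    24 * Mavg ![a, b, c, d] u =
      pw a u * pw b u * pw c u * pw d u
      - (pw (a + b) u * pw c u * pw d u + pw (a + c) u * pw b u * pw d u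
        + pw (a + d) u * pw b u * pw c u + pw (b + c) u * pw a u * pw d u
        + pw (b + d) u * pw a u * pw c u + pw (c + d) u * pw a u * pw b u)
      + (pw (a + b) u * pw (c + d) u + pw (a + c) u * pw (b + d) u + pw (a + d) u * pw (b + c) u)
      + 2 * (pw (a + b + c) u * pw d u + pw (a + b + d) u * pw c u
        + pw (a + c + d) u * pw b u + pw (b + c + d) u * pw a u)
      - 6 * pw (a + b + c + d) u := by
  simp only [Mavg, pw, sum_perm, Fin.sum_univ_four, Fin.prod_univ_four, pow_add]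
  simp only [pp0, pp1, pp2, pp3, pp4, pp5, pp6, pp7, pp8, pp9, pp10, pp11, pp12, pp13, pp14, pp15,
    pp16, pp17, pp18, pp19, pp20, pp21, pp22, pp23, mkP, Equiv.coe_fn_mk, Matrix.cons_val_zero,
    Matrix.cons_val_one, Matrix.cons_val]
  ring

/-! ### Newton's recursion -/

/-- the invariant `A`: `(1/4) ∑ (u - 1)²` -/
noncomputable def nA (u : Fin 4 → ℝ) : ℝ := (1 / 4) * ∑ i, (u i - 1) ^ 2

/-- the invariant `B`: `(1/24) ∑ (u - 1)³` -/
noncomputable def nB (u : Fin 4 → ℝ) : ℝ := (1 / 24) * ∑ i, (u i - 1) ^ 3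

/-- the invariant `S`: `((1/4) ∑ (u - 1)⁴ - A²)/4` -/
noncomputable def nS (u : Fin 4 → ℝ) : ℝ := ((1 / 4) * ∑ i, (u i - 1) ^ 4 - nA u ^ 2) / 4

/-- second elementary symmetric function -/
def E2 (u : Fin 4 → ℝ) : ℝ :=
  u 0 * u 1 + u 0 * u 2 + u 0 * u 3 + u 1 * u 2 + u 1 * u 3 + u 2 * u 3

/-- third elementary symmetric function -/
def E3 (u : Fin 4 → ℝ) : ℝ := u 0 * u 1 * u 2 + u 0 * u 1 * u 3 + u 0 * u 2 * u 3 + u 1 * u 2 * u 3

/-- fourth elementary symmetric function -/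
def E4 (u : Fin 4 → ℝ) : ℝ := u 0 * u 1 * u 2 * u 3

section Newton

variable {u : Fin 4 → ℝ}

private lemma elim (hu : ∑ i, u i = 4) : u 3 = 4 - u 0 - u 1 - u 2 := by
  have : u 0 + u 1 + u 2 + u 3 = 4 := by simpa [Fin.sum_univ_four] using hu
  linarith

lemma E2_eq (hu : ∑ i, u i = 4) : E2 u = 6 - 2 * nA u := by
  simp only [E2, nA, Fin.sum_univ_four]
  rw [elim hu]
  ring

lemma E3_eq (hu : ∑ i, u i = 4) : E3 u = 4 - 4 * nA u + 8 * nB u := by
  simp only [E3, nA, nB, Fin.sum_univ_four]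
  rw [elim hu]
  ring

lemma E4_eq (hu : ∑ i, u i = 4) :
    E4 u = 1 - 2 * nA u + 8 * nB u + nA u ^ 2 - 4 * nS u := by
  simp only [E4, nA, nB, nS, Fin.sum_univ_four]
  rw [elim hu]
  ring

lemma pw_zero (u : Fin 4 → ℝ) : pw 0 u = 4 := by
  simp [pw]

lemma pw_one (hu : ∑ i, u i = 4) : pw 1 u = 4 := by
  simpa [pw] using hu

lemma pw_two (hu : ∑ i, u i = 4) : pw 2 u = 4 + 4 * nA u := by
  simp only [pw, nA, Fin.sum_univ_four]
  rw [elim hu]
  ring

lemma pw_three (hu : ∑ i, u i = 4) : pw 3 u = 4 + 12 * nA u + 24 * nB u := by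
  simp only [pw, nA, nB, Fin.sum_univ_four]
  rw [elim hu]
  ring

/-- Newton's recursion with the elementary symmetric functions. -/
lemma pw_add_four_E (hu : ∑ i, u i = 4) (k : ℕ) :
    pw (k + 4) u = 4 * pw (k + 3) u - E2 u * pw (k + 2) u + E3 u * pw (k + 1) u - E4 u * pw k u := by
  simp only [pw, E2, E3, E4, Fin.sum_univ_four]
  rw [elim hu]
  ring

/-- **(iv)** Newton's recursion with the invariants. -/
theorem pw_add_four (hu : ∑ i, u i = 4) (k : ℕ) :
    pw (k + 4) u = 4 * pw (k + 3) u - (6 - 2 * nA u) * pw (k + 2) u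
      + (4 - 4 * nA u + 8 * nB u) * pw (k + 1) u
      - (1 - 2 * nA u + 8 * nB u + nA u ^ 2 - 4 * nS u) * pw k u := by
  rw [pw_add_four_E hu, E2_eq hu, E3_eq hu, E4_eq hu]

end Newton

/-! ### The link with the functionals of `PairQ4` -/

section Link

variable {p : Fin 4 → ℝ}

lemma sum_four_mul (hp : p ∈ Sx 4) : ∑ i, (fun i => 4 * p i) i = 4 := by
  have : ∑ i, p i = 1 := hp.2
  simp only [← Finset.mul_sum, this, mul_one]

private lemma elimp (hp : p ∈ Sx 4) : p 3 = 1 - p 0 - p 1 - p 2 := by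
  have h : ∑ i, p i = 1 := hp.2
  have : p 0 + p 1 + p 2 + p 3 = 1 := by simpa [Fin.sum_univ_four] using h
  linarith

/-- **(v)** -/
lemma nA_eq (hp : p ∈ Sx 4) : nA (fun i => 4 * p i) = A 4 p := by
  rw [A_eq hp]
  simp only [nA, ca, cb, cc, Fin.sum_univ_four]
  rw [elimp hp]
  ring

/-- **(v)** -/
lemma nB_eq (hp : p ∈ Sx 4) : nB (fun i => 4 * p i) = tau p := by
  simp only [nB, tau, ca, cb, cc, Fin.sum_univ_four]
  rw [elimp hp]
  ring

/-- **(v)** -/
lemma nS_eq (hp : p ∈ Sx 4) : nS (fun i => 4 * p i) = ssq p := by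
  simp only [nS, nA, ssq, ca, cb, cc, Fin.sum_univ_four]
  rw [elimp hp]
  ring

end Link

end Crest.Agent.PottsTree.CertQ4
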