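import Crest.Agent.Lib.PottsTree.CertQ4Rows
import Crest.Agent.Lib.PottsTree.CertQ4Sym

/-!
# Symmetric functions in four variables: `S_e(z) = ∑_π ∏ z(π i) ^ e i`

Explicit formula with 24 terms over any commutative semiring, multiplication by `∑ z`, invariance
under permutations of the exponents and of the point, the average over the group of
`S_e (u * y ∘ π)`, and the polynomial with natural coefficients representing `S_e` on a Weyl chamber.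
-/

set_option linter.unusedVariables false

namespace Crest.Agent.PottsTree.CertQ4.Sy

open Kron Rows
open Crest.Agent.PottsTree.PairQ4

/-- exponents -/
abbrev Ex := ℕ × ℕ × ℕ × ℕ

/-- the symmetric function, in any commutative semiring -/
def sSum {R : Type*} [CommSemiring R] (y0 y1 y2 y3 : R) (e : Ex) : R :=
  y0 ^ e.1 * y1 ^ e.2.1 * y2 ^ e.2.2.1 * y3 ^ e.2.2.2 +
  y0 ^ e.1 * y1 ^ e.2.1 * y3 ^ e.2.2.1 * y2 ^ e.2.2.2 +
  y0 ^ e.1 * y2 ^ e.2.1 * y1 ^ e.2.2.1 * y3 ^ e.2.2.2 +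
  y0 ^ e.1 * y2 ^ e.2.1 * y3 ^ e.2.2.1 * y1 ^ e.2.2.2 +
  y0 ^ e.1 * y3 ^ e.2.1 * y1 ^ e.2.2.1 * y2 ^ e.2.2.2 +
  y0 ^ e.1 * y3 ^ e.2.1 * y2 ^ e.2.2.1 * y1 ^ e.2.2.2 +
  y1 ^ e.1 * y0 ^ e.2.1 * y2 ^ e.2.2.1 * y3 ^ e.2.2.2 +
  y1 ^ e.1 * y0 ^ e.2.1 * y3 ^ e.2.2.1 * y2 ^ e.2.2.2 +
  y1 ^ e.1 * y2 ^ e.2.1 * y0 ^ e.2.2.1 * y3 ^ e.2.2.2 +
  y1 ^ e.1 * y2 ^ e.2.1 * y3 ^ e.2.2.1 * y0 ^ e.2.2.2 +
  y1 ^ e.1 * y3 ^ e.2.1 * y0 ^ e.2.2.1 * y2 ^ e.2.2.2 +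
  y1 ^ e.1 * y3 ^ e.2.1 * y2 ^ e.2.2.1 * y0 ^ e.2.2.2 +
  y2 ^ e.1 * y0 ^ e.2.1 * y1 ^ e.2.2.1 * y3 ^ e.2.2.2 +
  y2 ^ e.1 * y0 ^ e.2.1 * y3 ^ e.2.2.1 * y1 ^ e.2.2.2 +
  y2 ^ e.1 * y1 ^ e.2.1 * y0 ^ e.2.2.1 * y3 ^ e.2.2.2 +
  y2 ^ e.1 * y1 ^ e.2.1 * y3 ^ e.2.2.1 * y0 ^ e.2.2.2 +
  y2 ^ e.1 * y3 ^ e.2.1 * y0 ^ e.2.2.1 * y1 ^ e.2.2.2 +
  y2 ^ e.1 * y3 ^ e.2.1 * y1 ^ e.2.2.1 * y0 ^ e.2.2.2 +
  y3 ^ e.1 * y0 ^ e.2.1 * y1 ^ e.2.2.1 * y2 ^ e.2.2.2 +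
  y3 ^ e.1 * y0 ^ e.2.1 * y2 ^ e.2.2.1 * y1 ^ e.2.2.2 +
  y3 ^ e.1 * y1 ^ e.2.1 * y0 ^ e.2.2.1 * y2 ^ e.2.2.2 +
  y3 ^ e.1 * y1 ^ e.2.1 * y2 ^ e.2.2.1 * y0 ^ e.2.2.2 +
  y3 ^ e.1 * y2 ^ e.2.1 * y0 ^ e.2.2.1 * y1 ^ e.2.2.2 +
  y3 ^ e.1 * y2 ^ e.2.1 * y1 ^ e.2.2.1 * y0 ^ e.2.2.2

lemma map_sSum {R R' : Type*} [CommSemiring R] [CommSemiring R'] (f : R →+* R') (y0 y1 y2 y3 : R)
    (e : Ex) : f (sSum y0 y1 y2 y3 e) = sSum (f y0) (f y1) (f y2) (f y3) e := by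
  simp only [sSum, map_add, map_mul, map_pow]

/-- the symmetric function at a real point -/
def Sy (z : Fin 4 → ℝ) (e : Ex) : ℝ := sSum (z 0) (z 1) (z 2) (z 3) e

lemma Sy_eq_Mavg (z : Fin 4 → ℝ) (e : Ex) :
    Sy z e = 24 * Mavg ![e.1, e.2.1, e.2.2.1, e.2.2.2] z := by
  simp only [Mavg, sum_perm, Fin.prod_univ_four]
  simp only [pp0, pp1, pp2, pp3, pp4, pp5, pp6, pp7, pp8, pp9, pp10, pp11, pp12, pp13, pp14, pp15,
    pp16, pp17, pp18, pp19, pp20, pp21, pp22, pp23, mkP, Equiv.coe_fn_mk, Matrix.cons_val_zero,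
    Matrix.cons_val_one, Matrix.cons_val]
  simp only [Sy, sSum]
  ring

/-- `S_e` does not see a relabelling of the point. -/
lemma Sy_rel (z : Fin 4 → ℝ) (ρ : Equiv.Perm (Fin 4)) (e : Ex) :
    Sy (fun i => z (ρ i)) e = Sy z e := by
  rw [Sy_eq_Mavg, Sy_eq_Mavg, Mavg_rel]

/-- multiplication by `∑ z` -/
lemma Sy_push (z : Fin 4 → ℝ) (a b c d : ℕ) :
    Sy z (a, b, c, d) * (z 0 + z 1 + z 2 + z 3) =
      Sy z (a + 1, b, c, d) + Sy z (a, b + 1, c, d) + Sy z (a, b, c + 1, d) +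
        Sy z (a, b, c, d + 1) := by
  simp only [Sy, sSum]
  ring

lemma Sy_swap01 (z : Fin 4 → ℝ) (a b c d : ℕ) : Sy z (b, a, c, d) = Sy z (a, b, c, d) := by
  simp only [Sy, sSum]
  ring

lemma Sy_swap23 (z : Fin 4 → ℝ) (a b c d : ℕ) : Sy z (a, b, d, c) = Sy z (a, b, c, d) := by
  simp only [Sy, sSum]
  ring

lemma Sy_swap02 (z : Fin 4 → ℝ) (a b c d : ℕ) : Sy z (c, b, a, d) = Sy z (a, b, c, d) := by
  simp only [Sy, sSum]
  ring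

lemma Sy_swap13 (z : Fin 4 → ℝ) (a b c d : ℕ) : Sy z (a, d, c, b) = Sy z (a, b, c, d) := by
  simp only [Sy, sSum]
  ring

lemma Sy_swap12 (z : Fin 4 → ℝ) (a b c d : ℕ) : Sy z (a, c, b, d) = Sy z (a, b, c, d) := by
  simp only [Sy, sSum]
  ring

/-- scaling -/
lemma Sy_scale (c : ℝ) (z : Fin 4 → ℝ) (e : Ex) :
    Sy (fun i => c * z i) e = c ^ (e.1 + e.2.1 + e.2.2.1 + e.2.2.2) * Sy z e := by
  simp only [Sy, sSum, mul_pow, pow_add]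
  ring

/-- **The average over the group.** -/
lemma sum_Sy_mul (u y : Fin 4 → ℝ) (e : Ex) :
    ∑ π : Equiv.Perm (Fin 4), Sy (fun i => u i * y (π i)) e = Sy u e * Sy y e := by
  set τ : Fin 4 → ℕ := ![e.1, e.2.1, e.2.2.1, e.2.2.2] with hτ
  simp only [Sy_eq_Mavg, ← hτ, Mavg_eq_mono]
  have h1 : ∀ ρ : Equiv.Perm (Fin 4), ∑ π : Equiv.Perm (Fin 4),
      mono τ (fun i => u (ρ i) * y (π (ρ i))) = 24 * (mono τ (fun i => u (ρ i)) * Mavg τ y) := by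
    intro ρ
    rw [← avg_mono, ← Equiv.sum_comp (Equiv.mulRight ρ) (fun π : Equiv.Perm (Fin 4) =>
      mono τ (fun i => u (ρ i) * y (π i)))]
    simp only [Equiv.coe_mulRight, Equiv.Perm.coe_mul, Function.comp_apply]
    ring
  calc ∑ π : Equiv.Perm (Fin 4), 24 * ((1 / 24) * ∑ ρ : Equiv.Perm (Fin 4),
        mono τ (fun i => u (ρ i) * y (π (ρ i))))
      = ∑ ρ : Equiv.Perm (Fin 4), ∑ π : Equiv.Perm (Fin 4),
          mono τ (fun i => u (ρ i) * y (π (ρ i))) := by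
        rw [Finset.sum_comm]
        refine Finset.sum_congr rfl fun π _ => ?_
        ring
    _ = ∑ ρ : Equiv.Perm (Fin 4), 24 * (mono τ (fun i => u (ρ i)) * Mavg τ y) :=
        Finset.sum_congr rfl fun ρ _ => h1 ρ
    _ = _ := by
        rw [← Finset.mul_sum, ← Finset.sum_mul, Mavg_eq_mono]
        ring

/-! ### sorting exponents -/

/-- conditional swap -/
def cs01 (e : Ex) : Ex := cond (Nat.blt e.1 e.2.1) (e.2.1, e.1, e.2.2.1, e.2.2.2) e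
/-- conditional swap -/
def cs23 (e : Ex) : Ex := cond (Nat.blt e.2.2.1 e.2.2.2) (e.1, e.2.1, e.2.2.2, e.2.2.1) e
/-- conditional swap -/
def cs02 (e : Ex) : Ex := cond (Nat.blt e.1 e.2.2.1) (e.2.2.1, e.2.1, e.1, e.2.2.2) e
/-- conditional swap -/
def cs13 (e : Ex) : Ex := cond (Nat.blt e.2.1 e.2.2.2) (e.1, e.2.2.2, e.2.2.1, e.2.1) e
/-- conditional swap -/
def cs12 (e : Ex) : Ex := cond (Nat.blt e.2.1 e.2.2.1) (e.1, e.2.2.1, e.2.1, e.2.2.2) e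

/-- the exponents in decreasing order -/
def sort4 (e : Ex) : Ex := cs12 (cs13 (cs02 (cs23 (cs01 e))))

lemma Sy_cs01 (z : Fin 4 → ℝ) (e : Ex) : Sy z (cs01 e) = Sy z e := by
  obtain ⟨a, b, c, d⟩ := e
  unfold cs01
  cases Nat.blt a b <;> simp [Sy_swap01]

lemma Sy_cs23 (z : Fin 4 → ℝ) (e : Ex) : Sy z (cs23 e) = Sy z e := by
  obtain ⟨a, b, c, d⟩ := e
  unfold cs23
  cases Nat.blt c d <;> simp [Sy_swap23]

lemma Sy_cs02 (z : Fin 4 → ℝ) (e : Ex) : Sy z (cs02 e) = Sy z e := by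
  obtain ⟨a, b, c, d⟩ := e
  unfold cs02
  cases Nat.blt a c <;> simp [Sy_swap02]

lemma Sy_cs13 (z : Fin 4 → ℝ) (e : Ex) : Sy z (cs13 e) = Sy z e := by
  obtain ⟨a, b, c, d⟩ := e
  unfold cs13
  cases Nat.blt b d <;> simp [Sy_swap13]

lemma Sy_cs12 (z : Fin 4 → ℝ) (e : Ex) : Sy z (cs12 e) = Sy z e := by
  obtain ⟨a, b, c, d⟩ := e
  unfold cs12
  cases Nat.blt b c <;> simp [Sy_swap12]

lemma Sy_sort4 (z : Fin 4 → ℝ) (e : Ex) : Sy z (sort4 e) = Sy z e := by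
  simp only [sort4, Sy_cs12, Sy_cs13, Sy_cs02, Sy_cs23, Sy_cs01]

/-- the four exponents above `e`, sorted -/
def up0 (e : Ex) : Ex := sort4 (Nat.succ e.1, e.2.1, e.2.2.1, e.2.2.2)
/-- the four exponents above `e`, sorted -/
def up1 (e : Ex) : Ex := sort4 (e.1, Nat.succ e.2.1, e.2.2.1, e.2.2.2)
/-- the four exponents above `e`, sorted -/
def up2 (e : Ex) : Ex := sort4 (e.1, e.2.1, Nat.succ e.2.2.1, e.2.2.2)
/-- the four exponents above `e`, sorted -/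
def up3 (e : Ex) : Ex := sort4 (e.1, e.2.1, e.2.2.1, Nat.succ e.2.2.2)

lemma Sy_up (z : Fin 4 → ℝ) (e : Ex) :
    Sy z e * (z 0 + z 1 + z 2 + z 3) = Sy z (up0 e) + Sy z (up1 e) + Sy z (up2 e) + Sy z (up3 e) := by
  obtain ⟨a, b, c, d⟩ := e
  simp only [up0, up1, up2, up3, Sy_sort4, Sy_push]

/-! ### the chamber -/

/-- the coordinates of the sorted point, as linear forms -/
noncomputable def y0P : MP :=
  MvPolynomial.X 0 + MvPolynomial.X 1 + MvPolynomial.X 2 + MvPolynomial.X 3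
/-- the coordinates of the sorted point, as linear forms -/
noncomputable def y1P : MP := MvPolynomial.X 0 + MvPolynomial.X 1 + MvPolynomial.X 2
/-- the coordinates of the sorted point, as linear forms -/
noncomputable def y2P : MP := MvPolynomial.X 0 + MvPolynomial.X 1
/-- the coordinates of the sorted point, as linear forms -/
noncomputable def y3P : MP := MvPolynomial.X 0

/-- the polynomial representing `S_e` on the Weyl chamber -/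
noncomputable def Bp (e : Ex) : MP := sSum y0P y1P y2P y3P e

lemma y0P_hom : y0P.IsHomogeneous 1 :=
  (((MvPolynomial.isHomogeneous_X _ _).add (MvPolynomial.isHomogeneous_X _ _)).add
    (MvPolynomial.isHomogeneous_X _ _)).add (MvPolynomial.isHomogeneous_X _ _)
lemma y1P_hom : y1P.IsHomogeneous 1 :=
  ((MvPolynomial.isHomogeneous_X _ _).add (MvPolynomial.isHomogeneous_X _ _)).add
    (MvPolynomial.isHomogeneous_X _ _)
lemma y2P_hom : y2P.IsHomogeneous 1 :=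
  (MvPolynomial.isHomogeneous_X _ _).add (MvPolynomial.isHomogeneous_X _ _)
lemma y3P_hom : y3P.IsHomogeneous 1 := MvPolynomial.isHomogeneous_X _ _

lemma term_hom {u0 u1 u2 u3 : MP} (h0 : u0.IsHomogeneous 1) (h1 : u1.IsHomogeneous 1)
    (h2 : u2.IsHomogeneous 1) (h3 : u3.IsHomogeneous 1) (a b c d : ℕ) :
    (u0 ^ a * u1 ^ b * u2 ^ c * u3 ^ d).IsHomogeneous (a + b + c + d) := by
  have h := (((h0.pow a).mul (h1.pow b)).mul (h2.pow c)).mul (h3.pow d)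
  simpa using h

lemma sSum_hom {h0' h1' h2' h3' : MP} (h0 : h0'.IsHomogeneous 1) (h1 : h1'.IsHomogeneous 1)
    (h2 : h2'.IsHomogeneous 1) (h3 : h3'.IsHomogeneous 1) (e : Ex) :
    (sSum h0' h1' h2' h3' e).IsHomogeneous (e.1 + e.2.1 + e.2.2.1 + e.2.2.2) := by
  have T : ∀ {u0 u1 u2 u3 : MP}, u0.IsHomogeneous 1 → u1.IsHomogeneous 1 → u2.IsHomogeneous 1 →
      u3.IsHomogeneous 1 → (u0 ^ e.1 * u1 ^ e.2.1 * u2 ^ e.2.2.1 * u3 ^ e.2.2.2).IsHomogeneous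
        (e.1 + e.2.1 + e.2.2.1 + e.2.2.2) := fun a b c d => term_hom a b c d _ _ _ _
  exact ((((((((((((((((((((((((T h0 h1 h2 h3).add (T h0 h1 h3 h2)).add (T h0 h2 h1 h3)).add (T h0 h2 h3 h1)).add (T h0 h3 h1 h2)).add (T h0 h3 h2 h1)).add (T h1 h0 h2 h3)).add (T h1 h0 h3 h2)).add (T h1 h2 h0 h3)).add (T h1 h2 h3 h0)).add (T h1 h3 h0 h2)).add (T h1 h3 h2 h0)).add (T h2 h0 h1 h3)).add (T h2 h0 h3 h1)).add (T h2 h1 h0 h3)).add (T h2 h1 h3 h0)).add (T h2 h3 h0 h1)).add (T h2 h3 h1 h0)).add (T h3 h0 h1 h2)).add (T h3 h0 h2 h1)).add (T h3 h1 h0 h2)).add (T h3 h1 h2 h0)).add (T h3 h2 h0 h1)).add (T h3 h2 h1 h0))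

lemma Bp_hom (e : Ex) : (Bp e).IsHomogeneous (e.1 + e.2.1 + e.2.2.1 + e.2.2.2) :=
  sSum_hom y0P_hom y1P_hom y2P_hom y3P_hom e

/-- the chamber coordinates of a point with decreasing coordinates -/
def dOf (z : Fin 4 → ℝ) : Fin 4 → ℝ := ![z 3, z 2 - z 3, z 1 - z 2, z 0 - z 1]

lemma evR_Bp (z : Fin 4 → ℝ) (e : Ex) : evR (dOf z) (Bp e) = Sy z e := by
  have hf : ∀ p : MP, evR (dOf z) p = (evR (dOf z)).toRingHom p := fun _ => rfl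
  rw [hf, Bp, map_sSum]
  have h0 : (evR (dOf z)).toRingHom y0P = z 0 := by
    simp [y0P, evR, dOf]
  have h1 : (evR (dOf z)).toRingHom y1P = z 1 := by
    simp [y1P, evR, dOf]
  have h2 : (evR (dOf z)).toRingHom y2P = z 2 := by
    simp [y2P, evR, dOf]
  have h3 : (evR (dOf z)).toRingHom y3P = z 3 := by
    simp [y3P, evR, dOf]
  rw [h0, h1, h2, h3]
  rfl

lemma dOf_nonneg {z : Fin 4 → ℝ} (h3 : 0 ≤ z 3) (h23 : z 3 ≤ z 2) (h12 : z 2 ≤ z 1) (h01 : z 1 ≤ z 0) :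
    ∀ i, 0 ≤ dOf z i := by
  intro i
  fin_cases i
  · simpa [dOf] using h3
  · simpa [dOf] using h23
  · simpa [dOf] using h12
  · simpa [dOf] using h01

/-- every point has a decreasing relabelling -/
lemma exists_sorted (z : Fin 4 → ℝ) : ∃ ρ : Equiv.Perm (Fin 4),
    z (ρ 3) ≤ z (ρ 2) ∧ z (ρ 2) ≤ z (ρ 1) ∧ z (ρ 1) ≤ z (ρ 0) := by
  have hm := Tuple.monotone_sort (fun i => - z i)
  refine ⟨Tuple.sort (fun i => - z i), ?_, ?_, ?_⟩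
  · have := hm (show (2 : Fin 4) ≤ 3 by decide)
    simpa using this
  · have := hm (show (1 : Fin 4) ≤ 2 by decide)
    simpa using this
  · have := hm (show (0 : Fin 4) ≤ 1 by decide)
    simpa using this

/-! ### the numbers -/

/-- `S_e` on natural numbers, with raw operations -/
def rawS (y0 y1 y2 y3 : ℕ) (e : Ex) : ℕ :=
  let a := e.1
  let b := e.2.1
  let c := e.2.2.1
  let d := e.2.2.2
  let t (x y u v : ℕ) : ℕ := Nat.mul (Nat.pow x u) (Nat.pow y v)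
  let s (x y : ℕ) : ℕ := Nat.add (t x y c d) (t y x c d)
  Nat.add (Nat.mul (t y0 y1 a b) (s y2 y3)) <|
  Nat.add (Nat.mul (t y0 y2 a b) (s y1 y3)) <|
  Nat.add (Nat.mul (t y0 y3 a b) (s y1 y2)) <|
  Nat.add (Nat.mul (t y1 y0 a b) (s y2 y3)) <|
  Nat.add (Nat.mul (t y1 y2 a b) (s y0 y3)) <|
  Nat.add (Nat.mul (t y1 y3 a b) (s y0 y2)) <|
  Nat.add (Nat.mul (t y2 y0 a b) (s y1 y3)) <|
  Nat.add (Nat.mul (t y2 y1 a b) (s y0 y3)) <|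
  Nat.add (Nat.mul (t y2 y3 a b) (s y0 y1)) <|
  Nat.add (Nat.mul (t y3 y0 a b) (s y1 y2)) <|
  Nat.add (Nat.mul (t y3 y1 a b) (s y0 y2)) <|
  Nat.mul (t y3 y2 a b) (s y0 y1)

lemma rawS_eq (y0 y1 y2 y3 : ℕ) (e : Ex) : rawS y0 y1 y2 y3 e = sSum y0 y1 y2 y3 e := by
  simp only [rawS, sSum, Nat.add_eq, Nat.mul_eq, Nat.pow_eq]
  ring

end Crest.Agent.PottsTree.CertQ4.Sy
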