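import Crest.Agent.Lib.PottsTree.CertQ4Sy

/-!
# Tables of symmetric functions

* `SL`: integer combinations of the symmetric functions `S_e`, with the multiplication by `∑ z`;
* `GoodT`, `topT`, `stepT`: on the simplex, `S_e` is a combination of the symmetric functions of top
  degree.  The vector of coefficients is only known through its values at three bases: it is a ghost;
* `AccP`: a bilinear form in the top symmetric functions, through the same values; `AccP.final`
  identifies it with a literal matrix.
-/

set_option linter.unusedVariables false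

namespace Crest.Agent.PottsTree.CertQ4.Tab

open Kron Rows Sy

/-- equality of exponents -/
def exEq (a b : Ex) : Bool :=
  Bool.rec false
    (Bool.rec false (Bool.rec false (Nat.beq a.2.2.2 b.2.2.2) (Nat.beq a.2.2.1 b.2.2.1))
      (Nat.beq a.2.1 b.2.1))
    (Nat.beq a.1 b.1)

lemma exEq_eq {a b : Ex} (h : exEq a b = true) : a = b := by
  obtain ⟨a1, a2, a3, a4⟩ := a
  obtain ⟨b1, b2, b3, b4⟩ := b
  simp only [exEq] at h
  cases h1 : Nat.beq a1 b1
  · rw [h1] at h; exact absurd h (by simp)
  · rw [h1] at h
    cases h2 : Nat.beq a2 b2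
    · rw [h2] at h; exact absurd h (by simp)
    · rw [h2] at h
      cases h3 : Nat.beq a3 b3
      · rw [h3] at h; exact absurd h (by simp)
      · rw [h3] at h
        simp only at h
        rw [Nat.eq_of_beq_eq_true h1, Nat.eq_of_beq_eq_true h2, Nat.eq_of_beq_eq_true h3,
          Nat.eq_of_beq_eq_true h]

/-! ### integer combinations -/

/-- integer combinations of the `S_e` -/
abbrev SL := List (Ex × ℤ)

/-- the value of a combination -/
noncomputable def valS (z : Fin 4 → ℝ) : SL → ℝ
  | [] => 0
  | h :: t => (h.2 : ℝ) * Sy z h.1 + valS z t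

@[simp] lemma valS_nil (z : Fin 4 → ℝ) : valS z [] = 0 := rfl
@[simp] lemma valS_cons (z : Fin 4 → ℝ) (h : Ex × ℤ) (t : SL) :
    valS z (h :: t) = (h.2 : ℝ) * Sy z h.1 + valS z t := rfl

lemma valS_append (z : Fin 4 → ℝ) (a b : SL) : valS z (a ++ b) = valS z a + valS z b := by
  induction a with
  | nil => simp
  | cons h t ih =>
    simp only [List.cons_append, valS_cons, ih]
    ring

/-- add a term, merging -/
noncomputable def addAt (f : Ex) (κ : ℤ) (L : SL) : SL :=
  List.rec [(f, κ)]
    (fun h t ih => Bool.rec (h :: ih) ((h.1, Int.add h.2 κ) :: t) (exEq h.1 f)) L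

lemma valS_addAt (z : Fin 4 → ℝ) (f : Ex) (κ : ℤ) (L : SL) :
    valS z (addAt f κ L) = valS z L + (κ : ℝ) * Sy z f := by
  induction L with
  | nil =>
    simp [addAt]
  | cons h t ih =>
    change valS z (Bool.rec (h :: addAt f κ t) ((h.1, Int.add h.2 κ) :: t) (exEq h.1 f)) = _
    cases he : exEq h.1 f with
    | false =>
      simp only [valS_cons, ih]
      ring
    | true =>
      have e := exEq_eq he
      simp only [valS_cons, ← e]
      have hI : ((Int.add h.2 κ : ℤ) : ℝ) = (h.2 : ℝ) + κ := by
        exact_mod_cast Int.cast_add h.2 κ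
      rw [hI]
      ring

/-- multiplication by `∑ z` -/
noncomputable def pushL (L : SL) : SL :=
  List.rec [] (fun h _ ih =>
    addAt (up0 h.1) h.2 (addAt (up1 h.1) h.2 (addAt (up2 h.1) h.2 (addAt (up3 h.1) h.2 ih)))) L

lemma valS_pushL (z : Fin 4 → ℝ) (L : SL) :
    valS z (pushL L) = valS z L * (z 0 + z 1 + z 2 + z 3) := by
  induction L with
  | nil => simp [pushL]
  | cons h t ih =>
    change valS z (addAt (up0 h.1) h.2 (addAt (up1 h.1) h.2 (addAt (up2 h.1) h.2
      (addAt (up3 h.1) h.2 (pushL t))))) = _
    simp only [valS_addAt, ih, valS_cons]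
    have := Sy_up z h.1
    rw [add_mul, mul_assoc, this]
    ring

/-- scalar multiple -/
noncomputable def smulL (c : ℤ) (L : SL) : SL :=
  List.rec [] (fun h _ ih => (h.1, Int.mul c h.2) :: ih) L

lemma valS_smulL (z : Fin 4 → ℝ) (c : ℤ) (L : SL) : valS z (smulL c L) = (c : ℝ) * valS z L := by
  induction L with
  | nil => simp [smulL]
  | cons h t ih =>
    change valS z ((h.1, Int.mul c h.2) :: smulL c t) = _
    have hI : ((Int.mul c h.2 : ℤ) : ℝ) = (c : ℝ) * h.2 := by
      exact_mod_cast Int.cast_mul c h.2
    simp only [valS_cons, ih, hI]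
    ring

/-- merge -/
noncomputable def mergeL (A B : SL) : SL :=
  List.rec B (fun h _ ih => addAt h.1 h.2 ih) A

lemma valS_mergeL (z : Fin 4 → ℝ) (A B : SL) : valS z (mergeL A B) = valS z A + valS z B := by
  induction A with
  | nil => simp [mergeL]
  | cons h t ih =>
    change valS z (addAt h.1 h.2 (mergeL t B)) = _
    simp only [valS_addAt, ih, valS_cons]
    ring

/-- value of a polynomial with integer coefficients, by Horner -/
noncomputable def polyV : List ℤ → ℝ → ℝ
  | [], _ => 0
  | c :: cs, x => (c : ℝ) + x * polyV cs x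

/-- `∑ᵢ γᵢ (∑ z)ⁱ T` -/
noncomputable def polyL (γs : List ℤ) (T : SL) : SL :=
  List.rec (motive := fun _ => SL → SL) (fun _ => [])
    (fun γ _ ih T => smulL γ T ++ ih (pushL T)) γs T

lemma valS_polyL (z : Fin 4 → ℝ) (γs : List ℤ) (T : SL) :
    valS z (polyL γs T) = polyV γs (z 0 + z 1 + z 2 + z 3) * valS z T := by
  induction γs generalizing T with
  | nil => simp [polyL, polyV]
  | cons γ γs ih =>
    change valS z (smulL γ T ++ polyL γs (pushL T)) = _
    simp only [valS_append, valS_smulL, ih, valS_pushL, polyV]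
    ring

/-- `∑ᵢ γᵢ (∑ z)ⁱ T + ∑ᵢ δᵢ (∑ z)ⁱ T'`, merged degree by degree -/
noncomputable def polyL2 (γs δs : List ℤ) (T T' : SL) : SL :=
  List.rec (motive := fun _ => List ℤ → SL → SL → SL) (fun δs _ T' => polyL δs T')
    (fun γ γs' ih δs T T' =>
      List.rec (polyL (γ :: γs') T)
        (fun δ δs' _ => mergeL (smulL γ T) (smulL δ T') ++ ih δs' (pushL T) (pushL T')) δs)
    γs δs T T'

lemma valS_polyL2 (z : Fin 4 → ℝ) (γs δs : List ℤ) (T T' : SL) :
    valS z (polyL2 γs δs T T') = polyV γs (z 0 + z 1 + z 2 + z 3) * valS z T +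
      polyV δs (z 0 + z 1 + z 2 + z 3) * valS z T' := by
  induction γs generalizing δs T T' with
  | nil =>
    change valS z (polyL δs T') = _
    rw [valS_polyL]
    simp [polyV]
  | cons γ γs ih =>
    cases δs with
    | nil =>
      change valS z (polyL (γ :: γs) T) = _
      rw [valS_polyL]
      simp [polyV]
    | cons δ δs =>
      change valS z (mergeL (smulL γ T) (smulL δ T') ++ polyL2 γs δs (pushL T) (pushL T')) = _
      simp only [valS_append, valS_mergeL, valS_smulL, ih, valS_pushL, polyV]
      ring

/-! ### packed vectors -/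

/-- the number with digits `l` in base `b` -/
noncomputable def packN (b : ℕ) (l : List ℕ) : ℕ :=
  List.rec 0 (fun a _ ih => Nat.add a (Nat.mul b ih)) l

lemma packN_eq (b : ℕ) (l : List ℕ) : packN b l = Nat.ofDigits b l := by
  induction l with
  | nil => rfl
  | cons a t ih =>
    change a + b * packN b t = _
    rw [ih, Nat.ofDigits_cons]

/-- sum of vectors -/
def vadd : List ℕ → List ℕ → List ℕ
  | a :: as, b :: bs => (a + b) :: vadd as bs
  | [], bs => bs
  | as, [] => as

lemma ofDigits_vadd (b : ℕ) (u v : List ℕ) :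
    Nat.ofDigits b (vadd u v) = Nat.ofDigits b u + Nat.ofDigits b v := by
  induction u generalizing v with
  | nil => simp [vadd]
  | cons a as ih =>
    cases v with
    | nil => simp [vadd]
    | cons c cs =>
      simp only [vadd, Nat.ofDigits_cons, ih]
      ring

lemma dotR_vadd (u v : List ℕ) (xs : List ℝ) : dotR (vadd u v) xs = dotR u xs + dotR v xs := by
  induction u generalizing v xs with
  | nil => simp [vadd]
  | cons a as ih =>
    cases v with
    | nil => simp [vadd]
    | cons c cs =>
      cases xs with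
      | nil => simp [vadd]
      | cons x xs =>
        simp only [vadd, dotR_cons, ih]
        push_cast
        ring

lemma length_vadd {N : ℕ} {u v : List ℕ} (hu : u.length = N) (hv : v.length = N) :
    (vadd u v).length = N := by
  induction u generalizing v N with
  | nil => simpa [vadd] using hv
  | cons a as ih =>
    cases v with
    | nil => simpa [vadd] using hu
    | cons c cs =>
      cases N with
      | zero => simp at hu
      | succ N =>
        simp only [vadd, List.length_cons]
        rw [ih (by simpa using hu) (by simpa using hv)]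

/-- multiple of a vector -/
def vscale (c : ℕ) (v : List ℕ) : List ℕ := v.map (c * ·)

lemma ofDigits_vscale (b c : ℕ) (v : List ℕ) :
    Nat.ofDigits b (vscale c v) = c * Nat.ofDigits b v := by
  induction v with
  | nil => simp [vscale]
  | cons a as ih =>
    simp only [vscale, List.map_cons, Nat.ofDigits_cons] at ih ⊢
    rw [ih]
    ring

lemma dotR_vscale (c : ℕ) (v : List ℕ) (xs : List ℝ) : dotR (vscale c v) xs = c * dotR v xs := by
  induction v generalizing xs with
  | nil => simp [vscale]
  | cons a as ih =>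
    cases xs with
    | nil => simp [vscale]
    | cons x xs =>
      simp only [vscale, List.map_cons, dotR_cons] at ih ⊢
      rw [ih]
      push_cast
      ring

/-! ### ghost vectors on the top level -/

/-- a row of a table of the ghost expansions -/
abbrev Row := Ex × ℕ × ℕ × ℕ

/-- `x` records an expansion of `S_e` on the simplex in the `S_λ`, `λ ∈ P` -/
def GoodT (N Z Z' : ℕ) (P : List Ex) (x : Row) : Prop :=
  ∃ v : List ℕ, v.length = N ∧
    (∀ z : Fin 4 → ℝ, z 0 + z 1 + z 2 + z 3 = 1 → Sy z x.1 = dotR v (P.map (Sy z))) ∧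
    Nat.ofDigits Z v = x.2.1 ∧ Nat.ofDigits Z' v = x.2.2.1 ∧ Nat.ofDigits 1 v = x.2.2.2

/-- the top table -/
noncomputable def topT (Z Z' : ℕ) (P : List Ex) (i : ℕ) : List Row :=
  List.rec (motive := fun _ => ℕ → List Row) (fun _ => [])
    (fun e _ ih i => (e, Nat.pow Z i, Nat.pow Z' i, 1) :: ih (Nat.succ i)) P i

lemma dotR_zeros (k : ℕ) (xs : List ℝ) : dotR (List.replicate k 0) xs = 0 := by
  induction k generalizing xs with
  | zero => simp
  | succ k ih =>
    cases xs with
    | nil => simp
    | cons x xs =>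
      simp only [List.replicate_succ, dotR_cons, ih]
      simp

lemma dotR_prefix (pre : List ℝ) (w : List ℕ) (ys : List ℝ) :
    dotR (List.replicate pre.length 0 ++ w) (pre ++ ys) = dotR w ys := by
  induction pre with
  | nil => simp
  | cons a as ih =>
    simp only [List.length_cons, List.replicate_succ, List.cons_append, dotR_cons, ih]
    simp

lemma ofDigits_zeros (b k : ℕ) : Nat.ofDigits b (List.replicate k 0) = 0 := by
  induction k with
  | zero => simp
  | succ k ih => simp [List.replicate_succ, Nat.ofDigits_cons, ih]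

lemma ofDigits_unit (b i k : ℕ) :
    Nat.ofDigits b (List.replicate i 0 ++ 1 :: List.replicate k 0) = b ^ i := by
  rw [Nat.ofDigits_append, ofDigits_zeros, Nat.ofDigits_cons, ofDigits_zeros]
  simp

lemma topT_good (N Z Z' : ℕ) (pre suf : List Ex) (hN : (pre ++ suf).length = N) {x : Row}
    (hx : x ∈ topT Z Z' suf pre.length) : GoodT N Z Z' (pre ++ suf) x := by
  induction suf generalizing pre with
  | nil => simp [topT] at hx
  | cons e t ih =>
    change x ∈ (e, Nat.pow Z pre.length, Nat.pow Z' pre.length, 1) ::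
      topT Z Z' t (Nat.succ pre.length) at hx
    rcases List.mem_cons.1 hx with rfl | hx
    · refine ⟨List.replicate pre.length 0 ++ 1 :: List.replicate t.length 0, ?_, ?_, ?_, ?_, ?_⟩
      · simp at hN ⊢
        omega
      · intro z _
        have h := dotR_prefix (pre.map (Sy z)) (1 :: List.replicate t.length 0)
          ((e :: t).map (Sy z))
        rw [List.length_map] at h
        rw [List.map_append, h]
        simp [dotR_zeros]
      · exact ofDigits_unit _ _ _
      · exact ofDigits_unit _ _ _
      · change Nat.ofDigits 1 _ = 1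
        rw [ofDigits_unit]
        simp
    · have h := ih (pre ++ [e]) (by simpa using hN) (by simpa using hx)
      simpa using h

/-- lookup in a table -/
noncomputable def look (T : List Row) (f : Ex) : Option (ℕ × ℕ × ℕ) :=
  List.rec none (fun h _ ih => Bool.rec ih (some h.2) (exEq h.1 f)) T

lemma look_mem {T : List Row} {f : Ex} {y : ℕ × ℕ × ℕ} (h : look T f = some y) : (f, y) ∈ T := by
  induction T with
  | nil => simp [look] at h
  | cons a t ih =>
    change (Bool.rec (look t f) (some a.2) (exEq a.1 f) : Option _) = some y at h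
    cases he : exEq a.1 f with
    | false =>
      rw [he] at h
      exact List.mem_cons_of_mem _ (ih h)
    | true =>
      rw [he] at h
      have h' : a.2 = y := by simpa using h
      have e := exEq_eq he
      rw [← h', ← e]
      exact List.mem_cons_self

/-- sum of ghost vectors, on the records -/
def add3 (x y : ℕ × ℕ × ℕ) : ℕ × ℕ × ℕ :=
  (Nat.add x.1 y.1, Nat.add x.2.1 y.2.1, Nat.add x.2.2 y.2.2)

/-- the row of `e`, from the next level -/
noncomputable def rowOf (T : List Row) (e : Ex) : Option Row :=
  Option.rec none (fun a =>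
    Option.rec none (fun b =>
      Option.rec none (fun c =>
        Option.rec none (fun d => some (e, add3 a (add3 b (add3 c d))))
          (look T (up3 e)))
        (look T (up2 e)))
      (look T (up1 e)))
    (look T (up0 e))

lemma rowOf_good {N Z Z' : ℕ} {P : List Ex} {T : List Row} (hT : ∀ x ∈ T, GoodT N Z Z' P x)
    {e : Ex} {x : Row} (h : rowOf T e = some x) : GoodT N Z Z' P x := by
  change (Option.rec none (fun a => _) (look T (up0 e)) : Option Row) = some x at h
  cases h0 : look T (up0 e) with
  | none => rw [h0] at h; exact absurd h (by simp)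
  | some a =>
    rw [h0] at h
    change (Option.rec none (fun b => _) (look T (up1 e)) : Option Row) = some x at h
    cases h1 : look T (up1 e) with
    | none => rw [h1] at h; exact absurd h (by simp)
    | some b =>
      rw [h1] at h
      change (Option.rec none (fun c => _) (look T (up2 e)) : Option Row) = some x at h
      cases h2 : look T (up2 e) with
      | none => rw [h2] at h; exact absurd h (by simp)
      | some c =>
        rw [h2] at h
        change (Option.rec none (fun d => _) (look T (up3 e)) : Option Row) = some x at h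
        cases h3 : look T (up3 e) with
        | none => rw [h3] at h; exact absurd h (by simp)
        | some d =>
          rw [h3] at h
          have hx : x = (e, add3 a (add3 b (add3 c d))) := by
            simpa using h.symm
          rw [hx]
          have g0 := hT _ (look_mem h0)
          have g1 := hT _ (look_mem h1)
          have g2 := hT _ (look_mem h2)
          have g3 := hT _ (look_mem h3)
          obtain ⟨v0, l0, s0, a0, b0, c0⟩ := g0
          obtain ⟨v1, l1, s1, a1, b1, c1⟩ := g1
          obtain ⟨v2, l2, s2, a2, b2, c2⟩ := g2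
          obtain ⟨v3, l3, s3, a3, b3, c3⟩ := g3
          refine ⟨vadd v0 (vadd v1 (vadd v2 v3)),
            length_vadd l0 (length_vadd l1 (length_vadd l2 l3)), ?_, ?_, ?_, ?_⟩
          · intro z hz
            have hup := Sy_up z e
            rw [hz, mul_one] at hup
            simp only at s0 s1 s2 s3 ⊢
            rw [dotR_vadd, dotR_vadd, dotR_vadd, hup, s0 z hz, s1 z hz, s2 z hz, s3 z hz]
            ring
          · simp only [ofDigits_vadd] at a0 a1 a2 a3 ⊢
            rw [a0, a1, a2, a3]
            rfl
          · simp only [ofDigits_vadd] at b0 b1 b2 b3 ⊢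
            rw [b0, b1, b2, b3]
            rfl
          · simp only [ofDigits_vadd] at c0 c1 c2 c3 ⊢
            rw [c0, c1, c2, c3]
            rfl

/-- the table of a level, from the next level -/
noncomputable def stepT (T : List Row) (Pk : List Ex) : List Row :=
  List.rec [] (fun e _ ih => Option.rec ih (fun x => x :: ih) (rowOf T e)) Pk

lemma stepT_good {N Z Z' : ℕ} {P : List Ex} {T : List Row} (hT : ∀ x ∈ T, GoodT N Z Z' P x)
    (Pk : List Ex) : ∀ x ∈ stepT T Pk, GoodT N Z Z' P x := by
  induction Pk with
  | nil => simp [stepT]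
  | cons e t ih =>
    intro x hx
    change x ∈ (Option.rec (stepT T t) (fun x => x :: stepT T t) (rowOf T e) : List Row) at hx
    cases h : rowOf T e with
    | none =>
      rw [h] at hx
      exact ih x hx
    | some y =>
      rw [h] at hx
      rcases List.mem_cons.1 hx with rfl | hx
      · exact rowOf_good hT h
      · exact ih x hx

/-- all the levels: `Ps` lists the exponents of the levels, in decreasing degree -/
noncomputable def allT (Ps : List (List Ex)) (T : List Row) : List Row :=
  List.rec (motive := fun _ => List Row → List Row) (fun T => T)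
    (fun Pk _ ih T => T ++ ih (stepT T Pk)) Ps T

lemma allT_good {N Z Z' : ℕ} {P : List Ex} {T : List Row} (hT : ∀ x ∈ T, GoodT N Z Z' P x)
    (Ps : List (List Ex)) : ∀ x ∈ allT Ps T, GoodT N Z Z' P x := by
  induction Ps generalizing T with
  | nil => exact hT
  | cons Pk t ih =>
    intro x hx
    change x ∈ T ++ allT t (stepT T Pk) at hx
    rcases List.mem_append.1 hx with hx | hx
    · exact hT x hx
    · exact ih (stepT_good hT Pk) x hx

/-- the whole table, from the exponents -/
noncomputable def fullT (Z Z' : ℕ) (P : List Ex) (Ps : List (List Ex)) : List Row :=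
  allT Ps (topT Z Z' P 0)

lemma fullT_good {N Z Z' : ℕ} {P : List Ex} (hN : P.length = N) (Ps : List (List Ex)) :
    ∀ x ∈ fullT Z Z' P Ps, GoodT N Z Z' P x := by
  refine allT_good ?_ Ps
  intro x hx
  exact topT_good N Z Z' [] P (by simpa using hN) hx

/-! ### matrices -/

/-- entrywise sum of matrices -/
def madd : List (List ℕ) → List (List ℕ) → List (List ℕ)
  | a :: as, b :: bs => vadd a b :: madd as bs
  | [], bs => bs
  | as, [] => as

/-- multiple of a matrix -/
def mscale (c : ℕ) (A : List (List ℕ)) : List (List ℕ) := A.map (vscale c)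

/-- the rank one matrix -/
def outerM (u v : List ℕ) : List (List ℕ) := u.map fun a => vscale a v

/-- the number of a matrix -/
def pk2 (Z Z' : ℕ) (A : List (List ℕ)) : ℕ := Nat.ofDigits Z' (A.map (Nat.ofDigits Z))

lemma pk2_madd (Z Z' : ℕ) (A B : List (List ℕ)) :
    pk2 Z Z' (madd A B) = pk2 Z Z' A + pk2 Z Z' B := by
  induction A generalizing B with
  | nil => simp [madd, pk2]
  | cons a as ih =>
    cases B with
    | nil => simp [madd, pk2]
    | cons c cs =>
      have h := ih cs
      simp only [pk2] at h
      simp only [madd, pk2, List.map_cons, Nat.ofDigits_cons, ofDigits_vadd, h]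
      ring

lemma pk2_mscale (Z Z' c : ℕ) (A : List (List ℕ)) : pk2 Z Z' (mscale c A) = c * pk2 Z Z' A := by
  induction A with
  | nil => simp [mscale, pk2]
  | cons a as ih =>
    simp only [mscale, pk2, List.map_cons, Nat.ofDigits_cons, ofDigits_vscale] at ih ⊢
    rw [ih]
    ring

lemma pk2_outer (Z Z' : ℕ) (u v : List ℕ) :
    pk2 Z Z' (outerM u v) = Nat.ofDigits Z' u * Nat.ofDigits Z v := by
  induction u with
  | nil => simp [outerM, pk2]
  | cons a as ih =>
    simp only [outerM, pk2, List.map_cons, Nat.ofDigits_cons, ofDigits_vscale, List.map_map] at ih ⊢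
    rw [ih]
    ring

lemma bil_madd (A B : List (List ℕ)) (xs ys : List ℝ) :
    bil (madd A B) xs ys = bil A xs ys + bil B xs ys := by
  induction A generalizing B xs with
  | nil => simp [madd]
  | cons a as ih =>
    cases B with
    | nil => simp [madd]
    | cons c cs =>
      cases xs with
      | nil => simp [madd]
      | cons x xs =>
        simp only [madd, bil_cons, dotR_vadd, ih]
        ring

lemma bil_mscale (c : ℕ) (A : List (List ℕ)) (xs ys : List ℝ) :
    bil (mscale c A) xs ys = c * bil A xs ys := by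
  induction A generalizing xs with
  | nil => simp [mscale]
  | cons a as ih =>
    cases xs with
    | nil => simp [mscale]
    | cons x xs =>
      simp only [mscale, List.map_cons, bil_cons, dotR_vscale] at ih ⊢
      rw [ih]
      ring

lemma bil_outer (u v : List ℕ) (xs ys : List ℝ) :
    bil (outerM u v) xs ys = dotR u xs * dotR v ys := by
  induction u generalizing xs with
  | nil => simp [outerM]
  | cons a as ih =>
    cases xs with
    | nil => simp [outerM]
    | cons x xs =>
      simp only [outerM, List.map_cons, bil_cons, dotR_vscale, dotR_cons] at ih ⊢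
      rw [ih]
      ring

/-- rectangular matrices -/
def IsM (N : ℕ) (A : List (List ℕ)) : Prop := A.length = N ∧ ∀ r ∈ A, r.length = N

lemma len_madd {N : ℕ} {A B : List (List ℕ)} (hA : A.length = N) (hB : B.length = N) :
    (madd A B).length = N := by
  induction A generalizing B N with
  | nil => simpa [madd] using hB
  | cons a as ih =>
    cases B with
    | nil => simpa [madd] using hA
    | cons c cs =>
      cases N with
      | zero => simp at hA
      | succ N =>
        simp only [madd, List.length_cons]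
        rw [ih (by simpa using hA) (by simpa using hB)]

lemma rows_madd {N : ℕ} {A B : List (List ℕ)} (hA : ∀ r ∈ A, r.length = N)
    (hB : ∀ r ∈ B, r.length = N) : ∀ r ∈ madd A B, r.length = N := by
  induction A generalizing B with
  | nil => simpa [madd] using hB
  | cons a as ih =>
    cases B with
    | nil => simpa [madd] using hA
    | cons c cs =>
      intro r hr
      simp only [madd, List.mem_cons] at hr
      rcases hr with rfl | hr
      · exact length_vadd (hA a List.mem_cons_self) (hB c List.mem_cons_self)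
      · exact ih (fun x hx => hA x (List.mem_cons_of_mem _ hx))
          (fun x hx => hB x (List.mem_cons_of_mem _ hx)) r hr

lemma isM_madd {N : ℕ} {A B : List (List ℕ)} (hA : IsM N A) (hB : IsM N B) : IsM N (madd A B) :=
  ⟨len_madd hA.1 hB.1, rows_madd hA.2 hB.2⟩

lemma isM_mscale {N : ℕ} (c : ℕ) {A : List (List ℕ)} (hA : IsM N A) : IsM N (mscale c A) := by
  refine ⟨by simpa [mscale] using hA.1, ?_⟩
  intro r hr
  obtain ⟨r0, h0, rfl⟩ := List.mem_map.1 hr
  simpa [vscale] using hA.2 r0 h0

lemma isM_outer {N : ℕ} {u v : List ℕ} (hu : u.length = N) (hv : v.length = N) :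
    IsM N (outerM u v) := by
  refine ⟨by simpa [outerM] using hu, ?_⟩
  intro r hr
  obtain ⟨a, _, rfl⟩ := List.mem_map.1 hr
  simpa [vscale] using hv

lemma entry_le_total {A : List (List ℕ)} {r : List ℕ} (hr : r ∈ A) {x : ℕ} (hx : x ∈ r) :
    x ≤ pk2 1 1 A := by
  have h1 : x ≤ r.sum := List.single_le_sum (by simp) x hx
  have h2 : r.sum ≤ (A.map List.sum).sum :=
    List.single_le_sum (by simp) _ (List.mem_map_of_mem hr)
  have e : pk2 1 1 A = (A.map List.sum).sum := by
    simp only [pk2, Nat.ofDigits_one]
    congr 1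
    exact List.map_congr_left fun r _ => Nat.ofDigits_one r
  rw [e]
  exact h1.trans h2

lemma map_ofDigits_inj {N Z : ℕ} (hZ : 1 < Z) (X Y : List (List ℕ)) (hlen : X.length = Y.length)
    (hX2 : ∀ r ∈ X, r.length = N) (hY2 : ∀ r ∈ Y, r.length = N)
    (hbX : ∀ r ∈ X, ∀ x ∈ r, x < Z) (hbY : ∀ r ∈ Y, ∀ x ∈ r, x < Z)
    (h1 : X.map (Nat.ofDigits Z) = Y.map (Nat.ofDigits Z)) : X = Y := by
  induction X generalizing Y with
  | nil =>
    cases Y with
    | nil => rfl
    | cons _ _ => simp at hlen
  | cons a as ih =>
    cases Y with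
    | nil => simp at hlen
    | cons c cs =>
      simp only [List.map_cons, List.cons.injEq] at h1
      have e1 : a = c :=
        Nat.ofDigits_inj_of_len_eq hZ (by rw [hX2 a List.mem_cons_self, hY2 c List.mem_cons_self])
          (hbX a List.mem_cons_self) (hbY c List.mem_cons_self) h1.1
      rw [e1, ih cs (by simpa using hlen) (fun r hr => hX2 r (List.mem_cons_of_mem _ hr))
        (fun r hr => hY2 r (List.mem_cons_of_mem _ hr))
        (fun r hr => hbX r (List.mem_cons_of_mem _ hr))
        (fun r hr => hbY r (List.mem_cons_of_mem _ hr)) h1.2]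

/-- `pk2` is injective on rectangular matrices with small entries -/
lemma pk2_inj {N Z : ℕ} (hZ : 1 < Z) (hN : 0 < N) {X Y : List (List ℕ)} (hX : IsM N X)
    (hY : IsM N Y) (hbX : ∀ r ∈ X, ∀ x ∈ r, x < Z) (hbY : ∀ r ∈ Y, ∀ x ∈ r, x < Z)
    (h : pk2 Z (Z ^ N) X = pk2 Z (Z ^ N) Y) : X = Y := by
  have hZ' : 1 < Z ^ N := Nat.one_lt_pow (by omega) hZ
  have hlt : ∀ (A : List (List ℕ)), IsM N A → (∀ r ∈ A, ∀ x ∈ r, x < Z) →
      ∀ m ∈ A.map (Nat.ofDigits Z), m < Z ^ N := by
    intro A hA hb m hm
    obtain ⟨r, hr, rfl⟩ := List.mem_map.1 hm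
    rw [← hA.2 r hr]
    exact Nat.ofDigits_lt_base_pow_length hZ (hb r hr)
  have h1 : X.map (Nat.ofDigits Z) = Y.map (Nat.ofDigits Z) :=
    Nat.ofDigits_inj_of_len_eq hZ' (by simp [hX.1, hY.1]) (hlt X hX hbX) (hlt Y hY hbY) h
  exact map_ofDigits_inj hZ X Y (by rw [hX.1, hY.1]) hX.2 hY.2 hbX hbY h1

/-! ### bilinear forms -/

/-- the accumulators of a bilinear form -/
abbrev Acc4 := ℕ × ℕ × ℕ × ℕ

/-- `acc` records the form `val`, a difference of two matrices -/
def AccP (N Z Z' : ℕ) (P : List Ex) (acc : Acc4) (val : (Fin 4 → ℝ) → (Fin 4 → ℝ) → ℝ) : Prop :=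
  ∃ Ap Am : List (List ℕ), IsM N Ap ∧ IsM N Am ∧
    pk2 Z Z' Ap = acc.1 ∧ pk2 Z Z' Am = acc.2.1 ∧ pk2 1 1 Ap = acc.2.2.1 ∧ pk2 1 1 Am = acc.2.2.2 ∧
    ∀ p r : Fin 4 → ℝ, p 0 + p 1 + p 2 + p 3 = 1 → r 0 + r 1 + r 2 + r 3 = 1 →
      val p r = bil Ap (P.map (Sy p)) (P.map (Sy r)) - bil Am (P.map (Sy p)) (P.map (Sy r))

lemma accP_zero (N Z Z' : ℕ) (P : List Ex) : AccP N Z Z' P (0, 0, 0, 0) (fun _ _ => 0) := by
  have hM : IsM N (List.replicate N (List.replicate N 0)) := by
    refine ⟨by simp, ?_⟩
    intro r hr
    rw [List.eq_of_mem_replicate hr]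
    simp
  have hp : ∀ Y Y' : ℕ, pk2 Y Y' (List.replicate N (List.replicate N 0)) = 0 := by
    intro Y Y'
    simp only [pk2, List.map_replicate, ofDigits_zeros]
  refine ⟨_, _, hM, hM, hp _ _, hp _ _, hp _ _, hp _ _, ?_⟩
  intro p r _ _
  simp

/-- add `c S_e(p) S_f(r)` -/
def addTerm (c : ℤ) (x y : ℕ × ℕ × ℕ) (acc : Acc4) : Acc4 :=
  match c with
  | Int.ofNat k =>
    (Nat.add acc.1 (Nat.mul k (Nat.mul x.2.1 y.1)), acc.2.1,
      Nat.add acc.2.2.1 (Nat.mul k (Nat.mul x.2.2 y.2.2)), acc.2.2.2)
  | Int.negSucc k =>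
    (acc.1, Nat.add acc.2.1 (Nat.mul (Nat.succ k) (Nat.mul x.2.1 y.1)), acc.2.2.1,
      Nat.add acc.2.2.2 (Nat.mul (Nat.succ k) (Nat.mul x.2.2 y.2.2)))

lemma accP_addTerm {N Z Z' : ℕ} {P : List Ex} {acc : Acc4} {val : (Fin 4 → ℝ) → (Fin 4 → ℝ) → ℝ}
    (h : AccP N Z Z' P acc val) (c : ℤ) {e f : Ex} {x y : ℕ × ℕ × ℕ}
    (hx : GoodT N Z Z' P (e, x)) (hy : GoodT N Z Z' P (f, y)) :
    AccP N Z Z' P (addTerm c x y acc) (fun p r => val p r + (c : ℝ) * (Sy p e * Sy r f)) := by
  obtain ⟨Ap, Am, h1, h2, h3, h4, h5, h6, h7⟩ := h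
  obtain ⟨u, lu, su, au, bu, cu⟩ := hx
  obtain ⟨v, lv, sv, av, bv, cv⟩ := hy
  simp only at su sv au bu cu av bv cv
  cases c with
  | ofNat k =>
    refine ⟨madd Ap (mscale k (outerM u v)), Am,
      isM_madd h1 (isM_mscale k (isM_outer lu lv)), h2, ?_, h4, ?_, h6, ?_⟩
    · simp only [pk2_madd, pk2_mscale, pk2_outer, addTerm, h3, bu, av]
      rfl
    · simp only [pk2_madd, pk2_mscale, pk2_outer, addTerm, h5, cu, cv]
      rfl
    · intro p r hp hr
      have hk : ((Int.ofNat k : ℤ) : ℝ) = (k : ℝ) := by simp
      simp only [bil_madd, bil_mscale, bil_outer, h7 p r hp hr, su p hp, sv r hr, hk]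
      ring
  | negSucc k =>
    refine ⟨Ap, madd Am (mscale (k + 1) (outerM u v)), h1,
      isM_madd h2 (isM_mscale _ (isM_outer lu lv)), h3, ?_, h5, ?_, ?_⟩
    · simp only [pk2_madd, pk2_mscale, pk2_outer, addTerm, h4, bu, av]
      rfl
    · simp only [pk2_madd, pk2_mscale, pk2_outer, addTerm, h6, cu, cv]
      rfl
    · intro p r hp hr
      simp only [bil_madd, bil_mscale, bil_outer, h7 p r hp hr, su p hp, sv r hr]
      rw [Int.cast_negSucc]
      push_cast
      ring

/-- the degree of an exponent -/
def degE (e : Ex) : ℕ := Nat.add (Nat.add (Nat.add e.1 e.2.1) e.2.2.1) e.2.2.2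

/-- the value of the diagonal form -/
noncomputable def valD (p r : Fin 4 → ℝ) : SL → ℝ
  | [] => 0
  | h :: t => (h.2 : ℝ) * (16 : ℝ) ^ degE h.1 * (Sy p h.1 * Sy r h.1) + valD p r t

/-- accumulate the diagonal form of a table -/
noncomputable def accDiag (T : List Row) (L : SL) (acc : Acc4) : Option Acc4 :=
  List.rec (motive := fun _ => Acc4 → Option Acc4) (fun acc => some acc)
    (fun h _ ih acc => Option.rec none
      (fun x => ih (addTerm (Int.mul h.2 (Int.ofNat (Nat.pow 16 (degE h.1)))) x x acc))
      (look T h.1)) L acc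

lemma accDiag_spec {N Z Z' : ℕ} {P : List Ex} {T : List Row} (hT : ∀ x ∈ T, GoodT N Z Z' P x)
    (L : SL) {acc acc' : Acc4} {val : (Fin 4 → ℝ) → (Fin 4 → ℝ) → ℝ}
    (h : AccP N Z Z' P acc val) (he : accDiag T L acc = some acc') :
    AccP N Z Z' P acc' (fun p r => val p r + valD p r L) := by
  induction L generalizing acc val with
  | nil =>
    have : acc = acc' := by simpa [accDiag] using he
    subst this
    simpa [valD] using h
  | cons a t ih =>
    change (Option.rec none (fun x => accDiag T t
      (addTerm (Int.mul a.2 (Int.ofNat (Nat.pow 16 (degE a.1)))) x x acc)) (look T a.1) :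
        Option Acc4) = some acc' at he
    cases hl : look T a.1 with
    | none =>
      rw [hl] at he
      exact absurd he (by simp)
    | some x =>
      rw [hl] at he
      have g := hT _ (look_mem hl)
      have h2 := accP_addTerm h (Int.mul a.2 (Int.ofNat (Nat.pow 16 (degE a.1)))) g g
      have h3 := ih h2 he
      convert h3 using 3 with p r
      have hI : ((Int.mul a.2 (Int.ofNat (Nat.pow 16 (degE a.1))) : ℤ) : ℝ) =
          (a.2 : ℝ) * (16 : ℝ) ^ degE a.1 := by
        have : Int.mul a.2 (Int.ofNat (Nat.pow 16 (degE a.1))) =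
            a.2 * ((16 : ℤ) ^ degE a.1) := by
          change a.2 * ((Nat.pow 16 (degE a.1) : ℕ) : ℤ) = _
          simp
        rw [this]
        push_cast
        ring
      simp only [valD, hI]
      ring

/-- accumulate `c S_e(p) ∑ κ S_f(r)` -/
noncomputable def accRow (T : List Row) (c : ℤ) (x : ℕ × ℕ × ℕ) (L : SL) (acc : Acc4) :
    Option Acc4 :=
  List.rec (motive := fun _ => Acc4 → Option Acc4) (fun acc => some acc)
    (fun h _ ih acc => Option.rec none
      (fun y => ih (addTerm (Int.mul c h.2) x y acc))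
      (look T h.1)) L acc

lemma accRow_spec {N Z Z' : ℕ} {P : List Ex} {T : List Row} (hT : ∀ x ∈ T, GoodT N Z Z' P x)
    (c : ℤ) {e : Ex} {x : ℕ × ℕ × ℕ} (hx : GoodT N Z Z' P (e, x))
    (L : SL) {acc acc' : Acc4} {val : (Fin 4 → ℝ) → (Fin 4 → ℝ) → ℝ}
    (h : AccP N Z Z' P acc val) (he : accRow T c x L acc = some acc') :
    AccP N Z Z' P acc' (fun p r => val p r + (c : ℝ) * Sy p e * valS r L) := by
  induction L generalizing acc val with
  | nil =>
    have : acc = acc' := by simpa [accRow] using he
    subst this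
    simpa using h
  | cons a t ih =>
    change (Option.rec none (fun y => accRow T c x t (addTerm (Int.mul c a.2) x y acc))
      (look T a.1) : Option Acc4) = some acc' at he
    cases hl : look T a.1 with
    | none =>
      rw [hl] at he
      exact absurd he (by simp)
    | some y =>
      rw [hl] at he
      have g := hT _ (look_mem hl)
      have h2 := accP_addTerm h (Int.mul c a.2) hx g
      have h3 := ih h2 he
      convert h3 using 3 with p r
      have hI : ((Int.mul c a.2 : ℤ) : ℝ) = (c : ℝ) * (a.2 : ℝ) := by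
        exact_mod_cast Int.cast_mul c a.2
      simp only [valS_cons, hI]
      ring

/-- accumulate `c (∑ κ S_e(p)) (∑ κ' S_f(r))` -/
noncomputable def accPair (T : List Row) (c : ℤ) (L L' : SL) (acc : Acc4) : Option Acc4 :=
  List.rec (motive := fun _ => Acc4 → Option Acc4) (fun acc => some acc)
    (fun h _ ih acc => Option.rec none
      (fun x => Option.rec none (fun acc2 => ih acc2) (accRow T (Int.mul c h.2) x L' acc))
      (look T h.1)) L acc

lemma accPair_spec {N Z Z' : ℕ} {P : List Ex} {T : List Row} (hT : ∀ x ∈ T, GoodT N Z Z' P x)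
    (c : ℤ) (L L' : SL) {acc acc' : Acc4} {val : (Fin 4 → ℝ) → (Fin 4 → ℝ) → ℝ}
    (h : AccP N Z Z' P acc val) (he : accPair T c L L' acc = some acc') :
    AccP N Z Z' P acc' (fun p r => val p r + (c : ℝ) * valS p L * valS r L') := by
  induction L generalizing acc val with
  | nil =>
    have : acc = acc' := by simpa [accPair] using he
    subst this
    simpa using h
  | cons a t ih =>
    change (Option.rec none (fun x => Option.rec none (fun acc2 => accPair T c t L' acc2)
      (accRow T (Int.mul c a.2) x L' acc)) (look T a.1) : Option Acc4) = some acc' at he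
    cases hl : look T a.1 with
    | none =>
      rw [hl] at he
      exact absurd he (by simp)
    | some x =>
      rw [hl] at he
      change (Option.rec none (fun acc2 => accPair T c t L' acc2)
        (accRow T (Int.mul c a.2) x L' acc) : Option Acc4) = some acc' at he
      cases hr : accRow T (Int.mul c a.2) x L' acc with
      | none =>
        rw [hr] at he
        exact absurd he (by simp)
      | some acc2 =>
        rw [hr] at he
        have g := hT _ (look_mem hl)
        have h2 := accRow_spec hT (Int.mul c a.2) g L' h hr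
        have h3 := ih h2 he
        convert h3 using 3 with p r
        have hI : ((Int.mul c a.2 : ℤ) : ℝ) = (c : ℝ) * (a.2 : ℝ) := by
          exact_mod_cast Int.cast_mul c a.2
        simp only [valS_cons, hI]
        ring

/-- the number of a matrix, with raw operations -/
noncomputable def pkM (Z Z' : ℕ) (A : List (List ℕ)) : ℕ :=
  List.rec 0 (fun r _ ih => Nat.add (packN Z r) (Nat.mul Z' ih)) A

lemma pkM_eq (Z Z' : ℕ) (A : List (List ℕ)) : pkM Z Z' A = pk2 Z Z' A := by
  induction A with
  | nil => rfl
  | cons r t ih =>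
    change packN Z r + Z' * pkM Z Z' t = _
    rw [ih, packN_eq]
    simp [pk2, Nat.ofDigits_cons]

/-- the last comparison -/
noncomputable def finalCheck (Z Z' g : ℕ) (Mp Mm : List (List ℕ)) (acc : Acc4) : Bool :=
  Bool.rec false
    (Bool.rec false
      (Nat.blt (Nat.add acc.2.2.2 (Nat.mul g (pkM 1 1 Mp))) Z)
      (Nat.blt (Nat.add acc.2.2.1 (Nat.mul g (pkM 1 1 Mm))) Z))
    (Nat.beq (Nat.add acc.1 (Nat.mul g (pkM Z Z' Mm))) (Nat.add acc.2.1 (Nat.mul g (pkM Z Z' Mp))))

/-- **A recorded form is a literal matrix.** -/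
theorem AccP.final {N Z g : ℕ} {P : List Ex} {acc : Acc4} {val : (Fin 4 → ℝ) → (Fin 4 → ℝ) → ℝ}
    (h : AccP N Z (Z ^ N) P acc val) (hZ : 1 < Z) (hN : 0 < N) {Mp Mm : List (List ℕ)}
    (hMp : IsM N Mp) (hMm : IsM N Mm) (hc : finalCheck Z (Z ^ N) g Mp Mm acc = true)
    (p r : Fin 4 → ℝ) (hp : p 0 + p 1 + p 2 + p 3 = 1) (hr : r 0 + r 1 + r 2 + r 3 = 1) :
    val p r = g * (bil Mp (P.map (Sy p)) (P.map (Sy r)) - bil Mm (P.map (Sy p)) (P.map (Sy r))) := by
  obtain ⟨Ap, Am, h1, h2, h3, h4, h5, h6, h7⟩ := h
  unfold finalCheck at hc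
  cases c1 : Nat.beq (Nat.add acc.1 (Nat.mul g (pkM Z (Z ^ N) Mm)))
      (Nat.add acc.2.1 (Nat.mul g (pkM Z (Z ^ N) Mp))) with
  | false =>
    rw [c1] at hc
    exact absurd hc (by simp)
  | true =>
    rw [c1] at hc
    cases c2 : Nat.blt (Nat.add acc.2.2.1 (Nat.mul g (pkM 1 1 Mm))) Z with
    | false =>
      rw [c2] at hc
      exact absurd hc (by simp)
    | true =>
      rw [c2] at hc
      simp only at hc
      have e1 := Nat.eq_of_beq_eq_true c1
      have e2 : acc.2.2.1 + g * pkM 1 1 Mm < Z := by
        have : (Nat.blt (acc.2.2.1 + g * pkM 1 1 Mm) Z) = true := c2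
        simpa [Nat.blt_eq] using this
      have e3 : acc.2.2.2 + g * pkM 1 1 Mp < Z := by
        have : (Nat.blt (acc.2.2.2 + g * pkM 1 1 Mp) Z) = true := hc
        simpa [Nat.blt_eq] using this
      rw [pkM_eq] at e2 e3
      have e1' : acc.1 + g * pk2 Z (Z ^ N) Mm = acc.2.1 + g * pk2 Z (Z ^ N) Mp := by
        rw [← pkM_eq, ← pkM_eq]
        exact e1
      set X := madd Ap (mscale g Mm) with hX
      set Y := madd Am (mscale g Mp) with hY
      have hXM : IsM N X := isM_madd h1 (isM_mscale g hMm)
      have hYM : IsM N Y := isM_madd h2 (isM_mscale g hMp)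
      have hXb : ∀ r' ∈ X, ∀ x ∈ r', x < Z := by
        intro r' hr' x hx
        refine (entry_le_total hr' hx).trans_lt ?_
        rw [hX, pk2_madd, pk2_mscale, h5]
        exact e2
      have hYb : ∀ r' ∈ Y, ∀ x ∈ r', x < Z := by
        intro r' hr' x hx
        refine (entry_le_total hr' hx).trans_lt ?_
        rw [hY, pk2_madd, pk2_mscale, h6]
        exact e3
      have hXY : X = Y := by
        refine pk2_inj hZ hN hXM hYM hXb hYb ?_
        rw [hX, hY, pk2_madd, pk2_madd, pk2_mscale, pk2_mscale, h3, h4]
        exact e1'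
      have hb := congrArg (fun A => bil A (P.map (Sy p)) (P.map (Sy r))) hXY
      simp only [hX, hY, bil_madd, bil_mscale] at hb
      rw [h7 p r hp hr]
      linarith

/-- the final check of an optional record -/
noncomputable def checkOpt (f : Acc4 → Bool) (c : Option Acc4) : Bool := Option.rec false f c

lemma of_checkOpt {f : Acc4 → Bool} {c : Option Acc4} (h : checkOpt f c = true) :
    ∃ acc, c = some acc ∧ f acc = true := by
  cases c with
  | none => exact absurd h (by simp [checkOpt])
  | some a => exact ⟨a, rfl, h⟩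

end Crest.Agent.PottsTree.CertQ4.Tab
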