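import Crest.Agent.Lib.PottsTree.Regular

/-!
# The Poisson Galton–Watson tree
-/

namespace Crest.Agent.PottsTree

open Finset Filter
open Crest.ProbabilityR.Broadcast
open ConeData

variable {q : ℕ}

/-! ### mixtures -/

section Mix

variable {α : Type*} {β : α → Type*}

/-- mixture of families -/
def mix (c : α → ℝ) (L : ∀ n, β n → Fin q → ℝ) : (Σ n, β n) → Fin q → ℝ :=
  fun s i => c s.1 * L s.1 s.2 i

lemma mass_smul (c : ℝ) (x : Fin q → ℝ) : mass (fun i => c * x i) = c * mass x := by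
  simp [mass, Finset.mul_sum]

lemma hom_smul {c : ℝ} (hc : 0 ≤ c) (f : (Fin q → ℝ) → ℝ) (x : Fin q → ℝ) :
    hom f (fun i => c * x i) = c * hom f x := by
  rcases hc.eq_or_lt with h | h
  · subst h
    simp [hom, mass]
  · by_cases hx : mass x = 0
    · simp [hom, mass_smul, hx]
    · have : post (fun i => c * x i) = post x := by
        funext i
        simp only [post, mass_smul]
        field_simp
      simp only [hom, mass_smul, this]
      ring

lemma mix_apply (c : α → ℝ) (L : ∀ n, β n → Fin q → ℝ) (n : α) (y : β n) (i : Fin q) :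
    mix c L ⟨n, y⟩ i = c n * L n y i := rfl

lemma tsum_mix {c : α → ℝ} {L : ∀ n, β n → Fin q → ℝ} (hL : ∀ n, IsLik (L n)) (n : α) (i : Fin q) :
    ∑' y, mix c L ⟨n, y⟩ i = c n := by
  simp only [mix_apply]
  rw [tsum_mul_left, (hL n).sum_one, mul_one]

lemma summable_mix_fiber {c : α → ℝ} {L : ∀ n, β n → Fin q → ℝ} (hL : ∀ n, IsLik (L n)) (n : α)
    (i : Fin q) : Summable fun y => mix c L ⟨n, y⟩ i := by
  simp only [mix_apply]
  exact ((hL n).summable i).mul_left _

lemma isLik_mix {c : α → ℝ} {L : ∀ n, β n → Fin q → ℝ} (hc : ∀ n, 0 ≤ c n)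
    (hs : Summable c) (h1 : ∑' n, c n = 1) (hL : ∀ n, IsLik (L n)) : IsLik (mix c L) := by
  have hnn : ∀ (s : Σ n, β n) (i : Fin q), 0 ≤ mix c L s i := fun s i =>
    mul_nonneg (hc _) ((hL _).nonneg _ _)
  have hsum : ∀ i, Summable fun s : (Σ n, β n) => mix c L s i := by
    intro i
    refine (summable_sigma_of_nonneg (f := fun s : (Σ n, β n) => mix c L s i) fun s => hnn s i).2
      ⟨fun n => summable_mix_fiber hL n i, ?_⟩
    simp only [tsum_mix hL]
    exact hs
  refine ⟨hnn, hsum, fun i => ?_⟩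
  rw [(hsum i).tsum_sigma' fun n => summable_mix_fiber hL n i]
  simp only [tsum_mix hL]
  exact h1

/-- The potential of a mixture. -/
lemma pot_mix {c : α → ℝ} {L : ∀ n, β n → Fin q → ℝ} (hc : ∀ n, 0 ≤ c n)
    (hs : Summable c) (h1 : ∑' n, c n = 1) (hL : ∀ n, IsLik (L n)) {f : (Fin q → ℝ) → ℝ}
    (hf : BddS f) : Pot f (mix c L) = ∑' n, c n * Pot f (L n) := by
  have hM := isLik_mix hc hs h1 hL
  simp only [Pot]
  rw [(hM.summable_hom hf).tsum_sigma' ?_, ← tsum_mul_left]
  · refine tsum_congr fun n => ?_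
    have : ∀ y, hom f (mix c L ⟨n, y⟩) = c n * hom f (L n y) := fun y =>
      hom_smul (hc n) f (L n y)
    simp only [this]
    rw [tsum_mul_left]
    ring
  · intro n
    have : ∀ y, hom f (mix c L ⟨n, y⟩) = c n * hom f (L n y) := fun y =>
      hom_smul (hc n) f (L n y)
    simp only [this]
    exact ((hL n).summable_hom hf).mul_left _

lemma symLik_mix {c : α → ℝ} {L : ∀ n, β n → Fin q → ℝ} (hc : ∀ n, 0 ≤ c n)
    (hs : Summable c) (h1 : ∑' n, c n = 1) (hL : ∀ n, IsLik (L n)) (hS : ∀ n, SymLik (L n)) :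
    SymLik (mix c L) := by
  intro π g hg
  rw [pot_mix hc hs h1 hL (BddS.comp_rel π hg), pot_mix hc hs h1 hL hg]
  refine tsum_congr fun n => ?_
  rw [hS n π g hg]

end Mix

/-! ### Poisson weights -/

/-- the Poisson weights -/
noncomputable def poi (d : ℝ) (n : ℕ) : ℝ := Real.exp (-d) * d ^ n / n.factorial

lemma poi_nonneg {d : ℝ} (hd : 0 ≤ d) (n : ℕ) : 0 ≤ poi d n := by
  unfold poi
  positivity

lemma hasSum_poi (d : ℝ) : HasSum (poi d) 1 := by
  have h := (NormedSpace.expSeries_div_hasSum_exp d).mul_left (Real.exp (-d))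
  have e : Real.exp (-d) * NormedSpace.exp d = 1 := by
    rw [← Real.exp_eq_exp_ℝ, ← Real.exp_add]
    simp
  rw [e] at h
  have e2 : poi d = fun i => Real.exp (-d) * (d ^ i / (i.factorial : ℝ)) := by
    funext n
    simp only [poi]
    ring
  rw [e2]
  exact h

lemma hasSum_mul_poi (d : ℝ) : HasSum (fun n : ℕ => (n : ℝ) * poi d n) d := by
  have h := (hasSum_poi d).mul_left d
  rw [mul_one] at h
  have h2 : HasSum (fun n : ℕ => (fun k : ℕ => (k : ℝ) * poi d k) (n + 1)) d := by
    have e : (fun n : ℕ => (fun k : ℕ => (k : ℝ) * poi d k) (n + 1)) = fun n => d * poi d n := by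
      funext n
      simp only [poi, Nat.factorial_succ]
      have : ((n : ℝ) + 1) ≠ 0 := by positivity
      have h3 : (n.factorial : ℝ) ≠ 0 := by positivity
      push_cast
      field_simp
      ring
    rw [e]
    exact h
  have := (hasSum_nat_add_iff (f := fun k : ℕ => (k : ℝ) * poi d k) 1).1 h2
  simpa using this

/-- The probability of at least two children. -/
noncomputable def kap (d : ℝ) : ℝ := 1 - poi d 0 - poi d 1

lemma kap_pos {d : ℝ} (hd : 0 < d) : 0 < kap d := by
  have h := Real.add_one_lt_exp (ne_of_gt hd)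
  have h2 : Real.exp (-d) * Real.exp d = 1 := by rw [← Real.exp_add]; simp
  have h3 := Real.exp_pos (-d)
  simp only [kap, poi]
  norm_num
  nlinarith

lemma hasSum_tail (d : ℝ) :
    HasSum (fun n : ℕ => poi d n * (if 2 ≤ n then 1 else 0)) (kap d) := by
  have h0 : HasSum (fun n : ℕ => if n = 0 then poi d 0 else 0) (poi d 0) := hasSum_ite_eq 0 _
  have h1 : HasSum (fun n : ℕ => if n = 1 then poi d 1 else 0) (poi d 1) := hasSum_ite_eq 1 _
  have h := ((hasSum_poi d).sub h0).sub h1
  have e : (fun n : ℕ => poi d n * (if 2 ≤ n then 1 else 0)) = fun n =>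
      poi d n - (if n = 0 then poi d 0 else 0) - (if n = 1 then poi d 1 else 0) := by
    funext n
    match n with
    | 0 => simp
    | 1 => simp
    | n + 2 => simp
  rw [e]
  exact h

/-! ### lists as tuples -/

/-- A Poisson number of independent children, as lists. -/
noncomputable def poisMix {Ω : Type*} (d : ℝ) (L : Ω → Fin q → ℝ) : List Ω → Fin q → ℝ :=
  fun o i => Real.exp (-d) * d ^ o.length / (o.length.factorial : ℝ) * (o.map fun ω => L ω i).prod

lemma poisMix_equiv {Ω : Type*} (d : ℝ) (L : Ω → Fin q → ℝ) (s : Σ n, Fin n → Ω) :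
    poisMix d L (List.equivSigmaTuple.symm s) = mix (poi d) (fun n => starPow L n) s := by
  obtain ⟨n, τ⟩ := s
  funext i
  simp only [List.equivSigmaTuple_symm_apply, poisMix, List.length_ofFn, mix, poi, starPow,
    List.map_ofFn, List.prod_ofFn, Function.comp]

/-- The family of the Poisson tree at depth `ℓ`. -/
noncomputable def gwL (q : ℕ) (lam d : ℝ) (ℓ : ℕ) : PObs q ℓ → Fin q → ℝ :=
  fun o i => gwLaw q lam d ℓ i o

lemma gwL_zero (lam d : ℝ) : gwL q lam d 0 = baseL q := by
  funext o i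
  simp [gwL, gwLaw, baseL]

lemma gwL_succ (lam d : ℝ) (ℓ : ℕ) :
    gwL q lam d (ℓ + 1) = poisMix d (contract lam (gwL q lam d ℓ)) := by
  funext o i
  simp [gwL, gwLaw, poisMix, contract, chan]

variable (C : ConeData q)

lemma good_poisMix (hq : q ≠ 0) {d : ℝ} (hd : 0 ≤ d) {Ω : Type*} {L : Ω → Fin q → ℝ}
    (h : Good C L) : Good C (poisMix d L) := by
  have hs := fun n => good_starPow C hq h n
  have hL := fun n => (hs n).lik
  have hsum := (hasSum_poi d).summable
  have h1 := (hasSum_poi d).tsum_eq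
  have hc := poi_nonneg hd
  refine ⟨IsLik.congr_equiv List.equivSigmaTuple.symm (poisMix_equiv d L)
      (isLik_mix hc hsum h1 hL),
    SymLik.congr_equiv List.equivSigmaTuple.symm (poisMix_equiv d L)
      (symLik_mix hc hsum h1 hL fun n => (hs n).sym), ?_⟩
  rw [pot_congr_equiv List.equivSigmaTuple.symm (poisMix_equiv d L),
    pot_mix hc hsum h1 hL C.bdd_Xi]
  exact tsum_nonneg fun n => mul_nonneg (hc n) (hs n).cone

lemma pot_A_poisMix_le (hq : q ≠ 0) {d : ℝ} (hd : 0 ≤ d) {Ω : Type*} {L : Ω → Fin q → ℝ}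
    (h : Good C L) :
    Pot (A q) (poisMix d L) ≤ d * Pot (A q) L - kap d * (2 * C.mu * (Pot (A q) L) ^ 3) := by
  have hs := fun n => good_starPow C hq h n
  have hL := fun n => (hs n).lik
  have hsum := (hasSum_poi d).summable
  have h1 := (hasSum_poi d).tsum_eq
  have hc := poi_nonneg hd
  rw [pot_congr_equiv List.equivSigmaTuple.symm (poisMix_equiv d L),
    pot_mix hc hsum h1 hL bddS_A]
  set x := Pot (A q) L
  have hR : HasSum (fun n : ℕ => ((n : ℝ) * poi d n) * x -
      (poi d n * (if 2 ≤ n then 1 else 0)) * (2 * C.mu * x ^ 3))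
      (d * x - kap d * (2 * C.mu * x ^ 3)) :=
    ((hasSum_mul_poi d).mul_right x).sub ((hasSum_tail d).mul_right _)
  have hS : Summable fun n => poi d n * Pot (A q) (starPow L n) := by
    refine Summable.of_norm_bounded (g := fun n => poi d n * q) (hsum.mul_right _) fun n => ?_
    rw [Real.norm_eq_abs, abs_mul, abs_of_nonneg (hc n)]
    refine mul_le_mul_of_nonneg_left ?_ (hc n)
    exact abs_pot_le hq (hL n) fun p hp => by
      rw [abs_of_nonneg (A_nonneg hp)]
      exact A_le hp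
  rw [← hR.tsum_eq]
  refine hS.tsum_le_tsum (fun n => ?_) hR.summable
  have := mul_le_mul_of_nonneg_left (pot_A_starPow_le C hq h n) (hc n)
  refine this.trans (le_of_eq ?_)
  split_ifs <;> ring

/-- MAIN THEOREM for the Poisson tree, `0 ≤ lam`. -/
theorem tendsto_gwAdvantage_of_cone (hq : q ≠ 0) (hmu : 0 < C.mu) (hv : ∀ a, 0 ≤ C.Xi (baseL q a))
    {d : ℝ} (hd : 0 < d) {lam : ℝ} (h0 : 0 ≤ lam) (h1 : lam ≤ 1) (hdl : d * lam ^ 2 ≤ 1)
    (hrad : ∀ p ∈ Sx q, lam ^ 3 * C.Xi p ≤ C.Xi (T q lam p)) :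
    Tendsto (gwAdvantage q lam d) atTop (nhds 0) := by
  have hc : ChanOK q lam := chanOK_of_nonneg h0 h1
  have hc0 : 0 ≤ lam ^ 3 := pow_nonneg h0 3
  have hgood : ∀ ℓ, Good C (gwL q lam d ℓ) := by
    intro ℓ
    induction ℓ with
    | zero =>
      rw [gwL_zero]
      exact good_baseL C hq hv
    | succ ℓ ih =>
      rw [gwL_succ]
      exact good_poisMix C hq hd.le (good_contract C hq hc hc0 hrad ih)
  have hlik : ∀ ℓ, IsLik (gwL q lam d ℓ) := fun ℓ => (hgood ℓ).lik
  have hstep : ∀ ℓ, Pot (A q) (gwL q lam d (ℓ + 1)) ≤ d * lam ^ 2 * Pot (A q) (gwL q lam d ℓ) -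
      kap d * (2 * C.mu * (lam ^ 2 * Pot (A q) (gwL q lam d ℓ)) ^ 3) := by
    intro ℓ
    have := pot_A_poisMix_le C hq hd.le (good_contract C hq hc hc0 hrad (hgood ℓ))
    rw [pot_A_contract hq lam (hlik ℓ)] at this
    rw [gwL_succ]
    refine this.trans (le_of_eq ?_)
    ring
  have hA : Tendsto (fun ℓ => Pot (A q) (gwL q lam d ℓ)) atTop (nhds 0) := by
    rcases h0.eq_or_lt with hl | hl
    · subst hl
      have hz' : ∀ ℓ, Pot (A q) (gwL q 0 d (ℓ + 1)) = 0 := fun ℓ => by
        refine le_antisymm ?_ (pot_A_nonneg (hlik _))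
        have := hstep ℓ
        simpa using this
      rw [← tendsto_add_atTop_iff_nat 1]
      simp only [hz']
      exact tendsto_const_nhds
    · have hk := kap_pos hd
      refine tendsto_zero_of_cubic_recursion (c := kap d * (2 * C.mu * lam ^ 6)) (by positivity)
        (fun ℓ => pot_A_nonneg (hlik ℓ)) fun ℓ => ?_
      have h3 := hstep ℓ
      have hm := pot_A_nonneg (hlik ℓ)
      set m := Pot (A q) (gwL q lam d ℓ)
      have h4 : d * lam ^ 2 * m ≤ m := by
        have := mul_le_mul_of_nonneg_right hdl hm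
        linarith
      have h5 : kap d * (2 * C.mu * (lam ^ 2 * m) ^ 3) = kap d * (2 * C.mu * lam ^ 6) * m ^ 3 := by
        ring
      linarith
  have := tendsto_pot_tv_of_tendsto_A (α := fun ℓ => PObs q ℓ)
    (L := fun ℓ => gwL q lam d ℓ) hq hlik hA
  refine this.congr fun ℓ => ?_
  rw [pot_tv_eq hq (hlik ℓ)]
  rfl

end Crest.Agent.PottsTree
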