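import Crest.Agent.Lib.PottsTree.Mono
import Crest.Agent.Lib.PottsTree.Poisson

/-!
# Comparison of experiments on regular and Poisson trees

Countable Jensen, monotonicity of the star powers, levels lose information, and monotonicity in the
number of children (resp. the Poisson mean) and in `|λ|`.
-/

namespace Crest.Agent.PottsTree.Cmp

open Finset Filter
open Crest.ProbabilityR.Broadcast
open ConeData

variable {q : ℕ}

/-- The uniform point is the mean of the posteriors; Jensen for bounded convex functions and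
countable families: the tail of the mixture carries small mass, and `f` is bounded. -/
theorem le_pot_of_convex' {Ω : Type*} {L : Ω → Fin q → ℝ} (hq : q ≠ 0) (hL : IsLik L)
    {f : (Fin q → ℝ) → ℝ} (hf : BddS f) (hfc : ConvexOn ℝ (Sx q) f) :
    f (fun _ => 1 / (q : ℝ)) ≤ Pot f L := by
  classical
  obtain ⟨C, hC⟩ := id hf
  have hq' : (q : ℝ) ≠ 0 := by exact_mod_cast hq
  have hq0 : (0 : ℝ) < q := lt_of_le_of_ne (by positivity) (Ne.symm hq')
  set u : Fin q → ℝ := fun _ => 1 / (q : ℝ) with hu_def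
  have hu : u ∈ Sx q := by
    refine ⟨fun i => by simp only [hu_def]; positivity, ?_⟩
    simp [hu_def]
    field_simp
  set μ : Ω → ℝ := fun ω => (q : ℝ)⁻¹ * mass (L ω) with hμ_def
  have hμ0 : ∀ ω, 0 ≤ μ ω := fun ω => mul_nonneg (by positivity) (mass_nonneg (hL.nonneg ω))
  have hμsum : HasSum μ 1 := by
    have h := (hL.summable_mass.hasSum).mul_left ((q : ℝ)⁻¹)
    rw [hL.tsum_mass] at h
    rwa [inv_mul_cancel₀ hq'] at h
  set P : Ω → Fin q → ℝ := fun ω => if mass (L ω) = 0 then u else post (L ω) with hP_def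
  have hP : ∀ ω, P ω ∈ Sx q := by
    intro ω
    simp only [hP_def]
    split_ifs with h
    · exact hu
    · exact post_mem (hL.nonneg ω) h
  have hμP : ∀ ω i, μ ω * P ω i = (q : ℝ)⁻¹ * L ω i := by
    intro ω i
    simp only [hμ_def, hP_def]
    split_ifs with h
    · rw [h, eq_zero_of_mass_eq_zero (hL.nonneg ω) h i]
      simp
    · simp only [post]
      field_simp
  have hμf : ∀ ω, μ ω * f (P ω) = (q : ℝ)⁻¹ * hom f (L ω) := by
    intro ω
    simp only [hμ_def, hP_def, hom]
    split_ifs with h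
    · simp [h]
    · ring
  have key : ∀ s : Finset Ω, f u ≤ ∑ ω ∈ s, (q : ℝ)⁻¹ * hom f (L ω) +
      (1 - ∑ ω ∈ s, μ ω) * C := by
    intro s
    set R := 1 - ∑ ω ∈ s, μ ω with hR_def
    have hR : 0 ≤ R := by
      have := sum_le_hasSum s (fun ω _ => hμ0 ω) hμsum
      simp only [hR_def]
      linarith
    have hcoord : ∀ i, ∑ ω ∈ s, L ω i ≤ 1 := by
      intro i
      have := (hL.summable i).sum_le_tsum s (fun ω _ => hL.nonneg ω i)
      rwa [hL.sum_one i] at this
    set res : Fin q → ℝ := fun i => (q : ℝ)⁻¹ * (1 - ∑ ω ∈ s, L ω i) with hres_def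
    have hres0 : ∀ i, 0 ≤ res i := fun i =>
      mul_nonneg (by positivity) (by linarith [hcoord i])
    have hressum : ∑ i, res i = R := by
      simp only [hres_def, hR_def, hμ_def]
      rw [← Finset.mul_sum, Finset.sum_sub_distrib]
      simp only [Finset.sum_const, Finset.card_univ, Fintype.card_fin, nsmul_eq_mul, mul_one]
      rw [Finset.sum_comm]
      simp only [mass]
      rw [mul_sub, ← Finset.mul_sum, inv_mul_cancel₀ hq']
    set z : Fin q → ℝ := if R = 0 then u else fun i => res i / R with hz_def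
    have hz : z ∈ Sx q := by
      simp only [hz_def]
      split_ifs with h
      · exact hu
      · refine ⟨fun i => div_nonneg (hres0 i) hR, ?_⟩
        rw [← Finset.sum_div, hressum]
        exact div_self h
    have hRz : ∀ i, R * z i = res i := by
      intro i
      simp only [hz_def]
      split_ifs with h
      · have hzero : res i = 0 := by
          have h2 : ∑ i, res i = 0 := by rw [hressum, h]
          exact (Finset.sum_eq_zero_iff_of_nonneg fun j _ => hres0 j).1 h2 i (Finset.mem_univ i)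
        rw [h, hzero]
        simp
      · field_simp
    have hJ := hfc.map_sum_le (t := s.insertNone)
      (w := fun o => match o with | none => R | some ω => μ ω)
      (p := fun o => match o with | none => z | some ω => P ω)
      (by
        intro o _
        cases o with
        | none => exact hR
        | some ω => exact hμ0 ω)
      (by
        rw [Finset.sum_insertNone]
        simp only [hR_def]
        ring)
      (by
        intro o _
        cases o with
        | none => exact hz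
        | some ω => exact hP ω)
    rw [Finset.sum_insertNone, Finset.sum_insertNone] at hJ
    simp only [smul_eq_mul] at hJ
    have hmean : R • z + ∑ ω ∈ s, μ ω • P ω = u := by
      funext i
      simp only [Pi.add_apply, Pi.smul_apply, smul_eq_mul, Finset.sum_apply, hμP, hRz]
      simp only [hres_def, hu_def]
      rw [← Finset.mul_sum]
      field_simp
      ring
    rw [hmean] at hJ
    have hzC : f z ≤ C := (abs_le.1 (hC z hz)).2
    have e : ∑ ω ∈ s, μ ω * f (P ω) = ∑ ω ∈ s, (q : ℝ)⁻¹ * hom f (L ω) :=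
      Finset.sum_congr rfl fun ω _ => hμf ω
    rw [e] at hJ
    have := mul_le_mul_of_nonneg_left hzC hR
    linarith
  have hlim : Tendsto (fun s : Finset Ω => ∑ ω ∈ s, (q : ℝ)⁻¹ * hom f (L ω) +
      (1 - ∑ ω ∈ s, μ ω) * C) atTop (nhds ((q : ℝ)⁻¹ * ∑' ω, hom f (L ω) + (1 - 1) * C)) := by
    refine Tendsto.add ?_ ?_
    · have h := ((hL.summable_hom hf).hasSum).mul_left ((q : ℝ)⁻¹)
      exact h
    · refine Tendsto.mul_const _ (Tendsto.sub tendsto_const_nhds ?_)
      exact hμsum
  have h := ge_of_tendsto' hlim key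
  simp only [sub_self, zero_mul, add_zero] at h
  exact h

section StarPow

variable {Ω Ω' : Type*}

lemma isLik_starPow {L : Ω → Fin q → ℝ} (hL : IsLik L) (k : ℕ) : IsLik (starPow L k) := by
  induction k with
  | zero => exact isLik_starPow_zero L
  | succ k ih =>
    exact IsLik.congr_equiv (Fin.consEquiv (fun _ => Ω)) (starPow_cons L k) (isLik_star hL ih)

lemma symLik_starPow {L : Ω → Fin q → ℝ} (hq : q ≠ 0) (hL : IsLik L) (hS : SymLik L) (k : ℕ) :
    SymLik (starPow L k) := by
  induction k with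
  | zero => exact symLik_starPow_zero L hq
  | succ k ih =>
    exact SymLik.congr_equiv (Fin.consEquiv (fun _ => Ω)) (starPow_cons L k)
      (symLik_star hq hL (isLik_starPow hL k) hS ih)

lemma pot_congr_starPow_succ {L : Ω → Fin q → ℝ} (k : ℕ) (f : (Fin q → ℝ) → ℝ) :
    Pot f (starPow L (k + 1)) = Pot f (star L (starPow L k)) :=
  pot_congr_equiv (Fin.consEquiv (fun _ => Ω)) (starPow_cons L k) f

/-- Adding an independent observation gives more information. -/
lemma dom_self_star {L : Ω → Fin q → ℝ} {M : Ω' → Fin q → ℝ} (hq : q ≠ 0) (hL : IsLik L)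
    (hM : IsLik M) : Dom M (star L M) := by
  have h0 : Dom (starPow L 0) L := by
    intro f hf hfc
    rw [pot_starPow_zero L hq]
    exact le_pot_of_convex' hq hL hf hfc
  have h1 := Dom.star_left hq hM hL (isLik_starPow_zero L) h0
  intro f hf hfc
  have e : ∀ w : (Fin 0 → Ω) × Ω', M (Equiv.uniqueProd Ω' (Fin 0 → Ω) w) =
      star (starPow L 0) M w := by
    intro w
    funext i
    simp [star, starPow]
  have e2 := pot_congr_equiv (Equiv.uniqueProd Ω' (Fin 0 → Ω)) e f
  rw [e2]
  exact h1 f hf hfc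

lemma dom_starPow_succ {L : Ω → Fin q → ℝ} (hq : q ≠ 0) (hL : IsLik L) (k : ℕ) :
    Dom (starPow L k) (starPow L (k + 1)) :=
  Dom.of_equiv_right (Fin.consEquiv (fun _ => Ω)) (starPow_cons L k)
    (dom_self_star hq hL (isLik_starPow hL k))

lemma dom_starPow_mono {L : Ω → Fin q → ℝ} (hq : q ≠ 0) (hL : IsLik L) {k m : ℕ} (h : k ≤ m) :
    Dom (starPow L k) (starPow L m) := by
  induction m, h using Nat.le_induction with
  | base => exact Dom.refl _
  | succ m _ ih => exact ih.trans (dom_starPow_succ hq hL m)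

lemma dom_starPow_congr {L : Ω → Fin q → ℝ} {L' : Ω' → Fin q → ℝ} (hq : q ≠ 0) (hL : IsLik L)
    (hL' : IsLik L') (h : Dom L' L) (k : ℕ) : Dom (starPow L' k) (starPow L k) := by
  induction k with
  | zero =>
    intro f _ _
    rw [pot_starPow_zero L hq, pot_starPow_zero L' hq]
  | succ k ih =>
    intro f hf hfc
    rw [pot_congr_starPow_succ, pot_congr_starPow_succ]
    exact Dom.star hq hL (isLik_starPow hL k) hL' (isLik_starPow hL' k) h ih f hf hfc

end StarPow

/-! ### channels compose -/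

lemma channel_mul (hq : q ≠ 0) (c lam : ℝ) (i j : Fin q) :
    channel q (c * lam) i j = c * channel q lam i j + (1 - c) / q := by
  have hq' : (q : ℝ) ≠ 0 := by exact_mod_cast hq
  simp only [channel]
  split_ifs
  · field_simp
    ring
  · field_simp
    ring

lemma chanOK_mul (hq : q ≠ 0) {c lam : ℝ} (h0 : 0 ≤ c) (h1 : c ≤ 1) (hc : ChanOK q lam) :
    ChanOK q (c * lam) := by
  intro i j
  rw [channel_mul hq]
  have := mul_nonneg h0 (hc i j)
  have h2 : 0 ≤ (1 - c) / (q : ℝ) := div_nonneg (by linarith) (by positivity)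
  linarith

lemma chan_mul (hq : q ≠ 0) (c lam : ℝ) (x : Fin q → ℝ) :
    chan q (c * lam) x = chan q c (chan q lam x) := by
  have hq' : (q : ℝ) ≠ 0 := by exact_mod_cast hq
  funext i
  rw [chan_eq, chan_eq, chan_eq, mass_chan hq]
  field_simp
  ring

lemma contract_mul (hq : q ≠ 0) {Ω : Type*} (c lam : ℝ) (L : Ω → Fin q → ℝ) :
    contract (c * lam) L = contract c (contract lam L) := by
  funext ω
  exact chan_mul hq c lam (L ω)

/-- A contraction with a parameter in `[0,1]` loses information (any observation space). -/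
lemma dom_contract_self' {Ω : Type*} {L : Ω → Fin q → ℝ} (hq : q ≠ 0) (hL : IsLik L)
    {t : ℝ} (h0 : 0 ≤ t) (h1 : t ≤ 1) : Dom (contract t L) L := by
  intro f hf hfc
  rw [pot_contract hq]
  have hq' : (q : ℝ) ≠ 0 := by exact_mod_cast hq
  have hu : (fun _ => 1 / (q : ℝ)) ∈ Sx q := by
    refine ⟨fun i => by positivity, ?_⟩
    simp
    field_simp
  have hle : ∀ p ∈ Sx q, f (T q t p) ≤ t * f p + (1 - t) * f (fun _ => 1 / (q : ℝ)) := by
    intro p hp
    have := hfc.2 hp hu h0 (by linarith : 0 ≤ 1 - t) (by ring)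
    simp only [smul_eq_mul] at this
    have e : T q t p = t • p + (1 - t) • (fun _ => 1 / (q : ℝ)) := by
      funext i
      simp only [T, Pi.add_apply, Pi.smul_apply, smul_eq_mul]
      ring
    rw [e]
    exact this
  have hb : BddS (fun p : Fin q → ℝ => t * f p + (1 - t) * f (fun _ => 1 / (q : ℝ))) :=
    (hf.const_mul t).add (BddS.const _)
  have hchan : ChanOK q t := chanOK_of_nonneg h0 h1
  calc Pot (fun p => f (T q t p)) L
      ≤ Pot (fun p : Fin q → ℝ => t * f p + (1 - t) * f (fun _ => 1 / (q : ℝ))) L :=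
        pot_mono hL (BddS.comp_T hq hchan hf) hb hle
    _ = t * Pot f L + (1 - t) * f (fun _ => 1 / (q : ℝ)) := by
        rw [pot_add hL (hf.const_mul t) (BddS.const _), pot_const_mul, pot_const hq hL]
    _ ≤ t * Pot f L + (1 - t) * Pot f L := by
        have := le_pot_of_convex' hq hL hf hfc
        have h2 : 0 ≤ 1 - t := by linarith
        nlinarith
    _ = Pot f L := by ring

/-- `contract` with `c * lam` against `contract` with `lam`. -/
lemma dom_contract_mul {Ω Ω' : Type*} {L : Ω → Fin q → ℝ} {L' : Ω' → Fin q → ℝ} (hq : q ≠ 0)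
    {c lam : ℝ} (h0 : 0 ≤ c) (h1 : c ≤ 1) (hc : ChanOK q lam) (hL' : IsLik L')
    (h : Dom L' L) : Dom (contract (c * lam) L') (contract lam L) := by
  rw [contract_mul hq]
  exact (dom_contract_self' hq (isLik_contract hq hc hL') h0 h1).trans (Dom.contract hq hc h)

/-! ### the regular tree -/

section Regular

lemma isLik_regL (hq : q ≠ 0) {lam : ℝ} (hc : ChanOK q lam) (b ℓ : ℕ) :
    IsLik (regL q b lam ℓ) := by
  induction ℓ with
  | zero => exact IsLik.congr_equiv (regEquiv0 q b) (regL_zero b lam) isLik_baseL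
  | succ ℓ ih =>
    exact IsLik.congr_equiv (regEquivS q b ℓ) (regL_succ b ℓ lam)
      (isLik_starPow (isLik_contract hq hc ih) b)

lemma symLik_regL (hq : q ≠ 0) {lam : ℝ} (hc : ChanOK q lam) (b ℓ : ℕ) :
    SymLik (regL q b lam ℓ) := by
  induction ℓ with
  | zero => exact SymLik.congr_equiv (regEquiv0 q b) (regL_zero b lam) symLik_baseL
  | succ ℓ ih =>
    exact SymLik.congr_equiv (regEquivS q b ℓ) (regL_succ b ℓ lam)
      (symLik_starPow hq (isLik_contract hq hc (isLik_regL hq hc b ℓ))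
        (symLik_contract hq hc ih) b)

lemma pot_regL_zero (b : ℕ) (lam : ℝ) (f : (Fin q → ℝ) → ℝ) :
    Pot f (regL q b lam 0) = Pot f (baseL q) :=
  pot_congr_equiv (regEquiv0 q b) (regL_zero b lam) f

lemma pot_regL_succ (b ℓ : ℕ) (lam : ℝ) (f : (Fin q → ℝ) → ℝ) :
    Pot f (regL q b lam (ℓ + 1)) = Pot f (starPow (contract lam (regL q b lam ℓ)) b) :=
  pot_congr_equiv (regEquivS q b ℓ) (regL_succ b ℓ lam) f

/-- The levels lose information. -/
theorem dom_regL_succ (hq : q ≠ 0) {lam : ℝ} (hc : ChanOK q lam) (b ℓ : ℕ) :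
    Dom (regL q b lam (ℓ + 1)) (regL q b lam ℓ) := by
  induction ℓ with
  | zero =>
    intro f hf hfc
    rw [pot_regL_zero]
    exact dom_baseL (isLik_regL hq hc b 1) f hf hfc
  | succ ℓ ih =>
    intro f hf hfc
    rw [pot_regL_succ, pot_regL_succ]
    exact dom_starPow_congr hq (isLik_contract hq hc (isLik_regL hq hc b ℓ))
      (isLik_contract hq hc (isLik_regL hq hc b (ℓ + 1))) (Dom.contract hq hc ih) b f hf hfc

theorem dom_regL_le (hq : q ≠ 0) {lam : ℝ} (hc : ChanOK q lam) (b : ℕ) {ℓ ℓ' : ℕ} (h : ℓ ≤ ℓ') :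
    Dom (regL q b lam ℓ') (regL q b lam ℓ) := by
  induction ℓ', h using Nat.le_induction with
  | base => exact Dom.refl _
  | succ m _ ih => exact (dom_regL_succ hq hc b m).trans ih

/-- Monotonicity in the number of children and in `|λ|`. -/
theorem dom_regL_compare (hq : q ≠ 0) {lam c : ℝ} (hc : ChanOK q lam) (h0 : 0 ≤ c) (h1 : c ≤ 1)
    {b' b : ℕ} (hb : b' ≤ b) (ℓ : ℕ) : Dom (regL q b' (c * lam) ℓ) (regL q b lam ℓ) := by
  induction ℓ with
  | zero =>
    intro f _ _
    rw [pot_regL_zero, pot_regL_zero]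
  | succ ℓ ih =>
    intro f hf hfc
    rw [pot_regL_succ, pot_regL_succ]
    have hc' := chanOK_mul hq h0 h1 hc
    have hL := isLik_contract hq hc (isLik_regL hq hc b ℓ)
    have hL' := isLik_contract hq hc' (isLik_regL hq hc' b' ℓ)
    have h2 : Dom (contract (c * lam) (regL q b' (c * lam) ℓ)) (contract lam (regL q b lam ℓ)) :=
      dom_contract_mul hq h0 h1 hc (isLik_regL hq hc' b' ℓ) ih
    exact ((dom_starPow_congr hq hL hL' h2 b').trans (dom_starPow_mono hq hL hb)) f hf hfc

/-- Non-reconstruction transfers down. -/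
theorem tendsto_advantage_compare (hq : q ≠ 0) {lam c : ℝ} (hc : ChanOK q lam) (h0 : 0 ≤ c)
    (h1 : c ≤ 1) {b' b : ℕ} (hb : b' ≤ b) (h : Tendsto (advantage q b lam) atTop (nhds 0)) :
    Tendsto (advantage q b' (c * lam)) atTop (nhds 0) := by
  have hc' := chanOK_mul hq h0 h1 hc
  refine squeeze_zero (fun ℓ => ?_) (fun ℓ => ?_) h
  · rw [advantage_eq hq b' _ ℓ (isLik_regL hq hc' b' ℓ)]
    exact pot_nonneg (isLik_regL hq hc' b' ℓ) (bddS_tv hq) fun p _ => tv_nonneg p
  · rw [advantage_eq hq b' _ ℓ (isLik_regL hq hc' b' ℓ), advantage_eq hq b _ ℓ (isLik_regL hq hc b ℓ)]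
    exact dom_regL_compare hq hc h0 h1 hb ℓ _ (bddS_tv hq) convexOn_tv

end Regular

/-! ### the Poisson tree -/

section Poisson

lemma poi_add (a b : ℝ) (n : ℕ) :
    poi (a + b) n = ∑ kl ∈ Finset.HasAntidiagonal.antidiagonal n, poi a kl.1 * poi b kl.2 := by
  have hn : ((n.factorial : ℕ) : ℝ) ≠ 0 := by positivity
  simp only [poi]
  rw [(Commute.all a b).add_pow' n, Finset.mul_sum, Finset.sum_div]
  refine Finset.sum_congr rfl fun kl hkl => ?_
  obtain ⟨k, l⟩ := kl
  have hkl' : k + l = n := Finset.HasAntidiagonal.mem_antidiagonal.1 hkl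
  subst hkl'
  have hk : ((k.factorial : ℕ) : ℝ) ≠ 0 := by positivity
  have hl : ((l.factorial : ℕ) : ℝ) ≠ 0 := by positivity
  have hch : (((k + l).choose k : ℕ) : ℝ) * (k.factorial : ℝ) * (l.factorial : ℝ) =
      ((k + l).factorial : ℝ) := by
    have := Nat.add_choose_mul_factorial_mul_factorial k l
    rw [← Nat.choose_symm_add] at this
    exact_mod_cast this
  have hc0 : (((k + l).choose k : ℕ) : ℝ) ≠ 0 := by
    have := Nat.choose_pos (Nat.le_add_right k l)
    positivity
  simp only [nsmul_eq_mul, Real.exp_add, neg_add]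
  rw [← hch]
  field_simp

lemma summable_poi_prod {a b : ℝ} (ha : 0 ≤ a) (hb : 0 ≤ b) :
    Summable fun x : ℕ × ℕ => poi a x.1 * poi b x.2 :=
  (hasSum_poi a).summable.mul_of_nonneg (hasSum_poi b).summable (poi_nonneg ha) (poi_nonneg hb)

/-- A bounded monotone function has larger mean under a larger Poisson parameter. -/
lemma tsum_poi_mono {g : ℕ → ℝ} {C : ℝ} (hg : Monotone g) (hC : ∀ n, |g n| ≤ C) {a b : ℝ}
    (ha : 0 ≤ a) (hb : 0 ≤ b) :
    ∑' n, poi a n * g n ≤ ∑' n, poi (a + b) n * g n := by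
  have hab : 0 ≤ a + b := add_nonneg ha hb
  have hp := summable_poi_prod ha hb
  have hbdd : ∀ (h : ℕ × ℕ → ℝ), (∀ x, |h x| ≤ C) →
      Summable fun x : ℕ × ℕ => poi a x.1 * poi b x.2 * h x := by
    intro h hh
    refine Summable.of_norm_bounded (g := fun x : ℕ × ℕ => poi a x.1 * poi b x.2 * C)
      (hp.mul_right C) fun x => ?_
    rw [Real.norm_eq_abs, abs_mul,
      abs_of_nonneg (mul_nonneg (poi_nonneg ha x.1) (poi_nonneg hb x.2))]
    exact mul_le_mul_of_nonneg_left (hh x) (mul_nonneg (poi_nonneg ha x.1) (poi_nonneg hb x.2))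
  have h1 := hbdd (fun x => g x.1) (fun x => hC x.1)
  have h2 := hbdd (fun x => g (x.1 + x.2)) (fun x => hC _)
  have hle : ∑' x : ℕ × ℕ, poi a x.1 * poi b x.2 * g x.1 ≤
      ∑' x : ℕ × ℕ, poi a x.1 * poi b x.2 * g (x.1 + x.2) :=
    h1.tsum_le_tsum (fun x => mul_le_mul_of_nonneg_left (hg (Nat.le_add_right _ _))
      (mul_nonneg (poi_nonneg ha x.1) (poi_nonneg hb x.2))) h2
  have e1 : ∑' x : ℕ × ℕ, poi a x.1 * poi b x.2 * g x.1 = ∑' n, poi a n * g n := by
    rw [h1.tsum_prod' ?_]
    · refine tsum_congr fun i => ?_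
      have : ∀ j, poi a i * poi b j * g i = (poi a i * g i) * poi b j := fun j => by ring
      simp only [this]
      rw [tsum_mul_left, (hasSum_poi b).tsum_eq, mul_one]
    · intro i
      have : ∀ j, poi a i * poi b j * g i = (poi a i * g i) * poi b j := fun j => by ring
      simp only [this]
      exact (hasSum_poi b).summable.mul_left _
  have e2 : ∑' x : ℕ × ℕ, poi a x.1 * poi b x.2 * g (x.1 + x.2) = ∑' n, poi (a + b) n * g n := by
    have hσ : Summable (fun c : (Σ n : ℕ, Finset.HasAntidiagonal.antidiagonal n) =>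
        poi a (Finset.HasAntidiagonal.sigmaAntidiagonalEquivProd c).1 *
        poi b (Finset.HasAntidiagonal.sigmaAntidiagonalEquivProd c).2 *
        g ((Finset.HasAntidiagonal.sigmaAntidiagonalEquivProd c).1 +
          (Finset.HasAntidiagonal.sigmaAntidiagonalEquivProd c).2)) :=
      Finset.HasAntidiagonal.sigmaAntidiagonalEquivProd.summable_iff.2 h2
    rw [← Finset.HasAntidiagonal.sigmaAntidiagonalEquivProd.tsum_eq, hσ.tsum_sigma' ?_]
    · refine tsum_congr fun n => ?_
      rw [tsum_fintype, poi_add, Finset.sum_mul]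
      rw [← Finset.sum_coe_sort (Finset.HasAntidiagonal.antidiagonal n)]
      refine Finset.sum_congr rfl fun x _ => ?_
      have hx : x.1.1 + x.1.2 = n := Finset.HasAntidiagonal.mem_antidiagonal.1 x.2
      simp only [Finset.HasAntidiagonal.sigmaAntidiagonalEquivProd_apply]
      rw [hx]
    · intro n
      exact (hasSum_fintype _).summable
  rw [e1, e2] at hle
  exact hle

variable {Ω Ω' : Type*}

lemma isLik_poisMix {d : ℝ} (hd : 0 ≤ d) {L : Ω → Fin q → ℝ} (hL : IsLik L) :
    IsLik (poisMix d L) :=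
  IsLik.congr_equiv List.equivSigmaTuple.symm (poisMix_equiv d L)
    (isLik_mix (poi_nonneg hd) (hasSum_poi d).summable (hasSum_poi d).tsum_eq
      fun n => isLik_starPow hL n)

lemma symLik_poisMix (hq : q ≠ 0) {d : ℝ} (hd : 0 ≤ d) {L : Ω → Fin q → ℝ} (hL : IsLik L)
    (hS : SymLik L) : SymLik (poisMix d L) :=
  SymLik.congr_equiv List.equivSigmaTuple.symm (poisMix_equiv d L)
    (symLik_mix (poi_nonneg hd) (hasSum_poi d).summable (hasSum_poi d).tsum_eq
      (fun n => isLik_starPow hL n) fun n => symLik_starPow hq hL hS n)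

lemma pot_poisMix {d : ℝ} (hd : 0 ≤ d) {L : Ω → Fin q → ℝ} (hL : IsLik L)
    {f : (Fin q → ℝ) → ℝ} (hf : BddS f) :
    Pot f (poisMix d L) = ∑' n, poi d n * Pot f (starPow L n) := by
  rw [pot_congr_equiv List.equivSigmaTuple.symm (poisMix_equiv d L),
    pot_mix (poi_nonneg hd) (hasSum_poi d).summable (hasSum_poi d).tsum_eq
      (fun n => isLik_starPow hL n) hf]

lemma summable_poi_pot (hq : q ≠ 0) {d : ℝ} (hd : 0 ≤ d) {L : Ω → Fin q → ℝ} (hL : IsLik L)
    {f : (Fin q → ℝ) → ℝ} (hf : BddS f) :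
    Summable fun n => poi d n * Pot f (starPow L n) := by
  obtain ⟨C, hC⟩ := hf
  refine Summable.of_norm_bounded (g := fun n => poi d n * C) ((hasSum_poi d).summable.mul_right _)
    fun n => ?_
  rw [Real.norm_eq_abs, abs_mul, abs_of_nonneg (poi_nonneg hd n)]
  exact mul_le_mul_of_nonneg_left (abs_pot_le hq (isLik_starPow hL n) hC) (poi_nonneg hd n)

lemma dom_poisMix_congr (hq : q ≠ 0) {d : ℝ} (hd : 0 ≤ d) {L : Ω → Fin q → ℝ}
    {L' : Ω' → Fin q → ℝ} (hL : IsLik L) (hL' : IsLik L') (h : Dom L' L) :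
    Dom (poisMix d L') (poisMix d L) := by
  intro f hf hfc
  rw [pot_poisMix hd hL hf, pot_poisMix hd hL' hf]
  exact (summable_poi_pot hq hd hL' hf).tsum_le_tsum
    (fun n => mul_le_mul_of_nonneg_left (dom_starPow_congr hq hL hL' h n f hf hfc)
      (poi_nonneg hd n)) (summable_poi_pot hq hd hL hf)

lemma dom_poisMix_param (hq : q ≠ 0) {d' d : ℝ} (hd' : 0 ≤ d') (hdd : d' ≤ d) {L : Ω → Fin q → ℝ}
    (hL : IsLik L) : Dom (poisMix d' L) (poisMix d L) := by
  intro f hf hfc
  have hd : 0 ≤ d := hd'.trans hdd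
  obtain ⟨C, hC⟩ := id hf
  rw [pot_poisMix hd' hL hf, pot_poisMix hd hL hf]
  have hmono : Monotone fun n => Pot f (starPow L n) :=
    monotone_nat_of_le_succ fun n => dom_starPow_succ hq hL n f hf hfc
  have := tsum_poi_mono (g := fun n => Pot f (starPow L n)) (C := C) hmono
    (fun n => abs_pot_le hq (isLik_starPow hL n) hC) hd' (sub_nonneg.2 hdd)
  simpa using this

lemma isLik_gwL (hq : q ≠ 0) {lam d : ℝ} (hc : ChanOK q lam) (hd : 0 ≤ d) (ℓ : ℕ) :
    IsLik (gwL q lam d ℓ) := by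
  induction ℓ with
  | zero =>
    rw [gwL_zero]
    exact isLik_baseL
  | succ ℓ ih =>
    rw [gwL_succ]
    exact isLik_poisMix hd (isLik_contract hq hc ih)

lemma symLik_gwL (hq : q ≠ 0) {lam d : ℝ} (hc : ChanOK q lam) (hd : 0 ≤ d) (ℓ : ℕ) :
    SymLik (gwL q lam d ℓ) := by
  induction ℓ with
  | zero =>
    rw [gwL_zero]
    exact symLik_baseL
  | succ ℓ ih =>
    rw [gwL_succ]
    exact symLik_poisMix hq hd (isLik_contract hq hc (isLik_gwL hq hc hd ℓ))
      (symLik_contract hq hc ih)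

/-- The levels lose information. -/
theorem dom_gwL_succ (hq : q ≠ 0) {lam d : ℝ} (hc : ChanOK q lam) (hd : 0 ≤ d) (ℓ : ℕ) :
    Dom (gwL q lam d (ℓ + 1)) (gwL q lam d ℓ) := by
  induction ℓ with
  | zero =>
    rw [gwL_zero]
    exact dom_baseL (isLik_gwL hq hc hd 1)
  | succ ℓ ih =>
    rw [gwL_succ, gwL_succ lam d ℓ]
    exact dom_poisMix_congr hq hd (isLik_contract hq hc (isLik_gwL hq hc hd ℓ))
      (isLik_contract hq hc (isLik_gwL hq hc hd (ℓ + 1))) (Dom.contract hq hc ih)

theorem dom_gwL_le (hq : q ≠ 0) {lam d : ℝ} (hc : ChanOK q lam) (hd : 0 ≤ d) {ℓ ℓ' : ℕ}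
    (h : ℓ ≤ ℓ') : Dom (gwL q lam d ℓ') (gwL q lam d ℓ) := by
  induction ℓ', h using Nat.le_induction with
  | base => exact Dom.refl _
  | succ m _ ih => exact (dom_gwL_succ hq hc hd m).trans ih

/-- Monotonicity in the Poisson mean and in `|λ|`. -/
theorem dom_gwL_compare (hq : q ≠ 0) {lam c : ℝ} (hc : ChanOK q lam) (h0 : 0 ≤ c) (h1 : c ≤ 1)
    {d' d : ℝ} (hd' : 0 ≤ d') (hdd : d' ≤ d) (ℓ : ℕ) :
    Dom (gwL q (c * lam) d' ℓ) (gwL q lam d ℓ) := by
  have hd : 0 ≤ d := hd'.trans hdd
  have hc' := chanOK_mul hq h0 h1 hc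
  induction ℓ with
  | zero =>
    rw [gwL_zero, gwL_zero]
    exact Dom.refl _
  | succ ℓ ih =>
    rw [gwL_succ, gwL_succ]
    have hL := isLik_contract hq hc (isLik_gwL hq hc hd ℓ)
    have hL' := isLik_contract hq hc' (isLik_gwL hq hc' hd' ℓ)
    have h2 : Dom (contract (c * lam) (gwL q (c * lam) d' ℓ)) (contract lam (gwL q lam d ℓ)) :=
      dom_contract_mul hq h0 h1 hc (isLik_gwL hq hc' hd' ℓ) ih
    exact (dom_poisMix_congr hq hd' hL hL' h2).trans (dom_poisMix_param hq hd' hdd hL)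

lemma gwAdvantage_eq (hq : q ≠ 0) {lam d : ℝ} (hc : ChanOK q lam) (hd : 0 ≤ d) (ℓ : ℕ) :
    gwAdvantage q lam d ℓ = Pot (tv q) (gwL q lam d ℓ) := by
  rw [pot_tv_eq hq (isLik_gwL hq hc hd ℓ)]
  rfl

/-- Non-reconstruction transfers down. -/
theorem tendsto_gwAdvantage_compare (hq : q ≠ 0) {lam c : ℝ} (hc : ChanOK q lam) (h0 : 0 ≤ c)
    (h1 : c ≤ 1) {d' d : ℝ} (hd' : 0 ≤ d') (hdd : d' ≤ d)
    (h : Tendsto (gwAdvantage q lam d) atTop (nhds 0)) :
    Tendsto (gwAdvantage q (c * lam) d') atTop (nhds 0) := by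
  have hc' := chanOK_mul hq h0 h1 hc
  have hd : 0 ≤ d := hd'.trans hdd
  refine squeeze_zero (fun ℓ => ?_) (fun ℓ => ?_) h
  · rw [gwAdvantage_eq hq hc' hd' ℓ]
    exact pot_nonneg (isLik_gwL hq hc' hd' ℓ) (bddS_tv hq) fun p _ => tv_nonneg p
  · rw [gwAdvantage_eq hq hc' hd' ℓ, gwAdvantage_eq hq hc hd ℓ]
    exact dom_gwL_compare hq hc h0 h1 hd' hdd ℓ _ (bddS_tv hq) convexOn_tv

end Poisson

end Crest.Agent.PottsTree.Cmp
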