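import Crest.Agent.Lib.PottsTree.Ops

/-!
# Bilinear inequalities, the functional `A`, and the cone induction at one vertex
-/

namespace Crest.Agent.PottsTree

open Finset
open Crest.ProbabilityR.Broadcast

variable {q : ℕ}

lemma abs_B_le {f : (Fin q → ℝ) → ℝ} {C : ℝ} (hC : ∀ p ∈ Sx q, |f p| ≤ C)
    {p r : Fin q → ℝ} (hp : p ∈ Sx q) (hr : r ∈ Sx q) : |B f p r| ≤ q * C := by
  have hc : (0 : ℝ) < (Fintype.card (Equiv.Perm (Fin q)) : ℝ) := by
    exact_mod_cast Fintype.card_pos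
  have hq0 : (0 : ℝ) ≤ q := by positivity
  unfold B
  rw [abs_mul, abs_of_pos (inv_pos.2 hc)]
  have h1 : |∑ π : Equiv.Perm (Fin q), (q : ℝ) * K f p (rel π r)| ≤
      ∑ _π : Equiv.Perm (Fin q), (q : ℝ) * C := by
    refine (Finset.abs_sum_le_sum_abs _ _).trans (Finset.sum_le_sum fun π _ => ?_)
    rw [abs_mul, abs_of_nonneg hq0]
    exact mul_le_mul_of_nonneg_left (abs_K_le hC hp (rel_mem π hr)) hq0
  simp only [Finset.sum_const, Finset.card_univ, nsmul_eq_mul] at h1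
  calc _ ≤ (Fintype.card (Equiv.Perm (Fin q)) : ℝ)⁻¹ *
        ((Fintype.card (Equiv.Perm (Fin q)) : ℝ) * ((q : ℝ) * C)) :=
        mul_le_mul_of_nonneg_left h1 (inv_pos.2 hc).le
    _ = q * C := by field_simp

lemma bddS_B {f : (Fin q → ℝ) → ℝ} (hf : BddS f) {p : Fin q → ℝ} (hp : p ∈ Sx q) :
    BddS (B f p) := by
  obtain ⟨C, hC⟩ := hf
  exact ⟨q * C, fun r hr => abs_B_le hC hp hr⟩

/-- bilinear upper bound -/
lemma pot_star_le_sum {Ω Ω' ι : Type*} {L : Ω → Fin q → ℝ} {L' : Ω' → Fin q → ℝ} (hq : q ≠ 0)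
    (hL : IsLik L) (hL' : IsLik L') (hS' : SymLik L') {f : (Fin q → ℝ) → ℝ} (hf : BddS f)
    (s : Finset ι) {u v : ι → (Fin q → ℝ) → ℝ} (hu : ∀ k ∈ s, BddS (u k))
    (hv : ∀ k ∈ s, BddS (v k))
    (h : ∀ p ∈ Sx q, ∀ r ∈ Sx q, B f p r ≤ ∑ k ∈ s, u k p * v k r) :
    Pot f (star L L') ≤ ∑ k ∈ s, Pot (u k) L * Pot (v k) L' := by
  obtain ⟨C, hC⟩ := id hf
  rw [pot_star_sym hq hL hL' hS' hf]
  have key : ∀ p ∈ Sx q, Pot (B f p) L' ≤ ∑ k ∈ s, u k p * Pot (v k) L' := by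
    intro p hp
    calc Pot (B f p) L' ≤ Pot (fun r => ∑ k ∈ s, u k p * v k r) L' :=
          pot_mono hL' (bddS_B hf hp) (BddS.sum s fun k hk => BddS.const_mul _ (hv k hk)) (h p hp)
      _ = ∑ k ∈ s, u k p * Pot (v k) L' := by
          rw [pot_sum hL' s fun k hk => BddS.const_mul _ (hv k hk)]
          exact Finset.sum_congr rfl fun k _ => pot_const_mul _
  have hb1 : BddS (fun p => Pot (B f p) L') := bddS_pot_of_bdd hq hL' (fun p hp r hr => abs_B_le hC hp hr)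
  have hb2 : ∀ k ∈ s, BddS (fun p => u k p * Pot (v k) L') := fun k hk =>
    (hu k hk).mul (BddS.const _)
  calc Pot (fun p => Pot (B f p) L') L ≤ Pot (fun p => ∑ k ∈ s, u k p * Pot (v k) L') L :=
        pot_mono hL hb1 (BddS.sum s hb2) key
    _ = ∑ k ∈ s, Pot (u k) L * Pot (v k) L' := by
        rw [pot_sum hL s hb2]
        refine Finset.sum_congr rfl fun k _ => ?_
        simp only [mul_comm (u k _)]
        rw [pot_const_mul, mul_comm]

/-- bilinear lower bound -/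
lemma sum_le_pot_star {Ω Ω' ι : Type*} {L : Ω → Fin q → ℝ} {L' : Ω' → Fin q → ℝ} (hq : q ≠ 0)
    (hL : IsLik L) (hL' : IsLik L') (hS' : SymLik L') {f : (Fin q → ℝ) → ℝ} (hf : BddS f)
    (s : Finset ι) {u v : ι → (Fin q → ℝ) → ℝ} (hu : ∀ k ∈ s, BddS (u k))
    (hv : ∀ k ∈ s, BddS (v k))
    (h : ∀ p ∈ Sx q, ∀ r ∈ Sx q, ∑ k ∈ s, u k p * v k r ≤ B f p r) :
    ∑ k ∈ s, Pot (u k) L * Pot (v k) L' ≤ Pot f (star L L') := by
  obtain ⟨C, hC⟩ := id hf
  rw [pot_star_sym hq hL hL' hS' hf]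
  have key : ∀ p ∈ Sx q, ∑ k ∈ s, u k p * Pot (v k) L' ≤ Pot (B f p) L' := by
    intro p hp
    calc ∑ k ∈ s, u k p * Pot (v k) L' = Pot (fun r => ∑ k ∈ s, u k p * v k r) L' := by
          rw [pot_sum hL' s fun k hk => BddS.const_mul _ (hv k hk)]
          exact Finset.sum_congr rfl fun k _ => (pot_const_mul _).symm
      _ ≤ Pot (B f p) L' :=
          pot_mono hL' (BddS.sum s fun k hk => BddS.const_mul _ (hv k hk)) (bddS_B hf hp) (h p hp)
  have hb1 : BddS (fun p => Pot (B f p) L') := bddS_pot_of_bdd hq hL' (fun p hp r hr => abs_B_le hC hp hr)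
  have hb2 : ∀ k ∈ s, BddS (fun p => u k p * Pot (v k) L') := fun k hk =>
    (hu k hk).mul (BddS.const _)
  calc ∑ k ∈ s, Pot (u k) L * Pot (v k) L' = Pot (fun p => ∑ k ∈ s, u k p * Pot (v k) L') L := by
        rw [pot_sum hL s hb2]
        refine Finset.sum_congr rfl fun k _ => ?_
        simp only [mul_comm (u k _)]
        rw [pot_const_mul, mul_comm]
    _ ≤ Pot (fun p => Pot (B f p) L') L := pot_mono hL (BddS.sum s hb2) hb1 key

/-! ### equivalences of observation spaces -/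

section Equiv

variable {Ω Ω' : Type*} {L : Ω → Fin q → ℝ} {L' : Ω' → Fin q → ℝ}

lemma IsLik.congr_equiv (e : Ω ≃ Ω') (h : ∀ ω, L' (e ω) = L ω) (hL : IsLik L) : IsLik L' where
  nonneg ω' i := by
    have := h (e.symm ω')
    simp only [Equiv.apply_symm_apply] at this
    rw [this]
    exact hL.nonneg _ _
  summable i := by
    rw [← e.summable_iff]
    refine (hL.summable i).congr fun ω => ?_
    simp [h]
  sum_one i := by
    rw [← e.tsum_eq]
    simp only [h]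
    exact hL.sum_one i

lemma pot_congr_equiv (e : Ω ≃ Ω') (h : ∀ ω, L' (e ω) = L ω) (f : (Fin q → ℝ) → ℝ) :
    Pot f L' = Pot f L := by
  simp only [Pot]
  rw [← e.tsum_eq]
  simp only [h]

lemma SymLik.congr_equiv (e : Ω ≃ Ω') (h : ∀ ω, L' (e ω) = L ω) (hS : SymLik L) : SymLik L' := by
  intro π g hg
  rw [pot_congr_equiv e h, pot_congr_equiv e h]
  exact hS π g hg

end Equiv

/-! ### the functional `A` -/

/-- `A p = q ∑ p_i² - 1`, the normalised `χ²`-distance of the posterior from uniform -/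
noncomputable def A (q : ℕ) (p : Fin q → ℝ) : ℝ := (q : ℝ) * ∑ i, p i ^ 2 - 1

/-- the total variation distance from uniform -/
noncomputable def tv (q : ℕ) (p : Fin q → ℝ) : ℝ := (1 / 2) * ∑ i, |p i - 1 / q|

lemma coord_le_one {p : Fin q → ℝ} (hp : p ∈ Sx q) (i : Fin q) : p i ≤ 1 := by
  have := Finset.single_le_sum (f := p) (fun i _ => hp.1 i) (Finset.mem_univ i)
  rwa [hp.2] at this

lemma A_nonneg {p : Fin q → ℝ} (hp : p ∈ Sx q) : 0 ≤ A q p := by
  have h := sq_sum_le_card_mul_sum_sq (s := Finset.univ) (f := p)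
  rw [hp.2] at h
  simp only [Finset.card_univ, Fintype.card_fin, one_pow] at h
  unfold A
  linarith

lemma A_le {p : Fin q → ℝ} (hp : p ∈ Sx q) : A q p ≤ q := by
  have h : ∑ i, p i ^ 2 ≤ 1 := by
    calc ∑ i, p i ^ 2 ≤ ∑ i, p i := Finset.sum_le_sum fun i _ => by
          have h0 := hp.1 i
          have h1 := coord_le_one hp i
          nlinarith
      _ = 1 := hp.2
  unfold A
  have : (0 : ℝ) ≤ q := by positivity
  nlinarith

lemma bddS_A : BddS (A q) :=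
  ⟨q, fun _ hp => abs_le.2 ⟨by
    have := A_nonneg hp
    have h0 : (0 : ℝ) ≤ q := by positivity
    linarith, A_le hp⟩⟩

lemma A_T (hq : q ≠ 0) (lam : ℝ) {p : Fin q → ℝ} (hp : p ∈ Sx q) :
    A q (T q lam p) = lam ^ 2 * A q p := by
  have hq' : (q : ℝ) ≠ 0 := by exact_mod_cast hq
  have h1 : ∑ i, p i = 1 := hp.2
  have : ∑ i, T q lam p i ^ 2 =
      lam ^ 2 * ∑ i, p i ^ 2 + 2 * lam * ((1 - lam) / q) * ∑ i, p i + q * ((1 - lam) / q) ^ 2 := by
    simp only [T, add_sq, Finset.sum_add_distrib, Finset.mul_sum]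
    congr 1
    · congr 1
      · exact Finset.sum_congr rfl fun i _ => by ring
      · exact Finset.sum_congr rfl fun i _ => by ring
    · simp
  unfold A
  rw [this, h1]
  field_simp
  ring

lemma tv_nonneg (p : Fin q → ℝ) : 0 ≤ tv q p := by
  unfold tv
  have : 0 ≤ ∑ i, |p i - 1 / (q : ℝ)| := Finset.sum_nonneg fun i _ => abs_nonneg _
  linarith

lemma tv_sq_le (hq : q ≠ 0) {p : Fin q → ℝ} (hp : p ∈ Sx q) : tv q p ^ 2 ≤ A q p / 4 := by
  have hq' : (q : ℝ) ≠ 0 := by exact_mod_cast hq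
  have h := sq_sum_le_card_mul_sum_sq (s := Finset.univ) (f := fun i => |p i - 1 / (q : ℝ)|)
  simp only [Finset.card_univ, Fintype.card_fin, sq_abs] at h
  have h2 : (q : ℝ) * ∑ i, (p i - 1 / (q : ℝ)) ^ 2 = A q p := by
    have : ∑ i, (p i - 1 / (q : ℝ)) ^ 2 = ∑ i, p i ^ 2 - 2 * (1 / q) * ∑ i, p i + q * (1 / (q : ℝ)) ^ 2 := by
      simp only [sub_sq, Finset.sum_add_distrib, Finset.sum_sub_distrib, Finset.mul_sum]
      congr 1
      · congr 1
        exact Finset.sum_congr rfl fun i _ => by ring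
      · simp
    rw [this, hp.2]
    unfold A
    field_simp
    ring
  rw [h2] at h
  unfold tv
  nlinarith

lemma tv_le (hq : q ≠ 0) {p : Fin q → ℝ} (hp : p ∈ Sx q) : tv q p ≤ (q : ℝ) := by
  have h1 := tv_sq_le hq hp
  have h2 := A_le hp
  have hq1 : (1 : ℝ) ≤ q := by exact_mod_cast Nat.one_le_iff_ne_zero.2 hq
  nlinarith [tv_nonneg (q := q) p]

lemma bddS_tv (hq : q ≠ 0) : BddS (tv q) :=
  ⟨q, fun p hp => by
    rw [abs_of_nonneg (tv_nonneg p)]
    exact tv_le hq hp⟩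

/-- `advantage² ≤ m / 4` -/
lemma pot_tv_sq_le {Ω : Type*} {L : Ω → Fin q → ℝ} (hq : q ≠ 0) (hL : IsLik L) :
    (Pot (tv q) L) ^ 2 ≤ Pot (A q) L / 4 := by
  have h1 := sq_pot_le hq hL (bddS_tv (q := q) hq)
  have hb : BddS (fun p => tv q p ^ 2) := by
    simpa [sq] using (bddS_tv (q := q) hq).mul (bddS_tv (q := q) hq)
  have h2 := pot_mono hL hb (BddS.const_mul (1 / 4) (bddS_A (q := q)))
    (fun p hp => by
      have := tv_sq_le hq hp
      linarith)
  rw [pot_const_mul] at h2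
  linarith

lemma hom_tv {x : Fin q → ℝ} (hq : q ≠ 0) (hx : ∀ i, 0 ≤ x i) :
    hom (tv q) x = (1 / 2) * ∑ i, |x i - (1 / q) * mass x| := by
  by_cases h : mass x = 0
  · have h0 := eq_zero_of_mass_eq_zero hx h
    simp [hom, h, h0]
  · have hm := lt_of_le_of_ne (mass_nonneg hx) (Ne.symm h)
    simp only [hom, tv, post]
    rw [mul_left_comm, Finset.mul_sum]
    congr 1
    refine Finset.sum_congr rfl fun i _ => ?_
    rw [← abs_of_pos hm, ← abs_mul]
    congr 1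
    · rw [abs_of_pos hm]
      field_simp

/-- The advantage of a family, as in the Prelude, is `Pot tv`. -/
lemma pot_tv_eq {Ω : Type*} {L : Ω → Fin q → ℝ} (hq : q ≠ 0) (hL : IsLik L) :
    Pot (tv q) L = (1 / (2 * q)) * ∑' ω, ∑ i, |L ω i - (1 / q) * ∑ j, L ω j| := by
  have hq' : (q : ℝ) ≠ 0 := by exact_mod_cast hq
  simp only [Pot]
  have : ∀ ω, hom (tv q) (L ω) = (1 / 2) * ∑ i, |L ω i - (1 / q) * ∑ j, L ω j| := fun ω =>
    hom_tv hq (hL.nonneg ω)
  simp only [this]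
  rw [tsum_mul_left]
  field_simp

end Crest.Agent.PottsTree
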