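import Crest.Agent.Lib.PottsTree.Tail

/-!
# The tail with a chain of functionals

`Th 0` is a lower bound of `Xi ∘ T λ`, `Th (j+1)` of `Th j ∘ T λ`, each `Th j` is almost additive
under the star, and `Th m ≥ c A` pointwise.  The chain gains since the cubic term in `Xi ∘ T (λ^j)`
decays with `j`.  If `E A ≤ xs` at some level, with `xs` small in terms of the constants, all later
levels are in the cone.
-/

namespace Crest.Agent.PottsTree

open Finset Filter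
open Crest.ProbabilityR.Broadcast
open ConeData
open Cmp

variable {q : ℕ}

/-- Pointwise data for the tail with a chain of length `m`. -/
structure TailChain (C : ConeData q) (lam : ℝ) (m : ℕ) where
  Th : ℕ → (Fin q → ℝ) → ℝ
  K : ℕ → ℝ
  c : ℝ
  K2 : ℝ
  bdd_Th : ∀ j ≤ m, BddS (Th j)
  Th0_le : ∀ p ∈ Sx q, Th 0 p ≤ C.Xi (T q lam p)
  Th_unif : ∀ j < m, 0 ≤ Th j (fun _ => 1 / (q : ℝ))
  K_nonneg : ∀ j < m, 0 ≤ K j
  K2_nonneg : 0 ≤ K2
  N3 : ∀ j < m, ∀ p ∈ Sx q, ∀ r ∈ Sx q, Th j p + Th j r - K j * (A q p * A q r) ≤ B (Th j) p r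
  link : ∀ j < m, ∀ p ∈ Sx q, Th (j + 1) p ≤ Th j (T q lam p)
  last : ∀ p ∈ Sx q, c * A q p ≤ Th m p
  N5 : ∀ p ∈ Sx q, ∀ r ∈ Sx q, B (A q) p r ≤ A q p + A q r + K2 * (A q p * A q r)

/-- The accumulated second order constant of a chain: `chainS β K m m = ∑_{j<m} β^j K j / 2`. -/
noncomputable def chainS (β : ℝ) (K : ℕ → ℝ) (m : ℕ) : ℕ → ℝ
  | 0 => 0
  | i + 1 => β * chainS β K m i + K (m - 1 - i) / 2

lemma chainS_nonneg {β : ℝ} (hβ : 0 ≤ β) {K : ℕ → ℝ} {m : ℕ} (hK : ∀ j < m, 0 ≤ K j) {i : ℕ}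
    (hi : i ≤ m) : 0 ≤ chainS β K m i := by
  induction i with
  | zero => simp [chainS]
  | succ i ih =>
    simp only [chainS]
    have := ih (by omega)
    have h2 := hK (m - 1 - i) (by omega)
    positivity

/-- The abstract chain inequality. -/
lemma chain_ineq {β c E : ℝ} (hβ : 0 ≤ β) (hE : 0 ≤ E) {K : ℕ → ℝ} {m : ℕ}
    (hK : ∀ j < m, 0 ≤ K j)
    {u : ℕ → ℕ → ℝ} {x : ℕ → ℝ} (hx0 : ∀ ℓ, 0 ≤ x ℓ) (hanti : Antitone x) {ℓ₀ : ℕ}
    (hstep : ∀ j < m, ∀ ℓ, ℓ₀ ≤ ℓ → β * u (j + 1) ℓ - K j / 2 * x ℓ ^ 2 * E ≤ u j (ℓ + 1))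
    (hlast : ∀ ℓ, c * x ℓ ≤ u m ℓ) {i : ℕ} (hi : i ≤ m) (ℓ : ℕ) (hℓ : ℓ₀ ≤ ℓ) :
    β ^ i * c * x ℓ - chainS β K m i * x ℓ ^ 2 * E ≤ u (m - i) (ℓ + i) := by
  induction i with
  | zero =>
    simpa [chainS] using hlast ℓ
  | succ i ih =>
    have h1 := ih (by omega)
    have hj : m - (i + 1) < m := by omega
    have h2 := hstep (m - (i + 1)) hj (ℓ + i) (by omega)
    have e1 : m - (i + 1) + 1 = m - i := by omega
    rw [e1] at h2
    have e2 : ℓ + (i + 1) = ℓ + i + 1 := rfl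
    rw [e2]
    refine le_trans ?_ h2
    have hx : x (ℓ + i) ≤ x ℓ := hanti (Nat.le_add_right ℓ i)
    have hx2 : x (ℓ + i) ^ 2 ≤ x ℓ ^ 2 := pow_le_pow_left₀ (hx0 _) hx 2
    have hK2 := hK (m - (i + 1)) hj
    have h3 : K (m - (i + 1)) / 2 * x (ℓ + i) ^ 2 * E ≤ K (m - (i + 1)) / 2 * x ℓ ^ 2 * E := by
      apply mul_le_mul_of_nonneg_right _ hE
      exact mul_le_mul_of_nonneg_left hx2 (by positivity)
    have h4 := mul_le_mul_of_nonneg_left h1 hβ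
    have e3 : m - 1 - i = m - (i + 1) := by omega
    simp only [chainS, e3]
    have e4 : β ^ (i + 1) * c * x ℓ - (β * chainS β K m i + K (m - (i + 1)) / 2) * x ℓ ^ 2 * E =
        β * (β ^ i * c * x ℓ - chainS β K m i * x ℓ ^ 2 * E) -
          K (m - (i + 1)) / 2 * x ℓ ^ 2 * E := by ring
    rw [e4]
    linarith

variable (C : ConeData q)

section Step

variable {lam : ℝ} {m : ℕ} (D : TailChain C lam m) {Ω : Type*} {L : Ω → Fin q → ℝ}

/-- `Th j` of the contracted family dominates `Th (j+1)` of the family. -/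
lemma pot_Th_contract_ge' (hq : q ≠ 0) (hc : ChanOK q lam) (hL : IsLik L) {j : ℕ} (hj : j < m) :
    Pot (D.Th (j + 1)) L ≤ Pot (D.Th j) (contract lam L) := by
  rw [pot_contract hq]
  exact pot_mono hL (D.bdd_Th _ (by omega)) (BddS.comp_T hq hc (D.bdd_Th _ hj.le)) (D.link j hj)

/-- one step on the regular tree -/
lemma chain_step_regular (hq : q ≠ 0) {b : ℕ} (hc : ChanOK q lam) (hbl : (b : ℝ) * lam ^ 2 ≤ 1)
    (hL : IsLik L) (hS : SymLik L) {j : ℕ} (hj : j < m) {xs : ℝ} (hx : Pot (A q) L ≤ xs) :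
    (b : ℝ) * Pot (D.Th (j + 1)) L - D.K j / 2 * (Pot (A q) L) ^ 2 *
      Real.exp ((1 + 2 * lam ^ 2) * D.K2 * xs) ≤
      Pot (D.Th j) (starPow (contract lam L) b) := by
  have hLc := isLik_contract hq hc hL
  have hSc := symLik_contract hq hc hS
  have h1 := pot_Th_starPow_ge hq hLc hSc (D.bdd_Th j hj.le) (D.Th_unif j hj) (D.K_nonneg j hj)
    D.K2_nonneg (D.N3 j hj) D.N5 b
  have h2 := pot_Th_contract_ge' C D hq hc hL hj
  have hy0 : 0 ≤ Pot (A q) (contract lam L) := pot_A_nonneg hLc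
  have hyx := pot_A_contract hq lam hL
  have hx0 : 0 ≤ Pot (A q) L := pot_A_nonneg hL
  set y := Pot (A q) (contract lam L)
  set x := Pot (A q) L
  set e := Pot (D.Th j) (contract lam L)
  refine le_trans ?_ h1
  have hK := D.K_nonneg j hj
  have hK2 := D.K2_nonneg
  have hb0 : (0 : ℝ) ≤ b := by positivity
  have hby : (b : ℝ) * y ≤ x := by
    rw [hyx]
    nlinarith [mul_le_mul_of_nonneg_right hbl hx0]
  have hxs0 : 0 ≤ xs := hx0.trans hx
  have hs : (1 + D.K2 * y) ^ b ≤ Real.exp ((1 + 2 * lam ^ 2) * D.K2 * xs) := by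
    refine (one_add_pow_le_exp (mul_nonneg hK2 hy0) b).trans (Real.exp_le_exp.2 ?_)
    have e1 : (b : ℝ) * (D.K2 * y) = D.K2 * ((b : ℝ) * y) := by ring
    rw [e1]
    have h4 : D.K2 * ((b : ℝ) * y) ≤ D.K2 * xs := mul_le_mul_of_nonneg_left (hby.trans hx) hK2
    have h5 : 0 ≤ 2 * lam ^ 2 * (D.K2 * xs) := by positivity
    nlinarith
  set s := (1 + D.K2 * y) ^ b
  have hs0 : 0 ≤ s := pow_nonneg (by nlinarith [mul_nonneg hK2 hy0]) b
  set E := Real.exp ((1 + 2 * lam ^ 2) * D.K2 * xs)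
  have hE : 0 ≤ E := (Real.exp_pos _).le
  have hq1 : D.K j * y ^ 2 * ((b : ℝ) * (b - 1) / 2) * s ≤ D.K j / 2 * x ^ 2 * E := by
    have hby0 : 0 ≤ (b : ℝ) * y := by positivity
    have hby2 : ((b : ℝ) * y) ^ 2 ≤ x ^ 2 := pow_le_pow_left₀ hby0 hby 2
    have h5 : (b : ℝ) * (b - 1) ≤ b * b := by nlinarith
    have h6 : y ^ 2 * ((b : ℝ) * (b - 1)) ≤ x ^ 2 := by
      have : y ^ 2 * ((b : ℝ) * (b - 1)) ≤ y ^ 2 * (b * b) :=
        mul_le_mul_of_nonneg_left h5 (by positivity)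
      have e2 : y ^ 2 * ((b : ℝ) * b) = ((b : ℝ) * y) ^ 2 := by ring
      linarith
    have h7 : y ^ 2 * ((b : ℝ) * (b - 1)) * s ≤ x ^ 2 * E := by
      by_cases hneg : 0 ≤ y ^ 2 * ((b : ℝ) * (b - 1))
      · exact mul_le_mul h6 hs hs0 (by positivity)
      · have : y ^ 2 * ((b : ℝ) * (b - 1)) * s ≤ 0 :=
          mul_nonpos_of_nonpos_of_nonneg (le_of_not_ge hneg) hs0
        exact this.trans (by positivity)
    have h8 := mul_le_mul_of_nonneg_left h7 (by positivity : 0 ≤ D.K j / 2)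
    nlinarith
  have hq3 : (b : ℝ) * Pot (D.Th (j + 1)) L ≤ b * e := mul_le_mul_of_nonneg_left h2 hb0
  linarith

/-- one step on the Poisson tree -/
lemma chain_step_poisson (hq : q ≠ 0) {d : ℝ} (hd : 0 ≤ d) (hc : ChanOK q lam)
    (hdl : d * lam ^ 2 ≤ 1)
    (hL : IsLik L) (hS : SymLik L) {j : ℕ} (hj : j < m) {xs : ℝ} (hx : Pot (A q) L ≤ xs) :
    d * Pot (D.Th (j + 1)) L - D.K j / 2 * (Pot (A q) L) ^ 2 *
      Real.exp ((1 + 2 * lam ^ 2) * D.K2 * xs) ≤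
      Pot (D.Th j) (poisMix d (contract lam L)) := by
  have hLc := isLik_contract hq hc hL
  have hSc := symLik_contract hq hc hS
  have h1 := pot_Th_poisMix_ge hq hd hLc hSc (D.bdd_Th j hj.le) (D.Th_unif j hj) (D.K_nonneg j hj)
    D.K2_nonneg (D.N3 j hj) D.N5
  have h2 := pot_Th_contract_ge' C D hq hc hL hj
  have hy0 : 0 ≤ Pot (A q) (contract lam L) := pot_A_nonneg hLc
  have hyx := pot_A_contract hq lam hL
  have hx0 : 0 ≤ Pot (A q) L := pot_A_nonneg hL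
  set y := Pot (A q) (contract lam L)
  set x := Pot (A q) L
  set e := Pot (D.Th j) (contract lam L)
  refine le_trans ?_ h1
  have hK := D.K_nonneg j hj
  have hK2 := D.K2_nonneg
  have hdy : d * y ≤ x := by
    rw [hyx]
    nlinarith [mul_le_mul_of_nonneg_right hdl hx0]
  have hxs0 : 0 ≤ xs := hx0.trans hx
  have hK2y : 0 ≤ D.K2 * y := mul_nonneg hK2 hy0
  have hs : (1 + D.K2 * y) ^ 2 * Real.exp (d * D.K2 * y) ≤
      Real.exp ((1 + 2 * lam ^ 2) * D.K2 * xs) := by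
    have h3 := one_add_pow_le_exp hK2y 2
    have h4 : ((2 : ℕ) : ℝ) * (D.K2 * y) + d * D.K2 * y ≤ (1 + 2 * lam ^ 2) * D.K2 * xs := by
      have h5 : D.K2 * y = lam ^ 2 * (D.K2 * x) := by rw [hyx]; ring
      have h6 : D.K2 * x ≤ D.K2 * xs := mul_le_mul_of_nonneg_left hx hK2
      have h7 : D.K2 * (d * y) ≤ D.K2 * x := mul_le_mul_of_nonneg_left hdy hK2
      have h8 : lam ^ 2 * (D.K2 * x) ≤ lam ^ 2 * (D.K2 * xs) :=
        mul_le_mul_of_nonneg_left h6 (by positivity)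
      push_cast
      rw [h5]
      nlinarith
    calc (1 + D.K2 * y) ^ 2 * Real.exp (d * D.K2 * y)
        ≤ Real.exp (((2 : ℕ) : ℝ) * (D.K2 * y)) * Real.exp (d * D.K2 * y) :=
          mul_le_mul_of_nonneg_right h3 (Real.exp_pos _).le
      _ = Real.exp (((2 : ℕ) : ℝ) * (D.K2 * y) + d * D.K2 * y) := (Real.exp_add _ _).symm
      _ ≤ _ := Real.exp_le_exp.2 h4
  set E := Real.exp ((1 + 2 * lam ^ 2) * D.K2 * xs)
  have hE : 0 ≤ E := (Real.exp_pos _).le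
  set S := (1 + D.K2 * y) ^ 2 * Real.exp (d * D.K2 * y) with hS_def
  have hS0 : 0 ≤ S := by positivity
  have hq1 : D.K j * y ^ 2 * ((d * (1 + D.K2 * y)) ^ 2 / 2 * Real.exp (d * D.K2 * y)) =
      D.K j / 2 * ((d * y) ^ 2 * S) := by
    simp only [hS_def]
    ring
  have hq2 : D.K j / 2 * ((d * y) ^ 2 * S) ≤ D.K j / 2 * x ^ 2 * E := by
    have hdy0 : 0 ≤ d * y := by positivity
    have hd2 : (d * y) ^ 2 ≤ x ^ 2 := pow_le_pow_left₀ hdy0 hdy 2
    have h5 : (d * y) ^ 2 * S ≤ x ^ 2 * E := mul_le_mul hd2 hs hS0 (by positivity)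
    have := mul_le_mul_of_nonneg_left h5 (by positivity : 0 ≤ D.K j / 2)
    linarith
  have hq4 : d * Pot (D.Th (j + 1)) L ≤ d * e := mul_le_mul_of_nonneg_left h2 hd
  rw [hq1]
  linarith

end Step

variable {C}

/-- MAIN THEOREM (regular tree, any sign of `λ`, chain of length `m`). -/
theorem tendsto_advantage_of_chain (hq : q ≠ 0) (hmu : 0 < C.mu) {b : ℕ} (hb : 2 ≤ b) {lam : ℝ}
    (hc : ChanOK q lam) (hlam : lam ≠ 0) (hbl : (b : ℝ) * lam ^ 2 ≤ 1) {m : ℕ}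
    (D : TailChain C lam m) {xs : ℝ}
    (hxs : chainS (b : ℝ) D.K m m * xs * Real.exp ((1 + 2 * lam ^ 2) * D.K2 * xs) ≤
      (b : ℝ) ^ m * D.c) {ℓ₀ : ℕ}
    (hℓ₀ : Pot (A q) (regL q b lam ℓ₀) ≤ xs) :
    Tendsto (advantage q b lam) atTop (nhds 0) := by
  have hlik : ∀ ℓ, IsLik (regL q b lam ℓ) := fun ℓ => isLik_regL hq hc b ℓ
  have hsym : ∀ ℓ, SymLik (regL q b lam ℓ) := fun ℓ => symLik_regL hq hc b ℓ
  have hanti : Antitone fun ℓ => Pot (A q) (regL q b lam ℓ) :=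
    antitone_nat_of_succ_le fun ℓ => dom_regL_succ hq hc b ℓ _ bddS_A convexOn_A
  have hxl : ∀ ℓ, ℓ₀ ≤ ℓ → Pot (A q) (regL q b lam ℓ) ≤ xs := fun ℓ hℓ => (hanti hℓ).trans hℓ₀
  have hb0 : (0 : ℝ) ≤ b := by positivity
  set E := Real.exp ((1 + 2 * lam ^ 2) * D.K2 * xs) with hE_def
  have hE : 0 ≤ E := (Real.exp_pos _).le
  have hstep : ∀ j < m, ∀ ℓ, ℓ₀ ≤ ℓ →
      (b : ℝ) * Pot (D.Th (j + 1)) (regL q b lam ℓ) -
        D.K j / 2 * (Pot (A q) (regL q b lam ℓ)) ^ 2 * E ≤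
        Pot (D.Th j) (regL q b lam (ℓ + 1)) := by
    intro j hj ℓ hℓ
    rw [pot_regL_succ]
    exact chain_step_regular C D hq hc hbl (hlik ℓ) (hsym ℓ) hj (hxl ℓ hℓ)
  have hlast : ∀ ℓ, D.c * Pot (A q) (regL q b lam ℓ) ≤ Pot (D.Th m) (regL q b lam ℓ) := by
    intro ℓ
    rw [← pot_const_mul]
    exact pot_mono (hlik ℓ) (bddS_A.const_mul _) (D.bdd_Th m le_rfl) D.last
  have hchain := fun ℓ hℓ => chain_ineq (u := fun j ℓ => Pot (D.Th j) (regL q b lam ℓ))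
    (x := fun ℓ => Pot (A q) (regL q b lam ℓ)) hb0 hE D.K_nonneg
    (fun ℓ => pot_A_nonneg (hlik ℓ)) hanti hstep hlast (le_refl m) ℓ hℓ
  simp only [Nat.sub_self] at hchain
  have hS0 : 0 ≤ chainS (b : ℝ) D.K m m := chainS_nonneg hb0 D.K_nonneg le_rfl
  have hTh : ∀ n, 0 ≤ Pot (D.Th 0) (regL q b lam (ℓ₀ + n + m)) := by
    intro n
    refine le_trans ?_ (hchain (ℓ₀ + n) (Nat.le_add_right _ _))
    have hx0 := pot_A_nonneg (hlik (ℓ₀ + n))
    have hx1 := hxl (ℓ₀ + n) (Nat.le_add_right _ _)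
    set x := Pot (A q) (regL q b lam (ℓ₀ + n))
    have h1 : chainS (b : ℝ) D.K m m * x * E ≤ (b : ℝ) ^ m * D.c := by
      refine le_trans ?_ hxs
      exact mul_le_mul_of_nonneg_right (mul_le_mul_of_nonneg_left hx1 hS0) hE
    have := mul_le_mul_of_nonneg_left h1 hx0
    nlinarith
  have hgood : ∀ n, Good C (contract lam (regL q b lam (ℓ₀ + n + m))) := fun n => by
    refine ⟨isLik_contract hq hc (hlik _), symLik_contract hq hc (hsym _), ?_⟩
    rw [pot_contract hq]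
    exact (hTh n).trans (pot_mono (hlik _) (D.bdd_Th 0 (Nat.zero_le _))
      (BddS.comp_T hq hc C.bdd_Xi) D.Th0_le)
  have hA : Tendsto (fun n => Pot (A q) (regL q b lam (n + (ℓ₀ + m)))) atTop (nhds 0) := by
    refine tendsto_zero_of_cubic_recursion (c := 2 * C.mu * lam ^ 6) ?_
      (fun n => pot_A_nonneg (hlik _)) fun n => ?_
    · have : 0 < lam ^ 6 := by positivity
      positivity
    · have h := pot_A_regL_succ_le C hq hb hbl (n + (ℓ₀ + m))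
        (by
          have := hgood n
          have e : ℓ₀ + n + m = n + (ℓ₀ + m) := by ring
          rwa [e] at this) (hlik _)
      have e2 : n + 1 + (ℓ₀ + m) = n + (ℓ₀ + m) + 1 := by ring
      rw [e2]
      exact h
  have hA' : Tendsto (fun n => Pot (A q) (regL q b lam n)) atTop (nhds 0) :=
    (tendsto_add_atTop_iff_nat (ℓ₀ + m)).1 hA
  have := tendsto_pot_tv_of_tendsto_A (α := fun ℓ => (Fin ℓ → Fin b) → Fin q)
    (L := fun ℓ => regL q b lam ℓ) hq hlik hA'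
  refine this.congr fun ℓ => ?_
  exact (advantage_eq hq b lam ℓ (hlik ℓ)).symm

/-- MAIN THEOREM (Poisson tree, any sign of `λ`, chain of length `m`). -/
theorem tendsto_gwAdvantage_of_chain (hq : q ≠ 0) (hmu : 0 < C.mu) {d lam : ℝ} (hd0 : 0 < d)
    (hc : ChanOK q lam) (hlam : lam ≠ 0) (hdl : d * lam ^ 2 ≤ 1) {m : ℕ}
    (D : TailChain C lam m) {xs : ℝ}
    (hxs : chainS d D.K m m * xs * Real.exp ((1 + 2 * lam ^ 2) * D.K2 * xs) ≤ d ^ m * D.c)
    {ℓ₀ : ℕ} (hℓ₀ : Pot (A q) (gwL q lam d ℓ₀) ≤ xs) :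
    Tendsto (gwAdvantage q lam d) atTop (nhds 0) := by
  have hd : 0 ≤ d := hd0.le
  have hlik : ∀ ℓ, IsLik (gwL q lam d ℓ) := fun ℓ => isLik_gwL hq hc hd ℓ
  have hsym : ∀ ℓ, SymLik (gwL q lam d ℓ) := fun ℓ => symLik_gwL hq hc hd ℓ
  have hanti : Antitone fun ℓ => Pot (A q) (gwL q lam d ℓ) :=
    antitone_nat_of_succ_le fun ℓ => dom_gwL_succ hq hc hd ℓ _ bddS_A convexOn_A
  have hxl : ∀ ℓ, ℓ₀ ≤ ℓ → Pot (A q) (gwL q lam d ℓ) ≤ xs := fun ℓ hℓ => (hanti hℓ).trans hℓ₀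
  set E := Real.exp ((1 + 2 * lam ^ 2) * D.K2 * xs) with hE_def
  have hE : 0 ≤ E := (Real.exp_pos _).le
  have hstep : ∀ j < m, ∀ ℓ, ℓ₀ ≤ ℓ →
      d * Pot (D.Th (j + 1)) (gwL q lam d ℓ) -
        D.K j / 2 * (Pot (A q) (gwL q lam d ℓ)) ^ 2 * E ≤
        Pot (D.Th j) (gwL q lam d (ℓ + 1)) := by
    intro j hj ℓ hℓ
    rw [gwL_succ]
    exact chain_step_poisson C D hq hd hc hdl (hlik ℓ) (hsym ℓ) hj (hxl ℓ hℓ)
  have hlast : ∀ ℓ, D.c * Pot (A q) (gwL q lam d ℓ) ≤ Pot (D.Th m) (gwL q lam d ℓ) := by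
    intro ℓ
    rw [← pot_const_mul]
    exact pot_mono (hlik ℓ) (bddS_A.const_mul _) (D.bdd_Th m le_rfl) D.last
  have hchain := fun ℓ hℓ => chain_ineq (u := fun j ℓ => Pot (D.Th j) (gwL q lam d ℓ))
    (x := fun ℓ => Pot (A q) (gwL q lam d ℓ)) hd hE D.K_nonneg
    (fun ℓ => pot_A_nonneg (hlik ℓ)) hanti hstep hlast (le_refl m) ℓ hℓ
  simp only [Nat.sub_self] at hchain
  have hS0 : 0 ≤ chainS d D.K m m := chainS_nonneg hd D.K_nonneg le_rfl
  have hTh : ∀ n, 0 ≤ Pot (D.Th 0) (gwL q lam d (ℓ₀ + n + m)) := by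
    intro n
    refine le_trans ?_ (hchain (ℓ₀ + n) (Nat.le_add_right _ _))
    have hx0 := pot_A_nonneg (hlik (ℓ₀ + n))
    have hx1 := hxl (ℓ₀ + n) (Nat.le_add_right _ _)
    set x := Pot (A q) (gwL q lam d (ℓ₀ + n))
    have h1 : chainS d D.K m m * x * E ≤ d ^ m * D.c := by
      refine le_trans ?_ hxs
      exact mul_le_mul_of_nonneg_right (mul_le_mul_of_nonneg_left hx1 hS0) hE
    have := mul_le_mul_of_nonneg_left h1 hx0
    nlinarith
  have hgood : ∀ n, Good C (contract lam (gwL q lam d (ℓ₀ + n + m))) := fun n => by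
    refine ⟨isLik_contract hq hc (hlik _), symLik_contract hq hc (hsym _), ?_⟩
    rw [pot_contract hq]
    exact (hTh n).trans (pot_mono (hlik _) (D.bdd_Th 0 (Nat.zero_le _))
      (BddS.comp_T hq hc C.bdd_Xi) D.Th0_le)
  have hA : Tendsto (fun n => Pot (A q) (gwL q lam d (n + (ℓ₀ + m)))) atTop (nhds 0) := by
    refine tendsto_zero_of_cubic_recursion (c := kap d * (2 * C.mu * lam ^ 6)) ?_
      (fun n => pot_A_nonneg (hlik _)) fun n => ?_
    · have : 0 < lam ^ 6 := by positivity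
      have := kap_pos hd0
      positivity
    · have h := pot_A_gwL_succ_le C hq hd hc hdl (n + (ℓ₀ + m))
        (by
          have := hgood n
          have e : ℓ₀ + n + m = n + (ℓ₀ + m) := by ring
          rwa [e] at this)
      have e2 : n + 1 + (ℓ₀ + m) = n + (ℓ₀ + m) + 1 := by ring
      rw [e2]
      exact h
  have hA' : Tendsto (fun n => Pot (A q) (gwL q lam d n)) atTop (nhds 0) :=
    (tendsto_add_atTop_iff_nat (ℓ₀ + m)).1 hA
  have := tendsto_pot_tv_of_tendsto_A (α := fun ℓ => PObs q ℓ)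
    (L := fun ℓ => gwL q lam d ℓ) hq hlik hA'
  refine this.congr fun ℓ => ?_
  exact (gwAdvantage_eq hq hc hd ℓ).symm

end Crest.Agent.PottsTree
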