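import Crest.Agent.Lib.PottsTree.Target
import Crest.Agent.Lib.PottsTree.TailChain

/-!
# Assembly of S0244 from the three families of inputs
-/

namespace Crest.Agent.PottsTree

open Filter
open Crest.ProbabilityR.Broadcast
open Cmp

lemma chanOK_three {lam : ℝ} (h0 : -(1 / 2 : ℝ) ≤ lam) (h1 : lam ≤ 1) : ChanOK 3 lam := by
  intro i j
  unfold channel
  split_ifs <;> norm_num <;> linarith

lemma pow_pos_of_neg_sq {lam : ℝ} (hl : lam < 0) : 0 < lam ^ 2 := by
  have : lam ≠ 0 := ne_of_lt hl
  positivity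

/-- The reduction of `S0244` to `λ ≥ 0` and to critical `λ < 0`. -/
def Target244 : Prop :=
  ConeTarget 3 ∧
    (∀ B : ℕ, 4 ≤ B → Tendsto (advantage 3 B (-(1 / Real.sqrt B))) atTop (nhds 0)) ∧
    (∀ D : ℝ, 4 ≤ D → Tendsto (gwAdvantage 3 (-(1 / Real.sqrt D)) D) atTop (nhds 0))

lemma crit_bound {B : ℝ} (hB : 4 ≤ B) : -(1 / 2 : ℝ) ≤ -(1 / Real.sqrt B) := by
  have h2 : (2 : ℝ) ≤ Real.sqrt B := by
    rw [show (2 : ℝ) = Real.sqrt 4 by
      rw [show (4 : ℝ) = 2 ^ 2 by norm_num, Real.sqrt_sq (by norm_num)]]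
    exact Real.sqrt_le_sqrt hB
  have : 1 / Real.sqrt B ≤ 1 / 2 := one_div_le_one_div_of_le (by norm_num) h2
  linarith

theorem s0244_of_target (h : Target244) :
    (∀ b : ℕ, 2 ≤ b → ∀ lam : ℝ, -(1 / 2 : ℝ) ≤ lam → lam ≤ 1 → (b : ℝ) * lam ^ 2 ≤ 1 →
      Tendsto (advantage 3 b lam) atTop (nhds 0)) ∧
    (∀ d : ℝ, 1 < d → ∀ lam : ℝ, -(1 / 2 : ℝ) ≤ lam → lam ≤ 1 → d * lam ^ 2 ≤ 1 →
      Tendsto (gwAdvantage 3 lam d) atTop (nhds 0)) := by
  obtain ⟨hpos, hreg, hgw⟩ := h
  have hq : (3 : ℕ) ≠ 0 := by norm_num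
  constructor
  · intro b hb lam h0 h1 hbl
    rcases le_or_gt 0 lam with hl | hl
    · exact regular_of_target hq hpos b hb lam hl h1 hbl
    · -- the critical pair above
      have hl2 : 0 < lam ^ 2 := pow_pos_of_neg_sq hl
      have hsq : lam ^ 2 ≤ 1 / 4 := by nlinarith
      have h4 : (4 : ℝ) ≤ 1 / lam ^ 2 := by
        rw [le_div_iff₀ hl2]
        linarith
      set B : ℕ := ⌊1 / lam ^ 2⌋₊ with hB_def
      have hB4 : 4 ≤ B := Nat.le_floor (by exact_mod_cast h4)
      have hbB : b ≤ B := by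
        apply Nat.le_floor
        rw [le_div_iff₀ hl2]
        exact hbl
      have hBle : (B : ℝ) ≤ 1 / lam ^ 2 := Nat.floor_le (by positivity)
      have hB4' : (4 : ℝ) ≤ (B : ℝ) := by exact_mod_cast hB4
      have hBpos : (0 : ℝ) < B := by linarith
      set lam' : ℝ := -(1 / Real.sqrt B) with hlam'
      have hs : 0 < Real.sqrt B := Real.sqrt_pos.2 hBpos
      have hc' : ChanOK 3 lam' := chanOK_three (crit_bound hB4') (by
        have : 0 ≤ 1 / Real.sqrt B := by positivity
        simp only [hlam']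
        linarith)
      set c : ℝ := -lam * Real.sqrt B with hc_def
      have hc0 : 0 ≤ c := by
        have : 0 ≤ -lam := by linarith
        positivity
      have hc1 : c ≤ 1 := by
        have h2 : (B : ℝ) * lam ^ 2 ≤ 1 := by
          rw [le_div_iff₀ hl2] at hBle
          exact hBle
        have h3 : c ^ 2 ≤ 1 := by
          simp only [hc_def]
          rw [mul_pow, Real.sq_sqrt hBpos.le]
          nlinarith
        nlinarith
      have e : c * lam' = lam := by
        simp only [hc_def, hlam']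
        field_simp
      have := tendsto_advantage_compare hq hc' hc0 hc1 hbB (hreg B hB4)
      rwa [e] at this
  · intro d hd lam h0 h1 hdl
    rcases le_or_gt 0 lam with hl | hl
    · exact poisson_of_target hq hpos d (by linarith) lam hl h1 hdl
    · have hl2 : 0 < lam ^ 2 := pow_pos_of_neg_sq hl
      have hsq : lam ^ 2 ≤ 1 / 4 := by nlinarith
      have h4 : (4 : ℝ) ≤ 1 / lam ^ 2 := by
        rw [le_div_iff₀ hl2]
        linarith
      have hdD : d ≤ 1 / lam ^ 2 := by
        rw [le_div_iff₀ hl2]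
        exact hdl
      have hlam : -(1 / Real.sqrt (1 / lam ^ 2)) = lam := by
        have e : Real.sqrt (1 / lam ^ 2) = 1 / (-lam) := by
          rw [show 1 / lam ^ 2 = (1 / (-lam)) ^ 2 by
            field_simp]
          exact Real.sqrt_sq (by
            have : 0 < -lam := by linarith
            positivity)
        rw [e]
        field_simp
      have h2 := hgw (1 / lam ^ 2) h4
      rw [hlam] at h2
      have hc := chanOK_three h0 h1
      have := tendsto_gwAdvantage_compare hq hc zero_le_one le_rfl (by linarith) hdD h2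
      rwa [one_mul] at this

end Crest.Agent.PottsTree
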