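import Crest.Agent.Lib.PottsTree.Tree

/-!
# The Blackwell order on experiments

`Dom L' L`: the experiment `L` is at least as informative as `L'`, i.e. every bounded convex
functional of the posterior has a smaller mean under `L'` than under `L`.  The order is preserved by
contraction and by the star; the atom experiment is the top and the trivial one the bottom; as a
consequence all functionals of the experiments on a tree are monotone along the levels.
-/

namespace Crest.Agent.PottsTree

open Finset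
open Crest.ProbabilityR.Broadcast

section General

variable {q : ℕ}

/-- `L` is at least as informative as `L'`. -/
def Dom {Ω Ω' : Type*} (L' : Ω' → Fin q → ℝ) (L : Ω → Fin q → ℝ) : Prop :=
  ∀ f : (Fin q → ℝ) → ℝ, BddS f → ConvexOn ℝ (Sx q) f → Pot f L' ≤ Pot f L

namespace Dom

variable {Ω Ω' Ω'' : Type*} {L : Ω → Fin q → ℝ} {L' : Ω' → Fin q → ℝ} {L'' : Ω'' → Fin q → ℝ}

lemma refl (L : Ω → Fin q → ℝ) : Dom L L := fun _ _ _ => le_rfl

lemma trans (h : Dom L L') (h' : Dom L' L'') : Dom L L'' := fun f hf hc => (h f hf hc).trans (h' f hf hc)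

lemma of_equiv_left (e : Ω ≃ Ω') (he : ∀ ω, L' (e ω) = L ω) (h : Dom L L'') : Dom L' L'' :=
  fun f hf hc => by
    rw [pot_congr_equiv e he]
    exact h f hf hc

lemma of_equiv_right (e : Ω ≃ Ω') (he : ∀ ω, L' (e ω) = L ω) (h : Dom L'' L) : Dom L'' L' :=
  fun f hf hc => by
    rw [pot_congr_equiv e he]
    exact h f hf hc

end Dom

/-! ### `T` is affine -/

lemma T_add_smul (hq : q ≠ 0) (lam : ℝ) {a b : ℝ} (hab : a + b = 1) (x y : Fin q → ℝ) :
    T q lam (a • x + b • y) = a • T q lam x + b • T q lam y := by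
  funext i
  simp only [T, Pi.add_apply, Pi.smul_apply, smul_eq_mul]
  have : (1 - lam) / (q : ℝ) = (a + b) * ((1 - lam) / (q : ℝ)) := by rw [hab, one_mul]
  nth_rewrite 1 [this]
  ring

lemma convexOn_comp_T (hq : q ≠ 0) {lam : ℝ} (hc : ChanOK q lam) {f : (Fin q → ℝ) → ℝ}
    (hf : ConvexOn ℝ (Sx q) f) : ConvexOn ℝ (Sx q) (fun p => f (T q lam p)) := by
  refine ⟨convex_stdSimplex ℝ (Fin q), fun x hx y hy a b ha hb hab => ?_⟩
  simp only [smul_eq_mul]
  rw [T_add_smul hq lam hab]
  have := hf.2 (T_mem hq hc hx) (T_mem hq hc hy) ha hb hab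
  simpa using this

lemma Dom.contract {Ω Ω' : Type*} {L : Ω → Fin q → ℝ} {L' : Ω' → Fin q → ℝ} (hq : q ≠ 0) {lam : ℝ}
    (hc : ChanOK q lam) (h : Dom L' L) : Dom (contract lam L') (contract lam L) := by
  intro f hf hfc
  rw [pot_contract hq, pot_contract hq]
  exact h _ (BddS.comp_T hq hc hf) (convexOn_comp_T hq hc hfc)

/-! ### `K` is convex in the second variable -/

lemma inner_add_smul (p r r' : Fin q → ℝ) (a b : ℝ) :
    ∑ j, p j * (a • r + b • r') j = a * ∑ j, p j * r j + b * ∑ j, p j * r' j := by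
  simp only [Pi.add_apply, Pi.smul_apply, smul_eq_mul, Finset.mul_sum, ← Finset.sum_add_distrib]
  exact Finset.sum_congr rfl fun j _ => by ring

lemma convexOn_K {f : (Fin q → ℝ) → ℝ} (hf : ConvexOn ℝ (Sx q) f) {p : Fin q → ℝ} (hp : p ∈ Sx q) :
    ConvexOn ℝ (Sx q) (fun r => K f p r) := by
  refine ⟨convex_stdSimplex ℝ (Fin q), fun r hr r' hr' a b ha hb hab => ?_⟩
  simp only [smul_eq_mul, K]
  set s := ∑ j, p j * r j with hs
  set s' := ∑ j, p j * r' j with hs'
  have hs0 : 0 ≤ s := Finset.sum_nonneg fun j _ => mul_nonneg (hp.1 j) (hr.1 j)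
  have hs0' : 0 ≤ s' := Finset.sum_nonneg fun j _ => mul_nonneg (hp.1 j) (hr'.1 j)
  have hi := inner_add_smul p r r' a b
  rw [hi, ← hs, ← hs']
  have hz : ∀ {t : Fin q → ℝ}, t ∈ Sx q → ∑ j, p j * t j = 0 → ∀ j, p j * t j = 0 := by
    intro t ht h0 j
    exact (Finset.sum_eq_zero_iff_of_nonneg
      (fun j _ => mul_nonneg (hp.1 j) (ht.1 j))).1 h0 j (Finset.mem_univ j)
  by_cases h1 : a * s = 0
  · -- all the mass on `r'`
    have hspec : a * s + b * s' = b * s' := by rw [h1, zero_add]
    by_cases h2 : b * s' = 0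
    · rw [hspec, h2, zero_mul]
      simp only [← mul_assoc, h1, h2, zero_mul, add_zero, le_refl]
    · have hb' : b ≠ 0 := fun h => h2 (by rw [h, zero_mul])
      have hs'' : s' ≠ 0 := fun h => h2 (by rw [h, mul_zero])
      have hsp : sp p (a • r + b • r') = sp p r' := by
        funext i
        simp only [sp]
        rw [hi, ← hs, ← hs', hspec]
        simp only [Pi.add_apply, Pi.smul_apply, smul_eq_mul]
        have : a * (p i * r i) = 0 := by
          rcases mul_eq_zero.1 h1 with h | h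
          · rw [h, zero_mul]
          · rw [hz hr (by rw [← hs]; exact h) i, mul_zero]
        have e : p i * (a * r i + b * r' i) = b * (p i * r' i) := by
          have : p i * (a * r i + b * r' i) = a * (p i * r i) + b * (p i * r' i) := by ring
          rw [this, ‹a * (p i * r i) = 0›, zero_add]
        rw [e]
        field_simp
      rw [hsp, hspec]
      have : a * (s * f (sp p r)) = 0 := by
        rw [← mul_assoc, h1, zero_mul]
      rw [this, zero_add]
      exact le_of_eq (by ring)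
  by_cases h2 : b * s' = 0
  · have hspec : a * s + b * s' = a * s := by rw [h2, add_zero]
    have ha' : a ≠ 0 := fun h => h1 (by rw [h, zero_mul])
    have hs'' : s ≠ 0 := fun h => h1 (by rw [h, mul_zero])
    have hsp : sp p (a • r + b • r') = sp p r := by
      funext i
      simp only [sp]
      rw [hi, ← hs, ← hs', hspec]
      simp only [Pi.add_apply, Pi.smul_apply, smul_eq_mul]
      have h3 : b * (p i * r' i) = 0 := by
        rcases mul_eq_zero.1 h2 with h | h
        · rw [h, zero_mul]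
        · rw [hz hr' (by rw [← hs']; exact h) i, mul_zero]
      have e : p i * (a * r i + b * r' i) = a * (p i * r i) := by
        have : p i * (a * r i + b * r' i) = a * (p i * r i) + b * (p i * r' i) := by ring
        rw [this, h3, add_zero]
      rw [e]
      field_simp
    rw [hsp, hspec]
    have : b * (s' * f (sp p r')) = 0 := by
      rw [← mul_assoc, h2, zero_mul]
    rw [this, add_zero]
    exact le_of_eq (by ring)
  · -- both have mass
    have hs1 : s ≠ 0 := fun h => h1 (by rw [h, mul_zero])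
    have hs2 : s' ≠ 0 := fun h => h2 (by rw [h, mul_zero])
    have hpos1 : 0 < a * s := lt_of_le_of_ne (mul_nonneg ha hs0) (Ne.symm h1)
    have hpos2 : 0 < b * s' := lt_of_le_of_ne (mul_nonneg hb hs0') (Ne.symm h2)
    set S := a * s + b * s' with hS
    have hSpos : 0 < S := add_pos hpos1 hpos2
    have hsp : sp p (a • r + b • r') = (a * s / S) • sp p r + (b * s' / S) • sp p r' := by
      funext i
      simp only [sp]
      rw [hi]
      simp only [Pi.add_apply, Pi.smul_apply, smul_eq_mul, sp]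
      rw [← hs, ← hs']
      field_simp
    have hconv := hf.2 (sp_mem hp hr hs1) (sp_mem hp hr' hs2)
      (show 0 ≤ a * s / S by positivity) (show 0 ≤ b * s' / S by positivity)
      (by rw [← add_div, ← hS]; exact div_self hSpos.ne')
    simp only [smul_eq_mul] at hconv
    rw [hsp]
    calc S * f ((a * s / S) • sp p r + (b * s' / S) • sp p r')
        ≤ S * (a * s / S * f (sp p r) + b * s' / S * f (sp p r')) :=
          mul_le_mul_of_nonneg_left hconv hSpos.le
      _ = a * (s * f (sp p r)) + b * (s' * f (sp p r')) := by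
          field_simp

lemma Dom.star_right {Ω Ω' Ω'' : Type*} {M : Ω'' → Fin q → ℝ} {L : Ω → Fin q → ℝ}
    {L' : Ω' → Fin q → ℝ} (hq : q ≠ 0) (hM : IsLik M) (hL : IsLik L) (hL' : IsLik L')
    (h : Dom L' L) : Dom (star M L') (star M L) := by
  intro f hf hfc
  obtain ⟨C, hC⟩ := id hf
  rw [pot_star hM hL' hf, pot_star hM hL hf]
  have hqC : 0 ≤ (q : ℝ) := by positivity
  have hbd : ∀ p ∈ Sx q, ∀ r ∈ Sx q, |(q : ℝ) * K f p r| ≤ (q : ℝ) * C := by
    intro p hp r hr
    rw [abs_mul, abs_of_nonneg hqC]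
    exact mul_le_mul_of_nonneg_left (abs_K_le hC hp hr) hqC
  refine pot_mono hM (bddS_pot_of_bdd hq hL' hbd) (bddS_pot_of_bdd hq hL hbd) fun p hp => ?_
  refine h _ (BddS2 hf hp) ?_
  exact (convexOn_K hfc hp).smul hqC

/-- `star` is commutative. -/
def starSwap {Ω Ω' : Type*} : Ω × Ω' ≃ Ω' × Ω := Equiv.prodComm Ω Ω'

lemma star_swap {Ω Ω' : Type*} (L : Ω → Fin q → ℝ) (L' : Ω' → Fin q → ℝ) (w : Ω × Ω') :
    star L' L (starSwap w) = star L L' w := by
  funext i
  simp [star, starSwap, mul_comm]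

lemma pot_star_comm {Ω Ω' : Type*} (L : Ω → Fin q → ℝ) (L' : Ω' → Fin q → ℝ)
    (f : (Fin q → ℝ) → ℝ) : Pot f (star L' L) = Pot f (star L L') :=
  pot_congr_equiv starSwap (star_swap L L') f

lemma Dom.star_left {Ω Ω' Ω'' : Type*} {M : Ω'' → Fin q → ℝ} {L : Ω → Fin q → ℝ}
    {L' : Ω' → Fin q → ℝ} (hq : q ≠ 0) (hM : IsLik M) (hL : IsLik L) (hL' : IsLik L')
    (h : Dom L' L) : Dom (star L' M) (star L M) := by
  intro f hf hfc
  rw [pot_star_comm M L' f, pot_star_comm M L f]
  exact Dom.star_right hq hM hL hL' h f hf hfc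

lemma Dom.star {Ω₁ Ω₂ Ω₁' Ω₂' : Type*} {L₁ : Ω₁ → Fin q → ℝ} {L₂ : Ω₂ → Fin q → ℝ}
    {L₁' : Ω₁' → Fin q → ℝ} {L₂' : Ω₂' → Fin q → ℝ} (hq : q ≠ 0) (h1 : IsLik L₁) (h2 : IsLik L₂)
    (h1' : IsLik L₁') (h2' : IsLik L₂') (h : Dom L₁' L₁) (h' : Dom L₂' L₂) :
    Dom (star L₁' L₂') (star L₁ L₂) :=
  (Dom.star_right hq h1' h2 h2' h').trans (Dom.star_left hq h2 h1 h1' h)

/-! ### top and bottom -/

lemma pot_coord {Ω : Type*} {L : Ω → Fin q → ℝ} (hL : IsLik L) (a : Fin q) :
    Pot (fun p => p a) L = (q : ℝ)⁻¹ := by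
  simp only [Pot]
  have : ∀ ω, hom (fun p : Fin q → ℝ => p a) (L ω) = L ω a := by
    intro ω
    by_cases h : mass (L ω) = 0
    · simp [hom, h, eq_zero_of_mass_eq_zero (hL.nonneg ω) h a]
    · simp only [hom, post]
      field_simp
  simp only [this, hL.sum_one, mul_one]

lemma eq_sum_baseL {p : Fin q → ℝ} : p = ∑ a, p a • baseL q a := by
  funext i
  simp [Finset.sum_apply, baseL]

/-- The atom experiment is the top. -/
lemma dom_baseL {Ω : Type*} {L : Ω → Fin q → ℝ} (hL : IsLik L) : Dom L (baseL q) := by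
  intro f hf hfc
  rw [pot_baseL]
  have hle : ∀ p ∈ Sx q, f p ≤ ∑ a, p a * f (baseL q a) := by
    intro p hp
    have := hfc.map_sum_le (t := Finset.univ) (w := fun a => p a) (p := fun a => baseL q a)
      (fun a _ => hp.1 a) hp.2 (fun a _ => baseL_mem a)
    simp only [smul_eq_mul] at this
    rwa [← eq_sum_baseL] at this
  have hb : BddS (fun p : Fin q → ℝ => ∑ a, p a * f (baseL q a)) := by
    refine BddS.sum _ fun a _ => ?_
    exact BddS.mul ⟨1, fun p hp => by
      rw [abs_of_nonneg (hp.1 a)]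
      exact coord_le_one hp a⟩ (BddS.const _)
  calc Pot f L ≤ Pot (fun p : Fin q → ℝ => ∑ a, p a * f (baseL q a)) L := pot_mono hL hf hb hle
    _ = (q : ℝ)⁻¹ * ∑ a, f (baseL q a) := by
        rw [pot_sum hL _ fun a _ => BddS.mul ⟨1, fun p hp => by
          rw [abs_of_nonneg (hp.1 a)]
          exact coord_le_one hp a⟩ (BddS.const _)]
        rw [Finset.mul_sum]
        refine Finset.sum_congr rfl fun a _ => ?_
        simp only [mul_comm _ (f (baseL q a))]
        rw [pot_const_mul, pot_coord hL]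

/-- The uniform point is the mean of the posteriors; finite case of Jensen. -/
lemma le_pot_of_convex {Ω : Type*} [Fintype Ω] {L : Ω → Fin q → ℝ} (hq : q ≠ 0) (hL : IsLik L)
    {f : (Fin q → ℝ) → ℝ} (hfc : ConvexOn ℝ (Sx q) f) :
    f (fun _ => 1 / (q : ℝ)) ≤ Pot f L := by
  classical
  have hq' : (q : ℝ) ≠ 0 := by exact_mod_cast hq
  have hq0 : (0 : ℝ) < q := lt_of_le_of_ne (by positivity) (Ne.symm hq')
  have hmass : ∑ ω, mass (L ω) = q := by
    have := hL.tsum_mass
    rwa [tsum_fintype] at this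
  -- the sum over the support
  set s := (Finset.univ : Finset Ω).filter fun ω => mass (L ω) ≠ 0 with hs
  have hsum1 : ∑ ω ∈ s, (q : ℝ)⁻¹ * mass (L ω) = 1 := by
    rw [← Finset.mul_sum, hs, Finset.sum_filter_ne_zero, hmass]
    field_simp
  have hJ := hfc.map_sum_le (t := s) (w := fun ω => (q : ℝ)⁻¹ * mass (L ω))
    (p := fun ω => post (L ω))
    (fun ω _ => mul_nonneg (by positivity) (mass_nonneg (hL.nonneg ω))) hsum1
    (fun ω hω => post_mem (hL.nonneg ω) (Finset.mem_filter.1 hω).2)
  have hmean : ∑ ω ∈ s, ((q : ℝ)⁻¹ * mass (L ω)) • post (L ω) = fun _ => 1 / (q : ℝ) := by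
    funext i
    simp only [Finset.sum_apply, Pi.smul_apply, smul_eq_mul]
    have h1 : ∀ ω ∈ s, (q : ℝ)⁻¹ * mass (L ω) * post (L ω) i = (q : ℝ)⁻¹ * L ω i := by
      intro ω hω
      have := (Finset.mem_filter.1 hω).2
      simp only [post]
      field_simp
    rw [Finset.sum_congr rfl h1, ← Finset.mul_sum]
    have h2 : ∑ ω ∈ s, L ω i = ∑ ω, L ω i := by
      refine Finset.sum_subset (Finset.filter_subset _ _) fun ω _ hω => ?_
      have : mass (L ω) = 0 := by
        by_contra h
        exact hω (Finset.mem_filter.2 ⟨Finset.mem_univ _, h⟩)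
      exact eq_zero_of_mass_eq_zero (hL.nonneg ω) this i
    have h3 := hL.sum_one i
    rw [tsum_fintype] at h3
    rw [h2, h3]
    field_simp
  rw [hmean] at hJ
  refine hJ.trans (le_of_eq ?_)
  simp only [Pot, smul_eq_mul]
  rw [tsum_fintype, Finset.mul_sum]
  have hs2 : ∑ ω ∈ s, (q : ℝ)⁻¹ * hom f (L ω) = ∑ ω, (q : ℝ)⁻¹ * hom f (L ω) := by
    refine Finset.sum_subset (Finset.filter_subset _ _) fun ω _ hω => ?_
    have : mass (L ω) = 0 := by
      by_contra h
      exact hω (Finset.mem_filter.2 ⟨Finset.mem_univ _, h⟩)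
    simp [hom, this]
  rw [← hs2]
  refine Finset.sum_congr rfl fun ω _ => ?_
  simp only [hom]
  ring

/-- A contraction with a parameter in `[0,1]` loses information. -/
lemma dom_contract_self {Ω : Type*} [Fintype Ω] {L : Ω → Fin q → ℝ} (hq : q ≠ 0) (hL : IsLik L)
    {t : ℝ} (h0 : 0 ≤ t) (h1 : t ≤ 1) : Dom (contract t L) L := by
  intro f hf hfc
  rw [pot_contract hq]
  have hq' : (q : ℝ) ≠ 0 := by exact_mod_cast hq
  have hu : (fun _ => 1 / (q : ℝ)) ∈ Sx q := by
    refine ⟨fun i => by positivity, ?_⟩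
    simp
    field_simp
  have hle : ∀ p ∈ Sx q, f (T q t p) ≤ t * f p + (1 - t) * f (fun _ => 1 / (q : ℝ)) := by
    intro p hp
    have := hfc.2 hp hu h0 (by linarith : 0 ≤ 1 - t) (by ring)
    simp only [smul_eq_mul] at this
    have e : T q t p = t • p + (1 - t) • (fun _ => 1 / (q : ℝ)) := by
      funext i
      simp only [T, Pi.add_apply, Pi.smul_apply, smul_eq_mul]
      ring
    rw [e]
    exact this
  have hb : BddS (fun p : Fin q → ℝ => t * f p + (1 - t) * f (fun _ => 1 / (q : ℝ))) :=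
    (hf.const_mul t).add (BddS.const _)
  have hchan : ChanOK q t := chanOK_of_nonneg h0 h1
  calc Pot (fun p => f (T q t p)) L
      ≤ Pot (fun p : Fin q → ℝ => t * f p + (1 - t) * f (fun _ => 1 / (q : ℝ))) L :=
        pot_mono hL (BddS.comp_T hq hchan hf) hb hle
    _ = t * Pot f L + (1 - t) * f (fun _ => 1 / (q : ℝ)) := by
        rw [pot_add hL (hf.const_mul t) (BddS.const _), pot_const_mul, pot_const hq hL]
    _ ≤ t * Pot f L + (1 - t) * Pot f L := by
        have := le_pot_of_convex hq hL hfc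
        have h2 : 0 ≤ 1 - t := by linarith
        nlinarith
    _ = Pot f L := by ring

/-! ### Thinning -/

/-- With probability `p` the observation `ω`, otherwise nothing. -/
def thin {Ω : Type*} (p : ℝ) (L : Ω → Fin q → ℝ) : Option Ω → Fin q → ℝ :=
  fun o i => match o with
    | some ω => p * L ω i
    | none => 1 - p

lemma hasSum_option {Ω : Type*} {g : Option Ω → ℝ} {s : ℝ} (h : HasSum (fun ω => g (some ω)) s) :
    HasSum g (g none + s) := by
  classical
  have h1 : HasSum (fun o : Option Ω => if o = none then g none else 0) (g none) :=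
    hasSum_ite_eq none (g none)
  have h2 : HasSum (fun o : Option Ω => o.elim 0 (fun ω => g (some ω))) s := by
    refine ((Option.some_injective Ω).hasSum_iff ?_).1 h
    rintro (_ | x) hx
    · rfl
    · exact absurd ⟨x, rfl⟩ hx
  have h3 := h1.add h2
  have e : (fun o : Option Ω => (if o = none then g none else 0) +
      o.elim 0 (fun ω => g (some ω))) = g := by
    funext o
    cases o <;> simp
  rwa [e] at h3

lemma tsum_option {Ω : Type*} {g : Option Ω → ℝ} (h : Summable (fun ω => g (some ω))) :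
    ∑' o, g o = g none + ∑' ω, g (some ω) :=
  (hasSum_option h.hasSum).tsum_eq

lemma isLik_thin {Ω : Type*} {L : Ω → Fin q → ℝ} (hL : IsLik L) {p : ℝ} (h0 : 0 ≤ p) (h1 : p ≤ 1) :
    IsLik (thin p L) where
  nonneg o i := by
    cases o with
    | none => simpa [thin] using h1
    | some ω => exact mul_nonneg h0 (hL.nonneg ω i)
  summable i := (hasSum_option (g := fun o => thin p L o i)
    ((hL.summable i).hasSum.mul_left p)).summable
  sum_one i := by
    have := (hasSum_option (g := fun o => thin p L o i)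
      ((hL.summable i).hasSum.mul_left p)).tsum_eq
    rw [this, hL.sum_one]
    simp [thin]

lemma hom_const_mul (f : (Fin q → ℝ) → ℝ) {c : ℝ} (x : Fin q → ℝ) :
    hom f (fun i => c * x i) = c * hom f x := by
  by_cases hc : c = 0
  · subst hc
    simp [hom, mass]
  have hm : mass (fun i => c * x i) = c * mass x := by
    simp [mass, Finset.mul_sum]
  by_cases h : mass x = 0
  · simp [hom, hm, h]
  have hp : post (fun i => c * x i) = post x := by
    funext i
    simp only [post, hm]
    field_simp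
  simp only [hom, hm, hp]
  ring

lemma hom_const_fn (hq : q ≠ 0) (f : (Fin q → ℝ) → ℝ) (c : ℝ) :
    hom f (fun _ : Fin q => c) = c * ((q : ℝ) * f (fun _ => 1 / (q : ℝ))) := by
  have hq' : (q : ℝ) ≠ 0 := by exact_mod_cast hq
  have := hom_const_mul f (c := c) (fun _ : Fin q => (1 : ℝ))
  simp only [mul_one] at this
  rw [this]
  have h1 : post (fun _ : Fin q => (1 : ℝ)) = fun _ => 1 / (q : ℝ) := by
    funext i
    simp [post, mass]
  simp only [hom, h1]
  simp [mass]

/-- The potential of a thinned experiment. -/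
lemma pot_thin {Ω : Type*} {L : Ω → Fin q → ℝ} (hq : q ≠ 0) (hL : IsLik L) {f : (Fin q → ℝ) → ℝ}
    (hf : BddS f) (p : ℝ) :
    Pot f (thin p L) = p * Pot f L + (1 - p) * f (fun _ => 1 / (q : ℝ)) := by
  have hq' : (q : ℝ) ≠ 0 := by exact_mod_cast hq
  simp only [Pot]
  have hs : ∀ ω, hom f (thin p L (some ω)) = p * hom f (L ω) := fun ω => hom_const_mul f (L ω)
  have hn : hom f (thin p L none) = (1 - p) * ((q : ℝ) * f (fun _ => 1 / (q : ℝ))) :=
    hom_const_fn hq f (1 - p)
  rw [tsum_option (g := fun o => hom f (thin p L o))]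
  · simp only [hs, hn, tsum_mul_left]
    field_simp
    ring
  · simp only [hs]
    exact (hL.summable_hom hf).mul_left p

lemma dom_thin {Ω : Type*} [Fintype Ω] {L : Ω → Fin q → ℝ} (hq : q ≠ 0) (hL : IsLik L)
    {p : ℝ} (h0 : 0 ≤ p) (h1 : p ≤ 1) : Dom (thin p L) L := by
  intro f hf hfc
  rw [pot_thin hq hL hf]
  have := le_pot_of_convex hq hL hfc
  have h2 : 0 ≤ 1 - p := by linarith
  nlinarith

lemma symLik_thin {Ω : Type*} {L : Ω → Fin q → ℝ} (hq : q ≠ 0) (hL : IsLik L) (hS : SymLik L)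
    (p : ℝ) : SymLik (thin p L) := by
  intro π g hg
  rw [pot_thin hq hL (BddS.comp_rel π hg), pot_thin hq hL hg, hS π g hg]
  rfl

/-! ### Convexity of the two main functionals -/

lemma convexOn_A : ConvexOn ℝ (Sx q) (A q) := by
  refine ⟨convex_stdSimplex ℝ (Fin q), fun x _ y _ a b ha hb hab => ?_⟩
  simp only [A, smul_eq_mul, Pi.add_apply, Pi.smul_apply]
  have h : ∑ i, (a * x i + b * y i) ^ 2 ≤ a * ∑ i, x i ^ 2 + b * ∑ i, y i ^ 2 := by
    rw [Finset.mul_sum, Finset.mul_sum, ← Finset.sum_add_distrib]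
    refine Finset.sum_le_sum fun i _ => ?_
    have hb' : b = 1 - a := by linarith
    subst hb'
    nlinarith [mul_nonneg ha hb, sq_nonneg (x i - y i)]
  have hq0 : (0 : ℝ) ≤ q := by positivity
  have := mul_le_mul_of_nonneg_left h hq0
  have e : a * ((q : ℝ) * ∑ i, x i ^ 2 - 1) + b * ((q : ℝ) * ∑ i, y i ^ 2 - 1) =
      (q : ℝ) * (a * ∑ i, x i ^ 2 + b * ∑ i, y i ^ 2) - (a + b) := by ring
  rw [e, hab]
  linarith

lemma convexOn_tv : ConvexOn ℝ (Sx q) (tv q) := by
  refine ⟨convex_stdSimplex ℝ (Fin q), fun x _ y _ a b ha hb hab => ?_⟩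
  simp only [tv, smul_eq_mul, Pi.add_apply, Pi.smul_apply]
  have h : ∑ i, |a * x i + b * y i - 1 / (q : ℝ)| ≤
      a * ∑ i, |x i - 1 / (q : ℝ)| + b * ∑ i, |y i - 1 / (q : ℝ)| := by
    rw [Finset.mul_sum, Finset.mul_sum, ← Finset.sum_add_distrib]
    refine Finset.sum_le_sum fun i _ => ?_
    have e : a * x i + b * y i - 1 / (q : ℝ) = a * (x i - 1 / (q : ℝ)) + b * (y i - 1 / (q : ℝ)) := by
      have : 1 / (q : ℝ) = (a + b) * (1 / (q : ℝ)) := by rw [hab, one_mul]
      nth_rewrite 1 [this]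
      ring
    rw [e]
    refine (abs_add_le _ _).trans ?_
    rw [abs_mul, abs_mul, abs_of_nonneg ha, abs_of_nonneg hb]
  linarith

end General

/-! ### Monotonicity along a tree -/

section Tree

open Crest.ProbabilityR.TreeBroadcast

variable {V : Type*} [DecidableEq V] (Tr : LocFinTree V) (q : ℕ) [NeZero q] (lam : ℝ)

lemma isLik_Ap (hq : q ≠ 0) (hc : ChanOK q lam) (k : ℕ) (A' : Finset V) :
    IsLik (Ap Tr q lam k A') := by
  induction A' using Finset.induction_on with
  | empty => exact isLik_Ap_empty Tr q lam k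
  | insert a A' ha ih =>
    exact IsLik.congr_equiv (ApEquiv Tr q k ha).symm
      (fun w => by rw [← Ap_insert Tr q lam ha, Equiv.apply_symm_apply])
      (isLik_star (isLik_contract hq hc (isLik_lik Tr q lam hq hc k a)) ih)

lemma symLik_lik_Ap (hq : q ≠ 0) (hc : ChanOK q lam) (k : ℕ) :
    (∀ u, SymLik (lik Tr q lam k u)) ∧ ∀ A' : Finset V, SymLik (Ap Tr q lam k A') := by
  have step : ∀ k, (∀ u, SymLik (lik Tr q lam k u)) → ∀ A' : Finset V, SymLik (Ap Tr q lam k A') := by
    intro k hk A'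
    induction A' using Finset.induction_on with
    | empty => exact symLik_Ap_empty Tr q lam hq k
    | insert a A' ha ih =>
      exact SymLik.congr_equiv (ApEquiv Tr q k ha).symm
        (fun w => by rw [← Ap_insert Tr q lam ha, Equiv.apply_symm_apply])
        (symLik_star hq (isLik_contract hq hc (isLik_lik Tr q lam hq hc k a))
          (isLik_Ap Tr q lam hq hc k A')
          (symLik_contract hq hc (hk a)) ih)
  induction k with
  | zero =>
    have hu : ∀ u, SymLik (lik Tr q lam 0 u) := fun u =>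
      SymLik.congr_equiv (lik0Equiv Tr q u).symm
        (fun a => by rw [← lik_zero Tr q lam, Equiv.apply_symm_apply]) symLik_baseL
    exact ⟨hu, step 0 hu⟩
  | succ k ih =>
    have hu : ∀ u, SymLik (lik Tr q lam (k + 1) u) := fun u => by
      rw [lik_succ]
      exact ih.2 _
    exact ⟨hu, step (k + 1) hu⟩

lemma dom_Ap_of_dom_lik (hq : q ≠ 0) (hc : ChanOK q lam) {k k' : ℕ}
    (h : ∀ u, Dom (lik Tr q lam k' u) (lik Tr q lam k u)) (A' : Finset V) :
    Dom (Ap Tr q lam k' A') (Ap Tr q lam k A') := by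
  induction A' using Finset.induction_on with
  | empty =>
    intro f _ _
    rw [pot_Ap_empty Tr q lam hq, pot_Ap_empty Tr q lam hq]
  | insert a A' ha ih =>
    intro f hf hfc
    rw [pot_Ap_insert Tr q lam ha, pot_Ap_insert Tr q lam ha]
    exact Dom.star hq (isLik_contract hq hc (isLik_lik Tr q lam hq hc k a))
      (isLik_Ap Tr q lam hq hc k A') (isLik_contract hq hc (isLik_lik Tr q lam hq hc k' a))
      (isLik_Ap Tr q lam hq hc k' A') (Dom.contract hq hc (h a)) ih f hf hfc

/-- The experiments lose information along the levels. -/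
theorem dom_lik_succ (hq : q ≠ 0) (hc : ChanOK q lam) (k : ℕ) (u : V) :
    Dom (lik Tr q lam (k + 1) u) (lik Tr q lam k u) := by
  induction k generalizing u with
  | zero =>
    intro f hf hfc
    have h := dom_baseL (isLik_lik Tr q lam hq hc 1 u) f hf hfc
    have e : Pot f (lik Tr q lam 0 u) = Pot f (baseL q) :=
      pot_congr_equiv (lik0Equiv Tr q u).symm
        (fun a => by rw [← lik_zero Tr q lam, Equiv.apply_symm_apply]) f
    rwa [e]
  | succ k ih =>
    rw [lik_succ Tr q lam (k + 1) u, lik_succ Tr q lam k u]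
    exact dom_Ap_of_dom_lik Tr q lam hq hc ih _

theorem dom_Ap_succ (hq : q ≠ 0) (hc : ChanOK q lam) (k : ℕ) (A' : Finset V) :
    Dom (Ap Tr q lam (k + 1) A') (Ap Tr q lam k A') :=
  dom_Ap_of_dom_lik Tr q lam hq hc (fun u => dom_lik_succ Tr q lam hq hc k u) A'

/-- The level advantage of the prelude is nonincreasing. -/
theorem treeAdvantage_antitone (hq : q ≠ 0) (hc : ChanOK q lam) :
    Antitone (treeAdvantage q Tr lam) := by
  refine antitone_nat_of_succ_le fun n => ?_
  rw [pot_lik_root_eq Tr q lam hq hc, pot_lik_root_eq Tr q lam hq hc]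
  exact dom_lik_succ Tr q lam hq hc n _ _ (bddS_tv hq) convexOn_tv

end Tree

end Crest.Agent.PottsTree
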