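import Crest.Prelude.Def_TreeBroadcast

/-!
# Reconstruction implies a flow of bounded ray potential (numbers only)

Pure bookkeeping on a locally finite tree for `S0246`, direction "advantage bounded below implies
a flow": given numbers `x v ∈ [0,1]` with `x root > 0` obeying the vertex inequalities `H1, H2, H3`
of `Hyps` below (consequences of the two-body bound `x'' ≤ x + x' - κ x x' (x + x')`), we produce a
nonnegative flow of positive mass with ray potential at most `1` along every ray.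

The split at a vertex is by marginal efficiency: the largest child keeps factor `≤ 1`, every other
child loses a factor `1 - κ y₀²`; then `R² (1 - α x²)` decreases by `c R² x²` along every edge.
-/

set_option autoImplicit false

open Finset Crest.ProbabilityR.TreeBroadcast

namespace Crest.Agent.PottsTree.TreeFlow

/-- The split at one vertex, finite-set version. -/
lemma split {ι : Type*} [DecidableEq ι] (S : Finset ι) (y : ι → ℝ)
    (hy0 : ∀ i ∈ S, 0 ≤ y i) (hy1 : ∀ i ∈ S, y i ≤ 1)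
    (x κ τ : ℝ) (B : ℕ) (hx : 0 ≤ x) (hκ0 : 0 < κ) (hκ1 : κ ≤ 1) (hτ0 : 0 < τ) (hτ1 : τ < 1)
    (hB : S.card ≤ B)
    (H1 : x ≤ ∑ i ∈ S, y i)
    (H2 : ∀ i ∈ S, ∀ j ∈ S, i ≠ j → x ≤ ∑ k ∈ S, y k - κ * y i * y j * (y i + y j))
    (H3 : ∀ i ∈ S, x ≤ y i + (∑ k ∈ S, y k - y i) * (1 - κ * y i ^ 2)) :
    ∃ g : ι → ℝ, (∀ i ∈ S, 0 ≤ g i) ∧ (∀ i ∈ S, g i ≤ 1) ∧ ∑ i ∈ S, y i * g i = x ∧
      ∀ i ∈ S, (1 - τ) * x ≤ y i ∨
        g i ≤ 1 - min (κ * (1 - τ) ^ 2) (κ * τ / (B : ℝ) ^ 3) * x ^ 2 := by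
  classical
  set s := ∑ k ∈ S, y k with hs
  have hs0 : 0 ≤ s := Finset.sum_nonneg hy0
  by_cases hspos : s = 0
  · -- everything vanishes
    have hx0 : x = 0 := le_antisymm (by linarith) hx
    refine ⟨fun _ => 0, fun _ _ => le_rfl, fun _ _ => zero_le_one, ?_, ?_⟩
    · simp [hx0]
    · intro i _
      right
      simp [hx0]
  have hspos' : 0 < s := lt_of_le_of_ne hs0 (Ne.symm hspos)
  have hne : S.Nonempty := by
    by_contra h
    rw [Finset.not_nonempty_iff_eq_empty] at h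
    apply hspos
    simp [hs, h]
  obtain ⟨c0, hc0, hmax⟩ := Finset.exists_max_image S y hne
  set y0 := y c0 with hy0def
  set r := s - y0 with hr
  have hcardpos : 0 < S.card := Finset.card_pos.mpr hne
  have hBpos : (0 : ℝ) < B := by
    have : 0 < B := lt_of_lt_of_le hcardpos hB
    exact_mod_cast this
  have hy0le : s ≤ (B : ℝ) * y0 := by
    calc s ≤ ∑ _k ∈ S, y0 := Finset.sum_le_sum hmax
      _ = (S.card : ℝ) * y0 := by simp
      _ ≤ (B : ℝ) * y0 := by
        have h1 : (S.card : ℝ) ≤ B := by exact_mod_cast hB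
        exact mul_le_mul_of_nonneg_right h1 (hy0 c0 hc0)
  have hy0pos : 0 < y0 := by
    by_contra h
    have : y0 = 0 := le_antisymm (not_lt.mp h) (hy0 c0 hc0)
    rw [this] at hy0le
    simp at hy0le
    linarith
  have hy01 : y0 ≤ 1 := hy1 c0 hc0
  have hxs : x ≤ s := H1
  have hr0 : 0 ≤ r := by
    have : s = y0 + ∑ k ∈ S.erase c0, y k := by
      rw [hs, hy0def]; exact (Finset.add_sum_erase S y hc0).symm
    have h2 : 0 ≤ ∑ k ∈ S.erase c0, y k :=
      Finset.sum_nonneg (fun k hk => hy0 k (Finset.mem_of_mem_erase hk))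
    rw [hr]; linarith
  have hκy : 0 ≤ 1 - κ * y0 ^ 2 := by
    have : y0 ^ 2 ≤ 1 := by nlinarith
    nlinarith
  have hκy1 : 1 - κ * y0 ^ 2 ≤ 1 := by
    have : 0 ≤ κ * y0 ^ 2 := by positivity
    linarith
  have hsdecomp : ∑ i ∈ S, y i = y0 + ∑ k ∈ S.erase c0, y k := by
    rw [hy0def]; exact (Finset.add_sum_erase S y hc0).symm
  by_cases hdom : r ≤ τ * s
  · -- dominant child
    set D := y0 + r * (1 - κ * y0 ^ 2) with hD
    have hDpos : 0 < D := by
      have : 0 ≤ r * (1 - κ * y0 ^ 2) := mul_nonneg hr0 hκy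
      linarith
    have hxD : x ≤ D := by
      have := H3 c0 hc0
      simpa [hD, hr, hs, hy0def] using this
    set f := x / D with hf
    have hf0 : 0 ≤ f := div_nonneg hx hDpos.le
    have hf1 : f ≤ 1 := (div_le_one hDpos).mpr hxD
    refine ⟨fun i => if i = c0 then f else f * (1 - κ * y0 ^ 2), ?_, ?_, ?_, ?_⟩
    · intro i _
      by_cases h : i = c0
      · simp [h, hf0]
      · simp only [h, if_false]; exact mul_nonneg hf0 hκy
    · intro i _
      by_cases h : i = c0
      · simp [h, hf1]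
      · simp only [h, if_false]
        calc f * (1 - κ * y0 ^ 2) ≤ 1 * 1 := mul_le_mul hf1 hκy1 hκy zero_le_one
          _ = 1 := by norm_num
    · rw [← Finset.add_sum_erase S _ hc0]
      simp only [if_true]
      have : ∑ i ∈ S.erase c0, y i * (if i = c0 then f else f * (1 - κ * y0 ^ 2))
          = (∑ i ∈ S.erase c0, y i) * (f * (1 - κ * y0 ^ 2)) := by
        rw [Finset.sum_mul]
        apply Finset.sum_congr rfl
        intro i hi
        rw [if_neg (Finset.ne_of_mem_erase hi)]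
      rw [this]
      have hrr : ∑ i ∈ S.erase c0, y i = r := by
        rw [hr, hs, hsdecomp]; ring
      rw [hrr]
      have : x = f * D := by rw [hf]; field_simp
      rw [this, hD]; ring
    · intro i hi
      by_cases h : i = c0
      · left
        rw [h]
        have h1 : (1 - τ) * s ≤ y0 := by rw [hr] at hdom; linarith
        have h2 : (1 - τ) * x ≤ (1 - τ) * s :=
          mul_le_mul_of_nonneg_left hxs (by linarith)
        linarith
      · right
        simp only [h, if_false]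
        have h1 : (1 - τ) * s ≤ y0 := by rw [hr] at hdom; linarith
        have h2 : (1 - τ) * x ≤ y0 := by
          have : (1 - τ) * x ≤ (1 - τ) * s := mul_le_mul_of_nonneg_left hxs (by linarith)
          linarith
        have h3 : ((1 - τ) * x) ^ 2 ≤ y0 ^ 2 :=
          pow_le_pow_left₀ (mul_nonneg (by linarith) hx) h2 2
        have hm : min (κ * (1 - τ) ^ 2) (κ * τ / (B : ℝ) ^ 3) * x ^ 2 ≤ κ * y0 ^ 2 := by
          calc min (κ * (1 - τ) ^ 2) (κ * τ / (B : ℝ) ^ 3) * x ^ 2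
              ≤ (κ * (1 - τ) ^ 2) * x ^ 2 :=
                mul_le_mul_of_nonneg_right (min_le_left _ _) (sq_nonneg x)
            _ = κ * ((1 - τ) * x) ^ 2 := by ring
            _ ≤ κ * y0 ^ 2 := mul_le_mul_of_nonneg_left h3 hκ0.le
        calc f * (1 - κ * y0 ^ 2) ≤ 1 * (1 - κ * y0 ^ 2) :=
              mul_le_mul_of_nonneg_right hf1 hκy
          _ ≤ _ := by linarith
  · -- no dominant child
    have hdom' : τ * s < r := not_le.mp hdom
    have hrpos : 0 < r := lt_of_le_of_lt (by positivity) hdom'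
    have herase : (S.erase c0).Nonempty := by
      by_contra h
      rw [Finset.not_nonempty_iff_eq_empty] at h
      have : r = 0 := by
        rw [hr, hs, hsdecomp, h]; simp
      linarith
    obtain ⟨c1, hc1, hmax1⟩ := Finset.exists_max_image (S.erase c0) y herase
    have hc1S : c1 ∈ S := Finset.mem_of_mem_erase hc1
    have hne01 : c0 ≠ c1 := (Finset.ne_of_mem_erase hc1).symm
    have hy1le : r ≤ (B : ℝ) * y c1 := by
      have hrr : r = ∑ k ∈ S.erase c0, y k := by
        rw [hr, hs, hsdecomp]; ring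
      rw [hrr]
      calc ∑ k ∈ S.erase c0, y k ≤ ∑ _k ∈ S.erase c0, y c1 := Finset.sum_le_sum hmax1
        _ = ((S.erase c0).card : ℝ) * y c1 := by simp
        _ ≤ (B : ℝ) * y c1 := by
          have h1 : ((S.erase c0).card : ℝ) ≤ B := by
            have : (S.erase c0).card ≤ S.card := Finset.card_le_card (Finset.erase_subset _ _)
            exact_mod_cast this.trans hB
          exact mul_le_mul_of_nonneg_right h1 (hy0 c1 hc1S)
    have hy1nn := hy0 c1 hc1S
    have hH2 := H2 c0 hc0 c1 hc1S hne01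
    -- lower bound for the loss
    have hloss : κ * τ * s ^ 3 / (B : ℝ) ^ 3 ≤ κ * y0 * y c1 * (y0 + y c1) := by
      have h1 : s / B ≤ y0 := by
        rw [div_le_iff₀ hBpos]; linarith
      have h2 : τ * s / B ≤ y c1 := by
        rw [div_le_iff₀ hBpos]; linarith
      have h3 : s / B ≤ y0 + y c1 := by linarith
      have h0 : 0 ≤ s / B := by positivity
      have h0' : 0 ≤ τ * s / B := by positivity
      have : (s / B) * (τ * s / B) * (s / B) ≤ y0 * y c1 * (y0 + y c1) := by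
        apply mul_le_mul (mul_le_mul h1 h2 h0' hy0pos.le) h3 h0 (by positivity)
      calc κ * τ * s ^ 3 / (B : ℝ) ^ 3 = κ * ((s / B) * (τ * s / B) * (s / B)) := by
            field_simp
        _ ≤ κ * (y0 * y c1 * (y0 + y c1)) := mul_le_mul_of_nonneg_left this hκ0.le
        _ = κ * y0 * y c1 * (y0 + y c1) := by ring
    have hxle : x ≤ s - κ * τ * s ^ 3 / (B : ℝ) ^ 3 := by linarith
    refine ⟨fun _ => x / s, fun _ _ => div_nonneg hx hs0, fun _ _ => (div_le_one hspos').mpr hxs,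
      ?_, ?_⟩
    · rw [← Finset.sum_mul]
      show s * (x / s) = x
      field_simp
    · intro i _
      right
      show x / s ≤ _
      have hds : x / s ≤ 1 - κ * τ * s ^ 2 / (B : ℝ) ^ 3 := by
        rw [div_le_iff₀ hspos']
        have : (1 - κ * τ * s ^ 2 / (B : ℝ) ^ 3) * s = s - κ * τ * s ^ 3 / (B : ℝ) ^ 3 := by
          field_simp
        linarith
      have hx2 : x ^ 2 ≤ s ^ 2 := pow_le_pow_left₀ hx hxs 2
      have hm : min (κ * (1 - τ) ^ 2) (κ * τ / (B : ℝ) ^ 3) * x ^ 2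
          ≤ κ * τ * s ^ 2 / (B : ℝ) ^ 3 := by
        calc min (κ * (1 - τ) ^ 2) (κ * τ / (B : ℝ) ^ 3) * x ^ 2
            ≤ (κ * τ / (B : ℝ) ^ 3) * x ^ 2 :=
              mul_le_mul_of_nonneg_right (min_le_right _ _) (sq_nonneg x)
          _ ≤ (κ * τ / (B : ℝ) ^ 3) * s ^ 2 :=
              mul_le_mul_of_nonneg_left hx2 (by positivity)
          _ = κ * τ * s ^ 2 / (B : ℝ) ^ 3 := by ring
      linarith

/-- One step of the potential `W = R² (1 - α x²)`. -/
lemma potential_step (R g x x' γ η α : ℝ) (hx0 : 0 ≤ x) (hx1 : x ≤ 1) (hx'0 : 0 ≤ x')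
    (hg0 : 0 ≤ g) (hg1 : g ≤ 1) (hγ : 1 < γ) (hη : 0 < η) (hα0 : 0 < α)
    (hαη : α ≤ η / 2) (hαγ : α ≤ (γ ^ 2 - 1) / (4 * γ ^ 2))
    (hstep : γ * x ≤ x' ∨ g ≤ 1 - η * x ^ 2) :
    min (η / 2) (min (α * (γ ^ 2 - 1) / 2) ((γ ^ 2 - 1) / (4 * γ ^ 2))) * (R ^ 2 * x ^ 2)
      ≤ R ^ 2 * (1 - α * x ^ 2) - (R * g) ^ 2 * (1 - α * x' ^ 2) := by
  set c := min (η / 2) (min (α * (γ ^ 2 - 1) / 2) ((γ ^ 2 - 1) / (4 * γ ^ 2))) with hc
  have hγ2 : 1 < γ ^ 2 := by nlinarith
  have hγ2pos : 0 < γ ^ 2 := by linarith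
  have hx2 : x ^ 2 ≤ 1 := by nlinarith
  have hx2nn : 0 ≤ x ^ 2 := sq_nonneg x
  have hR2 : 0 ≤ R ^ 2 := sq_nonneg R
  suffices h : c * x ^ 2 ≤ (1 - α * x ^ 2) - g ^ 2 * (1 - α * x' ^ 2) by
    have := mul_le_mul_of_nonneg_left h hR2
    nlinarith
  have hg2 : g ^ 2 ≤ g := by nlinarith
  have hg21 : g ^ 2 ≤ 1 := by nlinarith
  have hg2nn : 0 ≤ g ^ 2 := sq_nonneg g
  have hc1 : c ≤ η / 2 := min_le_left _ _
  have hc2 : c ≤ α * (γ ^ 2 - 1) / 2 := (min_le_right _ _).trans (min_le_left _ _)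
  have hc3 : c ≤ (γ ^ 2 - 1) / (4 * γ ^ 2) := (min_le_right _ _).trans (min_le_right _ _)
  rcases hstep with h | h
  · -- dominant step: x grows
    have hx'2 : γ ^ 2 * x ^ 2 ≤ x' ^ 2 := by
      have : (γ * x) ^ 2 ≤ x' ^ 2 :=
        pow_le_pow_left₀ (mul_nonneg (by linarith) hx0) h 2
      nlinarith
    set h0 := (1 + γ ^ 2) / (2 * γ ^ 2) with hh0
    by_cases hcase : h0 ≤ g ^ 2
    · -- `g` close to one
      have h1 : (1 + γ ^ 2) / 2 ≤ g ^ 2 * γ ^ 2 := by
        have := mul_le_mul_of_nonneg_right hcase hγ2pos.le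
        have e : h0 * γ ^ 2 = (1 + γ ^ 2) / 2 := by
          rw [hh0]; field_simp
        linarith
      have h2 : g ^ 2 * (γ ^ 2 * x ^ 2) ≤ g ^ 2 * x' ^ 2 :=
        mul_le_mul_of_nonneg_left hx'2 hg2nn
      have h3 : (1 + γ ^ 2) / 2 * x ^ 2 ≤ g ^ 2 * γ ^ 2 * x ^ 2 :=
        mul_le_mul_of_nonneg_right h1 hx2nn
      have h4 : α * ((1 + γ ^ 2) / 2 * x ^ 2) ≤ α * (g ^ 2 * x' ^ 2) := by
        apply mul_le_mul_of_nonneg_left _ hα0.le
        nlinarith
      have h5 : c * x ^ 2 ≤ α * (γ ^ 2 - 1) / 2 * x ^ 2 :=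
        mul_le_mul_of_nonneg_right hc2 hx2nn
      nlinarith
    · -- `g` away from one: the factor pays by itself
      have hlt : g ^ 2 < h0 := not_le.mp hcase
      have hgap : (γ ^ 2 - 1) / (2 * γ ^ 2) ≤ 1 - g ^ 2 := by
        have e : 1 - h0 = (γ ^ 2 - 1) / (2 * γ ^ 2) := by
          rw [hh0]; field_simp; ring
        linarith
      have e2 : (γ ^ 2 - 1) / (2 * γ ^ 2) = 2 * ((γ ^ 2 - 1) / (4 * γ ^ 2)) := by
        field_simp; ring
      have h6 : 0 ≤ g ^ 2 * (α * x' ^ 2) := by positivity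
      have h7 : c * x ^ 2 ≤ (γ ^ 2 - 1) / (4 * γ ^ 2) * x ^ 2 :=
        mul_le_mul_of_nonneg_right hc3 hx2nn
      have h8 : α * x ^ 2 ≤ (γ ^ 2 - 1) / (4 * γ ^ 2) * x ^ 2 :=
        mul_le_mul_of_nonneg_right hαγ hx2nn
      have h9 : (γ ^ 2 - 1) / (4 * γ ^ 2) * x ^ 2 ≤ (γ ^ 2 - 1) / (4 * γ ^ 2) := by
        have : 0 ≤ (γ ^ 2 - 1) / (4 * γ ^ 2) := by
          apply div_nonneg <;> nlinarith
        nlinarith
      nlinarith
  · -- `R` drops by a definite factor
    have h1 : g ^ 2 ≤ 1 - η * x ^ 2 := by linarith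
    have h2 : c * x ^ 2 ≤ η / 2 * x ^ 2 := mul_le_mul_of_nonneg_right hc1 hx2nn
    have h3 : α * x ^ 2 ≤ η / 2 * x ^ 2 := mul_le_mul_of_nonneg_right hαη hx2nn
    have h6 : 0 ≤ g ^ 2 * (α * x' ^ 2) := by positivity
    nlinarith

/-! ### The tree -/

variable {V : Type*} [DecidableEq V]

/-- Vertex hypotheses: `x` in `[0,1]`, and the three consequences of the two-body bound. -/
structure Hyps (T : LocFinTree V) (lam κ : ℝ) (x : V → ℝ) : Prop where
  x0 : ∀ v, 0 ≤ x v
  x1 : ∀ v, x v ≤ 1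
  H1 : ∀ v, x v ≤ ∑ c ∈ T.children v, lam ^ 2 * x c
  H2 : ∀ v, ∀ c ∈ T.children v, ∀ c' ∈ T.children v, c ≠ c' →
    x v ≤ ∑ k ∈ T.children v, lam ^ 2 * x k -
      κ * (lam ^ 2 * x c) * (lam ^ 2 * x c') * (lam ^ 2 * x c + lam ^ 2 * x c')
  H3 : ∀ v, ∀ c ∈ T.children v,
    x v ≤ lam ^ 2 * x c + (∑ k ∈ T.children v, lam ^ 2 * x k - lam ^ 2 * x c) *
      (1 - κ * (lam ^ 2 * x c) ^ 2)

lemma depth_child (T : LocFinTree V) {v c : V} (hc : c ∈ T.children v) :
    T.depth c = T.depth v + 1 := by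
  have := (Finset.mem_filter.mp hc).1
  exact (T.mem_level_iff _ _).1 this

lemma parent_child (T : LocFinTree V) {v c : V} (hc : c ∈ T.children v) :
    T.parent c = v := (Finset.mem_filter.mp hc).2

lemma ray_depth (T : LocFinTree V) {ξ : ℕ → V} (hξ : T.IsRay ξ) (n : ℕ) : T.depth (ξ n) = n := by
  induction n with
  | zero => rw [hξ.1]; exact (T.depth_eq_zero_iff _).2 rfl
  | succ n ih => rw [depth_child T (hξ.2 n), ih]

/-- The main statement: a flow of positive mass with ray potential at most `1` on every ray. -/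
theorem exists_flow (T : LocFinTree V) (lam κ : ℝ) (B : ℕ) (x : V → ℝ)
    (h0 : 0 < lam) (h1 : lam < 1) (hκ0 : 0 < κ) (hκ1 : κ ≤ 1)
    (hB : ∀ v, (T.children v).card ≤ B) (hB1 : 1 ≤ B)
    (h : Hyps T lam κ x) (hroot : 0 < x T.root) :
    ∃ θ : V → ℝ, IsFlow T θ ∧ 0 < flowMass T θ ∧ ∀ ξ : ℕ → V, T.IsRay ξ →
      rayPotential lam θ ξ ≤ 1 := by
  classical
  -- constants
  set L := lam ^ 2 with hL
  have hL0 : 0 < L := by positivity
  have hL1 : L < 1 := by rw [hL]; nlinarith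
  set τ := (1 - L) / 2 with hτ
  have hτ0 : 0 < τ := by rw [hτ]; linarith
  have hτ1 : τ < 1 := by rw [hτ]; linarith
  set γ := (1 - τ) / L with hγ
  have hγ1 : 1 < γ := by
    rw [hγ, lt_div_iff₀ hL0, hτ]; linarith
  have hBpos : (0 : ℝ) < B := by exact_mod_cast hB1
  set η := min (κ * (1 - τ) ^ 2) (κ * τ / (B : ℝ) ^ 3) with hη
  have hηpos : 0 < η := by
    apply lt_min
    · have : 0 < 1 - τ := by linarith
      positivity
    · positivity
  have hγ2 : 0 < (γ ^ 2 - 1) / (4 * γ ^ 2) := by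
    have : 1 < γ ^ 2 := by nlinarith
    apply div_pos <;> nlinarith
  set α := min (η / 2) ((γ ^ 2 - 1) / (4 * γ ^ 2)) with hα
  have hαpos : 0 < α := lt_min (by linarith) hγ2
  have hαη : α ≤ η / 2 := min_le_left _ _
  have hαγ : α ≤ (γ ^ 2 - 1) / (4 * γ ^ 2) := min_le_right _ _
  have hα1 : α ≤ 1 := by
    have h3 : (γ ^ 2 - 1) / (4 * γ ^ 2) ≤ 1 := by
      have : 0 < 4 * γ ^ 2 := by nlinarith
      rw [div_le_one this]; nlinarith
    linarith
  set c₁ := min (η / 2) (min (α * (γ ^ 2 - 1) / 2) ((γ ^ 2 - 1) / (4 * γ ^ 2))) with hc₁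
  have hc₁pos : 0 < c₁ := by
    apply lt_min (by linarith)
    apply lt_min _ hγ2
    have : 1 < γ ^ 2 := by nlinarith
    apply div_pos _ two_pos
    apply mul_pos hαpos; linarith
  -- the split at each vertex
  have hsplit : ∀ v, ∃ g : V → ℝ, (∀ c ∈ T.children v, 0 ≤ g c) ∧ (∀ c ∈ T.children v, g c ≤ 1) ∧
      ∑ c ∈ T.children v, L * x c * g c = x v ∧
      ∀ c ∈ T.children v, (1 - τ) * x v ≤ L * x c ∨ g c ≤ 1 - η * x v ^ 2 := by
    intro v
    have hy1 : ∀ i ∈ T.children v, L * x i ≤ 1 := by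
      intro i _
      have := h.x1 i
      have h00 := h.x0 i
      nlinarith
    obtain ⟨g, a, b, c', d⟩ := split (T.children v) (fun c => L * x c)
      (fun i _ => mul_nonneg hL0.le (h.x0 i)) hy1 (x v) κ τ B (h.x0 v) hκ0 hκ1 hτ0 hτ1 (hB v)
      (h.H1 v) (fun i hi j hj hij => by simpa [mul_assoc] using h.H2 v i hi j hj hij)
      (fun i hi => by simpa using h.H3 v i hi)
    exact ⟨g, a, b, c', d⟩
  choose g hg0 hg1 hgsum hgstep using hsplit
  -- the weight `R` along the path from the root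
  let Rn : ℕ → V → ℝ := fun n => Nat.rec (fun _ => (1 : ℝ))
    (fun _ ih v => ih (T.parent v) * g (T.parent v) v) n
  let R : V → ℝ := fun v => Rn (T.depth v) v
  have hRroot : R T.root = 1 := by
    show Rn (T.depth T.root) T.root = 1
    rw [(T.depth_eq_zero_iff _).2 rfl]
    rfl
  have hRchild : ∀ v, ∀ c ∈ T.children v, R c = R v * g v c := by
    intro v c hc
    show Rn (T.depth c) c = Rn (T.depth v) v * g v c
    rw [depth_child T hc]
    show Rn (T.depth v) (T.parent c) * g (T.parent c) c = _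
    rw [parent_child T hc]
  have hchild_of_parent : ∀ v, v ≠ T.root → v ∈ T.children (T.parent v) := by
    intro v hv
    refine Finset.mem_filter.mpr ⟨?_, rfl⟩
    exact (T.mem_level_iff _ _).2 (T.depth_parent v hv).symm
  have hR0 : ∀ n v, T.depth v = n → 0 ≤ R v := by
    intro n
    induction n with
    | zero =>
      intro v hv
      have : v = T.root := (T.depth_eq_zero_iff v).1 hv
      rw [this, hRroot]; exact zero_le_one
    | succ n ih =>
      intro v hv
      have hne : v ≠ T.root := by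
        intro h'
        have := (T.depth_eq_zero_iff v).2 h'
        omega
      have hp := T.depth_parent v hne
      have hc := hchild_of_parent v hne
      rw [hRchild _ v hc]
      exact mul_nonneg (ih _ (by omega)) (hg0 _ v hc)
  have hR : ∀ v, 0 ≤ R v := fun v => hR0 _ v rfl
  -- the raw flow
  set c₂ := Real.sqrt c₁ with hc₂
  have hc₂pos : 0 < c₂ := Real.sqrt_pos.mpr hc₁pos
  have hc₂sq : c₂ ^ 2 = c₁ := Real.sq_sqrt hc₁pos.le
  let θ : V → ℝ := fun v => c₂ * (R v * x v * lam ^ (2 * T.depth v))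
  have hθflow : ∀ v, θ v = ∑ w ∈ T.children v, θ w := by
    intro v
    have e : ∀ w ∈ T.children v, θ w =
        c₂ * (R v * lam ^ (2 * T.depth v)) * (L * x w * g v w) := by
      intro w hw
      show c₂ * (R w * x w * lam ^ (2 * T.depth w)) = _
      rw [hRchild v w hw, depth_child T hw, hL]
      have : lam ^ (2 * (T.depth v + 1)) = lam ^ (2 * T.depth v) * lam ^ 2 := by
        rw [mul_add, pow_add]
      rw [this]; ring
    rw [Finset.sum_congr rfl e, ← Finset.mul_sum, hgsum v]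
    show c₂ * (R v * x v * lam ^ (2 * T.depth v)) = _
    ring
  refine ⟨θ, ⟨?_, fun v _ => hθflow v⟩, ?_, ?_⟩
  · intro v
    exact mul_nonneg hc₂pos.le (mul_nonneg (mul_nonneg (hR v) (h.x0 v)) (by positivity))
  · show 0 < ∑ w ∈ T.children T.root, θ w
    rw [← hθflow]
    show 0 < c₂ * (R T.root * x T.root * lam ^ (2 * T.depth T.root))
    rw [hRroot, (T.depth_eq_zero_iff _).2 rfl]
    simpa using mul_pos hc₂pos hroot
  · intro ξ hξ
    -- the potential along the ray
    let W : V → ℝ := fun v => R v ^ 2 * (1 - α * x v ^ 2)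
    have hW0 : ∀ v, 0 ≤ W v := by
      intro v
      apply mul_nonneg (sq_nonneg _)
      have h1' := h.x1 v
      have h0' := h.x0 v
      have : x v ^ 2 ≤ 1 := by nlinarith
      nlinarith
    have hWroot : W (ξ 0) ≤ 1 := by
      show R (ξ 0) ^ 2 * (1 - α * x (ξ 0) ^ 2) ≤ 1
      rw [hξ.1, hRroot]
      have : 0 ≤ α * x T.root ^ 2 := by positivity
      nlinarith
    have hstep : ∀ k, c₁ * (R (ξ k) ^ 2 * x (ξ k) ^ 2) ≤ W (ξ k) - W (ξ (k + 1)) := by
      intro k
      have hc := hξ.2 k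
      have := potential_step (R (ξ k)) (g (ξ k) (ξ (k + 1))) (x (ξ k)) (x (ξ (k + 1))) γ η α
        (h.x0 _) (h.x1 _) (h.x0 _) (hg0 _ _ hc) (hg1 _ _ hc) hγ1 hηpos hαpos hαη hαγ ?_
      · have e : R (ξ (k + 1)) = R (ξ k) * g (ξ k) (ξ (k + 1)) := hRchild _ _ hc
        show _ ≤ R (ξ k) ^ 2 * (1 - α * x (ξ k) ^ 2) -
          R (ξ (k + 1)) ^ 2 * (1 - α * x (ξ (k + 1)) ^ 2)
        rw [e]
        exact this
      · rcases hgstep _ _ hc with h' | h'
        · left
          rw [hγ, div_mul_eq_mul_div, div_le_iff₀ hL0]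
          linarith
        · right; exact h'
    have hsum : ∀ N, ∑ k ∈ Finset.range N, c₁ * (R (ξ k) ^ 2 * x (ξ k) ^ 2) ≤ 1 - W (ξ N) := by
      intro N
      induction N with
      | zero => simpa using hWroot
      | succ N ih =>
        rw [Finset.sum_range_succ]
        have := hstep N
        linarith
    have hterm : ∀ n, (θ (ξ (n + 1)) / lam ^ (2 * (n + 1))) ^ 2 =
        c₁ * (R (ξ (n + 1)) ^ 2 * x (ξ (n + 1)) ^ 2) := by
      intro n
      show (c₂ * (R (ξ (n + 1)) * x (ξ (n + 1)) * lam ^ (2 * T.depth (ξ (n + 1)))) /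
        lam ^ (2 * (n + 1))) ^ 2 = _
      rw [ray_depth T hξ (n + 1)]
      have hp : lam ^ (2 * (n + 1)) ≠ 0 := by positivity
      rw [← hc₂sq]
      field_simp
    unfold rayPotential
    rw [ENNReal.tsum_eq_iSup_nat]
    apply iSup_le
    intro N
    rw [← ENNReal.ofReal_sum_of_nonneg (fun _ _ => sq_nonneg _), ← ENNReal.ofReal_one]
    apply ENNReal.ofReal_le_ofReal
    have h2 : ∑ n ∈ Finset.range N, (θ (ξ (n + 1)) / lam ^ (2 * (n + 1))) ^ 2
        ≤ ∑ k ∈ Finset.range (N + 1), c₁ * (R (ξ k) ^ 2 * x (ξ k) ^ 2) := by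
      rw [Finset.sum_range_succ' _ N]
      have : 0 ≤ c₁ * (R (ξ 0) ^ 2 * x (ξ 0) ^ 2) := by positivity
      rw [Finset.sum_congr rfl (fun n _ => hterm n)]
      linarith
    have h3 := hsum (N + 1)
    have h4 := hW0 (ξ (N + 1))
    linarith

/-! ### From the two-body bound to the vertex hypotheses -/

/-- The two-body upper bound. -/
def F (κ a b : ℝ) : ℝ := a + b - κ * a * b * (a + b)

lemma F_le_add {κ a b : ℝ} (hκ : 0 ≤ κ) (ha : 0 ≤ a) (hb : 0 ≤ b) : F κ a b ≤ a + b := by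
  unfold F
  have : 0 ≤ κ * a * b * (a + b) := by positivity
  linarith

lemma F_mono_left {κ a a' b : ℝ} (hκ : 0 ≤ κ) (hκ1 : κ ≤ 1 / 3) (ha : 0 ≤ a) (ha' : a' ≤ 1)
    (hb : 0 ≤ b) (hb1 : b ≤ 1) (h : a ≤ a') : F κ a b ≤ F κ a' b := by
  unfold F
  have ha'0 : 0 ≤ a' := ha.trans h
  have h1 : a' * b * (a' + b) - a * b * (a + b) = (a' - a) * (b * (a + a' + b)) := by ring
  have h2 : b * (a + a' + b) ≤ 3 := by
    have : a + a' + b ≤ 3 := by linarith
    nlinarith
  have h3 : 0 ≤ a' - a := by linarith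
  have h4 : κ * (a' * b * (a' + b) - a * b * (a + b)) ≤ a' - a := by
    rw [h1]
    have h5 : (a' - a) * (b * (a + a' + b)) ≤ (a' - a) * 3 :=
      mul_le_mul_of_nonneg_left h2 h3
    have h6 : κ * ((a' - a) * (b * (a + a' + b))) ≤ (1 / 3) * ((a' - a) * 3) :=
      mul_le_mul hκ1 h5 (by positivity) (by norm_num)
    linarith
  nlinarith

lemma F_comm (κ a b : ℝ) : F κ a b = F κ b a := by unfold F; ring

/-- The vertex hypotheses follow from the star recursion along any order of the children. -/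
lemma star_consequences {ι : Type*} [DecidableEq ι] (S : Finset ι) (y : ι → ℝ) (κ : ℝ)
    (hκ : 0 ≤ κ) (hκ1 : κ ≤ 1 / 3)
    (hy0 : ∀ i ∈ S, 0 ≤ y i) (hy1 : ∀ i ∈ S, y i ≤ 1) (X : Finset ι → ℝ)
    (hX0 : ∀ T, 0 ≤ X T) (hX1 : ∀ T, X T ≤ 1) (hXe : X ∅ = 0)
    (hstep : ∀ T ⊆ S, ∀ c ∈ S, c ∉ T → X (insert c T) ≤ F κ (X T) (y c)) :
    X S ≤ ∑ k ∈ S, y k ∧
    (∀ c ∈ S, ∀ c' ∈ S, c ≠ c' →
      X S ≤ ∑ k ∈ S, y k - κ * y c * y c' * (y c + y c')) ∧
    (∀ c ∈ S, X S ≤ y c + (∑ k ∈ S, y k - y c) * (1 - κ * y c ^ 2)) := by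
  classical
  -- additive bound on subsets
  have hadd : ∀ T, T ⊆ S → X T ≤ ∑ k ∈ T, y k := by
    intro T
    induction T using Finset.induction_on with
    | empty => intro _; simp [hXe]
    | insert c T hc ih =>
      intro hT
      have hTS : T ⊆ S := fun z hz => hT (Finset.mem_insert_of_mem hz)
      have hcS : c ∈ S := hT (Finset.mem_insert_self _ _)
      rw [Finset.sum_insert hc]
      have h1 := hstep T hTS c hcS hc
      have h2 := F_le_add hκ (hX0 T) (hy0 c hcS)
      have h3 := ih hTS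
      linarith
  refine ⟨hadd S subset_rfl, ?_, ?_⟩
  · intro c hc c' hc' hne
    -- the pair first, then the rest
    have hpair : X {c, c'} ≤ F κ (y c) (y c') := by
      have h1 : X {c} ≤ y c := by
        have := hadd {c} (by simpa using hc)
        simpa using this
      have hins : ({c, c'} : Finset ι) = insert c' {c} := by
        ext z; simp [or_comm]
      rw [hins]
      have h2 := hstep {c} (by simpa using hc) c' hc' (by simpa using hne.symm)
      exact h2.trans (F_mono_left hκ hκ1 (hX0 _) (hy1 c hc) (hy0 c' hc') (hy1 c' hc') h1)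
    -- grow
    have hgrow : ∀ T, T ⊆ S → c ∉ T → c' ∉ T →
        X (T ∪ {c, c'}) ≤ F κ (y c) (y c') + ∑ k ∈ T, y k := by
      intro T
      induction T using Finset.induction_on with
      | empty => intro _ _ _; simpa using hpair
      | insert d T hd ih =>
        intro hT hcT hc'T
        have hTS : T ⊆ S := fun z hz => hT (Finset.mem_insert_of_mem hz)
        have hdS : d ∈ S := hT (Finset.mem_insert_self _ _)
        have hdc : d ≠ c := fun h' => hcT (h' ▸ Finset.mem_insert_self _ _)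
        have hdc' : d ≠ c' := fun h' => hc'T (h' ▸ Finset.mem_insert_self _ _)
        have hcT' : c ∉ T := fun h' => hcT (Finset.mem_insert_of_mem h')
        have hc'T' : c' ∉ T := fun h' => hc'T (Finset.mem_insert_of_mem h')
        have e : insert d T ∪ {c, c'} = insert d (T ∪ {c, c'}) := by
          rw [Finset.insert_union]
        rw [e, Finset.sum_insert hd]
        have hsub : T ∪ {c, c'} ⊆ S := by
          intro z hz
          rcases Finset.mem_union.mp hz with hz | hz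
          · exact hTS hz
          · simp only [Finset.mem_insert, Finset.mem_singleton] at hz
            rcases hz with rfl | rfl <;> assumption
        have hnot : d ∉ T ∪ {c, c'} := by
          simp [hd, hdc, hdc']
        have h1 := hstep _ hsub d hdS hnot
        have h2 := F_le_add hκ (hX0 (T ∪ {c, c'})) (hy0 d hdS)
        have h3 := ih hTS hcT' hc'T'
        linarith
    have hrest := hgrow ((S.erase c).erase c')
      (fun z hz => Finset.mem_of_mem_erase (Finset.mem_of_mem_erase hz))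
      (fun h' => by simp at h') (fun h' => by simp at h')
    have hU : (S.erase c).erase c' ∪ {c, c'} = S := by
      ext z
      simp only [Finset.mem_union, Finset.mem_erase, Finset.mem_insert, Finset.mem_singleton]
      constructor
      · rintro (⟨_, _, h⟩ | rfl | rfl) <;> assumption
      · intro hz
        by_cases h1 : z = c
        · right; left; exact h1
        · by_cases h2 : z = c'
          · right; right; exact h2
          · left; exact ⟨h2, h1, hz⟩
    rw [hU] at hrest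
    have hsum : ∑ k ∈ S, y k = y c + (y c' + ∑ k ∈ (S.erase c).erase c', y k) := by
      rw [← Finset.add_sum_erase S y hc,
        ← Finset.add_sum_erase (S.erase c) y (Finset.mem_erase.mpr ⟨hne.symm, hc'⟩)]
    unfold F at hrest
    linarith
  · intro c hc
    have hnot : c ∉ S.erase c := Finset.notMem_erase c S
    have hsub : S.erase c ⊆ S := Finset.erase_subset _ _
    have h1 := hstep _ hsub c hc hnot
    rw [Finset.insert_erase hc] at h1
    have h2 := hadd _ hsub
    have hsum : ∑ k ∈ S, y k = y c + ∑ k ∈ S.erase c, y k :=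
      (Finset.add_sum_erase S y hc).symm
    have hyc0 := hy0 c hc
    have hyc1 := hy1 c hc
    have hk : 0 ≤ 1 - κ * y c ^ 2 := by
      have : y c ^ 2 ≤ 1 := by nlinarith
      nlinarith
    have hXn := hX0 (S.erase c)
    have h3 : F κ (X (S.erase c)) (y c) ≤ y c + X (S.erase c) * (1 - κ * y c ^ 2) := by
      unfold F
      have : 0 ≤ κ * X (S.erase c) ^ 2 * y c := by positivity
      nlinarith
    have h4 : X (S.erase c) * (1 - κ * y c ^ 2) ≤ (∑ k ∈ S.erase c, y k) * (1 - κ * y c ^ 2) :=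
      mul_le_mul_of_nonneg_right h2 hk
    rw [hsum]
    have e : y c + ∑ k ∈ S.erase c, y k - y c = ∑ k ∈ S.erase c, y k := by ring
    rw [e]
    linarith

/-- Numbers at vertices from star values: `Hyps` from the recursion on subsets of children. -/
theorem hyps_of_star (T : LocFinTree V) (lam κ : ℝ) (h0 : 0 < lam) (h1 : lam < 1)
    (hκ0 : 0 < κ) (hκ1 : κ ≤ 1 / 3) (x : V → ℝ) (X : V → Finset V → ℝ)
    (hx0 : ∀ v, 0 ≤ x v) (hx1 : ∀ v, x v ≤ 1)
    (hX0 : ∀ v S, 0 ≤ X v S) (hX1 : ∀ v S, X v S ≤ 1) (hXe : ∀ v, X v ∅ = 0)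
    (hstep : ∀ v, ∀ S ⊆ T.children v, ∀ c ∈ T.children v, c ∉ S →
      X v (insert c S) ≤ F κ (X v S) (lam ^ 2 * x c))
    (htop : ∀ v, x v ≤ X v (T.children v)) : Hyps T lam κ x := by
  have hL1 : lam ^ 2 ≤ 1 := by nlinarith
  have hy0 : ∀ c, 0 ≤ lam ^ 2 * x c := fun c => mul_nonneg (sq_nonneg _) (hx0 c)
  have hy1 : ∀ c, lam ^ 2 * x c ≤ 1 := fun c => by
    have := hx1 c
    have := hx0 c
    nlinarith
  have key := fun v => star_consequences (T.children v) (fun c => lam ^ 2 * x c) κ hκ0.le hκ1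
    (fun c _ => hy0 c) (fun c _ => hy1 c) (X v) (hX0 v) (hX1 v) (hXe v) (hstep v)
  refine ⟨hx0, hx1, ?_, ?_, ?_⟩
  · intro v; exact (htop v).trans (key v).1
  · intro v c hc c' hc' hne
    exact (htop v).trans ((key v).2.1 c hc c' hc' hne)
  · intro v c hc
    exact (htop v).trans ((key v).2.2 c hc)

/-- The final numeric form of "reconstruction implies a flow", for sequences indexed by the
observation level `n`; no monotonicity in `n` is needed (we pass to an ultrafilter limit). -/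
theorem exists_flow_of_seq (T : LocFinTree V) (lam κ ε : ℝ) (B : ℕ)
    (h0 : 0 < lam) (h1 : lam < 1) (hκ0 : 0 < κ) (hκ1 : κ ≤ 1 / 3) (hε : 0 < ε)
    (hB : ∀ v, (T.children v).card ≤ B) (hB1 : 1 ≤ B)
    (x : ℕ → V → ℝ) (X : ℕ → V → Finset V → ℝ)
    (hx0 : ∀ n v, 0 ≤ x n v) (hx1 : ∀ n v, x n v ≤ 1)
    (hX0 : ∀ n v S, 0 ≤ X n v S) (hX1 : ∀ n v S, X n v S ≤ 1)
    (hXe : ∀ v, ∀ᶠ n in Filter.atTop, X n v ∅ = 0)
    (hstep : ∀ v, ∀ S ⊆ T.children v, ∀ c ∈ T.children v, c ∉ S →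
      ∀ᶠ n in Filter.atTop, X n v (insert c S) ≤ F κ (X n v S) (lam ^ 2 * x n c))
    (htop : ∀ v, ∀ᶠ n in Filter.atTop, x n v ≤ X n v (T.children v))
    (hroot : ∀ᶠ n in Filter.atTop, ε ≤ x n T.root) :
    ∃ θ : V → ℝ, IsFlow T θ ∧ 0 < flowMass T θ ∧ ∀ ξ : ℕ → V, T.IsRay ξ →
      rayPotential lam θ ξ ≤ 1 := by
  classical
  let U : Ultrafilter ℕ := Filter.hyperfilter ℕ
  have hU : (U : Filter ℕ) ≤ Filter.atTop := by
    show (Filter.hyperfilter ℕ : Filter ℕ) ≤ Filter.atTop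
    rw [← Nat.cofinite_eq_atTop]
    exact Filter.hyperfilter_le_cofinite
  -- ultrafilter limits of bounded sequences
  have hlim : ∀ a : ℕ → ℝ, (∀ n, 0 ≤ a n) → (∀ n, a n ≤ 1) →
      ∃ L : ℝ, 0 ≤ L ∧ L ≤ 1 ∧ Filter.Tendsto a (U : Filter ℕ) (nhds L) := by
    intro a ha0 ha1
    have hcomp : IsCompact (Set.Icc (0 : ℝ) 1) := isCompact_Icc
    have hmem : Set.Icc (0 : ℝ) 1 ∈ (U.map a : Filter ℝ) := by
      apply Filter.mem_map.mpr
      apply Filter.univ_mem'
      intro n
      exact ⟨ha0 n, ha1 n⟩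
    obtain ⟨L, hL, hLim⟩ := hcomp.ultrafilter_le_nhds (U.map a) (by simpa using hmem)
    exact ⟨L, hL.1, hL.2, hLim⟩
  choose xL hxL0 hxL1 hxLim using fun v => hlim (fun n => x n v) (fun n => hx0 n v) (fun n => hx1 n v)
  choose XL hXL0 hXL1 hXLim using fun (p : V × Finset V) =>
    hlim (fun n => X n p.1 p.2) (fun n => hX0 n p.1 p.2) (fun n => hX1 n p.1 p.2)
  have hF : Continuous (fun p : ℝ × ℝ => F κ p.1 p.2) := by
    unfold F; fun_prop
  have hH : Hyps T lam κ xL := by
    apply hyps_of_star T lam κ h0 h1 hκ0 hκ1 xL (fun v S => XL (v, S)) hxL0 hxL1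
      (fun v S => hXL0 (v, S)) (fun v S => hXL1 (v, S))
    · intro v
      have h2 : Filter.Tendsto (fun n => X n v ∅) (U : Filter ℕ) (nhds 0) := by
        apply tendsto_const_nhds.congr'
        have h3 : ∀ᶠ n in (U : Filter ℕ), X n v ∅ = 0 := hU (hXe v)
        exact h3.mono (fun n hn => hn.symm)
      exact tendsto_nhds_unique (hXLim (v, ∅)) h2
    · intro v S hS c hc hcS
      have hl : Filter.Tendsto (fun n => F κ (X n v S) (lam ^ 2 * x n c)) (U : Filter ℕ)
          (nhds (F κ (XL (v, S)) (lam ^ 2 * xL c))) := by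
        have h3 := (hXLim (v, S)).prodMk_nhds ((hxLim c).const_mul (lam ^ 2))
        exact hF.continuousAt.tendsto.comp h3
      exact le_of_tendsto_of_tendsto (hXLim (v, insert c S)) hl (hU (hstep v S hS c hc hcS))
    · intro v
      exact le_of_tendsto_of_tendsto (hxLim v) (hXLim (v, T.children v)) (hU (htop v))
  have hrootL : ε ≤ xL T.root := ge_of_tendsto (hxLim T.root) (hU hroot)
  exact exists_flow T lam κ B xL h0 h1 hκ0 (by linarith) hB hB1 hH (by linarith)

end Crest.Agent.PottsTree.TreeFlow
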