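import Crest.Agent.Lib.PottsTree.Target
import Crest.Agent.Lib.PottsTree.Mono
import Crest.Agent.Lib.PottsTree.TreeFlowA

/-!
# `S0246`, reconstruction implies a flow, from the pointwise cone target
-/

namespace Crest.Agent.PottsTree

open Finset Filter
open Crest.ProbabilityR.Broadcast Crest.ProbabilityR.TreeBroadcast

section Forward

variable {V : Type*} [DecidableEq V] (Tr : LocFinTree V)

lemma A_unif {q : ℕ} (hq : q ≠ 0) : A q (fun _ => 1 / (q : ℝ)) = 0 := by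
  have hq' : (q : ℝ) ≠ 0 := by exact_mod_cast hq
  simp [A]
  field_simp
  ring

lemma A_le_pred {q : ℕ} {p : Fin q → ℝ} (hp : p ∈ Sx q) : A q p ≤ q - 1 := by
  have h : ∑ i, p i ^ 2 ≤ 1 := by
    calc ∑ i, p i ^ 2 ≤ ∑ i, p i := Finset.sum_le_sum fun i _ => by
          have h0 := hp.1 i
          have h1 := coord_le_one hp i
          nlinarith
      _ = 1 := hp.2
  unfold A
  have : (0 : ℝ) ≤ q := by positivity
  nlinarith

lemma pot_A_le {q : ℕ} (hq : q ≠ 0) {Ω : Type*} {L : Ω → Fin q → ℝ} (hL : IsLik L) :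
    Pot (A q) L ≤ q - 1 := by
  have := pot_mono hL (bddS_A (q := q)) (BddS.const ((q : ℝ) - 1)) (fun p hp => A_le_pred hp)
  rwa [pot_const hq hL] at this

/-- The forward direction of `S0246`. -/
theorem s0246_forward (C : ConeData 4) (hmu : 0 < C.mu) (hv : ∀ a, 0 ≤ C.Xi (baseL 4 a))
    (lam : ℝ) (h0 : 0 < lam) (h1 : lam < 1)
    (hrad : ∀ p ∈ Sx 4, lam ^ 3 * C.Xi p ≤ C.Xi (PottsTree.T 4 lam p))
    (B : ℕ) (hB : ∀ v, (Tr.children v).card ≤ B) (hB1 : 1 ≤ B)
    (ε : ℝ) (hε : 0 < ε) (hadv : ∀ n, ε ≤ treeAdvantage 4 Tr lam n) :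
    ∃ θ : V → ℝ, IsFlow Tr θ ∧ 0 < flowMass Tr θ ∧ ∀ ξ : ℕ → V, Tr.IsRay ξ →
      rayPotential lam θ ξ ≤ 1 := by
  have hq : (4 : ℕ) ≠ 0 := by norm_num
  have hc : ChanOK 4 lam := chanOK_of_nonneg h0.le h1.le
  have hc0 : 0 ≤ lam ^ 3 := by positivity
  have hg := fun k => good_lik Tr 4 lam C hq hv hc hc0 hrad k
  set x : ℕ → V → ℝ := fun n v => Pot (A 4) (lik Tr 4 lam (n - Tr.depth v) v) / 3 with hx
  set X : ℕ → V → Finset V → ℝ := fun n v S => Pot (A 4) (Ap Tr 4 lam (n - Tr.depth v - 1) S) / 3 with hX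
  set κ : ℝ := min (9 * C.mu) (1 / 3) with hκ
  have hκ0 : 0 < κ := lt_min (by positivity) (by norm_num)
  have hκ1 : κ ≤ 1 / 3 := min_le_right _ _
  have hκ2 : κ ≤ 9 * C.mu := min_le_left _ _
  have h43 : ((4 : ℕ) : ℝ) = 4 := by norm_num
  have hlik : ∀ k v, IsLik (lik Tr 4 lam k v) := fun k v => ((hg k).1 v).lik
  have hAp : ∀ k S, IsLik (Ap Tr 4 lam k S) := fun k S => ((hg k).2 S).lik
  have hle3 : ∀ {Ω : Type _} {L : Ω → Fin 4 → ℝ}, IsLik L → Pot (A 4) L / 3 ≤ 1 := by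
    intro Ω L hL
    have := pot_A_le hq hL
    rw [h43] at this
    linarith
  have hge0 : ∀ {Ω : Type _} {L : Ω → Fin 4 → ℝ}, IsLik L → 0 ≤ Pot (A 4) L / 3 := by
    intro Ω L hL
    have := ConeData.pot_A_nonneg (q := 4) hL
    linarith
  refine TreeFlow.exists_flow_of_seq Tr lam κ (ε ^ 2) B h0 h1 hκ0 hκ1 (by positivity) hB hB1 x X
    ?_ ?_ ?_ ?_ ?_ ?_ ?_ ?_
  · intro n v
    exact hge0 (hlik _ _)
  · intro n v
    exact hle3 (hlik _ _)
  · intro n v S
    exact hge0 (hAp _ _)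
  · intro n v S
    exact hle3 (hAp _ _)
  · intro v
    refine Eventually.of_forall fun n => ?_
    simp only [hX]
    rw [pot_Ap_empty Tr 4 lam hq, A_unif hq]
    simp
  · intro v S _ c hc' hcS
    filter_upwards [eventually_ge_atTop (Tr.depth v + 1)] with n hn
    have hdepth : Tr.depth c = Tr.depth v + 1 := ((mem_children_iff Tr).1 hc').1
    have hk : n - Tr.depth c = n - Tr.depth v - 1 := by omega
    simp only [hx, hX]
    rw [hk]
    set k := n - Tr.depth v - 1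
    have hins := pot_A_Ap_insert_le Tr 4 lam C hq hv hc hc0 hrad k hcS
    have ha0 := ConeData.pot_A_nonneg (q := 4) (hlik k c)
    have hb0 := ConeData.pot_A_nonneg (q := 4) (hAp k S)
    set a := lam ^ 2 * Pot (A 4) (lik Tr 4 lam k c) with ha
    set b := Pot (A 4) (Ap Tr 4 lam k S) with hb
    have ha1 : 0 ≤ a := by positivity
    have e1 : lam ^ 2 * (Pot (A 4) (lik Tr 4 lam k c) / 3) = a / 3 := by rw [ha]; ring
    rw [e1]
    unfold TreeFlow.F
    have hprod : 0 ≤ a * b * (a + b) := by positivity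
    have hmono : κ * (b / 3) * (a / 3) * (b / 3 + a / 3) ≤ 9 * C.mu * (b / 3) * (a / 3) * (b / 3 + a / 3) := by
      have : 0 ≤ (b / 3) * (a / 3) * (b / 3 + a / 3) := by positivity
      have := mul_le_mul_of_nonneg_right hκ2 this
      nlinarith
    have e2 : 9 * C.mu * (b / 3) * (a / 3) * (b / 3 + a / 3) = C.mu * (a * b * (a + b)) / 3 := by ring
    linarith
  · intro v
    filter_upwards [eventually_ge_atTop (Tr.depth v + 1)] with n hn
    obtain ⟨k, hk⟩ : ∃ k, n - Tr.depth v = k + 1 := ⟨n - Tr.depth v - 1, by omega⟩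
    have e1 : x n v = Pot (A 4) (lik Tr 4 lam (k + 1) v) / 3 := by
      show Pot (A 4) (lik Tr 4 lam (n - Tr.depth v) v) / 3 = _
      rw [hk]
    have e2 : X n v (Tr.children v) = Pot (A 4) (Ap Tr 4 lam k (Tr.children v)) / 3 := by
      show Pot (A 4) (Ap Tr 4 lam (n - Tr.depth v - 1) (Tr.children v)) / 3 = _
      rw [hk, Nat.add_sub_cancel]
    rw [e1, e2, lik_succ]
    exact le_rfl
  · refine Eventually.of_forall fun n => ?_
    have hd : Tr.depth Tr.root = 0 := (Tr.depth_eq_zero_iff _).2 rfl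
    have e1 : x n Tr.root = Pot (A 4) (lik Tr 4 lam n Tr.root) / 3 := by
      show Pot (A 4) (lik Tr 4 lam (n - Tr.depth Tr.root) Tr.root) / 3 = _
      rw [hd, Nat.sub_zero]
    rw [e1]
    have h2 := hadv n
    rw [pot_lik_root_eq Tr 4 lam hq hc] at h2
    have h3 := pot_tv_sq_le hq (hlik n Tr.root)
    have h4 : ε ^ 2 ≤ Pot (tv 4) (lik Tr 4 lam n Tr.root) ^ 2 := by gcongr
    have h5 := ConeData.pot_A_nonneg (q := 4) (hlik n Tr.root)
    linarith

end Forward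

end Crest.Agent.PottsTree
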