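import Crest.Agent.Lib.PottsTree.TreeFlowA

/-!
# A flow of bounded ray potential implies reconstruction (numbers and thinning only)

Pure bookkeeping for `S0246`, direction "flow implies advantage bounded below".  The probabilistic
input is abstracted as a *reach system* `ReachSys`: `Rv v X t` says that some degradation of the
observation below `v` has second-moment value `X` and third-moment value `t`; `Rs v S X t` the same
for the star of the (contracted) children in the finite set `S`.  The system is closed under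
thinning (forgetting with probability `1 - p`), leaves are atoms `(1,1)`, and the star satisfies the
two pointwise bounds
`X'' ≥ X + y - 4 (X w + y t) - 2 t w`, `t'' ≤ t + w + K X y`, `y = lam² Xc`, `w = lam³ tc`.

The main theorem `exists_reach_root` gives `ε > 0`, depending on the flow only, with a root value
`X ≥ ε` in every reach system of every depth `n`.
-/

set_option autoImplicit false

open Finset Crest.ProbabilityR.TreeBroadcast

namespace Crest.Agent.PottsTree.TreeFlow

variable {V : Type*} [DecidableEq V]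

/-- Abstract closure properties of the values reachable at level `n`. -/
structure ReachSys (T : LocFinTree V) (lam K : ℝ) (n : ℕ) (Rv : V → ℝ → ℝ → Prop)
    (Rs : V → Finset V → ℝ → ℝ → Prop) : Prop where
  nonneg : ∀ v X t, Rv v X t → 0 ≤ X ∧ 0 ≤ t
  nonnegS : ∀ v S X t, Rs v S X t → 0 ≤ X ∧ 0 ≤ t
  leaf : ∀ v, T.depth v = n → Rv v 1 1
  thin : ∀ v X t p, Rv v X t → 0 ≤ p → p ≤ 1 → Rv v (p * X) (p * t)
  thinS : ∀ v S X t p, Rs v S X t → 0 ≤ p → p ≤ 1 → Rs v S (p * X) (p * t)
  empty : ∀ v, T.depth v < n → Rs v ∅ 0 0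
  step : ∀ v S X t c Xc tc, T.depth v < n → S ⊆ T.children v → c ∈ T.children v → c ∉ S →
    Rs v S X t → Rv c Xc tc →
    ∃ X'' t'', Rs v (insert c S) X'' t'' ∧
      X + lam ^ 2 * Xc - 4 * (X * (lam ^ 3 * tc) + lam ^ 2 * Xc * t) - 2 * t * (lam ^ 3 * tc) ≤ X''
      ∧ t'' ≤ t + lam ^ 3 * tc + K * X * (lam ^ 2 * Xc)
  top : ∀ v X t, T.depth v < n → Rs v (T.children v) X t → Rv v X t

/-! ### Weights and recursions -/

/-- Transition weight of the flow-random walk. -/
noncomputable def wt (lam : ℝ) (a : V → ℝ) (v c : V) : ℝ := lam ^ 2 * a c / a v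

/-- Normalised third moment (without the leaf term). -/
noncomputable def tp (T : LocFinTree V) (lam K : ℝ) (a : V → ℝ) : ℕ → V → ℝ
  | 0, _ => 0
  | k + 1, v => lam * ∑ c ∈ T.children v, wt lam a v c * tp T lam K a k c + K / 2 * a v

/-- Relative loss. -/
noncomputable def PP (T : LocFinTree V) (lam K : ℝ) (a : V → ℝ) : ℕ → V → ℝ
  | 0, _ => 0
  | k + 1, v => ∑ c ∈ T.children v, wt lam a v c * PP T lam K a k c +
      a v * (tp T lam K a (k + 1) v + lam ^ (k + 1)) *
        (8 + 2 * (tp T lam K a (k + 1) v + lam ^ (k + 1)))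

/-- Expected sum of `a²` along the flow-random path. -/
noncomputable def EE (T : LocFinTree V) (lam : ℝ) (a : V → ℝ) : ℕ → V → ℝ
  | 0, v => a v ^ 2
  | k + 1, v => a v ^ 2 + ∑ c ∈ T.children v, wt lam a v c * EE T lam a k c

/-- Sum of `a²` over the strict ancestors (first argument: the depth). -/
noncomputable def ancN (T : LocFinTree V) (a : V → ℝ) : ℕ → V → ℝ
  | 0, _ => 0
  | d + 1, v => ancN T a d (T.parent v) + a (T.parent v) ^ 2

/-- Sum of `a²` over the strict ancestors. -/
noncomputable def anc (T : LocFinTree V) (a : V → ℝ) (v : V) : ℝ := ancN T a (T.depth v) v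

lemma anc_child (T : LocFinTree V) (a : V → ℝ) {v c : V} (hc : c ∈ T.children v) :
    anc T a c = anc T a v + a v ^ 2 := by
  unfold anc
  rw [depth_child T hc]
  simp only [ancN]
  rw [parent_child T hc]

lemma anc_root (T : LocFinTree V) (a : V → ℝ) : anc T a T.root = 0 := by
  unfold anc
  rw [(T.depth_eq_zero_iff _).2 rfl]
  rfl

/-! ### Data of the weights -/

/-- The normalised flow. -/
structure AData (T : LocFinTree V) (lam c₀ : ℝ) (a : V → ℝ) : Prop where
  lam0 : 0 < lam
  lam1 : lam < 1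
  a0 : ∀ v, 0 ≤ a v
  a1 : ∀ v, a v ≤ c₀
  flow : ∀ v, ∑ c ∈ T.children v, lam ^ 2 * a c = a v

namespace AData

variable {T : LocFinTree V} {lam c₀ : ℝ} {a : V → ℝ}

lemma wt_nonneg (h : AData T lam c₀ a) (v c : V) : 0 ≤ wt lam a v c :=
  div_nonneg (mul_nonneg (sq_nonneg _) (h.a0 c)) (h.a0 v)

lemma child_zero (h : AData T lam c₀ a) {v c : V} (hc : c ∈ T.children v) (hv : a v = 0) :
    a c = 0 := by
  have h1 := h.flow v
  rw [hv] at h1
  have hnn : ∀ i ∈ T.children v, 0 ≤ lam ^ 2 * a i :=
    fun i _ => mul_nonneg (sq_nonneg _) (h.a0 i)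
  have h2 := (Finset.sum_eq_zero_iff_of_nonneg hnn).1 h1 c hc
  have hlam : lam ^ 2 ≠ 0 := pow_ne_zero 2 h.lam0.ne'
  exact (mul_eq_zero.mp h2).resolve_left hlam

lemma mul_wt (h : AData T lam c₀ a) {v c : V} (hc : c ∈ T.children v) :
    a v * wt lam a v c = lam ^ 2 * a c := by
  unfold wt
  by_cases hv : a v = 0
  · rw [hv, h.child_zero hc hv]; simp
  · field_simp

lemma sum_wt (h : AData T lam c₀ a) {v : V} (hv : 0 < a v) :
    ∑ c ∈ T.children v, wt lam a v c = 1 := by
  unfold wt
  rw [← Finset.sum_div, h.flow v]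
  exact div_self hv.ne'

lemma wt_of_zero {v : V} (hv : a v = 0) (c : V) : wt lam a v c = 0 := by
  unfold wt
  rw [hv, div_zero]

lemma sum_wt_le (h : AData T lam c₀ a) (v : V) : ∑ c ∈ T.children v, wt lam a v c ≤ 1 := by
  rcases (h.a0 v).eq_or_lt with hv | hv
  · simp [wt_of_zero hv.symm]
  · exact (h.sum_wt hv).le

lemma tp_nonneg (h : AData T lam c₀ a) {K : ℝ} (hK : 0 ≤ K) (k : ℕ) (v : V) :
    0 ≤ tp T lam K a k v := by
  induction k generalizing v with
  | zero => exact le_rfl
  | succ k ih =>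
    simp only [tp]
    apply add_nonneg
    · apply mul_nonneg h.lam0.le
      exact Finset.sum_nonneg fun c _ => mul_nonneg (h.wt_nonneg v c) (ih c)
    · exact mul_nonneg (by positivity) (h.a0 v)

lemma tp_le (h : AData T lam c₀ a) {K : ℝ} (hK : 0 ≤ K) (k : ℕ) (v : V) :
    tp T lam K a k v ≤ K / 2 * c₀ / (1 - lam) := by
  have hl : 0 < 1 - lam := by linarith [h.lam1]
  have hc₀ : 0 ≤ c₀ := (h.a0 v).trans (h.a1 v)
  have hT : 0 ≤ K / 2 * c₀ / (1 - lam) := by positivity
  induction k generalizing v with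
  | zero => exact hT
  | succ k ih =>
    simp only [tp]
    set T₀ := K / 2 * c₀ / (1 - lam) with hT₀
    have h1 : ∑ c ∈ T.children v, wt lam a v c * tp T lam K a k c ≤ T₀ := by
      calc ∑ c ∈ T.children v, wt lam a v c * tp T lam K a k c
          ≤ ∑ c ∈ T.children v, wt lam a v c * T₀ :=
            Finset.sum_le_sum fun c _ => mul_le_mul_of_nonneg_left (ih c) (h.wt_nonneg v c)
        _ = (∑ c ∈ T.children v, wt lam a v c) * T₀ := by rw [Finset.sum_mul]
        _ ≤ 1 * T₀ := mul_le_mul_of_nonneg_right (h.sum_wt_le v) hT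
        _ = T₀ := one_mul _
    have h2 : K / 2 * a v ≤ K / 2 * c₀ := mul_le_mul_of_nonneg_left (h.a1 v) (by positivity)
    have h3 : T₀ * (1 - lam) = K / 2 * c₀ := by
      rw [hT₀]; field_simp
    have h4 := mul_le_mul_of_nonneg_left h1 h.lam0.le
    nlinarith

/-- Jensen for the squares. -/
lemma sq_sum_wt_le (h : AData T lam c₀ a) {v : V} (hv : 0 < a v) (f : V → ℝ) :
    (∑ c ∈ T.children v, wt lam a v c * f c) ^ 2 ≤
      ∑ c ∈ T.children v, wt lam a v c * f c ^ 2 := by
  obtain ⟨μ, hμ⟩ : ∃ μ, μ = ∑ c ∈ T.children v, wt lam a v c * f c := ⟨_, rfl⟩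
  rw [← hμ]
  have h1 : 0 ≤ ∑ c ∈ T.children v, wt lam a v c * (f c - μ) ^ 2 :=
    Finset.sum_nonneg fun c _ => mul_nonneg (h.wt_nonneg v c) (sq_nonneg _)
  have e : ∀ c ∈ T.children v, wt lam a v c * (f c - μ) ^ 2 =
      wt lam a v c * f c ^ 2 - 2 * μ * (wt lam a v c * f c) + μ ^ 2 * wt lam a v c :=
    fun c _ => by ring
  rw [Finset.sum_congr rfl e, Finset.sum_add_distrib, Finset.sum_sub_distrib, ← Finset.mul_sum,
    ← Finset.mul_sum, ← hμ, h.sum_wt hv] at h1
  nlinarith

/-- The Lyapunov inequality. -/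
lemma lyapunov (h : AData T lam c₀ a) {K : ℝ} (hK : 0 ≤ K) (hT₀ : K / 2 * c₀ / (1 - lam) ≤ 1)
    (k : ℕ) (v : V) :
    PP T lam K a k v + 6 * lam / (1 - lam) * tp T lam K a k v ^ 2 ≤
      (6 + 6 / (1 - lam) * (K / 2) ^ 2 / (1 - lam)) * EE T lam a k v +
        12 * c₀ * ∑ j ∈ Finset.range k, lam ^ (j + 1) := by
  have hl : 0 < 1 - lam := by linarith [h.lam1]
  have hl0 := h.lam0
  have hc₀ : 0 ≤ c₀ := (h.a0 v).trans (h.a1 v)
  set Θ := 6 + 6 / (1 - lam) * (K / 2) ^ 2 / (1 - lam) with hΘ
  set κ := 6 * lam / (1 - lam) with hκ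
  have hκ0 : 0 ≤ κ := by positivity
  have hΘ0 : 0 ≤ Θ := by positivity
  have hκe : (6 + κ) * lam = κ := by
    rw [hκ]; field_simp; ring
  have hκe2 : 6 + κ = 6 / (1 - lam) := by
    rw [hκ]; field_simp; ring
  induction k generalizing v with
  | zero =>
    simp only [PP, tp, EE, Finset.range_zero, Finset.sum_empty]
    have : 0 ≤ Θ * a v ^ 2 := by positivity
    nlinarith
  | succ k ih =>
    have hgeo : 0 ≤ ∑ j ∈ Finset.range k, lam ^ (j + 1) :=
      Finset.sum_nonneg fun j _ => by positivity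
    rw [Finset.sum_range_succ]
    rcases (h.a0 v).eq_or_lt with hv | hv
    · -- vanishing vertex
      have hw : ∀ c, wt lam a v c = 0 := wt_of_zero hv.symm
      have htp : tp T lam K a (k + 1) v = 0 := by
        simp only [tp, hw, zero_mul, Finset.sum_const_zero, mul_zero, ← hv, add_zero]
      have hPP : PP T lam K a (k + 1) v = 0 := by
        simp only [PP, hw, zero_mul, Finset.sum_const_zero, ← hv, zero_add]
      have hEE : EE T lam a (k + 1) v = 0 := by
        simp only [EE, hw, zero_mul, Finset.sum_const_zero, ← hv, add_zero]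
        norm_num
      rw [htp, hPP, hEE]
      have : 0 ≤ lam ^ (k + 1) := by positivity
      have h5 : 0 ≤ 12 * c₀ * (∑ j ∈ Finset.range k, lam ^ (j + 1) + lam ^ (k + 1)) := by
        positivity
      nlinarith
    · -- positive vertex
      set μ := ∑ c ∈ T.children v, wt lam a v c * tp T lam K a k c with hμ
      set A := a v with hA
      set b := K / 2 * A with hb
      have htp : tp T lam K a (k + 1) v = lam * μ + b := by
        simp only [tp]; rfl
      set τ' := tp T lam K a (k + 1) v with hτ'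
      have hτ'0 : 0 ≤ τ' := h.tp_nonneg hK _ _
      have hτ'1 : τ' ≤ 1 := (h.tp_le hK _ _).trans hT₀
      have hpow0 : 0 ≤ lam ^ (k + 1) := by positivity
      have hpow1 : lam ^ (k + 1) ≤ 1 := pow_le_one₀ hl0.le h.lam1.le
      have hAc : A ≤ c₀ := h.a1 v
      -- the square of `τ'`
      have hsq : τ' ^ 2 ≤ lam * μ ^ 2 + b ^ 2 / (1 - lam) := by
        rw [htp]
        have e : lam * μ ^ 2 + b ^ 2 / (1 - lam) - (lam * μ + b) ^ 2 =
            lam * ((1 - lam) * μ - b) ^ 2 / (1 - lam) := by
          field_simp; ring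
        have : 0 ≤ lam * ((1 - lam) * μ - b) ^ 2 / (1 - lam) := by positivity
        linarith
      have hJ := h.sq_sum_wt_le hv (tp T lam K a k)
      -- loss at the vertex
      set τ := τ' + lam ^ (k + 1) with hτ
      have hτ2 : τ ≤ 2 := by rw [hτ]; linarith
      have hτ0 : 0 ≤ τ := by rw [hτ]; positivity
      have hloss : A * τ * (8 + 2 * τ) ≤ 6 * A ^ 2 + 6 * τ' ^ 2 + 12 * c₀ * lam ^ (k + 1) := by
        have h1 : A * τ * (8 + 2 * τ) ≤ A * τ * 12 :=
          mul_le_mul_of_nonneg_left (by linarith) (mul_nonneg hv.le hτ0)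
        have h2 : A * lam ^ (k + 1) ≤ c₀ * lam ^ (k + 1) :=
          mul_le_mul_of_nonneg_right hAc hpow0
        have h3 : 0 ≤ (A - τ') ^ 2 := sq_nonneg _
        rw [hτ] at h1 ⊢
        nlinarith
      -- the sum over the children from the induction hypothesis
      have hsum : ∑ c ∈ T.children v, wt lam a v c * PP T lam K a k c +
            κ * ∑ c ∈ T.children v, wt lam a v c * tp T lam K a k c ^ 2 ≤
          Θ * ∑ c ∈ T.children v, wt lam a v c * EE T lam a k c +
            12 * c₀ * ∑ j ∈ Finset.range k, lam ^ (j + 1) := by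
        obtain ⟨g, hg⟩ : ∃ g, g = 12 * c₀ * ∑ j ∈ Finset.range k, lam ^ (j + 1) := ⟨_, rfl⟩
        rw [← hg]
        have ih' : ∀ c, PP T lam K a k c + κ * tp T lam K a k c ^ 2 ≤ Θ * EE T lam a k c + g := by
          intro c
          rw [hg]
          exact ih c
        have h1 : ∑ c ∈ T.children v, wt lam a v c *
              (PP T lam K a k c + κ * tp T lam K a k c ^ 2) ≤
            ∑ c ∈ T.children v, wt lam a v c * (Θ * EE T lam a k c + g) :=
          Finset.sum_le_sum fun c _ => mul_le_mul_of_nonneg_left (ih' c) (h.wt_nonneg v c)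
        have e1 : ∀ c ∈ T.children v, wt lam a v c *
              (PP T lam K a k c + κ * tp T lam K a k c ^ 2) =
            wt lam a v c * PP T lam K a k c + κ * (wt lam a v c * tp T lam K a k c ^ 2) :=
          fun c _ => by ring
        have e2 : ∀ c ∈ T.children v, wt lam a v c * (Θ * EE T lam a k c + g) =
            Θ * (wt lam a v c * EE T lam a k c) + g * wt lam a v c :=
          fun c _ => by ring
        rw [Finset.sum_congr rfl e1, Finset.sum_congr rfl e2, Finset.sum_add_distrib,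
          Finset.sum_add_distrib, ← Finset.mul_sum, ← Finset.mul_sum, ← Finset.mul_sum,
          h.sum_wt hv, mul_one] at h1
        exact h1
      -- assemble
      have hPP : PP T lam K a (k + 1) v = ∑ c ∈ T.children v, wt lam a v c * PP T lam K a k c +
          A * τ * (8 + 2 * τ) := by
        simp only [PP]; rfl
      have hEE : EE T lam a (k + 1) v = A ^ 2 + ∑ c ∈ T.children v, wt lam a v c * EE T lam a k c := by
        simp only [EE]; rfl
      rw [hPP, hEE]
      have hb2 : b ^ 2 = (K / 2) ^ 2 * A ^ 2 := by rw [hb]; ring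
      have hfinal : (6 + κ) * τ' ^ 2 ≤ κ * μ ^ 2 + 6 / (1 - lam) * (K / 2) ^ 2 / (1 - lam) * A ^ 2 := by
        have h6 : (6 + κ) * τ' ^ 2 ≤ (6 + κ) * (lam * μ ^ 2 + b ^ 2 / (1 - lam)) :=
          mul_le_mul_of_nonneg_left hsq (by positivity)
        have e : (6 + κ) * (lam * μ ^ 2 + b ^ 2 / (1 - lam)) =
            ((6 + κ) * lam) * μ ^ 2 + (6 + κ) * (b ^ 2 / (1 - lam)) := by ring
        rw [e, hκe, hκe2, hb2] at h6
        have e3 : 6 / (1 - lam) * ((K / 2) ^ 2 * A ^ 2 / (1 - lam)) =
            6 / (1 - lam) * (K / 2) ^ 2 / (1 - lam) * A ^ 2 := by ring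
        rw [e3] at h6
        rw [hκe2]
        exact h6
      have hJ' : κ * μ ^ 2 ≤ κ * ∑ c ∈ T.children v, wt lam a v c * tp T lam K a k c ^ 2 :=
        mul_le_mul_of_nonneg_left hJ hκ0
      have hΘe : Θ * (A ^ 2 + ∑ c ∈ T.children v, wt lam a v c * EE T lam a k c) =
          6 * A ^ 2 + 6 / (1 - lam) * (K / 2) ^ 2 / (1 - lam) * A ^ 2 +
            Θ * ∑ c ∈ T.children v, wt lam a v c * EE T lam a k c := by
        rw [hΘ]; ring
      rw [hΘe]
      nlinarith

/-- The flow-random expected sum of `a²` is bounded by the bound on paths. -/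
lemma anc_add_EE_le (h : AData T lam c₀ a) {M : ℝ} (hbase : ∀ v, 0 < a v → anc T a v + a v ^ 2 ≤ M)
    (k : ℕ) (v : V) (hv : 0 < a v) : anc T a v + EE T lam a k v ≤ M := by
  induction k generalizing v with
  | zero => simpa [EE] using hbase v hv
  | succ k ih =>
    have hsum := h.sum_wt hv
    have hterm : ∀ c ∈ T.children v, wt lam a v c * (anc T a c + EE T lam a k c) ≤
        wt lam a v c * M := by
      intro c _
      rcases (h.a0 c).eq_or_lt with hc | hc
      · have : wt lam a v c = 0 := by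
          unfold wt
          rw [← hc]
          simp
        rw [this]; simp
      · exact mul_le_mul_of_nonneg_left (ih c hc) (h.wt_nonneg v c)
    have h1 := Finset.sum_le_sum hterm
    rw [← Finset.sum_mul, hsum, one_mul] at h1
    have e : ∀ c ∈ T.children v, wt lam a v c * (anc T a c + EE T lam a k c) =
        (anc T a v + a v ^ 2) * wt lam a v c + wt lam a v c * EE T lam a k c := by
      intro c hc
      rw [anc_child T a hc]
      ring
    rw [Finset.sum_congr rfl e, Finset.sum_add_distrib, ← Finset.mul_sum, hsum, mul_one] at h1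
    simp only [EE]
    linarith

end AData

/-! ### The main induction -/

theorem reach_inv {T : LocFinTree V} {lam K c₀ : ℝ} {a : V → ℝ} {n : ℕ} {Rv : V → ℝ → ℝ → Prop}
    {Rs : V → Finset V → ℝ → ℝ → Prop}
    (h : AData T lam c₀ a) (hK : 0 ≤ K) (hc₀1 : c₀ ≤ 1)
    (hsys : ReachSys T lam K n Rv Rs) (k : ℕ) (v : V) (hd : T.depth v + k = n) :
    ∃ X t, Rv v X t ∧ a v * (1 - PP T lam K a k v) ≤ X ∧ X ≤ a v ∧
      t ≤ a v * (tp T lam K a k v + lam ^ k) := by
  have hl0 := h.lam0
  induction k generalizing v with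
  | zero =>
    have hleaf := hsys.leaf v (by simpa using hd)
    have h1 := hsys.thin v 1 1 (a v) hleaf (h.a0 v) ((h.a1 v).trans hc₀1)
    refine ⟨_, _, h1, ?_, ?_, ?_⟩ <;> simp [PP, tp]
  | succ k ih =>
    have hdlt : T.depth v < n := by omega
    have hchild : ∀ c ∈ T.children v, ∃ Xc tc, Rv c Xc tc ∧ a c * (1 - PP T lam K a k c) ≤ Xc ∧
        Xc ≤ a c ∧ tc ≤ a c * (tp T lam K a k c + lam ^ k) := by
      intro c hc
      apply ih
      rw [depth_child T hc]
      omega
    choose! Xc tc hR hlow hup htc using hchild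
    set y : V → ℝ := fun c => lam ^ 2 * Xc c with hy
    set w : V → ℝ := fun c => lam ^ 3 * tc c with hw
    have hy0 : ∀ c ∈ T.children v, 0 ≤ y c := fun c hc =>
      mul_nonneg (sq_nonneg _) (hsys.nonneg _ _ _ (hR c hc)).1
    have hw0 : ∀ c ∈ T.children v, 0 ≤ w c := fun c hc =>
      mul_nonneg (by positivity) (hsys.nonneg _ _ _ (hR c hc)).2
    -- the star over subsets
    have hstar : ∀ S : Finset V, S ⊆ T.children v → ∃ X t, Rs v S X t ∧
        (∑ c ∈ S, y c) - (8 * (∑ c ∈ S, y c) * (∑ c ∈ S, w c + K / 2 * (∑ c ∈ S, y c) ^ 2) +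
          2 * (∑ c ∈ S, w c + K / 2 * (∑ c ∈ S, y c) ^ 2) ^ 2) ≤ X ∧
        X ≤ ∑ c ∈ S, y c ∧ t ≤ ∑ c ∈ S, w c + K / 2 * (∑ c ∈ S, y c) ^ 2 := by
      intro S
      induction S using Finset.induction_on with
      | empty =>
        intro _
        refine ⟨0, 0, hsys.empty v hdlt, ?_, ?_, ?_⟩ <;> simp
      | insert c S hcS ihS =>
        intro hsub
        have hSsub : S ⊆ T.children v := fun z hz => hsub (Finset.mem_insert_of_mem hz)
        have hc : c ∈ T.children v := hsub (Finset.mem_insert_self _ _)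
        obtain ⟨X, t, hRs, hXl, hXu, htu⟩ := ihS hSsub
        obtain ⟨hX0, ht0⟩ := hsys.nonnegS _ _ _ _ hRs
        obtain ⟨X2, t2, hRs2, hX2l, ht2u⟩ :=
          hsys.step v S X t c (Xc c) (tc c) hdlt hSsub hc hcS hRs (hR c hc)
        obtain ⟨hX20, ht20⟩ := hsys.nonnegS _ _ _ _ hRs2
        have hyc := hy0 c hc
        have hwc := hw0 c hc
        rw [Finset.sum_insert hcS, Finset.sum_insert hcS]
        set Y := ∑ c ∈ S, y c with hY
        set W := ∑ c ∈ S, w c with hW
        have hY0 : 0 ≤ Y := Finset.sum_nonneg fun z hz => hy0 z (hSsub hz)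
        have hW0 : 0 ≤ W := Finset.sum_nonneg fun z hz => hw0 z (hSsub hz)
        set V₀ := W + K / 2 * Y ^ 2 with hV₀
        have hV0 : 0 ≤ V₀ := by positivity
        set V₁ := (w c + W) + K / 2 * (y c + Y) ^ 2 with hV₁
        have hV1 : V₀ + w c + K * Y * y c ≤ V₁ := by
          rw [hV₀, hV₁]
          have : 0 ≤ K / 2 * y c ^ 2 := by positivity
          nlinarith
        have hV10 : V₀ + w c ≤ V₁ := by
          have : 0 ≤ K * Y * y c := by positivity
          linarith
        have hyct : y c = lam ^ 2 * Xc c := rfl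
        have hwct : w c = lam ^ 3 * tc c := rfl
        rw [← hyct, ← hwct] at hX2l ht2u
        -- products
        have hp1 : X * w c ≤ Y * w c := mul_le_mul_of_nonneg_right hXu hwc
        have hp2 : y c * t ≤ y c * V₀ := mul_le_mul_of_nonneg_left htu hyc
        have hp3 : t * w c ≤ V₀ * w c := mul_le_mul_of_nonneg_right htu hwc
        have hp4 : X * y c ≤ Y * y c := mul_le_mul_of_nonneg_right hXu hyc
        have hp5 : K * X * y c ≤ K * Y * y c := by
          have := mul_le_mul_of_nonneg_left hp4 hK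
          nlinarith
        have hL : (8 * Y * V₀ + 2 * V₀ ^ 2) + 4 * (Y * w c + y c * V₀) + 2 * (V₀ * w c) ≤
            8 * (y c + Y) * V₁ + 2 * V₁ ^ 2 := by
          have h5 : (V₀ + w c) ^ 2 ≤ V₁ ^ 2 :=
            pow_le_pow_left₀ (by positivity) hV10 2
          have h6 : (y c + Y) * (V₀ + w c) ≤ (y c + Y) * V₁ :=
            mul_le_mul_of_nonneg_left hV10 (by positivity)
          have h7 : 0 ≤ y c * w c := by positivity
          have h8 : 0 ≤ Y * w c := by positivity
          have h9 : 0 ≤ y c * V₀ := by positivity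
          have h10 : 0 ≤ V₀ * w c := by positivity
          have h11 : 0 ≤ w c ^ 2 := by positivity
          nlinarith
        have hLnn : 0 ≤ 8 * (y c + Y) * V₁ + 2 * V₁ ^ 2 := by
          have : 0 ≤ V₁ := by linarith
          positivity
        have hlowX2 : y c + Y - (8 * (y c + Y) * V₁ + 2 * V₁ ^ 2) ≤ X2 := by
          linarith
        have htopt2 : t2 ≤ V₁ := by linarith
        by_cases hcap : X2 ≤ y c + Y
        · exact ⟨X2, t2, hRs2, hlowX2, hcap, htopt2⟩
        · -- thin down to the cap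
          have hlt : y c + Y < X2 := not_le.mp hcap
          have hX2pos : 0 < X2 := lt_of_le_of_lt (by positivity) hlt
          set p := (y c + Y) / X2 with hp
          have hp0 : 0 ≤ p := by positivity
          have hp1' : p ≤ 1 := (div_le_one hX2pos).mpr hlt.le
          have hthin := hsys.thinS v _ X2 t2 p hRs2 hp0 hp1'
          have hpX : p * X2 = y c + Y := by
            rw [hp]; field_simp
          refine ⟨p * X2, p * t2, hthin, ?_, ?_, ?_⟩
          · rw [hpX]; linarith
          · rw [hpX]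
          · have : p * t2 ≤ 1 * t2 := mul_le_mul_of_nonneg_right hp1' ht20
            linarith
    obtain ⟨X, t, hRs, hXl, hXu, htu⟩ := hstar _ subset_rfl
    set A := a v with hA
    have hA0 : 0 ≤ A := h.a0 v
    have hflow : ∑ c ∈ T.children v, lam ^ 2 * a c = A := h.flow v
    have hSY0 : 0 ≤ ∑ c ∈ T.children v, y c := Finset.sum_nonneg hy0
    have hSW0 : 0 ≤ ∑ c ∈ T.children v, w c := Finset.sum_nonneg hw0
    have hYle : ∑ c ∈ T.children v, y c ≤ A := by
      rw [← hflow]
      apply Finset.sum_le_sum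
      intro c hc
      exact mul_le_mul_of_nonneg_left (hup c hc) (sq_nonneg _)
    have hAw : A * ∑ c ∈ T.children v, wt lam a v c = A := by
      have e : ∀ c ∈ T.children v, A * wt lam a v c = lam ^ 2 * a c := fun c hc => h.mul_wt hc
      rw [Finset.mul_sum, Finset.sum_congr rfl e]
      exact hflow
    set σ := ∑ c ∈ T.children v, wt lam a v c * tp T lam K a k c with hσ
    set π₀ := ∑ c ∈ T.children v, wt lam a v c * PP T lam K a k c with hπ
    have hW : ∑ c ∈ T.children v, w c ≤ A * (lam * σ) + lam ^ (k + 1) * A := by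
      have h1 : ∀ c ∈ T.children v, w c ≤
          lam * (A * (wt lam a v c * tp T lam K a k c)) + lam ^ (k + 1) * (A * wt lam a v c) := by
        intro c hc
        have h2 := htc c hc
        have h3 : lam ^ 3 * tc c ≤ lam ^ 3 * (a c * (tp T lam K a k c + lam ^ k)) :=
          mul_le_mul_of_nonneg_left h2 (by positivity)
        have h4 : A * wt lam a v c = lam ^ 2 * a c := h.mul_wt hc
        have e : lam * (A * (wt lam a v c * tp T lam K a k c)) + lam ^ (k + 1) * (A * wt lam a v c) =
            lam ^ 3 * (a c * (tp T lam K a k c + lam ^ k)) := by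
          have : lam * (A * (wt lam a v c * tp T lam K a k c)) =
              lam * (A * wt lam a v c) * tp T lam K a k c := by ring
          rw [this, h4]
          ring
        rw [e]
        exact h3
      have h2 := Finset.sum_le_sum h1
      have e1 : ∑ c ∈ T.children v, lam * (A * (wt lam a v c * tp T lam K a k c)) = A * (lam * σ) := by
        rw [hσ, Finset.mul_sum, Finset.mul_sum]
        exact Finset.sum_congr rfl fun c _ => by ring
      have e2 : ∑ c ∈ T.children v, lam ^ (k + 1) * (A * wt lam a v c) = lam ^ (k + 1) * A := by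
        rw [← Finset.mul_sum, ← Finset.mul_sum, hAw]
      calc ∑ c ∈ T.children v, w c
          ≤ ∑ c ∈ T.children v, (lam * (A * (wt lam a v c * tp T lam K a k c)) +
              lam ^ (k + 1) * (A * wt lam a v c)) := h2
        _ = A * (lam * σ) + lam ^ (k + 1) * A := by
            rw [Finset.sum_add_distrib, e1, e2]
    have hYlow : A - A * π₀ ≤ ∑ c ∈ T.children v, y c := by
      have h1 : ∀ c ∈ T.children v, A * wt lam a v c - A * (wt lam a v c * PP T lam K a k c) ≤ y c := by
        intro c hc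
        have h2 := mul_le_mul_of_nonneg_left (hlow c hc) (sq_nonneg lam)
        have h4 : A * wt lam a v c = lam ^ 2 * a c := h.mul_wt hc
        have e : A * wt lam a v c - A * (wt lam a v c * PP T lam K a k c) =
            lam ^ 2 * (a c * (1 - PP T lam K a k c)) := by
          have : A * (wt lam a v c * PP T lam K a k c) = (A * wt lam a v c) * PP T lam K a k c := by
            ring
          rw [this, h4]
          ring
        rw [e]
        exact h2
      have h2 := Finset.sum_le_sum h1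
      have e1 : ∑ c ∈ T.children v, A * wt lam a v c = A := by
        rw [← Finset.mul_sum, hAw]
      have e2 : ∑ c ∈ T.children v, A * (wt lam a v c * PP T lam K a k c) = A * π₀ := by
        rw [hπ, Finset.mul_sum]
      calc A - A * π₀
          = ∑ c ∈ T.children v, (A * wt lam a v c - A * (wt lam a v c * PP T lam K a k c)) := by
            rw [Finset.sum_sub_distrib, e1, e2]
        _ ≤ ∑ c ∈ T.children v, y c := h2
    set τ := tp T lam K a (k + 1) v + lam ^ (k + 1) with hτ
    have hτe : τ = lam * σ + K / 2 * A + lam ^ (k + 1) := by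
      rw [hτ]
      simp only [tp]
      rfl
    have hτ0 : 0 ≤ τ := by
      rw [hτ]
      have := h.tp_nonneg hK (k + 1) v
      positivity
    set V₀ := ∑ c ∈ T.children v, w c + K / 2 * (∑ c ∈ T.children v, y c) ^ 2 with hV₀
    have hV00 : 0 ≤ V₀ := by positivity
    have hV : V₀ ≤ A * τ := by
      have h1 : (∑ c ∈ T.children v, y c) ^ 2 ≤ A ^ 2 := pow_le_pow_left₀ hSY0 hYle 2
      have h2 : K / 2 * (∑ c ∈ T.children v, y c) ^ 2 ≤ K / 2 * A ^ 2 :=
        mul_le_mul_of_nonneg_left h1 (by positivity)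
      rw [hτe, hV₀]
      nlinarith
    have hΛ : 8 * (∑ c ∈ T.children v, y c) * V₀ + 2 * V₀ ^ 2 ≤ A * (A * τ * (8 + 2 * τ)) := by
      have h1 : (∑ c ∈ T.children v, y c) * V₀ ≤ A * (A * τ) :=
        mul_le_mul hYle hV hV00 hA0
      have h2 : V₀ ^ 2 ≤ (A * τ) ^ 2 := pow_le_pow_left₀ hV00 hV 2
      nlinarith
    refine ⟨X, t, hsys.top v X t hdlt hRs, ?_, hXu.trans hYle, htu.trans hV⟩
    have hPP : PP T lam K a (k + 1) v = π₀ + A * τ * (8 + 2 * τ) := by
      simp only [PP]
      rfl
    rw [hPP]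
    have e : A * (1 - (π₀ + A * τ * (8 + 2 * τ))) = A - A * π₀ - A * (A * τ * (8 + 2 * τ)) := by
      ring
    rw [e]
    linarith

/-! ### Rays through a vertex -/

/-- Any forward path from a vertex extends backwards to a ray. -/
lemma exists_ray_through (T : LocFinTree V) (d : ℕ) (v : V) (hd : T.depth v = d) (ξ' : ℕ → V)
    (h0 : ξ' 0 = v) (hstep : ∀ k, ξ' (k + 1) ∈ T.children (ξ' k)) :
    ∃ ξ : ℕ → V, T.IsRay ξ ∧ ∀ k, ξ (d + k) = ξ' k := by
  induction d generalizing v ξ' with
  | zero =>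
    have hv : v = T.root := (T.depth_eq_zero_iff v).1 hd
    exact ⟨ξ', ⟨by rw [h0, hv], hstep⟩, fun k => by simp⟩
  | succ d ih =>
    have hne : v ≠ T.root := by
      intro h'
      have := (T.depth_eq_zero_iff v).2 h'
      omega
    have hp := T.depth_parent v hne
    have hchild : v ∈ T.children (T.parent v) :=
      Finset.mem_filter.mpr ⟨(T.mem_level_iff _ _).2 hp.symm, rfl⟩
    let ξ'' : ℕ → V := fun k => match k with
      | 0 => T.parent v
      | k + 1 => ξ' k
    obtain ⟨ξ, hξ, hξe⟩ := ih (T.parent v) (by omega) ξ'' rfl (by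
      intro k
      cases k with
      | zero =>
        show ξ' 0 ∈ T.children (T.parent v)
        rw [h0]; exact hchild
      | succ k => exact hstep k)
    refine ⟨ξ, hξ, fun k => ?_⟩
    have := hξe (k + 1)
    rw [show d + 1 + k = d + (k + 1) by ring]
    exact this

/-- The partial sums of `rayPotential`. -/
lemma ray_partial (lam : ℝ) (θ : V → ℝ) (ξ : ℕ → V) (h : rayPotential lam θ ξ ≤ 1) (N : ℕ) :
    ∑ n ∈ Finset.range N, (θ (ξ (n + 1)) / lam ^ (2 * (n + 1))) ^ 2 ≤ 1 := by
  have h1 : ∑ n ∈ Finset.range N, ENNReal.ofReal ((θ (ξ (n + 1)) / lam ^ (2 * (n + 1))) ^ 2) ≤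
      rayPotential lam θ ξ := ENNReal.sum_le_tsum _
  rw [← ENNReal.ofReal_sum_of_nonneg (fun _ _ => sq_nonneg _)] at h1
  exact ENNReal.ofReal_le_one.mp (h1.trans h)

lemma geom_aux (lam : ℝ) (N : ℕ) :
    (∑ j ∈ Finset.range N, lam ^ (j + 1)) * (1 - lam) = lam - lam ^ (N + 1) := by
  induction N with
  | zero => simp
  | succ N ih =>
    rw [Finset.sum_range_succ, add_mul, ih]
    ring

/-! ### The main theorem -/

/-- **Flow implies reconstruction, numeric form.** -/
theorem exists_reach_root (T : LocFinTree V) (lam K : ℝ) (h0 : 0 < lam) (h1 : lam < 1) (hK : 0 ≤ K)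
    (θ : V → ℝ) (hθ : IsFlow T θ) (hm : 0 < flowMass T θ)
    (hpot : ∀ ξ : ℕ → V, T.IsRay ξ → rayPotential lam θ ξ ≤ 1) :
    ∃ ε : ℝ, 0 < ε ∧ ∀ (n : ℕ) (Rv : V → ℝ → ℝ → Prop) (Rs : V → Finset V → ℝ → ℝ → Prop),
      ReachSys T lam K n Rv Rs → ∃ X t, Rv T.root X t ∧ ε ≤ X := by
  classical
  set m := flowMass T θ with hmdef
  have hl : 0 < 1 - lam := by linarith
  set Θ := 6 + 6 / (1 - lam) * (K / 2) ^ 2 / (1 - lam) with hΘ
  have hΘ0 : 0 ≤ Θ := by positivity
  set Q := Θ + 12 / (1 - lam) + K / (1 - lam) + 1 with hQ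
  have hQ1 : 1 ≤ Q := by
    have h2 : 0 ≤ 12 / (1 - lam) := by positivity
    have h3 : 0 ≤ K / (1 - lam) := by positivity
    rw [hQ]; linarith
  have hQ0 : 0 < Q := by linarith
  set c₀ := 1 / (2 * Q) with hc₀
  have hc₀0 : 0 < c₀ := by positivity
  have hc₀1 : c₀ ≤ 1 := by
    rw [hc₀, div_le_one (by positivity)]; linarith
  have hQc : Q * c₀ = 1 / 2 := by
    rw [hc₀]; field_simp
  set c := c₀ / (m + 1) with hc
  have hm1 : 0 < m + 1 := by linarith
  have hc0 : 0 < c := by positivity
  have hcc : c * (m + 1) = c₀ := by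
    rw [hc]; field_simp
  -- the weights
  set a : V → ℝ := fun v => if v = T.root then c * m else c * θ v / lam ^ (2 * T.depth v) with ha
  have harootv : a T.root = c * m := by simp [ha]
  have ha_nonroot : ∀ v, v ≠ T.root → a v = c * θ v / lam ^ (2 * T.depth v) := by
    intro v hv
    simp [ha, hv]
  have ha0 : ∀ v, 0 ≤ a v := by
    intro v
    by_cases hv : v = T.root
    · rw [hv, harootv]; positivity
    · rw [ha_nonroot v hv]
      have := hθ.1 v
      positivity
  have hflow : ∀ v, ∑ c' ∈ T.children v, lam ^ 2 * a c' = a v := by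
    intro v
    have e : ∀ c' ∈ T.children v, lam ^ 2 * a c' = (c / lam ^ (2 * T.depth v)) * θ c' := by
      intro c' hc'
      have hne : c' ≠ T.root := by
        intro h'
        have h2 := (T.depth_eq_zero_iff c').2 h'
        have h3 := depth_child T hc'
        omega
      rw [ha_nonroot c' hne, depth_child T hc']
      have : lam ^ (2 * (T.depth v + 1)) = lam ^ (2 * T.depth v) * lam ^ 2 := by
        rw [mul_add, pow_add]
      rw [this]
      field_simp
    rw [Finset.sum_congr rfl e, ← Finset.mul_sum]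
    by_cases hv : v = T.root
    · subst hv
      rw [harootv]
      have : ∑ w ∈ T.children T.root, θ w = m := rfl
      rw [this, (T.depth_eq_zero_iff _).2 rfl]
      simp
    · rw [ha_nonroot v hv, ← hθ.2 v hv]
      ring
  -- rays
  have hraysum : ∀ ξ : ℕ → V, T.IsRay ξ → ∀ i, anc T a (ξ i) + a (ξ i) ^ 2 ≤ c ^ 2 * (m ^ 2 + 1) := by
    intro ξ hξ i
    have hexact : ∀ i, anc T a (ξ i) + a (ξ i) ^ 2 = (c * m) ^ 2 +
        c ^ 2 * ∑ n ∈ Finset.range i, (θ (ξ (n + 1)) / lam ^ (2 * (n + 1))) ^ 2 := by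
      intro i
      induction i with
      | zero =>
        rw [hξ.1, anc_root, harootv]
        simp
      | succ i ih =>
        have hc := hξ.2 i
        rw [anc_child T a hc, ih, Finset.sum_range_succ]
        have hne : ξ (i + 1) ≠ T.root := by
          intro h'
          have h2 := (T.depth_eq_zero_iff _).2 h'
          have h3 := ray_depth T hξ (i + 1)
          omega
        rw [ha_nonroot _ hne, ray_depth T hξ (i + 1)]
        have : c * θ (ξ (i + 1)) / lam ^ (2 * (i + 1)) =
            c * (θ (ξ (i + 1)) / lam ^ (2 * (i + 1))) := by ring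
        rw [this]
        ring
    rw [hexact i]
    have := ray_partial lam θ ξ (hpot ξ hξ) i
    have h2 : c ^ 2 * ∑ n ∈ Finset.range i, (θ (ξ (n + 1)) / lam ^ (2 * (n + 1))) ^ 2 ≤ c ^ 2 * 1 :=
      mul_le_mul_of_nonneg_left this (by positivity)
    nlinarith
  -- vertices of positive weight lie on a ray
  have hnext : ∀ u : V, (u = T.root ∨ 0 < θ u) → ∃ w ∈ T.children u, 0 < θ w := by
    intro u hu
    have hsum : 0 < ∑ w ∈ T.children u, θ w := by
      rcases eq_or_ne u T.root with h' | h'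
      · rw [h']; exact hm
      · rcases hu with h2 | h2
        · exact absurd h2 h'
        · rw [← hθ.2 u h']; exact h2
    by_contra hcon
    have hcon' : ∀ w ∈ T.children u, θ w ≤ 0 :=
      fun w hw => not_lt.mp (fun hpos => hcon ⟨w, hw, hpos⟩)
    have : ∑ w ∈ T.children u, θ w ≤ 0 := Finset.sum_nonpos hcon'
    linarith
  have hpath : ∀ u : V, (u = T.root ∨ 0 < θ u) →
      ∃ ξ' : ℕ → V, ξ' 0 = u ∧ ∀ k, ξ' (k + 1) ∈ T.children (ξ' k) := by
    intro u hu
    let P : Type _ := {u : V // u = T.root ∨ 0 < θ u}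
    have hn : ∀ p : P, ∃ q : P, q.1 ∈ T.children p.1 := by
      intro p
      obtain ⟨w, hw, hw0⟩ := hnext p.1 p.2
      exact ⟨⟨w, Or.inr hw0⟩, hw⟩
    choose nxt hnxt using hn
    let s : ℕ → P := fun k => Nat.rec ⟨u, hu⟩ (fun _ r => nxt r) k
    exact ⟨fun k => (s k).1, rfl, fun k => hnxt (s k)⟩
  have hbase : ∀ v, 0 < a v → anc T a v + a v ^ 2 ≤ c ^ 2 * (m ^ 2 + 1) := by
    intro v hv
    have hP : v = T.root ∨ 0 < θ v := by
      by_cases h' : v = T.root
      · exact Or.inl h'
      · right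
        rw [ha_nonroot v h'] at hv
        by_contra hcon
        have h2 : θ v = 0 := le_antisymm (not_lt.mp hcon) (hθ.1 v)
        rw [h2] at hv
        simp at hv
    obtain ⟨ξ', h01, hs⟩ := hpath v hP
    obtain ⟨ξ, hξ, hξe⟩ := exists_ray_through T _ v rfl ξ' h01 hs
    have := hraysum ξ hξ (T.depth v)
    have e := hξe 0
    rw [add_zero, h01] at e
    rwa [e] at this
  have hanc0 : ∀ v, 0 ≤ anc T a v := by
    intro v
    unfold anc
    generalize T.depth v = d
    induction d generalizing v with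
    | zero => exact le_rfl
    | succ d ih =>
      simp only [ancN]
      have := ih (T.parent v)
      positivity
  have hM : c ^ 2 * (m ^ 2 + 1) ≤ c₀ ^ 2 := by
    rw [← hcc]
    have : m ^ 2 + 1 ≤ (m + 1) ^ 2 := by nlinarith
    have h2 := mul_le_mul_of_nonneg_left this (sq_nonneg c)
    nlinarith
  have ha1 : ∀ v, a v ≤ c₀ := by
    intro v
    rcases (ha0 v).eq_or_lt with hv | hv
    · rw [← hv]; exact hc₀0.le
    · have h2 := hbase v hv
      have h3 := hanc0 v
      have h4 : a v ^ 2 ≤ c₀ ^ 2 := by linarith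
      exact (pow_le_pow_iff_left₀ (ha0 v) hc₀0.le two_ne_zero).mp h4
  have hA : AData T lam c₀ a := ⟨h0, h1, ha0, ha1, hflow⟩
  have hT₀ : K / 2 * c₀ / (1 - lam) ≤ 1 := by
    have h2 : K / (1 - lam) ≤ Q := by
      have h3 : 0 ≤ 12 / (1 - lam) := by positivity
      rw [hQ]; linarith
    have h3 : K / (1 - lam) * c₀ ≤ Q * c₀ := mul_le_mul_of_nonneg_right h2 hc₀0.le
    have e : K / 2 * c₀ / (1 - lam) = (K / (1 - lam) * c₀) / 2 := by
      field_simp
    rw [e]
    linarith
  refine ⟨c * m / 2, by positivity, ?_⟩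
  intro n Rv Rs hsys
  obtain ⟨X, t, hR, hlow, _, _⟩ := reach_inv hA hK hc₀1 hsys n T.root
    (by rw [(T.depth_eq_zero_iff _).2 rfl]; omega)
  refine ⟨X, t, hR, ?_⟩
  rw [harootv] at hlow
  -- the loss at the root is at most one half
  have hL := hA.lyapunov hK hT₀ n T.root
  have hrootpos : 0 < a T.root := by rw [harootv]; positivity
  have hE := hA.anc_add_EE_le hbase n T.root hrootpos
  rw [anc_root, zero_add] at hE
  have hE' : EE T lam a n T.root ≤ c₀ ^ 2 := hE.trans hM
  have hgeo : ∑ j ∈ Finset.range n, lam ^ (j + 1) ≤ 1 / (1 - lam) := by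
    rw [le_div_iff₀ hl, geom_aux]
    have : 0 ≤ lam ^ (n + 1) := by positivity
    linarith
  have hκ : 0 ≤ 6 * lam / (1 - lam) * tp T lam K a n T.root ^ 2 := by positivity
  have hPP : PP T lam K a n T.root ≤ 1 / 2 := by
    have h2 : Θ * EE T lam a n T.root ≤ Θ * c₀ ^ 2 := mul_le_mul_of_nonneg_left hE' hΘ0
    have h3 : 12 * c₀ * ∑ j ∈ Finset.range n, lam ^ (j + 1) ≤ 12 * c₀ * (1 / (1 - lam)) :=
      mul_le_mul_of_nonneg_left hgeo (by positivity)
    have h4 : c₀ ^ 2 ≤ c₀ := by nlinarith
    have h5 : Θ * c₀ ^ 2 ≤ Θ * c₀ := mul_le_mul_of_nonneg_left h4 hΘ0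
    have h6 : 12 * c₀ * (1 / (1 - lam)) = 12 / (1 - lam) * c₀ := by ring
    have h7 : 0 ≤ K / (1 - lam) * c₀ := by positivity
    have h8 : Q * c₀ = Θ * c₀ + 12 / (1 - lam) * c₀ + K / (1 - lam) * c₀ + c₀ := by
      rw [hQ]; ring
    linarith
  have hcm : 0 ≤ c * m := by positivity
  have : c * m * (1 / 2) ≤ c * m * (1 - PP T lam K a n T.root) :=
    mul_le_mul_of_nonneg_left (by linarith) hcm
  linarith

end Crest.Agent.PottsTree.TreeFlow
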