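import Crest.Agent.Lib.PottsTree.Glue246
import Crest.Agent.Lib.PottsTree.TreeFlowB

/-!
# `S0246`, a flow implies reconstruction, from the pointwise bounds

The reach system of `TreeFlowB` is realised by finite experiments below the true experiments in the
Blackwell order.
-/

namespace Crest.Agent.PottsTree

open Finset Filter
open Crest.ProbabilityR.Broadcast Crest.ProbabilityR.TreeBroadcast

/-- The pointwise bound of the advantage from below. -/
lemma A_four_le_tv {p : Fin 4 → ℝ} (hp : p ∈ Sx 4) : A 4 p ≤ 6 * tv 4 p := by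
  have hs : ∑ i, p i = 1 := hp.2
  have h1 : A 4 p = 4 * ∑ i, (p i - 1 / 4) ^ 2 := by
    have : ∑ i, (p i - 1 / 4) ^ 2 = ∑ i, p i ^ 2 - (1 / 2) * ∑ i, p i + 1 / 4 := by
      simp only [Fin.sum_univ_four]
      ring
    rw [this, hs]
    simp only [A]
    push_cast
    ring
  have h2 : ∀ i, (p i - 1 / 4) ^ 2 ≤ 3 / 4 * |p i - 1 / 4| := by
    intro i
    have h0 := hp.1 i
    have h3 := coord_le_one hp i
    rw [← sq_abs]
    have h4 : |p i - 1 / 4| ≤ 3 / 4 := abs_le.2 ⟨by linarith, by linarith⟩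
    nlinarith [abs_nonneg (p i - 1 / 4)]
  have h3 : ∑ i, (p i - 1 / 4) ^ 2 ≤ 3 / 4 * ∑ i, |p i - 1 / 4| := by
    rw [Finset.mul_sum]
    exact Finset.sum_le_sum fun i _ => h2 i
  rw [h1]
  simp only [tv]
  norm_num at h3 ⊢
  linarith

/-- All the pointwise input of the backward direction. -/
structure PairData (C : ConeData 4) where
  /-- the normalised cubic functional -/
  tau : (Fin 4 → ℝ) → ℝ
  /-- the constant in the bound of the third moment -/
  Kpw : ℝ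
  Kpw_nonneg : 0 ≤ Kpw
  bdd_tau : BddS tau
  tau_unif : tau (fun _ => 1 / ((4 : ℕ) : ℝ)) = 0
  tau_atom : ∀ a, tau (baseL 4 a) = 1
  tau_T : ∀ lam : ℝ, ∀ p ∈ Sx 4, tau (T 4 lam p) = lam ^ 3 * tau p
  U1 : ∀ p ∈ Sx 4, ∀ r ∈ Sx 4, A 4 p + A 4 r - 4 * (A 4 p * tau r + A 4 r * tau p) - 6 * (tau p * tau r)
    ≤ B (A 4) p r
  U2 : ∀ p ∈ Sx 4, ∀ r ∈ Sx 4, B tau p r ≤ tau p + tau r + Kpw * (A 4 p * A 4 r)
  c : ℝ
  c_pos : 0 < c
  Xi_le : ∀ p ∈ Sx 4, C.Xi p ≤ c * tau p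

namespace PairData

variable {C : ConeData 4} (D : PairData C)

lemma A_atom (a : Fin 4) : A 4 (baseL 4 a) = 3 := by
  simp only [A, baseL]
  have : ∑ i : Fin 4, (if a = i then (1 : ℝ) else 0) ^ 2 = 1 := by
    simp [ite_pow]
  rw [this]
  norm_num

lemma pot_A_base : Pot (A 4) (baseL 4) = 3 := by
  rw [pot_baseL]
  simp only [A_atom]
  norm_num

lemma pot_tau_base : Pot D.tau (baseL 4) = 1 := by
  rw [pot_baseL]
  simp only [D.tau_atom]
  norm_num

lemma pot_tau_nonneg {Ω : Type*} {L : Ω → Fin 4 → ℝ} (h : Good C L) : 0 ≤ Pot D.tau L := by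
  have h1 := pot_mono h.lik C.bdd_Xi (D.bdd_tau.const_mul D.c) D.Xi_le
  rw [pot_const_mul] at h1
  have h2 := h.cone
  have h3 : 0 ≤ D.c * Pot D.tau L := h2.trans h1
  exact nonneg_of_mul_nonneg_right h3 D.c_pos

lemma pot_tau_contract {Ω : Type*} {L : Ω → Fin 4 → ℝ} (hL : IsLik L) (lam : ℝ) :
    Pot D.tau (contract lam L) = lam ^ 3 * Pot D.tau L := by
  rw [pot_contract (by norm_num), ← pot_const_mul]
  exact pot_congr hL fun p hp => D.tau_T lam p hp

/-- The bilinear lower bound at law level. -/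
lemma pot_star_ge {Ω Ω' : Type*} {L : Ω → Fin 4 → ℝ} {L' : Ω' → Fin 4 → ℝ} (h : Good C L)
    (h' : Good C L') :
    Pot (A 4) L + Pot (A 4) L' - 4 * (Pot (A 4) L * Pot D.tau L' + Pot (A 4) L' * Pot D.tau L) -
      6 * (Pot D.tau L * Pot D.tau L') ≤ Pot (A 4) (star L L') := by
  have hA := bddS_A (q := 4)
  have h1 := BddS.const (q := 4) 1
  have ht := D.bdd_tau
  have key := sum_le_pot_star (ι := Fin 5) (by norm_num : (4 : ℕ) ≠ 0) h.lik h'.lik h'.sym hA
    Finset.univ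
    (u := ![A 4, fun _ => 1, fun p => -4 * A 4 p, fun p => -4 * D.tau p, fun p => -6 * D.tau p])
    (v := ![fun _ => 1, A 4, D.tau, A 4, D.tau])
    (fun k _ => by
      fin_cases k
      · exact hA
      · exact h1
      · exact hA.const_mul _
      · exact ht.const_mul _
      · exact ht.const_mul _)
    (fun k _ => by
      fin_cases k
      · exact h1
      · exact hA
      · exact ht
      · exact hA
      · exact ht)
    (fun p hp r hr => by
      have := D.U1 p hp r hr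
      simp only [Fin.sum_univ_succ, Fin.sum_univ_zero, Matrix.cons_val_zero, Matrix.cons_val_succ,
        Matrix.cons_val_fin_one]
      linarith)
  simp only [Fin.sum_univ_succ, Fin.sum_univ_zero, Matrix.cons_val_zero, Matrix.cons_val_succ,
    Matrix.cons_val_fin_one] at key
  rw [pot_const (by norm_num) h.lik, pot_const (by norm_num) h'.lik, pot_const_mul, pot_const_mul,
    pot_const_mul] at key
  linarith

/-- The bilinear upper bound at law level. -/
lemma pot_star_tau_le {Ω Ω' : Type*} {L : Ω → Fin 4 → ℝ} {L' : Ω' → Fin 4 → ℝ} (h : Good C L)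
    (h' : Good C L') :
    Pot D.tau (star L L') ≤ Pot D.tau L + Pot D.tau L' + D.Kpw * (Pot (A 4) L * Pot (A 4) L') := by
  have hA := bddS_A (q := 4)
  have h1 := BddS.const (q := 4) 1
  have ht := D.bdd_tau
  have key := pot_star_le_sum (ι := Fin 3) (by norm_num : (4 : ℕ) ≠ 0) h.lik h'.lik h'.sym ht
    Finset.univ
    (u := ![D.tau, fun _ => 1, fun p => D.Kpw * A 4 p])
    (v := ![fun _ => 1, D.tau, A 4])
    (fun k _ => by
      fin_cases k
      · exact ht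
      · exact h1
      · exact hA.const_mul _)
    (fun k _ => by
      fin_cases k
      · exact h1
      · exact ht
      · exact hA)
    (fun p hp r hr => by
      have := D.U2 p hp r hr
      simp only [Fin.sum_univ_succ, Fin.sum_univ_zero, Matrix.cons_val_zero, Matrix.cons_val_succ,
        Matrix.cons_val_fin_one]
      linarith)
  simp only [Fin.sum_univ_succ, Fin.sum_univ_zero, Matrix.cons_val_zero, Matrix.cons_val_succ,
    Matrix.cons_val_fin_one] at key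
  rw [pot_const (by norm_num) h.lik, pot_const (by norm_num) h'.lik, pot_const_mul] at key
  linarith

end PairData

section Backward

variable {V : Type*} [DecidableEq V] (Tr : LocFinTree V)

variable {C : ConeData 4} (D : PairData C) (lam : ℝ)

/-- the reach relation at a vertex -/
def RvG (n : ℕ) (v : V) (X t : ℝ) : Prop :=
  ∃ (Ω : Type) (_ : Fintype Ω) (L : Ω → Fin 4 → ℝ), Good C L ∧
    Dom L (lik Tr 4 lam (n - Tr.depth v) v) ∧ X = Pot (A 4) L / 3 ∧ t = Pot D.tau L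

/-- the reach relation at a set of children -/
def RsG (n : ℕ) (v : V) (S : Finset V) (X t : ℝ) : Prop :=
  ∃ (Ω : Type) (_ : Fintype Ω) (L : Ω → Fin 4 → ℝ), Good C L ∧
    Dom L (Ap Tr 4 lam (n - Tr.depth v - 1) S) ∧ X = Pot (A 4) L / 3 ∧ t = Pot D.tau L

lemma good_thin {Ω : Type*} {L : Ω → Fin 4 → ℝ} (h : Good C L) {p : ℝ} (h0 : 0 ≤ p) (h1 : p ≤ 1) :
    Good C (thin p L) := by
  have hq : (4 : ℕ) ≠ 0 := by norm_num
  refine ⟨isLik_thin h.lik h0 h1, symLik_thin hq h.lik h.sym p, ?_⟩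
  rw [pot_thin hq h.lik C.bdd_Xi]
  have := C.unif
  have h2 := h.cone
  have h3 : 0 ≤ 1 - p := by linarith
  positivity

/-- The trivial experiment as a `Unit`-family. -/
def trivL : Unit → Fin 4 → ℝ := fun _ _ => 1

lemma isLik_trivL : IsLik trivL where
  nonneg _ _ := zero_le_one
  summable _ := (hasSum_fintype _).summable
  sum_one _ := by
    rw [tsum_fintype]
    simp [trivL]

lemma pot_trivL (f : (Fin 4 → ℝ) → ℝ) : Pot f trivL = f (fun _ => 1 / ((4 : ℕ) : ℝ)) := by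
  simp only [Pot]
  rw [tsum_fintype, Fintype.sum_unique]
  have := hom_const_fn (q := 4) (by norm_num) f 1
  show ((4 : ℕ) : ℝ)⁻¹ * hom f (fun _ => (1 : ℝ)) = _
  rw [this]
  norm_num
  ring

theorem reachSys (hq : (4 : ℕ) ≠ 0 := by norm_num) (h0 : 0 < lam) (h1 : lam < 1)
    (hv : ∀ a, 0 ≤ C.Xi (baseL 4 a))
    (hrad : ∀ p ∈ Sx 4, lam ^ 3 * C.Xi p ≤ C.Xi (PottsTree.T 4 lam p)) (n : ℕ) :
    TreeFlow.ReachSys Tr lam (9 * D.Kpw) n (RvG Tr D lam n) (RsG Tr D lam n) := by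
  have hc : ChanOK 4 lam := chanOK_of_nonneg h0.le h1.le
  have hc0 : 0 ≤ lam ^ 3 := by positivity
  have hgood := fun k => good_lik Tr 4 lam C hq hv hc hc0 hrad k
  have hAunif : A 4 (fun _ => 1 / ((4 : ℕ) : ℝ)) = 0 := A_unif hq
  have hthin : ∀ {Ω : Type} [Fintype Ω] {L : Ω → Fin 4 → ℝ}, Good C L → ∀ {p : ℝ}, 0 ≤ p → p ≤ 1 →
      Dom (thin p L) L ∧ Pot (A 4) (thin p L) / 3 = p * (Pot (A 4) L / 3) ∧
        Pot D.tau (thin p L) = p * Pot D.tau L := by
    intro Ω _ L hL p hp0 hp1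
    refine ⟨dom_thin hq hL.lik hp0 hp1, ?_, ?_⟩
    · rw [pot_thin hq hL.lik bddS_A, hAunif]
      ring
    · rw [pot_thin hq hL.lik D.bdd_tau, D.tau_unif]
      ring
  refine ⟨?_, ?_, ?_, ?_, ?_, ?_, ?_, ?_⟩
  · rintro v X t ⟨Ω, _, L, hL, -, rfl, rfl⟩
    exact ⟨by
      have := ConeData.pot_A_nonneg (q := 4) hL.lik
      linarith, D.pot_tau_nonneg hL⟩
  · rintro v S X t ⟨Ω, _, L, hL, -, rfl, rfl⟩
    exact ⟨by
      have := ConeData.pot_A_nonneg (q := 4) hL.lik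
      linarith, D.pot_tau_nonneg hL⟩
  · intro v hvd
    refine ⟨Fin 4, inferInstance, baseL 4, good_baseL C hq hv, ?_, ?_, ?_⟩
    · have hk : n - Tr.depth v = 0 := by omega
      rw [hk]
      intro f _ _
      exact le_of_eq (pot_congr_equiv (lik0Equiv Tr 4 v).symm
        (fun a => by rw [← lik_zero Tr 4 lam, Equiv.apply_symm_apply]) f).symm
    · rw [PairData.pot_A_base]
      norm_num
    · rw [D.pot_tau_base]
  · rintro v X t p ⟨Ω, _, L, hL, hD, rfl, rfl⟩ hp0 hp1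
    obtain ⟨h2, h3, h4⟩ := hthin hL hp0 hp1
    exact ⟨Option Ω, inferInstance, thin p L, good_thin hL hp0 hp1, h2.trans hD, h3.symm, h4.symm⟩
  · rintro v S X t p ⟨Ω, _, L, hL, hD, rfl, rfl⟩ hp0 hp1
    obtain ⟨h2, h3, h4⟩ := hthin hL hp0 hp1
    exact ⟨Option Ω, inferInstance, thin p L, good_thin hL hp0 hp1, h2.trans hD, h3.symm, h4.symm⟩
  · intro v _
    refine ⟨Unit, inferInstance, trivL, ⟨isLik_trivL, ?_, ?_⟩, ?_, ?_, ?_⟩
    · intro π g _
      rw [pot_trivL, pot_trivL]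
      rfl
    · rw [pot_trivL]
      exact C.unif
    · intro f _ _
      rw [pot_trivL, pot_Ap_empty Tr 4 lam hq]
    · rw [pot_trivL, hAunif]
      norm_num
    · rw [pot_trivL, D.tau_unif]
  · rintro v S X t c Xc tc hvn _ hcc hcS ⟨Ω, _, L, hL, hD, rfl, rfl⟩ ⟨Ω', _, L', hL', hD', rfl, rfl⟩
    have hdepth : Tr.depth c = Tr.depth v + 1 := ((mem_children_iff Tr).1 hcc).1
    have hk : n - Tr.depth c = n - Tr.depth v - 1 := by omega
    rw [hk] at hD'
    set k := n - Tr.depth v - 1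
    have hcon := good_contract C hq hc hc0 hrad hL'
    have hs := ConeData.good_star C hq hcon hL
    refine ⟨_, _, ⟨Ω' × Ω, inferInstance, star (contract lam L') L, hs, ?_, rfl, rfl⟩, ?_, ?_⟩
    · intro f hf hfc
      rw [pot_Ap_insert Tr 4 lam hcS]
      exact Dom.star hq (isLik_contract hq hc (isLik_lik Tr 4 lam hq hc k c))
        (isLik_Ap Tr 4 lam hq hc k S) hcon.lik hL.lik (Dom.contract hq hc hD') hD f hf hfc
    · have h2 := D.pot_star_ge hcon hL
      rw [pot_A_contract hq lam hL'.lik, D.pot_tau_contract hL'.lik] at h2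
      nlinarith
    · have h2 := D.pot_star_tau_le hcon hL
      rw [pot_A_contract hq lam hL'.lik, D.pot_tau_contract hL'.lik] at h2
      nlinarith
  · rintro v X t hvn ⟨Ω, _, L, hL, hD, rfl, rfl⟩
    refine ⟨Ω, inferInstance, L, hL, ?_, rfl, rfl⟩
    obtain ⟨k, hk⟩ : ∃ k, n - Tr.depth v = k + 1 := ⟨n - Tr.depth v - 1, by omega⟩
    rw [hk] at hD ⊢
    rw [Nat.add_sub_cancel] at hD
    rw [lik_succ]
    exact hD

include D in
/-- The backward direction of `S0246`. -/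
theorem s0246_backward (h0 : 0 < lam) (h1 : lam < 1) (hv : ∀ a, 0 ≤ C.Xi (baseL 4 a))
    (hrad : ∀ p ∈ Sx 4, lam ^ 3 * C.Xi p ≤ C.Xi (PottsTree.T 4 lam p))
    (θ : V → ℝ) (hθ : IsFlow Tr θ) (hm : 0 < flowMass Tr θ)
    (hpot : ∀ ξ : ℕ → V, Tr.IsRay ξ → rayPotential lam θ ξ ≤ 1) :
    ∃ ε : ℝ, 0 < ε ∧ ∀ n, ε ≤ treeAdvantage 4 Tr lam n := by
  have hq : (4 : ℕ) ≠ 0 := by norm_num
  have hc : ChanOK 4 lam := chanOK_of_nonneg h0.le h1.le
  obtain ⟨ε, hε, hroot⟩ := TreeFlow.exists_reach_root Tr lam (9 * D.Kpw) h0 h1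
    (by have := D.Kpw_nonneg; positivity) θ hθ hm hpot
  refine ⟨ε / 2, by positivity, fun n => ?_⟩
  obtain ⟨X, t, ⟨Ω, _, L, hL, hD, rfl, rfl⟩, hX⟩ := hroot n _ _ (reachSys Tr D lam hq h0 h1 hv hrad n)
  have hd : Tr.depth Tr.root = 0 := (Tr.depth_eq_zero_iff _).2 rfl
  rw [hd, Nat.sub_zero] at hD
  have hA := hD (A 4) bddS_A convexOn_A
  have hLik := isLik_lik Tr 4 lam hq hc n Tr.root
  have hA6 := pot_mono hLik (bddS_A (q := 4)) ((bddS_tv hq).const_mul 6)
    (fun p hp => A_four_le_tv hp)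
  rw [pot_const_mul] at hA6
  rw [pot_lik_root_eq Tr 4 lam hq hc]
  linarith

end Backward

/-- Everything pointwise that `S0246` needs. -/
def Target246 : Prop :=
  ∃ C : ConeData 4, 0 < C.mu ∧ (∀ a, 0 ≤ C.Xi (baseL 4 a)) ∧
    (∀ lam : ℝ, 0 ≤ lam → lam ≤ 1 → ∀ p ∈ Sx 4, lam ^ 3 * C.Xi p ≤ C.Xi (T 4 lam p)) ∧
    Nonempty (PairData C)

/-- `S0246` follows from `Target246`. -/
theorem s0246_of_target (h : Target246) (V : Type*) [DecidableEq V]
    (Tr : LocFinTree V) (B : ℕ) (hB : ∀ v, (Tr.children v).card ≤ B) (lam : ℝ) (h0 : 0 < lam)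
    (h1 : lam < 1) :
    (∃ ε : ℝ, 0 < ε ∧ ∀ n, ε ≤ treeAdvantage 4 Tr lam n) ↔
    (∃ θ : V → ℝ, IsFlow Tr θ ∧ 0 < flowMass Tr θ ∧
      ∀ ξ : ℕ → V, Tr.IsRay ξ → rayPotential lam θ ξ ≤ 1) := by
  obtain ⟨C, hmu, hv, hrad, ⟨D⟩⟩ := h
  have hr := hrad lam h0.le h1.le
  constructor
  · rintro ⟨ε, hε, hadv⟩
    exact s0246_forward Tr C hmu hv lam h0 h1 hr (B + 1) (fun v => (hB v).trans (Nat.le_succ B))
      (Nat.succ_pos B) ε hε hadv
  · rintro ⟨θ, hθ, hm, hpot⟩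
    exact s0246_backward Tr D lam h0 h1 hv hr θ hθ hm hpot

end Crest.Agent.PottsTree
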