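import Crest.Agent.Lib.PottsTree.Cone

/-!
# The cone induction at a vertex with several children
-/

namespace Crest.Agent.PottsTree

open Finset
open Crest.ProbabilityR.Broadcast

variable {q : ℕ}

/-- Pointwise data of a cone: `Xi` is the cone functional, `rho`, `w` the multipliers.
`N1`: subadditivity of `A` with cubic gain, up to cone terms;
`N2`: closure of the cone under the star. -/
structure ConeData (q : ℕ) where
  Xi : (Fin q → ℝ) → ℝ
  rho : (Fin q → ℝ) → ℝ
  w : (Fin q → ℝ) → ℝ
  mu : ℝ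
  bdd_Xi : BddS Xi
  bdd_rho : BddS rho
  bdd_w : BddS w
  rho_nonneg : ∀ p ∈ Sx q, 0 ≤ rho p
  w_nonneg : ∀ p ∈ Sx q, 0 ≤ w p
  mu_nonneg : 0 ≤ mu
  N1 : ∀ p ∈ Sx q, ∀ r ∈ Sx q,
    B (A q) p r ≤ A q p + A q r - rho r * Xi p - rho p * Xi r -
      mu * (A q p * A q r * (A q p + A q r))
  N2 : ∀ p ∈ Sx q, ∀ r ∈ Sx q, w r * Xi p + w p * Xi r ≤ B Xi p r
  unif : 0 ≤ Xi (fun _ => 1 / (q : ℝ))

/-- A law in the cone. -/
structure Good (C : ConeData q) {Ω : Type*} (L : Ω → Fin q → ℝ) : Prop where
  lik : IsLik L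
  sym : SymLik L
  cone : 0 ≤ Pot C.Xi L

namespace ConeData

variable (C : ConeData q)

lemma pot_A_nonneg {Ω : Type*} {L : Ω → Fin q → ℝ} (hL : IsLik L) : 0 ≤ Pot (A q) L :=
  pot_nonneg hL bddS_A fun _ hp => A_nonneg hp

lemma sq_pot_A_le {Ω : Type*} {L : Ω → Fin q → ℝ} (hq : q ≠ 0) (hL : IsLik L) :
    (Pot (A q) L) ^ 2 ≤ Pot (fun p => A q p * A q p) L := by
  have := sq_pot_le hq hL (bddS_A (q := q))
  simpa [sq] using this

lemma good_star (hq : q ≠ 0) {Ω Ω' : Type*} {L : Ω → Fin q → ℝ} {L' : Ω' → Fin q → ℝ}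
    (h : Good C L) (h' : Good C L') : Good C (star L L') := by
  refine ⟨isLik_star h.lik h'.lik, symLik_star hq h.lik h'.lik h.sym h'.sym, ?_⟩
  have key := sum_le_pot_star (ι := Fin 2) hq h.lik h'.lik h'.sym C.bdd_Xi Finset.univ
    (u := ![C.Xi, C.w]) (v := ![C.w, C.Xi])
    (fun k _ => by fin_cases k <;> simp [C.bdd_Xi, C.bdd_w])
    (fun k _ => by fin_cases k <;> simp [C.bdd_Xi, C.bdd_w])
    (fun p hp r hr => by
      have := C.N2 p hp r hr
      simp only [Fin.sum_univ_two, Matrix.cons_val_zero, Matrix.cons_val_one]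
      linarith)
  simp only [Fin.sum_univ_two, Matrix.cons_val_zero, Matrix.cons_val_one] at key
  have h1 : 0 ≤ Pot C.w L := pot_nonneg h.lik C.bdd_w C.w_nonneg
  have h2 : 0 ≤ Pot C.w L' := pot_nonneg h'.lik C.bdd_w C.w_nonneg
  have := mul_nonneg h.cone h2
  have := mul_nonneg h1 h'.cone
  linarith

/-- The pairwise inequality at law level. -/
lemma pot_A_star_le (hq : q ≠ 0) {Ω Ω' : Type*} {L : Ω → Fin q → ℝ} {L' : Ω' → Fin q → ℝ}
    (h : Good C L) (h' : Good C L') :
    Pot (A q) (star L L') ≤ Pot (A q) L + Pot (A q) L' -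
      C.mu * (Pot (A q) L * Pot (A q) L' * (Pot (A q) L + Pot (A q) L')) := by
  have hA := bddS_A (q := q)
  have hAA : BddS (fun p => A q p * A q p) := hA.mul hA
  have h1 := BddS.const (q := q) 1
  have hxi := C.bdd_Xi
  have hrho := C.bdd_rho
  have hmA := hA.const_mul (C.mu)
  have hmAA := hAA.const_mul (C.mu)
  have key := pot_star_le_sum (ι := Fin 6) hq h.lik h'.lik h'.sym hA Finset.univ
    (u := ![A q, fun _ => 1, fun p => - C.Xi p, fun p => - C.rho p,
      fun p => - (C.mu * (A q p * A q p)), fun p => - (C.mu * A q p)])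
    (v := ![fun _ => 1, A q, C.rho, C.Xi, A q, fun p => A q p * A q p])
    (fun k _ => by
      fin_cases k
      · exact hA
      · exact h1
      · exact hxi.neg
      · exact hrho.neg
      · exact hmAA.neg
      · exact hmA.neg)
    (fun k _ => by
      fin_cases k
      · exact h1
      · exact hA
      · exact hrho
      · exact hxi
      · exact hA
      · exact hAA)
    (fun p hp r hr => by
      have := C.N1 p hp r hr
      simp only [Fin.sum_univ_succ, Fin.sum_univ_zero, Matrix.cons_val_zero, Matrix.cons_val_succ,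
        Matrix.cons_val_fin_one]
      nlinarith)
  simp only [Fin.sum_univ_succ, Fin.sum_univ_zero, Matrix.cons_val_zero, Matrix.cons_val_succ,
    Matrix.cons_val_fin_one] at key
  rw [pot_const hq h.lik, pot_const hq h'.lik, pot_neg, pot_neg, pot_neg, pot_neg,
    pot_const_mul, pot_const_mul] at key
  have hr1 : 0 ≤ Pot C.rho L := pot_nonneg h.lik hrho C.rho_nonneg
  have hr2 : 0 ≤ Pot C.rho L' := pot_nonneg h'.lik hrho C.rho_nonneg
  have hc1 := mul_nonneg h.cone hr2
  have hc2 := mul_nonneg hr1 h'.cone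
  have hm1 := sq_pot_A_le hq h.lik
  have hm2 := sq_pot_A_le hq h'.lik
  have ha1 := pot_A_nonneg h.lik
  have ha2 := pot_A_nonneg h'.lik
  have hmu := C.mu_nonneg
  set a := Pot (A q) L
  set b := Pot (A q) L'
  set a2 := Pot (fun p => A q p * A q p) L
  set b2 := Pot (fun p => A q p * A q p) L'
  have e1 : C.mu * (a ^ 2 * b) ≤ C.mu * (a2 * b) :=
    mul_le_mul_of_nonneg_left (mul_le_mul_of_nonneg_right hm1 ha2) hmu
  have e2 : C.mu * (a * b ^ 2) ≤ C.mu * (a * b2) :=
    mul_le_mul_of_nonneg_left (mul_le_mul_of_nonneg_left hm2 ha1) hmu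
  nlinarith

/-! ### star powers -/

/-- `k` independent children -/
def starPow {Ω : Type*} (L : Ω → Fin q → ℝ) (k : ℕ) : (Fin k → Ω) → Fin q → ℝ :=
  fun τ i => ∏ m, L (τ m) i

end ConeData

open ConeData

lemma starPow_cons {Ω : Type*} (L : Ω → Fin q → ℝ) (k : ℕ) (w : Ω × (Fin k → Ω)) :
    starPow L (k + 1) (Fin.consEquiv (fun _ => Ω) w) = star L (starPow L k) w := by
  funext i
  simp only [starPow, star, Fin.consEquiv_apply, Fin.prod_univ_succ, Fin.cons_zero, Fin.cons_succ]

lemma isLik_starPow_zero {Ω : Type*} (L : Ω → Fin q → ℝ) : IsLik (starPow L 0) where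
  nonneg τ i := by simp [starPow]
  summable i := (hasSum_fintype _).summable
  sum_one i := by
    rw [tsum_fintype]
    simp [starPow]

lemma pot_starPow_zero {Ω : Type*} (L : Ω → Fin q → ℝ) (hq : q ≠ 0) (f : (Fin q → ℝ) → ℝ) :
    Pot f (starPow L 0) = f (fun _ => 1 / (q : ℝ)) := by
  have hq' : (q : ℝ) ≠ 0 := by exact_mod_cast hq
  simp only [Pot]
  rw [tsum_fintype]
  have hm : ∀ τ : Fin 0 → Ω, mass (starPow L 0 τ) = q := by
    intro τ
    simp [mass, starPow]
  have hp : ∀ τ : Fin 0 → Ω, post (starPow L 0 τ) = fun _ => 1 / (q : ℝ) := by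
    intro τ
    funext i
    simp [post, hm, starPow]
  simp only [hom, hm, hp]
  simp
  field_simp

lemma symLik_starPow_zero {Ω : Type*} (L : Ω → Fin q → ℝ) (hq : q ≠ 0) : SymLik (starPow L 0) := by
  intro π g _
  rw [pot_starPow_zero L hq, pot_starPow_zero L hq]
  rfl

lemma good_starPow (C : ConeData q) (hq : q ≠ 0) {Ω : Type*} {L : Ω → Fin q → ℝ} (h : Good C L)
    (k : ℕ) : Good C (starPow L k) := by
  induction k with
  | zero =>
    refine ⟨isLik_starPow_zero L, symLik_starPow_zero L hq, ?_⟩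
    rw [pot_starPow_zero L hq]
    exact C.unif
  | succ k ih =>
    have hs := good_star C hq h ih
    have he := Fin.consEquiv (fun _ : Fin (k + 1) => Ω)
    refine ⟨IsLik.congr_equiv (Fin.consEquiv (fun _ => Ω)) (starPow_cons L k) hs.lik,
      SymLik.congr_equiv (Fin.consEquiv (fun _ => Ω)) (starPow_cons L k) hs.sym, ?_⟩
    rw [pot_congr_equiv (Fin.consEquiv (fun _ => Ω)) (starPow_cons L k)]
    exact hs.cone

/-- With `x = E A` of one child: `E A` of `k` independent children is at most `k x`, and for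
`k ≥ 2` at most `k x - 2 μ x³`. -/
lemma pot_A_starPow_le (C : ConeData q) (hq : q ≠ 0) {Ω : Type*} {L : Ω → Fin q → ℝ}
    (h : Good C L) (k : ℕ) :
    Pot (A q) (starPow L k) ≤ k * Pot (A q) L -
      (if 2 ≤ k then 2 * C.mu * (Pot (A q) L) ^ 3 else 0) := by
  have hx := pot_A_nonneg h.lik
  have hmu := C.mu_nonneg
  induction k with
  | zero =>
    rw [pot_starPow_zero L hq]
    simp only [Nat.cast_zero, zero_mul]
    have : A q (fun _ => 1 / (q : ℝ)) = 0 := by
      have hq' : (q : ℝ) ≠ 0 := by exact_mod_cast hq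
      simp [A]
      field_simp
      ring
    rw [this]
    simp
  | succ k ih =>
    have hg := good_starPow C hq h k
    have h1 := pot_A_star_le C hq h hg
    rw [← pot_congr_equiv (Fin.consEquiv (fun _ => Ω)) (starPow_cons L k)] at h1
    have hy := pot_A_nonneg hg.lik
    set x := Pot (A q) L
    set y := Pot (A q) (starPow L k)
    have hprod : 0 ≤ C.mu * (x * y * (x + y)) :=
      mul_nonneg hmu (mul_nonneg (mul_nonneg hx hy) (add_nonneg hx hy))
    have hcast : ((k + 1 : ℕ) : ℝ) = (k : ℝ) + 1 := by push_cast; ring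
    rw [hcast]
    by_cases hk2 : 2 ≤ k
    · have hk3 : 2 ≤ k + 1 := by omega
      rw [if_pos hk3]
      rw [if_pos hk2] at ih
      linarith
    · by_cases hk1 : k = 1
      · subst hk1
        have hy' : Pot (A q) (starPow L 1) = x := by
          have h2 := pot_A_star_le C hq h (good_starPow C hq h 0)
          have e : Pot (A q) (starPow L 1) = Pot (A q) (star L (starPow L 0)) :=
            pot_congr_equiv (Fin.consEquiv (fun _ => Ω)) (starPow_cons L 0) _
          have hsym : Pot (A q) (star L (starPow L 0)) = x := by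
            have e2 : ∀ w : Ω × (Fin 0 → Ω), L (Equiv.prodUnique Ω (Fin 0 → Ω) w) =
                star L (starPow L 0) w := by
              intro w
              funext i
              simp [star, starPow]
            exact (pot_congr_equiv (Equiv.prodUnique Ω (Fin 0 → Ω)) e2 (A q)).symm
          rw [e, hsym]
        simp only [y] at *
        rw [hy'] at h1
        norm_num
        have : C.mu * (x * x * (x + x)) = 2 * C.mu * x ^ 3 := by ring
        linarith
      · have hk0 : k = 0 := by omega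
        subst hk0
        have hy0 : y = 0 := by
          simp only [y]
          rw [pot_starPow_zero L hq]
          have hq' : (q : ℝ) ≠ 0 := by exact_mod_cast hq
          simp [A]
          field_simp
          ring
        rw [hy0] at h1
        norm_num at h1 ⊢
        linarith

end Crest.Agent.PottsTree
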