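import Crest.Agent.Lib.PottsTree.LatFinal

/-!
# The chain of levels of a run of the lattice checker

The statements proved by the files of the cells: the packed weights of a level bound the family after
the channel, and the passage over several levels in one kernel computation.
-/

namespace Crest.Agent.PottsTree

open ConeData
open Cmp

namespace Lat

/-- `n` applications, each value computed before the next application. -/
def iterL (f : ℕ → ℕ) : ℕ → ℕ → ℕ
  | 0, x => x
  | n + 1, x => fz (f x) (iterL f n)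

lemma iterL_succ (f : ℕ → ℕ) (n x : ℕ) : iterL f (n + 1) x = iterL f n (f x) := by
  simp only [iterL, fz_eq]

/-- packed weights at level `ℓ` of the regular tree -/
def RegB (P : RPar) (p b ℓ W : ℕ) : Prop :=
  DefBnd (fun t : Fin P.nT => P.g t)
    (contract (-(P.a : ℝ) / P.c) (regL 3 b (-(P.a : ℝ) / P.c) ℓ))
    (fun t => (dg P.wS W t : ℝ) / (2 ^ p : ℕ))

/-- packed weights at level `ℓ` of the Galton-Watson tree -/
def GwB (P : RPar) (p : ℕ) (d : ℝ) (ℓ W : ℕ) : Prop :=
  DefBnd (fun t : Fin P.nT => P.g t)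
    (contract (-(P.a : ℝ) / P.c) (gwL 3 (-(P.a : ℝ) / P.c) d ℓ))
    (fun t => (dg P.wS W t : ℝ) / (2 ^ p : ℕ))

/-- the weights of a Poisson mixture -/
structure PoisW (p : ℕ) (d0 : ℝ) (e0 : ℕ) (es : List ℕ) : Prop where
  hd0 : 0 ≤ d0
  he0 : e0 ≤ 2 ^ p
  hes : ∀ e ∈ es, e ≤ 2 ^ p
  hp0 : (e0 : ℝ) / 2 ^ p ≤ poi d0 0
  hpi : ∀ i (hi : i < es.length), (es[i] : ℝ) / 2 ^ p ≤ poi d0 (i + 1)

/-- The weights of a Poisson mixture from the checks in natural numbers. -/
theorem poisW_of_chk {p en ed xn xd J e0 : ℕ} {es : List ℕ} (hed : 0 < ed) (hle : en ≤ ed) (hJ : 0 < J)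
    (hxd : 0 < xd) (hchk : Nat.ble (xn * expNum en ed J) (xd * (J.factorial * J * ed ^ J)) = true)
    (hP : chkPoi p en ed xn xd 0 (e0 :: es) = true) : PoisW p ((en : ℝ) / ed) e0 es := by
  obtain ⟨h1, h2, h3, h4⟩ := Fit.poi_weights hed hle hJ hxd hchk hP
  exact ⟨by positivity, h1, h2, h3, h4⟩

/-- the read-out of the second moment, row by row -/
def finSumF (s L D aa bb τ N E : ℕ) : ℕ :=
  sumR (fun m => fz (rdRow (s * D) (2 ^ (s * D) - 1) N (L - m)) fun R =>
    sumR (fun k => rdDig s (2 ^ s - 1) R (L - (m + k)) * finCoef aa bb τ (Pt.int m (m + k)))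
      (L + 1 - m)) (L + 1) +
  sumR (fun m => rdDig s (2 ^ s - 1) E (L - m) * finCoef aa bb τ (Pt.edge m)) (L + 1)

lemma finSumF_eq {s L D : ℕ} (hLD : L < D) (aa bb τ N E : ℕ) :
    finSumF s L D aa bb τ N E = finSum s L D aa bb τ N E := by
  simp only [finSumF, finSum, fz_eq, sumR_eq, rdDig_eq]
  congr 1
  refine Finset.sum_congr rfl fun m _ => Finset.sum_congr rfl fun k _ => ?_
  rw [rdRow_dg (by omega)]

/-- the check of the read-out against `x0 = xn / xd`, row by row -/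
def finChkF (s p L D aa bb τ xn xd : ℕ) (st : ℕ × ℕ) : Bool :=
  Nat.ble (2 * (2 ^ p * 2 ^ τ) * xd)
    (finSumF s L D aa bb τ st.1 st.2 * xd + 2 * xn * (2 ^ p * 2 ^ τ))

lemma finChkF_eq {s p L D : ℕ} (hLD : L < D) (aa bb τ xn xd : ℕ) (st : ℕ × ℕ) :
    finChkF s p L D aa bb τ xn xd st = finChk s p L D aa bb τ xn xd st := by
  simp only [finChkF, finChk, finSumF_eq hLD]

namespace Fit

variable {P : RPar} {s p L D : ℕ} {rows : List (ℕ × List REnt)} {edges : List REnt} {cv : REnt}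
  {usedI usedE : List ℕ} (h : Fit P s p L D rows edges cv usedI usedE)

include h in
theorem reg_start (b : ℕ) {W : ℕ} (hW : outStep (mkOut P s p L D) 0 0 rows edges cv = W) :
    RegB P p b 0 W := by
  rw [← hW]
  exact h.levelReg_zero b

include h in
theorem gw_start {d : ℝ} (hd : 0 ≤ d) {W : ℕ} (hW : outStep (mkOut P s p L D) 0 0 rows edges cv = W) :
    GwB P p d 0 W := by
  rw [← hW]
  exact h.levelPois_zero hd

include h in
/-- several levels of the regular tree -/
theorem reg_iter {b : ℕ} (bs : List Bool) (hb : regCount bs 1 = b) (n : ℕ) {ℓ W : ℕ}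
    (hD : RegB P p b ℓ W) :
    RegB P p b (ℓ + n) (iterL (levelReg P s p L D usedI usedE rows edges cv bs) n W) := by
  induction n generalizing ℓ W with
  | zero => exact hD
  | succ n ih =>
    rw [iterL_succ, show ℓ + (n + 1) = ℓ + 1 + n by omega]
    exact ih (h.levelReg_next bs hb hD)

include h in
theorem reg_chunk {b : ℕ} (bs : List Bool) (hb : regCount bs 1 = b) {n ℓ ℓ' W W' : ℕ}
    (hl : ℓ + n = ℓ') (hc : iterL (levelReg P s p L D usedI usedE rows edges cv bs) n W = W')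
    (hD : RegB P p b ℓ W) : RegB P p b ℓ' W' := by
  rw [← hl, ← hc]
  exact h.reg_iter bs hb n hD

include h in
/-- several levels of the Poisson tree -/
theorem gw_iter {d0 d : ℝ} {k : ℕ} (hd : 2 ^ k * d0 = d) {e0 : ℕ} {es : List ℕ}
    (hw : PoisW p d0 e0 es) (n : ℕ) {ℓ W : ℕ} (hD : GwB P p d ℓ W) :
    GwB P p d (ℓ + n) (iterL (levelPois P s p L D usedI usedE rows edges cv e0 es k) n W) := by
  induction n generalizing ℓ W with
  | zero => exact hD
  | succ n ih =>
    rw [iterL_succ, show ℓ + (n + 1) = ℓ + 1 + n by omega]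
    exact ih (h.levelPois_next hw.hd0 hd hw.he0 hw.hes hw.hp0 hw.hpi hD)

include h in
theorem gw_chunk {d0 d : ℝ} {k : ℕ} (hd : 2 ^ k * d0 = d) {e0 : ℕ} {es : List ℕ}
    (hw : PoisW p d0 e0 es) {n ℓ ℓ' W W' : ℕ} (hl : ℓ + n = ℓ')
    (hc : iterL (levelPois P s p L D usedI usedE rows edges cv e0 es k) n W = W')
    (hD : GwB P p d ℓ W) : GwB P p d ℓ' W' := by
  rw [← hl, ← hc]
  exact h.gw_iter hd hw n hD

include h in
/-- the end of a run on the regular tree -/
theorem reg_final {b : ℕ} (bs : List Bool) (hb : regCount bs 1 = b) {ℓ W τ xn xd : ℕ} (hxd : 0 < xd)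
    (hD : RegB P p b ℓ W)
    (hc : finChkF s p L D P.A P.B τ xn xd (stateReg P s p L D usedI usedE bs W) = true) :
    Pot (A 3) (regL 3 b (-(P.a : ℝ) / P.c) (ℓ + 1)) ≤ 2 * ((xn : ℝ) / xd) :=
  h.final_reg bs hb hxd hD (by
    rw [← finChkF_eq (by have := h.hD; omega)]
    exact hc)

include h in
/-- the end of a run on the Poisson tree -/
theorem gw_final {d0 d : ℝ} {k : ℕ} (hd : 2 ^ k * d0 = d) {e0 : ℕ} {es : List ℕ}
    (hw : PoisW p d0 e0 es) {ℓ W τ xn xd : ℕ} (hxd : 0 < xd) (hD : GwB P p d ℓ W)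
    (hc : finChkF s p L D P.A P.B τ xn xd (statePois P s p L D usedI usedE e0 es k W) = true) :
    Pot (A 3) (gwL 3 (-(P.a : ℝ) / P.c) d (ℓ + 1)) ≤ 2 * ((xn : ℝ) / xd) :=
  h.final_pois hw.hd0 hd hw.he0 hw.hes hw.hp0 hw.hpi hxd hD (by
    rw [← finChkF_eq (by have := h.hD; omega)]
    exact hc)

end Fit

end Lat

end Crest.Agent.PottsTree
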