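import Crest.Agent.Lib.PottsTree.LatSem

/-!
# The extended multiplicative lattice for three spins

The chart `Mb = WithBot ℤ × WithBot ℤ` with `(i, j) ↦ (1, β ^ i, β ^ j) / norm`, `β ^ ⊥ = 0`.  Here: the
chart is injective, the swap of the two non-root coordinates, the near-edge rounding with threshold
`τ = β ^ (-L)` as a map of the chart, and its values at the points used by the computation.
-/

namespace Crest.Agent.PottsTree

open Finset
open ConeData
open Cmp

/-- the extended lattice -/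
abbrev Mb := WithBot ℤ × WithBot ℤ

section Chart

variable {β : ℝ} (hβ : 0 < β)

/-- the chart -/
noncomputable abbrev Gb (x : Mb) : Fin 3 → ℝ := (extLat β hβ).G x

lemma Gb_eq (x : Mb) : Gb hβ x = latPt (bpow β x.1) (bpow β x.2) := rfl

lemma Gb_mem (x : Mb) : Gb hβ x ∈ Sx 3 := (extLat β hβ).addChart.mem x

lemma Gb_chart : AddChart (Gb hβ) := (extLat β hβ).addChart

/-- the norm of a point in homogeneous coordinates -/
noncomputable def nrm (β : ℝ) (x : Mb) : ℝ := 1 + bpow β x.1 + bpow β x.2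

include hβ in
lemma nrm_pos (x : Mb) : 0 < nrm β x := by
  have h1 := bpow_nonneg hβ x.1
  have h2 := bpow_nonneg hβ x.2
  unfold nrm
  linarith

lemma Gb_zero (x : Mb) : Gb hβ x 0 = 1 / nrm β x := by
  simp [Gb_eq, latPt, nrm]

lemma Gb_one (x : Mb) : Gb hβ x 1 = bpow β x.1 / nrm β x := by
  simp [Gb_eq, latPt, nrm]

lemma Gb_two (x : Mb) : Gb hβ x 2 = bpow β x.2 / nrm β x := by
  simp [Gb_eq, latPt, nrm]

lemma bpow_bot (β : ℝ) : bpow β ⊥ = 0 := rfl

lemma bpow_coe (β : ℝ) (i : ℤ) : bpow β (i : WithBot ℤ) = β ^ i := rfl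

lemma bpow_injective (h1 : 1 < β) : Function.Injective (bpow β) := by
  have hβ : 0 < β := by linarith
  intro x y hxy
  cases x with
  | bot =>
    cases y with
    | bot => rfl
    | coe j =>
      have : (0 : ℝ) = β ^ j := hxy
      exact absurd this.symm (zpow_pos hβ j).ne'
  | coe i =>
    cases y with
    | bot =>
      have : β ^ i = (0 : ℝ) := hxy
      exact absurd this (zpow_pos hβ i).ne'
    | coe j =>
      have : β ^ i = β ^ j := hxy
      rw [zpow_right_injective₀ hβ h1.ne' this]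

lemma Gb_injective (h1 : 1 < β) : Function.Injective (Gb hβ) := by
  intro x y hxy
  have h0x := nrm_pos hβ x
  have h0y := nrm_pos hβ y
  have e0 := congrFun hxy 0
  have e1 := congrFun hxy 1
  have e2 := congrFun hxy 2
  rw [Gb_zero, Gb_zero] at e0
  rw [Gb_one, Gb_one] at e1
  rw [Gb_two, Gb_two] at e2
  have hn : nrm β x = nrm β y := by
    field_simp at e0
    linarith
  rw [hn] at e1 e2
  have h3 : bpow β x.1 = bpow β y.1 := by
    field_simp at e1
    linarith
  have h4 : bpow β x.2 = bpow β y.2 := by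
    field_simp at e2
    linarith
  exact Prod.ext (bpow_injective h1 h3) (bpow_injective h1 h4)

lemma Gb_vertex : Gb hβ (⊥, ⊥) = baseL 3 0 := by
  funext i
  fin_cases i <;> simp [Gb_eq, latPt, baseL, bpow_bot]

/-- the swap of the two coordinates other than the root -/
lemma Gb_swap (x : Mb) : Gb hβ x.swap = rel (Equiv.swap 1 2) (Gb hβ x) := by
  funext i
  have hn : 1 + bpow β x.2 + bpow β x.1 = 1 + bpow β x.1 + bpow β x.2 := by ring
  have h0 : (Equiv.swap (1 : Fin 3) 2) 0 = 0 := by decide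
  have h1 : (Equiv.swap (1 : Fin 3) 2) 1 = 2 := by decide
  have h2 : (Equiv.swap (1 : Fin 3) 2) 2 = 1 := by decide
  fin_cases i
  · show ![1, bpow β x.2, bpow β x.1] 0 / (1 + bpow β x.2 + bpow β x.1) =
      ![1, bpow β x.1, bpow β x.2] ((Equiv.swap (1 : Fin 3) 2) 0) / (1 + bpow β x.1 + bpow β x.2)
    rw [h0, hn]
    rfl
  · show ![1, bpow β x.2, bpow β x.1] 1 / (1 + bpow β x.2 + bpow β x.1) =
      ![1, bpow β x.1, bpow β x.2] ((Equiv.swap (1 : Fin 3) 2) 1) / (1 + bpow β x.1 + bpow β x.2)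
    rw [h1, hn]
    rfl
  · show ![1, bpow β x.2, bpow β x.1] 2 / (1 + bpow β x.2 + bpow β x.1) =
      ![1, bpow β x.1, bpow β x.2] ((Equiv.swap (1 : Fin 3) 2) 2) / (1 + bpow β x.1 + bpow β x.2)
    rw [h2, hn]
    rfl

/-! ### The rounding -/

/-- the largest coordinate -/
noncomputable def mx3 (p : Fin 3 → ℝ) : ℝ := max (p 0) (max (p 1) (p 2))

lemma le_mx3 (p : Fin 3 → ℝ) (b : Fin 3) : p b ≤ mx3 p := by
  unfold mx3
  fin_cases b
  · exact le_max_left _ _
  · exact (le_max_left _ _).trans (le_max_right _ _)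
  · exact (le_max_right _ _).trans (le_max_right _ _)

lemma exists_eq_mx3 (p : Fin 3 → ℝ) : ∃ b, p b = mx3 p := by
  unfold mx3
  rcases max_choice (p 0) (max (p 1) (p 2)) with h | h
  · exact ⟨0, h.symm⟩
  · rcases max_choice (p 1) (p 2) with h' | h'
    · exact ⟨1, by rw [h, h']⟩
    · exact ⟨2, by rw [h, h']⟩

lemma mx3_rel (π : Equiv.Perm (Fin 3)) (p : Fin 3 → ℝ) : mx3 (rel π p) = mx3 p := by
  apply le_antisymm
  · obtain ⟨b, hb⟩ := exists_eq_mx3 (rel π p)
    rw [← hb]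
    exact le_mx3 p _
  · obtain ⟨b, hb⟩ := exists_eq_mx3 p
    rw [← hb]
    have := le_mx3 (rel π p) (π⁻¹ b)
    simpa [rel] using this

open Classical in
/-- the near-edge rule: the coordinates below `τ` times the largest go to the vertices -/
noncomputable def edgeSel (τ : ℝ) (h0 : 0 ≤ τ) (h1 : τ ≤ 1) : RoundSel 3 where
  T p := Finset.univ.filter fun b => p b < τ * mx3 p
  equiv π p b := by
    simp [mx3_rel, rel]
  pos p hp := by
    obtain ⟨b, hb⟩ := exists_eq_mx3 p
    have hm : 0 < mx3 p := by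
      by_contra h
      have h2 : ∀ c, p c = 0 := fun c => le_antisymm ((le_mx3 p c).trans (not_lt.1 h)) (hp.1 c)
      have h3 := hp.2
      simp [h2] at h3
    refine lt_of_lt_of_le (hb ▸ hm) ?_
    have hnot : b ∉ Finset.univ.filter fun b => p b < τ * mx3 p := by
      simp only [Finset.mem_filter, Finset.mem_univ, true_and, not_lt]
      rw [hb]
      nlinarith
    have := Finset.single_le_sum (f := fun c => if c ∈ (Finset.univ.filter fun b => p b < τ * mx3 p)
      then 0 else p c) (s := Finset.univ) (fun c _ => by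
        split_ifs
        · exact le_rfl
        · exact hp.1 c) (Finset.mem_univ b)
    simpa [hnot] using this

open Classical in
/-- the near-edge rule as a map of the chart -/
noncomputable def edgeMap (τ : ℝ) (h0 : 0 ≤ τ) (h1 : τ ≤ 1) (x : Mb) : Mb :=
  if (0 : Fin 3) ∈ (edgeSel τ h0 h1).T (Gb hβ x) then (⊥, ⊥)
  else (if (1 : Fin 3) ∈ (edgeSel τ h0 h1).T (Gb hβ x) then ⊥ else x.1,
    if (2 : Fin 3) ∈ (edgeSel τ h0 h1).T (Gb hβ x) then ⊥ else x.2)

lemma edgeMap_of_mem {τ : ℝ} (h0 : 0 ≤ τ) (h1 : τ ≤ 1) {x : Mb}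
    (h : (0 : Fin 3) ∈ (edgeSel τ h0 h1).T (Gb hβ x)) : edgeMap hβ τ h0 h1 x = (⊥, ⊥) := by
  classical
  simp only [edgeMap, h, if_true]

lemma edgeMap_pt {τ : ℝ} (h0 : 0 ≤ τ) (h1 : τ ≤ 1) {x : Mb}
    (h : (0 : Fin 3) ∉ (edgeSel τ h0 h1).T (Gb hβ x)) :
    (edgeSel τ h0 h1).pt (Gb hβ x) = Gb hβ (edgeMap hβ τ h0 h1 x) := by
  classical
  set R := edgeSel τ h0 h1 with hR
  set p := Gb hβ x with hp
  have hN : nrm β x ≠ 0 := (nrm_pos hβ x).ne'
  have e0 : p 0 = 1 / nrm β x := Gb_zero hβ x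
  have e1 : p 1 = bpow β x.1 / nrm β x := Gb_one hβ x
  have e2 : p 2 = bpow β x.2 / nrm β x := Gb_two hβ x
  set y1 : ℝ := if (1 : Fin 3) ∈ R.T p then 0 else bpow β x.1 with hy1
  set y2 : ℝ := if (2 : Fin 3) ∈ R.T p then 0 else bpow β x.2 with hy2
  have hy10 : 0 ≤ y1 := by
    simp only [hy1]
    split_ifs
    · exact le_rfl
    · exact bpow_nonneg hβ _
  have hy20 : 0 ≤ y2 := by
    simp only [hy2]
    split_ifs
    · exact le_rfl
    · exact bpow_nonneg hβ _
  have hK : 1 + y1 + y2 ≠ 0 := by positivity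
  have hk : R.keep p = (1 + y1 + y2) / nrm β x := by
    rw [RoundSel.keep, Fin.sum_univ_three, if_neg h, e0, e1, e2, hy1, hy2]
    split_ifs <;> ring
  have hm : Gb hβ (edgeMap hβ τ h0 h1 x) = latPt y1 y2 := by
    have h2 : edgeMap hβ τ h0 h1 x = ((if (1 : Fin 3) ∈ R.T p then ⊥ else x.1),
        (if (2 : Fin 3) ∈ R.T p then ⊥ else x.2)) := by
      simp only [edgeMap, ← hR, ← hp, h, if_false]
    rw [h2, Gb_eq]
    congr 1
    · simp only [hy1]
      split_ifs
      · rfl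
      · rfl
    · simp only [hy2]
      split_ifs
      · rfl
      · rfl
  rw [hm]
  funext l
  fin_cases l
  · show (if (0 : Fin 3) ∈ R.T p then 0 else p 0 / R.keep p) = 1 / (1 + y1 + y2)
    rw [if_neg h, e0, hk]
    field_simp
  · show (if (1 : Fin 3) ∈ R.T p then 0 else p 1 / R.keep p) = y1 / (1 + y1 + y2)
    by_cases h3 : (1 : Fin 3) ∈ R.T p
    · simp only [if_pos h3, hy1]
      simp
    · simp only [if_neg h3]
      rw [e1, hk]
      have : y1 = bpow β x.1 := by simp only [hy1, if_neg h3]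
      rw [← this]
      field_simp
  · show (if (2 : Fin 3) ∈ R.T p then 0 else p 2 / R.keep p) = y2 / (1 + y1 + y2)
    by_cases h3 : (2 : Fin 3) ∈ R.T p
    · simp only [if_pos h3, hy2]
      simp
    · simp only [if_neg h3]
      rw [e2, hk]
      have : y2 = bpow β x.2 := by simp only [hy2, if_neg h3]
      rw [← this]
      field_simp

/-- **The near-edge rounding on the chart.** -/
theorem NuB.edgeRound {Ω : Type*} {L : Ω → Fin 3 → ℝ} {Φ : (Mb → ℝ) → ℝ}
    (h : NuB (0 : Fin 3) (Gb hβ) L Φ) {τ : ℝ} (h0 : 0 ≤ τ) (h1 : τ ≤ 1) :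
    NuB (0 : Fin 3) (Gb hβ) L (fun h => Φ (fun x => h (edgeMap hβ τ h0 h1 x))) :=
  h.round (edgeSel τ h0 h1) (edgeMap hβ τ h0 h1) (⊥, ⊥) (Gb_vertex hβ)
    (fun _ hx => edgeMap_pt hβ h0 h1 hx) (fun _ hx => edgeMap_of_mem hβ h0 h1 hx)

lemma mem_edgeSel {τ : ℝ} (h0 : 0 ≤ τ) (h1 : τ ≤ 1) {p : Fin 3 → ℝ} {b c : Fin 3}
    (h : p b < τ * p c) : b ∈ (edgeSel τ h0 h1).T p := by
  classical
  simp only [edgeSel, Finset.mem_filter, Finset.mem_univ, true_and]
  exact lt_of_lt_of_le h (mul_le_mul_of_nonneg_left (le_mx3 p c) h0)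

lemma not_mem_edgeSel {τ : ℝ} (h0 : 0 ≤ τ) (h1 : τ ≤ 1) {p : Fin 3 → ℝ} {b : Fin 3}
    (h : ∀ c, τ * p c ≤ p b) : b ∉ (edgeSel τ h0 h1).T p := by
  classical
  simp only [edgeSel, Finset.mem_filter, Finset.mem_univ, true_and, not_lt]
  obtain ⟨c, hc⟩ := exists_eq_mx3 p
  rw [← hc]
  exact h c

section Lattice

variable {L : ℕ} (h1β : 1 < β)

/-- the threshold -/
noncomputable def thr (β : ℝ) (L : ℕ) : ℝ := β ^ (-(L : ℤ))

include h1β in
lemma thr_nonneg : 0 ≤ thr β L := (zpow_pos (by linarith) _).le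

include h1β in
lemma thr_le_one : thr β L ≤ 1 := by
  have hb : 0 < β := by linarith
  unfold thr
  rw [zpow_neg, zpow_natCast]
  exact inv_le_one_of_one_le₀ (one_le_pow₀ h1β.le)

lemma zpow_le_zpow (h1β : 1 < β) {a b : ℤ} (h : a ≤ b) : β ^ a ≤ β ^ b :=
  zpow_le_zpow_right₀ h1β.le h

lemma zpow_lt_zpow (h1β : 1 < β) {a b : ℤ} (h : a < b) : β ^ a < β ^ b :=
  zpow_lt_zpow_right₀ h1β h

/-- the exponents of an interior point -/
def expo (i j : ℤ) : Fin 3 → ℤ := ![0, i, j]

lemma Gb_int (i j : ℤ) (b : Fin 3) :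
    Gb hβ ((i : WithBot ℤ), (j : WithBot ℤ)) b = β ^ (expo i j b) / nrm β (i, j) := by
  fin_cases b
  · show Gb hβ _ 0 = β ^ (0 : ℤ) / _
    rw [Gb_zero, zpow_zero]
  · show Gb hβ _ 1 = β ^ i / _
    rw [Gb_one]
    rfl
  · show Gb hβ _ 2 = β ^ j / _
    rw [Gb_two]
    rfl

include h1β in
lemma thr_mul_Gb_int_le (i j : ℤ) (b c : Fin 3) (h : expo i j c ≤ expo i j b + L) :
    thr β L * Gb hβ ((i : WithBot ℤ), (j : WithBot ℤ)) c ≤
      Gb hβ ((i : WithBot ℤ), (j : WithBot ℤ)) b := by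
  rw [Gb_int, Gb_int, ← mul_div_assoc]
  refine div_le_div_of_nonneg_right ?_ (nrm_pos hβ _).le
  unfold thr
  rw [← zpow_add₀ hβ.ne']
  exact zpow_le_zpow h1β (by linarith)

include h1β in
lemma Gb_int_lt_thr_mul (i j : ℤ) (b c : Fin 3) (h : expo i j b + L < expo i j c) :
    Gb hβ ((i : WithBot ℤ), (j : WithBot ℤ)) b <
      thr β L * Gb hβ ((i : WithBot ℤ), (j : WithBot ℤ)) c := by
  rw [Gb_int, Gb_int, ← mul_div_assoc]
  refine div_lt_div_of_pos_right ?_ (nrm_pos hβ _)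
  unfold thr
  rw [← zpow_add₀ hβ.ne']
  exact zpow_lt_zpow h1β (by linarith)

lemma forall_fin3 {P : Fin 3 → Prop} (h0 : P 0) (h1 : P 1) (h2 : P 2) (c : Fin 3) : P c := by
  fin_cases c
  · exact h0
  · exact h1
  · exact h2

/-- An interior point of the hexagon does not move. -/
lemma edgeMap_hex {i j : ℤ} (hi1 : -(L : ℤ) ≤ i) (hi2 : i ≤ L) (hj1 : -(L : ℤ) ≤ j) (hj2 : j ≤ L)
    (hij1 : i - j ≤ L) (hij2 : j - i ≤ L) :
    edgeMap hβ (thr β L) (thr_nonneg h1β) (thr_le_one h1β) ((i : WithBot ℤ), (j : WithBot ℤ)) =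
      ((i : WithBot ℤ), (j : WithBot ℤ)) := by
  classical
  have key : ∀ b : Fin 3, (∀ c, expo i j c ≤ expo i j b + L) →
      b ∉ (edgeSel (thr β L) (thr_nonneg h1β) (thr_le_one h1β)).T
        (Gb hβ ((i : WithBot ℤ), (j : WithBot ℤ))) := fun b hb =>
    not_mem_edgeSel _ _ fun c => thr_mul_Gb_int_le hβ h1β i j b c (hb c)
  have h0 := key 0 (forall_fin3 (by simp [expo]) (by simp [expo]; linarith) (by simp [expo]; linarith))
  have h1 := key 1 (forall_fin3 (by simp [expo]; linarith) (by simp [expo]) (by simp [expo]; linarith))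
  have h2 := key 2 (forall_fin3 (by simp [expo]; linarith) (by simp [expo]; linarith) (by simp [expo]))
  simp only [edgeMap, h0, h1, h2, if_false]

/-- A point whose first coordinate is negligible goes to the edge. -/
lemma edgeMap_far {i j : ℤ} (hj1 : -(L : ℤ) ≤ j) (hj2 : j ≤ L) (hi : i + L < 0 ∨ i + L < j) :
    edgeMap hβ (thr β L) (thr_nonneg h1β) (thr_le_one h1β) ((i : WithBot ℤ), (j : WithBot ℤ)) =
      (⊥, (j : WithBot ℤ)) := by
  classical
  have key : ∀ b : Fin 3, (∀ c, expo i j c ≤ expo i j b + L) →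
      b ∉ (edgeSel (thr β L) (thr_nonneg h1β) (thr_le_one h1β)).T
        (Gb hβ ((i : WithBot ℤ), (j : WithBot ℤ))) := fun b hb =>
    not_mem_edgeSel _ _ fun c => thr_mul_Gb_int_le hβ h1β i j b c (hb c)
  have hLn : (0 : ℤ) ≤ L := Int.natCast_nonneg L
  have h0 := key 0 (forall_fin3 (by simp [expo]) (by
    simp only [expo]
    show i ≤ 0 + (L : ℤ)
    rcases hi with h | h <;> linarith) (by
    simp only [expo]
    show j ≤ 0 + (L : ℤ)
    linarith))
  have h2 := key 2 (forall_fin3 (by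
    simp only [expo]
    show (0 : ℤ) ≤ j + L
    linarith) (by
    simp only [expo]
    show i ≤ j + L
    rcases hi with h | h <;> linarith) (by
    simp only [expo]
    show j ≤ j + L
    linarith))
  have h1 : (1 : Fin 3) ∈ (edgeSel (thr β L) (thr_nonneg h1β) (thr_le_one h1β)).T
      (Gb hβ ((i : WithBot ℤ), (j : WithBot ℤ))) := by
    rcases hi with h | h
    · exact mem_edgeSel _ _ (Gb_int_lt_thr_mul hβ h1β i j 1 0 (by
        simp only [expo]
        show i + L < 0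
        exact h))
    · exact mem_edgeSel _ _ (Gb_int_lt_thr_mul hβ h1β i j 1 2 (by
        simp only [expo]
        show i + L < j
        exact h))
  simp only [edgeMap, h0, h1, h2, if_false, if_true]

/-- A point of the edge in the window does not move. -/
lemma edgeMap_edge {j : ℤ} (hj1 : -(L : ℤ) ≤ j) (hj2 : j ≤ L) :
    edgeMap hβ (thr β L) (thr_nonneg h1β) (thr_le_one h1β) (⊥, (j : WithBot ℤ)) =
      (⊥, (j : WithBot ℤ)) := by
  classical
  have hthr0 : 0 < thr β L := zpow_pos hβ _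
  have hthr1 := thr_le_one (L := L) h1β
  have hN := nrm_pos hβ (⊥, (j : WithBot ℤ))
  have e0 := Gb_zero hβ (⊥, (j : WithBot ℤ))
  have e1 := Gb_one hβ (⊥, (j : WithBot ℤ))
  have e2 := Gb_two hβ (⊥, (j : WithBot ℤ))
  simp only [bpow_bot, bpow_coe] at e1 e2
  have hb : 0 < β ^ j := zpow_pos hβ j
  have hth1 : thr β L * β ^ j ≤ 1 := by
    unfold thr
    rw [← zpow_add₀ hβ.ne', ← zpow_zero β]
    exact zpow_le_zpow h1β (by linarith)
  have hth2 : thr β L ≤ β ^ j := by
    unfold thr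
    exact zpow_le_zpow h1β hj1
  set N := nrm β (⊥, (j : WithBot ℤ)) with hNdef
  have hNi : 0 < N⁻¹ := inv_pos.2 hN
  have h0 : (0 : Fin 3) ∉ (edgeSel (thr β L) (thr_nonneg h1β) (thr_le_one h1β)).T
      (Gb hβ (⊥, (j : WithBot ℤ))) := by
    refine not_mem_edgeSel _ _ (forall_fin3 ?_ ?_ ?_)
    · rw [e0]
      simp only [one_div]
      nlinarith
    · rw [e0, e1]
      simp only [one_div, zero_div, mul_zero]
      exact hNi.le
    · rw [e0, e2]
      simp only [one_div]
      have : thr β L * (β ^ j / N) = (thr β L * β ^ j) * N⁻¹ := by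
        rw [div_eq_mul_inv]
        ring
      rw [this]
      nlinarith
  have h1 : (1 : Fin 3) ∈ (edgeSel (thr β L) (thr_nonneg h1β) (thr_le_one h1β)).T
      (Gb hβ (⊥, (j : WithBot ℤ))) := by
    refine mem_edgeSel _ _ (b := 1) (c := 0) ?_
    rw [e0, e1]
    simp only [zero_div, one_div]
    positivity
  have h2 : (2 : Fin 3) ∉ (edgeSel (thr β L) (thr_nonneg h1β) (thr_le_one h1β)).T
      (Gb hβ (⊥, (j : WithBot ℤ))) := by
    refine not_mem_edgeSel _ _ (forall_fin3 ?_ ?_ ?_)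
    · rw [e0, e2]
      simp only [one_div]
      rw [div_eq_mul_inv]
      nlinarith
    · rw [e1, e2]
      simp only [zero_div, mul_zero]
      exact div_nonneg hb.le hN.le
    · rw [e2]
      have : 0 ≤ β ^ j / N := div_nonneg hb.le hN.le
      nlinarith
  simp only [edgeMap, h0, h1, h2, if_false, if_true]

end Lattice

end Chart

end Crest.Agent.PottsTree
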