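import Mathlib

/-!
# Bignums as digit vectors

A natural number `N` is read in base `Y = 2 ^ s`: its digits `dg s N n`.  When the masses are small,
a product of bignums is a convolution of the digits and a sum is a digitwise sum; an `AND` with a mask
is digitwise, `% (Y - 1)` casts out the digits and `% (Y ^ D - 1)` collapses the rows of a
two-dimensional array.  This file is the arithmetic of the kernel checker of the density evolution on
the log lattice: it knows nothing about spins.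
-/

set_option autoImplicit false

namespace Crest.Agent.PottsTree.Lat

open Polynomial Finset

/-! ### Digits -/

/-- the digit of position `n` in base `2 ^ s` -/
def dg (s N n : ℕ) : ℕ := N / 2 ^ (s * n) % 2 ^ s

lemma dg_lt (s N n : ℕ) : dg s N n < 2 ^ s := Nat.mod_lt _ (by positivity)

lemma dg_zero_right (s N : ℕ) : dg s N 0 = N % 2 ^ s := by simp [dg]

lemma dg_succ (s N n : ℕ) : dg s N (n + 1) = dg s (N / 2 ^ s) n := by
  simp only [dg]
  rw [Nat.div_div_eq_div_mul, ← pow_add]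
  congr 3
  ring

lemma dg_eq_zero_of_lt {s N n : ℕ} (h : N < 2 ^ (s * n)) : dg s N n = 0 := by
  simp [dg, Nat.div_eq_of_lt h]

@[simp] lemma dg_zero_left (s n : ℕ) : dg s 0 n = 0 := by simp [dg]

/-- the digit polynomial -/
noncomputable def digP (s N : ℕ) : ℕ[X] :=
  ∑ j ∈ range (N + 1), monomial j (dg s N j)

lemma coeff_digP {s : ℕ} (hs : 0 < s) (N j : ℕ) : (digP s N).coeff j = dg s N j := by
  simp only [digP, finsetSum_coeff, coeff_monomial]
  by_cases hj : j ∈ range (N + 1)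
  · rw [Finset.sum_eq_single j]
    · simp
    · intro b _ hb
      simp [hb]
    · intro h
      exact absurd hj h
  · rw [Finset.sum_eq_zero]
    · symm
      apply dg_eq_zero_of_lt
      have hj' : N < j := by
        simp only [mem_range, not_lt] at hj
        omega
      calc N < j := hj'
        _ < 2 ^ j := Nat.lt_two_pow_self
        _ ≤ 2 ^ (s * j) := Nat.pow_le_pow_right (by norm_num) (Nat.le_mul_of_pos_left j hs)
    · intro b hb
      have : b ≠ j := fun h => hj (h ▸ hb)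
      simp [this]

lemma mod_eq_sum_dg (s N n : ℕ) :
    N % 2 ^ (s * n) = ∑ j ∈ range n, dg s N j * 2 ^ (s * j) := by
  induction n with
  | zero => simp [Nat.mod_one]
  | succ n ih =>
    rw [sum_range_succ, ← ih, Nat.mul_succ, pow_add, Nat.mod_mul]
    simp only [dg]
    ring

/-- (D1) a number below `Y ^ m` is the sum of its first `m` digits -/
lemma eq_sum_dg {s N m : ℕ} (h : N < 2 ^ (s * m)) : N = ∑ j ∈ range m, dg s N j * 2 ^ (s * j) := by
  rw [← mod_eq_sum_dg, Nat.mod_eq_of_lt h]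

lemma eval_digP {s : ℕ} (hs : 0 < s) (N : ℕ) : (digP s N).eval (2 ^ s) = N := by
  have h1 : N < 2 ^ (s * (N + 1)) := by
    calc N < N + 1 := Nat.lt_succ_self _
      _ < 2 ^ (N + 1) := Nat.lt_two_pow_self
      _ ≤ 2 ^ (s * (N + 1)) :=
        Nat.pow_le_pow_right (by norm_num) (Nat.le_mul_of_pos_left _ hs)
  conv_rhs => rw [eq_sum_dg h1]
  simp only [digP, eval_finsetSum, eval_monomial, ← pow_mul]

/-- the digits of the value at the base of a polynomial with small coefficients -/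
lemma dg_eval {s : ℕ} (ρ : ℕ[X]) (hρ : ∀ j, ρ.coeff j < 2 ^ s) (j : ℕ) :
    dg s (ρ.eval (2 ^ s)) j = ρ.coeff j := by
  have key : ∀ ρ : ℕ[X], (ρ.eval (2 ^ s)) = ρ.coeff 0 + 2 ^ s * ρ.divX.eval (2 ^ s) := by
    intro ρ
    conv_lhs => rw [← divX_mul_X_add ρ]
    simp only [eval_add, eval_mul, eval_X, eval_C]
    ring
  induction j generalizing ρ with
  | zero =>
    rw [dg_zero_right, key, Nat.add_mul_mod_self_left, Nat.mod_eq_of_lt (hρ 0)]
  | succ j ih =>
    rw [dg_succ, key, Nat.add_mul_div_left _ _ (by positivity), Nat.div_eq_of_lt (hρ 0), zero_add]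
    rw [ih ρ.divX (fun n => by rw [coeff_divX]; exact hρ _), coeff_divX]

lemma digP_eval {s : ℕ} (hs : 0 < s) (ρ : ℕ[X]) (hρ : ∀ j, ρ.coeff j < 2 ^ s) :
    digP s (ρ.eval (2 ^ s)) = ρ := by
  ext j
  rw [coeff_digP hs, dg_eval ρ hρ]

/-- (D1) digits of a sum with small terms -/
lemma dg_of_sum {s : ℕ} (m : ℕ) (c : ℕ → ℕ) (hc : ∀ n < m, c n < 2 ^ s) (n : ℕ) :
    dg s (∑ j ∈ range m, c j * 2 ^ (s * j)) n = if n < m then c n else 0 := by
  have h := dg_eval (s := s) (∑ j ∈ range m, monomial j (c j)) (fun j => by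
    simp only [finsetSum_coeff, coeff_monomial]
    rw [Finset.sum_ite_eq' (range m) j]
    split_ifs with hj
    · exact hc j (mem_range.1 hj)
    · positivity) n
  simp only [eval_finsetSum, eval_monomial, ← pow_mul, finsetSum_coeff, coeff_monomial] at h
  rw [h, Finset.sum_ite_eq' (range m) n]
  simp

lemma coeff_le_eval_one (ρ : ℕ[X]) (j : ℕ) : ρ.coeff j ≤ ρ.eval 1 := by
  rw [eval_eq_sum]
  simp only [one_pow, mul_one]
  by_cases hj : j ∈ ρ.support
  · exact Finset.single_le_sum (f := fun n => ρ.coeff n) (fun _ _ => Nat.zero_le _) hj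
  · rw [notMem_support_iff.1 hj]
    exact Nat.zero_le _

/-- the sum of all the digits -/
noncomputable def tot (s N : ℕ) : ℕ := (digP s N).eval 1

lemma dg_le_tot {s : ℕ} (hs : 0 < s) (N j : ℕ) : dg s N j ≤ tot s N := by
  rw [← coeff_digP hs]
  exact coeff_le_eval_one _ _

lemma support_digP_subset {s N m : ℕ} (hs : 0 < s) (h : N < 2 ^ (s * m)) :
    (digP s N).support ⊆ range m := by
  intro j hj
  rw [mem_support_iff, coeff_digP hs] at hj
  rw [mem_range]
  by_contra hjm
  apply hj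
  apply dg_eq_zero_of_lt
  refine lt_of_lt_of_le h (Nat.pow_le_pow_right (by norm_num) (Nat.mul_le_mul_left s (by omega)))

/-- the total as a sum of digits -/
lemma tot_eq_sum {s N m : ℕ} (hs : 0 < s) (h : N < 2 ^ (s * m)) :
    tot s N = ∑ j ∈ range m, dg s N j := by
  rw [tot, eval_eq_sum]
  simp only [one_pow, mul_one, Polynomial.sum, coeff_digP hs]
  refine Finset.sum_subset (support_digP_subset hs h) fun j _ hj => ?_
  rw [notMem_support_iff, coeff_digP hs] at hj
  exact hj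

@[simp] lemma tot_zero (s : ℕ) (hs : 0 < s) : tot s 0 = 0 := by
  rw [tot_eq_sum (m := 1) hs (by positivity)]
  simp

/-- digits of a product, under a bound on the masses -/
lemma digP_mul {s : ℕ} (hs : 0 < s) {A B : ℕ} (h : tot s A * tot s B < 2 ^ s) :
    digP s (A * B) = digP s A * digP s B := by
  have hρ : ∀ j, (digP s A * digP s B).coeff j < 2 ^ s := fun j =>
    lt_of_le_of_lt (coeff_le_eval_one _ _) (by rw [eval_mul]; exact h)
  have := digP_eval hs (digP s A * digP s B) hρ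
  rwa [eval_mul, eval_digP hs, eval_digP hs] at this

/-- digits of a sum, under a bound on the masses -/
lemma digP_add {s : ℕ} (hs : 0 < s) {A B : ℕ} (h : tot s A + tot s B < 2 ^ s) :
    digP s (A + B) = digP s A + digP s B := by
  have hρ : ∀ j, (digP s A + digP s B).coeff j < 2 ^ s := fun j =>
    lt_of_le_of_lt (coeff_le_eval_one _ _) (by rw [eval_add]; exact h)
  have := digP_eval hs (digP s A + digP s B) hρ
  rwa [eval_add, eval_digP hs, eval_digP hs] at this

lemma tot_mul {s : ℕ} (hs : 0 < s) {A B : ℕ} (h : tot s A * tot s B < 2 ^ s) :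
    tot s (A * B) = tot s A * tot s B := by
  simp only [tot]
  rw [digP_mul hs h, eval_mul]

lemma tot_add {s : ℕ} (hs : 0 < s) {A B : ℕ} (h : tot s A + tot s B < 2 ^ s) :
    tot s (A + B) = tot s A + tot s B := by
  simp only [tot]
  rw [digP_add hs h, eval_add]

/-- (D1) digits of a sum -/
lemma dg_add {s : ℕ} (hs : 0 < s) {A B : ℕ} (h : tot s A + tot s B < 2 ^ s) (n : ℕ) :
    dg s (A + B) n = dg s A n + dg s B n := by
  rw [← coeff_digP hs, digP_add hs h, coeff_add, coeff_digP hs, coeff_digP hs]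

/-- (D2) digits of a product -/
lemma dg_mul {s : ℕ} (hs : 0 < s) {A B : ℕ} (h : tot s A * tot s B < 2 ^ s) (n : ℕ) :
    dg s (A * B) n = ∑ x ∈ antidiagonal n, dg s A x.1 * dg s B x.2 := by
  rw [← coeff_digP hs, digP_mul hs h, coeff_mul]
  simp only [coeff_digP hs]

/-- (D1) digits of a shift by whole digits -/
lemma dg_shift (s N t n : ℕ) : dg s (N >>> (s * t)) n = dg s N (n + t) := by
  simp only [dg, Nat.shiftRight_eq_div_pow]
  rw [Nat.div_div_eq_div_mul, ← pow_add]
  congr 3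
  ring

/-- (D1) digits of a truncation -/
lemma dg_mod_pow (s N t n : ℕ) : dg s (N % 2 ^ (s * t)) n = if n < t then dg s N n else 0 := by
  have h := dg_of_sum (s := s) t (fun j => dg s N j) (fun n _ => dg_lt s N n) n
  rwa [← mod_eq_sum_dg] at h

/-! ### Bitwise operations -/

/-- (D3) `AND` is digitwise -/
lemma dg_and (s A B n : ℕ) : dg s (A &&& B) n = dg s A n &&& dg s B n := by
  simp only [dg, ← Nat.shiftRight_eq_div_pow]
  rw [Nat.shiftRight_and_distrib, Nat.and_mod_two_pow]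

/-- keeping the high bits of a digit -/
lemma and_high {s p c : ℕ} (hp : p ≤ s) (hc : c < 2 ^ s) :
    c &&& (2 ^ s - 2 ^ p) = c / 2 ^ p * 2 ^ p := by
  have h : 2 ^ s - 2 ^ p = (2 ^ (s - p) - 1) * 2 ^ p := by
    rw [Nat.sub_mul, ← pow_add, Nat.sub_add_cancel hp, one_mul]
  apply Nat.eq_of_testBit_eq
  intro i
  rw [h, Nat.testBit_and, ← Nat.shiftLeft_eq, ← Nat.shiftLeft_eq, Nat.testBit_shiftLeft,
    Nat.testBit_shiftLeft, Nat.testBit_two_pow_sub_one, Nat.testBit_div_two_pow]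
  by_cases h1 : p ≤ i
  · have : i - p + p = i := Nat.sub_add_cancel h1
    simp only [h1, decide_true, Bool.true_and, this]
    by_cases h2 : i - p < s - p
    · simp [h2]
    · have h3 : 2 ^ s ≤ 2 ^ i := Nat.pow_le_pow_right (by norm_num) (by omega)
      have : c.testBit i = false := Nat.testBit_lt_two_pow (lt_of_lt_of_le hc h3)
      simp [h2, this]
  · simp [h1]

/-- digits of a constant multiple, digitwise bound -/
lemma dg_smul {s : ℕ} (hs : 0 < s) {c B : ℕ} (h : ∀ n, c * dg s B n < 2 ^ s) (n : ℕ) :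
    dg s (c * B) n = c * dg s B n := by
  have h1 := dg_eval (s := s) (C c * digP s B) (fun j => by
    rw [coeff_C_mul, coeff_digP hs]
    exact h j) n
  rwa [eval_mul, eval_C, eval_digP hs, coeff_C_mul, coeff_digP hs] at h1

/-- masking a digit with a mask of digits `0` or `1` times `2 ^ s - 2 ^ p` -/
lemma dg_and_high {s p : ℕ} (hs : 0 < s) (hp : p ≤ s) (hp0 : 0 < p) {B : ℕ}
    (hB : ∀ n, dg s B n ≤ 1) (P n : ℕ) :
    dg s (P &&& ((2 ^ s - 2 ^ p) * B)) n = dg s P n / 2 ^ p * 2 ^ p * dg s B n := by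
  have h2 : (2 : ℕ) ^ s - 2 ^ p < 2 ^ s := Nat.sub_lt (by positivity) (by positivity)
  have hm : ∀ n, (2 ^ s - 2 ^ p) * dg s B n < 2 ^ s := fun n => by
    have := hB n
    interval_cases h : dg s B n
    · simp
    · simpa using h2
  rw [dg_and, dg_smul hs hm]
  have := hB n
  interval_cases h : dg s B n
  · simp
  · rw [mul_one, mul_one, and_high hp (dg_lt s P n)]

/-- masking with all the ones of a digit -/
lemma dg_and_ones {s : ℕ} (hs : 0 < s) {B : ℕ} (hB : ∀ n, dg s B n ≤ 1) (P n : ℕ) :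
    dg s (P &&& ((2 ^ s - 1) * B)) n = dg s P n * dg s B n := by
  have hm : ∀ n, (2 ^ s - 1) * dg s B n < 2 ^ s := fun n => by
    have := hB n
    have h1 : (2 : ℕ) ^ s - 1 < 2 ^ s := Nat.sub_lt (by positivity) (by norm_num)
    interval_cases h : dg s B n
    · simp
    · simpa using h1
  rw [dg_and, dg_smul hs hm]
  have := hB n
  interval_cases h : dg s B n
  · simp
  · rw [mul_one, mul_one, Nat.and_two_pow_sub_one_eq_mod, Nat.mod_eq_of_lt (dg_lt s P n)]

/-- a shift by less than a digit when all the digits are multiples of the shift -/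
lemma dg_shiftRight_of_dvd {s p : ℕ} (hs : 0 < s) {W : ℕ} (hW : ∀ n, 2 ^ p ∣ dg s W n) (n : ℕ) :
    dg s (W >>> p) n = dg s W n / 2 ^ p := by
  set ρ : ℕ[X] := ∑ j ∈ range (W + 1), monomial j (dg s W j / 2 ^ p) with hρ
  have hco : ∀ j, ρ.coeff j = dg s W j / 2 ^ p := by
    intro j
    simp only [hρ, finsetSum_coeff, coeff_monomial]
    rw [Finset.sum_ite_eq' (range (W + 1)) j]
    split_ifs with hj
    · rfl
    · have := (coeff_digP hs W j)
      have h0 : dg s W j = 0 := by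
        apply dg_eq_zero_of_lt
        have hj' : W < j := by
          simp only [mem_range, not_lt] at hj
          omega
        calc W < j := hj'
          _ < 2 ^ j := Nat.lt_two_pow_self
          _ ≤ 2 ^ (s * j) := Nat.pow_le_pow_right (by norm_num) (Nat.le_mul_of_pos_left j hs)
      simp [h0]
  have hev : W = 2 ^ p * ρ.eval (2 ^ s) := by
    conv_lhs => rw [← eval_digP hs W]
    simp only [digP, hρ, eval_finsetSum, eval_monomial, Finset.mul_sum]
    refine Finset.sum_congr rfl fun j _ => ?_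
    rw [← mul_assoc, Nat.mul_div_cancel' (hW j)]
  have hsh : W >>> p = ρ.eval (2 ^ s) := by
    rw [Nat.shiftRight_eq_div_pow]
    conv_lhs => rw [hev]
    exact Nat.mul_div_cancel_left _ (by positivity)
  rw [hsh, dg_eval ρ (fun j => by
    rw [hco]
    exact lt_of_le_of_lt (Nat.div_le_self _ _) (dg_lt s W j)), hco]

/-- (D3) floor of the digits in the region of a mask, together with a shift by whole digits -/
lemma dg_floor_mask {s p : ℕ} (hs : 0 < s) (hp : p ≤ s) (hp0 : 0 < p) {B : ℕ}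
    (hB : ∀ n, dg s B n ≤ 1) (P t n : ℕ) :
    dg s ((P &&& ((2 ^ s - 2 ^ p) * B)) >>> (s * t + p)) n =
      dg s P (n + t) / 2 ^ p * dg s B (n + t) := by
  rw [add_comm (s * t) p, Nat.shiftRight_add, dg_shift,
    dg_shiftRight_of_dvd hs (fun n => by
      rw [dg_and_high hs hp hp0 hB]
      exact Dvd.dvd.mul_right (Dvd.intro_left _ rfl) _), dg_and_high hs hp hp0 hB]
  rw [mul_right_comm, Nat.mul_div_cancel _ (by positivity)]

/-! ### Masses -/

lemma tot_le_of_dg_le {s : ℕ} (hs : 0 < s) {A B t : ℕ} (h : ∀ n, dg s A n ≤ dg s B (n + t)) :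
    tot s A ≤ tot s B := by
  obtain ⟨m, hmA, hmB⟩ : ∃ m, A < 2 ^ (s * m) ∧ B < 2 ^ (s * m) := by
    refine ⟨A + B + 1, ?_, ?_⟩
    · calc A < A + B + 1 := by omega
        _ < 2 ^ (A + B + 1) := Nat.lt_two_pow_self
        _ ≤ _ := Nat.pow_le_pow_right (by norm_num) (Nat.le_mul_of_pos_left _ hs)
    · calc B < A + B + 1 := by omega
        _ < 2 ^ (A + B + 1) := Nat.lt_two_pow_self
        _ ≤ _ := Nat.pow_le_pow_right (by norm_num) (Nat.le_mul_of_pos_left _ hs)
  rw [tot_eq_sum hs hmA, tot_eq_sum (m := m + t) hs (lt_of_lt_of_le hmB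
    (Nat.pow_le_pow_right (by norm_num) (Nat.mul_le_mul_left s (by omega))))]
  rw [add_comm m t, Finset.sum_range_add]
  refine le_trans (Finset.sum_le_sum fun n _ => ?_) (Nat.le_add_left _ _)
  rw [add_comm t n]
  exact h n

/-- casting out the digits -/
lemma eval_modEq (ρ : ℕ[X]) {a b m : ℕ} (h : a ≡ b [MOD m]) : ρ.eval a ≡ ρ.eval b [MOD m] := by
  induction ρ using Polynomial.induction_on' with
  | add p q hp hq =>
    simp only [eval_add]
    exact hp.add hq
  | monomial n c =>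
    simp only [eval_monomial]
    exact (h.pow n).mul_left c

lemma one_modEq_pow {s : ℕ} : 2 ^ s ≡ 1 [MOD 2 ^ s - 1] := by
  have : (1 : ℕ) ≤ 2 ^ s := Nat.one_le_two_pow
  rw [Nat.ModEq]
  conv_lhs => rw [show 2 ^ s = (2 ^ s - 1) + 1 by omega]
  simp

/-- (D4) the sum of the digits by `% (Y - 1)` -/
lemma mod_pred_eq_tot {s : ℕ} (hs : 0 < s) {N : ℕ} (h : tot s N < 2 ^ s - 1) :
    N % (2 ^ s - 1) = tot s N := by
  have h1 := eval_modEq (digP s N) (one_modEq_pow (s := s))
  rw [eval_digP hs, Nat.ModEq] at h1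
  rw [h1]
  exact Nat.mod_eq_of_lt h

/-! ### Collapsing the rows -/

/-- a polynomial with the exponents reduced mod `D` -/
noncomputable def colP (D : ℕ) (ρ : ℕ[X]) : ℕ[X] := ρ.sum fun n c => monomial (n % D) c

lemma colP_add (D : ℕ) (ρ σ : ℕ[X]) : colP D (ρ + σ) = colP D ρ + colP D σ :=
  sum_add_index _ _ _ (fun _ => by simp) (fun _ _ _ => by simp)

lemma colP_monomial (D n c : ℕ) : colP D (monomial n c) = monomial (n % D) c :=
  sum_monomial_index _ _ (by simp)

lemma eval_one_colP (D : ℕ) (ρ : ℕ[X]) : (colP D ρ).eval 1 = ρ.eval 1 := by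
  induction ρ using Polynomial.induction_on' with
  | add p q hp hq => simp only [colP_add, eval_add, hp, hq]
  | monomial n c => simp [colP_monomial, eval_monomial]

lemma eval_colP_modEq {D : ℕ} (hD : 0 < D) (ρ : ℕ[X]) (Y : ℕ) (hY : 0 < Y) :
    ρ.eval Y ≡ (colP D ρ).eval Y [MOD Y ^ D - 1] := by
  induction ρ using Polynomial.induction_on' with
  | add p q hp hq =>
    simp only [colP_add, eval_add]
    exact hp.add hq
  | monomial n c =>
    simp only [colP_monomial, eval_monomial]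
    refine Nat.ModEq.mul_left c ?_
    have h1 : Y ^ D ≡ 1 [MOD Y ^ D - 1] := by
      have : 1 ≤ Y ^ D := Nat.one_le_pow _ _ hY
      rw [Nat.ModEq]
      conv_lhs => rw [show Y ^ D = (Y ^ D - 1) + 1 by omega]
      simp
    conv_lhs => rw [← Nat.div_add_mod n D, pow_add, pow_mul]
    have h2 := (h1.pow (n / D)).mul_right (Y ^ (n % D))
    simpa using h2

lemma coeff_colP_of_ge {D : ℕ} (hD : 0 < D) (ρ : ℕ[X]) {v : ℕ} (hv : D ≤ v) :
    (colP D ρ).coeff v = 0 := by
  induction ρ using Polynomial.induction_on' with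
  | add p q hp hq => simp only [colP_add, coeff_add, hp, hq, add_zero]
  | monomial n c =>
    rw [colP_monomial, coeff_monomial, if_neg]
    have := Nat.mod_lt n hD
    omega

/-- The values of the collapsed polynomial at the base stays below `Y ^ D - 1`. -/
lemma eval_colP_lt {s D : ℕ} (hD : 0 < D) (hs : 0 < s) (ρ : ℕ[X])
    (h : ρ.eval 1 < 2 ^ s - 1) : (colP D ρ).eval (2 ^ s) < (2 ^ s) ^ D - 1 := by
  have hco : ∀ v, (colP D ρ).coeff v ≤ 2 ^ s - 2 := fun v => by
    have := coeff_le_eval_one (colP D ρ) v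
    rw [eval_one_colP] at this
    omega
  have hdeg : (colP D ρ).eval (2 ^ s) = ∑ v ∈ range D, (colP D ρ).coeff v * (2 ^ s) ^ v := by
    rw [eval_eq_sum, Polynomial.sum]
    refine Finset.sum_subset ?_ (fun v _ hv => ?_)
    · intro v hv
      rw [mem_support_iff] at hv
      rw [mem_range]
      by_contra hvD
      exact hv (coeff_colP_of_ge hD ρ (by omega))
    · rw [notMem_support_iff.1 hv]
      simp
  have hgeom : (2 ^ s - 1) * ∑ v ∈ range D, (2 ^ s) ^ v = (2 ^ s) ^ D - 1 := by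
    have := Nat.geomSum_eq (m := 2 ^ s) (by
      calc 2 = 2 ^ 1 := by norm_num
        _ ≤ 2 ^ s := Nat.pow_le_pow_right (by norm_num) hs) D
    rw [this]
    exact Nat.mul_div_cancel' (by
      simpa using Nat.sub_dvd_pow_sub_pow (2 ^ s) 1 D)
  have hsum : 0 < ∑ v ∈ range D, ((2 : ℕ) ^ s) ^ v :=
    Finset.sum_pos (fun v _ => by positivity) ⟨0, mem_range.2 hD⟩
  have h2s : 2 ≤ (2 : ℕ) ^ s := by
    calc 2 = 2 ^ 1 := by norm_num
      _ ≤ 2 ^ s := Nat.pow_le_pow_right (by norm_num) hs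
  rw [hdeg, ← hgeom]
  calc ∑ v ∈ range D, (colP D ρ).coeff v * (2 ^ s) ^ v
      ≤ ∑ v ∈ range D, (2 ^ s - 2) * (2 ^ s) ^ v :=
        Finset.sum_le_sum fun v _ => Nat.mul_le_mul_right _ (hco v)
    _ = (2 ^ s - 2) * ∑ v ∈ range D, (2 ^ s) ^ v := by rw [Finset.mul_sum]
    _ < (2 ^ s - 1) * ∑ v ∈ range D, (2 ^ s) ^ v := by
        exact Nat.mul_lt_mul_of_pos_right (by omega) hsum

/-- the polynomial of the collapse of `N` -/
lemma mod_rows_eq {s D N : ℕ} (hD : 0 < D) (hs : 0 < s) (h : tot s N < 2 ^ s - 1) :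
    N % ((2 ^ s) ^ D - 1) = (colP D (digP s N)).eval (2 ^ s) := by
  have h1 := eval_colP_modEq hD (digP s N) (2 ^ s) (by positivity)
  rw [eval_digP hs, Nat.ModEq] at h1
  rw [h1]
  exact Nat.mod_eq_of_lt (eval_colP_lt hD hs _ h)

lemma coeff_colP {D : ℕ} (hD : 0 < D) (ρ : ℕ[X]) {U v : ℕ} (hv : v < D)
    (hU : ∀ n, ρ.coeff n ≠ 0 → n < U * D) :
    (colP D ρ).coeff v = ∑ u ∈ range U, ρ.coeff (u * D + v) := by
  have h1 : (colP D ρ).coeff v = ∑ n ∈ ρ.support, if n % D = v then ρ.coeff n else 0 := by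
    have hgen : ∀ ρ : ℕ[X], (colP D ρ).coeff v = ∑ n ∈ ρ.support, if n % D = v then ρ.coeff n else 0 := by
      intro ρ
      simp only [colP, Polynomial.sum, finsetSum_coeff, coeff_monomial]
    exact hgen ρ
  rw [h1]
  have h2 : ∑ n ∈ ρ.support, (if n % D = v then ρ.coeff n else 0) =
      ∑ n ∈ range (U * D), if n % D = v then ρ.coeff n else 0 := by
    refine Finset.sum_subset (fun n hn => ?_) (fun n _ hn => ?_)
    · rw [mem_range]
      exact hU n (mem_support_iff.1 hn)
    · rw [notMem_support_iff.1 hn]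
      simp
  rw [h2]
  clear h1 h2 hU
  induction U with
  | zero => simp
  | succ U ih =>
    rw [Nat.succ_mul, Finset.sum_range_add, ih, Finset.sum_range_succ]
    congr 1
    rw [Finset.sum_eq_single v]
    · simp [Nat.mul_add_mod_of_lt hv, Nat.mod_eq_of_lt hv]
    · intro x hx hxv
      have hxD : x < D := mem_range.1 hx
      rw [if_neg]
      rw [Nat.mul_add_mod_of_lt hxD]
      exact hxv
    · intro h
      exact absurd (mem_range.2 hv) h

/-- (D4) the digits of the collapse of the rows -/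
lemma dg_mod_rows {s D N U v : ℕ} (hD : 0 < D) (hs : 0 < s) (h : tot s N < 2 ^ s - 1)
    (hU : ∀ n, dg s N n ≠ 0 → n < U * D) (hv : v < D) :
    dg s (N % ((2 ^ s) ^ D - 1)) v = ∑ u ∈ range U, dg s N (u * D + v) := by
  rw [mod_rows_eq hD hs h, dg_eval _ (fun j => by
    refine lt_of_le_of_lt (coeff_le_eval_one _ _) ?_
    rw [eval_one_colP]
    exact lt_of_lt_of_le h (Nat.sub_le _ _)),
    coeff_colP hD _ hv (U := U) (fun n hn => hU n (by rwa [coeff_digP hs] at hn))]
  simp only [coeff_digP hs]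

lemma dg_mod_rows_of_ge {s D N v : ℕ} (hD : 0 < D) (hs : 0 < s) (h : tot s N < 2 ^ s - 1)
    (hv : D ≤ v) : dg s (N % ((2 ^ s) ^ D - 1)) v = 0 := by
  rw [mod_rows_eq hD hs h, dg_eval _ (fun j => by
    refine lt_of_le_of_lt (coeff_le_eval_one _ _) ?_
    rw [eval_one_colP]
    exact lt_of_lt_of_le h (Nat.sub_le _ _)), coeff_colP_of_ge hD _ hv]

lemma tot_mod_rows {s D N : ℕ} (hD : 0 < D) (hs : 0 < s) (h : tot s N < 2 ^ s - 1) :
    tot s (N % ((2 ^ s) ^ D - 1)) = tot s N := by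
  rw [mod_rows_eq hD hs h]
  simp only [tot]
  rw [digP_eval hs _ (fun j => by
    refine lt_of_le_of_lt (coeff_le_eval_one _ _) ?_
    rw [eval_one_colP]
    exact lt_of_lt_of_le h (Nat.sub_le _ _)), eval_one_colP]

/-! ### Masks -/

/-- `∑ c ∈ [lo, hi], Y ^ c`, as a formula -/
def ones (s lo hi : ℕ) : ℕ := (2 ^ (s * (hi + 1)) - 2 ^ (s * lo)) / (2 ^ s - 1)

lemma ones_eq {s : ℕ} (hs : 0 < s) (lo hi : ℕ) :
    ones s lo hi = ∑ c ∈ Ico lo (hi + 1), 2 ^ (s * c) := by
  have h2s : 2 ≤ (2 : ℕ) ^ s := by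
    calc 2 = 2 ^ 1 := by norm_num
      _ ≤ 2 ^ s := Nat.pow_le_pow_right (by norm_num) hs
  unfold ones
  by_cases h : lo ≤ hi + 1
  · have key : ∀ b, lo ≤ b → (2 ^ s - 1) * ∑ c ∈ Ico lo b, 2 ^ (s * c) =
        2 ^ (s * b) - 2 ^ (s * lo) := by
      intro b hb
      induction b, hb using Nat.le_induction with
      | base => simp
      | succ b hle ih =>
        rw [Finset.sum_Ico_succ_top hle, mul_add, ih, Nat.sub_mul, one_mul, ← pow_add]
        have e1 : s + s * b = s * (b + 1) := by ring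
        rw [e1]
        have h1 : (2 : ℕ) ^ (s * lo) ≤ 2 ^ (s * b) :=
          Nat.pow_le_pow_right (by norm_num) (Nat.mul_le_mul_left s hle)
        have h2 : (2 : ℕ) ^ (s * b) ≤ 2 ^ (s * (b + 1)) :=
          Nat.pow_le_pow_right (by norm_num) (Nat.mul_le_mul_left s (by omega))
        omega
    rw [← key _ h]
    exact Nat.mul_div_cancel_left _ (by omega)
  · have h1 : (2 : ℕ) ^ (s * (hi + 1)) ≤ 2 ^ (s * lo) :=
      Nat.pow_le_pow_right (by norm_num) (Nat.mul_le_mul_left s (by omega))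
    rw [Nat.sub_eq_zero_of_le h1, Finset.Ico_eq_empty (by omega)]
    simp

/-- The rows `lo a ≤ c ≤ hi a` of `a < A`, row length `D`. -/
def rowsB (s D : ℕ) (lo hi : ℕ → ℕ) : ℕ → ℕ
  | 0 => 0
  | A + 1 => rowsB s D lo hi A + ones s (lo A) (hi A) * 2 ^ (s * (A * D))

/-- The polynomial of a mask. -/
noncomputable def rowsP (D : ℕ) (lo hi : ℕ → ℕ) (A : ℕ) : ℕ[X] :=
  ∑ a ∈ range A, ∑ c ∈ Ico (lo a) (hi a + 1), monomial (a * D + c) 1

lemma eval_rowsP {s : ℕ} (hs : 0 < s) (D : ℕ) (lo hi : ℕ → ℕ) (A : ℕ) :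
    (rowsP D lo hi A).eval (2 ^ s) = rowsB s D lo hi A := by
  induction A with
  | zero => simp [rowsP, rowsB]
  | succ A ih =>
    rw [rowsB, ← ih, rowsP, Finset.sum_range_succ, eval_add, ← rowsP, ones_eq hs, Finset.sum_mul]
    congr 1
    rw [eval_finsetSum]
    refine Finset.sum_congr rfl fun c _ => ?_
    rw [eval_monomial, one_mul, ← pow_mul, ← pow_add, mul_add]
    ring_nf

lemma coeff_rowsP {D : ℕ} {lo hi : ℕ → ℕ} (hhi : ∀ a, hi a < D) (A n : ℕ) :
    (rowsP D lo hi A).coeff n =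
      if n / D < A ∧ lo (n / D) ≤ n % D ∧ n % D ≤ hi (n / D) then 1 else 0 := by
  have hD : 0 < D := lt_of_le_of_lt (Nat.zero_le _) (hhi 0)
  simp only [rowsP, finsetSum_coeff, coeff_monomial]
  have hterm : ∀ a c, c ∈ Ico (lo a) (hi a + 1) →
      (if a * D + c = n then (1 : ℕ) else 0) = if a = n / D ∧ c = n % D then 1 else 0 := by
    intro a c hc
    have hcD : c < D := by
      have := (mem_Ico.1 hc).2
      have := hhi a
      omega
    congr 1
    apply propext
    constructor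
    · rintro rfl
      constructor
      · rw [Nat.add_comm, Nat.add_mul_div_right _ _ hD, Nat.div_eq_of_lt hcD, zero_add]
      · rw [Nat.add_comm, Nat.add_mul_mod_self_right, Nat.mod_eq_of_lt hcD]
    · rintro ⟨rfl, rfl⟩
      rw [Nat.mul_comm]
      exact Nat.div_add_mod n D
  rw [Finset.sum_congr rfl fun a _ => Finset.sum_congr rfl fun c hc => hterm a c hc]
  by_cases h : n / D < A ∧ lo (n / D) ≤ n % D ∧ n % D ≤ hi (n / D)
  · rw [if_pos h, Finset.sum_eq_single (n / D)]
    · rw [Finset.sum_eq_single (n % D)]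
      · simp
      · intro c _ hc
        simp [hc]
      · intro hh
        exact absurd (mem_Ico.2 ⟨h.2.1, by omega⟩) hh
    · intro a _ ha
      refine Finset.sum_eq_zero fun c _ => ?_
      simp [ha]
    · intro hh
      exact absurd (mem_range.2 h.1) hh
  · rw [if_neg h]
    refine Finset.sum_eq_zero fun a ha => Finset.sum_eq_zero fun c hc => ?_
    rw [if_neg]
    rintro ⟨rfl, rfl⟩
    exact h ⟨mem_range.1 ha, (mem_Ico.1 hc).1, by have := (mem_Ico.1 hc).2; omega⟩

/-- (D5) the digits of a mask -/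
lemma dg_rowsB {s D : ℕ} (hs : 0 < s) {lo hi : ℕ → ℕ} (hhi : ∀ a, hi a < D) (A n : ℕ) :
    dg s (rowsB s D lo hi A) n =
      if n / D < A ∧ lo (n / D) ≤ n % D ∧ n % D ≤ hi (n / D) then 1 else 0 := by
  rw [← eval_rowsP hs, dg_eval, coeff_rowsP hhi]
  intro j
  rw [coeff_rowsP hhi]
  have : 1 < 2 ^ s := Nat.one_lt_two_pow hs.ne'
  split_ifs <;> omega

lemma dg_ones {s : ℕ} (hs : 0 < s) (lo hi n : ℕ) :
    dg s (ones s lo hi) n = if lo ≤ n ∧ n ≤ hi then 1 else 0 := by
  have h : ones s lo hi = (∑ c ∈ Ico lo (hi + 1), monomial c 1 : ℕ[X]).eval (2 ^ s) := by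
    rw [ones_eq hs, eval_finsetSum]
    refine Finset.sum_congr rfl fun c _ => ?_
    rw [eval_monomial, one_mul, pow_mul]
  have hco : ∀ n, (∑ c ∈ Ico lo (hi + 1), monomial c 1 : ℕ[X]).coeff n =
      if lo ≤ n ∧ n ≤ hi then 1 else 0 := by
    intro n
    simp only [finsetSum_coeff, coeff_monomial]
    rw [Finset.sum_ite_eq' (Ico lo (hi + 1)) n]
    simp only [mem_Ico]
    congr 1
    apply propext
    omega
  rw [h, dg_eval, hco]
  intro j
  rw [hco]
  have : 1 < 2 ^ s := Nat.one_lt_two_pow hs.ne'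
  split_ifs <;> omega

/-! ### The regions -/

/-- the first column of row `a` of the hexagon -/
def hexLo (L a : ℕ) : ℕ := if a < L then 1 else if a < 2 * L then L else a - L

/-- the last column of row `a` of the hexagon -/
def hexHi (L a : ℕ) : ℕ := if a < L then 0 else if a < 2 * L then L + a else 3 * L

/-- the first column of row `a` of the far part -/
def farLo (L a : ℕ) : ℕ := if a < L then L else L + a + 1

/-- the hexagon: `|a - 2L|, |c - 2L|, |a - c| ≤ L` -/
def InHex (L a c : ℕ) : Prop :=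
  L ≤ a ∧ a ≤ 3 * L ∧ L ≤ c ∧ c ≤ 3 * L ∧ a ≤ c + L ∧ c ≤ a + L

instance (L a c : ℕ) : Decidable (InHex L a c) := by unfold InHex; infer_instance

/-- the far part: `x₁` tiny -/
def InFar (L a c : ℕ) : Prop :=
  a < 2 * L ∧ L ≤ c ∧ c ≤ 3 * L ∧ (L ≤ a → L + a < c)

instance (L a c : ℕ) : Decidable (InFar L a c) := by unfold InFar; infer_instance

lemma hex_iff {L a c : ℕ} :
    (a / 1 = a ∧ a < 3 * L + 1 ∧ hexLo L a ≤ c ∧ c ≤ hexHi L a) ↔ InHex L a c := by
  unfold hexLo hexHi InHex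
  split_ifs <;> omega

lemma far_iff {L a c : ℕ} :
    (a < 2 * L ∧ farLo L a ≤ c ∧ c ≤ 3 * L) ↔ InFar L a c := by
  unfold farLo InFar
  split_ifs <;> omega

/-! ### The context and one stage -/

/-- the data of a run: slots of `s` bits, masses over `2 ^ p`, half width `L`, row length `D` -/
structure Ctx where
  s : ℕ
  p : ℕ
  L : ℕ
  D : ℕ
  S : ℕ
  Y1 : ℕ
  ZM1 : ℕ
  shI : ℕ
  shE : ℕ
  hexM : ℕ
  farM : ℕ
  edgeM : ℕ
  winM : ℕ
  win1M : ℕ

/-- the mask of the hexagon -/
def hexB (s L D : ℕ) : ℕ := rowsB s D (hexLo L) (hexHi L) (3 * L + 1)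

/-- the mask of the far part -/
def farB (s L D : ℕ) : ℕ := rowsB s D (farLo L) (fun _ => 3 * L) (2 * L)

/-- the mask of the window -/
def winB (s L D : ℕ) : ℕ := rowsB s D (fun _ => 0) (fun _ => 2 * L) (2 * L + 1)

/-- The context: the masks are computed once. -/
def mkCtx (s p L D : ℕ) : Ctx where
  s := s
  p := p
  L := L
  D := D
  S := 2 ^ p
  Y1 := 2 ^ s - 1
  ZM1 := (2 ^ s) ^ D - 1
  shI := s * (L * D + L) + p
  shE := s * L + p
  hexM := (2 ^ s - 2 ^ p) * hexB s L D
  farM := (2 ^ s - 1) * farB s L D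
  edgeM := (2 ^ s - 2 ^ p) * ones s L (3 * L)
  winM := (2 ^ s - 2 ^ p) * winB s L D
  win1M := (2 ^ s - 2 ^ p) * ones s 0 (2 * L)

/-- A state: `N` in the window and `E`, with mass at most `1`, an edge atom counted twice. -/
structure Good (s p L D N E : ℕ) : Prop where
  supp : ∀ u v, v < D → dg s N (u * D + v) ≠ 0 → u ≤ 2 * L ∧ v ≤ 2 * L
  suppE : ∀ n, dg s E n ≠ 0 → n ≤ 2 * L
  mass : tot s N + 2 * tot s E ≤ 2 ^ p

/-- The star of two states, rounded to the window: see `stage_spec`. -/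
def stage (C : Ctx) (N E N' E' : ℕ) : ℕ × ℕ :=
  let P := N * N'
  let I := (P &&& C.hexM) >>> C.shI
  let far := (P &&& C.farM) % C.ZM1
  let m := N % C.ZM1
  let m' := N' % C.ZM1
  let Q := E * (m' + E') + m * E'
  let F := ((far + Q) &&& C.edgeM) >>> C.shE
  let T := I % C.Y1 + 2 * (F % C.Y1)
  if T ≤ C.S then (I, F) else (0, 0)

/-- A constant factor: the digits `⌊c * e / 2 ^ p⌋`. -/
def mulC (C : Ctx) (e N E : ℕ) : ℕ × ℕ :=
  (((e * N) &&& C.winM) >>> C.p, ((e * E) &&& C.win1M) >>> C.p)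

/-- The digitwise sum of two states, if it is a state. -/
def addS (C : Ctx) (N E N' E' : ℕ) : ℕ × ℕ :=
  let I := N + N'
  let F := E + E'
  if I % C.Y1 + 2 * (F % C.Y1) ≤ C.S then (I, F) else (0, 0)

/-- The unit: all the mass at the origin of the chart. -/
def unitS (C : Ctx) : ℕ × ℕ := (C.S * 2 ^ (C.s * (C.L * C.D + C.L)), 0)

/-! ### The digits of a product of arrays -/

/-- the value of the array at row `u` and column `v` -/
def ar (s D N u v : ℕ) : ℕ := dg s N (u * D + v)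

/-- the convolution of two arrays in the window -/
def conv2 (s L D N N' a c : ℕ) : ℕ :=
  ∑ u₁ ∈ range (2 * L + 1), ∑ v₁ ∈ range (2 * L + 1), ∑ u₂ ∈ range (2 * L + 1),
    ∑ v₂ ∈ range (2 * L + 1),
      if u₁ + u₂ = a ∧ v₁ + v₂ = c then ar s D N u₁ v₁ * ar s D N' u₂ v₂ else 0

/-- the column marginal of an array -/
def marg (s L D N v : ℕ) : ℕ := ∑ u ∈ range (2 * L + 1), ar s D N u v

/-- the convolution of the edge arrays, with the marginals -/
def convE (s L D N E N' E' c : ℕ) : ℕ :=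
  ∑ v₁ ∈ range (2 * L + 1), ∑ v₂ ∈ range (2 * L + 1),
    if v₁ + v₂ = c then
      dg s E v₁ * (marg s L D N' v₂ + dg s E' v₂) + marg s L D N v₁ * dg s E' v₂
    else 0

/-- the mass that goes from the far part to the column `c` of the edge array -/
def farSum (s L D N N' c : ℕ) : ℕ :=
  ∑ a ∈ range (2 * L), if InFar L a c then conv2 s L D N N' a c else 0

section Window

variable {s L D N N' a c : ℕ}

lemma eq_div_mod_iff (hc : c < D) {n : ℕ} : a * D + c = n ↔ a = n / D ∧ c = n % D := by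
  have hD : 0 < D := lt_of_le_of_lt (Nat.zero_le _) hc
  constructor
  · rintro rfl
    constructor
    · rw [Nat.add_comm, Nat.add_mul_div_right _ _ hD, Nat.div_eq_of_lt hc, zero_add]
    · rw [Nat.add_comm, Nat.add_mul_mod_self_right, Nat.mod_eq_of_lt hc]
  · rintro ⟨rfl, rfl⟩
    rw [Nat.mul_comm]
    exact Nat.div_add_mod n D

lemma digP_window (hs : 0 < s) (hD : 2 * L < D)
    (h : ∀ u v, v < D → dg s N (u * D + v) ≠ 0 → u ≤ 2 * L ∧ v ≤ 2 * L) :
    digP s N = ∑ u ∈ range (2 * L + 1), ∑ v ∈ range (2 * L + 1),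
      monomial (u * D + v) (ar s D N u v) := by
  ext n
  have hD0 : 0 < D := lt_of_le_of_lt (Nat.zero_le _) hD
  simp only [finsetSum_coeff, coeff_monomial, coeff_digP hs]
  have hterm : ∀ u ∈ range (2 * L + 1), ∀ v ∈ range (2 * L + 1),
      (if u * D + v = n then ar s D N u v else 0) =
        if u = n / D ∧ v = n % D then ar s D N u v else 0 := by
    intro u _ v hv
    have hvD : v < D := by have := mem_range.1 hv; omega
    simp only [eq_div_mod_iff hvD]
  rw [Finset.sum_congr rfl fun u hu => Finset.sum_congr rfl fun v hv => hterm u hu v hv]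
  have hn : n / D * D + n % D = n := by rw [Nat.mul_comm]; exact Nat.div_add_mod n D
  have hvD : n % D < D := Nat.mod_lt _ hD0
  by_cases hin : n / D ≤ 2 * L ∧ n % D ≤ 2 * L
  · rw [Finset.sum_eq_single (n / D)]
    · rw [Finset.sum_eq_single (n % D)]
      · simp [ar, hn]
      · intro v _ hv
        simp [hv]
      · intro hh
        exact absurd (mem_range.2 (by omega)) hh
    · intro u _ hu
      refine Finset.sum_eq_zero fun v _ => ?_
      simp [hu]
    · intro hh
      exact absurd (mem_range.2 (by omega)) hh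
  · have h0 : dg s N n = 0 := by
      by_contra hne
      rw [← hn] at hne
      exact hin (h _ _ hvD hne)
    rw [h0, Finset.sum_eq_zero]
    intro u hu
    refine Finset.sum_eq_zero fun v hv => ?_
    rw [if_neg]
    rintro ⟨rfl, rfl⟩
    exact hin ⟨by have := mem_range.1 hu; omega, by have := mem_range.1 hv; omega⟩

lemma digP_edge {E : ℕ} (hs : 0 < s) (h : ∀ n, dg s E n ≠ 0 → n ≤ 2 * L) :
    digP s E = ∑ v ∈ range (2 * L + 1), monomial v (dg s E v) := by
  ext n
  simp only [finsetSum_coeff, coeff_monomial, coeff_digP hs]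
  rw [Finset.sum_ite_eq' (range (2 * L + 1)) n]
  split_ifs with hn
  · rfl
  · by_contra hne
    exact hn (mem_range.2 (by have := h n hne; omega))

lemma sum4_comm (R : Finset ℕ) (F : ℕ → ℕ → ℕ → ℕ → ℕ) :
    ∑ x ∈ R, ∑ y ∈ R, ∑ z ∈ R, ∑ w ∈ R, F x y z w = ∑ z ∈ R, ∑ w ∈ R, ∑ x ∈ R, ∑ y ∈ R, F x y z w := by
  calc ∑ x ∈ R, ∑ y ∈ R, ∑ z ∈ R, ∑ w ∈ R, F x y z w
      = ∑ x ∈ R, ∑ z ∈ R, ∑ y ∈ R, ∑ w ∈ R, F x y z w :=
        Finset.sum_congr rfl fun x _ => Finset.sum_comm
    _ = ∑ z ∈ R, ∑ x ∈ R, ∑ y ∈ R, ∑ w ∈ R, F x y z w := Finset.sum_comm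
    _ = ∑ z ∈ R, ∑ x ∈ R, ∑ w ∈ R, ∑ y ∈ R, F x y z w :=
        Finset.sum_congr rfl fun z _ => Finset.sum_congr rfl fun x _ => Finset.sum_comm
    _ = ∑ z ∈ R, ∑ w ∈ R, ∑ x ∈ R, ∑ y ∈ R, F x y z w :=
        Finset.sum_congr rfl fun z _ => Finset.sum_comm

/-- (D2) the digits of a product of two arrays -/
lemma dg_mul_window (hs : 0 < s) (hD : 4 * L < D)
    (h : ∀ u v, v < D → dg s N (u * D + v) ≠ 0 → u ≤ 2 * L ∧ v ≤ 2 * L)
    (h' : ∀ u v, v < D → dg s N' (u * D + v) ≠ 0 → u ≤ 2 * L ∧ v ≤ 2 * L)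
    (hm : tot s N * tot s N' < 2 ^ s) (hc : c < D) :
    dg s (N * N') (a * D + c) = conv2 s L D N N' a c := by
  rw [← coeff_digP hs, digP_mul hs hm, digP_window hs (by omega) h, digP_window hs (by omega) h']
  simp only [conv2, Finset.sum_mul, Finset.mul_sum, monomial_mul_monomial, finsetSum_coeff,
    coeff_monomial]
  rw [sum4_comm]
  refine Finset.sum_congr rfl fun u₁ _ => Finset.sum_congr rfl fun v₁ hv₁ =>
    Finset.sum_congr rfl fun u₂ _ => Finset.sum_congr rfl fun v₂ hv₂ => ?_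
  have h1 : v₁ + v₂ < D := by
    have := mem_range.1 hv₁
    have := mem_range.1 hv₂
    omega
  have e : u₁ * D + v₁ + (u₂ * D + v₂) = (u₁ + u₂) * D + (v₁ + v₂) := by ring
  have h2 := (eq_div_mod_iff (a := a) hc (n := a * D + c)).1 rfl
  rw [e]
  by_cases hh : u₁ + u₂ = a ∧ v₁ + v₂ = c
  · rw [if_pos hh, if_pos]
    rw [hh.1, hh.2]
  · rw [if_neg hh, if_neg]
    intro he
    have h3 := (eq_div_mod_iff h1).1 he
    exact hh ⟨h3.1.trans h2.1.symm, h3.2.trans h2.2.symm⟩

/-- (D2) the digits of a product of two edge arrays -/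
lemma dg_mul_edge {A B : ℕ} (hs : 0 < s)
    (h : ∀ n, dg s A n ≠ 0 → n ≤ 2 * L) (h' : ∀ n, dg s B n ≠ 0 → n ≤ 2 * L)
    (hm : tot s A * tot s B < 2 ^ s) (c : ℕ) :
    dg s (A * B) c = ∑ v₁ ∈ range (2 * L + 1), ∑ v₂ ∈ range (2 * L + 1),
      if v₁ + v₂ = c then dg s A v₁ * dg s B v₂ else 0 := by
  rw [← coeff_digP hs, digP_mul hs hm, digP_edge hs h, digP_edge hs h']
  simp only [Finset.sum_mul, Finset.mul_sum, monomial_mul_monomial, finsetSum_coeff, coeff_monomial]
  rw [Finset.sum_comm]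

/-! ### Masks at a position -/

lemma hexHi_lt (hD : 4 * L < D) (a : ℕ) : hexHi L a < D := by
  unfold hexHi
  split_ifs <;> omega

lemma div_pos_eq (hc : c < D) : (a * D + c) / D = a :=
  ((eq_div_mod_iff (a := a) hc (n := a * D + c)).1 rfl).1.symm

lemma mod_pos_eq (hc : c < D) : (a * D + c) % D = c :=
  ((eq_div_mod_iff (a := a) hc (n := a * D + c)).1 rfl).2.symm

lemma dg_hexB (hs : 0 < s) (hD : 4 * L < D) (hc : c < D) :
    dg s (hexB s L D) (a * D + c) = if InHex L a c then 1 else 0 := by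
  rw [hexB, dg_rowsB hs (hexHi_lt hD), div_pos_eq hc, mod_pos_eq hc]
  by_cases h : InHex L a c
  · rw [if_pos h, if_pos]
    exact ((hex_iff (a := a)).2 h).2
  · rw [if_neg h, if_neg]
    intro h1
    exact h ((hex_iff (a := a)).1 ⟨by simp, h1⟩)

lemma dg_hexB_le (hs : 0 < s) (hD : 4 * L < D) (n : ℕ) : dg s (hexB s L D) n ≤ 1 := by
  rw [hexB, dg_rowsB hs (hexHi_lt hD)]
  split_ifs <;> omega

lemma dg_farB (hs : 0 < s) (hD : 4 * L < D) (hc : c < D) :
    dg s (farB s L D) (a * D + c) = if InFar L a c then 1 else 0 := by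
  rw [farB, dg_rowsB hs (fun _ => by omega), div_pos_eq hc, mod_pos_eq hc]
  by_cases h : InFar L a c
  · rw [if_pos h, if_pos]
    exact (far_iff (a := a)).2 h
  · rw [if_neg h, if_neg]
    intro h1
    exact h ((far_iff (a := a)).1 h1)

lemma dg_farB_le (hs : 0 < s) (hD : 4 * L < D) (n : ℕ) : dg s (farB s L D) n ≤ 1 := by
  rw [farB, dg_rowsB hs (fun _ => by omega)]
  split_ifs <;> omega

lemma dg_winB (hs : 0 < s) (hD : 4 * L < D) (hc : c < D) :
    dg s (winB s L D) (a * D + c) = if a ≤ 2 * L ∧ c ≤ 2 * L then 1 else 0 := by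
  rw [winB, dg_rowsB hs (fun _ => by omega), div_pos_eq hc, mod_pos_eq hc]
  by_cases h : a ≤ 2 * L ∧ c ≤ 2 * L
  · rw [if_pos h, if_pos]
    omega
  · rw [if_neg h, if_neg]
    omega

lemma dg_winB_le (hs : 0 < s) (hD : 4 * L < D) (n : ℕ) : dg s (winB s L D) n ≤ 1 := by
  rw [winB, dg_rowsB hs (fun _ => by omega)]
  split_ifs <;> omega

lemma dg_ones_le (hs : 0 < s) (lo hi n : ℕ) : dg s (ones s lo hi) n ≤ 1 := by
  rw [dg_ones hs]
  split_ifs <;> omega

/-- The hexagon, floored and shifted. -/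
lemma dg_hex_floor {p : ℕ} (hs : 0 < s) (hps : p ≤ s) (hp0 : 0 < p) (hD : 4 * L < D) (P u : ℕ)
    {v : ℕ} (hv : v < D) :
    dg s ((P &&& ((2 ^ s - 2 ^ p) * hexB s L D)) >>> (s * (L * D + L) + p)) (u * D + v) =
      if InHex L (u + L) (v + L) then dg s P ((u + L) * D + (v + L)) / 2 ^ p else 0 := by
  rw [dg_floor_mask hs hps hp0 (dg_hexB_le hs hD)]
  have e : u * D + v + (L * D + L) = (u + L) * D + (v + L) := by ring
  rw [e]
  by_cases hc : v + L < D
  · rw [dg_hexB hs hD hc]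
    split_ifs <;> simp
  · have hne : ¬ InHex L (u + L) (v + L) := by
      unfold InHex
      omega
    rw [if_neg hne]
    have e2 : (u + L) * D + (v + L) = (u + L + 1) * D + (v + L - D) := by
      have : v + L = D + (v + L - D) := by omega
      conv_lhs => rw [this]
      ring
    rw [e2, dg_hexB hs hD (by omega), if_neg]
    · simp
    · unfold InHex
      omega

end Window

section Stage

variable {s p L D N E N' E' : ℕ}

lemma big_of_le (h : 2 * p + 4 ≤ s) : 16 * (2 ^ p * 2 ^ p) ≤ 2 ^ s := by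
  calc 16 * (2 ^ p * 2 ^ p) = 2 ^ (2 * p + 4) := by ring
    _ ≤ 2 ^ s := Nat.pow_le_pow_right (by norm_num) h

lemma Good.rows (h : Good s p L D N E) (hD : 4 * L < D) (n : ℕ) (hn : dg s N n ≠ 0) :
    n < (2 * L + 1) * D := by
  have hD0 : 0 < D := by omega
  have e : n / D * D + n % D = n := by rw [Nat.mul_comm]; exact Nat.div_add_mod n D
  rw [← e] at hn
  have h1 := h.supp _ _ (Nat.mod_lt n hD0) hn
  have h2 : n / D < 2 * L + 1 := by omega
  exact (Nat.div_lt_iff_lt_mul hD0).1 h2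

lemma small_lt (hp : 2 * p + 4 ≤ s) {t : ℕ} (h : t ≤ 8 * (2 ^ p * 2 ^ p)) : t < 2 ^ s - 1 := by
  have hbig := big_of_le hp
  have hA : 1 ≤ 2 ^ p * 2 ^ p := Nat.mul_pos (by positivity) (by positivity)
  generalize 2 ^ p * 2 ^ p = A at *
  generalize 2 ^ s = Y at *
  omega

lemma S_le_sq (p : ℕ) : 2 ^ p ≤ 2 ^ p * 2 ^ p := Nat.le_mul_of_pos_left _ (by positivity)

lemma Good.tot_le (h : Good s p L D N E) : tot s N ≤ 2 ^ p := by
  have := h.mass
  omega

lemma Good.totE_le (h : Good s p L D N E) : tot s E ≤ 2 ^ p := by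
  have := h.mass
  omega

/-- the digits of the marginal -/
lemma dg_marg (h : Good s p L D N E) (hp : 2 * p + 4 ≤ s) (hD : 4 * L < D) {v : ℕ} (hv : v < D) :
    dg s (N % ((2 ^ s) ^ D - 1)) v = marg s L D N v := by
  have hs : 0 < s := by omega
  have ht : tot s N < 2 ^ s - 1 :=
    small_lt hp (by have := h.tot_le; have := S_le_sq p; omega)
  exact dg_mod_rows (by omega) hs ht (h.rows hD) hv

lemma tot_marg (h : Good s p L D N E) (hp : 2 * p + 4 ≤ s) (hD : 4 * L < D) :
    tot s (N % ((2 ^ s) ^ D - 1)) = tot s N := by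
  have hs : 0 < s := by omega
  have ht : tot s N < 2 ^ s - 1 :=
    small_lt hp (by have := h.tot_le; have := S_le_sq p; omega)
  exact tot_mod_rows (by omega) hs ht

/-- the support of the marginal -/
lemma supp_marg (h : Good s p L D N E) (hp : 2 * p + 4 ≤ s) (hD : 4 * L < D) (v : ℕ)
    (hne : dg s (N % ((2 ^ s) ^ D - 1)) v ≠ 0) : v ≤ 2 * L := by
  have hs : 0 < s := by omega
  have ht : tot s N < 2 ^ s - 1 :=
    small_lt hp (by have := h.tot_le; have := S_le_sq p; omega)
  by_cases hv : v < D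
  · rw [dg_marg h hp hD hv] at hne
    obtain ⟨u, _, hu⟩ := Finset.exists_ne_zero_of_sum_ne_zero hne
    exact (h.supp u v hv hu).2
  · exact absurd (dg_mod_rows_of_ge (by omega) hs ht (by omega)) hne

/-- the digits of the far part -/
lemma dg_far (hA : Good s p L D N E) (hB : Good s p L D N' E') (hp : 2 * p + 4 ≤ s)
    (hD : 4 * L < D) {v : ℕ} (hv : v < D) :
    dg s ((N * N' &&& ((2 ^ s - 1) * farB s L D)) % ((2 ^ s) ^ D - 1)) v =
      farSum s L D N N' v := by
  have hs : 0 < s := by omega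
  have hD0 : 0 < D := by omega
  have hm : tot s N * tot s N' ≤ 2 ^ p * 2 ^ p := Nat.mul_le_mul hA.tot_le hB.tot_le
  have hm2 : tot s N * tot s N' < 2 ^ s :=
    lt_of_lt_of_le (small_lt hp (t := tot s N * tot s N') (by omega)) (Nat.sub_le _ _)
  have hPF : ∀ n, dg s (N * N' &&& ((2 ^ s - 1) * farB s L D)) n = dg s (N * N') n * dg s (farB s L D) n :=
    fun n => dg_and_ones hs (dg_farB_le hs hD) _ n
  have htP : tot s (N * N') = tot s N * tot s N' := tot_mul hs hm2
  have htF : tot s (N * N' &&& ((2 ^ s - 1) * farB s L D)) ≤ tot s (N * N') :=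
    tot_le_of_dg_le hs (t := 0) (fun n => by
      rw [hPF, add_zero]
      calc _ ≤ dg s (N * N') n * 1 := Nat.mul_le_mul_left _ (dg_farB_le hs hD n)
        _ = _ := mul_one _)
  have ht : tot s (N * N' &&& ((2 ^ s - 1) * farB s L D)) < 2 ^ s - 1 :=
    small_lt hp (by omega)
  rw [dg_mod_rows hD0 hs ht (U := 2 * L) (fun n hn => ?_) hv]
  · unfold farSum
    refine Finset.sum_congr rfl fun a _ => ?_
    rw [hPF, dg_farB hs hD hv, dg_mul_window hs hD hA.supp hB.supp hm2 hv]
    split_ifs <;> simp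
  · rw [hPF] at hn
    have h1 : dg s (farB s L D) n ≠ 0 := right_ne_zero_of_mul hn
    rw [farB, dg_rowsB hs (fun _ => by omega)] at h1
    have h2 : n / D < 2 * L := by
      by_contra h3
      exact h1 (if_neg fun h4 => h3 h4.1)
    exact (Nat.div_lt_iff_lt_mul hD0).1 h2

/-- the digits of the star of the edge arrays -/
lemma dg_Q (hA : Good s p L D N E) (hB : Good s p L D N' E') (hp : 2 * p + 4 ≤ s)
    (hD : 4 * L < D) (c : ℕ) :
    dg s (E * (N' % ((2 ^ s) ^ D - 1) + E') + (N % ((2 ^ s) ^ D - 1)) * E') c =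
      convE s L D N E N' E' c ∧
    tot s (E * (N' % ((2 ^ s) ^ D - 1) + E') + (N % ((2 ^ s) ^ D - 1)) * E') ≤
      2 ^ p * 2 ^ p + 2 ^ p * 2 ^ p := by
  have hs : 0 < s := by omega
  set m := N % ((2 ^ s) ^ D - 1) with hm
  set m' := N' % ((2 ^ s) ^ D - 1) with hm'
  have htm : tot s m = tot s N := tot_marg hA hp hD
  have htm' : tot s m' = tot s N' := tot_marg hB hp hD
  have h1 : tot s m' + tot s E' ≤ 2 ^ p := by
    have := hB.mass
    omega
  have hE1 : tot s E * (tot s m' + tot s E') ≤ 2 ^ p * 2 ^ p :=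
    Nat.mul_le_mul hA.totE_le h1
  have hE2 : tot s m * tot s E' ≤ 2 ^ p * 2 ^ p :=
    Nat.mul_le_mul (by rw [htm]; exact hA.tot_le) hB.totE_le
  have hlt : ∀ t, t ≤ 8 * (2 ^ p * 2 ^ p) → t < 2 ^ s := fun t ht =>
    lt_of_lt_of_le (small_lt hp ht) (Nat.sub_le _ _)
  have hS := S_le_sq p
  have hadd : tot s m' + tot s E' < 2 ^ s := hlt _ (by omega)
  have htadd : tot s (m' + E') = tot s m' + tot s E' := tot_add hs hadd
  have hmul1 : tot s E * tot s (m' + E') < 2 ^ s := by
    rw [htadd]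
    exact hlt _ (by omega)
  have hmul2 : tot s m * tot s E' < 2 ^ s := hlt _ (by omega)
  have htm1 : tot s (E * (m' + E')) = tot s E * (tot s m' + tot s E') := by
    rw [tot_mul hs hmul1, htadd]
  have htm2 : tot s (m * E') = tot s m * tot s E' := tot_mul hs hmul2
  have hadd2 : tot s (E * (m' + E')) + tot s (m * E') < 2 ^ s := by
    rw [htm1, htm2]
    exact hlt _ (by omega)
  constructor
  · rw [dg_add hs hadd2]
    have hsuppS : ∀ n, dg s (m' + E') n ≠ 0 → n ≤ 2 * L := fun n hn => by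
      rw [dg_add hs hadd] at hn
      by_cases h0 : dg s m' n = 0
      · rw [h0, zero_add] at hn
        exact hB.suppE n hn
      · exact supp_marg hB hp hD n h0
    rw [dg_mul_edge hs hA.suppE hsuppS hmul1, dg_mul_edge hs (supp_marg hA hp hD) hB.suppE hmul2]
    unfold convE
    rw [← Finset.sum_add_distrib]
    refine Finset.sum_congr rfl fun v₁ hv₁ => ?_
    rw [← Finset.sum_add_distrib]
    refine Finset.sum_congr rfl fun v₂ hv₂ => ?_
    have hv1 : v₁ < D := by have := mem_range.1 hv₁; omega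
    have hv2 : v₂ < D := by have := mem_range.1 hv₂; omega
    rw [dg_add hs hadd, dg_marg hA hp hD hv1, dg_marg hB hp hD hv2]
    split_ifs <;> simp
  · rw [tot_add hs hadd2, htm1, htm2]
    omega

lemma good_zero (hs : 0 < s) : Good s p L D 0 0 where
  supp := by simp
  suppE := by simp
  mass := by simp [tot_zero s hs]

/-- (D6) One stage: the result is a state, and it is `(0, 0)` or has exactly these digits. -/
theorem stage_spec (hA : Good s p L D N E) (hB : Good s p L D N' E') (hp : 2 * p + 4 ≤ s)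
    (hp0 : 0 < p) (hD : 4 * L < D) :
    Good s p L D (stage (mkCtx s p L D) N E N' E').1 (stage (mkCtx s p L D) N E N' E').2 ∧
    (stage (mkCtx s p L D) N E N' E' = (0, 0) ∨
      ((∀ u v, v < D → dg s (stage (mkCtx s p L D) N E N' E').1 (u * D + v) =
          if InHex L (u + L) (v + L) then conv2 s L D N N' (u + L) (v + L) / 2 ^ p else 0) ∧
       (∀ v, dg s (stage (mkCtx s p L D) N E N' E').2 v =
          if v ≤ 2 * L then
            (farSum s L D N N' (v + L) + convE s L D N E N' E' (v + L)) / 2 ^ p else 0))) := by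
  have hs : 0 < s := by omega
  have hps : p ≤ s := by omega
  have hD0 : 0 < D := by omega
  have hm : tot s N * tot s N' ≤ 2 ^ p * 2 ^ p := Nat.mul_le_mul hA.tot_le hB.tot_le
  have hS := S_le_sq p
  have hlt : ∀ t, t ≤ 8 * (2 ^ p * 2 ^ p) → t < 2 ^ s := fun t ht =>
    lt_of_lt_of_le (small_lt hp ht) (Nat.sub_le _ _)
  have hm2 : tot s N * tot s N' < 2 ^ s := hlt _ (by omega)
  have htP : tot s (N * N') = tot s N * tot s N' := tot_mul hs hm2
  set P := N * N' with hP
  set I := (P &&& ((2 ^ s - 2 ^ p) * hexB s L D)) >>> (s * (L * D + L) + p) with hI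
  set far := (P &&& ((2 ^ s - 1) * farB s L D)) % ((2 ^ s) ^ D - 1) with hfar
  set Q := E * (N' % ((2 ^ s) ^ D - 1) + E') + (N % ((2 ^ s) ^ D - 1)) * E' with hQ
  set F := ((far + Q) &&& ((2 ^ s - 2 ^ p) * ones s L (3 * L))) >>> (s * L + p) with hF
  have hst : stage (mkCtx s p L D) N E N' E' =
      if I % (2 ^ s - 1) + 2 * (F % (2 ^ s - 1)) ≤ 2 ^ p then (I, F) else (0, 0) := rfl
  -- digits of `I`
  have hIdg : ∀ u v, v < D → dg s I (u * D + v) =
      if InHex L (u + L) (v + L) then conv2 s L D N N' (u + L) (v + L) / 2 ^ p else 0 := by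
    intro u v hv
    rw [hI, dg_hex_floor hs hps hp0 hD P u hv]
    by_cases h : InHex L (u + L) (v + L)
    · rw [if_pos h, if_pos h, hP, dg_mul_window hs hD hA.supp hB.supp hm2]
      unfold InHex at h
      omega
    · rw [if_neg h, if_neg h]
  have hIle : ∀ n, dg s I n ≤ dg s P (n + (L * D + L)) := by
    intro n
    rw [hI, dg_floor_mask hs hps hp0 (dg_hexB_le hs hD)]
    calc _ ≤ dg s P (n + (L * D + L)) / 2 ^ p * 1 :=
          Nat.mul_le_mul_left _ (dg_hexB_le hs hD _)
      _ ≤ _ := by rw [mul_one]; exact Nat.div_le_self _ _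
  have htI : tot s I ≤ 2 ^ p * 2 ^ p := by
    have := tot_le_of_dg_le hs hIle
    omega
  -- digits of `F`
  have hQd := dg_Q hA hB hp hD
  have htPF : tot s (P &&& ((2 ^ s - 1) * farB s L D)) ≤ tot s P :=
    tot_le_of_dg_le hs (t := 0) (fun n => by
      rw [dg_and_ones hs (dg_farB_le hs hD), add_zero]
      calc _ ≤ dg s P n * 1 := Nat.mul_le_mul_left _ (dg_farB_le hs hD n)
        _ = _ := mul_one _)
  have htfar : tot s far ≤ 2 ^ p * 2 ^ p := by
    rw [hfar, tot_mod_rows hD0 hs (small_lt hp (by omega))]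
    omega
  have htQ : tot s Q ≤ 2 ^ p * 2 ^ p + 2 ^ p * 2 ^ p := (hQd 0).2
  have hadd : tot s far + tot s Q < 2 ^ s := hlt _ (by omega)
  have hFdg : ∀ v, dg s F v = if v ≤ 2 * L then
      (farSum s L D N N' (v + L) + convE s L D N E N' E' (v + L)) / 2 ^ p else 0 := by
    intro v
    rw [hF, dg_floor_mask hs hps hp0 (dg_ones_le hs _ _), dg_ones hs]
    by_cases hv : v ≤ 2 * L
    · rw [if_pos hv, if_pos (by omega), mul_one, dg_add hs hadd, (hQd _).1, hfar,
        dg_far hA hB hp hD (by omega)]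
    · rw [if_neg hv, if_neg (by omega), mul_zero]
  have hFle : ∀ n, dg s F n ≤ dg s (far + Q) (n + L) := by
    intro n
    rw [hF, dg_floor_mask hs hps hp0 (dg_ones_le hs _ _)]
    calc _ ≤ dg s (far + Q) (n + L) / 2 ^ p * 1 :=
          Nat.mul_le_mul_left _ (dg_ones_le hs _ _ _)
      _ ≤ _ := by rw [mul_one]; exact Nat.div_le_self _ _
  have htF : tot s F ≤ 3 * (2 ^ p * 2 ^ p) := by
    have h1 := tot_le_of_dg_le hs hFle
    rw [tot_add hs hadd] at h1
    omega
  have hmodI : I % (2 ^ s - 1) = tot s I := mod_pred_eq_tot hs (small_lt hp (by omega))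
  have hmodF : F % (2 ^ s - 1) = tot s F := mod_pred_eq_tot hs (small_lt hp (by omega))
  rw [hst, hmodI, hmodF]
  by_cases hT : tot s I + 2 * tot s F ≤ 2 ^ p
  · rw [if_pos hT]
    refine ⟨⟨fun u v hv hne => ?_, fun n hne => ?_, hT⟩, Or.inr ⟨hIdg, hFdg⟩⟩
    · change dg s I (u * D + v) ≠ 0 at hne
      rw [hIdg u v hv] at hne
      by_cases h : InHex L (u + L) (v + L)
      · unfold InHex at h
        omega
      · rw [if_neg h] at hne
        exact absurd rfl hne
    · change dg s F n ≠ 0 at hne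
      rw [hFdg n] at hne
      by_cases h : n ≤ 2 * L
      · exact h
      · rw [if_neg h] at hne
        exact absurd rfl hne
  · rw [if_neg hT]
    exact ⟨good_zero hs, Or.inl rfl⟩

/-- (D6) A constant factor at most `1`. -/
theorem mulC_spec {e : ℕ} (hA : Good s p L D N E) (he : e ≤ 2 ^ p) (hp : 2 * p + 4 ≤ s)
    (hp0 : 0 < p) (hD : 4 * L < D) :
    Good s p L D (mulC (mkCtx s p L D) e N E).1 (mulC (mkCtx s p L D) e N E).2 ∧
    (∀ u v, v < D → dg s (mulC (mkCtx s p L D) e N E).1 (u * D + v) =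
      if u ≤ 2 * L ∧ v ≤ 2 * L then ar s D N u v * e / 2 ^ p else 0) ∧
    (∀ v, dg s (mulC (mkCtx s p L D) e N E).2 v =
      if v ≤ 2 * L then dg s E v * e / 2 ^ p else 0) := by
  have hs : 0 < s := by omega
  have hps : p ≤ s := by omega
  have hS := S_le_sq p
  have hlt : ∀ t, t ≤ 8 * (2 ^ p * 2 ^ p) → t < 2 ^ s := fun t ht =>
    lt_of_lt_of_le (small_lt hp ht) (Nat.sub_le _ _)
  have hsm : ∀ B n, tot s B ≤ 2 ^ p → e * dg s B n < 2 ^ s := fun B n hB =>
    hlt _ (by
      have : e * dg s B n ≤ 2 ^ p * 2 ^ p :=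
        Nat.mul_le_mul he ((dg_le_tot hs B n).trans hB)
      omega)
  have hdN : ∀ n, dg s (e * N) n = e * dg s N n := dg_smul hs fun n => hsm N n hA.tot_le
  have hdE : ∀ n, dg s (e * E) n = e * dg s E n := dg_smul hs fun n => hsm E n hA.totE_le
  have hfl : ∀ c, e * c / 2 ^ p ≤ c := fun c => by
    rw [Nat.div_le_iff_le_mul_add_pred (by positivity)]
    calc e * c ≤ 2 ^ p * c := Nat.mul_le_mul_right _ he
      _ ≤ _ := Nat.le_add_right _ _
  set I := ((e * N) &&& ((2 ^ s - 2 ^ p) * winB s L D)) >>> (s * 0 + p) with hI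
  set F := ((e * E) &&& ((2 ^ s - 2 ^ p) * ones s 0 (2 * L))) >>> (s * 0 + p) with hF
  have hst : mulC (mkCtx s p L D) e N E = (I, F) := by
    simp only [mulC, mkCtx, hI, hF, mul_zero, zero_add]
  have hIn : ∀ n, dg s I n = e * dg s N n / 2 ^ p * dg s (winB s L D) n := fun n => by
    rw [hI, dg_floor_mask hs hps hp0 (dg_winB_le hs hD), add_zero, hdN]
  have hFn : ∀ n, dg s F n = e * dg s E n / 2 ^ p * dg s (ones s 0 (2 * L)) n := fun n => by
    rw [hF, dg_floor_mask hs hps hp0 (dg_ones_le hs _ _), add_zero, hdE]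
  have hIdg : ∀ u v, v < D → dg s I (u * D + v) =
      if u ≤ 2 * L ∧ v ≤ 2 * L then ar s D N u v * e / 2 ^ p else 0 := fun u v hv => by
    rw [hIn, dg_winB hs hD hv, mul_comm e, ar]
    split_ifs <;> simp
  have hFdg : ∀ v, dg s F v = if v ≤ 2 * L then dg s E v * e / 2 ^ p else 0 := fun v => by
    rw [hFn, dg_ones hs, mul_comm e]
    by_cases h : v ≤ 2 * L
    · rw [if_pos h, if_pos ⟨Nat.zero_le _, h⟩, mul_one]
    · rw [if_neg h, if_neg fun h1 => h h1.2, mul_zero]
  have htI : tot s I ≤ tot s N := tot_le_of_dg_le hs (t := 0) fun n => by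
    rw [hIn, add_zero]
    calc _ ≤ e * dg s N n / 2 ^ p * 1 := Nat.mul_le_mul_left _ (dg_winB_le hs hD _)
      _ ≤ _ := by rw [mul_one]; exact hfl _
  have htF : tot s F ≤ tot s E := tot_le_of_dg_le hs (t := 0) fun n => by
    rw [hFn, add_zero]
    calc _ ≤ e * dg s E n / 2 ^ p * 1 := Nat.mul_le_mul_left _ (dg_ones_le hs _ _ _)
      _ ≤ _ := by rw [mul_one]; exact hfl _
  rw [hst]
  refine ⟨⟨fun u v hv hne => ?_, fun n hne => ?_, ?_⟩, hIdg, hFdg⟩
  · change dg s I (u * D + v) ≠ 0 at hne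
    rw [hIdg u v hv] at hne
    by_cases h : u ≤ 2 * L ∧ v ≤ 2 * L
    · exact h
    · rw [if_neg h] at hne
      exact absurd rfl hne
  · change dg s F n ≠ 0 at hne
    rw [hFdg n] at hne
    by_cases h : n ≤ 2 * L
    · exact h
    · rw [if_neg h] at hne
      exact absurd rfl hne
  · have := hA.mass
    change tot s I + 2 * tot s F ≤ 2 ^ p
    omega

/-- (D6) The sum of two states. -/
theorem addS_spec (hA : Good s p L D N E) (hB : Good s p L D N' E') (hp : 2 * p + 4 ≤ s) :
    Good s p L D (addS (mkCtx s p L D) N E N' E').1 (addS (mkCtx s p L D) N E N' E').2 ∧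
    (addS (mkCtx s p L D) N E N' E' = (0, 0) ∨
      ((∀ n, dg s (addS (mkCtx s p L D) N E N' E').1 n = dg s N n + dg s N' n) ∧
       (∀ n, dg s (addS (mkCtx s p L D) N E N' E').2 n = dg s E n + dg s E' n))) := by
  have hs : 0 < s := by omega
  have hS := S_le_sq p
  have hlt : ∀ t, t ≤ 8 * (2 ^ p * 2 ^ p) → t < 2 ^ s := fun t ht =>
    lt_of_lt_of_le (small_lt hp ht) (Nat.sub_le _ _)
  have h1 : tot s N + tot s N' < 2 ^ s :=
    hlt _ (by have := hA.tot_le; have := hB.tot_le; omega)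
  have h2 : tot s E + tot s E' < 2 ^ s :=
    hlt _ (by have := hA.totE_le; have := hB.totE_le; omega)
  have ht1 := tot_add hs h1
  have ht2 := tot_add hs h2
  have hst : addS (mkCtx s p L D) N E N' E' =
      if (N + N') % (2 ^ s - 1) + 2 * ((E + E') % (2 ^ s - 1)) ≤ 2 ^ p then (N + N', E + E')
      else (0, 0) := rfl
  have hmod1 : (N + N') % (2 ^ s - 1) = tot s (N + N') :=
    mod_pred_eq_tot hs (small_lt hp (by
      rw [ht1]; have := hA.tot_le; have := hB.tot_le; omega))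
  have hmod2 : (E + E') % (2 ^ s - 1) = tot s (E + E') :=
    mod_pred_eq_tot hs (small_lt hp (by
      rw [ht2]; have := hA.totE_le; have := hB.totE_le; omega))
  rw [hst, hmod1, hmod2]
  by_cases hT : tot s (N + N') + 2 * tot s (E + E') ≤ 2 ^ p
  · rw [if_pos hT]
    refine ⟨⟨fun u v hv hne => ?_, fun n hne => ?_, hT⟩,
      Or.inr ⟨fun n => dg_add hs h1 n, fun n => dg_add hs h2 n⟩⟩
    · change dg s (N + N') (u * D + v) ≠ 0 at hne
      rw [dg_add hs h1] at hne
      by_cases h0 : dg s N (u * D + v) = 0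
      · rw [h0, zero_add] at hne
        exact hB.supp u v hv hne
      · exact hA.supp u v hv h0
    · change dg s (E + E') n ≠ 0 at hne
      rw [dg_add hs h2] at hne
      by_cases h0 : dg s E n = 0
      · rw [h0, zero_add] at hne
        exact hB.suppE n hne
      · exact hA.suppE n h0
  · rw [if_neg hT]
    exact ⟨good_zero hs, Or.inl rfl⟩

/-- (D6) The unit state. -/
theorem unitS_spec (hp : 2 * p + 4 ≤ s) (hD : 4 * L < D) :
    Good s p L D (unitS (mkCtx s p L D)).1 (unitS (mkCtx s p L D)).2 ∧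
    (∀ u v, v < D → dg s (unitS (mkCtx s p L D)).1 (u * D + v) =
      if u = L ∧ v = L then 2 ^ p else 0) ∧
    (unitS (mkCtx s p L D)).2 = 0 := by
  have hs : 0 < s := by omega
  have hlt : 2 ^ p < 2 ^ s := Nat.pow_lt_pow_right (by norm_num) (by omega)
  set ρ : ℕ[X] := monomial (L * D + L) (2 ^ p) with hρ
  have hev : (unitS (mkCtx s p L D)).1 = ρ.eval (2 ^ s) := by
    simp only [unitS, mkCtx, hρ, eval_monomial, pow_mul]
  have hco : ∀ j, ρ.coeff j < 2 ^ s := fun j => by
    rw [hρ, coeff_monomial]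
    split_ifs
    · exact hlt
    · positivity
  have hd : ∀ n, dg s (unitS (mkCtx s p L D)).1 n = if L * D + L = n then 2 ^ p else 0 := fun n => by
    rw [hev, dg_eval ρ hco, hρ, coeff_monomial]
  have hLD : L < D := by omega
  have hpos : ∀ u v, v < D → (L * D + L = u * D + v ↔ u = L ∧ v = L) := fun u v hv => by
    constructor
    · intro h
      have h3 := (eq_div_mod_iff (a := L) hLD (n := L * D + L)).1 rfl
      have h2 := (eq_div_mod_iff (a := u) hv (n := u * D + v)).1 rfl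
      rw [← h] at h2
      exact ⟨h2.1.trans h3.1.symm, h2.2.trans h3.2.symm⟩
    · rintro ⟨rfl, rfl⟩
      rfl
  refine ⟨⟨fun u v hv hne => ?_, fun n hne => ?_, ?_⟩, fun u v hv => ?_, rfl⟩
  · rw [hd] at hne
    by_cases h : L * D + L = u * D + v
    · have := (hpos u v hv).1 h
      omega
    · rw [if_neg h] at hne
      exact absurd rfl hne
  · simp [unitS, dg_zero_left] at hne
  · have h2 : (unitS (mkCtx s p L D)).2 = 0 := rfl
    rw [h2, tot_zero s hs, mul_zero, add_zero]
    simp only [tot]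
    rw [hev, digP_eval hs ρ hco, hρ, eval_monomial]
    simp
  · rw [hd]
    by_cases h : L * D + L = u * D + v
    · rw [if_pos h, if_pos ((hpos u v hv).1 h)]
    · rw [if_neg h, if_neg fun h1 => h ((hpos u v hv).2 h1)]

end Stage


end Crest.Agent.PottsTree.Lat
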