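import Crest.Agent.Lib.PottsTree.LatRun

/-!
# The potential `A` from a state

The read-out of the second moment at the end of a run: from a state below the law given the root of an
invariant law which bounds `Lq`, an upper bound of `Pot (A 3) Lq`, by a kernel computation with the
digits.
-/

namespace Crest.Agent.PottsTree

open Finset
open ConeData
open Cmp

namespace Lat

/-- the second elementary symmetric function of homogeneous coordinates -/
def H3.e2 (X : H3) : ℕ := X.x0 * X.x1 + X.x0 * X.x2 + X.x1 * X.x2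

/-- the coefficient of a chamber point in the read-out, with `τ` fractional bits -/
def finCoef (aa bb τ : ℕ) (r : Pt) : ℕ :=
  (2 ^ τ * (12 * (r.h aa bb).e2)) / (r.stab * ((r.h aa bb).x0 * (r.h aa bb).sum))

/-- a sum over an initial segment, for the kernel -/
def sumR (f : ℕ → ℕ) : ℕ → ℕ
  | 0 => 0
  | k + 1 => f k + sumR f k

lemma sumR_eq (f : ℕ → ℕ) (k : ℕ) : sumR f k = ∑ i ∈ range k, f i := by
  induction k with
  | zero => rfl
  | succ k ih => rw [sumR, ih, Finset.sum_range_succ, add_comm]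

/-- the read-out of the second moment -/
def finSum (s L D aa bb τ N E : ℕ) : ℕ :=
  sumR (fun m => sumR (fun k =>
    dg s N ((L - m) * D + (L - (m + k))) * finCoef aa bb τ (Pt.int m (m + k))) (L + 1 - m)) (L + 1) +
  sumR (fun m => dg s E (L - m) * finCoef aa bb τ (Pt.edge m)) (L + 1)

/-- The value of `2 - A` on a point in homogeneous coordinates. -/
lemma two_sub_A_pt {X : H3} (hX : 0 < X.sum) :
    (2 : ℝ) - A 3 X.pt = 6 * (X.e2 : ℝ) / ((X.sum : ℝ) * X.sum) := by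
  have hs : (X.sum : ℝ) ≠ 0 := by exact_mod_cast hX.ne'
  have e : (X.sum : ℝ) = X.x0 + X.x1 + X.x2 := by
    simp only [H3.sum, Nat.add_eq]
    push_cast
    ring
  have e0 : X.pt 0 = (X.x0 : ℝ) / X.sum := rfl
  have e1 : X.pt 1 = (X.x1 : ℝ) / X.sum := rfl
  have e2 : X.pt 2 = (X.x2 : ℝ) / X.sum := rfl
  simp only [A, Fin.sum_univ_three, e0, e1, e2, H3.e2]
  push_cast
  field_simp
  rw [e]
  ring

lemma finCoef_le {aa bb τ : ℕ} (haa : 0 < aa) (r : Pt) :
    (finCoef aa bb τ r : ℝ) / 2 ^ τ ≤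
      (2 * (((r.h aa bb).sum : ℝ) / (r.h aa bb).x0) / r.stab) * (2 - A 3 (r.h aa bb).pt) := by
  have hS := r.h_sum_pos (A := aa) (B := bb) haa
  have hx0 : 0 < (r.h aa bb).x0 := by
    cases r with
    | int m n =>
      show 0 < Nat.pow aa (Nat.add m n)
      exact Nat.pow_pos haa
    | edge m =>
      show 0 < Nat.pow aa m
      exact Nat.pow_pos haa
  have hst := r.stab_pos
  have hS' : (0 : ℝ) < (r.h aa bb).sum := by exact_mod_cast hS
  have hx0' : (0 : ℝ) < (r.h aa bb).x0 := by exact_mod_cast hx0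
  have hst' : (0 : ℝ) < r.stab := by exact_mod_cast hst
  rw [two_sub_A_pt hS]
  have h1 := @Nat.cast_div_le ℝ _ _ _ (2 ^ τ * (12 * (r.h aa bb).e2))
    (r.stab * ((r.h aa bb).x0 * (r.h aa bb).sum))
  have h2 : (0 : ℝ) < 2 ^ τ := by positivity
  rw [div_le_iff₀ h2]
  refine h1.trans (le_of_eq ?_)
  push_cast
  field_simp
  ring

end Lat

section Final

open Crest.Agent.PottsTree.Lat

variable {aa bb : ℕ} {β : ℝ} (hβ : 0 < β) (h1β : 1 < β) {s p L D : ℕ} {Ω : Type*}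

lemma bpow_neg_coe (haa : 0 < aa) (hbb : 0 < bb) (hb : β = (aa : ℝ) / bb) (m : ℕ) :
    bpow β ((-(m : ℤ) : ℤ) : WithBot ℤ) = ((bb : ℝ) / aa) ^ m := by
  rw [bpow_coe, zpow_neg, zpow_natCast, hb, ← inv_pow, inv_div]

lemma Gb_chamI (haa : 0 < aa) (hbb : 0 < bb) (hb : β = (aa : ℝ) / bb) (m n : ℕ) :
    Gb hβ (chamI m n) = ((Pt.int m n).h aa bb).pt := by
  have e : Gb hβ (chamI m n) = latPt (bpow β ((-(m : ℤ) : ℤ) : WithBot ℤ))
      (bpow β ((-(n : ℤ) : ℤ) : WithBot ℤ)) := rfl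
  rw [e, bpow_neg_coe haa hbb hb, bpow_neg_coe haa hbb hb]
  exact (intH_pt haa m n).symm

lemma Gb_chamE (haa : 0 < aa) (hbb : 0 < bb) (hb : β = (aa : ℝ) / bb) (m : ℕ) :
    Gb hβ (chamE m) = ((Pt.edge m).h aa bb).pt := by
  have e : Gb hβ (chamE m) = latPt (bpow β ((-(m : ℤ) : ℤ) : WithBot ℤ)) 0 := rfl
  rw [e, bpow_neg_coe haa hbb hb]
  exact (edgeH_pt haa m).symm

lemma nrm_chamI (haa : 0 < aa) (hbb : 0 < bb) (hb : β = (aa : ℝ) / bb) (m n : ℕ) :
    nrm β (chamI m n) = (((Pt.int m n).h aa bb).sum : ℝ) / ((Pt.int m n).h aa bb).x0 := by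
  have h1 : (aa : ℝ) ≠ 0 := by exact_mod_cast haa.ne'
  simp only [nrm, chamI, bpow_neg_coe haa hbb hb]
  show _ = ((intH aa bb m n).sum : ℝ) / ((intH aa bb m n).x0 : ℝ)
  simp only [intH, H3.sum, Nat.add_eq, Nat.pow_eq, Nat.mul_eq]
  push_cast
  rw [div_pow, div_pow, pow_add]
  field_simp

lemma nrm_chamE (haa : 0 < aa) (hbb : 0 < bb) (hb : β = (aa : ℝ) / bb) (m : ℕ) :
    nrm β (chamE m) = (((Pt.edge m).h aa bb).sum : ℝ) / ((Pt.edge m).h aa bb).x0 := by
  have h1 : (aa : ℝ) ≠ 0 := by exact_mod_cast haa.ne'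
  simp only [nrm, chamE, bpow_neg_coe haa hbb hb, bpow_bot]
  show _ = ((edgeH aa bb m).sum : ℝ) / ((edgeH aa bb m).x0 : ℝ)
  simp only [edgeH, H3.sum, Nat.add_eq, Nat.pow_eq]
  push_cast
  rw [div_pow]
  field_simp
  ring

lemma A_baseL (b : Fin 3) : A 3 (baseL 3 b) = 2 := by
  fin_cases b <;> norm_num [A, baseL, Fin.sum_univ_three]

include h1β in
/-- **The read-out.** -/
theorem pot_A_le_of_state (haa : 0 < aa) (hbb : 0 < bb) (hb : β = (aa : ℝ) / bb) (τ : ℕ)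
    {Lq : Ω → Fin 3 → ℝ} {st : ℕ × ℕ} (h : NuSt hβ s p L D Lq st) :
    Pot (A 3) Lq ≤ 2 - (finSum s L D aa bb τ st.1 st.2 : ℝ) / (2 ^ p * 2 ^ τ) := by
  have hc := chamber_defect hβ h1β (L := L) (rI_nonneg (s := s) (p := p) (D := D) (N := st.1))
    (rE_nonneg (s := s) (p := p) (E := st.2)) h.nu adm_A 0
  rw [A_baseL] at hc
  have hS : (0 : ℝ) < 2 ^ p := by positivity
  have hT : (0 : ℝ) < 2 ^ τ := by positivity
  have hA0 : ∀ r : Pt, 0 ≤ 2 - A 3 (r.h aa bb).pt := fun r => by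
    have := le_vertex (adm_A (q := 3)) (H3.pt_mem (r.h_sum_pos (A := aa) (B := bb) haa)) 0
    rw [A_baseL] at this
    linarith
  have key : ∀ (d : ℕ) (r : Pt), ((d * finCoef aa bb τ r : ℕ) : ℝ) / (2 ^ p * 2 ^ τ) ≤
      ((d : ℝ) / 2 ^ p) * ((2 * (((r.h aa bb).sum : ℝ) / (r.h aa bb).x0) / r.stab) *
        (2 - A 3 (r.h aa bb).pt)) := by
    intro d r
    have h1 := finCoef_le (bb := bb) (τ := τ) haa r
    have e : ((d * finCoef aa bb τ r : ℕ) : ℝ) / (2 ^ p * 2 ^ τ) =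
        ((d : ℝ) / 2 ^ p) * ((finCoef aa bb τ r : ℝ) / 2 ^ τ) := by
      push_cast
      field_simp
    rw [e]
    exact mul_le_mul_of_nonneg_left h1 (by positivity)
  have hQ : (finSum s L D aa bb τ st.1 st.2 : ℝ) / (2 ^ p * 2 ^ τ) ≤
      ∑ m ∈ range (L + 1), ∑ n ∈ Ico m (L + 1),
        rI s p L D st.1 (L - m) (L - n) * (2 * nrm β (chamI m n) / stabN m n) *
          (2 - A 3 (Gb hβ (chamI m n))) +
      ∑ m ∈ range (L + 1), rE s p L st.2 (L - m) * (2 * nrm β (chamE m) / stabE m) *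
          (2 - A 3 (Gb hβ (chamE m))) := by
    simp only [finSum, sumR_eq]
    push_cast
    rw [add_div]
    refine add_le_add ?_ ?_
    · rw [Finset.sum_div]
      refine Finset.sum_le_sum fun m _ => ?_
      rw [Finset.sum_Ico_eq_sum_range, Finset.sum_div]
      refine Finset.sum_le_sum fun k hk => ?_
      simp only [mem_range] at hk
      have e1 : rI s p L D st.1 (L - m) (L - (m + k)) =
          ((dg s st.1 ((L - m) * D + (L - (m + k))) : ℕ) : ℝ) / 2 ^ p :=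
        if_pos ⟨by omega, by omega⟩
      have e2 := key (dg s st.1 ((L - m) * D + (L - (m + k)))) (Pt.int m (m + k))
      push_cast at e2
      rw [e1, nrm_chamI haa hbb hb, stabN_eq, Gb_chamI hβ haa hbb hb, mul_assoc]
      exact e2
    · rw [Finset.sum_div]
      refine Finset.sum_le_sum fun m hm => ?_
      simp only [mem_range] at hm
      have e1 : rE s p L st.2 (L - m) = ((dg s st.2 (L - m) : ℕ) : ℝ) / 2 ^ p :=
        if_pos (by omega)
      have e2 := key (dg s st.2 (L - m)) (Pt.edge m)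
      push_cast at e2
      rw [e1, nrm_chamE haa hbb hb, stabE_eq, Gb_chamE hβ haa hbb hb, mul_assoc]
      exact e2
  linarith

/-! ### The weights of a Poisson mixture -/

/-- the numerator of the upper bound of `exp (en / ed)` with `J` terms, over `J! * J * ed ^ J` -/
def expNum (en ed J : ℕ) : ℕ :=
  sumR (fun m => en ^ m * ed ^ (J - m) * (J.factorial / m.factorial) * J) J + en ^ J * (J + 1)

lemma exp_le_of_check {en ed J : ℕ} (hed : 0 < ed) (hle : en ≤ ed) (hJ : 0 < J) :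
    Real.exp ((en : ℝ) / ed) ≤ (expNum en ed J : ℝ) / (J.factorial * J * ed ^ J) := by
  have hed' : (0 : ℝ) < ed := by exact_mod_cast hed
  have h0 : (0 : ℝ) ≤ (en : ℝ) / ed := by positivity
  have h1 : (en : ℝ) / ed ≤ 1 := by
    rw [div_le_one hed']
    exact_mod_cast hle
  have hb := Real.exp_bound' h0 h1 hJ
  refine hb.trans (le_of_eq ?_)
  have hJ' : (J : ℝ) ≠ 0 := by exact_mod_cast hJ.ne'
  have hF : (J.factorial : ℝ) ≠ 0 := by exact_mod_cast (Nat.factorial_pos J).ne'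
  simp only [expNum, sumR_eq]
  push_cast
  rw [add_div, Finset.sum_div]
  congr 1
  · refine Finset.sum_congr rfl fun m hm => ?_
    have hm' : m ≤ J := (Finset.mem_range.1 hm).le
    have hF2 : (m.factorial : ℝ) ≠ 0 := by exact_mod_cast (Nat.factorial_pos m).ne'
    have e1 : (((J.factorial / m.factorial : ℕ)) : ℝ) = (J.factorial : ℝ) / m.factorial :=
      Nat.cast_div (Nat.factorial_dvd_factorial hm') hF2
    rw [e1, div_pow, pow_sub₀ _ hed'.ne' hm']
    field_simp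
  · rw [div_pow]
    field_simp

/-- A rational lower bound of `exp (-en / ed)` from the check in natural numbers. -/
lemma le_exp_neg_of_check {en ed J xn xd : ℕ} (hed : 0 < ed) (hle : en ≤ ed) (hJ : 0 < J) (hxd : 0 < xd)
    (hchk : xn * expNum en ed J ≤ xd * (J.factorial * J * ed ^ J)) :
    (xn : ℝ) / xd ≤ Real.exp (-((en : ℝ) / ed)) := by
  have hxd' : (0 : ℝ) < xd := by exact_mod_cast hxd
  have hT : (0 : ℝ) < (J.factorial : ℝ) * J * ed ^ J := by
    have h1 : (0 : ℝ) < J.factorial := by exact_mod_cast Nat.factorial_pos J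
    have h2 : (0 : ℝ) < J := by exact_mod_cast hJ
    have h3 : (0 : ℝ) < ed := by exact_mod_cast hed
    positivity
  have h1 := exp_le_of_check hed hle hJ
  have hE := Real.exp_pos ((en : ℝ) / ed)
  rw [Real.exp_neg, div_le_iff₀ hxd', ← div_eq_inv_mul, le_div_iff₀ hE]
  have hc : (xn : ℝ) * expNum en ed J ≤ xd * ((J.factorial : ℝ) * J * ed ^ J) := by
    exact_mod_cast hchk
  calc (xn : ℝ) * Real.exp ((en : ℝ) / ed)
      ≤ xn * ((expNum en ed J : ℝ) / (J.factorial * J * ed ^ J)) :=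
        mul_le_mul_of_nonneg_left h1 (Nat.cast_nonneg _)
    _ = (xn * expNum en ed J : ℝ) / (J.factorial * J * ed ^ J) := by ring
    _ ≤ _ := by
        rw [div_le_iff₀ hT]
        exact hc

/-- The check of the weights of a Poisson mixture: the list gives the weights from `m` on. -/
def chkPoi (p en ed xn xd : ℕ) : ℕ → List ℕ → Bool
  | _, [] => true
  | m, e :: es => Nat.ble (e * (xd * m.factorial * ed ^ m)) (2 ^ p * (xn * en ^ m)) &&
      Nat.ble e (2 ^ p) && chkPoi p en ed xn xd (m + 1) es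

lemma poi_ge_of_check {p en ed xn xd m e : ℕ} (hed : 0 < ed) (hxd : 0 < xd)
    (hx : (xn : ℝ) / xd ≤ Real.exp (-((en : ℝ) / ed)))
    (h : e * (xd * m.factorial * ed ^ m) ≤ 2 ^ p * (xn * en ^ m)) :
    (e : ℝ) / 2 ^ p ≤ poi ((en : ℝ) / ed) m := by
  have hed' : (0 : ℝ) < ed := by exact_mod_cast hed
  have hxd' : (0 : ℝ) < xd := by exact_mod_cast hxd
  have hF : (0 : ℝ) < m.factorial := by exact_mod_cast Nat.factorial_pos m
  have hS : (0 : ℝ) < 2 ^ p := by positivity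
  have h' : (e : ℝ) * (xd * m.factorial * ed ^ m) ≤ 2 ^ p * (xn * en ^ m) := by exact_mod_cast h
  have hstep : (e : ℝ) / 2 ^ p ≤ ((xn : ℝ) / xd) * ((en : ℝ) / ed) ^ m / m.factorial := by
    rw [div_pow, div_le_iff₀ hS]
    have hed2 : (0 : ℝ) < ed ^ m := by positivity
    field_simp
    linarith
  refine hstep.trans ?_
  unfold poi
  have h0 : 0 ≤ ((en : ℝ) / ed) ^ m := by positivity
  exact div_le_div_of_nonneg_right (mul_le_mul_of_nonneg_right hx h0) hF.le

lemma chkPoi_spec {p en ed xn xd : ℕ} (hed : 0 < ed) (hxd : 0 < xd)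
    (hx : (xn : ℝ) / xd ≤ Real.exp (-((en : ℝ) / ed))) {m : ℕ} {es : List ℕ}
    (h : chkPoi p en ed xn xd m es = true) :
    (∀ e ∈ es, e ≤ 2 ^ p) ∧ ∀ i (hi : i < es.length),
      (es[i] : ℝ) / 2 ^ p ≤ poi ((en : ℝ) / ed) (m + i) := by
  induction es generalizing m with
  | nil => simp
  | cons e es ih =>
    simp only [chkPoi, Bool.and_eq_true] at h
    obtain ⟨⟨h1, h2⟩, h3⟩ := h
    obtain ⟨ih1, ih2⟩ := ih h3
    refine ⟨fun a ha => ?_, fun i hi => ?_⟩
    · rcases List.mem_cons.1 ha with rfl | ha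
      · exact Nat.le_of_ble_eq_true h2
      · exact ih1 a ha
    · cases i with
      | zero => exact poi_ge_of_check hed hxd hx (Nat.le_of_ble_eq_true h1)
      | succ i =>
        have := ih2 i (by simpa using hi)
        rw [show m + (i + 1) = m + 1 + i by omega]
        exact this

/-! ### The end of a run -/

/-- the check of the read-out against `x0 = xn / xd`: `Pot (A 3) ≤ 2 * x0` -/
def finChk (s p L D aa bb τ xn xd : ℕ) (st : ℕ × ℕ) : Bool :=
  Nat.ble (2 * (2 ^ p * 2 ^ τ) * xd)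
    (finSum s L D aa bb τ st.1 st.2 * xd + 2 * xn * (2 ^ p * 2 ^ τ))

include h1β in
theorem pot_A_le_of_chk (haa : 0 < aa) (hbb : 0 < bb) (hb : β = (aa : ℝ) / bb) {τ xn xd : ℕ}
    (hxd : 0 < xd) {Lq : Ω → Fin 3 → ℝ} {st : ℕ × ℕ} (h : NuSt hβ s p L D Lq st)
    (hc : finChk s p L D aa bb τ xn xd st = true) :
    Pot (A 3) Lq ≤ 2 * ((xn : ℝ) / xd) := by
  have h1 := pot_A_le_of_state hβ h1β haa hbb hb τ h
  have h2 := Nat.le_of_ble_eq_true hc
  have h3 : (2 * (2 ^ p * 2 ^ τ) * xd : ℝ) ≤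
      (finSum s L D aa bb τ st.1 st.2 : ℝ) * xd + 2 * xn * (2 ^ p * 2 ^ τ) := by
    exact_mod_cast h2
  have hT : (0 : ℝ) < 2 ^ p * 2 ^ τ := by positivity
  have hxd' : (0 : ℝ) < xd := by exact_mod_cast hxd
  refine h1.trans ?_
  rw [sub_le_iff_le_add]
  have e : 2 * ((xn : ℝ) / xd) + (finSum s L D aa bb τ st.1 st.2 : ℝ) / (2 ^ p * 2 ^ τ) =
      (2 * xn * (2 ^ p * 2 ^ τ) + (finSum s L D aa bb τ st.1 st.2 : ℝ) * xd) / (xd * (2 ^ p * 2 ^ τ)) := by
    field_simp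
  rw [e, le_div_iff₀ (mul_pos hxd' hT)]
  linarith

namespace Lat.Fit

variable {P : RPar} {rows : List (ℕ × List REnt)} {edges : List REnt} {cv : REnt}
  {usedI usedE : List ℕ}

/-- **The final check of a regular tree.** -/
theorem final_reg (h : Fit P s p L D rows edges cv usedI usedE) {b : ℕ} (bs : List Bool)
    (hb : regCount bs 1 = b) {ℓ W τ xn xd : ℕ} (hxd : 0 < xd)
    (hD : DefBnd (fun t : Fin P.nT => P.g t) (contract (-(P.a : ℝ) / P.c) (regL 3 b (-(P.a : ℝ) / P.c) ℓ))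
      (fun t => (dg P.wS W t : ℝ) / (2 ^ p : ℕ)))
    (hc : finChk s p L D P.A P.B τ xn xd (stateReg P s p L D usedI usedE bs W) = true) :
    Pot (A 3) (regL 3 b (-(P.a : ℝ) / P.c) (ℓ + 1)) ≤ 2 * ((xn : ℝ) / xd) :=
  pot_A_le_of_chk h.hβ h.h1β h.hP.hA h.hB rfl hxd (h.stateReg_next bs hb hD) hc

/-- **The final check of a Poisson tree.** -/
theorem final_pois (h : Fit P s p L D rows edges cv usedI usedE) {d0 : ℝ} (hd0 : 0 ≤ d0) {d : ℝ} {k : ℕ}
    (hd : 2 ^ k * d0 = d) {e0 : ℕ} {es : List ℕ} (he0 : e0 ≤ 2 ^ p) (hes : ∀ e ∈ es, e ≤ 2 ^ p)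
    (hp0' : (e0 : ℝ) / 2 ^ p ≤ poi d0 0)
    (hpi : ∀ i (hi : i < es.length), (es[i] : ℝ) / 2 ^ p ≤ poi d0 (i + 1)) {ℓ W τ xn xd : ℕ}
    (hxd : 0 < xd)
    (hD : DefBnd (fun t : Fin P.nT => P.g t) (contract (-(P.a : ℝ) / P.c) (gwL 3 (-(P.a : ℝ) / P.c) d ℓ))
      (fun t => (dg P.wS W t : ℝ) / (2 ^ p : ℕ)))
    (hc : finChk s p L D P.A P.B τ xn xd (statePois P s p L D usedI usedE e0 es k W) = true) :
    Pot (A 3) (gwL 3 (-(P.a : ℝ) / P.c) d (ℓ + 1)) ≤ 2 * ((xn : ℝ) / xd) :=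
  pot_A_le_of_chk h.hβ h.h1β h.hP.hA h.hB rfl hxd
    (h.statePois_next hd0 hd he0 hes hp0' hpi hD) hc

/-- The weights of a Poisson mixture from the checks in natural numbers; `es0 = e0 :: es`. -/
theorem poi_weights {p en ed xn xd J e0 : ℕ} {es : List ℕ} (hed : 0 < ed) (hle : en ≤ ed) (hJ : 0 < J)
    (hxd : 0 < xd) (hchk : Nat.ble (xn * expNum en ed J) (xd * (J.factorial * J * ed ^ J)) = true)
    (hP : chkPoi p en ed xn xd 0 (e0 :: es) = true) :
    e0 ≤ 2 ^ p ∧ (∀ e ∈ es, e ≤ 2 ^ p) ∧ (e0 : ℝ) / 2 ^ p ≤ poi ((en : ℝ) / ed) 0 ∧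
      ∀ i (hi : i < es.length), (es[i] : ℝ) / 2 ^ p ≤ poi ((en : ℝ) / ed) (i + 1) := by
  have hx := le_exp_neg_of_check hed hle hJ hxd (Nat.le_of_ble_eq_true hchk)
  obtain ⟨h1, h2⟩ := chkPoi_spec hed hxd hx hP
  refine ⟨h1 _ (by simp), fun e he => h1 e (List.mem_cons_of_mem _ he), ?_, fun i hi => ?_⟩
  · exact h2 0 (by simp)
  · have := h2 (i + 1) (by simpa using hi)
    simpa [add_comm] using this

end Lat.Fit

end Final

end Crest.Agent.PottsTree
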