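import Crest.Agent.Lib.PottsTree.LatRule

/-!
# The input of a level of the lattice checker

From the packed vector of weights on the orbit representatives to the law given the root `0`, as a
state `(N, E)` of `LatDigit`: each representative has six relabellings, whose chart positions are explicit.
-/

namespace Crest.Agent.PottsTree

open Finset Polynomial
open ConeData
open Cmp

namespace Lat

/-! ### The chart -/

/-- difference in the extended integers: `⊥` is absorbing -/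
def zsub : WithBot ℤ → WithBot ℤ → WithBot ℤ
  | (a : ℤ), (b : ℤ) => ((a - b : ℤ) : WithBot ℤ)
  | _, _ => ⊥

lemma bpow_zsub {β : ℝ} (hβ : 0 < β) (x : WithBot ℤ) (y : ℤ) :
    bpow β (zsub x y) = bpow β x / bpow β y := by
  cases x with
  | bot =>
    show bpow β ⊥ = bpow β ⊥ / _
    simp [bpow]
  | coe a =>
    show β ^ (a - y) = β ^ a / β ^ y
    exact zpow_sub₀ hβ.ne' a y

/-- the exponents of an interior point -/
def eI (m n : ℕ) : Fin 3 → WithBot ℤ := ![((0 : ℤ) : WithBot ℤ), ((-(m : ℤ) : ℤ) : WithBot ℤ),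
  ((-(n : ℤ) : ℤ) : WithBot ℤ)]

/-- the exponents of a point on the edge -/
def eE (m : ℕ) : Fin 3 → WithBot ℤ := ![((0 : ℤ) : WithBot ℤ), ((-(m : ℤ) : ℤ) : WithBot ℤ), ⊥]

/-- the chart position of a relabelled point with exponents `e` -/
def chartOf (e : Fin 3 → WithBot ℤ) (π : Equiv.Perm (Fin 3)) : WithBot ℤ × WithBot ℤ :=
  (zsub (e (π 1)) (e (π 0)), zsub (e (π 2)) (e (π 0)))

/-- A point whose coordinates are powers of `β`: its relabelling is the chart point at the position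
`chartOf`, if the root coordinate does not vanish. -/
lemma rel_pt_eq_chart {β : ℝ} (hβ : 0 < β) {Y : H3} {e : Fin 3 → WithBot ℤ} {K : ℝ}
    (hK : 0 < K) (hY : ∀ i, (Y.get i : ℝ) = K * bpow β (e i)) (π : Equiv.Perm (Fin 3))
    (h0 : Y.pt (π 0) ≠ 0) :
    rel π Y.pt = (extLat β hβ).G (chartOf e π) := by
  have hsum : Y.sum = Y.get (π 0) + Y.get (π 1) + Y.get (π 2) := by
    rw [← Y.sum_eq, ← Equiv.sum_comp π, Fin.sum_univ_three]
  have hne : (Y.get (π 0) : ℝ) ≠ 0 := by
    intro h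
    apply h0
    simp [H3.pt, h]
  obtain ⟨z, hz⟩ : ∃ z : ℤ, e (π 0) = (z : WithBot ℤ) := by
    cases hc : e (π 0) with
    | bot =>
      exfalso
      apply hne
      rw [hY, hc]
      simp [bpow]
    | coe z => exact ⟨z, rfl⟩
  have hbz : bpow β (z : WithBot ℤ) ≠ 0 := (zpow_pos hβ z).ne'
  have hY0 : 0 < Y.get (π 0) := by
    have h1 : (0 : ℝ) ≤ Y.get (π 0) := Nat.cast_nonneg _
    have h2 : (0 : ℝ) < Y.get (π 0) := lt_of_le_of_ne h1 (Ne.symm hne)
    exact_mod_cast h2
  let Y' : H3 := ⟨Y.get (π 0), Y.get (π 1), Y.get (π 2)⟩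
  have hs' : Y'.sum = Y.sum := hsum.symm
  have hpt : rel π Y.pt = Y'.pt := by
    funext i
    simp only [rel, H3.pt, hs']
    congr 1
    fin_cases i <;> simp [H3.get, Y']
  rw [hpt]
  refine H3.pt_eq_latPt (x := bpow β (zsub (e (π 1)) (e (π 0))))
    (y := bpow β (zsub (e (π 2)) (e (π 0)))) hY0 ?_ ?_
  · show (Y.get (π 1) : ℝ) = _ * Y.get (π 0)
    rw [hz, bpow_zsub hβ, hY, hY, hz]
    field_simp
  · show (Y.get (π 2) : ℝ) = _ * Y.get (π 0)
    rw [hz, bpow_zsub hβ, hY, hY, hz]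
    field_simp

lemma intH_get_eq {A B : ℕ} (hA : 0 < A) (hB : 0 < B) (m n : ℕ) (i : Fin 3) :
    ((intH A B m n).get i : ℝ) = ((A : ℝ) ^ (m + n)) * bpow ((A : ℝ) / B) (eI m n i) := by
  have hA' : (A : ℝ) ≠ 0 := by exact_mod_cast hA.ne'
  have hB' : (B : ℝ) ≠ 0 := by exact_mod_cast hB.ne'
  fin_cases i
  · simp [intH, H3.get, eI, bpow]
  · simp only [intH, H3.get, eI, Nat.pow_eq, Nat.mul_eq, Fin.reduceFinMk, Matrix.cons_val]
    show _ = _ * ((A : ℝ) / B) ^ (-(m : ℤ))
    rw [zpow_neg, zpow_natCast, div_pow, pow_add]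
    push_cast
    field_simp
  · simp only [intH, H3.get, eI, Nat.pow_eq, Nat.mul_eq, Fin.reduceFinMk, Matrix.cons_val]
    show _ = _ * ((A : ℝ) / B) ^ (-(n : ℤ))
    rw [zpow_neg, zpow_natCast, div_pow, pow_add]
    push_cast
    field_simp

lemma edgeH_get_eq {A B : ℕ} (hA : 0 < A) (hB : 0 < B) (m : ℕ) (i : Fin 3) :
    ((edgeH A B m).get i : ℝ) = ((A : ℝ) ^ m) * bpow ((A : ℝ) / B) (eE m i) := by
  have hA' : (A : ℝ) ≠ 0 := by exact_mod_cast hA.ne'
  have hB' : (B : ℝ) ≠ 0 := by exact_mod_cast hB.ne'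
  fin_cases i
  · simp [edgeH, H3.get, eE, bpow]
  · simp only [edgeH, H3.get, eE, Nat.pow_eq, Fin.reduceFinMk, Matrix.cons_val]
    show _ = _ * ((A : ℝ) / B) ^ (-(m : ℤ))
    rw [zpow_neg, zpow_natCast, div_pow]
    push_cast
    field_simp
  · simp [edgeH, H3.get, eE, bpow]

/-- the exponents of the target point of a slot -/
def tgE (Mt nI t : ℕ) : Fin 3 → WithBot ℤ :=
  if t < nI then eI (t % (Mt + 1)) (t / (Mt + 1)) else eE (t - nI)

lemma tgH_eq_int {A B Mt nI t : ℕ} (h : t < nI) :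
    tgH A B Mt nI t = intH A B (t % (Mt + 1)) (t / (Mt + 1)) := by
  have : Nat.blt t nI = true := by simpa using h
  simp only [tgH, this, cond_true]
  rfl

lemma tgH_eq_edge {A B Mt nI t : ℕ} (h : ¬ t < nI) : tgH A B Mt nI t = edgeH A B (t - nI) := by
  have : Nat.blt t nI = false := by
    rw [← Bool.not_eq_true]
    simpa using h
  simp only [tgH, this, cond_false]
  rfl

/-- The chart of the table of slots. -/
theorem hc_tg {P : RPar} (hA : 0 < P.A) (hB : 0 < P.B) (t : ℕ) (π : Equiv.Perm (Fin 3))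
    (hβ : 0 < (P.A : ℝ) / P.B)
    (h0 : P.g t (π 0) ≠ 0) :
    rel π (P.g t) = (extLat ((P.A : ℝ) / P.B) hβ).G (chartOf (tgE P.Mt P.nI t) π) := by
  by_cases ht : t < P.nI
  · have e1 : P.g t = (intH P.A P.B (t % (P.Mt + 1)) (t / (P.Mt + 1))).pt := by
      simp only [RPar.g, tgH_eq_int ht]
    have e2 : tgE P.Mt P.nI t = eI (t % (P.Mt + 1)) (t / (P.Mt + 1)) := by
      simp only [tgE, if_pos ht]
    rw [e2, e1]
    rw [e1] at h0
    exact rel_pt_eq_chart hβ (K := (P.A : ℝ) ^ (t % (P.Mt + 1) + t / (P.Mt + 1)))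
      (pow_pos (by exact_mod_cast hA) _) (intH_get_eq hA hB _ _) π h0
  · have e1 : P.g t = (edgeH P.A P.B (t - P.nI)).pt := by
      simp only [RPar.g, tgH_eq_edge ht]
    have e2 : tgE P.Mt P.nI t = eE (t - P.nI) := by
      simp only [tgE, if_neg ht]
    rw [e2, e1]
    rw [e1] at h0
    exact rel_pt_eq_chart hβ (K := (P.A : ℝ) ^ (t - P.nI))
      (pow_pos (by exact_mod_cast hA) _) (edgeH_get_eq hA hB _) π h0

/-! ### The six relabellings -/

/-- `π = (0, 1, 2)` -/
def p012 : Equiv.Perm (Fin 3) := 1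
/-- `π = (0, 2, 1)` -/
def p021 : Equiv.Perm (Fin 3) := Equiv.swap 1 2
/-- `π = (1, 0, 2)` -/
def p102 : Equiv.Perm (Fin 3) := Equiv.swap 0 1
/-- `π = (1, 2, 0)` -/
def p120 : Equiv.Perm (Fin 3) := Equiv.swap 0 1 * Equiv.swap 1 2
/-- `π = (2, 0, 1)` -/
def p201 : Equiv.Perm (Fin 3) := Equiv.swap 1 2 * Equiv.swap 0 1
/-- `π = (2, 1, 0)` -/
def p210 : Equiv.Perm (Fin 3) := Equiv.swap 0 2

lemma univ_perm3 : (Finset.univ : Finset (Equiv.Perm (Fin 3))) = {p012, p021, p102, p120, p201, p210} := by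
  decide

lemma sum_perm3 {α : Type*} [AddCommMonoid α] (F : Equiv.Perm (Fin 3) → α) :
    ∑ π, F π = F p012 + F p021 + F p102 + F p120 + F p201 + F p210 := by
  rw [univ_perm3, Finset.sum_insert (by decide), Finset.sum_insert (by decide),
    Finset.sum_insert (by decide), Finset.sum_insert (by decide), Finset.sum_insert (by decide),
    Finset.sum_singleton]
  simp only [add_assoc]

lemma perm3_cases (π : Equiv.Perm (Fin 3)) :
    π = p012 ∨ π = p021 ∨ π = p102 ∨ π = p120 ∨ π = p201 ∨ π = p210 := by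
  have : π ∈ (Finset.univ : Finset (Equiv.Perm (Fin 3))) := Finset.mem_univ π
  rw [univ_perm3] at this
  simpa using this

/-! ### The state of the input -/

/-- position in a two-dimensional array of a point of the chart -/
def posOf (L D : ℕ) : WithBot ℤ × WithBot ℤ → ℕ
  | ((i : ℤ), (j : ℤ)) => (i + L).toNat * D + (j + L).toNat
  | _ => 0

/-- the numbers of the input step -/
structure InC where
  s : ℕ
  L : ℕ
  D : ℕ
  A : ℕ
  B : ℕ
  Mt : ℕ
  nI : ℕ
  wS : ℕ
  M : ℕ
  S : ℕ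

/-- the numbers of the input step from the parameters -/
def mkIn (P : RPar) (s p L D : ℕ) : InC :=
  ⟨s, L, D, P.A, P.B, P.Mt, P.nI, P.wS, 2 ^ P.wS - 1, 2 ^ p⟩

/-- the terms of an interior slot -/
def inTermI (C : InC) (W t : ℕ) : ℕ :=
  let m := Nat.mod t (Nat.succ C.Mt)
  let n := Nat.div t (Nat.succ C.Mt)
  let X := intH C.A C.B m n
  let w := rdDig C.wS C.M W t
  let d := Nat.mul 2 X.sum
  let v0 := Nat.div (Nat.mul w X.x0) d
  let v1 := Nat.div (Nat.mul w X.x1) d
  let v2 := Nat.div (Nat.mul w X.x2) d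
  let s := C.s
  let D := C.D
  let L := C.L
  let um := Nat.sub L m
  let un := Nat.sub L n
  let pm := Nat.add L m
  let pn := Nat.add L n
  let dmn := Nat.sub pm n
  let dnm := Nat.sub pn m
  Nat.add (Nat.add (Nat.add (Nat.add (Nat.add
    (Nat.shiftLeft v0 (Nat.mul s (Nat.add (Nat.mul um D) un)))
    (Nat.shiftLeft v0 (Nat.mul s (Nat.add (Nat.mul un D) um))))
    (Nat.shiftLeft v1 (Nat.mul s (Nat.add (Nat.mul pm D) dmn))))
    (Nat.shiftLeft v1 (Nat.mul s (Nat.add (Nat.mul dmn D) pm))))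
    (Nat.shiftLeft v2 (Nat.mul s (Nat.add (Nat.mul pn D) dnm))))
    (Nat.shiftLeft v2 (Nat.mul s (Nat.add (Nat.mul dnm D) pn)))

/-- the terms of a slot on the edge -/
def inTermE (C : InC) (W t : ℕ) : ℕ :=
  let m := Nat.sub t C.nI
  let X := edgeH C.A C.B m
  let w := rdDig C.wS C.M W t
  let d := Nat.mul 2 X.sum
  let v0 := Nat.div (Nat.mul w X.x0) d
  let v1 := Nat.div (Nat.mul w X.x1) d
  Nat.add (Nat.shiftLeft v0 (Nat.mul C.s (Nat.sub C.L m)))
    (Nat.shiftLeft v1 (Nat.mul C.s (Nat.add C.L m)))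

/-- the sum of the weights of a list of slots -/
noncomputable def inMass (C : InC) (W : ℕ) (l : List ℕ) : ℕ :=
  List.rec 0 (fun t _ ih => Nat.add (rdDig C.wS C.M W t) ih) l

/-- the array of the interior points -/
noncomputable def inSumI (C : InC) (W : ℕ) (l : List ℕ) : ℕ :=
  List.rec 0 (fun t _ ih => Nat.add (inTermI C W t) ih) l

/-- the array of the points on the edge -/
noncomputable def inSumE (C : InC) (W : ℕ) (l : List ℕ) : ℕ :=
  List.rec 0 (fun t _ ih => Nat.add (inTermE C W t) ih) l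

/-- the input step: the state of the law given the root, if the mass is at most one -/
noncomputable def inStep (C : InC) (W : ℕ) (usedI usedE : List ℕ) : ℕ × ℕ :=
  bif Nat.ble (Nat.add (inMass C W usedI) (inMass C W usedE)) C.S then
    (inSumI C W usedI, inSumE C W usedE)
  else (0, 0)

/-- the check of the list of slots: strictly increasing, from `lo` on -/
def chkList (lo : ℕ) (ok : ℕ → Bool) : List ℕ → Bool
  | [] => true
  | t :: l => Nat.ble lo t && ok t && chkList (Nat.succ t) ok l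

lemma chkList_spec {lo : ℕ} {ok : ℕ → Bool} {l : List ℕ} (h : chkList lo ok l = true) :
    (∀ t ∈ l, lo ≤ t ∧ ok t = true) ∧ l.Nodup := by
  induction l generalizing lo with
  | nil => simp
  | cons t l ih =>
    simp only [chkList, Bool.and_eq_true] at h
    obtain ⟨⟨h1, h2⟩, h3⟩ := h
    have h1' := Nat.le_of_ble_eq_true h1
    obtain ⟨h4, h5⟩ := ih h3
    refine ⟨?_, ?_⟩
    · intro x hx
      rcases List.mem_cons.1 hx with rfl | hx
      · exact ⟨h1', h2⟩
      · have h6 := (h4 x hx).1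
        have h7 : Nat.succ t ≤ x := h6
        exact ⟨by omega, (h4 x hx).2⟩
    · refine List.nodup_cons.2 ⟨fun hm => ?_, h5⟩
      have h6 := (h4 t hm).1
      have h7 : Nat.succ t ≤ t := h6
      omega

/-- the check of the slots in use -/
def RPar.chkUsed (P : RPar) (L : ℕ) (usedI usedE : List ℕ) : Bool :=
  chkList 0 (fun t => Nat.blt t P.nI && Nat.blt t P.nT &&
      Nat.ble (t % (P.Mt + 1)) (t / (P.Mt + 1)) && Nat.ble (t / (P.Mt + 1)) L) usedI &&
  chkList P.nI (fun t => Nat.blt t P.nT && Nat.ble (t - P.nI) L) usedE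

/-- the law given the root of a state, as a function on the chart -/
noncomputable def Vof (s p L D N E : ℕ) : WithBot ℤ × WithBot ℤ → ℝ
  | ((i : ℤ), (j : ℤ)) => if -(L : ℤ) ≤ i ∧ i ≤ L ∧ -(L : ℤ) ≤ j ∧ j ≤ L then
      (dg s N ((i + L).toNat * D + (j + L).toNat) : ℝ) / (2 ^ p : ℕ) else 0
  | ((⊥ : WithBot ℤ), (j : ℤ)) => if -(L : ℤ) ≤ j ∧ j ≤ L then
      (dg s E (j + L).toNat : ℝ) / (2 ^ p : ℕ) else 0
  | ((i : ℤ), (⊥ : WithBot ℤ)) => if -(L : ℤ) ≤ i ∧ i ≤ L then
      (dg s E (i + L).toNat : ℝ) / (2 ^ p : ℕ) else 0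
  | (⊥, ⊥) => 0

/-! ### The interior terms as polynomials -/

/-- the value of a relabelling with root coordinate `l` -/
def valS (Y : H3) (w : ℕ) (l : Fin 3) : ℕ := w * Y.get l / (2 * Y.sum)

lemma chartOf_of (e : Fin 3 → WithBot ℤ) {π : Equiv.Perm (Fin 3)} {a b c : Fin 3} (h0 : π 0 = a)
    (h1 : π 1 = b) (h2 : π 2 = c) : chartOf e π = (zsub (e b) (e a), zsub (e c) (e a)) := by
  simp [chartOf, h0, h1, h2]

lemma zsub_coe (x y : ℤ) : zsub (x : WithBot ℤ) (y : WithBot ℤ) = ((x - y : ℤ) : WithBot ℤ) := rfl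

lemma eI0 (m n : ℕ) : eI m n 0 = ((0 : ℤ) : WithBot ℤ) := rfl
lemma eI1 (m n : ℕ) : eI m n 1 = ((-(m : ℤ) : ℤ) : WithBot ℤ) := rfl
lemma eI2 (m n : ℕ) : eI m n 2 = ((-(n : ℤ) : ℤ) : WithBot ℤ) := rfl

lemma p012_v : p012 0 = 0 ∧ p012 1 = 1 ∧ p012 2 = 2 := by decide
lemma p021_v : p021 0 = 0 ∧ p021 1 = 2 ∧ p021 2 = 1 := by decide
lemma p102_v : p102 0 = 1 ∧ p102 1 = 0 ∧ p102 2 = 2 := by decide
lemma p120_v : p120 0 = 1 ∧ p120 1 = 2 ∧ p120 2 = 0 := by decide
lemma p201_v : p201 0 = 2 ∧ p201 1 = 0 ∧ p201 2 = 1 := by decide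
lemma p210_v : p210 0 = 2 ∧ p210 1 = 1 ∧ p210 2 = 0 := by decide

/-- the six chart positions of an interior point -/
lemma chart_int (m n : ℕ) :
    chartOf (eI m n) p012 = (((-(m : ℤ) - 0 : ℤ) : WithBot ℤ), ((-(n : ℤ) - 0 : ℤ) : WithBot ℤ)) ∧
    chartOf (eI m n) p021 = (((-(n : ℤ) - 0 : ℤ) : WithBot ℤ), ((-(m : ℤ) - 0 : ℤ) : WithBot ℤ)) ∧
    chartOf (eI m n) p102 = (((0 - -(m : ℤ) : ℤ) : WithBot ℤ), ((-(n : ℤ) - -(m : ℤ) : ℤ) : WithBot ℤ)) ∧
    chartOf (eI m n) p120 = (((-(n : ℤ) - -(m : ℤ) : ℤ) : WithBot ℤ), ((0 - -(m : ℤ) : ℤ) : WithBot ℤ)) ∧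
    chartOf (eI m n) p201 = (((0 - -(n : ℤ) : ℤ) : WithBot ℤ), ((-(m : ℤ) - -(n : ℤ) : ℤ) : WithBot ℤ)) ∧
    chartOf (eI m n) p210 = (((-(m : ℤ) - -(n : ℤ) : ℤ) : WithBot ℤ), ((0 - -(n : ℤ) : ℤ) : WithBot ℤ)) := by
  refine ⟨?_, ?_, ?_, ?_, ?_, ?_⟩
  · rw [chartOf_of _ p012_v.1 p012_v.2.1 p012_v.2.2]; rfl
  · rw [chartOf_of _ p021_v.1 p021_v.2.1 p021_v.2.2]; rfl
  · rw [chartOf_of _ p102_v.1 p102_v.2.1 p102_v.2.2]; rfl
  · rw [chartOf_of _ p120_v.1 p120_v.2.1 p120_v.2.2]; rfl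
  · rw [chartOf_of _ p201_v.1 p201_v.2.1 p201_v.2.2]; rfl
  · rw [chartOf_of _ p210_v.1 p210_v.2.1 p210_v.2.2]; rfl

/-- the chart position of a relabelling of an interior point is an interior point of the window -/
lemma chart_int_form {m n L : ℕ} (h1 : m ≤ n) (h2 : n ≤ L) (π : Equiv.Perm (Fin 3)) :
    ∃ i j : ℤ, chartOf (eI m n) π = ((i : WithBot ℤ), (j : WithBot ℤ)) ∧
      -(L : ℤ) ≤ i ∧ i ≤ L ∧ -(L : ℤ) ≤ j ∧ j ≤ L := by
  obtain ⟨e1, e2, e3, e4, e5, e6⟩ := chart_int m n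
  rcases perm3_cases π with rfl | rfl | rfl | rfl | rfl | rfl
  · exact ⟨_, _, e1, by omega, by omega, by omega, by omega⟩
  · exact ⟨_, _, e2, by omega, by omega, by omega, by omega⟩
  · exact ⟨_, _, e3, by omega, by omega, by omega, by omega⟩
  · exact ⟨_, _, e4, by omega, by omega, by omega, by omega⟩
  · exact ⟨_, _, e5, by omega, by omega, by omega, by omega⟩
  · exact ⟨_, _, e6, by omega, by omega, by omega, by omega⟩

section Input

variable {P : RPar} {s p L D Wl : ℕ}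

lemma inTermI_eq {t : ℕ} (h1 : t % (P.Mt + 1) ≤ t / (P.Mt + 1)) (h2 : t / (P.Mt + 1) ≤ L) :
    inTermI (mkIn P s p L D) Wl t =
      ∑ π : Equiv.Perm (Fin 3), valS (intH P.A P.B (t % (P.Mt + 1)) (t / (P.Mt + 1)))
        (dg P.wS Wl t) (π 0) *
        2 ^ (s * posOf L D (chartOf (eI (t % (P.Mt + 1)) (t / (P.Mt + 1))) π)) := by
  set m := t % (P.Mt + 1) with hm
  set n := t / (P.Mt + 1) with hn
  rw [sum_perm3]
  obtain ⟨e1, e2, e3, e4, e5, e6⟩ := chart_int m n
  rw [e1, e2, e3, e4, e5, e6, p012_v.1, p021_v.1, p102_v.1, p120_v.1, p201_v.1, p210_v.1]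
  simp only [inTermI, mkIn, Nat.succ_eq_add_one, Nat.add_eq, Nat.mul_eq, Nat.sub_eq,
    posOf, valS, sl_eq, H3.get]
  rw [rdDig_eq]
  simp only [Matrix.cons_val_zero, Matrix.cons_val_one, Matrix.cons_val]
  have a1 : (-(m : ℤ) - 0 + L).toNat = L - m := by omega
  have a2 : (-(n : ℤ) - 0 + L).toNat = L - n := by omega
  have a3 : (0 - -(m : ℤ) + L).toNat = L + m := by omega
  have a4 : (-(n : ℤ) - -(m : ℤ) + L).toNat = L + m - n := by omega
  have a5 : (0 - -(n : ℤ) + L).toNat = L + n := by omega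
  have a6 : (-(m : ℤ) - -(n : ℤ) + L).toNat = L + n - m := by omega
  rw [a1, a2, a3, a4, a5, a6]
  rfl

lemma inTermE_eq {t : ℕ} :
    inTermE (mkIn P s p L D) Wl t =
      valS (edgeH P.A P.B (t - P.nI)) (dg P.wS Wl t) 0 * 2 ^ (s * (L - (t - P.nI))) +
      valS (edgeH P.A P.B (t - P.nI)) (dg P.wS Wl t) 1 * 2 ^ (s * (L + (t - P.nI))) := by
  simp only [inTermE, mkIn, Nat.add_eq, Nat.mul_eq, Nat.sub_eq, valS, sl_eq, H3.get]
  rw [rdDig_eq]
  simp only [Matrix.cons_val_zero, Matrix.cons_val_one]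
  rfl

lemma valS_sum_le {Y : H3} (hY : 0 < Y.sum) (w : ℕ) :
    2 * (valS Y w 0 + valS Y w 1 + valS Y w 2) ≤ w := by
  have h0 := Nat.div_mul_le_self (w * Y.get 0) (2 * Y.sum)
  have h1 := Nat.div_mul_le_self (w * Y.get 1) (2 * Y.sum)
  have h2 := Nat.div_mul_le_self (w * Y.get 2) (2 * Y.sum)
  have hs := Y.sum_eq
  rw [Fin.sum_univ_three] at hs
  simp only [valS]
  set v0 := w * Y.get 0 / (2 * Y.sum)
  set v1 := w * Y.get 1 / (2 * Y.sum)
  set v2 := w * Y.get 2 / (2 * Y.sum)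
  have h3 : (2 * (v0 + v1 + v2)) * Y.sum ≤ w * Y.sum := by
    calc (2 * (v0 + v1 + v2)) * Y.sum
        = v0 * (2 * Y.sum) + v1 * (2 * Y.sum) + v2 * (2 * Y.sum) := by ring
      _ ≤ w * Y.get 0 + w * Y.get 1 + w * Y.get 2 := add_le_add (add_le_add h0 h1) h2
      _ = w * Y.sum := by rw [← hs]; ring
  exact Nat.le_of_mul_le_mul_right h3 hY

/-- the polynomial of an interior slot -/
noncomputable def termPI (P : RPar) (L D Wl t : ℕ) : ℕ[X] :=
  ∑ π : Equiv.Perm (Fin 3), monomial (posOf L D (chartOf (eI (t % (P.Mt + 1)) (t / (P.Mt + 1))) π))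
    (valS (intH P.A P.B (t % (P.Mt + 1)) (t / (P.Mt + 1))) (dg P.wS Wl t) (π 0))

/-- the polynomial of a slot on the edge -/
noncomputable def termPE (P : RPar) (L Wl t : ℕ) : ℕ[X] :=
  monomial (L - (t - P.nI)) (valS (edgeH P.A P.B (t - P.nI)) (dg P.wS Wl t) 0) +
  monomial (L + (t - P.nI)) (valS (edgeH P.A P.B (t - P.nI)) (dg P.wS Wl t) 1)

lemma eval_termPI {t : ℕ} (h1 : t % (P.Mt + 1) ≤ t / (P.Mt + 1)) (h2 : t / (P.Mt + 1) ≤ L) :
    (termPI P L D Wl t).eval (2 ^ s) = inTermI (mkIn P s p L D) Wl t := by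
  rw [inTermI_eq h1 h2, termPI, eval_finsetSum]
  refine Finset.sum_congr rfl fun π _ => ?_
  rw [eval_monomial, ← pow_mul]

lemma eval_termPE {t : ℕ} :
    (termPE P L Wl t).eval (2 ^ s) = inTermE (mkIn P s p L D) Wl t := by
  rw [inTermE_eq, termPE, eval_add, eval_monomial, eval_monomial, ← pow_mul, ← pow_mul]

lemma eval_one_termPI (hP : P.OK) (t : ℕ) : (termPI P L D Wl t).eval 1 ≤ dg P.wS Wl t := by
  rw [termPI, eval_finsetSum]
  simp only [eval_monomial, one_pow, mul_one]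
  rw [sum_perm3, p012_v.1, p021_v.1, p102_v.1, p120_v.1, p201_v.1, p210_v.1]
  have := valS_sum_le (intH_sum_pos hP.hA (B := P.B) (t % (P.Mt + 1)) (t / (P.Mt + 1))) (dg P.wS Wl t)
  omega

lemma eval_one_termPE (hP : P.OK) (t : ℕ) : 2 * (termPE P L Wl t).eval 1 ≤ dg P.wS Wl t := by
  rw [termPE, eval_add, eval_monomial, eval_monomial]
  have := valS_sum_le (edgeH_sum_pos hP.hA (B := P.B) (t - P.nI)) (dg P.wS Wl t)
  simp only [one_pow, mul_one]
  omega

lemma inSum_eq_list (C : InC) (W : ℕ) (l : List ℕ) : inSumI C W l = (l.map (inTermI C W)).sum := by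
  induction l with
  | nil => rfl
  | cons t l ih =>
    simp only [List.map_cons, List.sum_cons, ← ih]
    rfl

lemma inSumE_eq_list (C : InC) (W : ℕ) (l : List ℕ) : inSumE C W l = (l.map (inTermE C W)).sum := by
  induction l with
  | nil => rfl
  | cons t l ih =>
    simp only [List.map_cons, List.sum_cons, ← ih]
    rfl

lemma inMass_eq_list (C : InC) (W : ℕ) (l : List ℕ) :
    inMass C W l = (l.map (rdDig C.wS C.M W)).sum := by
  induction l with
  | nil => rfl
  | cons t l ih =>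
    simp only [List.map_cons, List.sum_cons, ← ih]
    rfl

lemma inMass_mk {l : List ℕ} (hnd : l.Nodup) :
    inMass (mkIn P s p L D) Wl l = ∑ t ∈ l.toFinset, dg P.wS Wl t := by
  rw [inMass_eq_list, List.sum_toFinset _ hnd]
  simp only [mkIn]
  congr 1
  exact List.map_congr_left fun t _ => rdDig_eq _ _ _

/-- the facts on the list of the interior slots -/
structure SlotI (P : RPar) (L t : ℕ) : Prop where
  h1 : t < P.nI
  h2 : t < P.nT
  h3 : t % (P.Mt + 1) ≤ t / (P.Mt + 1)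
  h4 : t / (P.Mt + 1) ≤ L

/-- the facts on the list of the edge slots -/
structure SlotE (P : RPar) (L t : ℕ) : Prop where
  h1 : P.nI ≤ t
  h2 : t < P.nT
  h3 : t - P.nI ≤ L

lemma chkUsed_spec {usedI usedE : List ℕ} (h : P.chkUsed L usedI usedE = true) :
    (∀ t ∈ usedI, SlotI P L t) ∧ usedI.Nodup ∧ (∀ t ∈ usedE, SlotE P L t) ∧ usedE.Nodup := by
  simp only [RPar.chkUsed, Bool.and_eq_true] at h
  obtain ⟨h1, h2⟩ := h
  obtain ⟨h3, h4⟩ := chkList_spec h1
  obtain ⟨h5, h6⟩ := chkList_spec h2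
  refine ⟨fun t ht => ?_, h4, fun t ht => ?_, h6⟩
  · have := (h3 t ht).2
    simp only [Bool.and_eq_true] at this
    obtain ⟨⟨⟨a, b⟩, c⟩, d⟩ := this
    exact ⟨by simpa using a, by simpa using b, Nat.le_of_ble_eq_true c, Nat.le_of_ble_eq_true d⟩
  · have := (h5 t ht).2
    simp only [Bool.and_eq_true] at this
    obtain ⟨a, b⟩ := this
    exact ⟨(h5 t ht).1, by simpa using a, Nat.le_of_ble_eq_true b⟩

/-- the polynomial of the interior part -/
noncomputable def rhoI (P : RPar) (L D Wl : ℕ) (T : Finset ℕ) : ℕ[X] := ∑ t ∈ T, termPI P L D Wl t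

/-- the polynomial of the edge part -/
noncomputable def rhoE (P : RPar) (L Wl : ℕ) (T : Finset ℕ) : ℕ[X] := ∑ t ∈ T, termPE P L Wl t

lemma inSumI_eq_eval {usedI : List ℕ} (hnd : usedI.Nodup) (hv : ∀ t ∈ usedI, SlotI P L t) :
    inSumI (mkIn P s p L D) Wl usedI = (rhoI P L D Wl usedI.toFinset).eval (2 ^ s) := by
  rw [inSum_eq_list, rhoI, eval_finsetSum, List.sum_toFinset _ hnd]
  congr 1
  exact List.map_congr_left fun t ht => (eval_termPI (hv t ht).h3 (hv t ht).h4).symm

lemma inSumE_eq_eval {usedE : List ℕ} (hnd : usedE.Nodup) :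
    inSumE (mkIn P s p L D) Wl usedE = (rhoE P L Wl usedE.toFinset).eval (2 ^ s) := by
  rw [inSumE_eq_list, rhoE, eval_finsetSum, List.sum_toFinset _ hnd]
  congr 1
  exact List.map_congr_left fun t _ => eval_termPE.symm

/-! ### The real weights -/

/-- the value is a lower bound of the law given the root -/
lemma valS_le_freeNu {Y : H3} (hY : 0 < Y.sum) (w : ℕ) (l : Fin 3) :
    (valS Y w l : ℝ) / (2 ^ p : ℕ) ≤ (1 / 2) * (Y.pt l) * ((w : ℝ) / (2 ^ p : ℕ)) := by
  have hs : (0 : ℝ) < Y.sum := by exact_mod_cast hY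
  have hS : (0 : ℝ) < ((2 ^ p : ℕ) : ℝ) := by positivity
  have h1 : (valS Y w l : ℝ) ≤ (w : ℝ) * Y.get l / (2 * Y.sum) := by
    have := Nat.cast_div_le (α := ℝ) (m := w * Y.get l) (n := 2 * Y.sum)
    simpa [valS] using this
  rw [div_le_iff₀ hS]
  refine h1.trans (le_of_eq ?_)
  simp only [H3.pt]
  field_simp

/-- the sum of the law given the root over the relabellings of the slots -/
noncomputable def Fx (P : RPar) (p Wl : ℕ) (x : WithBot ℤ × WithBot ℤ) (t : ℕ) : ℝ :=
  ∑ π : Equiv.Perm (Fin 3), if chartOf (tgE P.Mt P.nI t) π = x then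
    (1 / 2) * P.g t (π 0) * ((dg P.wS Wl t : ℝ) / (2 ^ p : ℕ)) else 0

lemma Fx_nonneg (hP : P.OK) (x : WithBot ℤ × WithBot ℤ) (t : ℕ) : 0 ≤ Fx P p Wl x t := by
  refine Finset.sum_nonneg fun π _ => ?_
  split_ifs
  · have := (H3.pt_mem (tgH_sum_pos (B := P.B) hP.hA P.Mt P.nI t)).1 (π 0)
    have h2 : 0 ≤ P.g t (π 0) := this
    positivity
  · exact le_rfl

/-- the right side of the bound `hV` as a sum on the slots -/
lemma sum_freeNu_eq (x : WithBot ℤ × WithBot ℤ) :
    ∑ k : Fin P.nT × Equiv.Perm (Fin 3), (if chartOf (tgE P.Mt P.nI k.1) k.2 = x then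
      freeNu 0 (fun t : Fin P.nT => P.g t) (fun t : Fin P.nT => (dg P.wS Wl t : ℝ) / (2 ^ p : ℕ)) k
      else 0) = ∑ t ∈ range P.nT, Fx P p Wl x t := by
  rw [Fintype.sum_prod_type, ← Fin.sum_univ_eq_sum_range (fun t => Fx P p Wl x t)]
  refine Finset.sum_congr rfl fun t _ => Finset.sum_congr rfl fun π _ => ?_
  have hc : (Fintype.card (Equiv.Perm (Fin 3)) : ℝ) = 6 := by
    rw [Fintype.card_perm, Fintype.card_fin]
    norm_num [Nat.factorial]
  simp only [freeNu, hc]
  norm_num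

lemma sum_Fx_ge (hP : P.OK) {T : Finset ℕ} (hT : ∀ t ∈ T, t < P.nT) (x : WithBot ℤ × WithBot ℤ) :
    ∑ t ∈ T, Fx P p Wl x t ≤ ∑ t ∈ range P.nT, Fx P p Wl x t :=
  Finset.sum_le_sum_of_subset_of_nonneg (fun t ht => mem_range.2 (hT t ht))
    fun t _ _ => Fx_nonneg hP x t

lemma eE0 (m : ℕ) : eE m 0 = ((0 : ℤ) : WithBot ℤ) := rfl
lemma eE1 (m : ℕ) : eE m 1 = ((-(m : ℤ) : ℤ) : WithBot ℤ) := rfl
lemma eE2 (m : ℕ) : eE m 2 = ⊥ := rfl

/-- the relevant chart positions of a point on the edge -/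
lemma chart_edge (m : ℕ) :
    chartOf (eE m) p012 = (((-(m : ℤ) - 0 : ℤ) : WithBot ℤ), ⊥) ∧
    chartOf (eE m) p102 = (((0 - -(m : ℤ) : ℤ) : WithBot ℤ), ⊥) ∧
    chartOf (eE m) p021 = (⊥, ((-(m : ℤ) - 0 : ℤ) : WithBot ℤ)) ∧
    chartOf (eE m) p120 = (⊥, ((0 - -(m : ℤ) : ℤ) : WithBot ℤ)) := by
  refine ⟨?_, ?_, ?_, ?_⟩
  · rw [chartOf_of _ p012_v.1 p012_v.2.1 p012_v.2.2]; rfl
  · rw [chartOf_of _ p102_v.1 p102_v.2.1 p102_v.2.2]; rfl
  · rw [chartOf_of _ p021_v.1 p021_v.2.1 p021_v.2.2]; rfl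
  · rw [chartOf_of _ p120_v.1 p120_v.2.1 p120_v.2.2]; rfl

lemma coeff_rhoI (T : Finset ℕ) (n : ℕ) :
    (rhoI P L D Wl T).coeff n = ∑ t ∈ T, ∑ π : Equiv.Perm (Fin 3),
      if posOf L D (chartOf (eI (t % (P.Mt + 1)) (t / (P.Mt + 1))) π) = n then
        valS (intH P.A P.B (t % (P.Mt + 1)) (t / (P.Mt + 1))) (dg P.wS Wl t) (π 0) else 0 := by
  simp only [rhoI, termPI, finsetSum_coeff, coeff_monomial]

lemma coeff_rhoE (T : Finset ℕ) (n : ℕ) :
    (rhoE P L Wl T).coeff n = ∑ t ∈ T,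
      ((if L - (t - P.nI) = n then valS (edgeH P.A P.B (t - P.nI)) (dg P.wS Wl t) 0 else 0) +
       (if L + (t - P.nI) = n then valS (edgeH P.A P.B (t - P.nI)) (dg P.wS Wl t) 1 else 0)) := by
  simp only [rhoE, termPE, finsetSum_coeff, coeff_add, coeff_monomial]

lemma pos_inj {a c a' c' D : ℕ} (hc : c < D) (hc' : c' < D) (h : a * D + c = a' * D + c') :
    a = a' ∧ c = c' := by
  have h1 := (eq_div_mod_iff hc).1 h
  have h2 := (eq_div_mod_iff hc').1 (rfl : a' * D + c' = a' * D + c')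
  exact ⟨h1.1.trans h2.1.symm, h1.2.trans h2.2.symm⟩

lemma Vof_zero (s p L D : ℕ) (x : WithBot ℤ × WithBot ℤ) : Vof s p L D 0 0 x = 0 := by
  obtain ⟨x1, x2⟩ := x
  cases x1 with
  | bot =>
    cases x2 with
    | bot => rfl
    | coe j =>
      show (if -(L : ℤ) ≤ j ∧ j ≤ L then (dg s 0 (j + L).toNat : ℝ) / (2 ^ p : ℕ) else 0) = 0
      simp [dg]
  | coe i =>
    cases x2 with
    | bot =>
      show (if -(L : ℤ) ≤ i ∧ i ≤ L then (dg s 0 (i + L).toNat : ℝ) / (2 ^ p : ℕ) else 0) = 0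
      simp [dg]
    | coe j =>
      show (if -(L : ℤ) ≤ i ∧ i ≤ L ∧ -(L : ℤ) ≤ j ∧ j ≤ L then
        (dg s 0 ((i + L).toNat * D + (j + L).toNat) : ℝ) / (2 ^ p : ℕ) else 0) = 0
      simp [dg]

/-- **The input step**, on the slots in use.  The state built from the packed weights is a state;
either it is zero, or the mass of the slots in use is at most one and the law of the state is a lower
bound for the law given the root of the invariant law with the weights of these slots on the orbits. -/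
theorem inStep_spec2 (hP : P.OK) (hs : 0 < s) (hp : p < s) (hLD : 2 * L < D)
    {usedI usedE : List ℕ} (hU : P.chkUsed L usedI usedE = true) :
    Good s p L D (inStep (mkIn P s p L D) Wl usedI usedE).1 (inStep (mkIn P s p L D) Wl usedI usedE).2 ∧
    (inStep (mkIn P s p L D) Wl usedI usedE = (0, 0) ∨
      (∑ t ∈ usedI.toFinset, dg P.wS Wl t + ∑ t ∈ usedE.toFinset, dg P.wS Wl t ≤ 2 ^ p ∧
      ∀ x : WithBot ℤ × WithBot ℤ,
        Vof s p L D (inStep (mkIn P s p L D) Wl usedI usedE).1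
          (inStep (mkIn P s p L D) Wl usedI usedE).2 x ≤
        ∑ t ∈ usedI.toFinset ∪ usedE.toFinset, Fx P p Wl x t)) := by
  obtain ⟨hI, hIn, hE, hEn⟩ := chkUsed_spec hU
  have hnn : ∀ x : WithBot ℤ × WithBot ℤ, 0 ≤ ∑ t ∈ usedI.toFinset ∪ usedE.toFinset, Fx P p Wl x t :=
    fun x => Finset.sum_nonneg fun t _ => Fx_nonneg hP x t
  by_cases hg : Nat.ble (Nat.add (inMass (mkIn P s p L D) Wl usedI) (inMass (mkIn P s p L D) Wl usedE))
      (mkIn P s p L D).S = true
  swap
  · have hst : inStep (mkIn P s p L D) Wl usedI usedE = (0, 0) := by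
      simp only [inStep, Bool.not_eq_true] at hg ⊢
      rw [hg, cond_false]
    rw [hst]
    exact ⟨good_zero hs, Or.inl rfl⟩
  -- the guard holds
  have hst : inStep (mkIn P s p L D) Wl usedI usedE =
      (inSumI (mkIn P s p L D) Wl usedI, inSumE (mkIn P s p L D) Wl usedE) := by
    simp only [inStep]
    rw [hg, cond_true]
  have hmass : ∑ t ∈ usedI.toFinset, dg P.wS Wl t + ∑ t ∈ usedE.toFinset, dg P.wS Wl t ≤ 2 ^ p := by
    have := Nat.le_of_ble_eq_true hg
    rwa [Nat.add_eq, inMass_mk hIn, inMass_mk hEn] at this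
  set TI := usedI.toFinset with hTI
  set TE := usedE.toFinset with hTE
  have hTIm : ∀ t ∈ TI, SlotI P L t := fun t ht => hI t (List.mem_toFinset.1 ht)
  have hTEm : ∀ t ∈ TE, SlotE P L t := fun t ht => hE t (List.mem_toFinset.1 ht)
  have hevI : (rhoI P L D Wl TI).eval 1 ≤ ∑ t ∈ TI, dg P.wS Wl t := by
    rw [rhoI, eval_finsetSum]
    exact Finset.sum_le_sum fun t _ => eval_one_termPI hP t
  have hevE : 2 * (rhoE P L Wl TE).eval 1 ≤ ∑ t ∈ TE, dg P.wS Wl t := by
    rw [rhoE, eval_finsetSum, Finset.mul_sum]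
    exact Finset.sum_le_sum fun t _ => eval_one_termPE hP t
  have hSs : 2 ^ p < 2 ^ s := Nat.pow_lt_pow_right (by norm_num) hp
  have hρI : ∀ j, (rhoI P L D Wl TI).coeff j < 2 ^ s := fun j =>
    lt_of_le_of_lt ((coeff_le_eval_one _ j).trans hevI) (by omega)
  have hρE : ∀ j, (rhoE P L Wl TE).coeff j < 2 ^ s := fun j =>
    lt_of_le_of_lt (coeff_le_eval_one _ j) (by omega)
  have hN : inSumI (mkIn P s p L D) Wl usedI = (rhoI P L D Wl TI).eval (2 ^ s) :=
    inSumI_eq_eval hIn hI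
  have hEE : inSumE (mkIn P s p L D) Wl usedE = (rhoE P L Wl TE).eval (2 ^ s) :=
    inSumE_eq_eval hEn
  rw [hst]
  simp only
  rw [hN, hEE]
  have hdgN : ∀ j, dg s ((rhoI P L D Wl TI).eval (2 ^ s)) j = (rhoI P L D Wl TI).coeff j :=
    dg_eval _ hρI
  have hdgE : ∀ j, dg s ((rhoE P L Wl TE).eval (2 ^ s)) j = (rhoE P L Wl TE).coeff j :=
    dg_eval _ hρE
  have hge1 : ∀ x : WithBot ℤ × WithBot ℤ, ∑ t ∈ TE, Fx P p Wl x t ≤
      ∑ t ∈ TI ∪ TE, Fx P p Wl x t := fun x =>
    Finset.sum_le_sum_of_subset_of_nonneg Finset.subset_union_right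
      fun t _ _ => Fx_nonneg hP x t
  have hge2 : ∀ x : WithBot ℤ × WithBot ℤ, ∑ t ∈ TI, Fx P p Wl x t ≤
      ∑ t ∈ TI ∪ TE, Fx P p Wl x t := fun x =>
    Finset.sum_le_sum_of_subset_of_nonneg Finset.subset_union_left
      fun t _ _ => Fx_nonneg hP x t
  refine ⟨⟨?_, ?_, ?_⟩, Or.inr ⟨hmass, ?_⟩⟩
  · -- the support of the interior part
    intro u v hv hne
    rw [hdgN, coeff_rhoI] at hne
    obtain ⟨t, ht, hne⟩ := Finset.exists_ne_zero_of_sum_ne_zero hne
    obtain ⟨π, _, hne⟩ := Finset.exists_ne_zero_of_sum_ne_zero hne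
    have hpos : posOf L D (chartOf (eI (t % (P.Mt + 1)) (t / (P.Mt + 1))) π) = u * D + v := by
      by_contra hc
      simp [hc] at hne
    have hS := hTIm t ht
    obtain ⟨i, j, hc, h1, h2, h3, h4⟩ := chart_int_form (L := L) hS.h3 hS.h4 π
    rw [hc] at hpos
    have hpos' : (i + L).toNat * D + (j + L).toNat = u * D + v := hpos
    have hj : (j + L).toNat < D := by omega
    obtain ⟨h6, h7⟩ := pos_inj hj hv hpos'
    omega
  · -- the support of the edge part
    intro n hne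
    rw [hdgE, coeff_rhoE] at hne
    obtain ⟨t, ht, hne⟩ := Finset.exists_ne_zero_of_sum_ne_zero hne
    have hS := (hTEm t ht).h3
    by_contra hc
    have h1 : L - (t - P.nI) ≠ n := by omega
    have h2 : L + (t - P.nI) ≠ n := by omega
    simp [h1, h2] at hne
  · -- the mass
    have h1 : tot s ((rhoI P L D Wl TI).eval (2 ^ s)) = (rhoI P L D Wl TI).eval 1 := by
      simp only [tot]
      rw [digP_eval hs _ hρI]
    have h2 : tot s ((rhoE P L Wl TE).eval (2 ^ s)) = (rhoE P L Wl TE).eval 1 := by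
      simp only [tot]
      rw [digP_eval hs _ hρE]
    rw [h1, h2]
    omega
  · -- the law
    intro x
    obtain ⟨x1, x2⟩ := x
    have hS0 : (0 : ℝ) < ((2 ^ p : ℕ) : ℝ) := by positivity
    cases x1 with
    | bot =>
      cases x2 with
      | bot => exact hnn _
      | coe j =>
        show (if -(L : ℤ) ≤ j ∧ j ≤ L then
          (dg s ((rhoE P L Wl TE).eval (2 ^ s)) (j + L).toNat : ℝ) / (2 ^ p : ℕ) else 0) ≤ _
        split_ifs with hw
        swap
        · exact hnn _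
        refine le_trans ?_ (hge1 _)
        rw [hdgE, coeff_rhoE, Nat.cast_sum, Finset.sum_div]
        refine Finset.sum_le_sum fun t ht => ?_
        have hSE := hTEm t ht
        have hSE3 := hSE.h3
        have hnI : ¬ t < P.nI := by
          have := hSE.h1
          omega
        have hgt : tgE P.Mt P.nI t = eE (t - P.nI) := by simp only [tgE, if_neg hnI]
        have hgg : P.g t = (edgeH P.A P.B (t - P.nI)).pt := by simp only [RPar.g, tgH_eq_edge hnI]
        have hpos := edgeH_sum_pos (B := P.B) hP.hA (t - P.nI)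
        have hp_nn : ∀ l : Fin 3, 0 ≤ (1 / 2) * (edgeH P.A P.B (t - P.nI)).pt l *
            ((dg P.wS Wl t : ℝ) / (2 ^ p : ℕ)) := fun l => by
          have := (H3.pt_mem hpos).1 l
          positivity
        obtain ⟨_, _, c3, c4⟩ := chart_edge (t - P.nI)
        simp only [Fx, hgt, hgg]
        rw [sum_perm3]
        -- the two relabellings on this side
        have hnn' : ∀ π : Equiv.Perm (Fin 3), 0 ≤ (if chartOf (eE (t - P.nI)) π = (⊥, (j : WithBot ℤ)) then
            (1 / 2) * (edgeH P.A P.B (t - P.nI)).pt (π 0) *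
              ((dg P.wS Wl t : ℝ) / (2 ^ p : ℕ)) else 0) := fun π => by
          split_ifs
          · have := (H3.pt_mem hpos).1 (π 0)
            positivity
          · exact le_rfl
        have h1 := valS_le_freeNu (p := p) hpos (dg P.wS Wl t) 0
        have h2 := valS_le_freeNu (p := p) hpos (dg P.wS Wl t) 1
        have e1 : (((if L - (t - P.nI) = (j + L).toNat then
            valS (edgeH P.A P.B (t - P.nI)) (dg P.wS Wl t) 0 else 0 : ℕ) : ℝ)) / (2 ^ p : ℕ) ≤
            (if chartOf (eE (t - P.nI)) p021 = (⊥, (j : WithBot ℤ)) then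
            (1 / 2) * (edgeH P.A P.B (t - P.nI)).pt (p021 0) *
              ((dg P.wS Wl t : ℝ) / (2 ^ p : ℕ)) else 0) := by
          split_ifs with h3 h4
          · rw [p021_v.1]
            exact h1
          · exfalso
            apply h4
            rw [c3]
            have : j = -((t - P.nI : ℕ) : ℤ) - 0 := by omega
            rw [← this]
          · simp only [CharP.cast_eq_zero, zero_div]
            exact hp_nn _
          · simp
        have e2 : (((if L + (t - P.nI) = (j + L).toNat then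
            valS (edgeH P.A P.B (t - P.nI)) (dg P.wS Wl t) 1 else 0 : ℕ) : ℝ)) / (2 ^ p : ℕ) ≤
            (if chartOf (eE (t - P.nI)) p120 = (⊥, (j : WithBot ℤ)) then
            (1 / 2) * (edgeH P.A P.B (t - P.nI)).pt (p120 0) *
              ((dg P.wS Wl t : ℝ) / (2 ^ p : ℕ)) else 0) := by
          split_ifs with h3 h4
          · rw [p120_v.1]
            exact h2
          · exfalso
            apply h4
            rw [c4]
            have : j = 0 - -((t - P.nI : ℕ) : ℤ) := by omega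
            rw [← this]
          · simp only [CharP.cast_eq_zero, zero_div]
            exact hp_nn _
          · simp
        have := hnn' p012
        have := hnn' p102
        have := hnn' p201
        have := hnn' p210
        rw [Nat.cast_add, add_div]
        linarith
    | coe i =>
      cases x2 with
      | bot =>
        show (if -(L : ℤ) ≤ i ∧ i ≤ L then
          (dg s ((rhoE P L Wl TE).eval (2 ^ s)) (i + L).toNat : ℝ) / (2 ^ p : ℕ) else 0) ≤ _
        split_ifs with hw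
        swap
        · exact hnn _
        refine le_trans ?_ (hge1 _)
        rw [hdgE, coeff_rhoE, Nat.cast_sum, Finset.sum_div]
        refine Finset.sum_le_sum fun t ht => ?_
        have hSE := hTEm t ht
        have hSE3 := hSE.h3
        have hnI : ¬ t < P.nI := by
          have := hSE.h1
          omega
        have hgt : tgE P.Mt P.nI t = eE (t - P.nI) := by simp only [tgE, if_neg hnI]
        have hgg : P.g t = (edgeH P.A P.B (t - P.nI)).pt := by simp only [RPar.g, tgH_eq_edge hnI]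
        have hpos := edgeH_sum_pos (B := P.B) hP.hA (t - P.nI)
        have hp_nn : ∀ l : Fin 3, 0 ≤ (1 / 2) * (edgeH P.A P.B (t - P.nI)).pt l *
            ((dg P.wS Wl t : ℝ) / (2 ^ p : ℕ)) := fun l => by
          have := (H3.pt_mem hpos).1 l
          positivity
        obtain ⟨c1, c2, _, _⟩ := chart_edge (t - P.nI)
        simp only [Fx, hgt, hgg]
        rw [sum_perm3]
        have hnn' : ∀ π : Equiv.Perm (Fin 3), 0 ≤ (if chartOf (eE (t - P.nI)) π = ((i : WithBot ℤ), ⊥) then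
            (1 / 2) * (edgeH P.A P.B (t - P.nI)).pt (π 0) *
              ((dg P.wS Wl t : ℝ) / (2 ^ p : ℕ)) else 0) := fun π => by
          split_ifs
          · have := (H3.pt_mem hpos).1 (π 0)
            positivity
          · exact le_rfl
        have h1 := valS_le_freeNu (p := p) hpos (dg P.wS Wl t) 0
        have h2 := valS_le_freeNu (p := p) hpos (dg P.wS Wl t) 1
        have e1 : (((if L - (t - P.nI) = (i + L).toNat then
            valS (edgeH P.A P.B (t - P.nI)) (dg P.wS Wl t) 0 else 0 : ℕ) : ℝ)) / (2 ^ p : ℕ) ≤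
            (if chartOf (eE (t - P.nI)) p012 = ((i : WithBot ℤ), ⊥) then
            (1 / 2) * (edgeH P.A P.B (t - P.nI)).pt (p012 0) *
              ((dg P.wS Wl t : ℝ) / (2 ^ p : ℕ)) else 0) := by
          split_ifs with h3 h4
          · rw [p012_v.1]
            exact h1
          · exfalso
            apply h4
            rw [c1]
            have : i = -((t - P.nI : ℕ) : ℤ) - 0 := by omega
            rw [← this]
          · simp only [CharP.cast_eq_zero, zero_div]
            exact hp_nn _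
          · simp
        have e2 : (((if L + (t - P.nI) = (i + L).toNat then
            valS (edgeH P.A P.B (t - P.nI)) (dg P.wS Wl t) 1 else 0 : ℕ) : ℝ)) / (2 ^ p : ℕ) ≤
            (if chartOf (eE (t - P.nI)) p102 = ((i : WithBot ℤ), ⊥) then
            (1 / 2) * (edgeH P.A P.B (t - P.nI)).pt (p102 0) *
              ((dg P.wS Wl t : ℝ) / (2 ^ p : ℕ)) else 0) := by
          split_ifs with h3 h4
          · rw [p102_v.1]
            exact h2
          · exfalso
            apply h4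
            rw [c2]
            have : i = 0 - -((t - P.nI : ℕ) : ℤ) := by omega
            rw [← this]
          · simp only [CharP.cast_eq_zero, zero_div]
            exact hp_nn _
          · simp
        have := hnn' p021
        have := hnn' p120
        have := hnn' p201
        have := hnn' p210
        rw [Nat.cast_add, add_div]
        linarith
      | coe j =>
        show (if -(L : ℤ) ≤ i ∧ i ≤ L ∧ -(L : ℤ) ≤ j ∧ j ≤ L then
          (dg s ((rhoI P L D Wl TI).eval (2 ^ s)) ((i + L).toNat * D + (j + L).toNat) : ℝ) /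
            (2 ^ p : ℕ) else 0) ≤ _
        split_ifs with hw
        swap
        · exact hnn _
        refine le_trans ?_ (hge2 _)
        rw [hdgN, coeff_rhoI, Nat.cast_sum, Finset.sum_div]
        refine Finset.sum_le_sum fun t ht => ?_
        have hSI := hTIm t ht
        have hgt : tgE P.Mt P.nI t = eI (t % (P.Mt + 1)) (t / (P.Mt + 1)) := by
          simp only [tgE, if_pos hSI.h1]
        have hgg : P.g t = (intH P.A P.B (t % (P.Mt + 1)) (t / (P.Mt + 1))).pt := by
          simp only [RPar.g, tgH_eq_int hSI.h1]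
        have hpos := intH_sum_pos (B := P.B) hP.hA (t % (P.Mt + 1)) (t / (P.Mt + 1))
        simp only [Fx, hgt, hgg]
        rw [Nat.cast_sum, Finset.sum_div]
        refine Finset.sum_le_sum fun π _ => ?_
        have h1 := valS_le_freeNu (p := p) hpos (dg P.wS Wl t) (π 0)
        obtain ⟨i', j', hc, h2, h3, h4, h5⟩ := chart_int_form (L := L) hSI.h3 hSI.h4 π
        have hnn'' : 0 ≤ (1 / 2) * (intH P.A P.B (t % (P.Mt + 1)) (t / (P.Mt + 1))).pt (π 0) *
            ((dg P.wS Wl t : ℝ) / (2 ^ p : ℕ)) := by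
          have := (H3.pt_mem hpos).1 (π 0)
          positivity
        split_ifs with h6 h7
        · exact h1
        · exfalso
          apply h7
          rw [hc] at h6 ⊢
          have h6' : (i' + L).toNat * D + (j' + L).toNat = (i + L).toNat * D + (j + L).toNat := h6
          have hj : (j + L).toNat < D := by omega
          have hj' : (j' + L).toNat < D := by omega
          obtain ⟨h8, h9⟩ := pos_inj hj' hj h6'
          have e1 : i' = i := by omega
          have e2 : j' = j := by omega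
          rw [e1, e2]
        · simp only [CharP.cast_eq_zero, zero_div]
          exact hnn''
        · simp

/-- **The input step.**  The state built from the packed weights is a state, and its law is a lower
bound for the law given the root of the invariant law with these weights on the orbits. -/
theorem inStep_spec (hP : P.OK) (hs : 0 < s) (hp : p < s) (hLD : 2 * L < D)
    {usedI usedE : List ℕ} (hU : P.chkUsed L usedI usedE = true) :
    Good s p L D (inStep (mkIn P s p L D) Wl usedI usedE).1 (inStep (mkIn P s p L D) Wl usedI usedE).2 ∧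
    ∀ x : WithBot ℤ × WithBot ℤ,
      Vof s p L D (inStep (mkIn P s p L D) Wl usedI usedE).1
        (inStep (mkIn P s p L D) Wl usedI usedE).2 x ≤
      ∑ k : Fin P.nT × Equiv.Perm (Fin 3), (if chartOf (tgE P.Mt P.nI k.1) k.2 = x then
        freeNu 0 (fun t : Fin P.nT => P.g t)
          (fun t : Fin P.nT => (dg P.wS Wl t : ℝ) / (2 ^ p : ℕ)) k else 0) := by
  obtain ⟨hI, hIn, hE, hEn⟩ := chkUsed_spec hU
  obtain ⟨hG, hc⟩ := inStep_spec2 (Wl := Wl) hP hs hp hLD hU
  refine ⟨hG, fun x => ?_⟩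
  rw [sum_freeNu_eq]
  have hnn : 0 ≤ ∑ t ∈ range P.nT, Fx P p Wl x t := Finset.sum_nonneg fun t _ => Fx_nonneg hP x t
  rcases hc with h0 | ⟨_, hV⟩
  · rw [h0, Vof_zero]
    exact hnn
  · refine (hV x).trans (sum_Fx_ge hP (fun t ht => ?_) x)
    rcases Finset.mem_union.1 ht with h1 | h1
    · exact (hI t (List.mem_toFinset.1 h1)).h2
    · exact (hE t (List.mem_toFinset.1 h1)).h2

end Input

end Lat

end Crest.Agent.PottsTree
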