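import Crest.Agent.Lib.PottsTree.LatChart

/-!
# A convolution stage with rounding, on arrays

A state is an array `I` on the window `u, v ≤ 2 L` (position `(u - L, v - L)` on the chart) and an array
`E` on the edges.  The star of two states with near-edge rounding is bounded below by arrays given by
explicit finite sums.  This is the bridge between the arithmetic of digits and the law given the root.
-/

namespace Crest.Agent.PottsTree

open Finset
open ConeData
open Cmp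

/-- the interior points of the window -/
def ptW (L u v : ℕ) : Mb := ((((u : ℤ) - L : ℤ) : WithBot ℤ), (((v : ℤ) - L : ℤ) : WithBot ℤ))

/-- the points `(⊥, j)` of the window -/
def ebW (L v : ℕ) : Mb := (⊥, (((v : ℤ) - L : ℤ) : WithBot ℤ))

/-- the points `(i, ⊥)` of the window -/
def ebW' (L v : ℕ) : Mb := ((((v : ℤ) - L : ℤ) : WithBot ℤ), ⊥)

/-- the functional of a state without the second edge -/
noncomputable def StF3 (L : ℕ) (I : ℕ → ℕ → ℝ) (E : ℕ → ℝ) (h : Mb → ℝ) : ℝ :=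
  ∑ u ∈ range (2 * L + 1), ∑ v ∈ range (2 * L + 1), I u v * h (ptW L u v) +
    ∑ v ∈ range (2 * L + 1), E v * h (ebW L v)

/-- the functional of a state: the edge array counts on both edges -/
noncomputable def StF (L : ℕ) (I : ℕ → ℕ → ℝ) (E : ℕ → ℝ) (h : Mb → ℝ) : ℝ :=
  StF3 L I E h + ∑ v ∈ range (2 * L + 1), E v * h (ebW' L v)

section Arrays

variable {L : ℕ} {I I' : ℕ → ℕ → ℝ} {E E' : ℕ → ℝ}

lemma StF3_posF (hI : ∀ u v, 0 ≤ I u v) (hE : ∀ v, 0 ≤ E v) : PosF (StF3 L I E) := fun h hh =>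
  add_nonneg
    (Finset.sum_nonneg fun u _ => Finset.sum_nonneg fun v _ => mul_nonneg (hI u v) (hh _))
    (Finset.sum_nonneg fun v _ => mul_nonneg (hE v) (hh _))

lemma StF_posF (hI : ∀ u v, 0 ≤ I u v) (hE : ∀ v, 0 ≤ E v) : PosF (StF L I E) := fun h hh =>
  add_nonneg (StF3_posF hI hE h hh) (Finset.sum_nonneg fun v _ => mul_nonneg (hE v) (hh _))

/-- the quadruples of indices of two arrays -/
def quadW (L : ℕ) : Finset (ℕ × ℕ × ℕ × ℕ) :=
  range (2 * L + 1) ×ˢ range (2 * L + 1) ×ˢ range (2 * L + 1) ×ˢ range (2 * L + 1)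

lemma sum_quadW (F : ℕ × ℕ × ℕ × ℕ → ℝ) :
    ∑ t ∈ quadW L, F t = ∑ u1 ∈ range (2 * L + 1), ∑ v1 ∈ range (2 * L + 1),
      ∑ u2 ∈ range (2 * L + 1), ∑ v2 ∈ range (2 * L + 1), F (u1, v1, u2, v2) := by
  unfold quadW
  simp only [Finset.sum_product]

/-- the product of two arrays at the position `(a, c)` -/
noncomputable def prodP (L : ℕ) (I I' : ℕ → ℕ → ℝ) (a c : ℕ) : ℝ :=
  ∑ t ∈ quadW L, if t.1 + t.2.2.1 = a ∧ t.2.1 + t.2.2.2 = c then I t.1 t.2.1 * I' t.2.2.1 t.2.2.2 else 0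

/-- the marginal of an array on the second coordinate -/
noncomputable def margM (L : ℕ) (I : ℕ → ℕ → ℝ) (v : ℕ) : ℝ :=
  ∑ u ∈ range (2 * L + 1), I u v

/-- the region of the far points at the position `(a, c)` of a product -/
def FarP (L a c : ℕ) : Prop := L ≤ c ∧ c ≤ 3 * L ∧ (a < L ∨ a + L < c)

instance (L a c : ℕ) : Decidable (FarP L a c) := by
  unfold FarP
  infer_instance

/-- the far mass in the column `c` -/
noncomputable def farC (L : ℕ) (I I' : ℕ → ℕ → ℝ) (c : ℕ) : ℝ :=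
  ∑ a ∈ range (4 * L + 1), if FarP L a c then prodP L I I' a c else 0

/-- the product of the edge arrays with the marginals -/
noncomputable def edgeQ (L : ℕ) (I I' : ℕ → ℕ → ℝ) (E E' : ℕ → ℝ) (c : ℕ) : ℝ :=
  ∑ v1 ∈ range (2 * L + 1), ∑ v2 ∈ range (2 * L + 1),
    if v1 + v2 = c then E v1 * (margM L I' v2 + E' v2) + margM L I v1 * E' v2 else 0

lemma sum_range_shift_le {F : ℕ → ℝ} (hF : ∀ a, 0 ≤ F a) (L : ℕ) :
    ∑ u ∈ range (2 * L + 1), F (u + L) ≤ ∑ a ∈ range (4 * L + 1), F a := by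
  have h1 : ∑ u ∈ range (2 * L + 1), F (u + L) =
      ∑ a ∈ (range (2 * L + 1)).image (fun u => u + L), F a := by
    rw [Finset.sum_image]
    intro x _ y _ h
    simpa using h
  rw [h1]
  refine Finset.sum_le_sum_of_subset_of_nonneg ?_ fun a _ _ => hF a
  intro a ha
  simp only [Finset.mem_image, Finset.mem_range] at ha ⊢
  obtain ⟨u, hu, rfl⟩ := ha
  omega

lemma prodP_nonneg (hI : ∀ u v, 0 ≤ I u v) (hI' : ∀ u v, 0 ≤ I' u v) (a c : ℕ) :
    0 ≤ prodP L I I' a c := by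
  unfold prodP
  refine Finset.sum_nonneg fun _ _ => ?_
  split_ifs
  · exact mul_nonneg (hI _ _) (hI' _ _)
  · exact le_rfl

/-- grouping of the product of two arrays by the position -/
lemma sum_prodP (F : ℕ → ℕ → ℝ) :
    ∑ a ∈ range (4 * L + 1), ∑ c ∈ range (4 * L + 1), prodP L I I' a c * F a c =
      ∑ t ∈ quadW L, I t.1 t.2.1 * I' t.2.2.1 t.2.2.2 * F (t.1 + t.2.2.1) (t.2.1 + t.2.2.2) := by
  unfold prodP
  simp only [Finset.sum_mul]
  have e1 : ∀ a c, ∑ t ∈ quadW L,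
      (if t.1 + t.2.2.1 = a ∧ t.2.1 + t.2.2.2 = c then I t.1 t.2.1 * I' t.2.2.1 t.2.2.2 else 0) * F a c =
      ∑ t ∈ quadW L, (if t.1 + t.2.2.1 = a ∧ t.2.1 + t.2.2.2 = c then
        I t.1 t.2.1 * I' t.2.2.1 t.2.2.2 * F (t.1 + t.2.2.1) (t.2.1 + t.2.2.2) else 0) := by
    intro a c
    refine Finset.sum_congr rfl fun t _ => ?_
    split_ifs with h
    · rw [h.1, h.2]
    · simp
  simp only [e1]
  have e2 : ∀ t ∈ quadW L, ∑ a ∈ range (4 * L + 1), ∑ c ∈ range (4 * L + 1),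
      (if t.1 + t.2.2.1 = a ∧ t.2.1 + t.2.2.2 = c then
        I t.1 t.2.1 * I' t.2.2.1 t.2.2.2 * F (t.1 + t.2.2.1) (t.2.1 + t.2.2.2) else 0) =
      I t.1 t.2.1 * I' t.2.2.1 t.2.2.2 * F (t.1 + t.2.2.1) (t.2.1 + t.2.2.2) := by
    intro t ht
    simp only [quadW, Finset.mem_product, Finset.mem_range] at ht
    obtain ⟨h1, h2, h3, h4⟩ := ht
    rw [Finset.sum_eq_single (t.1 + t.2.2.1), Finset.sum_eq_single (t.2.1 + t.2.2.2)]
    · simp
    · intro c _ hc
      rw [if_neg]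
      exact fun h => hc h.2.symm
    · intro hc
      exact absurd (Finset.mem_range.2 (by omega)) hc
    · intro a _ ha
      refine Finset.sum_eq_zero fun c _ => ?_
      rw [if_neg]
      exact fun h => ha h.1.symm
    · intro ha
      exact absurd (Finset.mem_range.2 (by omega)) ha
  calc _ = ∑ a ∈ range (4 * L + 1), ∑ t ∈ quadW L, ∑ c ∈ range (4 * L + 1),
        (if t.1 + t.2.2.1 = a ∧ t.2.1 + t.2.2.2 = c then
          I t.1 t.2.1 * I' t.2.2.1 t.2.2.2 * F (t.1 + t.2.2.1) (t.2.1 + t.2.2.2) else 0) :=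
        Finset.sum_congr rfl fun a _ => Finset.sum_comm
    _ = ∑ t ∈ quadW L, ∑ a ∈ range (4 * L + 1), ∑ c ∈ range (4 * L + 1),
        (if t.1 + t.2.2.1 = a ∧ t.2.1 + t.2.2.2 = c then
          I t.1 t.2.1 * I' t.2.2.1 t.2.2.2 * F (t.1 + t.2.2.1) (t.2.1 + t.2.2.2) else 0) :=
        Finset.sum_comm
    _ = _ := Finset.sum_congr rfl e2

/-- the region of the hexagon at the position `(u, v)` of the window -/
def HexW (L u v : ℕ) : Prop := u ≤ v + L ∧ v ≤ u + L

instance (L u v : ℕ) : Decidable (HexW L u v) := by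
  unfold HexW
  infer_instance

/-- grouping of the edge part -/
lemma sum_edgeQ (F : ℕ → ℝ) :
    ∑ c ∈ range (4 * L + 1), edgeQ L I I' E E' c * F c =
      ∑ v1 ∈ range (2 * L + 1), ∑ v2 ∈ range (2 * L + 1),
        (E v1 * (margM L I' v2 + E' v2) + margM L I v1 * E' v2) * F (v1 + v2) := by
  unfold edgeQ
  simp only [Finset.sum_mul]
  have e1 : ∀ c v1 v2, (if v1 + v2 = c then E v1 * (margM L I' v2 + E' v2) + margM L I v1 * E' v2
      else 0) * F c = if v1 + v2 = c then (E v1 * (margM L I' v2 + E' v2) + margM L I v1 * E' v2) *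
        F (v1 + v2) else 0 := by
    intro c v1 v2
    split_ifs with h
    · rw [h]
    · simp
  simp only [e1]
  rw [Finset.sum_comm]
  refine Finset.sum_congr rfl fun v1 hv1 => ?_
  rw [Finset.sum_comm]
  refine Finset.sum_congr rfl fun v2 hv2 => ?_
  simp only [Finset.mem_range] at hv1 hv2
  rw [Finset.sum_eq_single (v1 + v2)]
  · simp
  · intro c _ hc
    rw [if_neg]
    exact fun h => hc h.symm
  · intro hc
    exact absurd (Finset.mem_range.2 (by omega)) hc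

end Arrays

section Stage

variable {β : ℝ} (hβ : 0 < β) (h1β : 1 < β) {L : ℕ}

/-- the interior position of a product -/
def xyW (L a c : ℕ) : Mb := ((((a : ℤ) - 2 * L : ℤ) : WithBot ℤ), (((c : ℤ) - 2 * L : ℤ) : WithBot ℤ))

/-- the edge position of a product -/
def xbW (L c : ℕ) : Mb := (⊥, (((c : ℤ) - 2 * L : ℤ) : WithBot ℤ))

lemma ptW_add (u1 v1 u2 v2 : ℕ) : ptW L u1 v1 + ptW L u2 v2 = xyW L (u1 + u2) (v1 + v2) := by
  simp only [ptW, xyW, Prod.mk_add_mk, ← WithBot.coe_add]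
  congr 2 <;> push_cast <;> ring

lemma ptW_add_ebW (u1 v1 v2 : ℕ) : ptW L u1 v1 + ebW L v2 = xbW L (v1 + v2) := by
  simp only [ptW, ebW, xbW, Prod.mk_add_mk, ← WithBot.coe_add, WithBot.add_bot]
  congr 2
  push_cast
  ring

lemma ebW_add_ptW (v1 u2 v2 : ℕ) : ebW L v1 + ptW L u2 v2 = xbW L (v1 + v2) := by
  simp only [ptW, ebW, xbW, Prod.mk_add_mk, ← WithBot.coe_add, WithBot.bot_add]
  congr 2
  push_cast
  ring

lemma ebW_add_ebW (v1 v2 : ℕ) : ebW L v1 + ebW L v2 = xbW L (v1 + v2) := by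
  simp only [ebW, xbW, Prod.mk_add_mk, ← WithBot.coe_add, WithBot.bot_add]
  congr 2
  push_cast
  ring

/-- the near-edge map of the window -/
noncomputable abbrev Rw (hβ : 0 < β) (h1β : 1 < β) (L : ℕ) : Mb → Mb :=
  edgeMap hβ (thr β L) (thr_nonneg h1β) (thr_le_one h1β)

/-- the hexagon part of the function read after rounding, at the position `(a, c)` of a product -/
noncomputable def readHex (L : ℕ) (h : Mb → ℝ) (a c : ℕ) : ℝ :=
  if L ≤ a ∧ L ≤ c ∧ HexW L (a - L) (c - L) ∧ a ≤ 3 * L ∧ c ≤ 3 * L then h (ptW L (a - L) (c - L)) else 0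

/-- the far part of the function read after rounding, at the position `(a, c)` of a product -/
noncomputable def readFar (L : ℕ) (h : Mb → ℝ) (a c : ℕ) : ℝ :=
  if FarP L a c then h (ebW L (c - L)) else 0

lemma read_le {h : Mb → ℝ} (hh : ∀ x, 0 ≤ h x) (a c : ℕ) :
    readHex L h a c + readFar L h a c ≤ h (Rw hβ h1β L (xyW L a c)) := by
  unfold readHex readFar
  by_cases h1 : L ≤ a ∧ L ≤ c ∧ HexW L (a - L) (c - L) ∧ a ≤ 3 * L ∧ c ≤ 3 * L
  · obtain ⟨h2, h3, ⟨h4, h5⟩, h6, h7⟩ := h1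
    have h8 : ¬ FarP L a c := by
      rintro ⟨_, _, h9 | h9⟩ <;> omega
    have h9 : L ≤ a ∧ L ≤ c ∧ HexW L (a - L) (c - L) ∧ a ≤ 3 * L ∧ c ≤ 3 * L :=
      ⟨h2, h3, ⟨h4, h5⟩, h6, h7⟩
    rw [if_pos h9, if_neg h8, add_zero]
    have e := edgeMap_hex hβ h1β (L := L) (i := (a : ℤ) - 2 * L) (j := (c : ℤ) - 2 * L)
      (by omega) (by omega) (by omega) (by omega) (by omega) (by omega)
    have e2 : ptW L (a - L) (c - L) = xyW L a c := by
      simp only [ptW, xyW]
      congr 2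
      · omega
      · omega
    rw [e2]
    show _ ≤ h (edgeMap hβ (thr β L) _ _ (_, _))
    rw [e]
    exact le_rfl
  · rw [if_neg h1, zero_add]
    by_cases h2 : FarP L a c
    · rw [if_pos h2]
      obtain ⟨h3, h4, h5⟩ := h2
      have e := edgeMap_far hβ h1β (L := L) (i := (a : ℤ) - 2 * L) (j := (c : ℤ) - 2 * L)
        (by omega) (by omega) (by omega)
      have e2 : ebW L (c - L) = (⊥, (((c : ℤ) - 2 * L : ℤ) : WithBot ℤ)) := by
        simp only [ebW]
        congr 2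
        omega
      rw [e2]
      show _ ≤ h (edgeMap hβ (thr β L) _ _ (_, _))
      rw [e]
    · rw [if_neg h2]
      exact hh _

lemma readEdge_le {h : Mb → ℝ} (hh : ∀ x, 0 ≤ h x) (c : ℕ) :
    (if L ≤ c ∧ c ≤ 3 * L then h (ebW L (c - L)) else 0) ≤ h (Rw hβ h1β L (xbW L c)) := by
  split_ifs with h1
  · have e := edgeMap_edge hβ h1β (L := L) (j := (c : ℤ) - 2 * L) (by omega) (by omega)
    have e2 : ebW L (c - L) = xbW L c := by
      simp only [ebW, xbW]
      congr 2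
      omega
    rw [e2]
    show _ ≤ h (edgeMap hβ (thr β L) _ _ (_, _))
    rw [e]
    exact le_rfl
  · exact hh _

variable {I I' I'' : ℕ → ℕ → ℝ} {E E' E'' : ℕ → ℝ}

lemma margM_nonneg (hI : ∀ u v, 0 ≤ I u v) (v : ℕ) : 0 ≤ margM L I v :=
  Finset.sum_nonneg fun _ _ => hI _ _

lemma edgeQ_nonneg (hI : ∀ u v, 0 ≤ I u v) (hI' : ∀ u v, 0 ≤ I' u v) (hE : ∀ v, 0 ≤ E v)
    (hE' : ∀ v, 0 ≤ E' v) (c : ℕ) : 0 ≤ edgeQ L I I' E E' c := by
  unfold edgeQ
  refine Finset.sum_nonneg fun _ _ => Finset.sum_nonneg fun _ _ => ?_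
  split_ifs
  · exact add_nonneg (mul_nonneg (hE _) (add_nonneg (margM_nonneg hI' _) (hE' _)))
      (mul_nonneg (margM_nonneg hI _) (hE' _))
  · exact le_rfl

lemma farC_nonneg (hI : ∀ u v, 0 ≤ I u v) (hI' : ∀ u v, 0 ≤ I' u v) (c : ℕ) :
    0 ≤ farC L I I' c := by
  unfold farC
  refine Finset.sum_nonneg fun _ _ => ?_
  split_ifs
  · exact prodP_nonneg hI hI' _ _
  · exact le_rfl

/-- the expansion of the star of two states, keeping the relevant terms -/
lemma stF_star_ge (hI : ∀ u v, 0 ≤ I u v) (hI' : ∀ u v, 0 ≤ I' u v) (hE : ∀ v, 0 ≤ E v)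
    (hE' : ∀ v, 0 ≤ E' v) {k : Mb → ℝ} (hk : ∀ x, 0 ≤ k x) :
    ∑ t ∈ quadW L, I t.1 t.2.1 * I' t.2.2.1 t.2.2.2 * k (xyW L (t.1 + t.2.2.1) (t.2.1 + t.2.2.2)) +
      ∑ v1 ∈ range (2 * L + 1), ∑ v2 ∈ range (2 * L + 1),
        (E v1 * (margM L I' v2 + E' v2) + margM L I v1 * E' v2) * k (xbW L (v1 + v2)) ≤
      StF L I E (fun x => StF L I' E' (fun y => k (x + y))) := by
  have hG : ∀ x, 0 ≤ StF L I' E' (fun y => k (x + y)) := fun x =>
    StF_posF hI' hE' _ fun y => hk _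
  -- the value of the second factor at an interior point
  have h1 : ∀ u1 v1, ∑ u2 ∈ range (2 * L + 1), ∑ v2 ∈ range (2 * L + 1),
      I' u2 v2 * k (xyW L (u1 + u2) (v1 + v2)) +
      ∑ v2 ∈ range (2 * L + 1), E' v2 * k (xbW L (v1 + v2)) ≤
      StF L I' E' (fun y => k (ptW L u1 v1 + y)) := by
    intro u1 v1
    unfold StF StF3
    simp only [ptW_add, ptW_add_ebW]
    exact le_add_of_nonneg_right (Finset.sum_nonneg fun v _ => mul_nonneg (hE' v) (hk _))
  have h2 : ∀ v1, ∑ u2 ∈ range (2 * L + 1), ∑ v2 ∈ range (2 * L + 1),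
      I' u2 v2 * k (xbW L (v1 + v2)) +
      ∑ v2 ∈ range (2 * L + 1), E' v2 * k (xbW L (v1 + v2)) ≤
      StF L I' E' (fun y => k (ebW L v1 + y)) := by
    intro v1
    unfold StF StF3
    simp only [ebW_add_ptW, ebW_add_ebW]
    exact le_add_of_nonneg_right (Finset.sum_nonneg fun v _ => mul_nonneg (hE' v) (hk _))
  have h3 : ∑ t ∈ quadW L, I t.1 t.2.1 * I' t.2.2.1 t.2.2.2 * k (xyW L (t.1 + t.2.2.1) (t.2.1 + t.2.2.2)) =
      ∑ u1 ∈ range (2 * L + 1), ∑ v1 ∈ range (2 * L + 1), I u1 v1 *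
        ∑ u2 ∈ range (2 * L + 1), ∑ v2 ∈ range (2 * L + 1),
          I' u2 v2 * k (xyW L (u1 + u2) (v1 + v2)) := by
    rw [sum_quadW]
    simp only [Finset.mul_sum, mul_assoc]
  have h4 : ∑ v1 ∈ range (2 * L + 1), ∑ v2 ∈ range (2 * L + 1),
      (E v1 * (margM L I' v2 + E' v2) + margM L I v1 * E' v2) * k (xbW L (v1 + v2)) =
      ∑ u1 ∈ range (2 * L + 1), ∑ v1 ∈ range (2 * L + 1), I u1 v1 *
        ∑ v2 ∈ range (2 * L + 1), E' v2 * k (xbW L (v1 + v2)) +
      ∑ v1 ∈ range (2 * L + 1), E v1 * (∑ u2 ∈ range (2 * L + 1), ∑ v2 ∈ range (2 * L + 1),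
        I' u2 v2 * k (xbW L (v1 + v2)) + ∑ v2 ∈ range (2 * L + 1), E' v2 * k (xbW L (v1 + v2))) := by
    have e1 : ∑ u1 ∈ range (2 * L + 1), ∑ v1 ∈ range (2 * L + 1), I u1 v1 *
        ∑ v2 ∈ range (2 * L + 1), E' v2 * k (xbW L (v1 + v2)) =
        ∑ v1 ∈ range (2 * L + 1), margM L I v1 * ∑ v2 ∈ range (2 * L + 1), E' v2 * k (xbW L (v1 + v2)) := by
      rw [Finset.sum_comm]
      refine Finset.sum_congr rfl fun v1 _ => ?_
      rw [margM, Finset.sum_mul]
    have e2 : ∀ v1, ∑ u2 ∈ range (2 * L + 1), ∑ v2 ∈ range (2 * L + 1),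
        I' u2 v2 * k (xbW L (v1 + v2)) =
        ∑ v2 ∈ range (2 * L + 1), margM L I' v2 * k (xbW L (v1 + v2)) := by
      intro v1
      rw [Finset.sum_comm]
      refine Finset.sum_congr rfl fun v2 _ => ?_
      rw [margM, Finset.sum_mul]
    rw [e1, ← Finset.sum_add_distrib]
    refine Finset.sum_congr rfl fun v1 _ => ?_
    rw [e2, ← Finset.sum_add_distrib, Finset.mul_sum, Finset.mul_sum, ← Finset.sum_add_distrib]
    refine Finset.sum_congr rfl fun v2 _ => ?_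
    ring
  rw [h3, h4, ← add_assoc, ← Finset.sum_add_distrib]
  unfold StF StF3
  refine le_trans ?_ (le_add_of_nonneg_right (Finset.sum_nonneg fun v _ => mul_nonneg (hE v) (hG _)))
  refine add_le_add ?_ ?_
  · refine Finset.sum_le_sum fun u1 _ => ?_
    rw [← Finset.sum_add_distrib]
    refine Finset.sum_le_sum fun v1 _ => ?_
    rw [← mul_add]
    exact mul_le_mul_of_nonneg_left (h1 u1 v1) (hI u1 v1)
  · refine Finset.sum_le_sum fun v1 _ => ?_
    exact mul_le_mul_of_nonneg_left (h2 v1) (hE v1)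

/-- **A stage**: the arrays `I''`, `E''` below the explicit sums are below the star with rounding. -/
theorem stage_ineq (hI : ∀ u v, 0 ≤ I u v) (hI' : ∀ u v, 0 ≤ I' u v) (hE : ∀ v, 0 ≤ E v)
    (hE' : ∀ v, 0 ≤ E' v)
    (hI'' : ∀ u v, I'' u v ≤ if HexW L u v then prodP L I I' (u + L) (v + L) else 0)
    (hE'' : ∀ v, E'' v ≤ farC L I I' (v + L) + edgeQ L I I' E E' (v + L))
    {h : Mb → ℝ} (hh : ∀ x, 0 ≤ h x) :
    StF3 L I'' E'' h ≤
      StF L I E (fun x => StF L I' E' (fun y => h (Rw hβ h1β L (x + y)))) := by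
  refine le_trans ?_ (stF_star_ge (k := fun x => h (Rw hβ h1β L x)) hI hI' hE hE' fun x => hh _)
  -- the interior part
  have hA : ∑ t ∈ quadW L, I t.1 t.2.1 * I' t.2.2.1 t.2.2.2 *
        (readHex L h (t.1 + t.2.2.1) (t.2.1 + t.2.2.2) + readFar L h (t.1 + t.2.2.1) (t.2.1 + t.2.2.2)) ≤
      ∑ t ∈ quadW L, I t.1 t.2.1 * I' t.2.2.1 t.2.2.2 *
        h (Rw hβ h1β L (xyW L (t.1 + t.2.2.1) (t.2.1 + t.2.2.2))) :=
    Finset.sum_le_sum fun t _ => mul_le_mul_of_nonneg_left (read_le hβ h1β hh _ _)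
      (mul_nonneg (hI _ _) (hI' _ _))
  rw [← sum_prodP (fun a c => readHex L h a c + readFar L h a c)] at hA
  have hR0 : ∀ a c, 0 ≤ readHex L h a c := fun a c => by
    unfold readHex
    split_ifs
    · exact hh _
    · exact le_rfl
  have hF0 : ∀ a c, 0 ≤ readFar L h a c := fun a c => by
    unfold readFar
    split_ifs
    · exact hh _
    · exact le_rfl
  have hP := prodP_nonneg (L := L) hI hI'
  have e1 : ∑ a ∈ range (4 * L + 1), ∑ c ∈ range (4 * L + 1), prodP L I I' a c *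
      (readHex L h a c + readFar L h a c) =
      ∑ a ∈ range (4 * L + 1), ∑ c ∈ range (4 * L + 1), prodP L I I' a c * readHex L h a c +
      ∑ c ∈ range (4 * L + 1), farC L I I' c * h (ebW L (c - L)) := by
    have e2 : ∑ c ∈ range (4 * L + 1), farC L I I' c * h (ebW L (c - L)) =
        ∑ a ∈ range (4 * L + 1), ∑ c ∈ range (4 * L + 1), prodP L I I' a c * readFar L h a c := by
      rw [Finset.sum_comm]
      refine Finset.sum_congr rfl fun c _ => ?_
      rw [farC, Finset.sum_mul]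
      refine Finset.sum_congr rfl fun a _ => ?_
      unfold readFar
      split_ifs
      · rfl
      · simp
    rw [e2, ← Finset.sum_add_distrib]
    refine Finset.sum_congr rfl fun a _ => ?_
    rw [← Finset.sum_add_distrib]
    refine Finset.sum_congr rfl fun c _ => ?_
    ring
  rw [e1] at hA
  -- the hexagon part of the new array
  have hB : ∑ u ∈ range (2 * L + 1), ∑ v ∈ range (2 * L + 1), I'' u v * h (ptW L u v) ≤
      ∑ a ∈ range (4 * L + 1), ∑ c ∈ range (4 * L + 1), prodP L I I' a c * readHex L h a c := by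
    refine le_trans ?_ (sum_range_shift_le (F := fun a => ∑ c ∈ range (4 * L + 1),
      prodP L I I' a c * readHex L h a c)
      (fun a => Finset.sum_nonneg fun c _ => mul_nonneg (hP _ _) (hR0 _ _)) L)
    refine Finset.sum_le_sum fun u hu => ?_
    refine le_trans ?_ (sum_range_shift_le (F := fun c => prodP L I I' (u + L) c * readHex L h (u + L) c)
      (fun c => mul_nonneg (hP _ _) (hR0 _ _)) L)
    refine Finset.sum_le_sum fun v hv => ?_
    simp only [Finset.mem_range] at hu hv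
    have h2 := hI'' u v
    by_cases h3 : HexW L u v
    · rw [if_pos h3] at h2
      have h4 : readHex L h (u + L) (v + L) = h (ptW L u v) := by
        unfold readHex
        rw [if_pos]
        · simp
        · refine ⟨by omega, by omega, ?_, by omega, by omega⟩
          simpa using h3
      rw [h4]
      exact mul_le_mul_of_nonneg_right h2 (hh _)
    · rw [if_neg h3] at h2
      have := mul_le_mul_of_nonneg_right h2 (hh (ptW L u v))
      rw [zero_mul] at this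
      exact this.trans (mul_nonneg (hP _ _) (hR0 _ _))
  -- the edge part
  have hC : ∑ c ∈ range (4 * L + 1), edgeQ L I I' E E' c *
      (if L ≤ c ∧ c ≤ 3 * L then h (ebW L (c - L)) else 0) ≤
      ∑ v1 ∈ range (2 * L + 1), ∑ v2 ∈ range (2 * L + 1),
        (E v1 * (margM L I' v2 + E' v2) + margM L I v1 * E' v2) *
          h (Rw hβ h1β L (xbW L (v1 + v2))) := by
    rw [sum_edgeQ]
    refine Finset.sum_le_sum fun v1 _ => Finset.sum_le_sum fun v2 _ => ?_
    refine mul_le_mul_of_nonneg_left (readEdge_le hβ h1β hh _) ?_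
    exact add_nonneg (mul_nonneg (hE _) (add_nonneg (margM_nonneg hI' _) (hE' _)))
      (mul_nonneg (margM_nonneg hI _) (hE' _))
  have hD : ∑ v ∈ range (2 * L + 1), E'' v * h (ebW L v) ≤
      ∑ c ∈ range (4 * L + 1), farC L I I' c * h (ebW L (c - L)) +
      ∑ c ∈ range (4 * L + 1), edgeQ L I I' E E' c *
        (if L ≤ c ∧ c ≤ 3 * L then h (ebW L (c - L)) else 0) := by
    have h5 := sum_range_shift_le (F := fun c => farC L I I' c * h (ebW L (c - L)))
      (fun c => mul_nonneg (farC_nonneg hI hI' c) (hh _)) L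
    have h6 := sum_range_shift_le (F := fun c => edgeQ L I I' E E' c *
      (if L ≤ c ∧ c ≤ 3 * L then h (ebW L (c - L)) else 0))
      (fun c => mul_nonneg (edgeQ_nonneg hI hI' hE hE' c) (by
        split_ifs
        · exact hh _
        · exact le_rfl)) L
    refine le_trans ?_ (add_le_add h5 h6)
    rw [← Finset.sum_add_distrib]
    refine Finset.sum_le_sum fun v hv => ?_
    simp only [Finset.mem_range] at hv
    have e3 : (if L ≤ v + L ∧ v + L ≤ 3 * L then h (ebW L (v + L - L)) else 0) = h (ebW L v) := by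
      rw [if_pos ⟨by omega, by omega⟩]
      simp
    have e4 : v + L - L = v := by omega
    rw [e3, e4, ← add_mul]
    exact mul_le_mul_of_nonneg_right (hE'' v) (hh _)
  unfold StF3
  linarith

include h1β in
/-- **The stage in terms of the law given the root.** -/
theorem NuB.stage {Ω Ω' : Type*} {Lq : Ω → Fin 3 → ℝ} {Lq' : Ω' → Fin 3 → ℝ}
    (hq : (3 : ℕ) ≠ 0) (hLq : IsLik Lq) (hLq' : IsLik Lq') (hS' : SymLik Lq')
    (hA : NuB (0 : Fin 3) (Gb hβ) Lq (StF L I E)) (hB : NuB (0 : Fin 3) (Gb hβ) Lq' (StF L I' E'))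
    (hI : ∀ u v, 0 ≤ I u v) (hI' : ∀ u v, 0 ≤ I' u v) (hE : ∀ v, 0 ≤ E v) (hE' : ∀ v, 0 ≤ E' v)
    (hI''0 : ∀ u v, 0 ≤ I'' u v) (hE''0 : ∀ v, 0 ≤ E'' v)
    (hI'' : ∀ u v, I'' u v ≤ if HexW L u v then prodP L I I' (u + L) (v + L) else 0)
    (hE'' : ∀ v, E'' v ≤ farC L I I' (v + L) + edgeQ L I I' E E' (v + L)) :
    NuB (0 : Fin 3) (Gb hβ) (Crest.Agent.PottsTree.star Lq Lq') (StF L I'' E'') := by
  have h1 := NuB.star hq (Gb_chart hβ) hLq hLq' hS' (StF_posF hI' hE') hA hB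
  have h2 := NuB.edgeRound hβ h1 (τ := thr β L) (thr_nonneg h1β) (thr_le_one h1β)
  have h3 : NuB (0 : Fin 3) (Gb hβ) (Crest.Agent.PottsTree.star Lq Lq') (StF3 L I'' E'') :=
    h2.mono fun h hh => stage_ineq hβ h1β hI hI' hE hE' hI'' hE'' hh
  classical
  refine NuB.add_swap (Φ₂ := fun h => ∑ v ∈ range (2 * L + 1), E'' v * h (ebW' L v)) h3
    (Gb_injective hβ h1β) (π := Equiv.swap 1 2) (by decide) (σ := Prod.swap) (Gb_swap hβ)
    {x | ¬ (x.2 = ⊥ ∧ x.1 ≠ ⊥)} ?_ ?_ ?_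
  · intro h
    have e1 : ∀ u v, ptW L u v ∈ {x : Mb | ¬ (x.2 = ⊥ ∧ x.1 ≠ ⊥)} := fun u v => by simp [ptW]
    have e2 : ∀ v, ebW L v ∈ {x : Mb | ¬ (x.2 = ⊥ ∧ x.1 ≠ ⊥)} := fun v => by simp [ebW]
    have e3 : ∀ u v, (if ptW L u v ∈ {x : Mb | ¬ (x.2 = ⊥ ∧ x.1 ≠ ⊥)} then h (ptW L u v) else 0) =
        h (ptW L u v) := fun u v => if_pos (e1 u v)
    have e4 : ∀ v, (if ebW L v ∈ {x : Mb | ¬ (x.2 = ⊥ ∧ x.1 ≠ ⊥)} then h (ebW L v) else 0) =
        h (ebW L v) := fun v => if_pos (e2 v)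
    simp only [StF3, e3, e4]
  · intro h
    have e1 : ∀ v, ebW' L v ∉ {x : Mb | ¬ (x.2 = ⊥ ∧ x.1 ≠ ⊥)} := fun v => by simp [ebW']
    have e3 : ∀ v, (if ebW' L v ∈ {x : Mb | ¬ (x.2 = ⊥ ∧ x.1 ≠ ⊥)} then 0 else h (ebW' L v)) =
        h (ebW' L v) := fun v => if_neg (e1 v)
    simp only [e3]
  · intro h hh
    unfold StF3
    refine le_trans (le_of_eq ?_) (le_add_of_nonneg_left
      (Finset.sum_nonneg fun u _ => Finset.sum_nonneg fun v _ => mul_nonneg (hI''0 u v) (hh _)))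
    refine Finset.sum_congr rfl fun v _ => ?_
    simp [ebW, ebW', Prod.swap]

end Stage

end Crest.Agent.PottsTree
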