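import Crest.Agent.Lib.PottsTree.LatDigit
import Crest.Agent.Lib.PottsTree.LatStage

/-!
# The digit states and the law given the root

A pair of bignums `(N, E)` with the digits read as arrays lies below the law given the root of an
invariant law which bounds an experiment.  Here: the stage, the constant factor, the sum and the unit
on these states, the programs of a level for a regular tree and a Galton-Watson tree, and the two ends:
a bound on orbit representatives to a state, and a state to a bound on the chamber.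
-/

namespace Crest.Agent.PottsTree

open Finset
open ConeData
open Cmp

section Arrays

variable {s p L D N N' E E' : ℕ}

/-- the interior array of a state -/
noncomputable def rI (s p L D N u v : ℕ) : ℝ :=
  if u ≤ 2 * L ∧ v ≤ 2 * L then (Lat.ar s D N u v : ℝ) / 2 ^ p else 0

/-- the edge array of a state -/
noncomputable def rE (s p L E v : ℕ) : ℝ :=
  if v ≤ 2 * L then (Lat.dg s E v : ℝ) / 2 ^ p else 0

lemma rI_nonneg (u v : ℕ) : 0 ≤ rI s p L D N u v := by
  unfold rI
  split_ifs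
  · positivity
  · exact le_rfl

lemma rE_nonneg (v : ℕ) : 0 ≤ rE s p L E v := by
  unfold rE
  split_ifs
  · positivity
  · exact le_rfl

lemma rI_of_mem {u v : ℕ} (hu : u ∈ range (2 * L + 1)) (hv : v ∈ range (2 * L + 1)) :
    rI s p L D N u v = (Lat.ar s D N u v : ℝ) / 2 ^ p := by
  simp only [mem_range] at hu hv
  exact if_pos ⟨by omega, by omega⟩

lemma rE_of_mem {v : ℕ} (hv : v ∈ range (2 * L + 1)) :
    rE s p L E v = (Lat.dg s E v : ℝ) / 2 ^ p := by
  simp only [mem_range] at hv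
  exact if_pos (by omega)

lemma prodP_rI (a c : ℕ) :
    prodP L (rI s p L D N) (rI s p L D N') a c =
      (Lat.conv2 s L D N N' a c : ℝ) / (2 ^ p * 2 ^ p) := by
  unfold prodP Lat.conv2
  rw [sum_quadW]
  push_cast
  simp only [Finset.sum_div]
  refine Finset.sum_congr rfl fun u1 hu1 => Finset.sum_congr rfl fun v1 hv1 =>
    Finset.sum_congr rfl fun u2 hu2 => Finset.sum_congr rfl fun v2 hv2 => ?_
  rw [rI_of_mem hu1 hv1, rI_of_mem hu2 hv2]
  split_ifs
  · push_cast
    ring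
  · simp

lemma margM_rI {v : ℕ} (hv : v ∈ range (2 * L + 1)) :
    margM L (rI s p L D N) v = (Lat.marg s L D N v : ℝ) / 2 ^ p := by
  unfold margM Lat.marg
  push_cast
  rw [Finset.sum_div]
  exact Finset.sum_congr rfl fun u hu => rI_of_mem hu hv

lemma edgeQ_rI (c : ℕ) :
    edgeQ L (rI s p L D N) (rI s p L D N') (rE s p L E) (rE s p L E') c =
      (Lat.convE s L D N E N' E' c : ℝ) / (2 ^ p * 2 ^ p) := by
  unfold edgeQ Lat.convE
  push_cast
  simp only [Finset.sum_div]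
  refine Finset.sum_congr rfl fun v1 hv1 => Finset.sum_congr rfl fun v2 hv2 => ?_
  split_ifs
  · rw [margM_rI hv2, margM_rI hv1, rE_of_mem hv1, rE_of_mem hv2]
    push_cast
    have h2 : ((2 : ℝ) ^ p) ≠ 0 := by positivity
    field_simp
  · simp

lemma farP_iff {a c : ℕ} : FarP L a c ↔ Lat.InFar L a c := by
  unfold FarP Lat.InFar
  omega

lemma farC_rI (c : ℕ) :
    (Lat.farSum s L D N N' c : ℝ) / (2 ^ p * 2 ^ p) ≤
      farC L (rI s p L D N) (rI s p L D N') c := by
  unfold farC Lat.farSum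
  push_cast
  rw [Finset.sum_div]
  have h0 : ∀ a, 0 ≤ if FarP L a c then prodP L (rI s p L D N) (rI s p L D N') a c else 0 := by
    intro a
    split_ifs
    · exact prodP_nonneg rI_nonneg rI_nonneg a c
    · exact le_rfl
  refine le_trans (le_of_eq ?_) (Finset.sum_le_sum_of_subset_of_nonneg
    (s := range (2 * L)) ?_ fun a _ _ => h0 a)
  · refine Finset.sum_congr rfl fun a _ => ?_
    simp only [farP_iff]
    split_ifs
    · rw [prodP_rI]
    · simp
  · intro a ha
    simp only [mem_range] at ha ⊢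
    omega

end Arrays

section States

variable {β : ℝ} (hβ : 0 < β) (s p L D : ℕ) {Ω Ω' : Type*}

/-- A state below the law given the root of an invariant law which bounds `Lq`. -/
structure NuSt (Lq : Ω → Fin 3 → ℝ) (st : ℕ × ℕ) : Prop where
  good : Lat.Good s p L D st.1 st.2
  nu : NuB (0 : Fin 3) (Gb hβ) Lq (StF L (rI s p L D st.1) (rE s p L st.2))

/-- the functional of a state -/
noncomputable abbrev stF (st : ℕ × ℕ) : (Mb → ℝ) → ℝ := StF L (rI s p L D st.1) (rE s p L st.2)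

variable {s p L D}

lemma stF_pos (st : ℕ × ℕ) : PosF (stF s p L D st) := StF_posF rI_nonneg rE_nonneg

variable (h1β : 1 < β) (hp : 2 * p + 4 ≤ s) (hp0 : 0 < p) (hD : 4 * L < D)

include h1β hp hp0 hD in
/-- **The stage on states.** -/
theorem NuSt.stage {Lq : Ω → Fin 3 → ℝ} {Lq' : Ω' → Fin 3 → ℝ} (hq : (3 : ℕ) ≠ 0) (hLq : IsLik Lq)
    (hLq' : IsLik Lq') (hS' : SymLik Lq') {A B : ℕ × ℕ} (hA : NuSt hβ s p L D Lq A)
    (hB : NuSt hβ s p L D Lq' B) :
    NuSt hβ s p L D (Crest.Agent.PottsTree.star Lq Lq')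
      (Lat.stage (Lat.mkCtx s p L D) A.1 A.2 B.1 B.2) := by
  have hsp := Lat.stage_spec hA.good hB.good hp hp0 hD
  refine ⟨hsp.1, ?_⟩
  set R := Lat.stage (Lat.mkCtx s p L D) A.1 A.2 B.1 B.2 with hR
  have hS : (0 : ℝ) < 2 ^ p := by positivity
  refine NuB.stage hβ h1β hq hLq hLq' hS' hA.nu hB.nu rI_nonneg rI_nonneg rE_nonneg rE_nonneg
    rI_nonneg rE_nonneg ?_ ?_
  · intro u v
    have hP : 0 ≤ if HexW L u v then prodP L (rI s p L D A.1) (rI s p L D B.1) (u + L) (v + L)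
        else 0 := by
      split_ifs
      · exact prodP_nonneg rI_nonneg rI_nonneg _ _
      · exact le_rfl
    by_cases hw : u ≤ 2 * L ∧ v ≤ 2 * L
    · have e1 : rI s p L D R.1 u v = (Lat.dg s R.1 (u * D + v) : ℝ) / 2 ^ p := if_pos hw
      rw [e1]
      rcases hsp.2 with h0 | ⟨hd, _⟩
      · rw [h0]
        simpa using hP
      · have hvD : v < D := by omega
        rw [hd u v hvD]
        by_cases hH : HexW L u v
        · have hI : Lat.InHex L (u + L) (v + L) := by
            unfold HexW at hH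
            unfold Lat.InHex
            omega
          rw [if_pos hI, if_pos hH, prodP_rI]
          have := @Nat.cast_div_le ℝ _ _ _ (Lat.conv2 s L D A.1 B.1 (u + L) (v + L)) (2 ^ p)
          push_cast at this
          rw [div_le_iff₀ hS]
          refine this.trans (le_of_eq ?_)
          field_simp
        · have hI : ¬ Lat.InHex L (u + L) (v + L) := by
            unfold HexW at hH
            unfold Lat.InHex
            omega
          rw [if_neg hI, if_neg hH]
          simp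
    · have e1 : rI s p L D R.1 u v = 0 := if_neg hw
      rw [e1]
      exact hP
  · intro v
    have hP : 0 ≤ farC L (rI s p L D A.1) (rI s p L D B.1) (v + L) +
        edgeQ L (rI s p L D A.1) (rI s p L D B.1) (rE s p L A.2) (rE s p L B.2) (v + L) :=
      add_nonneg (farC_nonneg rI_nonneg rI_nonneg _)
        (edgeQ_nonneg rI_nonneg rI_nonneg rE_nonneg rE_nonneg _)
    by_cases hw : v ≤ 2 * L
    · have e1 : rE s p L R.2 v = (Lat.dg s R.2 v : ℝ) / 2 ^ p := if_pos hw
      rw [e1]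
      rcases hsp.2 with h0 | ⟨_, hd⟩
      · rw [h0]
        simpa using hP
      · rw [hd v, if_pos hw]
        have h1 := farC_rI (s := s) (p := p) (L := L) (D := D) (N := A.1) (N' := B.1) (v + L)
        rw [edgeQ_rI]
        have h2 := @Nat.cast_div_le ℝ _ _ _
          (Lat.farSum s L D A.1 B.1 (v + L) + Lat.convE s L D A.1 A.2 B.1 B.2 (v + L)) (2 ^ p)
        push_cast at h2
        rw [div_le_iff₀ hS]
        refine h2.trans ?_
        have h3 : ((Lat.farSum s L D A.1 B.1 (v + L) : ℝ) + Lat.convE s L D A.1 A.2 B.1 B.2 (v + L)) /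
            2 ^ p = ((Lat.farSum s L D A.1 B.1 (v + L) : ℝ) / (2 ^ p * 2 ^ p) +
              (Lat.convE s L D A.1 A.2 B.1 B.2 (v + L) : ℝ) / (2 ^ p * 2 ^ p)) * 2 ^ p := by
          field_simp
        rw [h3]
        exact mul_le_mul_of_nonneg_right (add_le_add_left h1 _) hS.le
    · have e1 : rE s p L R.2 v = 0 := if_neg hw
      rw [e1]
      exact hP

/-- A state of an equivalent experiment. -/
lemma NuSt.ofPot {Lq : Ω → Fin 3 → ℝ} {Lq' : Ω' → Fin 3 → ℝ} {st : ℕ × ℕ}
    (h : NuSt hβ s p L D Lq st) (he : ∀ f, Adm f → Pot f Lq' = Pot f Lq) :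
    NuSt hβ s p L D Lq' st :=
  ⟨h.good, h.nu.ofPot he⟩

omit h1β hp hp0 hD in
lemma StF_mono {I I' : ℕ → ℕ → ℝ} {E E' : ℕ → ℝ}
    (hI : ∀ u v, u ≤ 2 * L → v ≤ 2 * L → I u v ≤ I' u v)
    (hE : ∀ v, v ≤ 2 * L → E v ≤ E' v) {h : Mb → ℝ} (hh : ∀ x, 0 ≤ h x) :
    StF L I E h ≤ StF L I' E' h := by
  unfold StF StF3
  refine add_le_add (add_le_add ?_ ?_) ?_
  · refine Finset.sum_le_sum fun u hu => Finset.sum_le_sum fun v hv => ?_
    simp only [mem_range] at hu hv
    exact mul_le_mul_of_nonneg_right (hI u v (by omega) (by omega)) (hh _)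
  · refine Finset.sum_le_sum fun v hv => ?_
    simp only [mem_range] at hv
    exact mul_le_mul_of_nonneg_right (hE v (by omega)) (hh _)
  · refine Finset.sum_le_sum fun v hv => ?_
    simp only [mem_range] at hv
    exact mul_le_mul_of_nonneg_right (hE v (by omega)) (hh _)

omit h1β hp hp0 hD in
lemma StF_smul (c : ℝ) (I : ℕ → ℕ → ℝ) (E : ℕ → ℝ) (h : Mb → ℝ) :
    StF L (fun u v => c * I u v) (fun v => c * E v) h = c * StF L I E h := by
  unfold StF StF3
  simp only [mul_add, Finset.mul_sum, mul_assoc]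

omit h1β hp hp0 hD in
lemma StF_add (I I' : ℕ → ℕ → ℝ) (E E' : ℕ → ℝ) (h : Mb → ℝ) :
    StF L (fun u v => I u v + I' u v) (fun v => E v + E' v) h = StF L I E h + StF L I' E' h := by
  unfold StF StF3
  simp only [add_mul, Finset.sum_add_distrib]
  ring

include hp hp0 hD in
/-- **A constant factor on states.** -/
theorem stF_mulC {e : ℕ} (he : e ≤ 2 ^ p) {st : ℕ × ℕ} (hA : Lat.Good s p L D st.1 st.2)
    {h : Mb → ℝ} (hh : ∀ x, 0 ≤ h x) :
    stF s p L D (Lat.mulC (Lat.mkCtx s p L D) e st.1 st.2) h ≤ ((e : ℝ) / 2 ^ p) * stF s p L D st h := by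
  obtain ⟨-, hI, hE⟩ := Lat.mulC_spec hA he hp hp0 hD
  have hS : (0 : ℝ) < 2 ^ p := by positivity
  have key : ∀ a : ℕ, ((a * e / 2 ^ p : ℕ) : ℝ) / 2 ^ p ≤ (e : ℝ) / 2 ^ p * ((a : ℝ) / 2 ^ p) := by
    intro a
    have := @Nat.cast_div_le ℝ _ _ _ (a * e) (2 ^ p)
    push_cast at this
    rw [div_le_iff₀ hS]
    refine this.trans (le_of_eq ?_)
    field_simp
  rw [← StF_smul]
  refine StF_mono (fun u v hu hv => ?_) (fun v hv => ?_) hh
  · have e1 : rI s p L D (Lat.mulC (Lat.mkCtx s p L D) e st.1 st.2).1 u v =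
        ((Lat.dg s (Lat.mulC (Lat.mkCtx s p L D) e st.1 st.2).1 (u * D + v) : ℕ) : ℝ) / 2 ^ p :=
      if_pos ⟨hu, hv⟩
    have e2 : rI s p L D st.1 u v = ((Lat.ar s D st.1 u v : ℕ) : ℝ) / 2 ^ p := if_pos ⟨hu, hv⟩
    rw [e1, e2, hI u v (by omega), if_pos ⟨hu, hv⟩]
    exact key _
  · have e1 : rE s p L (Lat.mulC (Lat.mkCtx s p L D) e st.1 st.2).2 v =
        ((Lat.dg s (Lat.mulC (Lat.mkCtx s p L D) e st.1 st.2).2 v : ℕ) : ℝ) / 2 ^ p := if_pos hv
    have e2 : rE s p L st.2 v = ((Lat.dg s st.2 v : ℕ) : ℝ) / 2 ^ p := if_pos hv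
    rw [e1, e2, hE v, if_pos hv]
    exact key _

include hp in
/-- **A sum on states.** -/
theorem stF_addS {A B : ℕ × ℕ} (hA : Lat.Good s p L D A.1 A.2) (hB : Lat.Good s p L D B.1 B.2)
    {h : Mb → ℝ} (hh : ∀ x, 0 ≤ h x) :
    stF s p L D (Lat.addS (Lat.mkCtx s p L D) A.1 A.2 B.1 B.2) h ≤
      stF s p L D A h + stF s p L D B h := by
  have hsp := (Lat.addS_spec hA hB hp).2
  have hpos : 0 ≤ stF s p L D A h + stF s p L D B h := add_nonneg (stF_pos A h hh) (stF_pos B h hh)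
  rcases hsp with h0 | ⟨hI, hE⟩
  · rw [h0]
    refine le_trans (le_of_eq ?_) hpos
    have e1 : rI s p L D (0, 0).1 = fun _ _ => 0 := by
      funext u v
      simp [rI, Lat.ar]
    have e2 : rE s p L (0, 0).2 = fun _ => 0 := by
      funext v
      simp [rE]
    simp [stF, e1, e2, StF, StF3]
  · show StF L _ _ h ≤ StF L _ _ h + StF L _ _ h
    rw [← StF_add]
    refine StF_mono (fun u v hu hv => le_of_eq ?_) (fun v hv => le_of_eq ?_) hh
    · have e1 : ∀ N : ℕ, rI s p L D N u v = ((Lat.dg s N (u * D + v) : ℕ) : ℝ) / 2 ^ p :=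
        fun N => if_pos ⟨hu, hv⟩
      rw [e1, e1, e1, hI]
      push_cast
      ring
    · have e1 : ∀ N : ℕ, rE s p L N v = ((Lat.dg s N v : ℕ) : ℝ) / 2 ^ p := fun N => if_pos hv
      rw [e1, e1, e1, hE]
      push_cast
      ring

include hp hD in
/-- **The unit state.** -/
theorem stF_unitS {h : Mb → ℝ} :
    stF s p L D (Lat.unitS (Lat.mkCtx s p L D)) h = h 0 := by
  obtain ⟨-, hI, hE⟩ := Lat.unitS_spec (s := s) (p := p) (L := L) (D := D) hp hD
  have hS : ((2 : ℝ) ^ p) ≠ 0 := by positivity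
  have e1 : ∀ u v, u ≤ 2 * L → v ≤ 2 * L → rI s p L D (Lat.unitS (Lat.mkCtx s p L D)).1 u v =
      if u = L ∧ v = L then 1 else 0 := by
    intro u v hu hv
    have e : rI s p L D (Lat.unitS (Lat.mkCtx s p L D)).1 u v =
        ((Lat.dg s (Lat.unitS (Lat.mkCtx s p L D)).1 (u * D + v) : ℕ) : ℝ) / 2 ^ p := if_pos ⟨hu, hv⟩
    rw [e, hI u v (by omega)]
    split_ifs
    · push_cast
      exact div_self hS
    · simp
  have e2 : ∀ v, rE s p L (Lat.unitS (Lat.mkCtx s p L D)).2 v = 0 := by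
    intro v
    rw [hE]
    simp [rE]
  have e3 : ptW L L L = 0 := by
    simp [ptW]
  show StF L _ _ h = _
  unfold StF StF3
  simp only [e2, zero_mul, Finset.sum_const_zero, add_zero]
  have hL : L ∈ range (2 * L + 1) := mem_range.2 (by omega)
  rw [Finset.sum_eq_single L, Finset.sum_eq_single L]
  · rw [e1 L L (by omega) (by omega), if_pos ⟨rfl, rfl⟩, e3, one_mul]
  · intro v hv hne
    simp only [mem_range] at hv
    rw [e1 L v (by omega) (by omega), if_neg (fun h1 => hne h1.2), zero_mul]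
  · exact fun h1 => absurd hL h1
  · intro u hu hne
    simp only [mem_range] at hu
    refine Finset.sum_eq_zero fun v hv => ?_
    simp only [mem_range] at hv
    rw [e1 u v (by omega) (by omega), if_neg (fun h1 => hne h1.1), zero_mul]
  · exact fun h1 => absurd hL h1

include hp hD in
/-- The unit state lies below the empty star. -/
theorem NuSt.unit (hq : (3 : ℕ) ≠ 0) (Lq : Ω → Fin 3 → ℝ) :
    NuSt hβ s p L D (starPow Lq 0) (Lat.unitS (Lat.mkCtx s p L D)) := by
  refine ⟨(Lat.unitS_spec hp hD).1, ?_⟩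
  refine (NuB.unit hq (Gb_chart hβ) Lq).mono fun h _ => ?_
  exact le_of_eq (stF_unitS hp hD)

/-! ### Programs -/

/-- the value of a number is computed before it is used -/
def fz {α : Type} (n : ℕ) (k : ℕ → α) : α := Nat.rec (k 0) (fun m _ => k (m + 1)) n

omit h1β hp hp0 hD in
lemma fz_eq {α : Type} (n : ℕ) (k : ℕ → α) : fz n k = k n := by
  cases n <;> rfl

/-- the components of a state are computed before it is used -/
def fzS {α : Type} (x : ℕ × ℕ) (k : ℕ × ℕ → α) : α := fz x.1 fun a => fz x.2 fun b => k (a, b)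

omit h1β hp hp0 hD in
lemma fzS_eq {α : Type} (x : ℕ × ℕ) (k : ℕ × ℕ → α) : fzS x k = k x := by
  simp only [fzS, fz_eq]

/-- A star power by its bits, the most significant first. -/
def regRun (C : Lat.Ctx) (st1 : ℕ × ℕ) : List Bool → ℕ × ℕ → ℕ × ℕ
  | [], x => x
  | b :: bs, x =>
    fzS (Lat.stage C x.1 x.2 x.1 x.2) fun y =>
      cond b (fzS (Lat.stage C y.1 y.2 st1.1 st1.2) (regRun C st1 bs)) (regRun C st1 bs y)

/-- the exponent of `regRun` -/
def regCount : List Bool → ℕ → ℕ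
  | [], n => n
  | b :: bs, n => regCount bs (cond b (n + n + 1) (n + n))

omit h1β hp hp0 hD in
lemma pot_starPow_one (Lq : Ω → Fin 3 → ℝ) (f : (Fin 3 → ℝ) → ℝ) :
    Pot f (starPow Lq 1) = Pot f Lq := by
  have e2 : ∀ w : Ω × (Fin 0 → Ω), Lq (Equiv.prodUnique Ω (Fin 0 → Ω) w) =
      Crest.Agent.PottsTree.star Lq (starPow Lq 0) w := by
    intro w
    funext i
    simp [Crest.Agent.PottsTree.star, starPow]
  rw [pot_congr_starPow_succ, ← pot_congr_equiv (Equiv.prodUnique Ω (Fin 0 → Ω)) e2 f]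

include h1β hp hp0 hD in
/-- **The regular program.** -/
theorem NuSt.regRun (hq : (3 : ℕ) ≠ 0) {Lq : Ω → Fin 3 → ℝ} (hL : IsLik Lq) (hS : SymLik Lq)
    {st1 : ℕ × ℕ} (h1 : NuSt hβ s p L D Lq st1) (bs : List Bool) {x : ℕ × ℕ} {n : ℕ}
    (hx : NuSt hβ s p L D (starPow Lq n) x) :
    NuSt hβ s p L D (starPow Lq (regCount bs n))
      (Crest.Agent.PottsTree.regRun (Lat.mkCtx s p L D) st1 bs x) := by
  have h1' : NuSt hβ s p L D (starPow Lq 1) st1 := h1.ofPot hβ fun f _ => pot_starPow_one Lq f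
  induction bs generalizing x n with
  | nil => exact hx
  | cons b bs ih =>
    simp only [Crest.Agent.PottsTree.regRun, regCount, fzS_eq]
    have hy := NuSt.stage hβ h1β hp hp0 hD hq (isLik_starPow hL n) (isLik_starPow hL n)
      (symLik_starPow hq hL hS n) hx hx
    have hy' := hy.ofPot hβ fun f _ => (pot_star_starPow Lq n n f).symm
    cases b with
    | false => exact ih hy'
    | true =>
      have hz := NuSt.stage hβ h1β hp hp0 hD hq (isLik_starPow hL (n + n)) (isLik_starPow hL 1)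
        (symLik_starPow hq hL hS 1) hy' h1'
      exact ih (hz.ofPot hβ fun f _ => (pot_star_starPow Lq (n + n) 1 f).symm)

/-- the star powers of a state -/
def powSt (C : Lat.Ctx) (st1 : ℕ × ℕ) : ℕ → ℕ × ℕ
  | 0 => Lat.unitS C
  | m + 1 => Lat.stage C st1.1 st1.2 (powSt C st1 m).1 (powSt C st1 m).2

include h1β hp hp0 hD in
theorem NuSt.powSt (hq : (3 : ℕ) ≠ 0) {Lq : Ω → Fin 3 → ℝ} (hL : IsLik Lq) (hS : SymLik Lq)
    {st1 : ℕ × ℕ} (h1 : NuSt hβ s p L D Lq st1) (m : ℕ) :
    NuSt hβ s p L D (starPow Lq m) (Crest.Agent.PottsTree.powSt (Lat.mkCtx s p L D) st1 m) := by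
  induction m with
  | zero => exact NuSt.unit hβ hp hD hq Lq
  | succ m ih =>
    have hz := NuSt.stage hβ h1β hp hp0 hD hq hL (isLik_starPow hL m) (symLik_starPow hq hL hS m) h1 ih
    exact hz.ofPot hβ fun f _ => pot_congr_starPow_succ m f

/-- The Poisson mixture of the powers with the given weights: `es` are the weights of the next
powers, `pw` the last power, `acc` the sum so far. -/
def mixRun (C : Lat.Ctx) (st1 : ℕ × ℕ) : List ℕ → ℕ × ℕ → ℕ × ℕ → ℕ × ℕ
  | [], _, acc => acc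
  | e :: es, pw, acc =>
    fzS (Lat.stage C st1.1 st1.2 pw.1 pw.2) fun pw' =>
      fzS (Lat.addS C acc.1 acc.2 (Lat.mulC C e pw'.1 pw'.2).1 (Lat.mulC C e pw'.1 pw'.2).2) fun acc' =>
        mixRun C st1 es pw' acc'

/-- The program of a Poisson mixture: the weights, with the first one for the empty star. -/
def mixStart (C : Lat.Ctx) (st1 : ℕ × ℕ) (e0 : ℕ) (es : List ℕ) : ℕ × ℕ :=
  mixRun C st1 es (Lat.unitS C) (Lat.mulC C e0 (Lat.unitS C).1 (Lat.unitS C).2)

include h1β hp hp0 hD in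
lemma mixRun_spec (hq : (3 : ℕ) ≠ 0) {Lq : Ω → Fin 3 → ℝ} (hL : IsLik Lq) (hS : SymLik Lq)
    {st1 : ℕ × ℕ} (h1 : NuSt hβ s p L D Lq st1) (w : ℕ → ℕ) (hw : ∀ m, w m ≤ 2 ^ p) (es : List ℕ)
    (j : ℕ) (hes : ∀ i (hi : i < es.length), es[i] = w (j + 1 + i)) (acc : ℕ × ℕ)
    (hg : Lat.Good s p L D acc.1 acc.2)
    (hacc : ∀ h : Mb → ℝ, (∀ x, 0 ≤ h x) → stF s p L D acc h ≤
      ∑ m ∈ Finset.range (j + 1), ((w m : ℝ) / 2 ^ p) *
        stF s p L D (Crest.Agent.PottsTree.powSt (Lat.mkCtx s p L D) st1 m) h) :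
    Lat.Good s p L D (mixRun (Lat.mkCtx s p L D) st1 es
        (Crest.Agent.PottsTree.powSt (Lat.mkCtx s p L D) st1 j) acc).1
      (mixRun (Lat.mkCtx s p L D) st1 es
        (Crest.Agent.PottsTree.powSt (Lat.mkCtx s p L D) st1 j) acc).2 ∧
    ∀ h : Mb → ℝ, (∀ x, 0 ≤ h x) →
      stF s p L D (mixRun (Lat.mkCtx s p L D) st1 es
        (Crest.Agent.PottsTree.powSt (Lat.mkCtx s p L D) st1 j) acc) h ≤
      ∑ m ∈ Finset.range (j + es.length + 1), ((w m : ℝ) / 2 ^ p) *
        stF s p L D (Crest.Agent.PottsTree.powSt (Lat.mkCtx s p L D) st1 m) h := by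
  induction es generalizing j acc with
  | nil =>
    exact ⟨hg, hacc⟩
  | cons e es ih =>
    simp only [mixRun, fzS_eq]
    have he : e = w (j + 1) := hes 0 (by simp)
    have hP := NuSt.powSt hβ h1β hp hp0 hD hq hL hS h1 (j + 1)
    have hpw : Lat.stage (Lat.mkCtx s p L D) st1.1 st1.2
        (Crest.Agent.PottsTree.powSt (Lat.mkCtx s p L D) st1 j).1
        (Crest.Agent.PottsTree.powSt (Lat.mkCtx s p L D) st1 j).2 =
        Crest.Agent.PottsTree.powSt (Lat.mkCtx s p L D) st1 (j + 1) := rfl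
    rw [hpw]
    set P := Crest.Agent.PottsTree.powSt (Lat.mkCtx s p L D) st1 (j + 1) with hPdef
    have hmg := (Lat.mulC_spec hP.good (he ▸ hw (j + 1)) hp hp0 hD).1
    have hag := (Lat.addS_spec hg hmg hp).1
    have ih' := ih (j + 1) (fun i hi => by
      have := hes (i + 1) (by simp; omega)
      simp only [List.getElem_cons_succ] at this
      rw [this]
      congr 1
      omega) _ hag (fun h hh => ?_)
    · refine ⟨ih'.1, fun h hh => ?_⟩
      have := ih'.2 h hh
      rw [List.length_cons]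
      rw [show j + (es.length + 1) + 1 = j + 1 + es.length + 1 by omega]
      exact this
    · rw [Finset.sum_range_succ]
      refine (stF_addS hp hg hmg hh).trans (add_le_add (hacc h hh) ?_)
      rw [← he]
      exact stF_mulC hp hp0 hD (he ▸ hw (j + 1)) hP.good hh

include h1β hp hp0 hD in
/-- **The Poisson program.** -/
theorem NuSt.mix (hq : (3 : ℕ) ≠ 0) {Lq : Ω → Fin 3 → ℝ} (hL : IsLik Lq) (hS : SymLik Lq)
    {st1 : ℕ × ℕ} (h1 : NuSt hβ s p L D Lq st1) {d : ℝ} (hd : 0 ≤ d) (e0 : ℕ) (es : List ℕ)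
    (he0 : e0 ≤ 2 ^ p) (hes : ∀ e ∈ es, e ≤ 2 ^ p) (hp0' : (e0 : ℝ) / 2 ^ p ≤ poi d 0)
    (hpi : ∀ i (hi : i < es.length), (es[i] : ℝ) / 2 ^ p ≤ poi d (i + 1)) :
    NuSt hβ s p L D (poisMix d Lq) (mixStart (Lat.mkCtx s p L D) st1 e0 es) := by
  let w : ℕ → ℕ := fun m => (e0 :: es).getD m 0
  have hw0 : w 0 = e0 := rfl
  have hw1 : ∀ i (hi : i < es.length), es[i] = w (0 + 1 + i) := by
    intro i hi
    have : 0 + 1 + i = i + 1 := by omega
    simp only [w, this]
    simp [hi]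
  have hw : ∀ m, w m ≤ 2 ^ p := by
    intro m
    cases m with
    | zero => exact he0
    | succ m =>
      by_cases hm : m < es.length
      · have := hw1 m hm
        rw [show 0 + 1 + m = m + 1 by omega] at this
        rw [← this]
        exact hes _ (List.getElem_mem hm)
      · have : w (m + 1) = 0 := by
          simp only [w]
          simp [hm]
        rw [this]
        exact Nat.zero_le _
  have hu := NuSt.unit hβ hp hD (s := s) (L := L) hq Lq
  have hm0 := (Lat.mulC_spec hu.good he0 hp hp0 hD).1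
  have hsp := mixRun_spec hβ h1β hp hp0 hD hq hL hS h1 w hw es 0 hw1 _ hm0 (fun h hh => by
    simp only [Nat.zero_add, Finset.sum_range_one]
    exact stF_mulC hp hp0 hD he0 hu.good hh)
  refine ⟨hsp.1, ?_⟩
  have hmix := NuB.mix (Φ := fun m => stF s p L D (Crest.Agent.PottsTree.powSt (Lat.mkCtx s p L D) st1 m))
    (e := fun m => (w m : ℝ) / 2 ^ p) hq hd hL (0 + es.length)
    (fun m _ => (NuSt.powSt hβ h1β hp hp0 hD hq hL hS h1 m).nu)
    (fun m _ => by positivity) (fun m hm => ?_) ((⊥, ⊥) : Mb) (Gb_vertex hβ)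
  · exact hmix.mono hsp.2
  · cases m with
    | zero => exact hp0'
    | succ m =>
      have hm' : m < es.length := by omega
      have e1 := hw1 m hm'
      rw [show 0 + 1 + m = m + 1 by omega] at e1
      show (w (m + 1) : ℝ) / 2 ^ p ≤ _
      rw [← e1]
      exact hpi m hm'

/-- Repeated doubling. -/
def dblRun (C : Lat.Ctx) : ℕ → ℕ × ℕ → ℕ × ℕ
  | 0, x => x
  | k + 1, x => fzS (Lat.stage C x.1 x.2 x.1 x.2) (dblRun C k)

include h1β hp hp0 hD in
/-- **Doubling of a Poisson mixture.** -/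
theorem NuSt.dbl (hq : (3 : ℕ) ≠ 0) {Lq : Ω → Fin 3 → ℝ} (hL : IsLik Lq) (hS : SymLik Lq)
    (k : ℕ) {d : ℝ} (hd : 0 ≤ d) {x : ℕ × ℕ} (hx : NuSt hβ s p L D (poisMix d Lq) x) :
    NuSt hβ s p L D (poisMix (2 ^ k * d) Lq) (dblRun (Lat.mkCtx s p L D) k x) := by
  induction k generalizing d x with
  | zero =>
    simpa [dblRun] using hx
  | succ k ih =>
    simp only [dblRun, fzS_eq]
    have hy := NuSt.stage hβ h1β hp hp0 hD hq (isLik_poisMix hd hL) (isLik_poisMix hd hL)
      (symLik_poisMix hq hd hL hS) hx hx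
    have hy' : NuSt hβ s p L D (poisMix (d + d) Lq) (Lat.stage (Lat.mkCtx s p L D) x.1 x.2 x.1 x.2) :=
      hy.ofPot hβ fun f hf => (pot_star_poisMix hq hd hd hL hf.1).symm
    have := ih (d := d + d) (by positivity) hy'
    rwa [show (2 : ℝ) ^ k * (d + d) = 2 ^ (k + 1) * d by ring] at this

end States

/-! ### From a bound on orbit representatives to a state -/

section Start

variable {β : ℝ} (hβ : 0 < β) {L : ℕ} {Ω : Type*}

/-- The edge array on `(⊥, j)` gives the same on `(j, ⊥)`. -/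
theorem NuB.mirror (h1β : 1 < β) {Lq : Ω → Fin 3 → ℝ} {I : ℕ → ℕ → ℝ} {E : ℕ → ℝ}
    (hI0 : ∀ u v, 0 ≤ I u v) (h3 : NuB (0 : Fin 3) (Gb hβ) Lq (StF3 L I E)) :
    NuB (0 : Fin 3) (Gb hβ) Lq (StF L I E) := by
  classical
  refine NuB.add_swap (Φ₂ := fun h => ∑ v ∈ range (2 * L + 1), E v * h (ebW' L v)) h3
    (Gb_injective hβ h1β) (π := Equiv.swap 1 2) (by decide) (σ := Prod.swap) (Gb_swap hβ)
    {x | ¬ (x.2 = ⊥ ∧ x.1 ≠ ⊥)} ?_ ?_ ?_
  · intro h
    have e1 : ∀ u v, ptW L u v ∈ {x : Mb | ¬ (x.2 = ⊥ ∧ x.1 ≠ ⊥)} := fun u v => by simp [ptW]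
    have e2 : ∀ v, ebW L v ∈ {x : Mb | ¬ (x.2 = ⊥ ∧ x.1 ≠ ⊥)} := fun v => by simp [ebW]
    have e3 : ∀ u v, (if ptW L u v ∈ {x : Mb | ¬ (x.2 = ⊥ ∧ x.1 ≠ ⊥)} then h (ptW L u v) else 0) =
        h (ptW L u v) := fun u v => if_pos (e1 u v)
    have e4 : ∀ v, (if ebW L v ∈ {x : Mb | ¬ (x.2 = ⊥ ∧ x.1 ≠ ⊥)} then h (ebW L v) else 0) =
        h (ebW L v) := fun v => if_pos (e2 v)
    simp only [StF3, e3, e4]
  · intro h
    have e1 : ∀ v, ebW' L v ∉ {x : Mb | ¬ (x.2 = ⊥ ∧ x.1 ≠ ⊥)} := fun v => by simp [ebW']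
    have e3 : ∀ v, (if ebW' L v ∈ {x : Mb | ¬ (x.2 = ⊥ ∧ x.1 ≠ ⊥)} then 0 else h (ebW' L v)) =
        h (ebW' L v) := fun v => if_neg (e1 v)
    simp only [e3]
  · intro h hh
    unfold StF3
    refine le_trans (le_of_eq ?_) (le_add_of_nonneg_left
      (Finset.sum_nonneg fun u _ => Finset.sum_nonneg fun v _ => mul_nonneg (hI0 u v) (hh _)))
    refine Finset.sum_congr rfl fun v _ => ?_
    simp [ebW, ebW', Prod.swap]

lemma sum_ite_inj_le {J : Type*} (t : Finset J) {φ : J → Mb} (hφ : Function.Injective φ) (x : Mb)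
    {a : ℝ} (ha : 0 ≤ a) [DecidableEq Mb] : ∑ i ∈ t, (if x = φ i then a else 0) ≤ a := by
  by_cases h : ∃ i ∈ t, x = φ i
  · obtain ⟨i0, hi0, e⟩ := h
    rw [Finset.sum_eq_single i0]
    · rw [if_pos e]
    · intro i _ hne
      rw [if_neg]
      intro e2
      exact hne (hφ (e2.symm.trans e))
    · exact fun h1 => absurd hi0 h1
  · push Not at h
    rw [Finset.sum_eq_zero]
    · exact ha
    · intro i hi
      rw [if_neg (h i hi)]

lemma ptW_inj : Function.Injective (fun t : ℕ × ℕ => ptW L t.1 t.2) := by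
  rintro ⟨u, v⟩ ⟨u', v'⟩ h
  simp only [ptW, Prod.mk.injEq, WithBot.coe_inj] at h
  ext <;> simp <;> omega

lemma ebW_inj : Function.Injective (ebW L) := by
  intro v v' h
  simp only [ebW, Prod.mk.injEq, WithBot.coe_inj, true_and] at h
  omega

/-- **From a bound on orbit representatives to arrays.** -/
theorem start_state {ρ : Type} [Fintype ρ] (h1β : 1 < β) (hq : (3 : ℕ) ≠ 0) {Lq : Ω → Fin 3 → ℝ}
    {g₀ : ρ → Fin 3 → ℝ} {W : ρ → ℝ} (hD : DefBnd g₀ Lq W) (hW0 : ∀ r, 0 ≤ W r)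
    (hW1 : ∑ r, W r ≤ 1) (hg : ∀ r, g₀ r ∈ Sx 3) {c : ρ × Equiv.Perm (Fin 3) → Mb}
    (hc : ∀ k, g₀ k.1 (k.2 0) ≠ 0 → rel k.2 (g₀ k.1) = Gb hβ (c k))
    {I : ℕ → ℕ → ℝ} {E : ℕ → ℝ} (hI0 : ∀ u v, 0 ≤ I u v)
    (hI : ∀ u v, u ≤ 2 * L → v ≤ 2 * L →
      I u v ≤ ∑ k, if c k = ptW L u v then freeNu 0 g₀ W k else 0)
    (hE : ∀ v, v ≤ 2 * L → E v ≤ ∑ k, if c k = ebW L v then freeNu 0 g₀ W k else 0) :
    NuB (0 : Fin 3) (Gb hβ) Lq (StF L I E) := by
  classical
  have h0 := NuB.start hq hD hW0 hW1 hg hc ((⊥, ⊥) : Mb) (Gb_vertex hβ)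
  refine NuB.mirror hβ h1β hI0 (h0.mono fun h hh => ?_)
  have hnu : ∀ k : ρ × Equiv.Perm (Fin 3), 0 ≤ freeNu 0 g₀ W k := fun k =>
    mul_nonneg (mul_nonneg (by positivity) ((hg _).1 _)) (hW0 _)
  have h1 : ∑ u ∈ range (2 * L + 1), ∑ v ∈ range (2 * L + 1), I u v * h (ptW L u v) ≤
      ∑ k, freeNu 0 g₀ W k * ∑ t ∈ range (2 * L + 1) ×ˢ range (2 * L + 1),
        if c k = ptW L t.1 t.2 then h (c k) else 0 := by
    calc _ ≤ ∑ u ∈ range (2 * L + 1), ∑ v ∈ range (2 * L + 1),
          (∑ k, if c k = ptW L u v then freeNu 0 g₀ W k else 0) * h (ptW L u v) := by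
          refine Finset.sum_le_sum fun u hu => Finset.sum_le_sum fun v hv => ?_
          simp only [mem_range] at hu hv
          exact mul_le_mul_of_nonneg_right (hI u v (by omega) (by omega)) (hh _)
      _ = _ := by
          simp only [Finset.sum_mul, Finset.mul_sum]
          symm
          rw [Finset.sum_comm, Finset.sum_product]
          refine Finset.sum_congr rfl fun u _ => Finset.sum_congr rfl fun v _ =>
            Finset.sum_congr rfl fun k _ => ?_
          split_ifs with h2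
          · rw [h2]
          · simp
  have h2 : ∑ v ∈ range (2 * L + 1), E v * h (ebW L v) ≤
      ∑ k, freeNu 0 g₀ W k * ∑ v ∈ range (2 * L + 1), if c k = ebW L v then h (c k) else 0 := by
    calc _ ≤ ∑ v ∈ range (2 * L + 1),
          (∑ k, if c k = ebW L v then freeNu 0 g₀ W k else 0) * h (ebW L v) := by
          refine Finset.sum_le_sum fun v hv => ?_
          simp only [mem_range] at hv
          exact mul_le_mul_of_nonneg_right (hE v (by omega)) (hh _)
      _ = _ := by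
          simp only [Finset.sum_mul, Finset.mul_sum]
          rw [Finset.sum_comm]
          refine Finset.sum_congr rfl fun k _ => Finset.sum_congr rfl fun v _ => ?_
          split_ifs with h2
          · rw [h2]
          · simp
  unfold StF3
  refine (add_le_add h1 h2).trans ?_
  rw [← Finset.sum_add_distrib]
  refine Finset.sum_le_sum fun k _ => ?_
  rw [← mul_add]
  refine mul_le_mul_of_nonneg_left ?_ (hnu k)
  by_cases hx : (c k).1 = ⊥
  · have e1 : ∑ t ∈ range (2 * L + 1) ×ˢ range (2 * L + 1),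
        (if c k = ptW L t.1 t.2 then h (c k) else 0) = 0 := by
      refine Finset.sum_eq_zero fun t _ => if_neg fun e => ?_
      rw [e] at hx
      simp [ptW] at hx
    rw [e1, zero_add]
    exact sum_ite_inj_le _ ebW_inj _ (hh _)
  · have e1 : ∑ v ∈ range (2 * L + 1), (if c k = ebW L v then h (c k) else 0) = 0 := by
      refine Finset.sum_eq_zero fun v _ => if_neg fun e => ?_
      rw [e] at hx
      exact hx rfl
    rw [e1, add_zero]
    exact sum_ite_inj_le (φ := fun t : ℕ × ℕ => ptW L t.1 t.2) _ ptW_inj _ (hh _)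

end Start

/-! ### From a state to the chamber -/

section Chamber

variable {β : ℝ} (hβ : 0 < β) (h1β : 1 < β) {L : ℕ} {Ω : Type*}

/-- the interior points of the chamber -/
def chamI (m n : ℕ) : Mb := ((((-(m : ℤ)) : ℤ) : WithBot ℤ), (((-(n : ℤ)) : ℤ) : WithBot ℤ))

/-- the edge points of the chamber -/
def chamE (m : ℕ) : Mb := ((((-(m : ℤ)) : ℤ) : WithBot ℤ), ⊥)

/-- the number of relabellings of an interior point of the chamber into the chamber -/
def stabN (m n : ℕ) : ℕ := if m = 0 then (if n = 0 then 6 else 2) else (if m = n then 2 else 1)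

/-- the number of relabellings of an edge point of the chamber into the chamber -/
def stabE (m : ℕ) : ℕ := if m = 0 then 2 else 1

lemma chamN_of_rank {p : Fin 3 → ℝ} {r : Fin 3 → Fin 3} (hr : ∀ i j, p i ≤ p j ↔ r j ≤ r i) :
    chamN p = (Finset.univ.filter fun π : Equiv.Perm (Fin 3) =>
      r (π 0) ≤ r (π 1) ∧ r (π 1) ≤ r (π 2)).card := by
  classical
  unfold chamN
  congr 1
  ext π
  simp only [Finset.mem_filter, Finset.mem_univ, true_and, Cham, rel, hr]

lemma card_rank0 : (Finset.univ.filter fun π : Equiv.Perm (Fin 3) =>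
    ![0, 1, 2] (π 0) ≤ (![0, 1, 2] (π 1) : Fin 3) ∧ ![0, 1, 2] (π 1) ≤ (![0, 1, 2] (π 2) : Fin 3)).card = 1 := by
  decide

lemma card_rank1 : (Finset.univ.filter fun π : Equiv.Perm (Fin 3) =>
    ![0, 0, 1] (π 0) ≤ (![0, 0, 1] (π 1) : Fin 3) ∧ ![0, 0, 1] (π 1) ≤ (![0, 0, 1] (π 2) : Fin 3)).card = 2 := by
  decide

lemma card_rank2 : (Finset.univ.filter fun π : Equiv.Perm (Fin 3) =>
    ![0, 1, 1] (π 0) ≤ (![0, 1, 1] (π 1) : Fin 3) ∧ ![0, 1, 1] (π 1) ≤ (![0, 1, 1] (π 2) : Fin 3)).card = 2 := by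
  decide

lemma chamN_le_six (p : Fin 3 → ℝ) : chamN p ≤ 6 := by
  classical
  unfold chamN
  refine (Finset.card_le_univ _).trans ?_
  rw [Fintype.card_perm, Fintype.card_fin]
  decide

lemma latPt_le_iff {x y : ℝ} (hx : 0 ≤ x) (hy : 0 ≤ y) {r : Fin 3 → Fin 3}
    (h1 : ∀ i j, r i < r j → (![1, x, y] : Fin 3 → ℝ) j < ![1, x, y] i)
    (h2 : ∀ i j, r i = r j → (![1, x, y] : Fin 3 → ℝ) i = ![1, x, y] j) (i j : Fin 3) :
    latPt x y i ≤ latPt x y j ↔ r j ≤ r i := by
  have hN : 0 < 1 + x + y := by linarith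
  unfold latPt
  rw [div_le_div_iff_of_pos_right hN]
  constructor
  · intro h
    by_contra h3
    have := h1 i j (not_le.1 h3)
    linarith
  · intro h
    rcases h.lt_or_eq with h3 | h3
    · exact (h1 j i h3).le
    · exact (h2 j i h3).ge

lemma chamN_strict {x y : ℝ} (hy : 0 ≤ y) (h1 : x < 1) (h2 : y < x) : chamN (latPt x y) = 1 := by
  have hx : 0 ≤ x := by linarith
  rw [chamN_of_rank (latPt_le_iff hx hy (r := ![0, 1, 2]) (fun i j h => ?_) (fun i j h => ?_))]
  · exact card_rank0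
  · fin_cases i <;> fin_cases j <;> first | exact absurd h (by decide) | simp <;> linarith
  · fin_cases i <;> fin_cases j <;> first | exact absurd h (by decide) | rfl

lemma chamN_eq01 {y : ℝ} (hy : 0 ≤ y) (h2 : y < 1) : chamN (latPt 1 y) = 2 := by
  rw [chamN_of_rank (latPt_le_iff zero_le_one hy (r := ![0, 0, 1]) (fun i j h => ?_) (fun i j h => ?_))]
  · exact card_rank1
  · fin_cases i <;> fin_cases j <;> first | exact absurd h (by decide) | simp <;> linarith
  · fin_cases i <;> fin_cases j <;> first | exact absurd h (by decide) | rfl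

lemma chamN_eq12 {x : ℝ} (hx : 0 ≤ x) (h1 : x < 1) : chamN (latPt x x) = 2 := by
  rw [chamN_of_rank (latPt_le_iff hx hx (r := ![0, 1, 1]) (fun i j h => ?_) (fun i j h => ?_))]
  · exact card_rank2
  · fin_cases i <;> fin_cases j <;> first | exact absurd h (by decide) | simp <;> linarith
  · fin_cases i <;> fin_cases j <;> first | exact absurd h (by decide) | rfl

include h1β in
lemma bpow_neg_lt {m n : ℕ} (h : m < n) : β ^ (-(n : ℤ)) < β ^ (-(m : ℤ)) :=
  zpow_lt_zpow_right₀ h1β (by omega)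

include h1β in
lemma chamN_chamI {m n : ℕ} (h : m ≤ n) : chamN (Gb hβ (chamI m n)) ≤ stabN m n := by
  have hz : ∀ k : ℕ, 0 ≤ β ^ (-(k : ℤ)) := fun k => (zpow_pos hβ _).le
  unfold stabN
  split_ifs with h0 h1 h2
  · exact chamN_le_six _
  · subst h0
    have : chamN (Gb hβ (chamI 0 n)) = 2 := by
      have e : Gb hβ (chamI 0 n) = latPt 1 (β ^ (-(n : ℤ))) := by
        simp only [Gb_eq, chamI, bpow_coe]
        simp
      rw [e]
      refine chamN_eq01 (hz n) ?_
      have := bpow_neg_lt h1β (m := 0) (n := n) (by omega)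
      simpa using this
    exact this.le
  · subst h2
    have : chamN (Gb hβ (chamI m m)) = 2 := by
      have e : Gb hβ (chamI m m) = latPt (β ^ (-(m : ℤ))) (β ^ (-(m : ℤ))) := rfl
      rw [e]
      refine chamN_eq12 (hz m) ?_
      have := bpow_neg_lt h1β (m := 0) (n := m) (by omega)
      simpa using this
    exact this.le
  · have : chamN (Gb hβ (chamI m n)) = 1 := by
      have e : Gb hβ (chamI m n) = latPt (β ^ (-(m : ℤ))) (β ^ (-(n : ℤ))) := rfl
      rw [e]
      refine chamN_strict (hz n) ?_ (bpow_neg_lt h1β (by omega))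
      have := bpow_neg_lt h1β (m := 0) (n := m) (by omega)
      simpa using this
    exact this.le

include h1β in
lemma chamN_chamE (m : ℕ) : chamN (Gb hβ (chamE m)) ≤ stabE m := by
  have hz : ∀ k : ℕ, 0 ≤ β ^ (-(k : ℤ)) := fun k => (zpow_pos hβ _).le
  unfold stabE
  split_ifs with h0
  · subst h0
    have : chamN (Gb hβ (chamE 0)) = 2 := by
      have e : Gb hβ (chamE 0) = latPt 1 0 := by
        simp only [Gb_eq, chamE, bpow_coe, bpow_bot]
        simp
      rw [e]
      exact chamN_eq01 le_rfl one_pos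
    exact this.le
  · have : chamN (Gb hβ (chamE m)) = 1 := by
      have e : Gb hβ (chamE m) = latPt (β ^ (-(m : ℤ))) 0 := rfl
      rw [e]
      have h2 := zpow_pos hβ (-(m : ℤ))
      refine chamN_strict le_rfl ?_ h2
      have := bpow_neg_lt h1β (m := 0) (n := m) (by omega)
      simpa using this
    exact this.le

include hβ h1β in
lemma cham_chamI {m n : ℕ} (h : m ≤ n) : Cham (Gb hβ (chamI m n)) := by
  have hN := nrm_pos hβ (chamI m n)
  constructor
  · rw [Gb_zero, Gb_one, div_le_div_iff_of_pos_right hN]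
    show β ^ (-(m : ℤ)) ≤ 1
    exact zpow_le_one_of_nonpos₀ h1β.le (by omega)
  · rw [Gb_one, Gb_two, div_le_div_iff_of_pos_right hN]
    show β ^ (-(n : ℤ)) ≤ β ^ (-(m : ℤ))
    exact zpow_le_zpow_right₀ h1β.le (by omega)

include hβ h1β in
lemma cham_chamE (m : ℕ) : Cham (Gb hβ (chamE m)) := by
  have hN := nrm_pos hβ (chamE m)
  constructor
  · rw [Gb_zero, Gb_one, div_le_div_iff_of_pos_right hN]
    show β ^ (-(m : ℤ)) ≤ 1
    exact zpow_le_one_of_nonpos₀ h1β.le (by omega)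
  · rw [Gb_one, Gb_two, div_le_div_iff_of_pos_right hN]
    exact (zpow_pos hβ _).le

lemma chamWeight_le {x : Mb} {N : ℕ} (hc : Cham (Gb hβ x)) (hle : chamN (Gb hβ x) ≤ N) (hN : 0 < N) :
    2 * nrm β x / N ≤ 2 / Gb hβ x 0 * chamW (Gb hβ x) := by
  have hn := nrm_pos hβ x
  have h0 := chamN_pos (Gb hβ x)
  have e : 2 / Gb hβ x 0 = 2 * nrm β x := by
    rw [Gb_zero]
    field_simp
  rw [e, chamW, if_pos hc, mul_div_assoc', mul_one]
  have h1 : (chamN (Gb hβ x) : ℝ) ≤ N := by exact_mod_cast hle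
  have h2 : (0 : ℝ) < chamN (Gb hβ x) := by exact_mod_cast h0
  exact div_le_div_of_nonneg_left (by positivity) h2 h1

lemma sum_refl_le {T : ℕ → ℕ → ℝ} (hT : ∀ u v, 0 ≤ T u v) (L : ℕ) :
    ∑ m ∈ range (L + 1), ∑ n ∈ Ico m (L + 1), T (L - m) (L - n) ≤
      ∑ u ∈ range (2 * L + 1), ∑ v ∈ range (2 * L + 1), T u v := by
  have hsub : range (L + 1) ⊆ range (2 * L + 1) := by
    intro a ha
    simp only [mem_range] at ha ⊢
    omega
  have h1 : ∀ u, ∑ v ∈ range (L + 1), T u v ≤ ∑ v ∈ range (2 * L + 1), T u v := fun u =>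
    Finset.sum_le_sum_of_subset_of_nonneg hsub fun _ _ _ => hT _ _
  have h2 : ∀ m, ∑ n ∈ Ico m (L + 1), T (L - m) (L - n) ≤ ∑ v ∈ range (L + 1), T (L - m) v := by
    intro m
    have e := Finset.sum_range_reflect (fun v => T (L - m) v) (L + 1)
    simp only [Nat.add_sub_cancel] at e
    rw [← e]
    refine Finset.sum_le_sum_of_subset_of_nonneg ?_ fun _ _ _ => hT _ _
    intro a ha
    simp only [mem_Ico, mem_range] at ha ⊢
    omega
  have e3 := Finset.sum_range_reflect (fun u => ∑ v ∈ range (2 * L + 1), T u v) (L + 1)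
  simp only [Nat.add_sub_cancel] at e3
  calc _ ≤ ∑ m ∈ range (L + 1), ∑ v ∈ range (2 * L + 1), T (L - m) v :=
        Finset.sum_le_sum fun m _ => (h2 m).trans (h1 _)
    _ = ∑ u ∈ range (L + 1), ∑ v ∈ range (2 * L + 1), T u v := e3
    _ ≤ _ := Finset.sum_le_sum_of_subset_of_nonneg hsub fun _ _ _ =>
        Finset.sum_nonneg fun _ _ => hT _ _

lemma ptW_refl {m n : ℕ} (hm : m ≤ L) (hn : n ≤ L) : ptW L (L - m) (L - n) = chamI m n := by
  simp only [ptW, chamI]
  congr 2 <;> omega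

lemma ebW'_refl {m : ℕ} (hm : m ≤ L) : ebW' L (L - m) = chamE m := by
  simp only [ebW', chamE]
  congr 2
  omega

include h1β in
/-- **The bound read on the chamber**, for the arrays of a state. -/
theorem chamber_defect {Lq : Ω → Fin 3 → ℝ} {I : ℕ → ℕ → ℝ} {E : ℕ → ℝ} (hI0 : ∀ u v, 0 ≤ I u v)
    (hE0 : ∀ v, 0 ≤ E v) (h : NuB (0 : Fin 3) (Gb hβ) Lq (StF L I E)) {f : (Fin 3 → ℝ) → ℝ}
    (hf : Adm f) (b : Fin 3) :
    ∑ m ∈ range (L + 1), ∑ n ∈ Ico m (L + 1),
        I (L - m) (L - n) * (2 * nrm β (chamI m n) / stabN m n) *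
          (f (baseL 3 b) - f (Gb hβ (chamI m n))) +
      ∑ m ∈ range (L + 1), E (L - m) * (2 * nrm β (chamE m) / stabE m) *
          (f (baseL 3 b) - f (Gb hβ (chamE m))) ≤
      f (baseL 3 b) - Pot f Lq := by
  set F := f (baseL 3 b) with hF
  have hH : ∀ x, 0 ≤ F - f (Gb hβ x) := fun x => sub_nonneg.2 (le_vertex hf (Gb_mem hβ x) b)
  set k : Mb → ℝ := fun x => (2 / Gb hβ x 0) * chamW (Gb hβ x) * (F - f (Gb hβ x)) with hk
  have hk0 : ∀ x, 0 ≤ k x := fun x =>
    mul_nonneg (mul_nonneg (div_nonneg (by norm_num) ((Gb_mem hβ x).1 0)) (chamW_nonneg _)) (hH x)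
  have hfold := NuB.fold (Gb_mem hβ) h hf b
  refine le_trans ?_ hfold
  show _ ≤ StF L I E k
  unfold StF StF3
  have hA : ∑ m ∈ range (L + 1), ∑ n ∈ Ico m (L + 1),
        I (L - m) (L - n) * (2 * nrm β (chamI m n) / stabN m n) * (F - f (Gb hβ (chamI m n))) ≤
      ∑ u ∈ range (2 * L + 1), ∑ v ∈ range (2 * L + 1), I u v * k (ptW L u v) := by
    refine le_trans (Finset.sum_le_sum fun m hm => Finset.sum_le_sum fun n hn => ?_)
      (sum_refl_le (T := fun u v => I u v * k (ptW L u v)) (fun u v => mul_nonneg (hI0 u v) (hk0 _)) L)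
    simp only [mem_range, mem_Ico] at hm hn
    rw [ptW_refl (by omega) (by omega), mul_assoc]
    refine mul_le_mul_of_nonneg_left ?_ (hI0 _ _)
    refine mul_le_mul_of_nonneg_right (chamWeight_le hβ (cham_chamI hβ h1β hn.1)
      (chamN_chamI hβ h1β hn.1) ?_) (hH _)
    unfold stabN
    split_ifs <;> omega
  have hB : ∑ m ∈ range (L + 1), E (L - m) * (2 * nrm β (chamE m) / stabE m) *
        (F - f (Gb hβ (chamE m))) ≤
      ∑ v ∈ range (2 * L + 1), E v * k (ebW' L v) := by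
    have hsub : range (L + 1) ⊆ range (2 * L + 1) := by
      intro a ha
      simp only [mem_range] at ha ⊢
      omega
    have e3 := Finset.sum_range_reflect (fun v => E v * k (ebW' L v)) (L + 1)
    simp only [Nat.add_sub_cancel] at e3
    refine le_trans (Finset.sum_le_sum fun m hm => ?_) (le_trans (le_of_eq e3)
      (Finset.sum_le_sum_of_subset_of_nonneg hsub fun v _ _ => mul_nonneg (hE0 v) (hk0 _)))
    simp only [mem_range] at hm
    rw [ebW'_refl (by omega), mul_assoc]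
    refine mul_le_mul_of_nonneg_left ?_ (hE0 _)
    refine mul_le_mul_of_nonneg_right (chamWeight_le hβ (cham_chamE hβ h1β m)
      (chamN_chamE hβ h1β m) ?_) (hH _)
    unfold stabE
    split_ifs <;> omega
  have hC : 0 ≤ ∑ v ∈ range (2 * L + 1), E v * k (ebW L v) :=
    Finset.sum_nonneg fun v _ => mul_nonneg (hE0 v) (hk0 _)
  linarith

end Chamber

end Crest.Agent.PottsTree
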