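import Crest.Agent.Lib.PottsTree.StarPowConv

/-!
# The multiplicative lattice chart for three spins

`latPt x y = (1, x, y) / (1 + x + y)`: products of such points are products of the coordinates.  Any pair
of nonnegative multiplicative functions on a commutative monoid is an additive chart.  The example:
`ℤ × ℤ` with `(i, j) ↦ (β ^ i, β ^ j)`, and `WithBot ℤ × WithBot ℤ` for the points on the edges.
-/

namespace Crest.Agent.PottsTree

open Finset
open ConeData
open Cmp

/-- the point `(1, x, y)` of the simplex -/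
noncomputable def latPt (x y : ℝ) : Fin 3 → ℝ := fun i => ![1, x, y] i / (1 + x + y)

lemma latPt_mem {x y : ℝ} (hx : 0 ≤ x) (hy : 0 ≤ y) : latPt x y ∈ Sx 3 := by
  have hN : 0 < 1 + x + y := by linarith
  refine ⟨fun i => ?_, ?_⟩
  · refine div_nonneg ?_ hN.le
    fin_cases i <;> simp [hx, hy]
  · simp only [latPt, Fin.sum_univ_three]
    field_simp
    simp

lemma latPt_zero : latPt 0 0 = ![1, 0, 0] := by
  funext i
  fin_cases i <;> simp [latPt]

lemma latPt_one : latPt 1 1 = fun _ => 1 / ((3 : ℕ) : ℝ) := by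
  funext i
  fin_cases i <;> norm_num [latPt]

lemma sp_latPt {x y x' y' : ℝ} (hx : 0 ≤ x) (hy : 0 ≤ y) (hx' : 0 ≤ x') (hy' : 0 ≤ y') :
    sp (latPt x y) (latPt x' y') = latPt (x * x') (y * y') := by
  have hN : 0 < 1 + x + y := by linarith
  have hN' : 0 < 1 + x' + y' := by linarith
  have hN'' : 0 < 1 + x * x' + y * y' := by positivity
  funext i
  simp only [sp, latPt, Fin.sum_univ_three]
  fin_cases i <;> simp <;> field_simp

/-- A pair of nonnegative multiplicative functions on a commutative monoid. -/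
structure LatHom (M : Type*) [AddCommMonoid M] where
  χ₁ : M → ℝ
  χ₂ : M → ℝ
  nn₁ : ∀ x, 0 ≤ χ₁ x
  nn₂ : ∀ x, 0 ≤ χ₂ x
  zero₁ : χ₁ 0 = 1
  zero₂ : χ₂ 0 = 1
  add₁ : ∀ x y, χ₁ (x + y) = χ₁ x * χ₁ y
  add₂ : ∀ x y, χ₂ (x + y) = χ₂ x * χ₂ y

/-- the chart of such a pair -/
noncomputable def LatHom.G {M : Type*} [AddCommMonoid M] (H : LatHom M) (x : M) : Fin 3 → ℝ :=
  latPt (H.χ₁ x) (H.χ₂ x)

lemma LatHom.addChart {M : Type*} [AddCommMonoid M] (H : LatHom M) : AddChart H.G where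
  mem x := latPt_mem (H.nn₁ x) (H.nn₂ x)
  zero := by
    simp only [LatHom.G, H.zero₁, H.zero₂]
    exact latPt_one
  add x y := by
    simp only [LatHom.G]
    rw [sp_latPt (H.nn₁ x) (H.nn₂ x) (H.nn₁ y) (H.nn₂ y), H.add₁, H.add₂]

/-- powers of `β` on the extended integers: `β ^ ⊥ = 0` -/
noncomputable def bpow (β : ℝ) : WithBot ℤ → ℝ
  | ⊥ => 0
  | (i : ℤ) => β ^ i

lemma bpow_nonneg {β : ℝ} (hβ : 0 < β) (x : WithBot ℤ) : 0 ≤ bpow β x := by
  cases x with
  | bot => exact le_rfl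
  | coe i => exact (zpow_pos hβ i).le

lemma bpow_zero (β : ℝ) : bpow β 0 = 1 := zpow_zero β

lemma bpow_add {β : ℝ} (hβ : 0 < β) (x y : WithBot ℤ) : bpow β (x + y) = bpow β x * bpow β y := by
  cases x with
  | bot => simp [bpow]
  | coe i =>
    cases y with
    | bot => simp [bpow]
    | coe j =>
      show β ^ (i + j) = β ^ i * β ^ j
      exact zpow_add₀ hβ.ne' i j

/-- the interior lattice -/
noncomputable def intLat (β : ℝ) (hβ : 0 < β) : LatHom (ℤ × ℤ) where
  χ₁ x := β ^ x.1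
  χ₂ x := β ^ x.2
  nn₁ x := (zpow_pos hβ _).le
  nn₂ x := (zpow_pos hβ _).le
  zero₁ := zpow_zero β
  zero₂ := zpow_zero β
  add₁ x y := zpow_add₀ hβ.ne' _ _
  add₂ x y := zpow_add₀ hβ.ne' _ _

/-- the lattice with the points on the edges -/
noncomputable def extLat (β : ℝ) (hβ : 0 < β) : LatHom (WithBot ℤ × WithBot ℤ) where
  χ₁ x := bpow β x.1
  χ₂ x := bpow β x.2
  nn₁ x := bpow_nonneg hβ _
  nn₂ x := bpow_nonneg hβ _
  zero₁ := bpow_zero β
  zero₂ := bpow_zero β
  add₁ x y := bpow_add hβ _ _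
  add₂ x y := bpow_add hβ _ _

end Crest.Agent.PottsTree
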