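import Crest.Agent.Lib.PottsTree.LatDigit
import Crest.Agent.Lib.PottsTree.LogLattice
import Crest.Agent.Lib.PottsTree.Glue244

/-!
# Rule tables for the lattice checker

Points of the simplex given by homogeneous natural coordinates, the contraction of such a point and
its sub-splitting into table points: a single natural inequality per coordinate, checked by the kernel
once per table.
-/

namespace Crest.Agent.PottsTree

open Finset
open ConeData
open Cmp

namespace Lat

/-! ### Sub-splittings -/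

/-- A sub-splitting of a point gives a rule in defect form: the rest of the mass goes to a vertex. -/
lemma rule_of_sub {q : ℕ} {J : Type*} (t : Finset J) {f : (Fin q → ℝ) → ℝ} (hf : Adm f)
    {V : J → ℝ} {a : J → Fin q → ℝ} {x : Fin q → ℝ} (hV : ∀ j ∈ t, 0 ≤ V j)
    (ha : ∀ j ∈ t, a j ∈ Sx q) (hx : x ∈ Sx q) (hle : ∀ l, ∑ j ∈ t, V j * a j l ≤ x l)
    (b : Fin q) :
    ∑ j ∈ t, V j * (f (baseL q b) - f (a j)) ≤ f (baseL q b) - f x := by
  classical
  set m := ∑ j ∈ t, V j with hm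
  have hmass : ∑ l, ∑ j ∈ t, V j * a j l = m := by
    rw [Finset.sum_comm]
    refine Finset.sum_congr rfl fun j hj => ?_
    rw [← Finset.mul_sum, (ha j hj).2, mul_one]
  have hm1 : m ≤ 1 := by
    have h1 : ∑ l, ∑ j ∈ t, V j * a j l ≤ ∑ l, x l := Finset.sum_le_sum fun l _ => hle l
    rw [hmass, hx.2] at h1
    exact h1
  have hF : ∀ j ∈ t, f (a j) ≤ f (baseL q b) := fun j hj => le_vertex hf (ha j hj) b
  -- the remainder
  set r : Fin q → ℝ := fun l => x l - ∑ j ∈ t, V j * a j l with hr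
  have hr0 : ∀ l, 0 ≤ r l := fun l => sub_nonneg.2 (hle l)
  have hr1 : ∑ l, r l = 1 - m := by
    simp only [hr, Finset.sum_sub_distrib, hmass, hx.2]
  rcases eq_or_lt_of_le hm1 with h1 | h1
  · have hr00 : ∀ l, r l = 0 := by
      have : ∑ l, r l = 0 := by rw [hr1, h1, sub_self]
      exact fun l => (Finset.sum_eq_zero_iff_of_nonneg fun l _ => hr0 l).1 this l (Finset.mem_univ _)
    exact rule_of_split t hf hV ha hx (fun l => by
      have := hr00 l
      simp only [hr] at this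
      linarith) b
  · have hpos : 0 < 1 - m := by linarith
    set R : Fin q → ℝ := fun l => r l / (1 - m) with hR
    have hRm : R ∈ Sx q := by
      refine ⟨fun l => div_nonneg (hr0 l) hpos.le, ?_⟩
      simp only [hR]
      rw [← Finset.sum_div, hr1, div_self hpos.ne']
    have hRF : f R ≤ f (baseL q b) := le_vertex hf hRm b
    have hsplit := le_of_split (t.insertNone) hf.2.1 (W := fun o => o.elim (1 - m) V)
      (a := fun o => o.elim R a) (x := x)
      (by
        intro o ho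
        cases o with
        | none => exact hpos.le
        | some j => exact hV j (by simpa using ho))
      (by
        intro o ho
        cases o with
        | none => exact hRm
        | some j => exact ha j (by simpa using ho))
      hx
      (by
        intro l
        rw [Finset.sum_insertNone]
        simp only [Option.elim]
        have : (1 - m) * R l = r l := by
          simp only [hR]
          field_simp
        rw [this]
        simp only [hr]
        ring)
    rw [Finset.sum_insertNone] at hsplit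
    simp only [Option.elim] at hsplit
    have e : ∑ j ∈ t, V j * (f (baseL q b) - f (a j)) =
        m * f (baseL q b) - ∑ j ∈ t, V j * f (a j) := by
      simp only [mul_sub, Finset.sum_sub_distrib, hm, Finset.sum_mul]
    rw [e]
    nlinarith [mul_le_mul_of_nonneg_left hRF hpos.le]

/-! ### Homogeneous coordinates -/

/-- homogeneous natural coordinates of a point of the simplex for three spins -/
structure H3 where
  x0 : ℕ
  x1 : ℕ
  x2 : ℕ

/-- the sum of the coordinates -/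
def H3.sum (X : H3) : ℕ := Nat.add (Nat.add X.x0 X.x1) X.x2

/-- the `l`-th coordinate -/
def H3.get (X : H3) : Fin 3 → ℕ := ![X.x0, X.x1, X.x2]

/-- the point with these coordinates -/
noncomputable def H3.pt (X : H3) : Fin 3 → ℝ := fun l => (X.get l : ℝ) / (X.sum : ℝ)

lemma H3.sum_eq (X : H3) : ∑ l, X.get l = X.sum := by
  simp [H3.get, H3.sum, Fin.sum_univ_three]

lemma H3.get_le_sum (X : H3) (l : Fin 3) : X.get l ≤ X.sum := by
  rw [← X.sum_eq]
  exact Finset.single_le_sum (f := X.get) (fun _ _ => Nat.zero_le _) (Finset.mem_univ l)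

lemma H3.pt_mem {X : H3} (h : 0 < X.sum) : X.pt ∈ Sx 3 := by
  have hs : (0 : ℝ) < X.sum := by exact_mod_cast h
  refine ⟨fun l => div_nonneg (Nat.cast_nonneg _) hs.le, ?_⟩
  simp only [H3.pt]
  rw [← Finset.sum_div, ← Nat.cast_sum, X.sum_eq, div_self hs.ne']

/-- the point `(1, x, y)`: comparison of the two ways to write it -/
lemma H3.pt_eq_latPt {X : H3} (h0 : 0 < X.x0) {x y : ℝ} (hx : (X.x1 : ℝ) = x * X.x0)
    (hy : (X.x2 : ℝ) = y * X.x0) : X.pt = latPt x y := by
  have h0' : (0 : ℝ) < X.x0 := by exact_mod_cast h0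
  have hx0 : 0 ≤ x := by
    by_contra hc
    push Not at hc
    have : x * X.x0 < 0 := mul_neg_of_neg_of_pos hc h0'
    have h2 : (0 : ℝ) ≤ X.x1 := Nat.cast_nonneg _
    linarith
  have hy0 : 0 ≤ y := by
    by_contra hc
    push Not at hc
    have : y * X.x0 < 0 := mul_neg_of_neg_of_pos hc h0'
    have h2 : (0 : ℝ) ≤ X.x2 := Nat.cast_nonneg _
    linarith
  have hs : ((X.sum : ℕ) : ℝ) = (1 + x + y) * X.x0 := by
    simp only [H3.sum, Nat.add_eq]
    push_cast
    rw [hx, hy]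
    ring
  have hn : 0 < 1 + x + y := by linarith
  funext l
  simp only [H3.pt, latPt, hs]
  fin_cases l
  · simp [H3.get]
    field_simp
  · simp [H3.get, hx]
    field_simp
  · simp [H3.get, hy]
    field_simp

/-! ### The contraction of a point and the check -/

/-- The image of `X` under `T` with `lam = -a/c`, in the coordinate `l`. -/
lemma T_pt_eq (X : H3) {a c : ℕ} (hc : 0 < c) (hX : 0 < X.sum) (l : Fin 3) :
    T 3 (-(a : ℝ) / c) X.pt l =
      (((c + a) * X.sum : ℕ) - (3 * a * X.get l : ℕ) : ℝ) / ((3 * c * X.sum : ℕ) : ℝ) := by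
  have hc' : (c : ℝ) ≠ 0 := by exact_mod_cast hc.ne'
  have hs : (X.sum : ℝ) ≠ 0 := by exact_mod_cast hX.ne'
  simp only [T, H3.pt]
  push_cast
  field_simp
  ring

/-- Three coefficients and three target points. -/
structure Split3 where
  c1 : ℕ
  y1 : H3
  c2 : ℕ
  y2 : H3
  c3 : ℕ
  y3 : H3

/-- the check of a sub-splitting in the coordinate `l` -/
def chk1 (S : ℕ) (a c : ℕ) (Xl : ℕ) (σ : ℕ) (c1 v1 σ1 c2 v2 σ2 c3 v3 σ3 : ℕ) : Bool :=
  let D23 := Nat.mul σ2 σ3
  let D13 := Nat.mul σ1 σ3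
  let D12 := Nat.mul σ1 σ2
  let D := Nat.mul σ1 D23
  let tgt := Nat.add (Nat.add (Nat.mul (Nat.mul c1 v1) D23) (Nat.mul (Nat.mul c2 v2) D13))
    (Nat.mul (Nat.mul c3 v3) D12)
  Nat.ble (Nat.add (Nat.mul (Nat.mul (Nat.mul 3 c) σ) tgt)
      (Nat.mul (Nat.mul (Nat.mul (Nat.mul 3 a) Xl) S) D))
    (Nat.mul (Nat.mul (Nat.mul (Nat.add c a) σ) S) D)

/-- the check of the sub-splitting of the image of `X`: the coordinates of the image are
relabelled by the permutation `τ` given by the list `Xτ` of the coordinates of `X`. -/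
def chkSplit (S a c : ℕ) (X : H3) (X0 X1 X2 : ℕ) (sp : Split3) : Bool :=
  let σ := X.sum
  let σ1 := sp.y1.sum
  let σ2 := sp.y2.sum
  let σ3 := sp.y3.sum
  (chk1 S a c X0 σ sp.c1 sp.y1.x0 σ1 sp.c2 sp.y2.x0 σ2 sp.c3 sp.y3.x0 σ3) &&
  (chk1 S a c X1 σ sp.c1 sp.y1.x1 σ1 sp.c2 sp.y2.x1 σ2 sp.c3 sp.y3.x1 σ3) &&
  (chk1 S a c X2 σ sp.c1 sp.y1.x2 σ1 sp.c2 sp.y2.x2 σ2 sp.c3 sp.y3.x2 σ3)

/-- the real form of one coordinate of the check -/
lemma chk1_le {S a c : ℕ} {Xl σ c1 v1 σ1 c2 v2 σ2 c3 v3 σ3 : ℕ}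
    (h : chk1 S a c Xl σ c1 v1 σ1 c2 v2 σ2 c3 v3 σ3 = true) (hS : 0 < S) (hc : 0 < c) (hσ : 0 < σ)
    (h1 : 0 < σ1) (h2 : 0 < σ2) (h3 : 0 < σ3) :
    ((c1 : ℝ) / S) * ((v1 : ℝ) / σ1) + ((c2 : ℝ) / S) * ((v2 : ℝ) / σ2) +
      ((c3 : ℝ) / S) * ((v3 : ℝ) / σ3) ≤
      (((c + a) * σ : ℕ) - (3 * a * Xl : ℕ) : ℝ) / ((3 * c * σ : ℕ) : ℝ) := by
  simp only [chk1, Nat.mul_eq, Nat.add_eq] at h
  have h' := Nat.le_of_ble_eq_true h
  have hR : (3 * c * σ * (c1 * v1 * (σ2 * σ3) + c2 * v2 * (σ1 * σ3) + c3 * v3 * (σ1 * σ2)) +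
      3 * a * Xl * S * (σ1 * (σ2 * σ3)) : ℝ) ≤ (c + a) * σ * S * (σ1 * (σ2 * σ3)) := by
    exact_mod_cast h'
  have hS' : (0 : ℝ) < S := by exact_mod_cast hS
  have hc' : (0 : ℝ) < c := by exact_mod_cast hc
  have hσ' : (0 : ℝ) < σ := by exact_mod_cast hσ
  have h1' : (0 : ℝ) < σ1 := by exact_mod_cast h1
  have h2' : (0 : ℝ) < σ2 := by exact_mod_cast h2
  have h3' : (0 : ℝ) < σ3 := by exact_mod_cast h3
  push_cast
  rw [le_div_iff₀ (by positivity)]
  have e : ((c1 : ℝ) / S) * ((v1 : ℝ) / σ1) + ((c2 : ℝ) / S) * ((v2 : ℝ) / σ2) +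
      ((c3 : ℝ) / S) * ((v3 : ℝ) / σ3) =
      (c1 * v1 * (σ2 * σ3) + c2 * v2 * (σ1 * σ3) + c3 * v3 * (σ1 * σ2)) / (S * (σ1 * (σ2 * σ3))) := by
    field_simp
  rw [e, div_mul_eq_mul_div, div_le_iff₀ (by positivity)]
  nlinarith [hR]

/-- **A rule from the check of a sub-splitting** of the image of `X` under the contraction with
`lam = -a/c`.  The coordinates of the image are compared after the reversal of the coordinates. -/
theorem rule_of_chk {S a c : ℕ} {X : H3} {sp : Split3} (hS : 0 < S) (hc : 0 < c) (h2 : 2 * a ≤ c)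
    (hX : 0 < X.sum) (h1 : 0 < sp.y1.sum) (h2' : 0 < sp.y2.sum) (h3 : 0 < sp.y3.sum)
    (h : chkSplit S a c X X.x2 X.x1 X.x0 sp = true) {f : (Fin 3 → ℝ) → ℝ} (hf : Adm f) (b : Fin 3) :
    ((sp.c1 : ℝ) / S) * (f (baseL 3 b) - f sp.y1.pt) +
      ((sp.c2 : ℝ) / S) * (f (baseL 3 b) - f sp.y2.pt) +
      ((sp.c3 : ℝ) / S) * (f (baseL 3 b) - f sp.y3.pt) ≤
      f (baseL 3 b) - f (T 3 (-(a : ℝ) / c) X.pt) := by
  have hc' : (0 : ℝ) < c := by exact_mod_cast hc
  have hlam : -(1 / 2 : ℝ) ≤ -(a : ℝ) / c := by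
    have : (2 * a : ℝ) ≤ c := by exact_mod_cast h2
    rw [neg_div, neg_le_neg_iff, div_le_iff₀ hc']
    linarith
  have hlam1 : -(a : ℝ) / c ≤ 1 := by
    have : -(a : ℝ) / c ≤ 0 := by
      rw [neg_div]
      exact neg_nonpos.2 (by positivity)
    linarith
  have hCh : ChanOK 3 (-(a : ℝ) / c) := chanOK_three hlam hlam1
  have hx := T_mem (q := 3) (by norm_num) hCh (H3.pt_mem hX)
  let τ : Equiv.Perm (Fin 3) := Equiv.swap 0 2
  have hfx : f (rel τ (T 3 (-(a : ℝ) / c) X.pt)) = f (T 3 (-(a : ℝ) / c) X.pt) := hf.2.2 τ _ hx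
  have hxτ := rel_mem τ hx
  rw [← hfx]
  simp only [chkSplit, Bool.and_eq_true] at h
  obtain ⟨⟨hc0, hc1⟩, hc2⟩ := h
  have := rule_of_sub (q := 3) (J := Fin 3) Finset.univ hf
    (V := ![(sp.c1 : ℝ) / S, (sp.c2 : ℝ) / S, (sp.c3 : ℝ) / S])
    (a := ![sp.y1.pt, sp.y2.pt, sp.y3.pt]) (x := rel τ (T 3 (-(a : ℝ) / c) X.pt))
    (by
      intro j _
      fin_cases j <;> simp <;> positivity)
    (by
      intro j _
      fin_cases j
      · exact H3.pt_mem h1
      · exact H3.pt_mem h2'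
      · exact H3.pt_mem h3)
    hxτ
    (by
      intro l
      rw [Fin.sum_univ_three]
      have r0 : rel τ (T 3 (-(a : ℝ) / c) X.pt) 0 = T 3 (-(a : ℝ) / c) X.pt 2 :=
        congrArg (T 3 (-(a : ℝ) / c) X.pt) (show τ 0 = 2 from rfl)
      have r1 : rel τ (T 3 (-(a : ℝ) / c) X.pt) 1 = T 3 (-(a : ℝ) / c) X.pt 1 :=
        congrArg (T 3 (-(a : ℝ) / c) X.pt) (show τ 1 = 1 from rfl)
      have r2 : rel τ (T 3 (-(a : ℝ) / c) X.pt) 2 = T 3 (-(a : ℝ) / c) X.pt 0 :=
        congrArg (T 3 (-(a : ℝ) / c) X.pt) (show τ 2 = 0 from rfl)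
      fin_cases l
      · have e := chk1_le hc0 hS hc hX h1 h2' h3
        have e2 := T_pt_eq X (a := a) hc hX 2
        show _ ≤ rel τ (T 3 (-(a : ℝ) / c) X.pt) 0
        rw [r0, e2]
        simpa [H3.pt, H3.get] using e
      · have e := chk1_le hc1 hS hc hX h1 h2' h3
        have e2 := T_pt_eq X (a := a) hc hX 1
        show _ ≤ rel τ (T 3 (-(a : ℝ) / c) X.pt) 1
        rw [r1, e2]
        simpa [H3.pt, H3.get] using e
      · have e := chk1_le hc2 hS hc hX h1 h2' h3
        have e2 := T_pt_eq X (a := a) hc hX 0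
        show _ ≤ rel τ (T 3 (-(a : ℝ) / c) X.pt) 2
        rw [r2, e2]
        simpa [H3.pt, H3.get] using e)
    b
  rw [Fin.sum_univ_three] at this
  simpa using this

/-! ### The lattice points -/

/-- homogeneous coordinates of the interior point `(1, β ^ (-m), β ^ (-n))`, `β = A / B` -/
def intH (A B m n : ℕ) : H3 :=
  ⟨Nat.pow A (Nat.add m n), Nat.mul (Nat.pow A n) (Nat.pow B m), Nat.mul (Nat.pow A m) (Nat.pow B n)⟩

/-- homogeneous coordinates of the point `(1, β ^ (-m), 0)` on an edge, `β = A / B` -/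
def edgeH (A B m : ℕ) : H3 := ⟨Nat.pow A m, Nat.pow B m, 0⟩

lemma intH_sum_pos {A B : ℕ} (hA : 0 < A) (m n : ℕ) : 0 < (intH A B m n).sum := by
  have : 0 < A ^ (m + n) := by positivity
  simp only [intH, H3.sum, Nat.add_eq, Nat.pow_eq, Nat.mul_eq]
  omega

lemma edgeH_sum_pos {A B : ℕ} (hA : 0 < A) (m : ℕ) : 0 < (edgeH A B m).sum := by
  have : 0 < A ^ m := by positivity
  simp only [edgeH, H3.sum, Nat.add_eq, Nat.pow_eq]
  omega

lemma intH_pt {A B : ℕ} (hA : 0 < A) (m n : ℕ) :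
    (intH A B m n).pt = latPt (((B : ℝ) / A) ^ m) (((B : ℝ) / A) ^ n) := by
  have hA' : (A : ℝ) ≠ 0 := by exact_mod_cast hA.ne'
  refine H3.pt_eq_latPt (by
    simp only [intH, Nat.pow_eq]
    positivity) ?_ ?_
  · simp only [intH, Nat.add_eq, Nat.pow_eq, Nat.mul_eq]
    push_cast
    rw [div_pow, pow_add]
    field_simp
  · simp only [intH, Nat.add_eq, Nat.pow_eq, Nat.mul_eq]
    push_cast
    rw [div_pow, pow_add]
    field_simp

lemma edgeH_pt {A B : ℕ} (hA : 0 < A) (m : ℕ) :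
    (edgeH A B m).pt = latPt (((B : ℝ) / A) ^ m) 0 := by
  have hA' : (A : ℝ) ≠ 0 := by exact_mod_cast hA.ne'
  refine H3.pt_eq_latPt (by
    simp only [edgeH, Nat.pow_eq]
    positivity) ?_ ?_
  · simp only [edgeH, Nat.pow_eq]
    push_cast
    rw [div_pow]
    field_simp
  · simp [edgeH]

/-- The chamber points of the source table. -/
inductive Pt where
  | int (m n : ℕ)
  | edge (m : ℕ)
  deriving DecidableEq

/-- homogeneous coordinates of a point of the source table -/
def Pt.h (A B : ℕ) : Pt → H3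
  | .int m n => intH A B m n
  | .edge m => edgeH A B m

lemma Pt.h_sum_pos {A B : ℕ} (hA : 0 < A) (r : Pt) : 0 < (r.h A B).sum := by
  cases r with
  | int m n => exact intH_sum_pos hA m n
  | edge m => exact edgeH_sum_pos hA m

/-- the order of the stabiliser of the point -/
def Pt.stab : Pt → ℕ
  | .int m n => if m = 0 ∧ n = 0 then 6 else if m = 0 ∨ m = n then 2 else 1
  | .edge m => if m = 0 then 2 else 1

lemma Pt.stab_pos (r : Pt) : 0 < r.stab := by
  cases r with
  | int m n =>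
    simp only [Pt.stab]
    split_ifs <;> norm_num
  | edge m =>
    simp only [Pt.stab]
    split_ifs <;> norm_num

/-- the digit of the point in a state `(I, E)` with window `L`, row length `D`, digit width `s` -/
def Pt.dig (s L D I E : ℕ) : Pt → ℕ
  | .int m n => dg s I ((L - m) * D + (L - n))
  | .edge m => dg s E (L - m)

/-- The weight of the orbit of a chamber point, given the digit of the law given the root. -/
noncomputable def Pt.wt (A B s p L D I E : ℕ) (r : Pt) : ℝ :=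
  (r.dig s L D I E : ℝ) / (2 ^ p : ℕ) * (2 / (r.stab : ℝ)) *
    (((r.h A B).sum : ℝ) / ((r.h A B).x0 : ℝ))

/-! ### Rule entries -/

/-- The target point of a slot: a rectangle of `nI = (Lt + 1) * (Mt + 1)` interior points and
then the edge points. -/
def tgH (A B Mt nI t : ℕ) : H3 :=
  bif Nat.blt t nI then intH A B (Nat.mod t (Nat.succ Mt)) (Nat.div t (Nat.succ Mt))
  else edgeH A B (Nat.sub t nI)

lemma tgH_sum_pos {A B : ℕ} (hA : 0 < A) (Mt nI t : ℕ) : 0 < (tgH A B Mt nI t).sum := by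
  unfold tgH
  cases Nat.blt t nI
  · exact edgeH_sum_pos hA _
  · exact intH_sum_pos hA _ _

/-- A rule entry: the row coordinate `n` of the source, the factor giving the weight of the orbit from
the digit, and three pairs (coefficient, slot). -/
structure REnt where
  n : ℕ
  fac : ℕ
  c1 : ℕ
  t1 : ℕ
  c2 : ℕ
  t2 : ℕ
  c3 : ℕ
  t3 : ℕ

/-- the numbers of a rule table -/
structure RPar where
  A : ℕ
  B : ℕ
  a : ℕ
  c : ℕ
  pC : ℕ
  tau : ℕ
  Mt : ℕ
  nI : ℕ
  nT : ℕ
  wS : ℕ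

/-- the split of an entry -/
def RPar.split (P : RPar) (e : REnt) : Split3 :=
  ⟨e.c1, tgH P.A P.B P.Mt P.nI e.t1, e.c2, tgH P.A P.B P.Mt P.nI e.t2,
    e.c3, tgH P.A P.B P.Mt P.nI e.t3⟩

/-- the target point of a slot -/
noncomputable def RPar.g (P : RPar) (t : ℕ) : Fin 3 → ℝ := (tgH P.A P.B P.Mt P.nI t).pt

/-- the check of a rule of an image point only -/
def RPar.chkImg (P : RPar) (X : H3) (e : REnt) : Bool :=
  Nat.blt e.t1 P.nT && Nat.blt e.t2 P.nT && Nat.blt e.t3 P.nT &&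
    Nat.ble (Nat.add (Nat.add e.c1 e.c2) e.c3) (Nat.pow 2 P.pC) &&
    chkSplit (Nat.pow 2 P.pC) P.a P.c X X.x2 X.x1 X.x0 (P.split e)

/-- the check of a rule entry with a source point -/
def RPar.chkEnt (P : RPar) (r : Pt) (e : REnt) : Bool :=
  Nat.ble (Nat.mul e.fac (Nat.mul (r.h P.A P.B).x0 r.stab))
      (Nat.mul (Nat.mul 2 (r.h P.A P.B).sum) (Nat.pow 2 P.tau)) &&
    P.chkImg (r.h P.A P.B) e

/-- the parameters are admissible -/
structure RPar.OK (P : RPar) : Prop where
  hA : 0 < P.A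
  hc : 0 < P.c
  ha : 2 * P.a ≤ P.c

/-- the coefficient of an entry at a slot -/
def cc (e : REnt) (t : ℕ) : ℕ :=
  (if e.t1 = t then e.c1 else 0) + (if e.t2 = t then e.c2 else 0) + (if e.t3 = t then e.c3 else 0)

/-- The rule of an entry, with the coefficients spread on the slots. -/
lemma RPar.rule_cc {P : RPar} (hP : P.OK) {X : H3} (hX : 0 < X.sum) {e : REnt}
    (h : P.chkImg X e = true) {f : (Fin 3 → ℝ) → ℝ} (hf : Adm f) (b : Fin 3) :
    ∑ t : Fin P.nT, ((cc e t : ℝ) / (2 ^ P.pC : ℕ)) * (f (baseL 3 b) - f (P.g t)) ≤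
      f (baseL 3 b) - f (T 3 (-(P.a : ℝ) / P.c) X.pt) := by
  simp only [RPar.chkImg, Bool.and_eq_true, Nat.pow_eq] at h
  obtain ⟨⟨⟨⟨h1, h2⟩, h3⟩, _⟩, hs⟩ := h
  have h1' : e.t1 < P.nT := by simpa using h1
  have h2' : e.t2 < P.nT := by simpa using h2
  have h3' : e.t3 < P.nT := by simpa using h3
  have hS : 0 < 2 ^ P.pC := by positivity
  have hr := rule_of_chk hS hP.hc hP.ha hX (sp := P.split e) (tgH_sum_pos hP.hA _ _ _)
    (tgH_sum_pos hP.hA _ _ _) (tgH_sum_pos hP.hA _ _ _) hs hf b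
  refine le_trans (le_of_eq ?_) hr
  simp only [RPar.split]
  have key : ∀ (tj cj : ℕ), tj < P.nT → ∑ t : Fin P.nT,
      (((if tj = (t : ℕ) then cj else 0 : ℕ) : ℝ) / (2 ^ P.pC : ℕ)) * (f (baseL 3 b) - f (P.g t)) =
      ((cj : ℝ) / (2 ^ P.pC : ℕ)) * (f (baseL 3 b) - f (tgH P.A P.B P.Mt P.nI tj).pt) := by
    intro tj cj htj
    rw [Finset.sum_eq_single (⟨tj, htj⟩ : Fin P.nT)]
    · simp [RPar.g]
    · intro t _ ht
      have : tj ≠ (t : ℕ) := fun h => ht (Fin.ext h.symm)
      simp [this]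
    · simp
  rw [← key _ _ h1', ← key _ _ h2', ← key _ _ h3', ← Finset.sum_add_distrib,
    ← Finset.sum_add_distrib]
  refine Finset.sum_congr rfl fun t _ => ?_
  simp only [cc]
  push_cast
  ring

/-! ### The kernel computation of a level -/

/-- the digit read from a row: kernel form of `dg` -/
def rdDig (s M R v : ℕ) : ℕ := Nat.land (Nat.shiftRight R (Nat.mul s v)) M

/-- the row of a two-dimensional array -/
def rdRow (sD ZM I u : ℕ) : ℕ := Nat.land (Nat.shiftRight I (Nat.mul sD u)) ZM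

/-- the packed rule of an entry -/
def rpk0 (wS : ℕ) (e : REnt) : ℕ :=
  Nat.add (Nat.add (Nat.shiftLeft e.c1 (Nat.mul wS e.t1))
    (Nat.shiftLeft e.c2 (Nat.mul wS e.t2))) (Nat.shiftLeft e.c3 (Nat.mul wS e.t3))

/-- the packed rule of an entry, with the mass slot `nsh` -/
def rpk (wS nsh : ℕ) (e : REnt) : ℕ :=
  Nat.add (rpk0 wS e) (Nat.shiftLeft 1 nsh)

/-- the contribution of a digit -/
def outTerm (tau wS nsh dig : ℕ) (e : REnt) : ℕ :=
  Nat.mul (Nat.shiftRight (Nat.mul dig e.fac) tau) (rpk wS nsh e)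

/-- the sum over the entries of one row -/
noncomputable def rowSum (tau wS nsh s M L R : ℕ) (l : List REnt) : ℕ :=
  List.rec 0 (fun e _ ih => Nat.add (outTerm tau wS nsh (rdDig s M R (Nat.sub L e.n)) e) ih) l

/-- the sum over the rows of a two dimensional array; a row is `(m, entries)` -/
noncomputable def rowsSum (tau wS nsh s M sD ZM L I : ℕ) (l : List (ℕ × List REnt)) : ℕ :=
  List.rec 0 (fun r _ ih =>
    Nat.add (rowSum tau wS nsh s M L (rdRow sD ZM I (Nat.sub L r.1)) r.2) ih) l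

/-- the list of points with their entries -/
def items (rows : List (ℕ × List REnt)) (edges : List REnt) : List (Pt × REnt) :=
  (rows.flatMap fun r => r.2.map fun e => (Pt.int r.1 e.n, e)) ++
    edges.map fun e => (Pt.edge e.n, e)

lemma sr_eq (a b : ℕ) : Nat.shiftRight a b = a / 2 ^ b := Nat.shiftRight_eq_div_pow a b

lemma sl_eq (a b : ℕ) : Nat.shiftLeft a b = a * 2 ^ b := Nat.shiftLeft_eq a b

lemma land_mask (a k : ℕ) : Nat.land a (2 ^ k - 1) = a % 2 ^ k :=
  Nat.and_two_pow_sub_one_eq_mod a k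

lemma rdDig_eq (s R v : ℕ) : rdDig s (2 ^ s - 1) R v = dg s R v := by
  simp only [rdDig, dg, Nat.mul_eq]
  rw [land_mask, sr_eq]

lemma rdRow_dg {s D v : ℕ} (hv : v < D) (I u : ℕ) :
    dg s (rdRow (s * D) (2 ^ (s * D) - 1) I u) v = dg s I (u * D + v) := by
  simp only [rdRow, Nat.mul_eq]
  rw [land_mask, dg_mod_pow, if_pos hv, mul_assoc]
  have : (I.shiftRight (s * (D * u))) = I >>> (s * (D * u)) := rfl
  rw [this, dg_shift, add_comm, mul_comm D u]

/-- the weight of an item -/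
def wOf (tau s L D I E : ℕ) (it : Pt × REnt) : ℕ :=
  it.1.dig s L D I E * it.2.fac / 2 ^ tau

/-- `rpk0` as a number -/
lemma rpk0_eq (wS : ℕ) (e : REnt) :
    rpk0 wS e = e.c1 * 2 ^ (wS * e.t1) + e.c2 * 2 ^ (wS * e.t2) + e.c3 * 2 ^ (wS * e.t3) := by
  simp only [rpk0, Nat.mul_eq, Nat.add_eq]
  rw [sl_eq, sl_eq, sl_eq]

/-- `rpk` as a number -/
lemma rpk_eq (wS nsh : ℕ) (e : REnt) : rpk wS nsh e = rpk0 wS e + 2 ^ nsh := by
  simp only [rpk, Nat.add_eq]
  rw [sl_eq, one_mul]

lemma rowSum_nil (tau wS nsh s M L R : ℕ) : rowSum tau wS nsh s M L R [] = 0 := rfl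

lemma rowSum_cons (tau wS nsh s M L R : ℕ) (e : REnt) (l : List REnt) :
    rowSum tau wS nsh s M L R (e :: l) =
      outTerm tau wS nsh (rdDig s M R (L - e.n)) e + rowSum tau wS nsh s M L R l := rfl

lemma rowsSum_nil (tau wS nsh s M sD ZM L I : ℕ) : rowsSum tau wS nsh s M sD ZM L I [] = 0 := rfl

lemma rowsSum_cons (tau wS nsh s M sD ZM L I : ℕ) (r : ℕ × List REnt) (l : List (ℕ × List REnt)) :
    rowsSum tau wS nsh s M sD ZM L I (r :: l) =
      rowSum tau wS nsh s M L (rdRow sD ZM I (L - r.1)) r.2 + rowsSum tau wS nsh s M sD ZM L I l :=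
  rfl

/-- the contribution of an item -/
def itTerm (tau wS nsh s L D I E : ℕ) (it : Pt × REnt) : ℕ :=
  wOf tau s L D I E it * rpk wS nsh it.2

lemma rowSum_eq_int {tau wS nsh s L D I E : ℕ} (hLD : L < D) (m : ℕ) (l : List REnt) :
    rowSum tau wS nsh s (2 ^ s - 1) L (rdRow (s * D) (2 ^ (s * D) - 1) I (L - m)) l =
      ((l.map fun e => (Pt.int m e.n, e)).map (itTerm tau wS nsh s L D I E)).sum := by
  induction l with
  | nil => rfl
  | cons e l ih =>
    rw [rowSum_cons, ih]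
    simp only [List.map_cons, List.sum_cons]
    congr 1
    have hv : L - e.n < D := by omega
    simp only [outTerm, itTerm, wOf, Pt.dig, Nat.mul_eq]
    rw [rdDig_eq, rdRow_dg hv, sr_eq]

lemma rowsSum_eq_int {tau wS nsh s L D I E : ℕ} (hLD : L < D) (l : List (ℕ × List REnt)) :
    rowsSum tau wS nsh s (2 ^ s - 1) (s * D) (2 ^ (s * D) - 1) L I l =
      ((l.flatMap fun r => r.2.map fun e => (Pt.int r.1 e.n, e)).map
        (itTerm tau wS nsh s L D I E)).sum := by
  induction l with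
  | nil => rfl
  | cons r l ih =>
    rw [rowsSum_cons, ih, rowSum_eq_int (E := E) hLD]
    simp only [List.flatMap_cons, List.map_append, List.sum_append]

lemma rowSum_eq_edge {tau wS nsh s L D I E : ℕ} (l : List REnt) :
    rowSum tau wS nsh s (2 ^ s - 1) L E l =
      ((l.map fun e => (Pt.edge e.n, e)).map (itTerm tau wS nsh s L D I E)).sum := by
  induction l with
  | nil => rfl
  | cons e l ih =>
    rw [rowSum_cons, ih]
    simp only [List.map_cons, List.sum_cons]
    congr 1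
    simp only [outTerm, itTerm, wOf, Pt.dig, Nat.mul_eq]
    rw [rdDig_eq, sr_eq]

/-- the packed vector before the vertex term: kernel form of the sum over the items -/
noncomputable def outAcc (tau wS nsh s M sD ZM L I E : ℕ) (rows : List (ℕ × List REnt))
    (edges : List REnt) : ℕ :=
  Nat.add (rowsSum tau wS nsh s M sD ZM L I rows) (rowSum tau wS nsh s M L E edges)

lemma outAcc_eq {tau wS nsh s L D I E : ℕ} (hLD : L < D) (rows : List (ℕ × List REnt))
    (edges : List REnt) :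
    outAcc tau wS nsh s (2 ^ s - 1) (s * D) (2 ^ (s * D) - 1) L I E rows edges =
      ((items rows edges).map (itTerm tau wS nsh s L D I E)).sum := by
  simp only [outAcc, items, List.map_append, List.sum_append, Nat.add_eq]
  rw [rowsSum_eq_int (E := E) hLD, rowSum_eq_edge (D := D) (I := I)]

/-! ### The digits of the output -/

/-- the slots of an entry are in range -/
def REnt.InR (nT : ℕ) (e : REnt) : Prop := e.t1 < nT ∧ e.t2 < nT ∧ e.t3 < nT

lemma rpk0_eq_sum {wS nT : ℕ} {e : REnt} (h : e.InR nT) :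
    rpk0 wS e = ∑ t ∈ range nT, cc e t * 2 ^ (wS * t) := by
  obtain ⟨h1, h2, h3⟩ := h
  have key : ∀ tj cj, tj < nT →
      ∑ t ∈ range nT, (if tj = t then cj else 0) * 2 ^ (wS * t) = cj * 2 ^ (wS * tj) := by
    intro tj cj htj
    simp only [ite_mul, zero_mul]
    rw [Finset.sum_ite_eq (range nT) tj, if_pos (mem_range.2 htj)]
  rw [rpk0_eq, ← key _ e.c1 h1, ← key _ e.c2 h2, ← key _ e.c3 h3, ← Finset.sum_add_distrib,
    ← Finset.sum_add_distrib]
  refine Finset.sum_congr rfl fun t _ => ?_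
  simp only [cc]
  ring

lemma cc_le (e : REnt) (t : ℕ) : cc e t ≤ e.c1 + e.c2 + e.c3 := by
  simp only [cc]
  split_ifs <;> omega

/-- the total mass of a list of items -/
def massOf (w : Pt × REnt → ℕ) (l : List (Pt × REnt)) : ℕ := (l.map w).sum

/-- the coefficient at a slot of a list of items -/
def coefOf (w : Pt × REnt → ℕ) (l : List (Pt × REnt)) (t : ℕ) : ℕ :=
  (l.map fun it => w it * cc it.2 t).sum

lemma sum_term_eq (w : Pt × REnt → ℕ) {wS nT : ℕ} {l : List (Pt × REnt)}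
    (h : ∀ it ∈ l, it.2.InR nT) :
    (l.map fun it => w it * rpk wS (wS * nT) it.2).sum =
      ∑ t ∈ range nT, coefOf w l t * 2 ^ (wS * t) + massOf w l * 2 ^ (wS * nT) := by
  induction l with
  | nil => simp [coefOf, massOf]
  | cons it l ih =>
    have h1 := ih fun x hx => h x (List.mem_cons_of_mem _ hx)
    simp only [List.map_cons, List.sum_cons, coefOf, massOf] at h1 ⊢
    rw [h1, rpk_eq, rpk0_eq_sum (h it List.mem_cons_self)]
    simp only [add_mul, Finset.sum_add_distrib, mul_add, Finset.mul_sum]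
    have : ∀ t ∈ range nT, w it * (cc it.2 t * 2 ^ (wS * t)) = w it * cc it.2 t * 2 ^ (wS * t) :=
      fun t _ => by ring
    rw [Finset.sum_congr rfl this]
    ring

lemma coefOf_le (w : Pt × REnt → ℕ) {l : List (Pt × REnt)} {C : ℕ}
    (h : ∀ it ∈ l, it.2.c1 + it.2.c2 + it.2.c3 ≤ C) (t : ℕ) :
    coefOf w l t ≤ massOf w l * C := by
  induction l with
  | nil => simp [coefOf, massOf]
  | cons it l ih =>
    have h1 := ih fun x hx => h x (List.mem_cons_of_mem _ hx)
    simp only [coefOf, massOf, List.map_cons, List.sum_cons] at h1 ⊢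
    rw [add_mul]
    exact add_le_add (Nat.mul_le_mul_left _ ((cc_le _ _).trans (h it List.mem_cons_self))) h1

/-- the output: floors of the digits of the accumulated vector, with the rest of the mass on the
image of the vertex, if the mass is at most one; otherwise `0`. -/
noncomputable def outW (tau wS nsh s M sD ZM L pC S wM I E : ℕ) (rows : List (ℕ × List REnt))
    (edges : List REnt) (cv : REnt) : ℕ :=
  let acc := outAcc tau wS nsh s M sD ZM L I E rows edges
  let top := Nat.shiftRight acc nsh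
  bif Nat.ble top S then
    Nat.shiftRight (Nat.land (Nat.add acc (Nat.mul (Nat.sub S top) (rpk0 wS cv))) wM) pC
  else 0

/-- the mask of the output -/
def outMask (wS pC nT : ℕ) : ℕ := (2 ^ wS - 2 ^ pC) * ones wS 0 (nT - 1)

/-- the numbers of the output -/
structure OutC where
  tau : ℕ
  wS : ℕ
  nsh : ℕ
  s : ℕ
  M : ℕ
  sD : ℕ
  ZM : ℕ
  L : ℕ
  pC : ℕ
  S : ℕ
  wM : ℕ

/-- the numbers of the output from the parameters -/
def mkOut (P : RPar) (s p L D : ℕ) : OutC where
  tau := P.tau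
  wS := P.wS
  nsh := P.wS * P.nT
  s := s
  M := 2 ^ s - 1
  sD := s * D
  ZM := 2 ^ (s * D) - 1
  L := L
  pC := P.pC
  S := 2 ^ p
  wM := outMask P.wS P.pC P.nT

/-- the output step -/
noncomputable def outStep (C : OutC) (I E : ℕ) (rows : List (ℕ × List REnt)) (edges : List REnt)
    (cv : REnt) : ℕ :=
  outW C.tau C.wS C.nsh C.s C.M C.sD C.ZM C.L C.pC C.S C.wM I E rows edges cv

section Digits

variable {P : RPar} {s p L D I E : ℕ} {rows : List (ℕ × List REnt)} {edges : List REnt} {cv : REnt}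

/-- the lowered weight of an item -/
local notation "wIt" => wOf P.tau s L D I E

lemma outAcc_eq_sum (hLD : L < D) (hit : ∀ it ∈ items rows edges, it.2.InR P.nT) :
    outAcc P.tau P.wS (P.wS * P.nT) s (2 ^ s - 1) (s * D) (2 ^ (s * D) - 1) L I E rows edges =
      ∑ t ∈ range P.nT, coefOf wIt (items rows edges) t * 2 ^ (P.wS * t) +
        massOf wIt (items rows edges) * 2 ^ (P.wS * P.nT) := by
  rw [outAcc_eq hLD, ← sum_term_eq wIt hit]
  rfl

/-- The digits of the output. -/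
lemma dg_outStep (hLD : L < D) (hit : ∀ it ∈ items rows edges, it.2.InR P.nT)
    (hc : ∀ it ∈ items rows edges, it.2.c1 + it.2.c2 + it.2.c3 ≤ 2 ^ P.pC)
    (hcv : cv.InR P.nT) (hcv2 : cv.c1 + cv.c2 + cv.c3 ≤ 2 ^ P.pC)
    (hw : p + P.pC + 1 ≤ P.wS) (hpC : 0 < P.pC) {t : ℕ} (ht : t < P.nT) :
    ∃ top, massOf wIt (items rows edges) ≤ top ∧
      (outStep (mkOut P s p L D) I E rows edges cv = 0 ∧ 2 ^ p < top ∨
        top ≤ 2 ^ p ∧ dg P.wS (outStep (mkOut P s p L D) I E rows edges cv) t =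
          (coefOf wIt (items rows edges) t + (2 ^ p - top) * cc cv t) / 2 ^ P.pC) := by
  have hwS : 0 < P.wS := by omega
  have hle : P.pC ≤ P.wS := by omega
  set its := items rows edges with hits
  have hacc := outAcc_eq_sum (P := P) (s := s) (L := L) (D := D) (I := I) (E := E)
    (rows := rows) (edges := edges) hLD hit
  set acc := outAcc P.tau P.wS (P.wS * P.nT) s (2 ^ s - 1) (s * D) (2 ^ (s * D) - 1) L I E rows edges
    with hacc'
  set top := acc / 2 ^ (P.wS * P.nT) with htop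
  have hmass : massOf wIt its ≤ top := by
    rw [htop, Nat.le_div_iff_mul_le (by positivity), hacc]
    exact Nat.le_add_left _ _
  refine ⟨top, hmass, ?_⟩
  have hstep : outStep (mkOut P s p L D) I E rows edges cv =
      bif Nat.ble top (2 ^ p) then
        Nat.shiftRight (Nat.land (Nat.add acc (Nat.mul (Nat.sub (2 ^ p) top) (rpk0 P.wS cv)))
          (outMask P.wS P.pC P.nT)) P.pC
      else 0 := by
    simp only [outStep, mkOut, outW]
    rw [sr_eq]
  by_cases hg : top ≤ 2 ^ p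
  · right
    refine ⟨hg, ?_⟩
    have hb : Nat.ble top (2 ^ p) = true := Nat.ble_eq_true_of_le hg
    rw [hstep, hb, cond_true]
    -- the number as a sum of digits
    set d : ℕ → ℕ := fun j => if j < P.nT then
      coefOf wIt its j + (2 ^ p - top) * cc cv j else massOf wIt its with hd
    have hdlt : ∀ j < P.nT + 1, d j < 2 ^ P.wS := by
      intro j _
      have hbig : 2 ^ p * 2 ^ P.pC < 2 ^ P.wS := by
        rw [← pow_add]
        exact Nat.pow_lt_pow_right (by norm_num) (by omega)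
      simp only [hd]
      split_ifs with hj
      · have h1 := coefOf_le wIt hc j
        have h2 : cc cv j ≤ 2 ^ P.pC := (cc_le _ _).trans hcv2
        have h3 : coefOf wIt its j + (2 ^ p - top) * cc cv j ≤ 2 ^ p * 2 ^ P.pC := by
          calc coefOf wIt its j + (2 ^ p - top) * cc cv j
              ≤ massOf wIt its * 2 ^ P.pC + (2 ^ p - top) * 2 ^ P.pC :=
                add_le_add h1 (Nat.mul_le_mul_left _ h2)
            _ = (massOf wIt its + (2 ^ p - top)) * 2 ^ P.pC := by ring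
            _ ≤ 2 ^ p * 2 ^ P.pC := Nat.mul_le_mul_right _ (by omega)
        omega
      · have h1 : massOf wIt its ≤ 2 ^ p := hmass.trans hg
        have h2 : 2 ^ p ≤ 2 ^ p * 2 ^ P.pC := Nat.le_mul_of_pos_right _ (by positivity)
        omega
    have hnum : Nat.add acc (Nat.mul (Nat.sub (2 ^ p) top) (rpk0 P.wS cv)) =
        ∑ j ∈ range (P.nT + 1), d j * 2 ^ (P.wS * j) := by
      rw [Finset.sum_range_succ, hacc, rpk0_eq_sum hcv]
      simp only [Nat.add_eq, Nat.mul_eq, Nat.sub_eq, hd]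
      rw [if_neg (lt_irrefl _), Finset.mul_sum, add_right_comm, ← Finset.sum_add_distrib]
      congr 1
      refine Finset.sum_congr rfl fun j hj => ?_
      rw [if_pos (mem_range.1 hj)]
      ring
    have hdg := dg_of_sum (s := P.wS) (P.nT + 1) d hdlt t
    rw [← hnum, if_pos (by omega)] at hdg
    have hones : ∀ n, dg P.wS (ones P.wS 0 (P.nT - 1)) n ≤ 1 := fun n => dg_ones_le hwS _ _ n
    have hfl := dg_floor_mask hwS hle hpC hones
      (Nat.add acc (Nat.mul (Nat.sub (2 ^ p) top) (rpk0 P.wS cv))) 0 t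
    simp only [mul_zero, zero_add, add_zero] at hfl
    have e1 : Nat.shiftRight (Nat.land (Nat.add acc (Nat.mul (Nat.sub (2 ^ p) top) (rpk0 P.wS cv)))
        (outMask P.wS P.pC P.nT)) P.pC =
        (Nat.add acc (Nat.mul (Nat.sub (2 ^ p) top) (rpk0 P.wS cv)) &&&
          ((2 ^ P.wS - 2 ^ P.pC) * ones P.wS 0 (P.nT - 1))) >>> P.pC := rfl
    rw [e1, hfl, hdg, dg_ones hwS, if_pos (by omega), mul_one]
    simp only [hd]
    rw [if_pos ht]
  · left
    refine ⟨?_, by omega⟩
    have hb : Nat.ble top (2 ^ p) = false := by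
      rw [← Bool.not_eq_true, Nat.ble_eq]
      exact hg
    rw [hstep, hb, cond_false]

end Digits

/-! ### The check of a table -/

/-- the row coordinates increase strictly, from `lo` on -/
def chkIncr : ℕ → List REnt → Bool
  | _, [] => true
  | lo, e :: es => Nat.ble lo e.n && chkIncr (Nat.succ e.n) es

lemma chkIncr_spec {lo : ℕ} {l : List REnt} (h : chkIncr lo l = true) :
    (∀ e ∈ l, lo ≤ e.n) ∧ (l.map REnt.n).Nodup := by
  induction l generalizing lo with
  | nil => simp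
  | cons e l ih =>
    simp only [chkIncr, Bool.and_eq_true] at h
    have h1 : lo ≤ e.n := Nat.le_of_ble_eq_true h.1
    obtain ⟨h2, h3⟩ := ih h.2
    refine ⟨?_, ?_⟩
    · intro x hx
      rcases List.mem_cons.1 hx with rfl | hx
      · exact h1
      · have := h2 x hx
        have : Nat.succ e.n ≤ x.n := this
        omega
    · simp only [List.map_cons, List.nodup_cons]
      refine ⟨?_, h3⟩
      intro hm
      obtain ⟨x, hx, hxe⟩ := List.mem_map.1 hm
      have := h2 x hx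
      have h5 : Nat.succ e.n ≤ x.n := this
      omega

/-- the second coordinate of a point -/
def Pt.casesN : Pt → ℕ
  | .int _ n => n
  | .edge m => m

/-- the check of the rows of the interior points -/
def RPar.chkRows (P : RPar) (L : ℕ) : ℕ → List (ℕ × List REnt) → Bool
  | _, [] => true
  | lo, r :: rs => Nat.ble lo r.1 && chkIncr r.1 r.2 &&
      r.2.all (fun e => Nat.ble e.n L && P.chkEnt (Pt.int r.1 e.n) e) &&
      RPar.chkRows P L (Nat.succ r.1) rs

/-- the check of the points on the edge -/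
def RPar.chkEdges (P : RPar) (L : ℕ) (edges : List REnt) : Bool :=
  chkIncr 0 edges && edges.all (fun e => Nat.ble e.n L && P.chkEnt (Pt.edge e.n) e)

/-- the check of a table -/
def RPar.chkTable (P : RPar) (L : ℕ) (rows : List (ℕ × List REnt)) (edges : List REnt)
    (cv : REnt) : Bool :=
  P.chkRows L 0 rows && P.chkEdges L edges && P.chkImg ⟨1, 0, 0⟩ cv

/-- the points of the chamber in the window -/
def Pt.InCh (L : ℕ) : Pt → Prop
  | .int m n => m ≤ n ∧ n ≤ L
  | .edge m => m ≤ L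

lemma chkRows_spec {P : RPar} {L lo : ℕ} {rows : List (ℕ × List REnt)}
    (h : P.chkRows L lo rows = true) :
    (∀ it ∈ rows.flatMap (fun r => r.2.map fun e => (Pt.int r.1 e.n, e)),
      it.1.InCh L ∧ P.chkEnt it.1 it.2 = true ∧ ∃ m n, it.1 = Pt.int m n ∧ lo ≤ m) ∧
    ((rows.flatMap (fun r => r.2.map fun e => (Pt.int r.1 e.n, e))).map Prod.fst).Nodup := by
  induction rows generalizing lo with
  | nil => simp
  | cons r rs ih =>
    simp only [RPar.chkRows, Bool.and_eq_true] at h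
    obtain ⟨⟨⟨h1, h2⟩, h3⟩, h4⟩ := h
    have hlo : lo ≤ r.1 := Nat.le_of_ble_eq_true h1
    obtain ⟨hI1, hI2⟩ := chkIncr_spec h2
    obtain ⟨hR1, hR2⟩ := ih h4
    simp only [List.flatMap_cons, List.map_append]
    constructor
    · intro it hit
      rcases List.mem_append.1 hit with hit | hit
      · obtain ⟨e, he, rfl⟩ := List.mem_map.1 hit
        have h5 := List.all_eq_true.1 h3 e he
        simp only [Bool.and_eq_true] at h5
        exact ⟨⟨hI1 e he, Nat.le_of_ble_eq_true h5.1⟩, h5.2, r.1, e.n, rfl, hlo⟩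
      · obtain ⟨h5, h6, m, n, h7, h8⟩ := hR1 it hit
        have h9 : Nat.succ r.1 ≤ m := h8
        exact ⟨h5, h6, m, n, h7, by omega⟩
    · refine List.nodup_append.2 ⟨?_, hR2, ?_⟩
      · simp only [List.map_map]
        refine List.Nodup.of_map Pt.casesN ?_
        simpa [List.map_map, Function.comp_def, Pt.casesN] using hI2
      · intro x hx y hy hxy
        subst hxy
        obtain ⟨it, hit, rfl⟩ := List.mem_map.1 hx
        obtain ⟨e, he, rfl⟩ := List.mem_map.1 hit
        obtain ⟨it2, hit2, h7⟩ := List.mem_map.1 hy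
        obtain ⟨_, _, m, n, h8, h9⟩ := hR1 it2 hit2
        have h10 : Nat.succ r.1 ≤ m := h9
        rw [h8] at h7
        simp only [Pt.int.injEq] at h7
        omega

lemma chkTable_spec {P : RPar} {L : ℕ} {rows : List (ℕ × List REnt)} {edges : List REnt} {cv : REnt}
    (h : P.chkTable L rows edges cv = true) :
    (∀ it ∈ items rows edges, it.1.InCh L ∧ P.chkEnt it.1 it.2 = true) ∧
    ((items rows edges).map Prod.fst).Nodup ∧ P.chkImg ⟨1, 0, 0⟩ cv = true := by
  simp only [RPar.chkTable, RPar.chkEdges, Bool.and_eq_true] at h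
  obtain ⟨⟨h1, h2, h3⟩, h4⟩ := h
  obtain ⟨hR1, hR2⟩ := chkRows_spec h1
  obtain ⟨hI1, hI2⟩ := chkIncr_spec h2
  refine ⟨?_, ?_, h4⟩
  · intro it hit
    rcases List.mem_append.1 hit with hit | hit
    · exact ⟨(hR1 it hit).1, (hR1 it hit).2.1⟩
    · obtain ⟨e, he, rfl⟩ := List.mem_map.1 hit
      have h5 := List.all_eq_true.1 h3 e he
      simp only [Bool.and_eq_true] at h5
      exact ⟨Nat.le_of_ble_eq_true h5.1, h5.2⟩
  · simp only [items, List.map_append]
    refine List.nodup_append.2 ⟨hR2, ?_, ?_⟩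
    · simp only [List.map_map]
      refine List.Nodup.of_map Pt.casesN ?_
      simpa [List.map_map, Function.comp_def, Pt.casesN] using hI2
    · intro x hx y hy hxy
      subst hxy
      obtain ⟨it, hit, rfl⟩ := List.mem_map.1 hx
      obtain ⟨_, _, m, n, h8, _⟩ := hR1 it hit
      obtain ⟨it2, hit2, h7⟩ := List.mem_map.1 hy
      obtain ⟨e, _, rfl⟩ := List.mem_map.1 hit2
      rw [h8] at h7
      simp at h7

lemma chkImg_facts {P : RPar} {X : H3} {e : REnt} (h : P.chkImg X e = true) :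
    e.InR P.nT ∧ e.c1 + e.c2 + e.c3 ≤ 2 ^ P.pC := by
  simp only [RPar.chkImg, Bool.and_eq_true, Nat.pow_eq] at h
  obtain ⟨⟨⟨⟨h1, h2⟩, h3⟩, h4⟩, _⟩ := h
  refine ⟨⟨by simpa using h1, by simpa using h2, by simpa using h3⟩, ?_⟩
  exact Nat.le_of_ble_eq_true h4

/-- the factor of the table is at most the true factor -/
lemma wOf_le_wt {P : RPar} (hP : P.OK) {s p L D I E : ℕ} {it : Pt × REnt}
    (h : P.chkEnt it.1 it.2 = true) :
    ((wOf P.tau s L D I E it : ℕ) : ℝ) / (2 ^ p : ℕ) ≤ Pt.wt P.A P.B s p L D I E it.1 := by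
  simp only [RPar.chkEnt, Bool.and_eq_true, Nat.pow_eq, Nat.mul_eq] at h
  have h1 := Nat.le_of_ble_eq_true h.1
  have hx0 : 0 < (it.1.h P.A P.B).x0 := by
    cases it.1 with
    | int m n =>
      simp only [Pt.h, intH, Nat.pow_eq, Nat.add_eq]
      exact Nat.pow_pos hP.hA
    | edge m =>
      simp only [Pt.h, edgeH, Nat.pow_eq]
      exact Nat.pow_pos hP.hA
  have hx0' : (0 : ℝ) < (it.1.h P.A P.B).x0 := by exact_mod_cast hx0
  have hst : (0 : ℝ) < it.1.stab := by exact_mod_cast it.1.stab_pos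
  have hT : (0 : ℝ) < 2 ^ P.tau := by positivity
  have hS : (0 : ℝ) < ((2 ^ p : ℕ) : ℝ) := by positivity
  have h2 : (it.2.fac : ℝ) / 2 ^ P.tau ≤ (2 / (it.1.stab : ℝ)) *
      (((it.1.h P.A P.B).sum : ℝ) / ((it.1.h P.A P.B).x0 : ℝ)) := by
    have h3 : (it.2.fac : ℝ) * ((it.1.h P.A P.B).x0 * it.1.stab) ≤
        2 * (it.1.h P.A P.B).sum * 2 ^ P.tau := by exact_mod_cast h1
    rw [div_le_iff₀ hT, div_mul_div_comm, div_mul_eq_mul_div, le_div_iff₀ (by positivity)]
    linarith
  have h4 : ((wOf P.tau s L D I E it : ℕ) : ℝ) ≤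
      (it.1.dig s L D I E : ℝ) * ((it.2.fac : ℝ) / 2 ^ P.tau) := by
    have := Nat.cast_div_le (α := ℝ) (m := it.1.dig s L D I E * it.2.fac) (n := 2 ^ P.tau)
    simp only [wOf]
    refine this.trans (le_of_eq ?_)
    push_cast
    ring
  simp only [Pt.wt]
  rw [div_le_iff₀ hS]
  calc ((wOf P.tau s L D I E it : ℕ) : ℝ) ≤ (it.1.dig s L D I E : ℝ) * ((it.2.fac : ℝ) / 2 ^ P.tau) := h4
    _ ≤ (it.1.dig s L D I E : ℝ) * ((2 / (it.1.stab : ℝ)) *
        (((it.1.h P.A P.B).sum : ℝ) / ((it.1.h P.A P.B).x0 : ℝ))) :=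
        mul_le_mul_of_nonneg_left h2 (Nat.cast_nonneg _)
    _ = _ := by
        field_simp

/-- A vertex is a relabelling of the first vertex, and so are the images. -/
lemma rule_vertex {P : RPar} (hP : P.OK) {cv : REnt} (h : P.chkImg ⟨1, 0, 0⟩ cv = true)
    {f : (Fin 3 → ℝ) → ℝ} (hf : Adm f) (b : Fin 3) :
    ∑ t : Fin P.nT, ((cc cv t : ℝ) / (2 ^ P.pC : ℕ)) * (f (baseL 3 b) - f (P.g t)) ≤
      f (baseL 3 b) - f (T 3 (-(P.a : ℝ) / P.c) (baseL 3 b)) := by
  have hX : 0 < (⟨1, 0, 0⟩ : H3).sum := by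
    simp [H3.sum]
  have hr := RPar.rule_cc hP hX h hf b
  have hpt : (⟨1, 0, 0⟩ : H3).pt = baseL 3 0 := by
    funext l
    fin_cases l <;> simp [H3.pt, H3.get, H3.sum, baseL]
  rw [hpt] at hr
  have hc' : (0 : ℝ) < P.c := by exact_mod_cast hP.hc
  have hlam : -(1 / 2 : ℝ) ≤ -(P.a : ℝ) / P.c := by
    have : (2 * P.a : ℝ) ≤ P.c := by exact_mod_cast hP.ha
    rw [neg_div, neg_le_neg_iff, div_le_iff₀ hc']
    linarith
  have hlam1 : -(P.a : ℝ) / P.c ≤ 1 := by
    have : -(P.a : ℝ) / P.c ≤ 0 := by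
      rw [neg_div]
      exact neg_nonpos.2 (by positivity)
    linarith
  have hCh : ChanOK 3 (-(P.a : ℝ) / P.c) := chanOK_three hlam hlam1
  have hb : baseL 3 b = rel (Equiv.swap 0 b) (baseL 3 0) := by
    funext i
    simp only [rel, baseL]
    by_cases h1 : i = b
    · subst h1
      simp
    · have h2 : (0 : Fin 3) ≠ Equiv.swap 0 b i := by
        intro h3
        apply h1
        have := congrArg (Equiv.swap 0 b) h3
        simpa using this.symm
      have h4 : b ≠ i := fun h => h1 h.symm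
      simp [h2, h4]
  have e : f (T 3 (-(P.a : ℝ) / P.c) (baseL 3 b)) = f (T 3 (-(P.a : ℝ) / P.c) (baseL 3 0)) := by
    rw [hb, T_rel]
    exact hf.2.2 _ _ (T_mem (by norm_num) hCh (baseL_mem 0))
  rw [e]
  exact hr

lemma cast_sum_map {α : Type*} (l : List α) (w : α → ℕ) :
    (l.map fun it => ((w it : ℕ) : ℝ)).sum = (((l.map w).sum : ℕ) : ℝ) := by
  induction l with
  | nil => simp
  | cons a l ih => simp [ih]

/-- **The output step.**  From the bound by the chamber digits of the final state of a level to the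
bound of the contraction by the packed output vector. -/
theorem outStep_spec {Ω : Type*} {P : RPar} (hP : P.OK) {s p L D I E : ℕ}
    {rows : List (ℕ × List REnt)} {edges : List REnt} {cv : REnt} {M : Ω → Fin 3 → ℝ}
    (hLD : L < D) (hw : p + P.pC + 1 ≤ P.wS) (hpC : 0 < P.pC)
    (hT : P.chkTable L rows edges cv = true)
    (hO : ∀ R : Finset Pt, (∀ r ∈ R, r.InCh L) → ∀ f : (Fin 3 → ℝ) → ℝ, Adm f → ∀ b : Fin 3,
      ∑ r ∈ R, Pt.wt P.A P.B s p L D I E r * (f (baseL 3 b) - f (r.h P.A P.B).pt) ≤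
        f (baseL 3 b) - Pot f M) :
    DefBnd (fun t : Fin P.nT => P.g t) (contract (-(P.a : ℝ) / P.c) M)
      (fun t => (dg P.wS (outStep (mkOut P s p L D) I E rows edges cv) t : ℝ) / (2 ^ p : ℕ)) := by
  obtain ⟨hit, hnd, hcv⟩ := chkTable_spec hT
  set its := items rows edges with hits
  have hc' : (0 : ℝ) < P.c := by exact_mod_cast hP.hc
  have hlam : -(1 / 2 : ℝ) ≤ -(P.a : ℝ) / P.c := by
    have : (2 * P.a : ℝ) ≤ P.c := by exact_mod_cast hP.ha
    rw [neg_div, neg_le_neg_iff, div_le_iff₀ hc']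
    linarith
  have hlam1 : -(P.a : ℝ) / P.c ≤ 1 := by
    have : -(P.a : ℝ) / P.c ≤ 0 := by
      rw [neg_div]
      exact neg_nonpos.2 (by positivity)
    linarith
  have hCh : ChanOK 3 (-(P.a : ℝ) / P.c) := chanOK_three hlam hlam1
  have hS : (0 : ℝ) < ((2 ^ p : ℕ) : ℝ) := by positivity
  have hSC : (0 : ℝ) < ((2 ^ P.pC : ℕ) : ℝ) := by positivity
  -- facts on the table
  have himg : ∀ it ∈ its, P.chkImg (it.1.h P.A P.B) it.2 = true := fun it hi => by
    have := (hit it hi).2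
    simp only [RPar.chkEnt, Bool.and_eq_true] at this
    exact this.2
  have hInR : ∀ it ∈ its, it.2.InR P.nT := fun it hi => (chkImg_facts (himg it hi)).1
  have hcle : ∀ it ∈ its, it.2.c1 + it.2.c2 + it.2.c3 ≤ 2 ^ P.pC := fun it hi =>
    (chkImg_facts (himg it hi)).2
  obtain ⟨hcv1, hcv2⟩ := chkImg_facts hcv
  -- the table as a function on `Fin its.length`
  let g : Fin its.length → Fin 3 → ℝ := fun i => ((its[i.1]).1.h P.A P.B).pt
  have hg : ∀ i, g i ∈ Sx 3 := fun i => H3.pt_mem (Pt.h_sum_pos hP.hA _)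
  let Wt : Fin its.length → ℝ := fun i => Pt.wt P.A P.B s p L D I E (its[i.1]).1
  let w : Pt × REnt → ℕ := wOf P.tau s L D I E
  let W : Fin its.length → ℝ := fun i => ((w its[i.1] : ℕ) : ℝ) / (2 ^ p : ℕ)
  have hD0 : DefBnd g M Wt := by
    intro f hf b
    have h1 := hO (its.map Prod.fst).toFinset (fun r hr => by
      obtain ⟨it, hi, rfl⟩ := List.mem_map.1 (List.mem_toFinset.1 hr)
      exact (hit it hi).1) f hf b
    rw [List.sum_toFinset _ hnd, List.map_map] at h1
    rw [← Fin.sum_univ_fun_getElem] at h1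
    exact h1
  have hD1 : DefBnd g M W := hD0.mono hg fun i => wOf_le_wt hP (hit _ (List.getElem_mem _)).2
  have hW0 : ∀ i, 0 ≤ W i := fun i => by positivity
  let C : Fin its.length → Fin P.nT → ℝ := fun i t => (cc (its[i.1]).2 t : ℝ) / (2 ^ P.pC : ℕ)
  let Cv : Fin P.nT → ℝ := fun t => (cc cv t : ℝ) / (2 ^ P.pC : ℕ)
  have hC : ∀ r, ∀ f : (Fin 3 → ℝ) → ℝ, Adm f → ∀ b : Fin 3,
      ∑ t, C r t * (f (baseL 3 b) - f (P.g t)) ≤
        f (baseL 3 b) - f (T 3 (-(P.a : ℝ) / P.c) (g r)) := fun r f hf b =>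
    RPar.rule_cc hP (Pt.h_sum_pos hP.hA _) (himg _ (List.getElem_mem _)) hf b
  have hCv : ∀ f : (Fin 3 → ℝ) → ℝ, Adm f → ∀ b : Fin 3,
      ∑ t, Cv t * (f (baseL 3 b) - f (P.g t)) ≤
        f (baseL 3 b) - f (T 3 (-(P.a : ℝ) / P.c) (baseL 3 b)) := fun f hf b =>
    rule_vertex hP hcv hf b
  have hgM : ∀ t : Fin P.nT, P.g t ∈ Sx 3 := fun t => H3.pt_mem (tgH_sum_pos hP.hA _ _ _)
  -- the masses
  have hsumW : ∑ i, W i = (massOf w its : ℝ) / (2 ^ p : ℕ) := by
    simp only [W]
    rw [← Finset.sum_div]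
    congr 1
    have := Fin.sum_univ_fun_getElem its (fun it => ((w it : ℕ) : ℝ))
    rw [this, massOf, cast_sum_map]
  have hsumC : ∀ t : ℕ, ∑ i, W i * ((cc (its[i.1]).2 t : ℝ) / (2 ^ P.pC : ℕ)) =
      (coefOf w its t : ℝ) / ((2 ^ p : ℕ) * (2 ^ P.pC : ℕ)) := by
    intro t
    have h1 : ∀ i : Fin its.length, W i * ((cc (its[i.1]).2 t : ℝ) / (2 ^ P.pC : ℕ)) =
        ((w its[i.1] * cc (its[i.1]).2 t : ℕ) : ℝ) / ((2 ^ p : ℕ) * (2 ^ P.pC : ℕ)) := by
      intro i
      simp only [W]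
      push_cast
      field_simp
    simp only [h1]
    rw [← Finset.sum_div]
    congr 1
    have := Fin.sum_univ_fun_getElem its (fun it => ((w it * cc it.2 t : ℕ) : ℝ))
    rw [this, coefOf, cast_sum_map]
  -- the digits
  have hdig := fun (t : Fin P.nT) =>
    dg_outStep (P := P) (s := s) (p := p) (L := L) (D := D) (I := I) (E := E) (rows := rows)
      (edges := edges) (cv := cv) hLD hInR hcle hcv1 hcv2 hw hpC t.2
  by_cases hguard : massOf w its ≤ 2 ^ p
  · have hW1 : ∑ i, W i ≤ 1 := by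
      rw [hsumW, div_le_one hS]
      exact_mod_cast hguard
    have hD2 := DefBnd.contract (q := 3) (by norm_num) hCh hD1 hW0 hW1 hg hC hCv
    refine hD2.mono hgM fun t => ?_
    obtain ⟨top, htop, h0 | ⟨h1, h2⟩⟩ := hdig t
    · rw [h0.1]
      simp only [Nat.cast_zero, dg, Nat.zero_div, Nat.zero_mod, zero_div]
      refine add_nonneg (Finset.sum_nonneg fun i _ => mul_nonneg (hW0 i) (by positivity)) ?_
      exact mul_nonneg (sub_nonneg.2 hW1) (by positivity)
    · rw [h2]
      have hsc := hsumC t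
      have hmt : ((massOf w its : ℕ) : ℝ) ≤ top := by exact_mod_cast htop
      have htp : (top : ℝ) ≤ ((2 ^ p : ℕ) : ℝ) := by exact_mod_cast h1
      have hfl : ((((coefOf w its t + (2 ^ p - top) * cc cv t) / 2 ^ P.pC : ℕ)) : ℝ) ≤
          ((coefOf w its t : ℝ) + (((2 ^ p : ℕ) : ℝ) - top) * cc cv t) / (2 ^ P.pC : ℕ) := by
        refine (Nat.cast_div_le (α := ℝ)).trans (le_of_eq ?_)
        rw [Nat.cast_add, Nat.cast_mul, Nat.cast_sub h1]
      rw [hsumW]
      simp only [C, Cv]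
      rw [hsc, div_le_iff₀ hS]
      refine hfl.trans ?_
      have hcc : (0 : ℝ) ≤ cc cv t := Nat.cast_nonneg _
      have e1 : ((coefOf w its t : ℝ) / (((2 ^ p : ℕ) : ℝ) * ((2 ^ P.pC : ℕ) : ℝ)) +
          (1 - (massOf w its : ℝ) / ((2 ^ p : ℕ) : ℝ)) * ((cc cv t : ℝ) / ((2 ^ P.pC : ℕ) : ℝ))) *
            ((2 ^ p : ℕ) : ℝ) =
          ((coefOf w its t : ℝ) + (((2 ^ p : ℕ) : ℝ) - (massOf w its : ℝ)) * cc cv t) /
            ((2 ^ P.pC : ℕ) : ℝ) := by
        field_simp
      rw [e1]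
      apply div_le_div_of_nonneg_right _ hSC.le
      have : (((2 ^ p : ℕ) : ℝ) - top) * cc cv t ≤ (((2 ^ p : ℕ) : ℝ) - (massOf w its : ℝ)) * cc cv t :=
        mul_le_mul_of_nonneg_right (by linarith) hcc
      linarith
  · -- the mass is too large: the output is zero, no information
    have hD3 : DefBnd g M (fun _ => 0) := hD1.mono hg hW0
    have hD4 := DefBnd.contract (q := 3) (by norm_num) hCh hD3 (fun _ => le_rfl) (by simp) hg hC hCv
    refine hD4.mono hgM fun t => ?_
    obtain ⟨top, htop, h0 | ⟨h1, _⟩⟩ := hdig t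
    · rw [h0.1]
      simp only [Nat.cast_zero, dg, Nat.zero_div, Nat.zero_mod, zero_div]
      simp only [zero_mul, Finset.sum_const_zero, sub_zero, one_mul, zero_add]
      positivity
    · exact absurd (htop.trans h1) hguard

end Lat

end Crest.Agent.PottsTree
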