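import Crest.Agent.Lib.PottsTree.LatLevel
import Crest.Agent.Lib.PottsTree.LatInput

/-!
# A level of the lattice checker

The two links of the digit layer with the states of `LatLevel`: from the packed weights on the orbit
representatives to a state (`Fit.nu_in`), from a state to the packed weights of the next level
(`Fit.out`).  The functions of a level, for a regular tree and a Galton-Watson tree, and the passage from
one level to the next.
-/

namespace Crest.Agent.PottsTree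

open Finset
open ConeData
open Cmp

namespace Lat

/-- The data of the levels of one table, with its checks. -/
structure Fit (P : RPar) (s p L D : ℕ) (rows : List (ℕ × List REnt)) (edges : List REnt) (cv : REnt)
    (usedI usedE : List ℕ) : Prop where
  hP : P.OK
  hB : 0 < P.B
  hAB : P.B < P.A
  hp : 2 * p + 4 ≤ s
  hp0 : 0 < p
  hD : 4 * L < D
  hw : p + P.pC + 1 ≤ P.wS
  hpC : 0 < P.pC
  hT : P.chkTable L rows edges cv = true
  hU : P.chkUsed L usedI usedE = true

variable {P : RPar} {s p L D : ℕ} {rows : List (ℕ × List REnt)} {edges : List REnt} {cv : REnt}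
  {usedI usedE : List ℕ} {Ω : Type*}

namespace Fit

variable (h : Fit P s p L D rows edges cv usedI usedE)

include h in
lemma hβ : 0 < (P.A : ℝ) / P.B := by
  have h1 : (0 : ℝ) < P.B := by exact_mod_cast h.hB
  have h2 : (0 : ℝ) < P.A := by exact_mod_cast h.hP.hA
  positivity

include h in
lemma h1β : 1 < (P.A : ℝ) / P.B := by
  have h1 : (0 : ℝ) < P.B := by exact_mod_cast h.hB
  have h2 : (P.B : ℝ) < P.A := by exact_mod_cast h.hAB
  rwa [one_lt_div h1]

include h in
lemma chan : ChanOK 3 (-(P.a : ℝ) / P.c) := by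
  have hc' : (0 : ℝ) < P.c := by exact_mod_cast h.hP.hc
  have hlam : -(1 / 2 : ℝ) ≤ -(P.a : ℝ) / P.c := by
    have : (2 * P.a : ℝ) ≤ P.c := by exact_mod_cast h.hP.ha
    rw [neg_div, neg_le_neg_iff, div_le_iff₀ hc']
    linarith
  have hlam1 : -(P.a : ℝ) / P.c ≤ 1 := by
    have : -(P.a : ℝ) / P.c ≤ 0 := by
      rw [neg_div]
      exact neg_nonpos.2 (by positivity)
    linarith
  exact chanOK_three hlam hlam1

include h in
lemma g_mem (t : Fin P.nT) : P.g t ∈ Sx 3 :=
  H3.pt_mem (tgH_sum_pos (B := P.B) h.hP.hA P.Mt P.nI t)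

end Fit

/-! ### The input -/

lemma Vof_ptW {s p L D N E u v : ℕ} (hu : u ≤ 2 * L) (hv : v ≤ 2 * L) :
    Vof s p L D N E (ptW L u v) = rI s p L D N u v := by
  show (if -(L : ℤ) ≤ (u : ℤ) - L ∧ (u : ℤ) - L ≤ L ∧ -(L : ℤ) ≤ (v : ℤ) - L ∧ (v : ℤ) - L ≤ L then
    (dg s N (((u : ℤ) - L + L).toNat * D + ((v : ℤ) - L + L).toNat) : ℝ) / (2 ^ p : ℕ) else 0) = _
  rw [if_pos (by omega)]
  have e1 : ((u : ℤ) - L + L).toNat = u := by omega
  have e2 : ((v : ℤ) - L + L).toNat = v := by omega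
  rw [e1, e2, rI, if_pos ⟨hu, hv⟩, ar]
  push_cast
  rfl

lemma Vof_ebW {s p L D N E v : ℕ} (hv : v ≤ 2 * L) :
    Vof s p L D N E (ebW L v) = rE s p L E v := by
  show (if -(L : ℤ) ≤ (v : ℤ) - L ∧ (v : ℤ) - L ≤ L then
    (dg s E ((v : ℤ) - L + L).toNat : ℝ) / (2 ^ p : ℕ) else 0) = _
  rw [if_pos (by omega)]
  have e2 : ((v : ℤ) - L + L).toNat = v := by omega
  rw [e2, rE, if_pos hv]
  push_cast
  rfl

/-- the right side of the bound of the input step with weights on a part of the slots -/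
lemma sum_freeNu_on {W : ℕ} (T : Finset ℕ) (hT : ∀ t ∈ T, t < P.nT) (x : WithBot ℤ × WithBot ℤ) :
    ∑ k : Fin P.nT × Equiv.Perm (Fin 3), (if chartOf (tgE P.Mt P.nI k.1) k.2 = x then
      freeNu 0 (fun t : Fin P.nT => P.g t)
        (fun t : Fin P.nT => if t.1 ∈ T then (dg P.wS W t : ℝ) / (2 ^ p : ℕ) else 0) k
      else 0) = ∑ t ∈ T, Fx P p W x t := by
  have e0 : ∑ t ∈ T, Fx P p W x t = ∑ t ∈ range P.nT, if t ∈ T then Fx P p W x t else 0 := by
    rw [Finset.sum_ite_mem]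
    refine Finset.sum_congr ?_ fun _ _ => rfl
    ext t
    simp only [mem_inter, mem_range]
    exact ⟨fun ht => ⟨hT t ht, ht⟩, fun ht => ht.2⟩
  rw [e0, Fintype.sum_prod_type,
    ← Fin.sum_univ_eq_sum_range (fun t => if t ∈ T then Fx P p W x t else 0)]
  refine Finset.sum_congr rfl fun t _ => ?_
  have hc : (Fintype.card (Equiv.Perm (Fin 3)) : ℝ) = 6 := by
    rw [Fintype.card_perm, Fintype.card_fin]
    norm_num [Nat.factorial]
  by_cases ht : t.1 ∈ T
  · rw [if_pos ht]
    refine Finset.sum_congr rfl fun π _ => ?_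
    simp only [freeNu, hc, if_pos ht]
    norm_num
  · rw [if_neg ht]
    refine Finset.sum_eq_zero fun π _ => ?_
    simp only [freeNu, if_neg ht, mul_zero, ite_self]

namespace Fit

variable (h : Fit P s p L D rows edges cv usedI usedE)

include h in
/-- A state below the law given the root of the invariant law with weights below the given ones. -/
lemma nu_of_bound {Lq : Ω → Fin 3 → ℝ} {W : Fin P.nT → ℝ} {W' : Fin P.nT → ℝ}
    (hD : DefBnd (fun t : Fin P.nT => P.g t) Lq W)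
    (hW0 : ∀ t, 0 ≤ W' t) (hle : ∀ t, W' t ≤ W t) (hW1 : ∑ t, W' t ≤ 1) {N E : ℕ}
    (hV : ∀ x : WithBot ℤ × WithBot ℤ, Vof s p L D N E x ≤
      ∑ k : Fin P.nT × Equiv.Perm (Fin 3), (if chartOf (tgE P.Mt P.nI k.1) k.2 = x then
        freeNu 0 (fun t : Fin P.nT => P.g t) W' k else 0)) :
    NuB (0 : Fin 3) (Gb h.hβ) Lq (StF L (rI s p L D N) (rE s p L E)) := by
  refine start_state h.hβ h.h1β (by norm_num) (hD.mono h.g_mem hle) hW0 hW1 h.g_mem
    (c := fun k => chartOf (tgE P.Mt P.nI k.1) k.2) (fun k hk => ?_) rI_nonneg ?_ ?_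
  · exact hc_tg h.hP.hA h.hB k.1 k.2 h.hβ hk
  · intro u v hu hv
    rw [← Vof_ptW (E := E) hu hv]
    exact hV _
  · intro v hv
    rw [← Vof_ebW (N := N) (D := D) hv]
    exact hV _

include h in
/-- **The input of a level.** -/
theorem nu_in {Lq : Ω → Fin 3 → ℝ} {W : ℕ}
    (hD : DefBnd (fun t : Fin P.nT => P.g t) Lq (fun t => (dg P.wS W t : ℝ) / (2 ^ p : ℕ))) :
    NuSt h.hβ s p L D Lq (inStep (mkIn P s p L D) W usedI usedE) := by
  have hs : 0 < s := by
    have := h.hp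
    omega
  have hps : p < s := by
    have := h.hp
    omega
  have hLD : 2 * L < D := by
    have := h.hD
    omega
  obtain ⟨hG, hc⟩ := inStep_spec2 (Wl := W) h.hP hs hps hLD h.hU
  refine ⟨hG, ?_⟩
  obtain ⟨hI, hIn, hE, hEn⟩ := chkUsed_spec h.hU
  have hnn : ∀ t : Fin P.nT, (0 : ℝ) ≤ (dg P.wS W t : ℝ) / (2 ^ p : ℕ) := fun t => by positivity
  rcases hc with h0 | ⟨hm, hV⟩
  · rw [h0]
    refine h.nu_of_bound hD (W' := fun _ => 0) (fun _ => le_rfl) hnn ?_ fun x => ?_
    · simp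
    · rw [Vof_zero]
      exact le_of_eq (Finset.sum_eq_zero fun k _ => by
        split_ifs
        · simp [freeNu]
        · rfl).symm
  · set T := usedI.toFinset ∪ usedE.toFinset with hTdef
    have hT : ∀ t ∈ T, t < P.nT := by
      intro t ht
      rcases Finset.mem_union.1 ht with h1 | h1
      · exact (hI t (List.mem_toFinset.1 h1)).h2
      · exact (hE t (List.mem_toFinset.1 h1)).h2
    refine h.nu_of_bound hD
      (W' := fun t => if t.1 ∈ T then (dg P.wS W t : ℝ) / (2 ^ p : ℕ) else 0) ?_ ?_ ?_ ?_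
    · intro t
      split_ifs
      · exact hnn t
      · exact le_rfl
    · intro t
      split_ifs
      · exact le_rfl
      · exact hnn t
    · have e1 : ∑ t : Fin P.nT, (if t.1 ∈ T then (dg P.wS W t : ℝ) / (2 ^ p : ℕ) else 0) =
          ∑ t ∈ T, (dg P.wS W t : ℝ) / (2 ^ p : ℕ) := by
        rw [Fin.sum_univ_eq_sum_range
          (fun t => if t ∈ T then (dg P.wS W t : ℝ) / (2 ^ p : ℕ) else 0), Finset.sum_ite_mem]
        refine Finset.sum_congr ?_ fun _ _ => rfl
        ext t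
        simp only [mem_inter, mem_range]
        exact ⟨fun ht => ht.2, fun ht => ⟨hT t ht, ht⟩⟩
      rw [e1, ← Finset.sum_div]
      have hS : (0 : ℝ) < ((2 ^ p : ℕ) : ℝ) := by positivity
      rw [div_le_one hS]
      have h1 : ∑ t ∈ T, dg P.wS W t ≤ 2 ^ p := by
        refine le_trans ?_ hm
        rw [← Finset.sum_union_inter]
        exact Nat.le_add_right _ _
      exact_mod_cast h1
    · intro x
      rw [sum_freeNu_on T hT]
      exact hV x

end Fit

/-! ### The output -/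

/-- the position of a point of the chamber on the chart -/
def Pt.pos : Pt → Mb
  | .int m n => chamI m n
  | .edge m => chamE m

/-- the chart point of a chamber point -/
lemma G_pos {A B : ℕ} (hA : 0 < A) (hB : 0 < B) (hβ : 0 < (A : ℝ) / B) (r : Pt) :
    Gb hβ r.pos = (r.h A B).pt := by
  have hA' : (A : ℝ) ≠ 0 := by exact_mod_cast hA.ne'
  have hB' : (B : ℝ) ≠ 0 := by exact_mod_cast hB.ne'
  have e : ∀ m : ℕ, bpow ((A : ℝ) / B) ((-(m : ℤ) : ℤ) : WithBot ℤ) = ((B : ℝ) / A) ^ m := by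
    intro m
    show ((A : ℝ) / B) ^ (-(m : ℤ)) = _
    rw [zpow_neg, zpow_natCast, ← inv_pow, inv_div]
  cases r with
  | int m n =>
    show latPt (bpow ((A : ℝ) / B) ((-(m : ℤ) : ℤ) : WithBot ℤ))
      (bpow ((A : ℝ) / B) ((-(n : ℤ) : ℤ) : WithBot ℤ)) = (intH A B m n).pt
    rw [e, e, intH_pt hA]
  | edge m =>
    show latPt (bpow ((A : ℝ) / B) ((-(m : ℤ) : ℤ) : WithBot ℤ))
      (bpow ((A : ℝ) / B) ⊥) = (edgeH A B m).pt
    rw [e, edgeH_pt hA]
    rfl

/-- the norm of a chamber point -/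
lemma nrm_pos_eq {A B : ℕ} (hA : 0 < A) (hB : 0 < B) (hβ : 0 < (A : ℝ) / B) (r : Pt) :
    nrm ((A : ℝ) / B) r.pos = ((r.h A B).sum : ℝ) / ((r.h A B).x0 : ℝ) := by
  have h1 := G_pos hA hB hβ r
  have e0 := congrFun h1 0
  rw [Gb_zero] at e0
  have hn := nrm_pos hβ r.pos
  have hs : (0 : ℝ) < ((r.h A B).sum : ℝ) := by exact_mod_cast Pt.h_sum_pos hA r
  have e1 : (r.h A B).pt 0 = ((r.h A B).x0 : ℝ) / ((r.h A B).sum : ℝ) := rfl
  rw [e1] at e0
  have hx0 : ((r.h A B).x0 : ℝ) ≠ 0 := by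
    intro h0
    rw [h0, zero_div] at e0
    have : 0 < 1 / nrm ((A : ℝ) / B) r.pos := by positivity
    exact this.ne' e0
  field_simp at e0
  field_simp
  linarith

lemma stabN_eq (m n : ℕ) : stabN m n = (Pt.int m n).stab := by
  simp only [stabN, Pt.stab]
  split_ifs <;> first | rfl | omega

lemma stabE_eq (m : ℕ) : stabE m = (Pt.edge m).stab := by
  simp only [stabE, Pt.stab]

/-- the full chamber -/
def fullCh (L : ℕ) : Finset Pt :=
  ((range (L + 1)).biUnion fun m => (Ico m (L + 1)).image (Pt.int m)) ∪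
    (range (L + 1)).image Pt.edge

lemma mem_fullCh {r : Pt} {L : ℕ} (h : r.InCh L) : r ∈ fullCh L := by
  cases r with
  | int m n =>
    obtain ⟨h1, h2⟩ := h
    refine Finset.mem_union_left _ (Finset.mem_biUnion.2 ⟨m, ?_, Finset.mem_image.2 ⟨n, ?_, rfl⟩⟩)
    · simp only [mem_range]
      omega
    · simp only [mem_Ico]
      omega
  | edge m =>
    have h' : m ≤ L := h
    refine Finset.mem_union_right _ (Finset.mem_image.2 ⟨m, ?_, rfl⟩)
    simp only [mem_range]
    omega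

lemma sum_fullCh (L : ℕ) (F : Pt → ℝ) :
    ∑ r ∈ fullCh L, F r = ∑ m ∈ range (L + 1), ∑ n ∈ Ico m (L + 1), F (Pt.int m n) +
      ∑ m ∈ range (L + 1), F (Pt.edge m) := by
  classical
  unfold fullCh
  rw [Finset.sum_union, Finset.sum_biUnion, Finset.sum_image]
  · congr 1
    refine Finset.sum_congr rfl fun m _ => ?_
    rw [Finset.sum_image]
    intro a _ b _ e
    simpa using e
  · intro a _ b _ e
    simpa using e
  · intro a _ b _ hab
    simp only [Function.onFun]
    rw [Finset.disjoint_left]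
    intro r h1 h2
    obtain ⟨n, _, rfl⟩ := Finset.mem_image.1 h1
    obtain ⟨n', _, e⟩ := Finset.mem_image.1 h2
    simp only [Pt.int.injEq] at e
    exact hab e.1.symm
  · rw [Finset.disjoint_left]
    intro r h1 h2
    obtain ⟨m, _, h3⟩ := Finset.mem_biUnion.1 h1
    obtain ⟨n, _, rfl⟩ := Finset.mem_image.1 h3
    obtain ⟨m', _, e⟩ := Finset.mem_image.1 h2
    cases e

namespace Fit

variable (h : Fit P s p L D rows edges cv usedI usedE)

include h in
/-- **The law given the root gives the bound on the chamber in the form of the output step.** -/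
theorem hO {Lq : Ω → Fin 3 → ℝ} {I E : ℕ}
    (hst : NuB (0 : Fin 3) (Gb h.hβ) Lq (StF L (rI s p L D I) (rE s p L E))) (R : Finset Pt)
    (hR : ∀ r ∈ R, r.InCh L) (f : (Fin 3 → ℝ) → ℝ) (hf : Adm f) (b : Fin 3) :
    ∑ r ∈ R, Pt.wt P.A P.B s p L D I E r * (f (baseL 3 b) - f (r.h P.A P.B).pt) ≤
      f (baseL 3 b) - Pot f Lq := by
  classical
  have hA := h.hP.hA
  have hB := h.hB
  have hβ := h.hβ
  have hnn : ∀ r : Pt, 0 ≤ Pt.wt P.A P.B s p L D I E r * (f (baseL 3 b) - f (r.h P.A P.B).pt) := by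
    intro r
    refine mul_nonneg ?_ (sub_nonneg.2 (le_vertex hf (H3.pt_mem (Pt.h_sum_pos hA r)) b))
    unfold Pt.wt
    positivity
  have h1 : ∑ r ∈ R, Pt.wt P.A P.B s p L D I E r * (f (baseL 3 b) - f (r.h P.A P.B).pt) ≤
      ∑ r ∈ fullCh L, Pt.wt P.A P.B s p L D I E r * (f (baseL 3 b) - f (r.h P.A P.B).pt) :=
    Finset.sum_le_sum_of_subset_of_nonneg (fun r hr => mem_fullCh (hR r hr)) fun r _ _ => hnn r
  refine h1.trans ?_
  rw [sum_fullCh]
  refine le_trans (le_of_eq ?_) (chamber_defect h.hβ h.h1β (L := L) rI_nonneg rE_nonneg hst hf b)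
  congr 1
  · refine Finset.sum_congr rfl fun m hm => Finset.sum_congr rfl fun n hn => ?_
    simp only [mem_range] at hm
    simp only [mem_Ico] at hn
    have e1 := G_pos hA hB hβ (Pt.int m n)
    have e2 := nrm_pos_eq hA hB hβ (Pt.int m n)
    have e3 : Pt.pos (Pt.int m n) = chamI m n := rfl
    rw [e3] at e1 e2
    rw [e1, e2, stabN_eq]
    have e4 : rI s p L D I (L - m) (L - n) = (Pt.dig s L D I E (Pt.int m n) : ℝ) / (2 ^ p : ℕ) := by
      rw [rI, if_pos ⟨by omega, by omega⟩, ar]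
      push_cast
      rfl
    rw [e4]
    unfold Pt.wt
    ring
  · refine Finset.sum_congr rfl fun m hm => ?_
    simp only [mem_range] at hm
    have e1 := G_pos hA hB hβ (Pt.edge m)
    have e2 := nrm_pos_eq hA hB hβ (Pt.edge m)
    have e3 : Pt.pos (Pt.edge m) = chamE m := rfl
    rw [e3] at e1 e2
    rw [e1, e2, stabE_eq]
    have e4 : rE s p L E (L - m) = (Pt.dig s L D I E (Pt.edge m) : ℝ) / (2 ^ p : ℕ) := by
      rw [rE, if_pos (by omega)]
      push_cast
      rfl
    rw [e4]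
    unfold Pt.wt
    ring

include h in
/-- **The output of a level.** -/
theorem out {M : Ω → Fin 3 → ℝ} {st : ℕ × ℕ} (hst : NuSt h.hβ s p L D M st) :
    DefBnd (fun t : Fin P.nT => P.g t) (contract (-(P.a : ℝ) / P.c) M)
      (fun t => (dg P.wS (outStep (mkOut P s p L D) st.1 st.2 rows edges cv) t : ℝ) / (2 ^ p : ℕ)) := by
  have hLD : L < D := by
    have := h.hD
    omega
  exact outStep_spec h.hP hLD h.hw h.hpC h.hT (h.hO hst.nu)

include h in
/-- **The level without input.** -/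
theorem base {M : Ω → Fin 3 → ℝ} (hM : IsLik M) :
    DefBnd (fun t : Fin P.nT => P.g t) (contract (-(P.a : ℝ) / P.c) M)
      (fun t => (dg P.wS (outStep (mkOut P s p L D) 0 0 rows edges cv) t : ℝ) / (2 ^ p : ℕ)) := by
  have hLD : L < D := by
    have := h.hD
    omega
  refine outStep_spec h.hP hLD h.hw h.hpC h.hT fun R hR f hf b => ?_
  have e0 : ∀ r ∈ R, Pt.wt P.A P.B s p L D 0 0 r * (f (baseL 3 b) - f (r.h P.A P.B).pt) = 0 := by
    intro r _
    have : Pt.dig s L D 0 0 r = 0 := by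
      cases r <;> simp [Pt.dig, dg]
    simp [Pt.wt, this]
  rw [Finset.sum_eq_zero e0]
  have := defBnd_zero (g := fun t : Fin 0 => (fun _ => 0 : Fin 3 → ℝ)) (by norm_num : (3 : ℕ) ≠ 0)
    hM f hf b
  simpa using this

end Fit

/-! ### The functions of a level -/

/-- the state of a level of the regular tree -/
noncomputable def stateReg (P : RPar) (s p L D : ℕ) (usedI usedE : List ℕ) (bs : List Bool) (W : ℕ) : ℕ × ℕ :=
  fzS (inStep (mkIn P s p L D) W usedI usedE) fun st1 => regRun (mkCtx s p L D) st1 bs st1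

/-- a level of the regular tree, in packed weights -/
noncomputable def levelReg (P : RPar) (s p L D : ℕ) (usedI usedE : List ℕ)
    (rows : List (ℕ × List REnt)) (edges : List REnt) (cv : REnt) (bs : List Bool) (W : ℕ) : ℕ :=
  fzS (stateReg P s p L D usedI usedE bs W) fun st =>
    outStep (mkOut P s p L D) st.1 st.2 rows edges cv

/-- the state of a level of the Poisson tree -/
noncomputable def statePois (P : RPar) (s p L D : ℕ) (usedI usedE : List ℕ) (e0 : ℕ) (es : List ℕ) (k W : ℕ) :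
    ℕ × ℕ :=
  fzS (inStep (mkIn P s p L D) W usedI usedE) fun st1 =>
    fzS (mixStart (mkCtx s p L D) st1 e0 es) fun st0 => dblRun (mkCtx s p L D) k st0

/-- a level of the Poisson tree, in packed weights -/
noncomputable def levelPois (P : RPar) (s p L D : ℕ) (usedI usedE : List ℕ)
    (rows : List (ℕ × List REnt)) (edges : List REnt) (cv : REnt) (e0 : ℕ) (es : List ℕ) (k W : ℕ) : ℕ :=
  fzS (statePois P s p L D usedI usedE e0 es k W) fun st =>
    outStep (mkOut P s p L D) st.1 st.2 rows edges cv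

namespace Fit

variable (h : Fit P s p L D rows edges cv usedI usedE)

local notation "lam₀" => (-(P.a : ℝ) / P.c)

include h in
/-- The state of a level of a star power. -/
theorem stateReg_spec {Lq : Ω → Fin 3 → ℝ} (hL : IsLik Lq) (hS : SymLik Lq) (bs : List Bool) {W : ℕ}
    (hD : DefBnd (fun t : Fin P.nT => P.g t) (contract lam₀ Lq)
      (fun t => (dg P.wS W t : ℝ) / (2 ^ p : ℕ))) :
    NuSt h.hβ s p L D (starPow (contract lam₀ Lq) (regCount bs 1))
      (stateReg P s p L D usedI usedE bs W) := by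
  have hq : (3 : ℕ) ≠ 0 := by norm_num
  have hL' := isLik_contract hq h.chan hL
  have hS' := symLik_contract hq h.chan hS
  have h1 := h.nu_in hD
  simp only [stateReg, fzS_eq]
  exact NuSt.regRun h.hβ h.h1β h.hp h.hp0 h.hD hq hL' hS' h1 bs
    (h1.ofPot h.hβ fun f _ => pot_starPow_one _ f)

include h in
/-- The state of a level of a Poisson mixture. -/
theorem statePois_spec {Lq : Ω → Fin 3 → ℝ} (hL : IsLik Lq) (hS : SymLik Lq) {d0 : ℝ} (hd0 : 0 ≤ d0)
    {e0 : ℕ} {es : List ℕ} (he0 : e0 ≤ 2 ^ p) (hes : ∀ e ∈ es, e ≤ 2 ^ p)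
    (hp0' : (e0 : ℝ) / 2 ^ p ≤ poi d0 0)
    (hpi : ∀ i (hi : i < es.length), (es[i] : ℝ) / 2 ^ p ≤ poi d0 (i + 1)) (k : ℕ) {W : ℕ}
    (hD : DefBnd (fun t : Fin P.nT => P.g t) (contract lam₀ Lq)
      (fun t => (dg P.wS W t : ℝ) / (2 ^ p : ℕ))) :
    NuSt h.hβ s p L D (poisMix (2 ^ k * d0) (contract lam₀ Lq))
      (statePois P s p L D usedI usedE e0 es k W) := by
  have hq : (3 : ℕ) ≠ 0 := by norm_num
  have hL' := isLik_contract hq h.chan hL
  have hS' := symLik_contract hq h.chan hS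
  have h1 := h.nu_in hD
  simp only [statePois, fzS_eq]
  have h2 := NuSt.mix h.hβ h.h1β h.hp h.hp0 h.hD hq hL' hS' h1 hd0 e0 es he0 hes hp0' hpi
  exact NuSt.dbl h.hβ h.h1β h.hp h.hp0 h.hD hq hL' hS' k hd0 h2

/-! ### The passage from one level to the next on the trees -/

include h in
/-- the state of the next level of the regular tree -/
theorem stateReg_next {b : ℕ} (bs : List Bool) (hb : regCount bs 1 = b) {ℓ W : ℕ}
    (hD : DefBnd (fun t : Fin P.nT => P.g t) (contract lam₀ (regL 3 b lam₀ ℓ))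
      (fun t => (dg P.wS W t : ℝ) / (2 ^ p : ℕ))) :
    NuSt h.hβ s p L D (regL 3 b lam₀ (ℓ + 1)) (stateReg P s p L D usedI usedE bs W) := by
  have hq : (3 : ℕ) ≠ 0 := by norm_num
  have := h.stateReg_spec (isLik_regL hq h.chan b ℓ) (symLik_regL hq h.chan b ℓ) bs hD
  rw [hb] at this
  exact this.ofPot h.hβ fun f _ => pot_regL_succ b ℓ lam₀ f

include h in
/-- the weights of the next level of the regular tree -/
theorem levelReg_next {b : ℕ} (bs : List Bool) (hb : regCount bs 1 = b) {ℓ W : ℕ}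
    (hD : DefBnd (fun t : Fin P.nT => P.g t) (contract lam₀ (regL 3 b lam₀ ℓ))
      (fun t => (dg P.wS W t : ℝ) / (2 ^ p : ℕ))) :
    DefBnd (fun t : Fin P.nT => P.g t) (contract lam₀ (regL 3 b lam₀ (ℓ + 1)))
      (fun t => (dg P.wS (levelReg P s p L D usedI usedE rows edges cv bs W) t : ℝ) / (2 ^ p : ℕ)) := by
  simp only [levelReg, fzS_eq]
  exact h.out (h.stateReg_next bs hb hD)

include h in
/-- the state of the next level of the Poisson tree -/
theorem statePois_next {d0 : ℝ} (hd0 : 0 ≤ d0) {d : ℝ} {k : ℕ} (hd : 2 ^ k * d0 = d)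
    {e0 : ℕ} {es : List ℕ} (he0 : e0 ≤ 2 ^ p) (hes : ∀ e ∈ es, e ≤ 2 ^ p)
    (hp0' : (e0 : ℝ) / 2 ^ p ≤ poi d0 0)
    (hpi : ∀ i (hi : i < es.length), (es[i] : ℝ) / 2 ^ p ≤ poi d0 (i + 1)) {ℓ W : ℕ}
    (hD : DefBnd (fun t : Fin P.nT => P.g t) (contract lam₀ (gwL 3 lam₀ d ℓ))
      (fun t => (dg P.wS W t : ℝ) / (2 ^ p : ℕ))) :
    NuSt h.hβ s p L D (gwL 3 lam₀ d (ℓ + 1)) (statePois P s p L D usedI usedE e0 es k W) := by
  have hq : (3 : ℕ) ≠ 0 := by norm_num
  have hd' : 0 ≤ d := by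
    rw [← hd]
    positivity
  have := h.statePois_spec (isLik_gwL hq h.chan hd' ℓ) (symLik_gwL hq h.chan hd' ℓ) hd0 he0 hes hp0'
    hpi k hD
  rw [hd] at this
  rw [gwL_succ]
  exact this

include h in
/-- the weights of the next level of the Poisson tree -/
theorem levelPois_next {d0 : ℝ} (hd0 : 0 ≤ d0) {d : ℝ} {k : ℕ} (hd : 2 ^ k * d0 = d)
    {e0 : ℕ} {es : List ℕ} (he0 : e0 ≤ 2 ^ p) (hes : ∀ e ∈ es, e ≤ 2 ^ p)
    (hp0' : (e0 : ℝ) / 2 ^ p ≤ poi d0 0)
    (hpi : ∀ i (hi : i < es.length), (es[i] : ℝ) / 2 ^ p ≤ poi d0 (i + 1)) {ℓ W : ℕ}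
    (hD : DefBnd (fun t : Fin P.nT => P.g t) (contract lam₀ (gwL 3 lam₀ d ℓ))
      (fun t => (dg P.wS W t : ℝ) / (2 ^ p : ℕ))) :
    DefBnd (fun t : Fin P.nT => P.g t) (contract lam₀ (gwL 3 lam₀ d (ℓ + 1)))
      (fun t => (dg P.wS (levelPois P s p L D usedI usedE rows edges cv e0 es k W) t : ℝ) /
        (2 ^ p : ℕ)) := by
  simp only [levelPois, fzS_eq]
  exact h.out (h.statePois_next hd0 hd he0 hes hp0' hpi hD)

include h in
/-- the weights of level `0` of the regular tree -/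
theorem levelReg_zero (b : ℕ) :
    DefBnd (fun t : Fin P.nT => P.g t) (contract lam₀ (regL 3 b lam₀ 0))
      (fun t => (dg P.wS (outStep (mkOut P s p L D) 0 0 rows edges cv) t : ℝ) / (2 ^ p : ℕ)) :=
  h.base (isLik_regL (by norm_num) h.chan b 0)

include h in
/-- the weights of level `0` of the Poisson tree -/
theorem levelPois_zero {d : ℝ} (hd : 0 ≤ d) :
    DefBnd (fun t : Fin P.nT => P.g t) (contract lam₀ (gwL 3 lam₀ d 0))
      (fun t => (dg P.wS (outStep (mkOut P s p L D) 0 0 rows edges cv) t : ℝ) / (2 ^ p : ℕ)) :=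
  h.base (isLik_gwL (by norm_num) h.chan hd 0)

end Fit

end Lat

end Crest.Agent.PottsTree
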