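import Crest.Agent.Lib.PottsTree.LogLattice

/-!
# Lower bounds for the law given the root, on an additive chart

`NuB a G L Φ`: the positive functional `Φ` on functions on the chart lies below the law, given the root
`a`, of an invariant law on a table which bounds the experiment `L`.  This relation is stable under the
star (convolution), equivariant rounding of the points (a map of the chart), mixtures and change of
experiment with the same potentials.  It gives the defect form of an upper bound for `L`.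

The point of the relation is that the invariant law stays in the background: only lower bounds on one
conditional law are computed.
-/

namespace Crest.Agent.PottsTree

open Finset
open ConeData
open Cmp

variable {q : ℕ} {Ω Ω' : Type*} {M : Type*}

/-- An invariant law on a table which bounds the experiment `L`, with positions on the chart `G` for
the points seen from the root `a`. -/
structure TrueLaw (a : Fin q) (G : M → Fin q → ℝ) (L : Ω → Fin q → ℝ) where
  κ : Type
  [fin : Fintype κ]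
  g : κ → Fin q → ℝ
  S : TableSym g
  μ : κ → ℝ
  c : κ → M
  hg : ∀ k, g k ∈ Sx q
  hμ : ∀ k, 0 ≤ μ k
  hμ1 : ∑ k, μ k = 1
  hI : S.Inv μ
  hB : Bnd g L μ
  hc : ∀ k, nuOf a g μ k ≠ 0 → g k = G (c k)

attribute [instance] TrueLaw.fin

variable {a : Fin q} {G : M → Fin q → ℝ} {L : Ω → Fin q → ℝ} {L' : Ω' → Fin q → ℝ}

/-- the integral against the law given the root -/
noncomputable def TrueLaw.int (T : TrueLaw a G L) (h : M → ℝ) : ℝ :=
  ∑ k, nuOf a T.g T.μ k * h (T.c k)

lemma TrueLaw.nu_nonneg (T : TrueLaw a G L) (k : T.κ) : 0 ≤ nuOf a T.g T.μ k :=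
  nuOf_nonneg a T.hg T.hμ k

lemma TrueLaw.int_nonneg (T : TrueLaw a G L) {h : M → ℝ} (hh : ∀ x, 0 ≤ h x) : 0 ≤ T.int h :=
  Finset.sum_nonneg fun k _ => mul_nonneg (T.nu_nonneg k) (hh _)

lemma TrueLaw.int_mono (T : TrueLaw a G L) {h h' : M → ℝ} (hh : ∀ x, h x ≤ h' x) :
    T.int h ≤ T.int h' :=
  Finset.sum_le_sum fun k _ => mul_le_mul_of_nonneg_left (hh _) (T.nu_nonneg k)

lemma TrueLaw.int_add (T : TrueLaw a G L) (h h' : M → ℝ) :
    T.int (fun x => h x + h' x) = T.int h + T.int h' := by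
  simp only [TrueLaw.int, mul_add, Finset.sum_add_distrib]

/-- positive functionals -/
def PosF (Φ : (M → ℝ) → ℝ) : Prop := ∀ h, (∀ x, 0 ≤ h x) → 0 ≤ Φ h

/-- `Φ` lies below the law given the root of an invariant law which bounds `L`. -/
def NuB (a : Fin q) (G : M → Fin q → ℝ) (L : Ω → Fin q → ℝ) (Φ : (M → ℝ) → ℝ) : Prop :=
  ∃ T : TrueLaw a G L, ∀ h, (∀ x, 0 ≤ h x) → Φ h ≤ T.int h

lemma NuB.mono {Φ Φ' : (M → ℝ) → ℝ} (h : NuB a G L Φ) (hle : ∀ h, (∀ x, 0 ≤ h x) → Φ' h ≤ Φ h) :
    NuB a G L Φ' := by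
  obtain ⟨T, hT⟩ := h
  exact ⟨T, fun h hh => (hle h hh).trans (hT h hh)⟩

/-- The same law for another experiment with the same potentials. -/
def TrueLaw.ofPot (T : TrueLaw a G L) (he : ∀ f, Adm f → Pot f L' = Pot f L) : TrueLaw a G L' where
  κ := T.κ
  g := T.g
  S := T.S
  μ := T.μ
  c := T.c
  hg := T.hg
  hμ := T.hμ
  hμ1 := T.hμ1
  hI := T.hI
  hB := T.hB.of_pot_eq he
  hc := T.hc

lemma NuB.ofPot {Φ : (M → ℝ) → ℝ} (h : NuB a G L Φ) (he : ∀ f, Adm f → Pot f L' = Pot f L) :
    NuB a G L' Φ := by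
  obtain ⟨T, hT⟩ := h
  exact ⟨T.ofPot he, hT⟩

/-- The law given the root integrates a function of the point as the law does. -/
lemma TrueLaw.int_comp (T : TrueLaw a G L) {f : (Fin q → ℝ) → ℝ}
    (hf : ∀ π : Equiv.Perm (Fin q), ∀ p ∈ Sx q, f (rel π p) = f p) :
    T.int (fun x => f (G x)) = ∑ k, T.μ k * f (T.g k) := by
  rw [← sum_nuOf_mul T.S T.hI hf T.hg a]
  refine Finset.sum_congr rfl fun k _ => ?_
  by_cases h0 : nuOf a T.g T.μ k = 0
  · simp [h0]
  · show _ * f (G (T.c k)) = _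
    rw [← T.hc k h0]

/-- **The defect form of the upper bound.** -/
theorem NuB.defect {Φ : (M → ℝ) → ℝ} (hq : q ≠ 0) (hG : ∀ x, G x ∈ Sx q) (h : NuB a G L Φ)
    {f : (Fin q → ℝ) → ℝ} (hf : Adm f) (b : Fin q) :
    Φ (fun x => f (baseL q b) - f (G x)) ≤ f (baseL q b) - Pot f L := by
  obtain ⟨T, hT⟩ := h
  set F := f (baseL q b) with hF
  have h0 : ∀ x, 0 ≤ F - f (G x) := fun x => sub_nonneg.2 (le_vertex hf (hG x) b)
  refine (hT _ h0).trans ?_
  have hf' : ∀ π : Equiv.Perm (Fin q), ∀ p ∈ Sx q, (fun p => F - f p) (rel π p) = (fun p => F - f p) p :=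
    fun π p hp => by simp only [hf.2.2 π p hp]
  have h1 := T.int_comp (f := fun p => F - f p) hf'
  have h2 : ∑ k, T.μ k * (F - f (T.g k)) = F - ∑ k, T.μ k * f (T.g k) := by
    simp only [mul_sub, Finset.sum_sub_distrib]
    rw [← Finset.sum_mul, T.hμ1, one_mul]
  have h3 := T.hB f hf
  rw [h1, h2]
  linarith

/-! ### The star -/

/-- the normalised product of two points, uniform when they have disjoint supports -/
noncomputable def pairPt (p r : Fin q → ℝ) : Fin q → ℝ :=
  fun i => if ∑ j, p j * r j = 0 then 1 / (q : ℝ) else sp p r i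

lemma mass_rel (π : Equiv.Perm (Fin q)) (p r : Fin q → ℝ) :
    ∑ j, rel π p j * rel π r j = ∑ j, p j * r j := by
  simp only [rel]
  exact Equiv.sum_comp π (fun j => p j * r j)

lemma pairPt_rel (π : Equiv.Perm (Fin q)) (p r : Fin q → ℝ) :
    pairPt (rel π p) (rel π r) = rel π (pairPt p r) := by
  funext i
  have h1 : pairPt (rel π p) (rel π r) i =
      if ∑ j, p j * r j = 0 then 1 / (q : ℝ) else sp (rel π p) (rel π r) i := by
    simp only [pairPt, mass_rel]
  rw [h1, sp_rel]
  rfl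

lemma lat_mass_nonneg {p r : Fin q → ℝ} (hp : p ∈ Sx q) (hr : r ∈ Sx q) : 0 ≤ ∑ j, p j * r j :=
  Finset.sum_nonneg fun j _ => mul_nonneg (hp.1 j) (hr.1 j)

lemma pairPt_mem (hq : q ≠ 0) {p r : Fin q → ℝ} (hp : p ∈ Sx q) (hr : r ∈ Sx q) :
    pairPt p r ∈ Sx q := by
  have hq' : (q : ℝ) ≠ 0 := by exact_mod_cast hq
  by_cases h : ∑ j, p j * r j = 0
  · refine ⟨fun i => ?_, ?_⟩
    · simp only [pairPt, h, if_true]
      positivity
    · simp only [pairPt, h, if_true, Finset.sum_const, Finset.card_univ, Fintype.card_fin,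
        nsmul_eq_mul]
      field_simp
  · have hpos : 0 < ∑ j, p j * r j := lt_of_le_of_ne (lat_mass_nonneg hp hr) (Ne.symm h)
    refine ⟨fun i => ?_, ?_⟩
    · simp only [pairPt, h, if_false, sp]
      exact div_nonneg (mul_nonneg (hp.1 i) (hr.1 i)) hpos.le
    · simp only [pairPt, h, if_false, sp]
      rw [← Finset.sum_div]
      exact div_self h

section Star

variable {ι ι' : Type*}

/-- the invariant law on pairs whose law given the root is the product -/
noncomputable def pairW (g : ι → Fin q → ℝ) (g' : ι' → Fin q → ℝ) (μ : ι → ℝ) (μ' : ι' → ℝ)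
    (x : ι × ι') : ℝ :=
  (q : ℝ)⁻¹ * ∑ b, nuOf b g μ x.1 * nuOf b g' μ' x.2

/-- the table of pairs -/
def TableSym.pair {g : ι → Fin q → ℝ} {g' : ι' → Fin q → ℝ} (S : TableSym g) (S' : TableSym g') :
    TableSym (fun x : ι × ι' => pairPt (g x.1) (g' x.2)) where
  act π := Equiv.prodCongr (S.act π) (S'.act π)
  g_act π k := by
    simp only [Equiv.prodCongr_apply, Prod.map, S.g_act, S'.g_act]
    exact pairPt_rel π _ _
  act_mul π σ k := by
    obtain ⟨k, l⟩ := k
    simp [S.act_mul, S'.act_mul]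

lemma pairW_inv {g : ι → Fin q → ℝ} {g' : ι' → Fin q → ℝ} {μ : ι → ℝ} {μ' : ι' → ℝ}
    (S : TableSym g) (S' : TableSym g') (hI : S.Inv μ) (hI' : S'.Inv μ') :
    (S.pair S').Inv (pairW g g' μ μ') := by
  intro π x
  show pairW g g' μ μ' (S.act π x.1, S'.act π x.2) = _
  simp only [pairW, nuOf_act S hI, nuOf_act S' hI']
  congr 1
  exact Equiv.sum_comp π (fun b => nuOf b g μ x.1 * nuOf b g' μ' x.2)

lemma pairW_eq (hq : q ≠ 0) (g : ι → Fin q → ℝ) (g' : ι' → Fin q → ℝ) (μ : ι → ℝ) (μ' : ι' → ℝ)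
    (x : ι × ι') :
    pairW g g' μ μ' x = (q : ℝ) * μ x.1 * μ' x.2 * ∑ j, g x.1 j * g' x.2 j := by
  have hq' : (q : ℝ) ≠ 0 := by exact_mod_cast hq
  simp only [pairW, nuOf, Finset.mul_sum]
  refine Finset.sum_congr rfl fun b _ => ?_
  field_simp

/-- The law of the pair table given the root is the product law. -/
lemma nuOf_pair (hq : q ≠ 0) {g : ι → Fin q → ℝ} {g' : ι' → Fin q → ℝ} {μ : ι → ℝ} {μ' : ι' → ℝ}
    (hg : ∀ k, g k ∈ Sx q) (hg' : ∀ k, g' k ∈ Sx q) (a : Fin q) (x : ι × ι') :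
    nuOf a (fun x : ι × ι' => pairPt (g x.1) (g' x.2)) (pairW g g' μ μ') x =
      nuOf a g μ x.1 * nuOf a g' μ' x.2 := by
  have hq' : (q : ℝ) ≠ 0 := by exact_mod_cast hq
  simp only [nuOf]
  rw [pairW_eq hq]
  by_cases h : ∑ j, g x.1 j * g' x.2 j = 0
  · have h1 : g x.1 a * g' x.2 a = 0 :=
      (Finset.sum_eq_zero_iff_of_nonneg fun j _ => mul_nonneg ((hg _).1 j) ((hg' _).1 j)).1 h a
        (Finset.mem_univ a)
    rw [h]
    have : (q : ℝ) * g x.1 a * μ x.1 * ((q : ℝ) * g' x.2 a * μ' x.2) =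
        (q : ℝ) * (q : ℝ) * (g x.1 a * g' x.2 a) * μ x.1 * μ' x.2 := by ring
    rw [this, h1]
    ring
  · simp only [pairPt, h, if_false, sp]
    field_simp

lemma pairW_nonneg (hq : q ≠ 0) {g : ι → Fin q → ℝ} {g' : ι' → Fin q → ℝ} {μ : ι → ℝ} {μ' : ι' → ℝ}
    (hg : ∀ k, g k ∈ Sx q) (hg' : ∀ k, g' k ∈ Sx q) (hμ : ∀ k, 0 ≤ μ k) (hμ' : ∀ k, 0 ≤ μ' k)
    (x : ι × ι') : 0 ≤ pairW g g' μ μ' x := by
  rw [pairW_eq hq]
  exact mul_nonneg (mul_nonneg (mul_nonneg (Nat.cast_nonneg _) (hμ _)) (hμ' _))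
    (lat_mass_nonneg (hg _) (hg' _))

end Star

section StarLaw

variable [AddCommMonoid M]

/-- The star of two true laws. -/
noncomputable def TrueLaw.star (hq : q ≠ 0) (hG : AddChart G) (T : TrueLaw a G L)
    (T' : TrueLaw a G L') (hL : IsLik L) (hL' : IsLik L') (hS' : SymLik L') :
    TrueLaw a G (star L L') where
  κ := T.κ × T'.κ
  g := fun x => pairPt (T.g x.1) (T'.g x.2)
  S := T.S.pair T'.S
  μ := pairW T.g T'.g T.μ T'.μ
  c := fun x => T.c x.1 + T'.c x.2
  hg := fun x => pairPt_mem hq (T.hg _) (T'.hg _)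
  hμ := pairW_nonneg hq T.hg T'.hg T.hμ T'.hμ
  hμ1 := by
    have hq' : (q : ℝ) ≠ 0 := by exact_mod_cast hq
    have hcard : (Finset.univ : Finset (Fin q)).card = q := by simp
    simp only [pairW, ← Finset.mul_sum]
    rw [Finset.sum_comm]
    have h1 : ∀ b : Fin q, ∑ x : T.κ × T'.κ, nuOf b T.g T.μ x.1 * nuOf b T'.g T'.μ x.2 = 1 := by
      intro b
      rw [Fintype.sum_prod_type]
      simp only [← Finset.mul_sum]
      rw [← Finset.sum_mul, sum_nuOf_eq T.S T.hI T.hg, sum_nuOf_eq T'.S T'.hI T'.hg, T.hμ1, T'.hμ1,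
        one_mul]
    simp only [h1, Finset.sum_const, hcard, nsmul_eq_mul, mul_one]
    field_simp
  hI := pairW_inv T.S T'.S T.hI T'.hI
  hB := by
    intro f hf
    refine (pot_star_le_conv hq T.S T'.S T.hI T'.hI T.hB T'.hB T'.hμ hL hL' hS' T.hg T'.hg a hf).trans
      (le_of_eq ?_)
    rw [← sum_nuOf_mul (T.S.pair T'.S) (pairW_inv T.S T'.S T.hI T'.hI) hf.2.2
      (fun x => pairPt_mem hq (T.hg _) (T'.hg _)) a, Fintype.sum_prod_type]
    refine Finset.sum_congr rfl fun k _ => Finset.sum_congr rfl fun l _ => ?_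
    rw [nuOf_pair hq T.hg T'.hg]
    by_cases h0 : nuOf a T.g T.μ k * nuOf a T'.g T'.μ l = 0
    · simp [h0]
    · have h1 : T.g k a ≠ 0 := fun h2 => h0 (by simp [nuOf, h2])
      have h2 : T'.g l a ≠ 0 := fun h2 => h0 (by simp [nuOf, h2])
      have hm : ∑ j, T.g k j * T'.g l j ≠ 0 := by
        intro hm
        have := (Finset.sum_eq_zero_iff_of_nonneg fun j _ =>
          mul_nonneg ((T.hg k).1 j) ((T'.hg l).1 j)).1 hm a (Finset.mem_univ a)
        exact mul_ne_zero h1 h2 this
      have e : pairPt (T.g k) (T'.g l) = sp (T.g k) (T'.g l) := by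
        funext i
        simp only [pairPt, hm, if_false]
      simp only [e]
  hc := by
    intro x hx
    rw [nuOf_pair hq T.hg T'.hg] at hx
    have h1 : nuOf a T.g T.μ x.1 ≠ 0 := fun h => hx (by simp [h])
    have h2 : nuOf a T'.g T'.μ x.2 ≠ 0 := fun h => hx (by simp [h])
    have h3 : T.g x.1 a ≠ 0 := fun h => h1 (by simp [nuOf, h])
    have h4 : T'.g x.2 a ≠ 0 := fun h => h2 (by simp [nuOf, h])
    have hm : ∑ j, T.g x.1 j * T'.g x.2 j ≠ 0 := by
      intro hm
      have := (Finset.sum_eq_zero_iff_of_nonneg fun j _ =>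
        mul_nonneg ((T.hg x.1).1 j) ((T'.hg x.2).1 j)).1 hm a (Finset.mem_univ a)
      exact mul_ne_zero h3 h4 this
    funext i
    simp only [pairPt, hm, if_false]
    rw [T.hc _ h1, T'.hc _ h2, hG.add]

lemma TrueLaw.int_star (hq : q ≠ 0) (hG : AddChart G) (T : TrueLaw a G L)
    (T' : TrueLaw a G L') (hL : IsLik L) (hL' : IsLik L') (hS' : SymLik L') (h : M → ℝ) :
    (T.star hq hG T' hL hL' hS').int h = T.int (fun x => T'.int (fun y => h (x + y))) := by
  show ∑ x : T.κ × T'.κ, _ = _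
  rw [Fintype.sum_prod_type]
  simp only [TrueLaw.int, Finset.mul_sum]
  refine Finset.sum_congr rfl fun k _ => Finset.sum_congr rfl fun l _ => ?_
  have := nuOf_pair (μ := T.μ) (μ' := T'.μ) hq T.hg T'.hg a (k, l)
  show nuOf a (fun x : T.κ × T'.κ => pairPt (T.g x.1) (T'.g x.2)) (pairW T.g T'.g T.μ T'.μ) (k, l) *
    h (T.c k + T'.c l) = _
  rw [this]
  ring

/-- **The star is a convolution.** -/
theorem NuB.star (hq : q ≠ 0) (hG : AddChart G) {Φ Φ' : (M → ℝ) → ℝ} (hL : IsLik L) (hL' : IsLik L')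
    (hS' : SymLik L') (hP : PosF Φ') (h : NuB a G L Φ) (h' : NuB a G L' Φ') :
    NuB a G (star L L') (fun h => Φ (fun x => Φ' (fun y => h (x + y)))) := by
  obtain ⟨T, hT⟩ := h
  obtain ⟨T', hT'⟩ := h'
  refine ⟨T.star hq hG T' hL hL' hS', fun h hh => ?_⟩
  rw [TrueLaw.int_star]
  have h1 := hT (fun x => Φ' (fun y => h (x + y))) fun x => hP _ fun y => hh _
  exact h1.trans (T.int_mono fun x => hT' _ fun y => hh _)

/-- the empty star -/
noncomputable def TrueLaw.unit (hq : q ≠ 0) (hG : AddChart G) (L : Ω → Fin q → ℝ) :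
    TrueLaw a G (starPow L 0) where
  κ := Unit
  g := fun _ => fun _ => 1 / (q : ℝ)
  S :=
    { act := fun _ => Equiv.refl _
      g_act := fun _ _ => rfl
      act_mul := fun _ _ _ => rfl }
  μ := fun _ => 1
  c := fun _ => 0
  hg := fun _ => by
    have := hG.zero
    rw [← this]
    exact hG.mem 0
  hμ := fun _ => zero_le_one
  hμ1 := by simp
  hI := fun _ _ => rfl
  hB := by
    intro f _
    rw [pot_starPow_zero L hq]
    simp
  hc := fun _ _ => hG.zero.symm

lemma TrueLaw.int_unit (hq : q ≠ 0) (hG : AddChart G) (L : Ω → Fin q → ℝ) (h : M → ℝ) :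
    (TrueLaw.unit (a := a) hq hG L).int h = h 0 := by
  have hq' : (q : ℝ) ≠ 0 := by exact_mod_cast hq
  show ∑ _k : Unit, nuOf a (fun _ : Unit => fun _ => 1 / (q : ℝ)) (fun _ => (1 : ℝ)) () * h 0 = h 0
  simp only [nuOf, Finset.univ_unique, Finset.sum_singleton, mul_one]
  field_simp

theorem NuB.unit (hq : q ≠ 0) (hG : AddChart G) (L : Ω → Fin q → ℝ) :
    NuB a G (starPow L 0) (fun h => h 0) :=
  ⟨TrueLaw.unit hq hG L, fun h _ => by rw [TrueLaw.int_unit]⟩

end StarLaw

/-! ### Equivariant rounding of the points -/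

/-- An equivariant choice of coordinates to be sent to vertices. -/
structure RoundSel (q : ℕ) where
  T : (Fin q → ℝ) → Finset (Fin q)
  equiv : ∀ (π : Equiv.Perm (Fin q)) (p : Fin q → ℝ) (b : Fin q), b ∈ T (rel π p) ↔ π b ∈ T p
  pos : ∀ p ∈ Sx q, 0 < ∑ b, if b ∈ T p then 0 else p b

/-- the mass kept by the rounding -/
noncomputable def RoundSel.keep (R : RoundSel q) (p : Fin q → ℝ) : ℝ :=
  ∑ b, if b ∈ R.T p then 0 else p b

/-- the rounded point -/
noncomputable def RoundSel.pt (R : RoundSel q) (p : Fin q → ℝ) : Fin q → ℝ :=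
  fun i => if i ∈ R.T p then 0 else p i / R.keep p

lemma RoundSel.keep_rel (R : RoundSel q) (π : Equiv.Perm (Fin q)) (p : Fin q → ℝ) :
    R.keep (rel π p) = R.keep p := by
  simp only [RoundSel.keep, R.equiv, rel]
  exact Equiv.sum_comp π (fun b => if b ∈ R.T p then 0 else p b)

lemma RoundSel.pt_rel (R : RoundSel q) (π : Equiv.Perm (Fin q)) (p : Fin q → ℝ) :
    R.pt (rel π p) = rel π (R.pt p) := by
  funext i
  simp only [RoundSel.pt, R.equiv, R.keep_rel, rel]

lemma RoundSel.pt_mem (R : RoundSel q) {p : Fin q → ℝ} (hp : p ∈ Sx q) : R.pt p ∈ Sx q := by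
  have h := R.pos p hp
  refine ⟨fun i => ?_, ?_⟩
  · simp only [RoundSel.pt]
    split_ifs
    · exact le_rfl
    · exact div_nonneg (hp.1 i) h.le
  · have : ∀ i, R.pt p i = (if i ∈ R.T p then 0 else p i) / R.keep p := by
      intro i
      simp only [RoundSel.pt]
      split_ifs <;> simp
    simp only [this]
    rw [← Finset.sum_div]
    exact div_self h.ne'

lemma RoundSel.keep_add (R : RoundSel q) {p : Fin q → ℝ} (hp : p ∈ Sx q) :
    R.keep p + ∑ b, (if b ∈ R.T p then p b else 0) = 1 := by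
  rw [RoundSel.keep, ← Finset.sum_add_distrib, ← hp.2]
  refine Finset.sum_congr rfl fun b _ => ?_
  split_ifs <;> simp

/-- The point is a mixture of the rounded point and vertices. -/
lemma RoundSel.le_split (R : RoundSel q) {f : (Fin q → ℝ) → ℝ} (hf : ConvexOn ℝ (Sx q) f)
    {p : Fin q → ℝ} (hp : p ∈ Sx q) :
    f p ≤ R.keep p * f (R.pt p) + ∑ b, (if b ∈ R.T p then p b else 0) * f (baseL q b) := by
  classical
  have hk := R.pos p hp
  have h1 := le_of_split (J := Option (Fin q)) Finset.univ hf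
    (W := fun o => o.elim (R.keep p) fun b => if b ∈ R.T p then p b else 0)
    (a := fun o => o.elim (R.pt p) (baseL q)) (x := p)
    (by
      intro o _
      cases o with
      | none => exact hk.le
      | some b =>
        simp only [Option.elim]
        split_ifs
        · exact hp.1 b
        · exact le_rfl)
    (by
      intro o _
      cases o with
      | none => exact R.pt_mem hp
      | some b => exact baseL_mem b)
    hp
    (by
      intro l
      rw [Fintype.sum_option]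
      simp only [Option.elim]
      have h2 : ∑ b, (if b ∈ R.T p then p b else 0) * baseL q b l = if l ∈ R.T p then p l else 0 := by
        rw [Finset.sum_eq_single l]
        · simp [baseL]
        · intro b _ hb
          simp [baseL, hb]
        · simp
      rw [h2]
      simp only [RoundSel.pt]
      split_ifs with hl
      · simp
      · rw [add_zero]
        have hk' : R.keep p ≠ 0 := hk.ne'
        rw [mul_div_cancel₀ _ hk'])
  rw [Fintype.sum_option] at h1
  exact h1

section Round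

/-- The table of rounded points and vertices. -/
def roundSym {ι : Type*} {g : ι → Fin q → ℝ} (S : TableSym g) (R : RoundSel q) :
    TableSym (fun x : ι ⊕ Fin q => x.elim (fun k => R.pt (g k)) (baseL q)) where
  act π := Equiv.sumCongr (S.act π) π⁻¹
  g_act π k := by
    cases k with
    | inl k =>
      simp only [Equiv.sumCongr_apply, Sum.map_inl, Sum.elim_inl, S.g_act]
      exact R.pt_rel π _
    | inr b =>
      simp only [Equiv.sumCongr_apply, Sum.map_inr, Sum.elim_inr]
      funext i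
      simp only [baseL, rel, Equiv.Perm.inv_def, Equiv.symm_apply_eq]
  act_mul π σ k := by
    cases k with
    | inl k => simp [S.act_mul]
    | inr b => simp [mul_inv_rev]

/-- The weights of the rounded law. -/
noncomputable def roundW {ι : Type*} [Fintype ι] (g : ι → Fin q → ℝ) (μ : ι → ℝ) (R : RoundSel q) :
    ι ⊕ Fin q → ℝ :=
  Sum.elim (fun k => R.keep (g k) * μ k)
    (fun b => ∑ k, (if b ∈ R.T (g k) then g k b else 0) * μ k)

/-- The rounded law. `x₀` is the position of the vertex of the root, `Rm` the map of the chart. -/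
noncomputable def TrueLaw.round (T : TrueLaw a G L) (R : RoundSel q) (Rm : M → M) (x₀ : M)
    (hx₀ : G x₀ = baseL q a) (hR1 : ∀ x, a ∉ R.T (G x) → R.pt (G x) = G (Rm x)) :
    TrueLaw a G L where
  κ := T.κ ⊕ Fin q
  g := fun x => x.elim (fun k => R.pt (T.g k)) (baseL q)
  S := roundSym T.S R
  μ := roundW T.g T.μ R
  c := Sum.elim (fun k => Rm (T.c k)) (fun _ => x₀)
  hg := by
    rintro (k | b)
    · exact R.pt_mem (T.hg k)
    · exact baseL_mem b
  hμ := by
    rintro (k | b)
    · exact mul_nonneg (R.pos _ (T.hg k)).le (T.hμ k)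
    · refine Finset.sum_nonneg fun k _ => mul_nonneg ?_ (T.hμ k)
      split_ifs
      · exact (T.hg k).1 b
      · exact le_rfl
  hμ1 := by
    rw [Fintype.sum_sum_type]
    simp only [roundW, Sum.elim_inl, Sum.elim_inr]
    rw [Finset.sum_comm, ← Finset.sum_add_distrib, ← T.hμ1]
    refine Finset.sum_congr rfl fun k _ => ?_
    rw [← Finset.sum_mul, ← add_mul, R.keep_add (T.hg k), one_mul]
  hI := by
    rintro π (k | b)
    · show R.keep (T.g (T.S.act π k)) * T.μ (T.S.act π k) = R.keep (T.g k) * T.μ k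
      rw [T.S.g_act, R.keep_rel, T.hI]
    · show ∑ k, (if π⁻¹ b ∈ R.T (T.g k) then T.g k (π⁻¹ b) else 0) * T.μ k =
        ∑ k, (if b ∈ R.T (T.g k) then T.g k b else 0) * T.μ k
      rw [← Equiv.sum_comp (T.S.act π)]
      refine Finset.sum_congr rfl fun k _ => ?_
      have e1 : (π⁻¹ b ∈ R.T (rel π (T.g k))) ↔ b ∈ R.T (T.g k) := by
        rw [R.equiv]
        simp
      have e2 : rel π (T.g k) (π⁻¹ b) = T.g k b := by
        simp [rel]
      rw [T.S.g_act, T.hI]
      simp only [e1, e2]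
  hB := by
    intro f hf
    refine (T.hB f hf).trans ?_
    rw [Fintype.sum_sum_type]
    simp only [roundW, Sum.elim_inl, Sum.elim_inr]
    have h1 : ∀ k, T.μ k * f (T.g k) ≤ R.keep (T.g k) * T.μ k * f (R.pt (T.g k)) +
        ∑ b, (if b ∈ R.T (T.g k) then T.g k b else 0) * T.μ k * f (baseL q b) := by
      intro k
      have h2 := mul_le_mul_of_nonneg_left (R.le_split hf.2.1 (T.hg k)) (T.hμ k)
      refine h2.trans (le_of_eq ?_)
      rw [mul_add, Finset.mul_sum]
      congr 1
      · ring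
      · exact Finset.sum_congr rfl fun b _ => by ring
    refine (Finset.sum_le_sum fun k _ => h1 k).trans (le_of_eq ?_)
    rw [Finset.sum_add_distrib, Finset.sum_comm]
    congr 1
    exact Finset.sum_congr rfl fun b _ => by rw [Finset.sum_mul]
  hc := by
    rintro (k | b) hx
    · have h1 : nuOf a (fun x : T.κ ⊕ Fin q => x.elim (fun k => R.pt (T.g k)) (baseL q))
          (roundW T.g T.μ R) (Sum.inl k) = (if a ∈ R.T (T.g k) then 0 else nuOf a T.g T.μ k) := by
        simp only [nuOf, roundW, Sum.elim_inl, RoundSel.pt]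
        split_ifs with h
        · simp
        · have := (R.pos _ (T.hg k)).ne'
          change _ * (T.g k a / R.keep (T.g k)) * _ = _ at *
          rw [RoundSel.keep] at *
          field_simp
      rw [h1] at hx
      split_ifs at hx with h
      · exact absurd rfl hx
      · show R.pt (T.g k) = G (Rm (T.c k))
        rw [T.hc k hx] at h ⊢
        exact hR1 _ h
    · show baseL q b = G x₀
      rw [hx₀]
      by_cases hb : b = a
      · rw [hb]
      · exfalso
        apply hx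
        simp [nuOf, baseL, hb]

/-- The integral against the rounded law is the integral of the function composed with the map of the
chart. -/
lemma TrueLaw.int_round (T : TrueLaw a G L) (R : RoundSel q) (Rm : M → M) (x₀ : M)
    (hx₀ : G x₀ = baseL q a) (hR1 : ∀ x, a ∉ R.T (G x) → R.pt (G x) = G (Rm x))
    (hR2 : ∀ x, a ∈ R.T (G x) → Rm x = x₀) (h : M → ℝ) :
    (T.round R Rm x₀ hx₀ hR1).int h = T.int (fun x => h (Rm x)) := by
  classical
  show ∑ x : T.κ ⊕ Fin q, _ = _
  rw [Fintype.sum_sum_type]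
  have h1 : ∀ k, nuOf a (fun x : T.κ ⊕ Fin q => x.elim (fun k => R.pt (T.g k)) (baseL q))
      (roundW T.g T.μ R) (Sum.inl k) = (if a ∈ R.T (T.g k) then 0 else nuOf a T.g T.μ k) := by
    intro k
    simp only [nuOf, roundW, Sum.elim_inl, RoundSel.pt]
    split_ifs with h
    · simp
    · have := (R.pos _ (T.hg k)).ne'
      change _ * (T.g k a / R.keep (T.g k)) * _ = _ at *
      rw [RoundSel.keep] at *
      field_simp
  have h2 : ∀ b, nuOf a (fun x : T.κ ⊕ Fin q => x.elim (fun k => R.pt (T.g k)) (baseL q))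
      (roundW T.g T.μ R) (Sum.inr b) = if b = a then
        ∑ k, (if a ∈ R.T (T.g k) then nuOf a T.g T.μ k else 0) else 0 := by
    intro b
    by_cases hb : b = a
    · subst hb
      simp only [nuOf, roundW, Sum.elim_inr, if_true, baseL, mul_one, Finset.mul_sum]
      refine Finset.sum_congr rfl fun k _ => ?_
      split_ifs
      · ring
      · ring
    · simp [nuOf, baseL, hb]
  have e2 : ∑ b : Fin q, nuOf a (fun x : T.κ ⊕ Fin q => x.elim (fun k => R.pt (T.g k)) (baseL q))
      (roundW T.g T.μ R) (Sum.inr b) * h x₀ =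
      ∑ k, (if a ∈ R.T (T.g k) then nuOf a T.g T.μ k else 0) * h x₀ := by
    simp only [h2, ite_mul, zero_mul, Finset.sum_ite_eq', Finset.mem_univ, if_true]
    rw [Finset.sum_mul]
    exact Finset.sum_congr rfl fun k _ => by split_ifs <;> simp
  have e1 : ∀ k, nuOf a (fun x : T.κ ⊕ Fin q => x.elim (fun k => R.pt (T.g k)) (baseL q))
      (roundW T.g T.μ R) (Sum.inl k) * h (Rm (T.c k)) +
      (if a ∈ R.T (T.g k) then nuOf a T.g T.μ k else 0) * h x₀ =
      nuOf a T.g T.μ k * h (Rm (T.c k)) := by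
    intro k
    rw [h1]
    by_cases h3 : nuOf a T.g T.μ k = 0
    · simp [h3]
    · by_cases h4 : a ∈ R.T (T.g k)
      · have h5 : Rm (T.c k) = x₀ := hR2 _ (by rw [← T.hc k h3]; exact h4)
        simp [h4, h5]
      · simp [h4]
  show ∑ k, nuOf a (fun x : T.κ ⊕ Fin q => x.elim (fun k => R.pt (T.g k)) (baseL q))
      (roundW T.g T.μ R) (Sum.inl k) * h (Rm (T.c k)) +
      ∑ b : Fin q, nuOf a (fun x : T.κ ⊕ Fin q => x.elim (fun k => R.pt (T.g k)) (baseL q))
      (roundW T.g T.μ R) (Sum.inr b) * h x₀ = _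
  rw [e2, ← Finset.sum_add_distrib]
  exact Finset.sum_congr rfl fun k _ => e1 k

/-- **Rounding: a map of the chart.** -/
theorem NuB.round {Φ : (M → ℝ) → ℝ} (h : NuB a G L Φ) (R : RoundSel q) (Rm : M → M) (x₀ : M)
    (hx₀ : G x₀ = baseL q a) (hR1 : ∀ x, a ∉ R.T (G x) → R.pt (G x) = G (Rm x))
    (hR2 : ∀ x, a ∈ R.T (G x) → Rm x = x₀) :
    NuB a G L (fun h => Φ (fun x => h (Rm x))) := by
  obtain ⟨T, hT⟩ := h
  refine ⟨T.round R Rm x₀ hx₀ hR1, fun h hh => ?_⟩
  rw [T.int_round R Rm x₀ hx₀ hR1 hR2]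
  exact hT _ fun x => hh _

end Round

/-! ### A swap of the coordinates which fixes the root -/

/-- The law given the root is invariant under the relabellings which fix the root. -/
lemma TrueLaw.int_swap (T : TrueLaw a G L) (hinj : Function.Injective G) {π : Equiv.Perm (Fin q)}
    (hπ : π a = a) {σ : M → M} (hσ : ∀ x, G (σ x) = rel π (G x)) (h : M → ℝ) :
    T.int (fun x => h (σ x)) = T.int h := by
  simp only [TrueLaw.int]
  rw [← Equiv.sum_comp (T.S.act π) (fun k => nuOf a T.g T.μ k * h (T.c k))]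
  refine Finset.sum_congr rfl fun k _ => ?_
  have h1 : nuOf a T.g T.μ (T.S.act π k) = nuOf a T.g T.μ k := by
    rw [nuOf_act T.S T.hI, hπ]
  rw [h1]
  by_cases h0 : nuOf a T.g T.μ k = 0
  · simp [h0]
  · have h2 : nuOf a T.g T.μ (T.S.act π k) ≠ 0 := by rwa [h1]
    have h3 : G (T.c (T.S.act π k)) = G (σ (T.c k)) := by
      rw [← T.hc _ h2, T.S.g_act, hσ, T.hc k h0]
    rw [hinj h3]

/-- The second half of a law from the first by a swap, when the supports are disjoint. -/
theorem NuB.add_swap {Φ₁ Φ₂ : (M → ℝ) → ℝ} (h : NuB a G L Φ₁) (hinj : Function.Injective G)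
    {π : Equiv.Perm (Fin q)} (hπ : π a = a) {σ : M → M} (hσ : ∀ x, G (σ x) = rel π (G x))
    (A : Set M) [DecidablePred (· ∈ A)]
    (h1 : ∀ h : M → ℝ, Φ₁ h = Φ₁ (fun x => if x ∈ A then h x else 0))
    (h2 : ∀ h : M → ℝ, Φ₂ h = Φ₂ (fun x => if x ∈ A then 0 else h x))
    (h3 : ∀ h : M → ℝ, (∀ x, 0 ≤ h x) → Φ₂ h ≤ Φ₁ (fun x => h (σ x))) :
    NuB a G L (fun h => Φ₁ h + Φ₂ h) := by
  obtain ⟨T, hT⟩ := h
  refine ⟨T, fun h hh => ?_⟩
  have e1 : T.int h = T.int (fun x => if x ∈ A then h x else 0) +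
      T.int (fun x => if x ∈ A then 0 else h x) := by
    rw [← T.int_add]
    congr 1
    funext x
    split_ifs <;> simp
  have h0A : ∀ x, 0 ≤ (fun x => if x ∈ A then h x else 0) x := fun x => by
    dsimp only
    split_ifs
    · exact hh x
    · exact le_rfl
  have h0B : ∀ x, 0 ≤ (fun x => if x ∈ A then 0 else h x) x := fun x => by
    dsimp only
    split_ifs
    · exact le_rfl
    · exact hh x
  rw [e1]
  show Φ₁ h + Φ₂ h ≤ _
  rw [h1 h, h2 h]
  refine add_le_add (hT _ h0A) ?_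
  refine (h3 _ h0B).trans ((hT _ fun x => h0B _).trans (le_of_eq ?_))
  exact T.int_swap hinj hπ hσ (fun x => if x ∈ A then 0 else h x)

/-! ### The start: a bound on orbit representatives in defect form -/

section Start

variable {ρ : Type} [Fintype ρ]

/-- The true law of a bound in defect form on orbit representatives: the free table on the
representatives and a vertex. -/
noncomputable def TrueLaw.start (hq : q ≠ 0) {g₀ : ρ → Fin q → ℝ} {W : ρ → ℝ} (hD : DefBnd g₀ L W)
    (hW0 : ∀ r, 0 ≤ W r) (hW1 : ∑ r, W r ≤ 1) (hg : ∀ r, g₀ r ∈ Sx q)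
    {c : ρ × Equiv.Perm (Fin q) → M}
    (hc : ∀ k, g₀ k.1 (k.2 a) ≠ 0 → rel k.2 (g₀ k.1) = G (c k)) (x₀ : M)
    (hx₀ : G x₀ = baseL q a) : TrueLaw a G L :=
  have hg₁ : ∀ o : Option ρ, (fun o : Option ρ => o.elim (baseL q a) g₀) o ∈ Sx q := by
    intro o
    cases o with
    | none => exact baseL_mem a
    | some r => exact hg r
  have hW₁0 : ∀ o : Option ρ, 0 ≤ (fun o : Option ρ => o.elim (1 - ∑ r, W r) W) o := by
    intro o
    cases o with
    | none => exact sub_nonneg.2 hW1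
    | some r => exact hW0 r
  have hW₁1 : ∑ o : Option ρ, (fun o : Option ρ => o.elim (1 - ∑ r, W r) W) o = 1 := by
    rw [Fintype.sum_option]
    simp
  have hB₁ : Bnd (fun o : Option ρ => o.elim (baseL q a) g₀) L
      (fun o : Option ρ => o.elim (1 - ∑ r, W r) W) := by
    intro f hf
    rw [Fintype.sum_option]
    have h1 := hD f hf a
    have h2 : ∑ r, W r * (f (baseL q a) - f (g₀ r)) =
        (∑ s, W s) * f (baseL q a) - ∑ r, W r * f (g₀ r) := by
      simp only [mul_sub, Finset.sum_sub_distrib, Finset.sum_mul]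
    simp only [Option.elim]
    linarith
  { κ := Option ρ × Equiv.Perm (Fin q)
    g := freeG (fun o : Option ρ => o.elim (baseL q a) g₀)
    S := freeSym _
    μ := fun k => (k.1.elim (1 - ∑ r, W r) W) / (Fintype.card (Equiv.Perm (Fin q)) : ℝ)
    c := fun k => k.1.elim x₀ (fun r => c (r, k.2))
    hg := freeG_mem hg₁
    hμ := fun k => div_nonneg (hW₁0 _) (by positivity)
    hμ1 := by
      rw [Fintype.sum_prod_type]
      simp only [Finset.sum_const, Finset.card_univ, nsmul_eq_mul]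
      have hc' : ((Fintype.card (Equiv.Perm (Fin q)) : ℝ)) ≠ 0 := by
        exact_mod_cast (Fintype.card_pos (α := Equiv.Perm (Fin q))).ne'
      have : ∀ x : Option ρ, ((Fintype.card (Equiv.Perm (Fin q)) : ℕ) : ℝ) *
          (x.elim (1 - ∑ r, W r) W / (Fintype.card (Equiv.Perm (Fin q)) : ℝ)) =
          x.elim (1 - ∑ r, W r) W := fun x => by field_simp
      simp only [this]
      exact hW₁1
    hI := fun π k => rfl
    hB := bnd_free hB₁ hg₁
    hc := by
      rintro ⟨o, σ⟩ hk
      cases o with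
      | none =>
        have h1 : baseL q a (σ a) ≠ 0 := by
          intro h2
          apply hk
          simp [nuOf, freeG, rel, h2]
        have h2 : a = σ a := by
          by_contra h3
          exact h1 (by simp [baseL, h3])
        show rel σ (baseL q a) = G x₀
        rw [hx₀]
        funext i
        simp only [rel, baseL]
        by_cases h3 : a = i
        · subst h3
          simp [← h2]
        · have : a ≠ σ i := fun h4 => h3 (σ.injective (by rw [← h2, ← h4]))
          simp [h3, this]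
      | some r =>
        have h1 : g₀ r (σ a) ≠ 0 := by
          intro h2
          apply hk
          simp [nuOf, freeG, rel, h2]
        exact hc (r, σ) h1 }

theorem NuB.start (hq : q ≠ 0) {g₀ : ρ → Fin q → ℝ} {W : ρ → ℝ} (hD : DefBnd g₀ L W)
    (hW0 : ∀ r, 0 ≤ W r) (hW1 : ∑ r, W r ≤ 1) (hg : ∀ r, g₀ r ∈ Sx q)
    {c : ρ × Equiv.Perm (Fin q) → M}
    (hc : ∀ k, g₀ k.1 (k.2 a) ≠ 0 → rel k.2 (g₀ k.1) = G (c k)) (x₀ : M)
    (hx₀ : G x₀ = baseL q a) :
    NuB a G L (fun h => ∑ k, freeNu a g₀ W k * h (c k)) := by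
  refine ⟨TrueLaw.start hq hD hW0 hW1 hg hc x₀ hx₀, fun h hh => ?_⟩
  show _ ≤ ∑ k : Option ρ × Equiv.Perm (Fin q), _
  rw [Fintype.sum_prod_type, Fintype.sum_option]
  have h0 : 0 ≤ ∑ σ : Equiv.Perm (Fin q),
      nuOf a (freeG (fun o : Option ρ => o.elim (baseL q a) g₀))
        (fun k => (k.1.elim (1 - ∑ r, W r) W) / (Fintype.card (Equiv.Perm (Fin q)) : ℝ))
        (none, σ) * h x₀ := by
    refine Finset.sum_nonneg fun σ _ => mul_nonneg ?_ (hh _)
    refine mul_nonneg (mul_nonneg (Nat.cast_nonneg _) ?_) (div_nonneg (sub_nonneg.2 hW1) (by positivity))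
    exact (rel_mem σ (baseL_mem a)).1 a
  refine le_trans (le_of_eq ?_) (le_add_of_nonneg_left h0)
  show (∑ k, freeNu a g₀ W k * h (c k)) = _
  rw [Fintype.sum_prod_type]
  refine Finset.sum_congr rfl fun r _ => Finset.sum_congr rfl fun σ _ => ?_
  show _ = nuOf a (freeG (fun o : Option ρ => o.elim (baseL q a) g₀))
        (fun k => (k.1.elim (1 - ∑ r, W r) W) / (Fintype.card (Equiv.Perm (Fin q)) : ℝ))
        (some r, σ) * h (c (r, σ))
  congr 1
  rw [← freeNu_eq a g₀ W (r, σ)]
  simp only [nuOf, freeG, rel, Option.elim]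

end Start

/-! ### Poisson mixtures -/

section Mix

/-- the defect of a Poisson mixture bounds the defects of the star powers -/
lemma defect_poisMix_ge (hq : q ≠ 0) {d : ℝ} (hd : 0 ≤ d) (hL : IsLik L) (K : ℕ) {e : ℕ → ℝ}
    (he1 : ∀ m ≤ K, e m ≤ poi d m) {f : (Fin q → ℝ) → ℝ} (hf : Adm f) (b : Fin q) :
    ∑ m ∈ Finset.range (K + 1), e m * (f (baseL q b) - Pot f (starPow L m)) ≤
      f (baseL q b) - Pot f (poisMix d L) := by
  set F := f (baseL q b) with hF
  have hsumm : Summable fun n => poi d n * Pot f (starPow L n) :=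
    summable_poi_pot hq hd hL hf.1
  have hsum1 : Summable (poi d) := (hasSum_poi d).summable
  have e1 : F - Pot f (poisMix d L) = ∑' n, poi d n * (F - Pot f (starPow L n)) := by
    have h3 : Summable fun n => poi d n * F := hsum1.mul_right F
    simp only [mul_sub]
    rw [pot_poisMix hd hL hf.1, h3.tsum_sub hsumm, tsum_mul_right, (hasSum_poi d).tsum_eq, one_mul]
  have hsumm2 : Summable fun n => poi d n * (F - Pot f (starPow L n)) := by
    simp only [mul_sub]
    exact (hsum1.mul_right F).sub hsumm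
  have hpos : ∀ n, 0 ≤ poi d n * (F - Pot f (starPow L n)) := fun n =>
    mul_nonneg (poi_nonneg hd n) (sub_nonneg.2 (pot_le_vertex hq (isLik_starPow hL n) hf b))
  rw [e1]
  refine le_trans ?_ (hsumm2.sum_le_tsum (Finset.range (K + 1)) fun n _ => hpos n)
  refine Finset.sum_le_sum fun m hm => ?_
  have hm' : m ≤ K := Nat.lt_succ_iff.1 (Finset.mem_range.1 hm)
  exact mul_le_mul_of_nonneg_right (he1 m hm')
    (sub_nonneg.2 (pot_le_vertex hq (isLik_starPow hL m) hf b))

lemma sum_e_le_one {d : ℝ} (hd : 0 ≤ d) (K : ℕ) {e : ℕ → ℝ} (he1 : ∀ m ≤ K, e m ≤ poi d m) :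
    ∑ m ∈ Finset.range (K + 1), e m ≤ 1 := by
  have h1 : ∑ m ∈ Finset.range (K + 1), poi d m ≤ 1 := by
    rw [← (hasSum_poi d).tsum_eq]
    exact (hasSum_poi d).summable.sum_le_tsum _ fun n _ => poi_nonneg hd n
  refine le_trans (Finset.sum_le_sum fun m hm => ?_) h1
  exact he1 m (Nat.lt_succ_iff.1 (Finset.mem_range.1 hm))

/-- The mixture of true laws of the star powers, with the tail at the vertices. -/
noncomputable def TrueLaw.mix (hq : q ≠ 0) {d : ℝ} (hd : 0 ≤ d) (hL : IsLik L) (K : ℕ)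
    (T : ∀ m : Fin (K + 1), TrueLaw a G (starPow L (m : ℕ))) {e : ℕ → ℝ} (he0 : ∀ m ≤ K, 0 ≤ e m)
    (he1 : ∀ m ≤ K, e m ≤ poi d m) (x₀ : M) (hx₀ : G x₀ = baseL q a) :
    TrueLaw a G (poisMix d L) where
  κ := (Σ m : Fin (K + 1), (T m).κ) ⊕ Fin q
  g := Sum.elim (fun x => (T x.1).g x.2) (baseL q)
  S :=
    { act := fun π => Equiv.sumCongr (Equiv.sigmaCongrRight fun m => (T m).S.act π) π⁻¹
      g_act := by
        rintro π (⟨m, k⟩ | b)
        · simp only [Equiv.sumCongr_apply, Sum.map_inl, Sum.elim_inl,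
            Equiv.sigmaCongrRight_apply, Sigma.map]
          exact (T m).S.g_act π k
        · simp only [Equiv.sumCongr_apply, Sum.map_inr, Sum.elim_inr]
          funext i
          simp only [baseL, rel, Equiv.Perm.inv_def, Equiv.symm_apply_eq]
      act_mul := by
        rintro π σ (⟨m, k⟩ | b)
        · simp [(T m).S.act_mul]
        · simp [mul_inv_rev] }
  μ := Sum.elim (fun x => e (x.1 : ℕ) * (T x.1).μ x.2)
    (fun _ => (1 - ∑ m ∈ Finset.range (K + 1), e m) / (q : ℝ))
  c := Sum.elim (fun x => (T x.1).c x.2) (fun _ => x₀)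
  hg := by
    rintro (⟨m, k⟩ | b)
    · exact (T m).hg k
    · exact baseL_mem b
  hμ := by
    rintro (⟨m, k⟩ | b)
    · exact mul_nonneg (he0 _ (Nat.lt_succ_iff.1 m.2)) ((T m).hμ k)
    · exact div_nonneg (sub_nonneg.2 (sum_e_le_one hd K he1)) (Nat.cast_nonneg _)
  hμ1 := by
    have hq' : (q : ℝ) ≠ 0 := by exact_mod_cast hq
    rw [Fintype.sum_sum_type, Fintype.sum_sigma]
    simp only [Sum.elim_inl, Sum.elim_inr, ← Finset.mul_sum, (T _).hμ1, mul_one,
      Finset.sum_const, Finset.card_univ, Fintype.card_fin, nsmul_eq_mul]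
    rw [Fin.sum_univ_eq_sum_range (fun m => e m) (K + 1)]
    field_simp
    ring
  hI := by
    rintro π (⟨m, k⟩ | b)
    · show e (m : ℕ) * (T m).μ ((T m).S.act π k) = e (m : ℕ) * (T m).μ k
      rw [(T m).hI]
    · rfl
  hB := by
    intro f hf
    have hq' : (q : ℝ) ≠ 0 := by exact_mod_cast hq
    have h1 := defect_poisMix_ge hq hd hL K he1 hf a
    set F := f (baseL q a) with hF
    have h2 : ∀ m : Fin (K + 1), Pot f (starPow L (m : ℕ)) ≤ ∑ k, (T m).μ k * f ((T m).g k) :=
      fun m => (T m).hB f hf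
    rw [Fintype.sum_sum_type, Fintype.sum_sigma]
    simp only [Sum.elim_inl, Sum.elim_inr]
    have h3 : ∑ b : Fin q, (1 - ∑ m ∈ Finset.range (K + 1), e m) / (q : ℝ) * f (baseL q b) =
        (1 - ∑ m ∈ Finset.range (K + 1), e m) * F := by
      have : ∀ b : Fin q, f (baseL q b) = F := fun b => adm_vertex_eq hf b a
      simp only [this, Finset.sum_const, Finset.card_univ, Fintype.card_fin, nsmul_eq_mul]
      field_simp
    rw [h3]
    have h4 : ∑ m : Fin (K + 1), ∑ k, e (m : ℕ) * (T m).μ k * f ((T m).g k) ≥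
        ∑ m : Fin (K + 1), e (m : ℕ) * Pot f (starPow L (m : ℕ)) := by
      refine Finset.sum_le_sum fun m _ => ?_
      have := mul_le_mul_of_nonneg_left (h2 m) (he0 _ (Nat.lt_succ_iff.1 m.2))
      refine this.trans (le_of_eq ?_)
      rw [Finset.mul_sum]
      exact Finset.sum_congr rfl fun k _ => by ring
    rw [Fin.sum_univ_eq_sum_range (fun m => e m * Pot f (starPow L m)) (K + 1)] at h4
    have h5 : ∑ m ∈ Finset.range (K + 1), e m * (F - Pot f (starPow L m)) =
        (∑ m ∈ Finset.range (K + 1), e m) * F -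
          ∑ m ∈ Finset.range (K + 1), e m * Pot f (starPow L m) := by
      simp only [mul_sub, Finset.sum_sub_distrib, Finset.sum_mul]
    nlinarith
  hc := by
    rintro (⟨m, k⟩ | b) hx
    · show (T m).g k = G ((T m).c k)
      apply (T m).hc k
      intro h0
      apply hx
      have : nuOf a (T m).g (T m).μ k = (q : ℝ) * (T m).g k a * (T m).μ k := rfl
      show (q : ℝ) * (T m).g k a * (e (m : ℕ) * (T m).μ k) = 0
      have h1 : (q : ℝ) * (T m).g k a * (e (m : ℕ) * (T m).μ k) =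
          e (m : ℕ) * ((q : ℝ) * (T m).g k a * (T m).μ k) := by ring
      rw [h1, ← this, h0, mul_zero]
    · show baseL q b = G x₀
      rw [hx₀]
      by_cases hb : b = a
      · rw [hb]
      · exfalso
        apply hx
        simp [nuOf, baseL, hb]

theorem NuB.mix (hq : q ≠ 0) {d : ℝ} (hd : 0 ≤ d) (hL : IsLik L) (K : ℕ)
    {Φ : ℕ → (M → ℝ) → ℝ} (h : ∀ m ≤ K, NuB a G (starPow L m) (Φ m)) {e : ℕ → ℝ}
    (he0 : ∀ m ≤ K, 0 ≤ e m) (he1 : ∀ m ≤ K, e m ≤ poi d m) (x₀ : M) (hx₀ : G x₀ = baseL q a) :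
    NuB a G (poisMix d L) (fun h => ∑ m ∈ Finset.range (K + 1), e m * Φ m h) := by
  have h' : ∀ m : Fin (K + 1), ∃ T : TrueLaw a G (starPow L (m : ℕ)),
      ∀ h, (∀ x, 0 ≤ h x) → Φ m h ≤ T.int h := fun m => h m (Nat.lt_succ_iff.1 m.2)
  choose T hT using h'
  refine ⟨TrueLaw.mix hq hd hL K T he0 he1 x₀ hx₀, fun h hh => ?_⟩
  show (∑ m ∈ Finset.range (K + 1), e m * Φ m h) ≤ _
  rw [← Fin.sum_univ_eq_sum_range (fun m => e m * Φ m h) (K + 1)]
  show _ ≤ ∑ x : (Σ m : Fin (K + 1), (T m).κ) ⊕ Fin q, _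
  rw [Fintype.sum_sum_type, Fintype.sum_sigma]
  have h0 : 0 ≤ ∑ b : Fin q, nuOf a (Sum.elim (fun x : Σ m : Fin (K + 1), (T m).κ => (T x.1).g x.2)
      (baseL q)) (Sum.elim (fun x => e (x.1 : ℕ) * (T x.1).μ x.2)
      (fun _ => (1 - ∑ m ∈ Finset.range (K + 1), e m) / (q : ℝ))) (Sum.inr b) * h x₀ := by
    refine Finset.sum_nonneg fun b _ => mul_nonneg ?_ (hh _)
    refine mul_nonneg (mul_nonneg (Nat.cast_nonneg _) ((baseL_mem b).1 a)) ?_
    exact div_nonneg (sub_nonneg.2 (sum_e_le_one hd K he1)) (Nat.cast_nonneg _)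
  refine le_trans (Finset.sum_le_sum fun m _ => ?_) (le_add_of_nonneg_right h0)
  have h1 := mul_le_mul_of_nonneg_left (hT m h hh) (he0 _ (Nat.lt_succ_iff.1 m.2))
  refine h1.trans (le_of_eq ?_)
  simp only [TrueLaw.int, Finset.mul_sum]
  refine Finset.sum_congr rfl fun k _ => ?_
  show _ = (q : ℝ) * (T m).g k a * (e (m : ℕ) * (T m).μ k) * h ((T m).c k)
  simp only [nuOf]
  ring

end Mix

/-! ### Reading only one chamber, for three spins -/

section Fold

/-- the chamber of decreasing coordinates -/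
def Cham (p : Fin 3 → ℝ) : Prop := p 1 ≤ p 0 ∧ p 2 ≤ p 1

open Classical in
/-- the number of relabellings which bring the point to the chamber -/
noncomputable def chamN (p : Fin 3 → ℝ) : ℕ :=
  (Finset.univ.filter fun π : Equiv.Perm (Fin 3) => Cham (rel π p)).card

open Classical in
/-- the weights of the chamber: a partition of unity of each orbit -/
noncomputable def chamW (p : Fin 3 → ℝ) : ℝ := if Cham p then 1 / (chamN p : ℝ) else 0

lemma exists_cham (p : Fin 3 → ℝ) : ∃ π : Equiv.Perm (Fin 3), Cham (rel π p) := by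
  refine ⟨Tuple.sort (fun i => -p i), ?_⟩
  have h := Tuple.monotone_sort (fun i => -p i)
  constructor
  · have := h (show (0 : Fin 3) ≤ 1 by decide)
    simp only [Function.comp, neg_le_neg_iff] at this
    exact this
  · have := h (show (1 : Fin 3) ≤ 2 by decide)
    simp only [Function.comp, neg_le_neg_iff] at this
    exact this

lemma chamN_pos (p : Fin 3 → ℝ) : 0 < chamN p := by
  obtain ⟨π, hπ⟩ := exists_cham p
  exact Finset.card_pos.2 ⟨π, by simp [hπ]⟩

lemma chamN_rel (σ : Equiv.Perm (Fin 3)) (p : Fin 3 → ℝ) : chamN (rel σ p) = chamN p := by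
  classical
  unfold chamN
  refine Finset.card_bij' (fun π _ => σ * π) (fun π _ => σ⁻¹ * π) ?_ ?_ ?_ ?_
  · intro π hπ
    simpa [rel_rel] using hπ
  · intro π hπ
    simpa [rel_rel] using hπ
  · intro π _
    simp
  · intro π _
    simp

lemma sum_chamW_rel (p : Fin 3 → ℝ) : ∑ π : Equiv.Perm (Fin 3), chamW (rel π p) = 1 := by
  classical
  have h1 : ∀ π : Equiv.Perm (Fin 3), chamW (rel π p) =
      if Cham (rel π p) then 1 / (chamN p : ℝ) else 0 := by
    intro π
    simp only [chamW, chamN_rel]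
  simp only [h1]
  rw [Finset.sum_ite, Finset.sum_const_zero, add_zero, Finset.sum_const, nsmul_eq_mul]
  have h2 : ((Finset.univ.filter fun π : Equiv.Perm (Fin 3) => Cham (rel π p)).card : ℝ) = chamN p := by
    simp only [chamN]
  rw [h2]
  have h3 : (chamN p : ℝ) ≠ 0 := by exact_mod_cast (chamN_pos p).ne'
  field_simp

lemma chamW_nonneg (p : Fin 3 → ℝ) : 0 ≤ chamW p := by
  classical
  unfold chamW
  split_ifs
  · positivity
  · exact le_rfl

lemma Cham.coord_pos {p : Fin 3 → ℝ} (hc : Cham p) (hp : p ∈ Sx 3) : 0 < p 0 := by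
  have h1 := hc.1
  have h2 := hc.2
  have h3 : p 0 + p 1 + p 2 = 1 := by
    have := hp.2
    rwa [Fin.sum_univ_three] at this
  linarith

/-- **The bound read on the chamber.** -/
theorem NuB.fold {L : Ω → Fin 3 → ℝ} {G : M → Fin 3 → ℝ} {Φ : (M → ℝ) → ℝ} (hG : ∀ x, G x ∈ Sx 3)
    (h : NuB (0 : Fin 3) G L Φ) {f : (Fin 3 → ℝ) → ℝ} (hf : Adm f) (b : Fin 3) :
    Φ (fun x => (2 / G x 0) * chamW (G x) * (f (baseL 3 b) - f (G x))) ≤
      f (baseL 3 b) - Pot f L := by
  classical
  obtain ⟨T, hT⟩ := h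
  set F := f (baseL 3 b) with hF
  have hH : ∀ x, 0 ≤ F - f (G x) := fun x => sub_nonneg.2 (le_vertex hf (hG x) b)
  have h0 : ∀ x, 0 ≤ (2 / G x 0) * chamW (G x) * (F - f (G x)) := fun x =>
    mul_nonneg (mul_nonneg (div_nonneg (by norm_num) ((hG x).1 0)) (chamW_nonneg _)) (hH x)
  refine (hT _ h0).trans ?_
  -- the integral is six times the chamber part of the law
  have e1 : T.int (fun x => (2 / G x 0) * chamW (G x) * (F - f (G x))) =
      ∑ k, 6 * (T.μ k * chamW (T.g k) * (F - f (T.g k))) := by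
    refine Finset.sum_congr rfl fun k _ => ?_
    by_cases h1 : nuOf 0 T.g T.μ k = 0
    · rw [h1, zero_mul]
      by_cases h2 : T.μ k = 0
      · simp [h2]
      · have h3 : T.g k 0 = 0 := by
          by_contra h3
          exact (mul_ne_zero (mul_ne_zero (by norm_num) h3) h2) h1
        have h4 : ¬ Cham (T.g k) := fun hc => (hc.coord_pos (T.hg k)).ne' h3
        simp [chamW, h4]
    · show _ * ((2 / G (T.c k) 0) * chamW (G (T.c k)) * (F - f (G (T.c k)))) = _
      rw [← T.hc k h1]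
      by_cases h3 : T.g k 0 = 0
      · exact absurd (by simp [nuOf, h3]) h1
      · simp only [nuOf]
        norm_num
        field_simp
        ring
  rw [e1]
  -- the relabellings
  have e2 : ∀ π : Equiv.Perm (Fin 3), ∑ k, T.μ k * chamW (T.g k) * (F - f (T.g k)) =
      ∑ k, T.μ k * chamW (rel π (T.g k)) * (F - f (T.g k)) := by
    intro π
    rw [← Equiv.sum_comp (T.S.act π)]
    refine Finset.sum_congr rfl fun k _ => ?_
    rw [T.hI, T.S.g_act, hf.2.2 π _ (T.hg k)]
  have e3 : ∑ k, 6 * (T.μ k * chamW (T.g k) * (F - f (T.g k))) =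
      ∑ π : Equiv.Perm (Fin 3), ∑ k, T.μ k * chamW (T.g k) * (F - f (T.g k)) := by
    rw [← Finset.mul_sum, Finset.sum_const, Finset.card_univ, Fintype.card_perm, Fintype.card_fin]
    norm_num
  rw [e3, Finset.sum_congr rfl fun π _ => e2 π, Finset.sum_comm]
  have e4 : ∀ k, ∑ π : Equiv.Perm (Fin 3), T.μ k * chamW (rel π (T.g k)) * (F - f (T.g k)) =
      T.μ k * (F - f (T.g k)) := by
    intro k
    rw [← Finset.sum_mul, ← Finset.mul_sum, sum_chamW_rel, mul_one]
  simp only [e4]
  have h5 : ∑ k, T.μ k * (F - f (T.g k)) = F - ∑ k, T.μ k * f (T.g k) := by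
    simp only [mul_sub, Finset.sum_sub_distrib]
    rw [← Finset.sum_mul, T.hμ1, one_mul]
  rw [h5]
  linarith [T.hB f hf]

end Fold

end Crest.Agent.PottsTree
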