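import Crest.Agent.Lib.PottsTree.Basic

/-!
# Contraction (channel), star (independent children) and symmetry
-/

namespace Crest.Agent.PottsTree

open Finset
open Crest.ProbabilityR.Broadcast

variable {q : ℕ}

/-! ### contraction -/

/-- the channel applied to a likelihood vector -/
noncomputable def chan (q : ℕ) (lam : ℝ) (x : Fin q → ℝ) : Fin q → ℝ :=
  fun i => ∑ j, channel q lam i j * x j

/-- the channel on the simplex (= on posteriors) -/
noncomputable def T (q : ℕ) (lam : ℝ) (p : Fin q → ℝ) : Fin q → ℝ :=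
  fun i => lam * p i + (1 - lam) / q

lemma chan_eq (lam : ℝ) (x : Fin q → ℝ) (i : Fin q) :
    chan q lam x i = lam * x i + (1 - lam) / q * mass x := by
  simp only [chan, channel, add_mul, Finset.sum_add_distrib, mass, Finset.mul_sum]
  congr 1
  simp

lemma channel_nonneg_of_nonneg {lam : ℝ} (h0 : 0 ≤ lam) (h1 : lam ≤ 1) (i j : Fin q) :
    0 ≤ channel q lam i j := by
  unfold channel
  have : 0 ≤ (1 - lam) / (q : ℝ) := div_nonneg (by linarith) (by positivity)
  split_ifs <;> linarith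

lemma sum_channel (hq : q ≠ 0) (lam : ℝ) (i : Fin q) : ∑ j, channel q lam i j = 1 := by
  have hq' : (q : ℝ) ≠ 0 := by exact_mod_cast hq
  simp only [channel, Finset.sum_add_distrib]
  simp
  field_simp
  ring

lemma mass_chan (hq : q ≠ 0) (lam : ℝ) (x : Fin q → ℝ) : mass (chan q lam x) = mass x := by
  have hq' : (q : ℝ) ≠ 0 := by exact_mod_cast hq
  unfold mass
  simp only [chan_eq]
  rw [Finset.sum_add_distrib, ← Finset.mul_sum]
  simp only [Finset.sum_const, Finset.card_univ, Fintype.card_fin, nsmul_eq_mul]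
  unfold mass
  field_simp
  ring

lemma post_chan (hq : q ≠ 0) (lam : ℝ) {x : Fin q → ℝ} (h : mass x ≠ 0) :
    post (chan q lam x) = T q lam (post x) := by
  funext i
  simp only [post, T, chan_eq, mass_chan hq]
  field_simp

lemma hom_chan (hq : q ≠ 0) (lam : ℝ) (f : (Fin q → ℝ) → ℝ) (x : Fin q → ℝ) :
    hom f (chan q lam x) = hom (fun p => f (T q lam p)) x := by
  by_cases h : mass x = 0
  · simp [hom, mass_chan hq, h]
  · simp only [hom, mass_chan hq, post_chan hq lam h]

/-- the contraction of a family -/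
noncomputable def contract {Ω : Type*} (lam : ℝ) (L : Ω → Fin q → ℝ) : Ω → Fin q → ℝ :=
  fun ω => chan q lam (L ω)

/-- Channels that are stochastic: the only thing used from the parameter range. -/
def ChanOK (q : ℕ) (lam : ℝ) : Prop := ∀ i j : Fin q, 0 ≤ channel q lam i j

lemma chanOK_of_nonneg {lam : ℝ} (h0 : 0 ≤ lam) (h1 : lam ≤ 1) : ChanOK q lam :=
  channel_nonneg_of_nonneg h0 h1

lemma T_mem {lam : ℝ} (hq : q ≠ 0) (hc : ChanOK q lam) {p : Fin q → ℝ} (hp : p ∈ Sx q) :
    T q lam p ∈ Sx q := by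
  have hq' : (q : ℝ) ≠ 0 := by exact_mod_cast hq
  have hm : mass p = 1 := hp.2
  constructor
  · intro i
    have := chan_eq (q := q) lam p i
    rw [hm, mul_one] at this
    simp only [T]
    rw [← this]
    exact Finset.sum_nonneg fun j _ => mul_nonneg (hc i j) (hp.1 j)
  · simp only [T, Finset.sum_add_distrib, ← Finset.mul_sum]
    have h1 : ∑ i, p i = 1 := hp.2
    rw [h1]
    simp
    field_simp
    ring

lemma BddS.comp_T {lam : ℝ} (hq : q ≠ 0) (hc : ChanOK q lam) {f : (Fin q → ℝ) → ℝ} (hf : BddS f) :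
    BddS (fun p => f (T q lam p)) := by
  obtain ⟨C, hC⟩ := hf
  exact ⟨C, fun p hp => hC _ (T_mem hq hc hp)⟩

lemma isLik_contract {Ω : Type*} {L : Ω → Fin q → ℝ} (hq : q ≠ 0) {lam : ℝ} (hc : ChanOK q lam)
    (hL : IsLik L) : IsLik (contract lam L) where
  nonneg ω i := by
    show 0 ≤ ∑ j, channel q lam i j * L ω j
    exact Finset.sum_nonneg fun j _ => mul_nonneg (hc i j) (hL.nonneg ω j)
  summable i := by
    simp only [contract, chan]
    exact summable_sum fun j _ => (hL.summable j).mul_left _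
  sum_one i := by
    simp only [contract, chan]
    rw [Summable.tsum_finsetSum fun j _ => (hL.summable j).mul_left _]
    simp only [tsum_mul_left, hL.sum_one, mul_one]
    exact sum_channel hq lam i

lemma pot_contract {Ω : Type*} {L : Ω → Fin q → ℝ} (hq : q ≠ 0) (lam : ℝ)
    (f : (Fin q → ℝ) → ℝ) :
    Pot f (contract lam L) = Pot (fun p => f (T q lam p)) L := by
  simp only [Pot, contract, hom_chan hq]

/-! ### star -/

/-- normalised product of two points of the simplex -/
noncomputable def sp (p r : Fin q → ℝ) : Fin q → ℝ :=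
  fun i => p i * r i / ∑ j, p j * r j

/-- bilinear kernel of a function: `⟨p,r⟩ f (p ⋆ r)` -/
noncomputable def K (f : (Fin q → ℝ) → ℝ) (p r : Fin q → ℝ) : ℝ :=
  (∑ j, p j * r j) * f (sp p r)

/-- independent observations from the same spin -/
def star {Ω Ω' : Type*} (L : Ω → Fin q → ℝ) (L' : Ω' → Fin q → ℝ) : Ω × Ω' → Fin q → ℝ :=
  fun w i => L w.1 i * L' w.2 i

lemma isLik_star {Ω Ω' : Type*} {L : Ω → Fin q → ℝ} {L' : Ω' → Fin q → ℝ} (hL : IsLik L)
    (hL' : IsLik L') : IsLik (star L L') where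
  nonneg w i := mul_nonneg (hL.nonneg _ _) (hL'.nonneg _ _)
  summable i := (hL.summable i).mul_of_nonneg (hL'.summable i)
    (fun ω => hL.nonneg ω i) (fun ω => hL'.nonneg ω i)
  sum_one i := by
    have hs := (hL.summable i).mul_of_nonneg (hL'.summable i)
      (fun ω => hL.nonneg ω i) (fun ω => hL'.nonneg ω i)
    have := (hL.summable i).tsum_mul_tsum (hL'.summable i) hs
    simp only [star]
    rw [← this, hL.sum_one, hL'.sum_one, one_mul]

lemma sp_mem {p r : Fin q → ℝ} (hp : p ∈ Sx q) (hr : r ∈ Sx q) (h : ∑ j, p j * r j ≠ 0) :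
    sp p r ∈ Sx q := by
  have h0 : 0 ≤ ∑ j, p j * r j := Finset.sum_nonneg fun j _ => mul_nonneg (hp.1 j) (hr.1 j)
  have hpos : 0 < ∑ j, p j * r j := lt_of_le_of_ne h0 (Ne.symm h)
  refine ⟨fun i => div_nonneg (mul_nonneg (hp.1 i) (hr.1 i)) hpos.le, ?_⟩
  simp only [sp]
  rw [← Finset.sum_div]
  exact div_self h

lemma inner_le_one {p r : Fin q → ℝ} (hp : p ∈ Sx q) (hr : r ∈ Sx q) : ∑ j, p j * r j ≤ 1 := by
  have h1 : ∀ j, r j ≤ 1 := fun j => by
    have := Finset.single_le_sum (f := r) (fun i _ => hr.1 i) (Finset.mem_univ j)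
    rwa [hr.2] at this
  calc ∑ j, p j * r j ≤ ∑ j, p j * 1 :=
        Finset.sum_le_sum fun j _ => mul_le_mul_of_nonneg_left (h1 j) (hp.1 j)
    _ = 1 := by simpa using hp.2

lemma abs_K_le {f : (Fin q → ℝ) → ℝ} {C : ℝ} (hC : ∀ p ∈ Sx q, |f p| ≤ C)
    {p r : Fin q → ℝ} (hp : p ∈ Sx q) (hr : r ∈ Sx q) : |K f p r| ≤ C := by
  by_cases h : ∑ j, p j * r j = 0
  · have hC0 : 0 ≤ C := by
      have : ((Finset.univ : Finset (Fin q)).Nonempty) := by
        by_contra hne
        rw [Finset.not_nonempty_iff_eq_empty] at hne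
        have h2 := hp.2
        rw [hne] at h2
        simp at h2
      obtain ⟨i, _⟩ := this
      have : p ∈ Sx q := hp
      exact (abs_nonneg _).trans (hC p this)
    simp [K, h, hC0]
  · have h0 : 0 ≤ ∑ j, p j * r j := Finset.sum_nonneg fun j _ => mul_nonneg (hp.1 j) (hr.1 j)
    have hC' := hC _ (sp_mem hp hr h)
    rw [K, abs_mul, abs_of_nonneg h0]
    have h1 := inner_le_one hp hr
    have hC0 : 0 ≤ C := (abs_nonneg _).trans hC'
    calc (∑ j, p j * r j) * |f (sp p r)| ≤ 1 * C :=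
          mul_le_mul h1 hC' (abs_nonneg _) zero_le_one
      _ = C := one_mul C

lemma hom_mul (f : (Fin q → ℝ) → ℝ) {x y : Fin q → ℝ} (hx : ∀ i, 0 ≤ x i) (hy : ∀ i, 0 ≤ y i) :
    hom f (fun i => x i * y i) = mass x * mass y * K f (post x) (post y) := by
  by_cases hmx : mass x = 0
  · have : ∀ i, x i = 0 := eq_zero_of_mass_eq_zero hx hmx
    simp [hom, mass, this, hmx]
  by_cases hmy : mass y = 0
  · have : ∀ i, y i = 0 := eq_zero_of_mass_eq_zero hy hmy
    simp [hom, mass, this, hmy]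
  have hinner : ∑ j, post x j * post y j = mass (fun i => x i * y i) / (mass x * mass y) := by
    simp only [post, mass]
    rw [Finset.sum_div]
    refine Finset.sum_congr rfl fun j _ => ?_
    change x j / mass x * (y j / mass y) = _
    rw [div_mul_div_comm]
    rfl
  have hinner' : mass (fun i => x i * y i) = mass x * mass y * ∑ j, post x j * post y j := by
    rw [hinner]
    field_simp
  by_cases hm : mass (fun i => x i * y i) = 0
  · have h0 : ∑ j, post x j * post y j = 0 := by rw [hinner, hm, zero_div]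
    simp [hom, K, hm, h0]
  · have h1 : ∑ j, post x j * post y j ≠ 0 := by
      intro h0
      rw [h0, mul_zero] at hinner'
      exact hm hinner'
    have hsp : post (fun i => x i * y i) = sp (post x) (post y) := by
      funext i
      have hinner2 : ∑ j, x j / mass x * (y j / mass y) =
          mass (fun i => x i * y i) / (mass x * mass y) := hinner
      simp only [post, sp]
      rw [hinner2]
      field_simp
    simp only [hom, K]
    rw [hsp, hinner']
    ring

/-- The double-expectation formula. -/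
lemma pot_star {Ω Ω' : Type*} {L : Ω → Fin q → ℝ} {L' : Ω' → Fin q → ℝ} (hL : IsLik L)
    (hL' : IsLik L') {f : (Fin q → ℝ) → ℝ} (hf : BddS f) :
    Pot f (star L L') = Pot (fun p => Pot (fun r => (q : ℝ) * K f p r) L') L := by
  obtain ⟨C, hC⟩ := id hf
  by_cases hq : q = 0
  · subst hq
    simp [Pot]
  have hq' : (q : ℝ) ≠ 0 := by exact_mod_cast hq
  have hsum : Summable fun w : Ω × Ω' => hom f (star L L' w) := (isLik_star hL hL').summable_hom hf
  simp only [Pot]
  rw [hsum.tsum_prod' ?_]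
  · congr 1
    refine tsum_congr fun ω => ?_
    show _ = mass (L ω) * ((q : ℝ)⁻¹ * ∑' ω', hom (fun r => (q : ℝ) * K f (post (L ω)) r) (L' ω'))
    have hinner : ∀ ω', hom f (star L L' (ω, ω')) =
        mass (L ω) * (hom (fun r => K f (post (L ω)) r) (L' ω')) := by
      intro ω'
      have := hom_mul f (hL.nonneg ω) (hL'.nonneg ω')
      show hom f (fun i => L ω i * L' ω' i) = _
      rw [this]
      simp only [hom]
      ring
    simp only [hinner]
    rw [tsum_mul_left]
    congr 1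
    have h2 : ∀ ω', hom (fun r => (q : ℝ) * K f (post (L ω)) r) (L' ω') =
        (q : ℝ) * hom (fun r => K f (post (L ω)) r) (L' ω') := by
      intro ω'
      simp only [hom]
      ring
    simp only [h2]
    rw [tsum_mul_left]
    field_simp
  · intro ω
    by_cases hm : mass (L ω) = 0
    · have : ∀ i, L ω i = 0 := eq_zero_of_mass_eq_zero (hL.nonneg ω) hm
      have h0 : ∀ ω', hom f (star L L' (ω, ω')) = 0 := by
        intro ω'
        apply hom_of_mass_zero
        simp [mass, star, this]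
      simp only [h0]
      exact summable_zero
    · have hbd : BddS (fun r => K f (post (L ω)) r) :=
        ⟨C, fun r hr => abs_K_le hC (post_mem (hL.nonneg ω) hm) hr⟩
      have h1 := (hL'.summable_hom hbd).mul_left (mass (L ω))
      refine h1.congr fun ω' => ?_
      have := hom_mul f (hL.nonneg ω) (hL'.nonneg ω')
      show _ = hom f (fun i => L ω i * L' ω' i)
      rw [this]
      simp only [hom]
      ring

/-! ### symmetry -/

/-- relabelling of the spins on vectors -/
def rel (π : Equiv.Perm (Fin q)) (r : Fin q → ℝ) : Fin q → ℝ := fun i => r (π i)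

lemma rel_mem (π : Equiv.Perm (Fin q)) {r : Fin q → ℝ} (hr : r ∈ Sx q) : rel π r ∈ Sx q := by
  refine ⟨fun i => hr.1 _, ?_⟩
  simp only [rel]
  rw [Equiv.sum_comp π r]
  exact hr.2

lemma BddS.comp_rel (π : Equiv.Perm (Fin q)) {f : (Fin q → ℝ) → ℝ} (hf : BddS f) :
    BddS (fun p => f (rel π p)) := by
  obtain ⟨C, hC⟩ := hf
  exact ⟨C, fun p hp => hC _ (rel_mem π hp)⟩

/-- The law of the posterior is invariant under relabelling of the spins. -/
def SymLik {Ω : Type*} (L : Ω → Fin q → ℝ) : Prop :=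
  ∀ (π : Equiv.Perm (Fin q)) (g : (Fin q → ℝ) → ℝ), BddS g →
    Pot (fun r => g (rel π r)) L = Pot g L

lemma T_rel (lam : ℝ) (π : Equiv.Perm (Fin q)) (p : Fin q → ℝ) :
    T q lam (rel π p) = rel π (T q lam p) := rfl

lemma symLik_contract {Ω : Type*} {L : Ω → Fin q → ℝ} (hq : q ≠ 0) {lam : ℝ} (hc : ChanOK q lam)
    (hS : SymLik L) : SymLik (contract lam L) := by
  intro π g hg
  rw [pot_contract hq, pot_contract hq]
  have := hS π (fun p => g (T q lam p)) (BddS.comp_T hq hc hg)
  simpa [T_rel] using this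

lemma K_rel (f : (Fin q → ℝ) → ℝ) (π : Equiv.Perm (Fin q)) (p r : Fin q → ℝ) :
    K (fun x => f (rel π x)) p r = K f (rel π p) (rel π r) := by
  have h1 : ∑ j, rel π p j * rel π r j = ∑ j, p j * r j := by
    simp only [rel]
    exact Equiv.sum_comp π (fun j => p j * r j)
  have h2 : rel π (sp p r) = sp (rel π p) (rel π r) := by
    funext i
    simp only [rel, sp]
    rw [show ∑ j, p (π j) * r (π j) = ∑ j, p j * r j from Equiv.sum_comp π (fun j => p j * r j)]
  simp only [K]
  rw [h1, h2]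

lemma BddS2 {f : (Fin q → ℝ) → ℝ} (hf : BddS f) {p : Fin q → ℝ} (hp : p ∈ Sx q) :
    BddS (fun r => (q : ℝ) * K f p r) := by
  obtain ⟨C, hC⟩ := hf
  exact BddS.const_mul _ (⟨C, fun r hr => abs_K_le hC hp hr⟩ : BddS (fun r => K f p r))

/-- `p ↦ E_r [g p r]` is bounded when `g` is bounded uniformly. -/
lemma bddS_pot_of_bdd {Ω' : Type*} {L' : Ω' → Fin q → ℝ} (hq : q ≠ 0) (hL' : IsLik L')
    {g : (Fin q → ℝ) → (Fin q → ℝ) → ℝ} {C : ℝ}
    (hg : ∀ p ∈ Sx q, ∀ r ∈ Sx q, |g p r| ≤ C) :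
    BddS (fun p => Pot (g p) L') :=
  ⟨C, fun p hp => abs_pot_le hq hL' (hg p hp)⟩

lemma symLik_star {Ω Ω' : Type*} {L : Ω → Fin q → ℝ} {L' : Ω' → Fin q → ℝ} (hq : q ≠ 0)
    (hL : IsLik L) (hL' : IsLik L') (hS : SymLik L) (hS' : SymLik L') :
    SymLik (star L L') := by
  intro π g hg
  obtain ⟨C, hC⟩ := id hg
  have hqC : 0 ≤ (q : ℝ) := by positivity
  rw [pot_star hL hL' (BddS.comp_rel π hg), pot_star hL hL' hg]
  -- inner step
  have hbd : ∀ p ∈ Sx q, ∀ r ∈ Sx q, |(q : ℝ) * K g p r| ≤ (q : ℝ) * C := by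
    intro p hp r hr
    rw [abs_mul, abs_of_nonneg hqC]
    exact mul_le_mul_of_nonneg_left (abs_K_le hC hp hr) hqC
  have hin : ∀ p ∈ Sx q, Pot (fun r => (q : ℝ) * K (fun x => g (rel π x)) p r) L' =
      Pot (fun r => (q : ℝ) * K g (rel π p) r) L' := by
    intro p hp
    simp only [K_rel]
    exact hS' π (fun r => (q : ℝ) * K g (rel π p) r) (BddS2 hg (rel_mem π hp))
  have hO : Pot (fun p => Pot (fun r => (q : ℝ) * K (fun x => g (rel π x)) p r) L') L =
      Pot (fun p => Pot (fun r => (q : ℝ) * K g (rel π p) r) L') L :=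
    pot_congr hL hin
  rw [hO]
  exact hS π (fun p => Pot (fun r => (q : ℝ) * K g p r) L') (bddS_pot_of_bdd hq hL' hbd)

/-- The averaged kernel: `B f p r = avg_π q ⟨p, π r⟩ f (p ⋆ π r)`. -/
noncomputable def B (f : (Fin q → ℝ) → ℝ) (p r : Fin q → ℝ) : ℝ :=
  ((Fintype.card (Equiv.Perm (Fin q)) : ℝ))⁻¹ *
    ∑ π : Equiv.Perm (Fin q), (q : ℝ) * K f p (rel π r)

/-- The symmetrised double-expectation formula. -/
lemma pot_star_sym {Ω Ω' : Type*} {L : Ω → Fin q → ℝ} {L' : Ω' → Fin q → ℝ} (hq : q ≠ 0)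
    (hL : IsLik L) (hL' : IsLik L') (hS' : SymLik L') {f : (Fin q → ℝ) → ℝ} (hf : BddS f) :
    Pot f (star L L') = Pot (fun p => Pot (B f p) L') L := by
  rw [pot_star hL hL' hf]
  refine pot_congr hL fun p hp => ?_
  have hbd := BddS2 hf hp
  have hB : B f p = fun r => ((Fintype.card (Equiv.Perm (Fin q)) : ℝ))⁻¹ *
      ∑ π : Equiv.Perm (Fin q), (q : ℝ) * K f p (rel π r) := rfl
  rw [hB]
  have hc : ((Fintype.card (Equiv.Perm (Fin q)) : ℕ) : ℝ) ≠ 0 := by
    exact_mod_cast Fintype.card_ne_zero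
  have h1 : Pot (fun r => ((Fintype.card (Equiv.Perm (Fin q)) : ℝ))⁻¹ *
      ∑ π : Equiv.Perm (Fin q), (q : ℝ) * K f p (rel π r)) L' =
      ((Fintype.card (Equiv.Perm (Fin q)) : ℝ))⁻¹ *
        Pot (fun r => ∑ π : Equiv.Perm (Fin q), (q : ℝ) * K f p (rel π r)) L' := pot_const_mul _
  rw [h1, pot_sum hL' _ fun π _ => BddS.comp_rel π hbd]
  have : ∀ π : Equiv.Perm (Fin q), Pot (fun r => (q : ℝ) * K f p (rel π r)) L' =
      Pot (fun r => (q : ℝ) * K f p r) L' := fun π => hS' π _ hbd
  simp only [this]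
  simp only [Finset.sum_const, Finset.card_univ, nsmul_eq_mul]
  field_simp

end Crest.Agent.PottsTree
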