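import Crest.Agent.Lib.PottsTree.UpgradeConv

/-!
# Doubling of Poisson mixtures

`poisMix (d₁ + d₂) L` has the potentials of `star (poisMix d₁ L) (poisMix d₂ L)`: a Poisson mixture at
parameter `d` is computed by `s` doublings from the parameter `d / 2 ^ s`, where only the terms with
few children matter.
-/

namespace Crest.Agent.PottsTree

open Finset
open ConeData
open Cmp

variable {q : ℕ}

section Mix

variable {α : Type*} {β : α → Type*} {Ω' : Type*}

/-- A mixture in the left factor of a star. -/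
lemma star_mix_equiv (c : α → ℝ) (F : ∀ n, β n → Fin q → ℝ) (M : Ω' → Fin q → ℝ)
    (s : Σ n, β n × Ω') :
    star (mix c F) M ((Equiv.sigmaProdDistrib β Ω').symm s) =
      mix c (fun n => star (F n) M) s := by
  obtain ⟨n, y, o⟩ := s
  funext i
  show c n * F n y i * M o i = c n * (F n y i * M o i)
  ring

lemma pot_star_mix_left {c : α → ℝ} {F : ∀ n, β n → Fin q → ℝ} {M : Ω' → Fin q → ℝ}
    (hc : ∀ n, 0 ≤ c n) (hs : Summable c) (h1 : ∑' n, c n = 1) (hF : ∀ n, IsLik (F n))
    (hM : IsLik M) {f : (Fin q → ℝ) → ℝ} (hf : BddS f) :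
    Pot f (star (mix c F) M) = ∑' n, c n * Pot f (star (F n) M) := by
  rw [pot_congr_equiv (Equiv.sigmaProdDistrib β Ω').symm (star_mix_equiv c F M),
    pot_mix hc hs h1 (fun n => isLik_star (hF n) hM) hf]

end Mix

section Pow

variable {Ω : Type*}

lemma star_starPow_equiv (L : Ω → Fin q → ℝ) (n m : ℕ) (w : (Fin n → Ω) × (Fin m → Ω)) :
    starPow L (n + m) (Fin.appendEquiv n m w) = star (starPow L n) (starPow L m) w := by
  funext i
  simp [starPow, star, Fin.prod_univ_add, Fin.appendEquiv]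

lemma pot_star_starPow (L : Ω → Fin q → ℝ) (n m : ℕ) (f : (Fin q → ℝ) → ℝ) :
    Pot f (star (starPow L n) (starPow L m)) = Pot f (starPow L (n + m)) :=
  (pot_congr_equiv (Fin.appendEquiv n m) (star_starPow_equiv L n m) f).symm

lemma poisMix_star_equiv (d d' : ℝ) (L : Ω → Fin q → ℝ) (w : (Σ n, Fin n → Ω) × (Σ n, Fin n → Ω)) :
    star (poisMix d L) (poisMix d' L)
      ((List.equivSigmaTuple.symm.prodCongr List.equivSigmaTuple.symm) w) =
      star (mix (poi d) (fun n => starPow L n)) (mix (poi d') (fun n => starPow L n)) w := by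
  funext i
  show poisMix d L (List.equivSigmaTuple.symm w.1) i * poisMix d' L (List.equivSigmaTuple.symm w.2) i = _
  rw [poisMix_equiv, poisMix_equiv]
  rfl

lemma tsum_poi_prod_add {d d' : ℝ} {g : ℕ → ℝ}
    (h2 : Summable fun x : ℕ × ℕ => poi d x.1 * poi d' x.2 * g (x.1 + x.2)) :
    ∑' x : ℕ × ℕ, poi d x.1 * poi d' x.2 * g (x.1 + x.2) = ∑' n, poi (d + d') n * g n := by
  have hσ : Summable (fun c : (Σ n : ℕ, Finset.HasAntidiagonal.antidiagonal n) =>
      poi d (Finset.HasAntidiagonal.sigmaAntidiagonalEquivProd c).1 *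
      poi d' (Finset.HasAntidiagonal.sigmaAntidiagonalEquivProd c).2 *
      g ((Finset.HasAntidiagonal.sigmaAntidiagonalEquivProd c).1 +
        (Finset.HasAntidiagonal.sigmaAntidiagonalEquivProd c).2)) :=
    Finset.HasAntidiagonal.sigmaAntidiagonalEquivProd.summable_iff.2 h2
  rw [← Finset.HasAntidiagonal.sigmaAntidiagonalEquivProd.tsum_eq, hσ.tsum_sigma' ?_]
  · refine tsum_congr fun n => ?_
    rw [tsum_fintype, poi_add, Finset.sum_mul]
    rw [← Finset.sum_coe_sort (Finset.HasAntidiagonal.antidiagonal n)]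
    refine Finset.sum_congr rfl fun x _ => ?_
    have hx : x.1.1 + x.1.2 = n := Finset.HasAntidiagonal.mem_antidiagonal.1 x.2
    simp only [Finset.HasAntidiagonal.sigmaAntidiagonalEquivProd_apply]
    rw [hx]
  · intro n
    exact (hasSum_fintype _).summable

lemma summable_poi_pot_shift (hq : q ≠ 0) {d : ℝ} (hd : 0 ≤ d) {L : Ω → Fin q → ℝ} (hL : IsLik L)
    {f : (Fin q → ℝ) → ℝ} (hf : BddS f) (n : ℕ) :
    Summable fun m => poi d m * Pot f (starPow L (n + m)) := by
  obtain ⟨C, hC⟩ := hf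
  refine Summable.of_norm_bounded (g := fun m => poi d m * C) ((hasSum_poi d).summable.mul_right _)
    fun m => ?_
  rw [Real.norm_eq_abs, abs_mul, abs_of_nonneg (poi_nonneg hd m)]
  exact mul_le_mul_of_nonneg_left (abs_pot_le hq (isLik_starPow hL _) hC) (poi_nonneg hd m)

/-- **Doubling.** -/
theorem pot_star_poisMix (hq : q ≠ 0) {d d' : ℝ} (hd : 0 ≤ d) (hd' : 0 ≤ d') {L : Ω → Fin q → ℝ}
    (hL : IsLik L) {f : (Fin q → ℝ) → ℝ} (hf : BddS f) :
    Pot f (star (poisMix d L) (poisMix d' L)) = Pot f (poisMix (d + d') L) := by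
  have hP := fun n => isLik_starPow hL n
  have hm' : IsLik (mix (poi d') (fun n => starPow L n)) :=
    isLik_mix (poi_nonneg hd') (hasSum_poi d').summable (hasSum_poi d').tsum_eq hP
  have e0 : Pot f (star (poisMix d L) (poisMix d' L)) =
      Pot f (star (mix (poi d) (fun n => starPow L n)) (mix (poi d') (fun n => starPow L n))) :=
    pot_congr_equiv (List.equivSigmaTuple.symm.prodCongr List.equivSigmaTuple.symm)
      (poisMix_star_equiv d d' L) f
  have e1 : ∀ n, Pot f (star (starPow L n) (mix (poi d') (fun n => starPow L n))) =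
      ∑' m, poi d' m * Pot f (starPow L (n + m)) := by
    intro n
    rw [pot_star_comm, pot_star_mix_left (poi_nonneg hd') (hasSum_poi d').summable
      (hasSum_poi d').tsum_eq hP (hP n) hf]
    refine tsum_congr fun m => ?_
    rw [pot_star_starPow, add_comm]
  rw [e0, pot_star_mix_left (poi_nonneg hd) (hasSum_poi d).summable (hasSum_poi d).tsum_eq hP hm' hf,
    pot_poisMix (add_nonneg hd hd') hL hf]
  simp only [e1]
  obtain ⟨C, hC⟩ := id hf
  have hb : ∀ n, |Pot f (starPow L n)| ≤ C := fun n => abs_pot_le hq (hP n) hC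
  have hp := summable_poi_prod hd hd'
  have h2 : Summable fun x : ℕ × ℕ => poi d x.1 * poi d' x.2 * Pot f (starPow L (x.1 + x.2)) := by
    refine Summable.of_norm_bounded (g := fun x : ℕ × ℕ => poi d x.1 * poi d' x.2 * C)
      (hp.mul_right C) fun x => ?_
    rw [Real.norm_eq_abs, abs_mul,
      abs_of_nonneg (mul_nonneg (poi_nonneg hd x.1) (poi_nonneg hd' x.2))]
    exact mul_le_mul_of_nonneg_left (hb _) (mul_nonneg (poi_nonneg hd x.1) (poi_nonneg hd' x.2))
  have e3 := tsum_poi_prod_add (d := d) (d' := d') (g := fun n => Pot f (starPow L n)) h2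
  rw [← e3, h2.tsum_prod' ?_]
  · refine tsum_congr fun n => ?_
    rw [← tsum_mul_left]
    refine tsum_congr fun m => ?_
    ring
  · intro n
    have : ∀ m, poi d (n, m).1 * poi d' (n, m).2 * Pot f (starPow L ((n, m).1 + (n, m).2)) =
        poi d n * (poi d' m * Pot f (starPow L (n + m))) := fun m => by
      simp only
      ring
    simp only [this]
    exact (summable_poi_pot_shift hq hd' hL hf n).mul_left _

/-- `Bnd` for a Poisson mixture from the star of two Poisson mixtures. -/
lemma Bnd.poisMix_of_star {ι : Type*} [Fintype ι] {g : ι → Fin q → ℝ} {μ : ι → ℝ} (hq : q ≠ 0)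
    {d d' : ℝ} (hd : 0 ≤ d) (hd' : 0 ≤ d') {L : Ω → Fin q → ℝ} (hL : IsLik L)
    (h : Bnd g (star (poisMix d L) (poisMix d' L)) μ) : Bnd g (poisMix (d + d') L) μ := fun f hf => by
  rw [← pot_star_poisMix hq hd hd' hL hf.1]
  exact h f hf

end Pow

end Crest.Agent.PottsTree
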