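import Crest.Agent.Lib.PottsTree.Induct

/-!
# The regular tree
-/

namespace Crest.Agent.PottsTree

open Finset Filter
open Crest.ProbabilityR.Broadcast
open ConeData

variable {q : ℕ}

/-- the family of the regular tree at depth `ℓ` -/
noncomputable def regL (q b : ℕ) (lam : ℝ) (ℓ : ℕ) :
    ((Fin ℓ → Fin b) → Fin q) → Fin q → ℝ :=
  fun τ i => leafLaw q b lam ℓ i τ

/-- the point mass family -/
def baseL (q : ℕ) : Fin q → Fin q → ℝ := fun a i => if a = i then 1 else 0

lemma isLik_baseL : IsLik (baseL q) where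
  nonneg a i := by
    unfold baseL
    split_ifs <;> norm_num
  summable i := (hasSum_fintype _).summable
  sum_one i := by
    rw [tsum_fintype]
    simp [baseL]

lemma mass_baseL (a : Fin q) : mass (baseL q a) = 1 := by
  simp [mass, baseL]

lemma post_baseL (a : Fin q) : post (baseL q a) = baseL q a := by
  funext i
  simp [post, mass_baseL]

lemma pot_baseL (f : (Fin q → ℝ) → ℝ) : Pot f (baseL q) = (q : ℝ)⁻¹ * ∑ a, f (baseL q a) := by
  simp only [Pot]
  rw [tsum_fintype]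
  simp [hom, mass_baseL, post_baseL]

lemma rel_baseL (π : Equiv.Perm (Fin q)) (a : Fin q) : rel π (baseL q a) = baseL q (π.symm a) := by
  funext i
  simp only [rel, baseL]
  by_cases h : a = π i
  · subst h
    simp
  · have : ¬ π.symm a = i := by
      intro h2
      apply h
      rw [← h2]
      simp
    simp [h, this]

lemma symLik_baseL : SymLik (baseL q) := by
  intro π g _
  rw [pot_baseL, pot_baseL]
  congr 1
  simp only [rel_baseL]
  exact Equiv.sum_comp π.symm (fun a => g (baseL q a))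

lemma baseL_mem (a : Fin q) : baseL q a ∈ Sx q := by
  refine ⟨fun i => ?_, mass_baseL a⟩
  unfold baseL
  split_ifs <;> norm_num

/-- the observation at depth `0` is the spin at the root -/
def regEquiv0 (q b : ℕ) : Fin q ≃ ((Fin 0 → Fin b) → Fin q) :=
  (Equiv.funUnique (Fin 0 → Fin b) (Fin q)).symm

lemma regL_zero (b : ℕ) (lam : ℝ) (a : Fin q) :
    regL q b lam 0 (regEquiv0 q b a) = baseL q a := by
  funext i
  simp [regL, leafLaw, regEquiv0, baseL]

/-- the observation at depth `ℓ+1` is a tuple of `b` observations at depth `ℓ`. -/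
def regEquivS (q b ℓ : ℕ) :
    (Fin b → ((Fin ℓ → Fin b) → Fin q)) ≃ ((Fin (ℓ + 1) → Fin b) → Fin q) where
  toFun σ w := σ (w 0) (Fin.tail w)
  invFun τ m w := τ (Fin.cons m w)
  left_inv σ := by
    funext m w
    simp
  right_inv τ := by
    funext w
    simp

lemma regL_succ (b ℓ : ℕ) (lam : ℝ) (σ : Fin b → ((Fin ℓ → Fin b) → Fin q)) :
    regL q b lam (ℓ + 1) (regEquivS q b ℓ σ) = starPow (contract lam (regL q b lam ℓ)) b σ := by
  funext i
  simp [regL, leafLaw, regEquivS, starPow, contract, chan]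

lemma advantage_eq (hq : q ≠ 0) (b : ℕ) (lam : ℝ) (ℓ : ℕ)
    (hL : IsLik (regL q b lam ℓ)) :
    advantage q b lam ℓ = Pot (tv q) (regL q b lam ℓ) := by
  rw [pot_tv_eq hq hL]
  simp only [advantage, regL]
  congr 1
  rw [tsum_fintype]

/-- An elementary recursion. -/
lemma tendsto_zero_of_cubic_recursion {m : ℕ → ℝ} {c : ℝ} (hc : 0 < c) (h0 : ∀ n, 0 ≤ m n)
    (h : ∀ n, m (n + 1) ≤ m n - c * m n ^ 3) : Tendsto m atTop (nhds 0) := by
  have hanti : Antitone m := antitone_nat_of_succ_le fun n => by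
    have := h n
    have h3 : 0 ≤ c * m n ^ 3 := mul_nonneg hc.le (pow_nonneg (h0 n) 3)
    linarith
  have hbdd : BddBelow (Set.range m) := ⟨0, by
    rintro _ ⟨n, rfl⟩
    exact h0 n⟩
  have hlim := tendsto_atTop_ciInf hanti hbdd
  set a := ⨅ n, m n
  have ha0 : 0 ≤ a := le_ciInf h0
  have hlim2 : Tendsto (fun n => m (n + 1)) atTop (nhds a) := (tendsto_add_atTop_iff_nat 1).2 hlim
  have hlim3 : Tendsto (fun n => m n - c * m n ^ 3) atTop (nhds (a - c * a ^ 3)) :=
    hlim.sub ((hlim.pow 3).const_mul c)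
  have hle : a ≤ a - c * a ^ 3 := le_of_tendsto_of_tendsto' hlim2 hlim3 h
  have h3 : a ^ 3 ≤ 0 := by
    have : c * a ^ 3 ≤ 0 := by linarith
    by_contra hcon
    have := mul_pos hc (not_le.1 hcon)
    linarith
  have ha : a = 0 := by
    by_contra hne
    have hpos : 0 < a := lt_of_le_of_ne ha0 (Ne.symm hne)
    have : 0 < a ^ 3 := pow_pos hpos 3
    linarith
  rw [ha] at hlim
  exact hlim

/-- If `m → 0` for a sequence of families, then the advantage goes to `0`. -/
lemma tendsto_pot_tv_of_tendsto_A {α : ℕ → Type*} {L : ∀ n, α n → Fin q → ℝ} (hq : q ≠ 0)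
    (hL : ∀ n, IsLik (L n)) (hm : Tendsto (fun n => Pot (A q) (L n)) atTop (nhds 0)) :
    Tendsto (fun n => Pot (tv q) (L n)) atTop (nhds 0) := by
  have h1 : ∀ n, Pot (tv q) (L n) ≤ Real.sqrt (Pot (A q) (L n) / 4) := fun n =>
    Real.le_sqrt_of_sq_le (pot_tv_sq_le hq (hL n))
  have h0 : ∀ n, 0 ≤ Pot (tv q) (L n) := fun n =>
    pot_nonneg (hL n) (bddS_tv hq) fun p _ => tv_nonneg p
  have h2 : Tendsto (fun n => Real.sqrt (Pot (A q) (L n) / 4)) atTop (nhds 0) := by
    have := (hm.div_const 4).sqrt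
    simpa using this
  exact squeeze_zero h0 h1 h2

variable (C : ConeData q)

/-- Radial hypothesis: the cone functional under the channel. -/
def ConeData.Radial (lam : ℝ) : Prop :=
  ∀ p ∈ Sx q, ∃ c, 0 ≤ c ∧ c * C.Xi p ≤ C.Xi (T q lam p)

lemma good_contract (hq : q ≠ 0) {lam : ℝ} (hc : ChanOK q lam) {c : ℝ} (hc0 : 0 ≤ c)
    (hrad : ∀ p ∈ Sx q, c * C.Xi p ≤ C.Xi (T q lam p)) {Ω : Type*} {L : Ω → Fin q → ℝ}
    (h : Good C L) : Good C (contract lam L) := by
  refine ⟨isLik_contract hq hc h.lik, symLik_contract hq hc h.sym, ?_⟩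
  rw [pot_contract hq]
  have := pot_mono h.lik (C.bdd_Xi.const_mul c) (BddS.comp_T hq hc C.bdd_Xi) hrad
  rw [pot_const_mul] at this
  exact (mul_nonneg hc0 h.cone).trans this

lemma pot_A_contract (hq : q ≠ 0) (lam : ℝ) {Ω : Type*} {L : Ω → Fin q → ℝ} (hL : IsLik L) :
    Pot (A q) (contract lam L) = lam ^ 2 * Pot (A q) L := by
  rw [pot_contract hq, ← pot_const_mul]
  exact pot_congr hL fun p hp => A_T hq lam hp

/-- Good at a vertex of the simplex gives Good at the root family. -/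
lemma good_baseL (hq : q ≠ 0) (hv : ∀ a, 0 ≤ C.Xi (baseL q a)) : Good C (baseL q) := by
  refine ⟨isLik_baseL, symLik_baseL, ?_⟩
  rw [pot_baseL]
  exact mul_nonneg (by positivity) (Finset.sum_nonneg fun a _ => hv a)

/-- Every level is a good family, for parameters with the radial property. -/
lemma good_regL (hq : q ≠ 0) (hv : ∀ a, 0 ≤ C.Xi (baseL q a)) (b : ℕ) {lam : ℝ}
    (hc : ChanOK q lam) {c : ℝ} (hc0 : 0 ≤ c)
    (hrad : ∀ p ∈ Sx q, c * C.Xi p ≤ C.Xi (T q lam p)) (ℓ : ℕ) :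
    Good C (regL q b lam ℓ) := by
  induction ℓ with
  | zero =>
    have h := good_baseL C hq hv
    refine ⟨IsLik.congr_equiv (regEquiv0 q b) (regL_zero b lam) h.lik,
      SymLik.congr_equiv (regEquiv0 q b) (regL_zero b lam) h.sym, ?_⟩
    rw [pot_congr_equiv (regEquiv0 q b) (regL_zero b lam)]
    exact h.cone
  | succ ℓ ih =>
    have h := good_starPow C hq (good_contract C hq hc hc0 hrad ih) b
    refine ⟨IsLik.congr_equiv (regEquivS q b ℓ) (regL_succ b ℓ lam) h.lik,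
      SymLik.congr_equiv (regEquivS q b ℓ) (regL_succ b ℓ lam) h.sym, ?_⟩
    rw [pot_congr_equiv (regEquivS q b ℓ) (regL_succ b ℓ lam)]
    exact h.cone

/-- The recursion for `m ℓ = E A` on the regular tree. -/
lemma pot_A_regL_succ_le (hq : q ≠ 0) {b : ℕ} (hb : 2 ≤ b) {lam : ℝ} (hbl : (b : ℝ) * lam ^ 2 ≤ 1)
    (ℓ : ℕ) (hg : Good C (contract lam (regL q b lam ℓ))) (hL : IsLik (regL q b lam ℓ)) :
    Pot (A q) (regL q b lam (ℓ + 1)) ≤ Pot (A q) (regL q b lam ℓ) -
      2 * C.mu * lam ^ 6 * (Pot (A q) (regL q b lam ℓ)) ^ 3 := by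
  rw [pot_congr_equiv (regEquivS q b ℓ) (regL_succ b ℓ lam)]
  have h := pot_A_starPow_le C hq hg b
  rw [if_pos hb, pot_A_contract hq lam hL] at h
  have hm := pot_A_nonneg hL
  set m := Pot (A q) (regL q b lam ℓ)
  have h2 : (b : ℝ) * (lam ^ 2 * m) ≤ m := by
    have := mul_le_mul_of_nonneg_right hbl hm
    linarith
  calc _ ≤ (b : ℝ) * (lam ^ 2 * m) - 2 * C.mu * (lam ^ 2 * m) ^ 3 := h
    _ ≤ m - 2 * C.mu * lam ^ 6 * m ^ 3 := by
        have : 2 * C.mu * (lam ^ 2 * m) ^ 3 = 2 * C.mu * lam ^ 6 * m ^ 3 := by ring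
        linarith

/-- MAIN THEOREM for the regular tree, `0 ≤ lam`. -/
theorem tendsto_advantage_of_cone (hq : q ≠ 0) (hmu : 0 < C.mu) (hv : ∀ a, 0 ≤ C.Xi (baseL q a))
    {b : ℕ} (hb : 2 ≤ b) {lam : ℝ} (h0 : 0 ≤ lam) (h1 : lam ≤ 1) (hbl : (b : ℝ) * lam ^ 2 ≤ 1)
    (hrad : ∀ p ∈ Sx q, lam ^ 3 * C.Xi p ≤ C.Xi (T q lam p)) :
    Tendsto (advantage q b lam) atTop (nhds 0) := by
  have hc : ChanOK q lam := chanOK_of_nonneg h0 h1
  have hc0 : 0 ≤ lam ^ 3 := pow_nonneg h0 3
  have hgood := good_regL C hq hv b hc hc0 hrad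
  have hlik : ∀ ℓ, IsLik (regL q b lam ℓ) := fun ℓ => (hgood ℓ).lik
  have hA : Tendsto (fun ℓ => Pot (A q) (regL q b lam ℓ)) atTop (nhds 0) := by
    rcases h0.eq_or_lt with hl | hl
    · -- `lam = 0`: after one step the family has no information
      subst hl
      have hz : ∀ ℓ, Pot (A q) (regL q b 0 (ℓ + 1)) ≤ 0 := by
        intro ℓ
        have h2 := pot_A_regL_succ_le C hq hb hbl ℓ
          (good_contract C hq hc hc0 hrad (hgood ℓ)) (hlik ℓ)
        have h3 : 0 ≤ Pot (A q) (regL q b 0 ℓ) := pot_A_nonneg (hlik ℓ)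
        have h4 := pot_A_starPow_le C hq (good_contract C hq hc hc0 hrad (hgood ℓ)) b
        rw [pot_A_contract hq 0 (hlik ℓ)] at h4
        rw [pot_congr_equiv (regEquivS q b ℓ) (regL_succ b ℓ 0)]
        rw [if_pos hb] at h4
        simpa using h4
      have hz' : ∀ ℓ, Pot (A q) (regL q b 0 (ℓ + 1)) = 0 := fun ℓ =>
        le_antisymm (hz ℓ) (pot_A_nonneg (hlik _))
      rw [← tendsto_add_atTop_iff_nat 1]
      simp only [hz']
      exact tendsto_const_nhds
    · refine tendsto_zero_of_cubic_recursion (c := 2 * C.mu * lam ^ 6) (by positivity)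
        (fun ℓ => pot_A_nonneg (hlik ℓ)) fun ℓ => ?_
      exact pot_A_regL_succ_le C hq hb hbl ℓ (good_contract C hq hc hc0 hrad (hgood ℓ)) (hlik ℓ)
  have := tendsto_pot_tv_of_tendsto_A (α := fun ℓ => (Fin ℓ → Fin b) → Fin q)
    (L := fun ℓ => regL q b lam ℓ) hq hlik hA
  refine this.congr fun ℓ => ?_
  exact (advantage_eq hq b lam ℓ (hlik ℓ)).symm

end Crest.Agent.PottsTree
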