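import Crest.Agent.Lib.PottsTree.PoisDouble

/-!
# A star power of an invariant table-supported law, in one go

For an invariant law `μ` on a table `g` stable under relabelling, with law `ν = nuOf a g μ` given the
root, the `m`-th star power is bounded by the image of `ν ^ m` under the product of points, with no
symmetrisation or rounding between the factors (`pot_starPow_le_prod`).  On an additive chart
`sp (G x) (G y) = G (x + y)` this is a plain convolution power (`defect_starPow_ge`).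

All statements are also given in *defect form*, `F - Pot f L ≥ ∑ W x * (F - f (G x))` with
`F = f (vertex)`: each term on the right is nonnegative, so that the weights may be replaced by lower
bounds at any stage of the computation.
-/

namespace Crest.Agent.PottsTree

open Finset
open ConeData
open Cmp

variable {q : ℕ} {ι Ω : Type*}

/-- the mass of the pointwise product of a tuple of points of the table -/
noncomputable def prodMass {m : ℕ} (g : ι → Fin q → ℝ) (t : Fin m → ι) : ℝ :=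
  ∑ b, ∏ j, g (t j) b

/-- the normalised pointwise product of a tuple of points of the table -/
noncomputable def prodPt {m : ℕ} (g : ι → Fin q → ℝ) (t : Fin m → ι) : Fin q → ℝ :=
  fun i => if prodMass g t = 0 then 1 / (q : ℝ) else (∏ j, g (t j) i) / prodMass g t

/-- the invariant law on tuples whose law given the root `a` is the product of the `nuOf a g μ` -/
noncomputable def motherW {m : ℕ} (g : ι → Fin q → ℝ) (μ : ι → ℝ) (t : Fin m → ι) : ℝ :=
  (q : ℝ)⁻¹ * ∑ b, ∏ j, nuOf b g μ (t j)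

section Basic

variable {g : ι → Fin q → ℝ} {μ : ι → ℝ}

lemma prod_nonneg_coord (hg : ∀ k, g k ∈ Sx q) {m : ℕ} (t : Fin m → ι) (b : Fin q) :
    0 ≤ ∏ j, g (t j) b :=
  Finset.prod_nonneg fun j _ => (hg (t j)).1 b

lemma prodMass_nonneg (hg : ∀ k, g k ∈ Sx q) {m : ℕ} (t : Fin m → ι) : 0 ≤ prodMass g t :=
  Finset.sum_nonneg fun b _ => prod_nonneg_coord hg t b

lemma prod_eq_zero_of_mass (hg : ∀ k, g k ∈ Sx q) {m : ℕ} {t : Fin m → ι}
    (h : prodMass g t = 0) (b : Fin q) : ∏ j, g (t j) b = 0 :=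
  (Finset.sum_eq_zero_iff_of_nonneg fun b _ => prod_nonneg_coord hg t b).1 h b (Finset.mem_univ _)

lemma prodPt_mem (hq : q ≠ 0) (hg : ∀ k, g k ∈ Sx q) {m : ℕ} (t : Fin m → ι) :
    prodPt g t ∈ Sx q := by
  have hq' : (q : ℝ) ≠ 0 := by exact_mod_cast hq
  by_cases h : prodMass g t = 0
  · refine ⟨fun i => ?_, ?_⟩
    · simp only [prodPt, h, if_true]
      positivity
    · simp only [prodPt, h, if_true, Finset.sum_const, Finset.card_univ, Fintype.card_fin,
        nsmul_eq_mul]
      field_simp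
  · have hpos : 0 < prodMass g t := lt_of_le_of_ne (prodMass_nonneg hg t) (Ne.symm h)
    refine ⟨fun i => ?_, ?_⟩
    · simp only [prodPt, h, if_false]
      exact div_nonneg (prod_nonneg_coord hg t i) hpos.le
    · simp only [prodPt, h, if_false]
      rw [← Finset.sum_div]
      exact div_self h

lemma prodMass_act (S : TableSym g) (π : Equiv.Perm (Fin q)) {m : ℕ} (t : Fin m → ι) :
    prodMass g (fun j => S.act π (t j)) = prodMass g t := by
  simp only [prodMass, S.g_act, rel]
  exact Equiv.sum_comp π (fun b => ∏ j, g (t j) b)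

lemma prodPt_act (S : TableSym g) (π : Equiv.Perm (Fin q)) {m : ℕ} (t : Fin m → ι) :
    prodPt g (fun j => S.act π (t j)) = rel π (prodPt g t) := by
  funext i
  simp only [prodPt, prodMass_act, rel, S.g_act]

/-- The tuples of a table with the diagonal action are a table. -/
def TableSym.tuple (S : TableSym g) (m : ℕ) : TableSym (prodPt g (m := m)) where
  act π := Equiv.piCongrRight fun _ => S.act π
  g_act π t := prodPt_act S π t
  act_mul π σ t := by
    funext j
    exact S.act_mul π σ (t j)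

lemma nuOf_act (S : TableSym g) (hI : S.Inv μ) (π : Equiv.Perm (Fin q)) (b : Fin q) (k : ι) :
    nuOf b g μ (S.act π k) = nuOf (π b) g μ k := by
  simp only [nuOf, S.g_act, hI π k, rel]

lemma motherW_inv (S : TableSym g) (hI : S.Inv μ) (m : ℕ) :
    (S.tuple m).Inv (motherW g μ) := by
  intro π t
  show motherW g μ (fun j => S.act π (t j)) = motherW g μ t
  simp only [motherW, nuOf_act S hI]
  congr 1
  exact Equiv.sum_comp π (fun b => ∏ j, nuOf b g μ (t j))

lemma motherW_nonneg (hg : ∀ k, g k ∈ Sx q) (hμ : ∀ k, 0 ≤ μ k) {m : ℕ} (t : Fin m → ι) :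
    0 ≤ motherW g μ t :=
  mul_nonneg (by positivity) (Finset.sum_nonneg fun b _ =>
    Finset.prod_nonneg fun j _ => nuOf_nonneg b hg hμ (t j))

lemma prod_nuOf (a : Fin q) {m : ℕ} (t : Fin m → ι) :
    ∏ j, nuOf a g μ (t j) = (∏ j, ((q : ℝ) * μ (t j))) * ∏ j, g (t j) a := by
  rw [← Finset.prod_mul_distrib]
  exact Finset.prod_congr rfl fun j _ => by simp only [nuOf]; ring

/-- The law of the tuple table given the root is the product law. -/
lemma nuOf_prodPt (hq : q ≠ 0) (hg : ∀ k, g k ∈ Sx q) (a : Fin q) {m : ℕ} (t : Fin m → ι) :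
    nuOf a (prodPt g) (motherW g μ) t = ∏ j, nuOf a g μ (t j) := by
  have hq' : (q : ℝ) ≠ 0 := by exact_mod_cast hq
  have e : motherW g μ t = (q : ℝ)⁻¹ * ((∏ j, ((q : ℝ) * μ (t j))) * prodMass g t) := by
    simp only [motherW, prodMass, prod_nuOf, Finset.mul_sum]
  by_cases h : prodMass g t = 0
  · rw [prod_nuOf, prod_eq_zero_of_mass hg h a]
    simp [nuOf, e, h]
  · rw [prod_nuOf]
    simp only [nuOf, e, prodPt, h, if_false]
    field_simp

/-- The product point of a longer tuple. -/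
lemma sp_prodPt_cons (hg : ∀ k, g k ∈ Sx q) {m : ℕ} (k : ι) (t : Fin m → ι) {a : Fin q}
    (hk : g k a ≠ 0) (ht : ∏ j, g (t j) a ≠ 0) :
    sp (g k) (prodPt g t) = prodPt g (Fin.cons k t : Fin (m + 1) → ι) := by
  have hm : prodMass g t ≠ 0 := fun h => ht (prod_eq_zero_of_mass hg h a)
  have hc : ∀ b, ∏ j, g ((Fin.cons k t : Fin (m + 1) → ι) j) b = g k b * ∏ j, g (t j) b := by
    intro b
    simp [Fin.prod_univ_succ]
  have hmc : prodMass g (Fin.cons k t : Fin (m + 1) → ι) = ∑ b, g k b * ∏ j, g (t j) b := by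
    simp only [prodMass, hc]
  have hmc0 : prodMass g (Fin.cons k t : Fin (m + 1) → ι) ≠ 0 := by
    intro h
    have := prod_eq_zero_of_mass hg h a
    rw [hc] at this
    exact mul_ne_zero hk ht this
  funext i
  have hs : ∑ j, g k j * prodPt g t j =
      prodMass g (Fin.cons k t : Fin (m + 1) → ι) / prodMass g t := by
    rw [hmc, Finset.sum_div]
    refine Finset.sum_congr rfl fun j _ => ?_
    simp only [prodPt, hm, if_false]
    ring
  simp only [sp, hs]
  simp only [prodPt, hm, hmc0, if_false, hc]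
  field_simp

end Basic

/-! ### The theorem -/

section Main

variable [Fintype ι] {g : ι → Fin q → ℝ} {μ : ι → ℝ} {L : Ω → Fin q → ℝ}

/-- **Star powers of an invariant law: the invariant law on tuples.** -/
theorem bnd_starPow_mother (hq : q ≠ 0) (S : TableSym g) (hI : S.Inv μ) (h : Bnd g L μ)
    (hL : IsLik L) (hSym : SymLik L) (hg : ∀ k, g k ∈ Sx q) (hμ : ∀ k, 0 ≤ μ k) (m : ℕ) :
    Bnd (prodPt g (m := m)) (starPow L m) (motherW g μ) := by
  have hq' : (q : ℝ) ≠ 0 := by exact_mod_cast hq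
  induction m with
  | zero =>
    intro f _
    rw [pot_starPow_zero L hq]
    have hu : ∀ t : Fin 0 → ι, prodMass g t = q := by
      intro t
      simp [prodMass]
    have hv : ∀ t : Fin 0 → ι, prodPt g t = fun _ => 1 / (q : ℝ) := by
      intro t
      funext i
      simp [prodPt, hu, hq']
    have hw : ∀ t : Fin 0 → ι, motherW g μ t = 1 := by
      intro t
      simp [motherW, hq']
    simp [hv, hw]
  | succ m ih =>
    intro f hf
    have ha : NeZero q := ⟨hq⟩
    let a : Fin q := ⟨0, Nat.pos_of_ne_zero hq⟩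
    rw [pot_congr_starPow_succ]
    refine (pot_star_le_conv hq S (S.tuple m) hI (motherW_inv S hI m) h ih
      (motherW_nonneg hg hμ) hL (isLik_starPow hL m) (symLik_starPow hq hL hSym m) hg
      (prodPt_mem hq hg) a hf).trans (le_of_eq ?_)
    rw [← sum_nuOf_mul (S.tuple (m + 1)) (motherW_inv S hI (m + 1)) hf.2.2 (prodPt_mem hq hg) a]
    rw [← Fintype.sum_prod_type', ← (Fin.consEquiv (fun _ => ι)).sum_comp]
    refine Fintype.sum_congr _ _ fun w => ?_
    obtain ⟨k, t⟩ := w
    have hc : (Fin.consEquiv (fun _ => ι)) (k, t) = (Fin.cons k t : Fin (m + 1) → ι) := rfl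
    rw [hc, nuOf_prodPt hq hg, nuOf_prodPt hq hg]
    have hP : ∏ j, nuOf a g μ ((Fin.cons k t : Fin (m + 1) → ι) j) =
        nuOf a g μ k * ∏ j, nuOf a g μ (t j) := by
      simp [Fin.prod_univ_succ]
    rw [hP]
    by_cases h0 : nuOf a g μ k * ∏ j, nuOf a g μ (t j) = 0
    · simp [h0]
    · have h1 : g k a ≠ 0 := by
        intro h2
        apply h0
        simp [nuOf, h2]
      have h2 : ∏ j, g (t j) a ≠ 0 := by
        intro h3
        apply h0
        rw [prod_nuOf a t, h3]
        simp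
      rw [sp_prodPt_cons hg k t h1 h2]

/-- **Star powers of an invariant law in terms of the law given the root.** -/
theorem pot_starPow_le_prod (hq : q ≠ 0) (S : TableSym g) (hI : S.Inv μ) (h : Bnd g L μ)
    (hL : IsLik L) (hSym : SymLik L) (hg : ∀ k, g k ∈ Sx q) (hμ : ∀ k, 0 ≤ μ k) (a : Fin q) (m : ℕ)
    {f : (Fin q → ℝ) → ℝ} (hf : Adm f) :
    Pot f (starPow L m) ≤ ∑ t : Fin m → ι, (∏ j, nuOf a g μ (t j)) * f (prodPt g t) := by
  refine (bnd_starPow_mother hq S hI h hL hSym hg hμ m f hf).trans (le_of_eq ?_)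
  rw [← sum_nuOf_mul (S.tuple m) (motherW_inv S hI m) hf.2.2 (prodPt_mem hq hg) a]
  simp only [nuOf_prodPt hq hg]

/-- The total mass of the product law. -/
lemma sum_prod_nuOf (a : Fin q) {m : ℕ} :
    ∑ t : Fin m → ι, ∏ j, nuOf a g μ (t j) = (∑ k, nuOf a g μ k) ^ m := by
  classical
  have := Finset.prod_univ_sum (fun _ : Fin m => (Finset.univ : Finset ι))
    (fun _ k => nuOf a g μ k)
  simp only [Finset.prod_const, Finset.card_univ, Fintype.card_fin] at this
  rw [this, Fintype.piFinset_univ]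

/-- **Defect form**: each term of the bound has a nonnegative contribution; lower bounds `w ≤ ν`
are allowed. -/
theorem defect_starPow_ge [DecidableEq ι] (hq : q ≠ 0) (S : TableSym g) (hI : S.Inv μ)
    (h : Bnd g L μ) (hL : IsLik L) (hSym : SymLik L) (hg : ∀ k, g k ∈ Sx q) (hμ : ∀ k, 0 ≤ μ k)
    (hμ1 : ∑ k, μ k = 1) (a : Fin q) (m : ℕ) {w : ι → ℝ} (hw0 : ∀ k, 0 ≤ w k)
    (hw : ∀ k, w k ≤ nuOf a g μ k) {f : (Fin q → ℝ) → ℝ} (hf : Adm f) (b : Fin q) :
    ∑ t : Fin m → ι, (∏ j, w (t j)) * (f (baseL q b) - f (prodPt g t)) ≤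
      f (baseL q b) - Pot f (starPow L m) := by
  have h1 := pot_starPow_le_prod hq S hI h hL hSym hg hμ a m hf
  have hsum : ∑ k, nuOf a g μ k = 1 := by
    rw [sum_nuOf_eq S hI hg a, hμ1]
  have hmass : ∑ t : Fin m → ι, ∏ j, nuOf a g μ (t j) = 1 := by
    rw [sum_prod_nuOf, hsum, one_pow]
  set F := f (baseL q b) with hF
  have h2 : F - ∑ t : Fin m → ι, (∏ j, nuOf a g μ (t j)) * f (prodPt g t) =
      ∑ t : Fin m → ι, (∏ j, nuOf a g μ (t j)) * (F - f (prodPt g t)) := by
    simp only [mul_sub, Finset.sum_sub_distrib]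
    rw [← Finset.sum_mul, hmass, one_mul]
  have h3 : ∑ t : Fin m → ι, (∏ j, w (t j)) * (F - f (prodPt g t)) ≤
      ∑ t : Fin m → ι, (∏ j, nuOf a g μ (t j)) * (F - f (prodPt g t)) := by
    refine Finset.sum_le_sum fun t _ => ?_
    refine mul_le_mul_of_nonneg_right ?_ ?_
    · exact Finset.prod_le_prod (fun j _ => hw0 (t j)) fun j _ => hw (t j)
    · exact sub_nonneg.2 (le_vertex hf (prodPt_mem hq hg t) b)
  linarith

end Main

/-! ### The defect form of the bounds -/

section Defect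

variable {ι' : Type*} [Fintype ι] [Fintype ι'] {g : ι → Fin q → ℝ} {g' : ι' → Fin q → ℝ}
  {L : Ω → Fin q → ℝ} {W W' : ι → ℝ}

/-- The **defect form** of an upper bound by a law on a table: the mass not on the table sits on a
vertex.  Each term on the left is a product of two nonnegative numbers when `0 ≤ W`, so that `W` can
be lowered at will. -/
def DefBnd (g : ι → Fin q → ℝ) (L : Ω → Fin q → ℝ) (W : ι → ℝ) : Prop :=
  ∀ f : (Fin q → ℝ) → ℝ, Adm f → ∀ b : Fin q,
    ∑ r, W r * (f (baseL q b) - f (g r)) ≤ f (baseL q b) - Pot f L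

lemma DefBnd.mono (h : DefBnd g L W) (hg : ∀ r, g r ∈ Sx q) (hle : ∀ r, W' r ≤ W r) :
    DefBnd g L W' := fun f hf b =>
  (Finset.sum_le_sum fun r _ => mul_le_mul_of_nonneg_right (hle r)
    (sub_nonneg.2 (le_vertex hf (hg r) b))).trans (h f hf b)

/-- no information at all -/
lemma defBnd_zero (hq : q ≠ 0) (hL : IsLik L) : DefBnd g L (fun _ => 0) := fun f hf b => by
  simpa using pot_le_vertex hq hL hf b

lemma DefBnd.pot_le (h : DefBnd g L W) {f : (Fin q → ℝ) → ℝ} (hf : Adm f) (b : Fin q) :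
    Pot f L ≤ f (baseL q b) - ∑ r, W r * (f (baseL q b) - f (g r)) := by
  linarith [h f hf b]

/-- From a bound of total mass one to the defect form. -/
lemma Bnd.defBnd (h : Bnd g L W) (h1 : ∑ r, W r = 1) : DefBnd g L W := fun f hf b => by
  have := h f hf
  have e : ∑ r, W r * (f (baseL q b) - f (g r)) = f (baseL q b) - ∑ r, W r * f (g r) := by
    simp only [mul_sub, Finset.sum_sub_distrib]
    rw [← Finset.sum_mul, h1, one_mul]
  rw [e]
  linarith

/-- From the defect form to a bound of total mass one, with a vertex in the table. -/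
lemma DefBnd.bnd [DecidableEq ι] (h : DefBnd g L W) {r0 : ι} {b : Fin q} (hr0 : g r0 = baseL q b) :
    Bnd g L (fun r => W r + if r = r0 then 1 - ∑ s, W s else 0) := fun f hf => by
  have := h f hf b
  have e : ∑ r, W r * (f (baseL q b) - f (g r)) =
      (∑ s, W s) * f (baseL q b) - ∑ r, W r * f (g r) := by
    simp only [mul_sub, Finset.sum_sub_distrib, Finset.sum_mul]
  have e2 : ∑ r, (W r + if r = r0 then 1 - ∑ s, W s else 0) * f (g r) =
      ∑ r, W r * f (g r) + (1 - ∑ s, W s) * f (baseL q b) := by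
    simp only [add_mul, Finset.sum_add_distrib, ite_mul, zero_mul, Finset.sum_ite_eq',
      Finset.mem_univ, if_true, hr0]
  rw [e2]
  linarith

/-- A change of table by a rule in defect form. -/
lemma DefBnd.map (h : DefBnd g L W) (hW : ∀ r, 0 ≤ W r) {R : ι → ι' → ℝ}
    (hR : ∀ r, ∀ f : (Fin q → ℝ) → ℝ, Adm f → ∀ b : Fin q,
      ∑ s, R r s * (f (baseL q b) - f (g' s)) ≤ f (baseL q b) - f (g r)) :
    DefBnd g' L (fun s => ∑ r, W r * R r s) := fun f hf b => by
  refine le_trans (le_of_eq ?_) ((Finset.sum_le_sum fun r _ =>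
    mul_le_mul_of_nonneg_left (hR r f hf b) (hW r)).trans (h f hf b))
  simp only [Finset.sum_mul, Finset.mul_sum]
  rw [Finset.sum_comm]
  exact Finset.sum_congr rfl fun r _ => Finset.sum_congr rfl fun s _ => by ring

/-- A rule from a splitting of the point into points of the simplex. -/
lemma rule_of_split {J : Type*} (t : Finset J) {f : (Fin q → ℝ) → ℝ} (hf : Adm f)
    {V : J → ℝ} {a : J → Fin q → ℝ} {x : Fin q → ℝ} (hV : ∀ j ∈ t, 0 ≤ V j)
    (ha : ∀ j ∈ t, a j ∈ Sx q) (hx : x ∈ Sx q) (hsum : ∀ l, x l = ∑ j ∈ t, V j * a j l)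
    (b : Fin q) :
    ∑ j ∈ t, V j * (f (baseL q b) - f (a j)) ≤ f (baseL q b) - f x := by
  have h1 := le_of_split t hf.2.1 hV ha hx hsum
  have hmass : ∑ j ∈ t, V j = 1 := by
    have h1 : ∑ l, x l = 1 := hx.2
    simp only [hsum] at h1
    rw [Finset.sum_comm] at h1
    rw [← h1]
    refine Finset.sum_congr rfl fun j hj => ?_
    rw [← Finset.mul_sum, (ha j hj).2, mul_one]
  simp only [mul_sub, Finset.sum_sub_distrib]
  rw [← Finset.sum_mul, hmass, one_mul]
  linarith

/-- **Contraction in defect form.**  The mass not on the table is at a vertex, whose image under the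
contraction has the rule `Cv`. -/
lemma DefBnd.contract (hq : q ≠ 0) {lam : ℝ} (hc : ChanOK q lam) (h : DefBnd g L W)
    (hW : ∀ r, 0 ≤ W r) (hW1 : ∑ r, W r ≤ 1) (hg : ∀ r, g r ∈ Sx q) {C : ι → ι' → ℝ} {Cv : ι' → ℝ}
    (hC : ∀ r, ∀ f : (Fin q → ℝ) → ℝ, Adm f → ∀ b : Fin q,
      ∑ s, C r s * (f (baseL q b) - f (g' s)) ≤ f (baseL q b) - f (T q lam (g r)))
    (hCv : ∀ f : (Fin q → ℝ) → ℝ, Adm f → ∀ b : Fin q,
      ∑ s, Cv s * (f (baseL q b) - f (g' s)) ≤ f (baseL q b) - f (T q lam (baseL q b))) :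
    DefBnd g' (contract lam L) (fun s => ∑ r, W r * C r s + (1 - ∑ r, W r) * Cv s) := by
  intro f hf b
  set F := f (baseL q b) with hF
  have h1 : ∑ r, W r * (f (T q lam (baseL q b)) - f (T q lam (g r))) ≤
      f (T q lam (baseL q b)) - Pot (fun p => f (T q lam p)) L := h _ (adm_comp_T hq hc hf) b
  rw [pot_contract hq]
  set F' := f (T q lam (baseL q b)) with hF'
  have hmass : 0 ≤ 1 - ∑ r, W r := by linarith
  have e1 : ∑ s, (∑ r, W r * C r s + (1 - ∑ r, W r) * Cv s) * (F - f (g' s)) =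
      ∑ r, W r * ∑ s, C r s * (F - f (g' s)) + (1 - ∑ r, W r) * ∑ s, Cv s * (F - f (g' s)) := by
    simp only [add_mul, Finset.sum_add_distrib, Finset.sum_mul, Finset.mul_sum]
    congr 1
    · rw [Finset.sum_comm]
      exact Finset.sum_congr rfl fun r _ => Finset.sum_congr rfl fun s _ => by ring
    · exact Finset.sum_congr rfl fun s _ => by ring
  rw [e1]
  have h2 : ∑ r, W r * ∑ s, C r s * (F - f (g' s)) ≤ ∑ r, W r * (F - f (T q lam (g r))) :=
    Finset.sum_le_sum fun r _ => mul_le_mul_of_nonneg_left (hC r f hf b) (hW r)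
  have h3 : (1 - ∑ r, W r) * ∑ s, Cv s * (F - f (g' s)) ≤ (1 - ∑ r, W r) * (F - F') :=
    mul_le_mul_of_nonneg_left (hCv f hf b) hmass
  have e2 : ∑ r, W r * (F - f (T q lam (g r))) =
      ∑ r, W r * (F' - f (T q lam (g r))) + (∑ r, W r) * (F - F') := by
    rw [Finset.sum_mul, ← Finset.sum_add_distrib]
    exact Finset.sum_congr rfl fun r _ => by ring
  nlinarith [h1, h2, h3, e2]

end Defect

/-! ### Powers of a finite measure on a commutative monoid -/

section PowF

variable {M : Type*} [AddCommMonoid M]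

/-- the integral of `h` against the `m`-th convolution power of the measure `V` on the finite set `X` -/
noncomputable def PowF (X : Finset M) (V : M → ℝ) : ℕ → (M → ℝ) → ℝ
  | 0, h => h 0
  | m + 1, h => ∑ x ∈ X, V x * PowF X V m (fun y => h (x + y))

lemma powF_nonneg {X : Finset M} {V : M → ℝ} (hV : ∀ x, 0 ≤ V x) (m : ℕ) {h : M → ℝ}
    (hh : ∀ x, 0 ≤ h x) : 0 ≤ PowF X V m h := by
  induction m generalizing h with
  | zero => exact hh 0
  | succ m ih =>
    exact Finset.sum_nonneg fun x _ => mul_nonneg (hV x) (ih fun y => hh _)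

/-- additivity of the power, for doubling and addition chains -/
lemma powF_add (X : Finset M) (V : M → ℝ) (m n : ℕ) (h : M → ℝ) :
    PowF X V (m + n) h = PowF X V m (fun x => PowF X V n (fun y => h (x + y))) := by
  induction m generalizing h with
  | zero =>
    simp [PowF]
  | succ m ih =>
    rw [Nat.succ_add]
    simp only [PowF]
    refine Finset.sum_congr rfl fun x _ => ?_
    rw [ih]
    simp only [add_assoc]

lemma powF_one (X : Finset M) (V : M → ℝ) (h : M → ℝ) :
    PowF X V 1 h = ∑ x ∈ X, V x * h x := by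
  simp [PowF]

/-- The measure can be lowered. -/
lemma powF_mono {X : Finset M} {V V' : M → ℝ} (hV' : ∀ x, 0 ≤ V' x) (hle : ∀ x, V' x ≤ V x) (m : ℕ)
    {h : M → ℝ} (hh : ∀ x, 0 ≤ h x) : PowF X V' m h ≤ PowF X V m h := by
  induction m generalizing h with
  | zero => exact le_rfl
  | succ m ih =>
    refine Finset.sum_le_sum fun x _ => ?_
    exact mul_le_mul (hle x) (ih fun y => hh _) (powF_nonneg hV' m fun y => hh _)
      ((hV' x).trans (hle x))

/-- A push-forward of a law on tuples bounds the powers of the image measure. -/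
lemma powF_le_tuple {κ : Type*} [Fintype κ] [DecidableEq M] {w : κ → ℝ} {c : κ → M}
    (hw : ∀ k, 0 ≤ w k) {X : Finset M} {V : M → ℝ} (hV0 : ∀ x, 0 ≤ V x)
    (hV : ∀ x ∈ X, V x ≤ ∑ k, if c k = x then w k else 0) (m : ℕ) {h : M → ℝ} (hh : ∀ x, 0 ≤ h x) :
    PowF X V m h ≤ ∑ t : Fin m → κ, (∏ j, w (t j)) * h (∑ j, c (t j)) := by
  induction m generalizing h with
  | zero => simp [PowF]
  | succ m ih =>
    set A : M → ℝ := fun x => ∑ t : Fin m → κ, (∏ j, w (t j)) * h (x + ∑ j, c (t j)) with hA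
    have hA0 : ∀ x, 0 ≤ A x := fun x =>
      Finset.sum_nonneg fun t _ => mul_nonneg (Finset.prod_nonneg fun j _ => hw _) (hh _)
    have h1 : ∑ x ∈ X, V x * PowF X V m (fun y => h (x + y)) ≤ ∑ x ∈ X, V x * A x :=
      Finset.sum_le_sum fun x _ => mul_le_mul_of_nonneg_left (ih fun y => hh _) (hV0 x)
    have h2 : ∑ x ∈ X, V x * A x ≤ ∑ x ∈ X, (∑ k, if c k = x then w k else 0) * A x :=
      Finset.sum_le_sum fun x hx => mul_le_mul_of_nonneg_right (hV x hx) (hA0 x)
    have h3 : ∑ x ∈ X, (∑ k, if c k = x then w k else 0) * A x ≤ ∑ k, w k * A (c k) := by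
      simp only [Finset.sum_mul]
      rw [Finset.sum_comm]
      refine Finset.sum_le_sum fun k _ => ?_
      simp only [ite_mul, zero_mul]
      by_cases hk : c k ∈ X
      · rw [Finset.sum_ite_eq X (c k)]
        simp [hk]
      · rw [Finset.sum_ite_eq X (c k)]
        simp only [hk, if_false]
        exact mul_nonneg (hw k) (hA0 _)
    refine h1.trans (h2.trans (h3.trans (le_of_eq ?_)))
    rw [← (Fin.consEquiv (fun _ => κ)).sum_comp, Fintype.sum_prod_type]
    refine Finset.sum_congr rfl fun k _ => ?_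
    simp only [hA, Finset.mul_sum]
    refine Finset.sum_congr rfl fun t _ => ?_
    have hc : (Fin.consEquiv (fun _ => κ)) (k, t) = (Fin.cons k t : Fin (m + 1) → κ) := rfl
    rw [hc, Fin.prod_univ_succ, Fin.sum_univ_succ]
    simp only [Fin.cons_zero, Fin.cons_succ]
    ring

end PowF

/-! ### Star powers on an additive chart -/

section Chart

variable {M : Type*} [AddCommMonoid M] [DecidableEq M] {κ : Type*} [Fintype κ]

/-- An additive chart of (part of) the simplex: the product of points is addition. -/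
structure AddChart (G : M → Fin q → ℝ) : Prop where
  mem : ∀ x, G x ∈ Sx q
  zero : G 0 = fun _ => 1 / (q : ℝ)
  add : ∀ x y, sp (G x) (G y) = G (x + y)

lemma prodPt_eq_chart {g : κ → Fin q → ℝ} {G : M → Fin q → ℝ} (hq : q ≠ 0) (hG : AddChart G)
    (hg : ∀ k, g k ∈ Sx q) {c : κ → M} {a : Fin q} {P : κ → Prop}
    (hc : ∀ k, P k → g k a ≠ 0 ∧ g k = G (c k)) {m : ℕ}
    {t : Fin m → κ} (ht : ∀ j, P (t j)) :
    prodPt g t = G (∑ j, c (t j)) := by
  have hq' : (q : ℝ) ≠ 0 := by exact_mod_cast hq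
  induction m with
  | zero =>
    have hu : prodMass g t = q := by simp [prodMass]
    funext i
    simp [prodPt, hu, hq', hG.zero]
  | succ m ih =>
    have e : t = Fin.cons (t 0) (Fin.tail t) := (Fin.cons_self_tail t).symm
    have h1 : ∏ j, g (Fin.tail t j) a ≠ 0 :=
      Finset.prod_ne_zero_iff.2 fun j _ => (hc _ (ht _)).1
    have h2 := ih (t := Fin.tail t) fun j => ht _
    rw [e, ← sp_prodPt_cons hg (t 0) (Fin.tail t) (hc _ (ht 0)).1 h1, h2, (hc _ (ht 0)).2, hG.add,
      Fin.sum_univ_succ]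
    simp

/-- The free table on a table of orbit representatives. -/
def freeG {ρ : Type*} (g₀ : ρ → Fin q → ℝ) : ρ × Equiv.Perm (Fin q) → Fin q → ℝ :=
  fun k => rel k.2 (g₀ k.1)

/-- The free table is stable under relabelling. -/
def freeSym {ρ : Type*} (g₀ : ρ → Fin q → ℝ) : TableSym (freeG g₀) where
  act π := Equiv.prodCongr (Equiv.refl _) (Equiv.mulRight π)
  g_act π k := rfl
  act_mul π σ k := by
    obtain ⟨r, τ⟩ := k
    simp [mul_assoc]

lemma freeG_mem {ρ : Type*} {g₀ : ρ → Fin q → ℝ} (hg : ∀ r, g₀ r ∈ Sx q)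
    (k : ρ × Equiv.Perm (Fin q)) : freeG g₀ k ∈ Sx q :=
  rel_mem _ (hg _)

/-- the weight of a point of the free table in the law given the root `a` -/
noncomputable def freeNu {ρ : Type*} (a : Fin q) (g₀ : ρ → Fin q → ℝ) (W : ρ → ℝ)
    (k : ρ × Equiv.Perm (Fin q)) : ℝ :=
  (q : ℝ) / (Fintype.card (Equiv.Perm (Fin q)) : ℝ) * g₀ k.1 (k.2 a) * W k.1

lemma freeNu_eq {ρ : Type*} (a : Fin q) (g₀ : ρ → Fin q → ℝ) (W : ρ → ℝ)
    (k : ρ × Equiv.Perm (Fin q)) :
    nuOf a (freeG g₀) (fun k => W k.1 / (Fintype.card (Equiv.Perm (Fin q)) : ℝ)) k =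
      freeNu a g₀ W k := by
  simp only [nuOf, freeNu, freeG, rel]
  ring

/-- A bound on orbit representatives gives an invariant bound on the free table. -/
lemma bnd_free {ρ : Type*} [Fintype ρ] {g₀ : ρ → Fin q → ℝ} {L : Ω → Fin q → ℝ} {W : ρ → ℝ}
    (h : Bnd g₀ L W) (hg : ∀ r, g₀ r ∈ Sx q) :
    Bnd (freeG g₀) L (fun k => W k.1 / (Fintype.card (Equiv.Perm (Fin q)) : ℝ)) := by
  intro f hf
  refine (h f hf).trans (le_of_eq ?_)
  have hc : ((Fintype.card (Equiv.Perm (Fin q)) : ℝ)) ≠ 0 := by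
    exact_mod_cast (Fintype.card_pos (α := Equiv.Perm (Fin q))).ne'
  rw [Fintype.sum_prod_type]
  refine Finset.sum_congr rfl fun r _ => ?_
  have : ∀ σ : Equiv.Perm (Fin q), W r / (Fintype.card (Equiv.Perm (Fin q)) : ℝ) *
      f (freeG g₀ (r, σ)) = W r / (Fintype.card (Equiv.Perm (Fin q)) : ℝ) * f (g₀ r) := by
    intro σ
    simp only [freeG]
    rw [hf.2.2 σ _ (hg r)]
  simp only [this, Finset.sum_const, Finset.card_univ, nsmul_eq_mul]
  field_simp

/-- **The star power of a law on orbit representatives, on an additive chart, in defect form.**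
`c` is the chart position of a point of the orbits, `V` a lower bound for the image under `c` of the
law given the root. -/
theorem defect_starPow_chart {ρ : Type*} [Fintype ρ] [DecidableEq ρ] {g₀ : ρ → Fin q → ℝ}
    {L : Ω → Fin q → ℝ} {W : ρ → ℝ} {G : M → Fin q → ℝ} (hq : q ≠ 0) (hD : DefBnd g₀ L W)
    (hW0 : ∀ r, 0 ≤ W r) (hW1 : ∑ r, W r ≤ 1) (hL : IsLik L) (hSym : SymLik L)
    (hg : ∀ r, g₀ r ∈ Sx q) (hG : AddChart G) (a : Fin q) {c : ρ × Equiv.Perm (Fin q) → M}
    (hc : ∀ k, g₀ k.1 (k.2 a) ≠ 0 → rel k.2 (g₀ k.1) = G (c k)) {X : Finset M} {V : M → ℝ}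
    (hV0 : ∀ x, 0 ≤ V x)
    (hV : ∀ x ∈ X, V x ≤ ∑ k, if c k = x then freeNu a g₀ W k else 0) (m : ℕ)
    {f : (Fin q → ℝ) → ℝ} (hf : Adm f) (b : Fin q) :
    PowF X V m (fun x => f (baseL q b) - f (G x)) ≤ f (baseL q b) - Pot f (starPow L m) := by
  classical
  have hq' : (q : ℝ) ≠ 0 := by exact_mod_cast hq
  have hc' : ((Fintype.card (Equiv.Perm (Fin q)) : ℝ)) ≠ 0 := by
    exact_mod_cast (Fintype.card_pos (α := Equiv.Perm (Fin q))).ne'
  -- the table with the vertex, which carries the mass not on the table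
  let g₁ : Option ρ → Fin q → ℝ := fun o => o.elim (baseL q b) g₀
  let W₁ : Option ρ → ℝ := fun o => o.elim (1 - ∑ r, W r) W
  have hg₁ : ∀ o, g₁ o ∈ Sx q := by
    intro o
    cases o with
    | none => exact baseL_mem b
    | some r => exact hg r
  have hW₁0 : ∀ o, 0 ≤ W₁ o := by
    intro o
    cases o with
    | none => exact sub_nonneg.2 hW1
    | some r => exact hW0 r
  have hW₁1 : ∑ o, W₁ o = 1 := by
    rw [Fintype.sum_option]
    simp [W₁]
  have hB₁ : Bnd g₁ L W₁ := by
    intro f hf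
    rw [Fintype.sum_option]
    have h1 := hD f hf b
    have h2 : ∑ r, W r * (f (baseL q b) - f (g₀ r)) =
        (∑ s, W s) * f (baseL q b) - ∑ r, W r * f (g₀ r) := by
      simp only [mul_sub, Finset.sum_sub_distrib, Finset.sum_mul]
    simp only [W₁, g₁, Option.elim]
    linarith
  let μ : Option ρ × Equiv.Perm (Fin q) → ℝ :=
    fun k => W₁ k.1 / (Fintype.card (Equiv.Perm (Fin q)) : ℝ)
  have hB := bnd_free hB₁ hg₁
  have hI : (freeSym g₁).Inv μ := fun π k => rfl
  have hμ0 : ∀ k, 0 ≤ μ k := fun k => div_nonneg (hW₁0 _) (by positivity)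
  have hμ1 : ∑ k, μ k = 1 := by
    rw [Fintype.sum_prod_type]
    simp only [μ, Finset.sum_const, Finset.card_univ, nsmul_eq_mul]
    have : ∀ x : Option ρ, ((Fintype.card (Equiv.Perm (Fin q)) : ℕ) : ℝ) *
        (W₁ x / (Fintype.card (Equiv.Perm (Fin q)) : ℝ)) = W₁ x := fun x => by field_simp
    simp only [this, hW₁1]
  -- the weights on the free table
  let w : Option ρ × Equiv.Perm (Fin q) → ℝ := fun k =>
    match k.1 with
    | none => 0
    | some r => freeNu a g₀ W (r, k.2)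
  have hw_some : ∀ r σ, w (some r, σ) = freeNu a g₀ W (r, σ) := fun _ _ => rfl
  have hw_none : ∀ σ, w (none, σ) = 0 := fun _ => rfl
  let c₁ : Option ρ × Equiv.Perm (Fin q) → M := fun k =>
    match k.1 with
    | none => 0
    | some r => c (r, k.2)
  have hc_some : ∀ r σ, c₁ (some r, σ) = c (r, σ) := fun _ _ => rfl
  have hw0 : ∀ k, 0 ≤ w k := by
    rintro ⟨o, σ⟩
    cases o with
    | none => exact le_rfl
    | some r =>
      rw [hw_some]
      exact mul_nonneg (mul_nonneg (by positivity) ((hg r).1 _)) (hW0 r)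
  have hwle : ∀ k, w k ≤ nuOf a (freeG g₁) μ k := by
    rintro ⟨o, σ⟩
    cases o with
    | none =>
      rw [hw_none σ]
      exact nuOf_nonneg a (freeG_mem hg₁) hμ0 _
    | some r =>
      rw [hw_some r σ, ← freeNu_eq]
      exact le_of_eq rfl
  have hh0 : ∀ x, 0 ≤ (fun x => f (baseL q b) - f (G x)) x := fun x =>
    sub_nonneg.2 (le_vertex hf (hG.mem x) b)
  have hVw : ∀ x ∈ X, V x ≤ ∑ k, if c₁ k = x then w k else 0 := by
    intro x hx
    refine (hV x hx).trans (le_of_eq ?_)
    symm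
    rw [Fintype.sum_prod_type, Fintype.sum_option]
    have e0 : ∑ σ : Equiv.Perm (Fin q), (if c₁ (none, σ) = x then w (none, σ) else 0) = 0 :=
      Finset.sum_eq_zero fun σ _ => by rw [hw_none σ]; simp
    rw [e0, zero_add, Fintype.sum_prod_type]
  have h1 := powF_le_tuple hw0 hV0 hVw m hh0
  refine h1.trans ?_
  have h2 := defect_starPow_ge hq (freeSym g₁) hI hB hL hSym (freeG_mem hg₁) hμ0 hμ1 a m hw0 hwle hf b
  refine le_trans (le_of_eq ?_) h2
  refine Finset.sum_congr rfl fun t _ => ?_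
  by_cases h0 : ∏ j, w (t j) = 0
  · simp [h0]
  · have hne : ∀ j, w (t j) ≠ 0 := fun j hj => h0 (Finset.prod_eq_zero (Finset.mem_univ j) hj)
    have hc₁ : ∀ k, w k ≠ 0 → freeG g₁ k a ≠ 0 ∧ freeG g₁ k = G (c₁ k) := by
      rintro ⟨o, σ⟩ hk
      cases o with
      | none => exact absurd (hw_none σ) hk
      | some r =>
        rw [hw_some r σ] at hk
        have h3 : g₀ r (σ a) ≠ 0 := by
          intro h4
          apply hk
          simp [freeNu, h4]
        exact ⟨h3, hc (r, σ) h3⟩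
    rw [prodPt_eq_chart hq hG (freeG_mem hg₁) hc₁ hne]

/-- **A Poisson mixture of star powers on an additive chart, in defect form.** The tail and the slack
in the Poisson weights go to the vertex. -/
theorem defect_poisMix_chart {ρ : Type*} [Fintype ρ] [DecidableEq ρ] {g₀ : ρ → Fin q → ℝ}
    {L : Ω → Fin q → ℝ} {W : ρ → ℝ} {G : M → Fin q → ℝ} (hq : q ≠ 0) (hD : DefBnd g₀ L W)
    (hW0 : ∀ r, 0 ≤ W r) (hW1 : ∑ r, W r ≤ 1) (hL : IsLik L) (hSym : SymLik L)
    (hg : ∀ r, g₀ r ∈ Sx q) (hG : AddChart G) (a : Fin q) {c : ρ × Equiv.Perm (Fin q) → M}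
    (hc : ∀ k, g₀ k.1 (k.2 a) ≠ 0 → rel k.2 (g₀ k.1) = G (c k)) {X : Finset M} {V : M → ℝ}
    (hV0 : ∀ x, 0 ≤ V x)
    (hV : ∀ x ∈ X, V x ≤ ∑ k, if c k = x then freeNu a g₀ W k else 0) {d : ℝ} (hd : 0 ≤ d) (K : ℕ)
    {e : ℕ → ℝ} (he0 : ∀ m ≤ K, 0 ≤ e m) (he1 : ∀ m ≤ K, e m ≤ poi d m)
    {f : (Fin q → ℝ) → ℝ} (hf : Adm f) (b : Fin q) :
    ∑ m ∈ Finset.range (K + 1), e m * PowF X V m (fun x => f (baseL q b) - f (G x)) ≤
      f (baseL q b) - Pot f (poisMix d L) := by
  set F := f (baseL q b) with hF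
  have hh0 : ∀ x, 0 ≤ (fun x => F - f (G x)) x := fun x =>
    sub_nonneg.2 (le_vertex hf (hG.mem x) b)
  have hsumm : Summable fun n => poi d n * Pot f (starPow L n) :=
    summable_poi_pot hq hd hL hf.1
  have hsum1 : Summable (poi d) := (hasSum_poi d).summable
  have e1 : F - Pot f (poisMix d L) = ∑' n, poi d n * (F - Pot f (starPow L n)) := by
    have h3 : Summable fun n => poi d n * F := hsum1.mul_right F
    simp only [mul_sub]
    rw [pot_poisMix hd hL hf.1, h3.tsum_sub hsumm, tsum_mul_right, (hasSum_poi d).tsum_eq, one_mul]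
  have hsumm2 : Summable fun n => poi d n * (F - Pot f (starPow L n)) := by
    simp only [mul_sub]
    exact (hsum1.mul_right F).sub hsumm
  have hpos : ∀ n, 0 ≤ poi d n * (F - Pot f (starPow L n)) := fun n =>
    mul_nonneg (poi_nonneg hd n) (sub_nonneg.2 (pot_le_vertex hq (isLik_starPow hL n) hf b))
  rw [e1]
  refine le_trans ?_ (hsumm2.sum_le_tsum (Finset.range (K + 1)) fun n _ => hpos n)
  refine Finset.sum_le_sum fun m hm => ?_
  have hm' : m ≤ K := Nat.lt_succ_iff.1 (Finset.mem_range.1 hm)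
  refine mul_le_mul (he1 m hm') ?_ (powF_nonneg hV0 m hh0) (poi_nonneg hd m)
  exact defect_starPow_chart hq hD hW0 hW1 hL hSym hg hG a hc hV0 hV m hf b

/-- From a measure on a chart to the defect form on a table, by a rule for each point. -/
lemma defBnd_of_chart {ι' : Type*} [Fintype ι'] {g' : ι' → Fin q → ℝ} {G : M → Fin q → ℝ}
    {L : Ω → Fin q → ℝ} {Y : Finset M} {U : M → ℝ} (hU : ∀ y, 0 ≤ U y)
    (h : ∀ f : (Fin q → ℝ) → ℝ, Adm f → ∀ b : Fin q,
      ∑ y ∈ Y, U y * (f (baseL q b) - f (G y)) ≤ f (baseL q b) - Pot f L)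
    {R : M → ι' → ℝ}
    (hR : ∀ y ∈ Y, ∀ f : (Fin q → ℝ) → ℝ, Adm f → ∀ b : Fin q,
      ∑ s, R y s * (f (baseL q b) - f (g' s)) ≤ f (baseL q b) - f (G y)) :
    DefBnd g' L (fun s => ∑ y ∈ Y, U y * R y s) := fun f hf b => by
  refine le_trans (le_of_eq ?_) ((Finset.sum_le_sum fun y hy =>
    mul_le_mul_of_nonneg_left (hR y hy f hf b) (hU y)).trans (h f hf b))
  simp only [Finset.sum_mul, Finset.mul_sum]
  rw [Finset.sum_comm]
  exact Finset.sum_congr rfl fun r _ => Finset.sum_congr rfl fun s _ => by ring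

end Chart

end Crest.Agent.PottsTree
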