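import Crest.Agent.Lib.PottsTree.Compare

/-!
# The tail: from a bound on `E A` at one level to non-reconstruction, any sign of `λ`

For `λ < 0` the cone is not closed under the channel pointwise.  But the law at a level is a star
of contracted laws, the contracted laws lie in a small domain, and the functional `Th` (a lower
bound of `Xi ∘ T λ`) is almost additive under the star.  So if `E A` is small then the next level is
in the cone.  Then the cubic recursion runs.
-/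

namespace Crest.Agent.PottsTree

open Finset Filter
open Crest.ProbabilityR.Broadcast
open ConeData
open Cmp

variable {q : ℕ}

/-- Pointwise data for the tail. `Th` is a lower bound for the cone functional after the channel;
`N3` almost additivity of `Th`; `N4` positivity of `Th` on the image of the channel; `N5` the
trivial upper bound for `A` under the star. -/
structure TailData (C : ConeData q) (lam : ℝ) where
  Th : (Fin q → ℝ) → ℝ
  K : ℝ
  c0 : ℝ
  K2 : ℝ
  bdd_Th : BddS Th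
  Th_le : ∀ p ∈ Sx q, Th p ≤ C.Xi (T q lam p)
  Th_unif : 0 ≤ Th (fun _ => 1 / (q : ℝ))
  K_nonneg : 0 ≤ K
  K2_nonneg : 0 ≤ K2
  N3 : ∀ p ∈ Sx q, ∀ r ∈ Sx q, Th p + Th r - K * (A q p * A q r) ≤ B Th p r
  N4 : ∀ p ∈ Sx q, c0 * lam ^ 2 * A q p ≤ Th (T q lam p)
  N5 : ∀ p ∈ Sx q, ∀ r ∈ Sx q, B (A q) p r ≤ A q p + A q r + K2 * (A q p * A q r)

section Star

variable {Ω : Type*} {L : Ω → Fin q → ℝ}

lemma pot_A_starPow_zero (hq : q ≠ 0) (L : Ω → Fin q → ℝ) : Pot (A q) (starPow L 0) = 0 := by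
  rw [pot_starPow_zero L hq]
  have hq' : (q : ℝ) ≠ 0 := by exact_mod_cast hq
  simp [A]
  field_simp
  ring

/-- the trivial bound for `E A` of `n` children -/
lemma pot_A_starPow_le' (hq : q ≠ 0) (hL : IsLik L) (hS : SymLik L) {K2 : ℝ} (hK2 : 0 ≤ K2)
    (h5 : ∀ p ∈ Sx q, ∀ r ∈ Sx q, B (A q) p r ≤ A q p + A q r + K2 * (A q p * A q r)) (n : ℕ) :
    Pot (A q) (starPow L n) ≤ n * Pot (A q) L * (1 + K2 * Pot (A q) L) ^ n := by
  have hy : 0 ≤ Pot (A q) L := pot_A_nonneg hL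
  set y := Pot (A q) L with hy_def
  have hs1 : 1 ≤ 1 + K2 * y := by nlinarith [mul_nonneg hK2 hy]
  induction n with
  | zero =>
    rw [pot_A_starPow_zero hq]
    simp
  | succ n ih =>
    rw [pot_congr_starPow_succ]
    have hLn := isLik_starPow hL n
    have hSn := symLik_starPow hq hL hS n
    have hA := bddS_A (q := q)
    have key := pot_star_le_sum (ι := Fin 3) hq hL hLn hSn hA Finset.univ
      (u := ![A q, fun _ => 1, fun p => K2 * A q p])
      (v := ![fun _ => 1, A q, A q])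
      (fun k _ => by
        fin_cases k
        · exact hA
        · exact BddS.const _
        · exact hA.const_mul _)
      (fun k _ => by
        fin_cases k
        · exact BddS.const _
        · exact hA
        · exact hA)
      (fun p hp r hr => by
        have := h5 p hp r hr
        simp only [Fin.sum_univ_succ, Fin.sum_univ_zero, Matrix.cons_val_zero,
          Matrix.cons_val_succ, Matrix.cons_val_fin_one]
        nlinarith)
    simp only [Fin.sum_univ_succ, Fin.sum_univ_zero, Matrix.cons_val_zero, Matrix.cons_val_succ,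
      Matrix.cons_val_fin_one] at key
    rw [pot_const hq hL, pot_const hq hLn, pot_const_mul] at key
    have ha0 := pot_A_nonneg hLn
    set a := Pot (A q) (starPow L n)
    set s := 1 + K2 * y with hs
    have h1 : a * s ≤ n * y * s ^ (n + 1) := by
      calc a * s ≤ (n * y * s ^ n) * s := mul_le_mul_of_nonneg_right ih (by linarith)
        _ = n * y * s ^ (n + 1) := by ring
    have hsp : 1 ≤ s ^ (n + 1) := one_le_pow₀ hs1
    have h2 : a + y + K2 * y * a = y + a * s := by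
      simp only [hs]
      ring
    push_cast
    have h3 : y ≤ y * s ^ (n + 1) := le_mul_of_one_le_right hy hsp
    nlinarith

/-- almost additivity of `Th` for `n` children -/
lemma pot_Th_starPow_ge (hq : q ≠ 0) (hL : IsLik L) (hS : SymLik L) {Th : (Fin q → ℝ) → ℝ}
    (hTh : BddS Th) (hu : 0 ≤ Th (fun _ => 1 / (q : ℝ))) {K K2 : ℝ} (hK : 0 ≤ K) (hK2 : 0 ≤ K2)
    (h3 : ∀ p ∈ Sx q, ∀ r ∈ Sx q, Th p + Th r - K * (A q p * A q r) ≤ B Th p r)
    (h5 : ∀ p ∈ Sx q, ∀ r ∈ Sx q, B (A q) p r ≤ A q p + A q r + K2 * (A q p * A q r)) (n : ℕ) :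
    n * Pot Th L - K * (Pot (A q) L) ^ 2 * ((n : ℝ) * (n - 1) / 2) *
      (1 + K2 * Pot (A q) L) ^ n ≤ Pot Th (starPow L n) := by
  have hy : 0 ≤ Pot (A q) L := pot_A_nonneg hL
  set y := Pot (A q) L with hy_def
  have hs1 : 1 ≤ 1 + K2 * y := by nlinarith [mul_nonneg hK2 hy]
  induction n with
  | zero =>
    rw [pot_starPow_zero L hq]
    simpa using hu
  | succ n ih =>
    rw [pot_congr_starPow_succ]
    have hLn := isLik_starPow hL n
    have hSn := symLik_starPow hq hL hS n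
    have hA := bddS_A (q := q)
    have key := sum_le_pot_star (ι := Fin 3) hq hL hLn hSn hTh Finset.univ
      (u := ![Th, fun _ => 1, fun p => - (K * A q p)])
      (v := ![fun _ => 1, Th, A q])
      (fun k _ => by
        fin_cases k
        · exact hTh
        · exact BddS.const _
        · exact (hA.const_mul _).neg)
      (fun k _ => by
        fin_cases k
        · exact BddS.const _
        · exact hTh
        · exact hA)
      (fun p hp r hr => by
        have := h3 p hp r hr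
        simp only [Fin.sum_univ_succ, Fin.sum_univ_zero, Matrix.cons_val_zero,
          Matrix.cons_val_succ, Matrix.cons_val_fin_one]
        nlinarith)
    simp only [Fin.sum_univ_succ, Fin.sum_univ_zero, Matrix.cons_val_zero, Matrix.cons_val_succ,
      Matrix.cons_val_fin_one] at key
    rw [pot_const hq hL, pot_const hq hLn, pot_neg, pot_const_mul] at key
    have ha := pot_A_starPow_le' hq hL hS hK2 h5 n
    rw [← hy_def] at ha
    set a := Pot (A q) (starPow L n)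
    set s := 1 + K2 * y with hs
    set e := Pot Th L
    set t := Pot Th (starPow L n)
    have hs0 : 0 ≤ s := by linarith
    have hsn : s ^ n ≤ s ^ (n + 1) := pow_le_pow_right₀ hs1 (Nat.le_succ n)
    have h1 : K * a * y ≤ K * y ^ 2 * n * s ^ n := by
      calc K * a * y ≤ K * (n * y * s ^ n) * y :=
            mul_le_mul_of_nonneg_right (mul_le_mul_of_nonneg_left ha hK) hy
        _ = K * y ^ 2 * n * s ^ n := by ring
    have hcoef : 0 ≤ K * y ^ 2 * ((n + 1 : ℝ) * n / 2) := by positivity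
    have h2 := mul_le_mul_of_nonneg_left hsn hcoef
    push_cast
    have h4 : K * y ^ 2 * ((n : ℝ) * (n - 1) / 2) * s ^ n + K * y ^ 2 * n * s ^ n =
        K * y ^ 2 * ((n + 1 : ℝ) * n / 2) * s ^ n := by ring
    have h5' : ((n : ℝ) + 1) * e - K * y ^ 2 * (((n : ℝ) + 1) * ((n : ℝ) + 1 - 1) / 2) * s ^ (n + 1) =
        ((n : ℝ) + 1) * e - K * y ^ 2 * ((n + 1 : ℝ) * n / 2) * s ^ (n + 1) := by ring
    rw [h5']
    nlinarith

end Star

section Exp

lemma one_add_pow_le_exp {x : ℝ} (hx : 0 ≤ x) (n : ℕ) : (1 + x) ^ n ≤ Real.exp (n * x) := by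
  have h : 1 + x ≤ Real.exp x := by linarith [Real.add_one_le_exp x]
  calc (1 + x) ^ n ≤ Real.exp x ^ n := pow_le_pow_left₀ (by linarith) h n
    _ = Real.exp (n * x) := (Real.exp_nat_mul x n).symm

end Exp

variable (C : ConeData q)

/-- `contract` of a family is good as soon as the potential of `Th` is nonnegative -/
lemma good_contract_of_Th (hq : q ≠ 0) {lam : ℝ} (hc : ChanOK q lam) (D : TailData C lam)
    {Ω : Type*} {L : Ω → Fin q → ℝ} (hL : IsLik L) (hS : SymLik L) (h : 0 ≤ Pot D.Th L) :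
    Good C (contract lam L) := by
  refine ⟨isLik_contract hq hc hL, symLik_contract hq hc hS, ?_⟩
  rw [pot_contract hq]
  exact h.trans (pot_mono hL D.bdd_Th (BddS.comp_T hq hc C.bdd_Xi) D.Th_le)

/-- `Th` on the image of the channel -/
lemma pot_Th_contract_ge (hq : q ≠ 0) {lam : ℝ} (hc : ChanOK q lam) (D : TailData C lam)
    {Ω : Type*} {L : Ω → Fin q → ℝ} (hL : IsLik L) :
    D.c0 * Pot (A q) (contract lam L) ≤ Pot D.Th (contract lam L) := by
  rw [pot_A_contract hq lam hL, pot_contract hq]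
  have hb : BddS (fun p => D.c0 * lam ^ 2 * A q p) := bddS_A.const_mul _
  have := pot_mono hL hb (BddS.comp_T hq hc D.bdd_Th) D.N4
  rw [pot_const_mul] at this
  nlinarith

/-- Regular tree, one step: if `E A ≤ xs` then the next level is in the cone. -/
lemma pot_Th_regL_succ_nonneg (hq : q ≠ 0) {b : ℕ} {lam : ℝ} (hc : ChanOK q lam)
    (hbl : (b : ℝ) * lam ^ 2 ≤ 1) (D : TailData C lam) {xs : ℝ}
    (hxs : D.K / 2 * xs * Real.exp (3 * D.K2 * xs) ≤ D.c0) {ℓ : ℕ}
    (hx : Pot (A q) (regL q b lam ℓ) ≤ xs) : 0 ≤ Pot D.Th (regL q b lam (ℓ + 1)) := by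
  rw [pot_regL_succ]
  have hL0 := isLik_regL hq hc b ℓ
  have hL := isLik_contract hq hc hL0
  have hS := symLik_contract hq hc (symLik_regL hq hc b ℓ)
  have h1 := pot_Th_starPow_ge hq hL hS D.bdd_Th D.Th_unif D.K_nonneg D.K2_nonneg D.N3 D.N5 b
  have h2 := pot_Th_contract_ge C hq hc D hL0
  have hy0 : 0 ≤ Pot (A q) (contract lam (regL q b lam ℓ)) := pot_A_nonneg hL
  have hyx := pot_A_contract hq lam hL0
  have hx0 : 0 ≤ Pot (A q) (regL q b lam ℓ) := pot_A_nonneg hL0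
  set y := Pot (A q) (contract lam (regL q b lam ℓ))
  set x := Pot (A q) (regL q b lam ℓ)
  set e := Pot D.Th (contract lam (regL q b lam ℓ))
  refine le_trans ?_ h1
  have hK := D.K_nonneg
  have hK2 := D.K2_nonneg
  have hb0 : (0 : ℝ) ≤ b := by positivity
  have hby : (b : ℝ) * y ≤ x := by
    rw [hyx]
    nlinarith [mul_le_mul_of_nonneg_right hbl hx0]
  have hxs0 : 0 ≤ xs := hx0.trans hx
  have hs : (1 + D.K2 * y) ^ b ≤ Real.exp (3 * D.K2 * xs) := by
    refine (one_add_pow_le_exp (mul_nonneg hK2 hy0) b).trans (Real.exp_le_exp.2 ?_)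
    have : (b : ℝ) * (D.K2 * y) = D.K2 * ((b : ℝ) * y) := by ring
    rw [this]
    have h4 : D.K2 * ((b : ℝ) * y) ≤ D.K2 * xs := mul_le_mul_of_nonneg_left (hby.trans hx) hK2
    nlinarith [mul_nonneg hK2 hxs0]
  set s := (1 + D.K2 * y) ^ b
  have hs0 : 0 ≤ s := pow_nonneg (by nlinarith [mul_nonneg hK2 hy0]) b
  set E := Real.exp (3 * D.K2 * xs)
  have hE : 0 ≤ E := (Real.exp_pos _).le
  -- the quadratic term
  have hq1 : D.K * y ^ 2 * ((b : ℝ) * (b - 1) / 2) * s ≤ (b * y) * (D.K / 2 * xs * E) := by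
    have hb1 : (b : ℝ) - 1 ≤ b := by linarith
    have hb1' : ((b : ℝ) - 1) * y ≤ xs := by nlinarith [hby.trans hx]
    have h5 : ((b : ℝ) - 1) * y * s ≤ xs * E := by
      rcases (Nat.eq_zero_or_pos b) with hb' | hb'
      · have e1 : ((b : ℝ) - 1) * y * s ≤ 0 := by
          have hb2 : (b : ℝ) - 1 ≤ 0 := by
            rw [hb']
            norm_num
          exact mul_nonpos_of_nonpos_of_nonneg (mul_nonpos_of_nonpos_of_nonneg hb2 hy0) hs0
        exact e1.trans (mul_nonneg hxs0 hE)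
      · exact mul_le_mul hb1' hs hs0 hxs0
    have h6 : 0 ≤ (b : ℝ) * y * (D.K / 2) := by positivity
    have := mul_le_mul_of_nonneg_left h5 h6
    nlinarith
  have hq2 : (b * y) * (D.K / 2 * xs * E) ≤ (b * y) * D.c0 :=
    mul_le_mul_of_nonneg_left hxs (by positivity)
  have hq3 : (b : ℝ) * (D.c0 * y) ≤ b * e := mul_le_mul_of_nonneg_left h2 hb0
  nlinarith

/-- MAIN THEOREM (regular tree, any sign of `λ`): a bound on `E A` at one level is enough. -/
theorem tendsto_advantage_of_tail (hq : q ≠ 0) (hmu : 0 < C.mu) {b : ℕ} (hb : 2 ≤ b) {lam : ℝ}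
    (hc : ChanOK q lam) (hlam : lam ≠ 0) (hbl : (b : ℝ) * lam ^ 2 ≤ 1) (D : TailData C lam) {xs : ℝ}
    (hxs : D.K / 2 * xs * Real.exp (3 * D.K2 * xs) ≤ D.c0) {ℓ₀ : ℕ}
    (hℓ₀ : Pot (A q) (regL q b lam ℓ₀) ≤ xs) :
    Tendsto (advantage q b lam) atTop (nhds 0) := by
  have hlik : ∀ ℓ, IsLik (regL q b lam ℓ) := fun ℓ => isLik_regL hq hc b ℓ
  have hsym : ∀ ℓ, SymLik (regL q b lam ℓ) := fun ℓ => symLik_regL hq hc b ℓ
  have hxl : ∀ n, Pot (A q) (regL q b lam (ℓ₀ + n)) ≤ xs := fun n =>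
    (dom_regL_le hq hc b (Nat.le_add_right ℓ₀ n) _ bddS_A convexOn_A).trans hℓ₀
  have hgood : ∀ n, Good C (contract lam (regL q b lam (ℓ₀ + n + 1))) := fun n =>
    good_contract_of_Th C hq hc D (hlik _) (hsym _)
      (pot_Th_regL_succ_nonneg C hq hc hbl D hxs (hxl n))
  have hA : Tendsto (fun n => Pot (A q) (regL q b lam (n + (ℓ₀ + 1)))) atTop (nhds 0) := by
    refine tendsto_zero_of_cubic_recursion (c := 2 * C.mu * lam ^ 6) ?_
      (fun n => pot_A_nonneg (hlik _)) fun n => ?_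
    · have : 0 < lam ^ 6 := by positivity
      positivity
    · have h := pot_A_regL_succ_le C hq hb hbl (n + (ℓ₀ + 1))
        (by
          have := hgood n
          have e : ℓ₀ + n + 1 = n + (ℓ₀ + 1) := by ring
          rwa [e] at this) (hlik _)
      have e2 : n + 1 + (ℓ₀ + 1) = n + (ℓ₀ + 1) + 1 := by ring
      rw [e2]
      exact h
  have hA' : Tendsto (fun n => Pot (A q) (regL q b lam n)) atTop (nhds 0) :=
    (tendsto_add_atTop_iff_nat (ℓ₀ + 1)).1 hA
  have := tendsto_pot_tv_of_tendsto_A (α := fun ℓ => (Fin ℓ → Fin b) → Fin q)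
    (L := fun ℓ => regL q b lam ℓ) hq hlik hA'
  refine this.congr fun ℓ => ?_
  exact (advantage_eq hq b lam ℓ (hlik ℓ)).symm

/-- Regular tree, the pointwise variant: if the channel maps the whole simplex into the cone. -/
theorem tendsto_advantage_of_pointwise (hq : q ≠ 0) (hmu : 0 < C.mu) {b : ℕ} (hb : 2 ≤ b) {lam : ℝ}
    (hc : ChanOK q lam) (hlam : lam ≠ 0) (hbl : (b : ℝ) * lam ^ 2 ≤ 1)
    (hpt : ∀ p ∈ Sx q, 0 ≤ C.Xi (T q lam p)) :
    Tendsto (advantage q b lam) atTop (nhds 0) := by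
  have hlik : ∀ ℓ, IsLik (regL q b lam ℓ) := fun ℓ => isLik_regL hq hc b ℓ
  have hsym : ∀ ℓ, SymLik (regL q b lam ℓ) := fun ℓ => symLik_regL hq hc b ℓ
  have hgood : ∀ ℓ, Good C (contract lam (regL q b lam ℓ)) := fun ℓ => by
    refine ⟨isLik_contract hq hc (hlik ℓ), symLik_contract hq hc (hsym ℓ), ?_⟩
    rw [pot_contract hq]
    exact pot_nonneg (hlik ℓ) (BddS.comp_T hq hc C.bdd_Xi) hpt
  have hA : Tendsto (fun n => Pot (A q) (regL q b lam n)) atTop (nhds 0) := by
    refine tendsto_zero_of_cubic_recursion (c := 2 * C.mu * lam ^ 6) ?_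
      (fun n => pot_A_nonneg (hlik _)) fun n => pot_A_regL_succ_le C hq hb hbl n (hgood n) (hlik _)
    have : 0 < lam ^ 6 := by positivity
    positivity
  have := tendsto_pot_tv_of_tendsto_A (α := fun ℓ => (Fin ℓ → Fin b) → Fin q)
    (L := fun ℓ => regL q b lam ℓ) hq hlik hA
  refine this.congr fun ℓ => ?_
  exact (advantage_eq hq b lam ℓ (hlik ℓ)).symm

/-! ### the Poisson tree -/

section PoissonTail

lemma hasSum_mul2_poi (d : ℝ) : HasSum (fun n : ℕ => (n : ℝ) * (n - 1) * poi d n) (d ^ 2) := by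
  have h := (hasSum_poi d).mul_left (d ^ 2)
  rw [mul_one] at h
  have h2 : HasSum (fun n : ℕ => (fun k : ℕ => (k : ℝ) * (k - 1) * poi d k) (n + 2)) (d ^ 2) := by
    have e : (fun n : ℕ => (fun k : ℕ => (k : ℝ) * (k - 1) * poi d k) (n + 2)) =
        fun n => d ^ 2 * poi d n := by
      funext n
      simp only [poi, Nat.factorial_succ]
      have h1 : ((n : ℝ) + 1) ≠ 0 := by positivity
      have h2 : ((n : ℝ) + 1 + 1) ≠ 0 := by positivity
      have h3 : (n.factorial : ℝ) ≠ 0 := by positivity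
      push_cast
      field_simp
      ring
    rw [e]
    exact h
  have := (hasSum_nat_add_iff (f := fun k : ℕ => (k : ℝ) * (k - 1) * poi d k) 2).1 h2
  simpa [Finset.sum_range_succ] using this

lemma poi_mul_pow (d s : ℝ) (n : ℕ) :
    poi d n * s ^ n = Real.exp (d * (s - 1)) * poi (d * s) n := by
  simp only [poi]
  have : Real.exp (-d) = Real.exp (d * (s - 1)) * Real.exp (-(d * s)) := by
    rw [← Real.exp_add]
    congr 1
    ring
  rw [this, mul_pow]
  ring

lemma hasSum_quad_poi (d s : ℝ) :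
    HasSum (fun n : ℕ => poi d n * (((n : ℝ) * (n - 1) / 2) * s ^ n))
      ((d * s) ^ 2 / 2 * Real.exp (d * (s - 1))) := by
  have h := ((hasSum_mul2_poi (d * s)).mul_left (Real.exp (d * (s - 1)) / 2))
  have e : (fun n : ℕ => poi d n * (((n : ℝ) * (n - 1) / 2) * s ^ n)) =
      fun n : ℕ => Real.exp (d * (s - 1)) / 2 * ((n : ℝ) * (n - 1) * poi (d * s) n) := by
    funext n
    have := poi_mul_pow d s n
    calc poi d n * (((n : ℝ) * (n - 1) / 2) * s ^ n)
        = (poi d n * s ^ n) * ((n : ℝ) * (n - 1) / 2) := by ring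
      _ = _ := by rw [this]; ring
  rw [e]
  have e2 : (d * s) ^ 2 / 2 * Real.exp (d * (s - 1)) =
      Real.exp (d * (s - 1)) / 2 * (d * s) ^ 2 := by ring
  rw [e2]
  exact h

variable {Ω : Type*} {L : Ω → Fin q → ℝ}

lemma pot_Th_poisMix_ge (hq : q ≠ 0) {d : ℝ} (hd : 0 ≤ d) (hL : IsLik L) (hS : SymLik L)
    {Th : (Fin q → ℝ) → ℝ} (hTh : BddS Th) (hu : 0 ≤ Th (fun _ => 1 / (q : ℝ))) {K K2 : ℝ}
    (hK : 0 ≤ K) (hK2 : 0 ≤ K2)
    (h3 : ∀ p ∈ Sx q, ∀ r ∈ Sx q, Th p + Th r - K * (A q p * A q r) ≤ B Th p r)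
    (h5 : ∀ p ∈ Sx q, ∀ r ∈ Sx q, B (A q) p r ≤ A q p + A q r + K2 * (A q p * A q r)) :
    d * Pot Th L - K * (Pot (A q) L) ^ 2 *
      ((d * (1 + K2 * Pot (A q) L)) ^ 2 / 2 * Real.exp (d * K2 * Pot (A q) L)) ≤
      Pot Th (poisMix d L) := by
  rw [pot_poisMix hd hL hTh]
  set y := Pot (A q) L with hy_def
  set e := Pot Th L
  set s := 1 + K2 * y with hs_def
  have hR : HasSum (fun n : ℕ => ((n : ℝ) * poi d n) * e -
      (K * y ^ 2) * (poi d n * (((n : ℝ) * (n - 1) / 2) * s ^ n)))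
      (d * e - (K * y ^ 2) * ((d * s) ^ 2 / 2 * Real.exp (d * (s - 1)))) :=
    ((hasSum_mul_poi d).mul_right e).sub ((hasSum_quad_poi d s).mul_left _)
  have es : d * (s - 1) = d * K2 * y := by
    simp only [hs_def]
    ring
  rw [es] at hR
  rw [← hR.tsum_eq]
  refine hR.summable.tsum_le_tsum (fun n => ?_) (summable_poi_pot hq hd hL hTh)
  have := mul_le_mul_of_nonneg_left
    (pot_Th_starPow_ge hq hL hS hTh hu hK hK2 h3 h5 n) (poi_nonneg hd n)
  refine le_trans (le_of_eq ?_) this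
  rw [← hy_def]
  ring

end PoissonTail

/-- Poisson tree, one step: if `E A ≤ xs` then the next level is in the cone. -/
lemma pot_Th_gwL_succ_nonneg (hq : q ≠ 0) {d lam : ℝ} (hd1 : 1 ≤ d) (hc : ChanOK q lam)
    (hdl : d * lam ^ 2 ≤ 1) (D : TailData C lam) {xs : ℝ}
    (hxs : D.K / 2 * xs * Real.exp (3 * D.K2 * xs) ≤ D.c0) {ℓ : ℕ}
    (hx : Pot (A q) (gwL q lam d ℓ) ≤ xs) : 0 ≤ Pot D.Th (gwL q lam d (ℓ + 1)) := by
  have hd : 0 ≤ d := by linarith
  rw [gwL_succ]
  have hL0 := isLik_gwL hq hc hd ℓ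
  have hL := isLik_contract hq hc hL0
  have hS := symLik_contract hq hc (symLik_gwL hq hc hd ℓ)
  have h1 := pot_Th_poisMix_ge hq hd hL hS D.bdd_Th D.Th_unif D.K_nonneg D.K2_nonneg D.N3 D.N5
  have h2 := pot_Th_contract_ge C hq hc D hL0
  have hy0 : 0 ≤ Pot (A q) (contract lam (gwL q lam d ℓ)) := pot_A_nonneg hL
  have hyx := pot_A_contract hq lam hL0
  have hx0 : 0 ≤ Pot (A q) (gwL q lam d ℓ) := pot_A_nonneg hL0
  set y := Pot (A q) (contract lam (gwL q lam d ℓ))
  set x := Pot (A q) (gwL q lam d ℓ)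
  set e := Pot D.Th (contract lam (gwL q lam d ℓ))
  refine le_trans ?_ h1
  have hK := D.K_nonneg
  have hK2 := D.K2_nonneg
  have hdy : d * y ≤ x := by
    rw [hyx]
    nlinarith [mul_le_mul_of_nonneg_right hdl hx0]
  have hxs0 : 0 ≤ xs := hx0.trans hx
  have hyd : y ≤ d * y := by nlinarith
  have hdyxs : d * y ≤ xs := hdy.trans hx
  have hK2y : 0 ≤ D.K2 * y := mul_nonneg hK2 hy0
  -- the exponential factor
  have hs : (1 + D.K2 * y) ^ 2 * Real.exp (d * D.K2 * y) ≤ Real.exp (3 * D.K2 * xs) := by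
    have h3 := one_add_pow_le_exp hK2y 2
    have h4 : ((2 : ℕ) : ℝ) * (D.K2 * y) + d * D.K2 * y ≤ 3 * D.K2 * xs := by
      have h5 : D.K2 * y ≤ D.K2 * xs := mul_le_mul_of_nonneg_left (hyd.trans hdyxs) hK2
      have h6 : D.K2 * (d * y) ≤ D.K2 * xs := mul_le_mul_of_nonneg_left hdyxs hK2
      push_cast
      nlinarith
    calc (1 + D.K2 * y) ^ 2 * Real.exp (d * D.K2 * y)
        ≤ Real.exp (((2 : ℕ) : ℝ) * (D.K2 * y)) * Real.exp (d * D.K2 * y) :=
          mul_le_mul_of_nonneg_right h3 (Real.exp_pos _).le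
      _ = Real.exp (((2 : ℕ) : ℝ) * (D.K2 * y) + d * D.K2 * y) := (Real.exp_add _ _).symm
      _ ≤ _ := Real.exp_le_exp.2 h4
  set E := Real.exp (3 * D.K2 * xs)
  have hE : 0 ≤ E := (Real.exp_pos _).le
  set S := (1 + D.K2 * y) ^ 2 * Real.exp (d * D.K2 * y) with hS_def
  have hq1 : D.K * y ^ 2 * ((d * (1 + D.K2 * y)) ^ 2 / 2 * Real.exp (d * D.K2 * y)) =
      (d * y) * ((D.K / 2) * (d * y) * S) := by
    simp only [hS_def]
    ring
  have hq2 : (D.K / 2) * (d * y) * S ≤ D.K / 2 * xs * E := by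
    have hS0 : 0 ≤ S := by positivity
    have h5 : (d * y) * S ≤ xs * E := mul_le_mul hdyxs hs hS0 hxs0
    have h6 : 0 ≤ D.K / 2 := by positivity
    have := mul_le_mul_of_nonneg_left h5 h6
    nlinarith
  have hdy0 : 0 ≤ d * y := by positivity
  have hq3 := mul_le_mul_of_nonneg_left (hq2.trans hxs) hdy0
  have hq4 : d * (D.c0 * y) ≤ d * e := mul_le_mul_of_nonneg_left h2 hd
  rw [hq1]
  nlinarith

/-- the recursion for `E A` on the Poisson tree from goodness -/
lemma pot_A_gwL_succ_le (hq : q ≠ 0) {d lam : ℝ} (hd : 0 ≤ d) (hc : ChanOK q lam)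
    (hdl : d * lam ^ 2 ≤ 1) (ℓ : ℕ) (hg : Good C (contract lam (gwL q lam d ℓ))) :
    Pot (A q) (gwL q lam d (ℓ + 1)) ≤ Pot (A q) (gwL q lam d ℓ) -
      kap d * (2 * C.mu * lam ^ 6) * (Pot (A q) (gwL q lam d ℓ)) ^ 3 := by
  have hL0 := isLik_gwL hq hc hd ℓ
  have := pot_A_poisMix_le C hq hd hg
  rw [pot_A_contract hq lam hL0] at this
  rw [gwL_succ]
  have hm := pot_A_nonneg hL0
  set m := Pot (A q) (gwL q lam d ℓ)
  have h4 : d * (lam ^ 2 * m) ≤ m := by
    have := mul_le_mul_of_nonneg_right hdl hm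
    nlinarith
  have h5 : kap d * (2 * C.mu * (lam ^ 2 * m) ^ 3) = kap d * (2 * C.mu * lam ^ 6) * m ^ 3 := by
    ring
  linarith

/-- MAIN THEOREM (Poisson tree, any sign of `λ`): a bound on `E A` at one level is enough. -/
theorem tendsto_gwAdvantage_of_tail (hq : q ≠ 0) (hmu : 0 < C.mu) {d lam : ℝ} (hd1 : 1 ≤ d)
    (hc : ChanOK q lam) (hlam : lam ≠ 0) (hdl : d * lam ^ 2 ≤ 1) (D : TailData C lam) {xs : ℝ}
    (hxs : D.K / 2 * xs * Real.exp (3 * D.K2 * xs) ≤ D.c0) {ℓ₀ : ℕ}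
    (hℓ₀ : Pot (A q) (gwL q lam d ℓ₀) ≤ xs) :
    Tendsto (gwAdvantage q lam d) atTop (nhds 0) := by
  have hd : 0 ≤ d := by linarith
  have hd0 : 0 < d := by linarith
  have hlik : ∀ ℓ, IsLik (gwL q lam d ℓ) := fun ℓ => isLik_gwL hq hc hd ℓ
  have hsym : ∀ ℓ, SymLik (gwL q lam d ℓ) := fun ℓ => symLik_gwL hq hc hd ℓ
  have hxl : ∀ n, Pot (A q) (gwL q lam d (ℓ₀ + n)) ≤ xs := fun n =>
    (dom_gwL_le hq hc hd (Nat.le_add_right ℓ₀ n) _ bddS_A convexOn_A).trans hℓ₀
  have hgood : ∀ n, Good C (contract lam (gwL q lam d (ℓ₀ + n + 1))) := fun n =>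
    good_contract_of_Th C hq hc D (hlik _) (hsym _)
      (pot_Th_gwL_succ_nonneg C hq hd1 hc hdl D hxs (hxl n))
  have hA : Tendsto (fun n => Pot (A q) (gwL q lam d (n + (ℓ₀ + 1)))) atTop (nhds 0) := by
    refine tendsto_zero_of_cubic_recursion (c := kap d * (2 * C.mu * lam ^ 6)) ?_
      (fun n => pot_A_nonneg (hlik _)) fun n => ?_
    · have : 0 < lam ^ 6 := by positivity
      have := kap_pos hd0
      positivity
    · have h := pot_A_gwL_succ_le C hq hd hc hdl (n + (ℓ₀ + 1))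
        (by
          have := hgood n
          have e : ℓ₀ + n + 1 = n + (ℓ₀ + 1) := by ring
          rwa [e] at this)
      have e2 : n + 1 + (ℓ₀ + 1) = n + (ℓ₀ + 1) + 1 := by ring
      rw [e2]
      exact h
  have hA' : Tendsto (fun n => Pot (A q) (gwL q lam d n)) atTop (nhds 0) :=
    (tendsto_add_atTop_iff_nat (ℓ₀ + 1)).1 hA
  have := tendsto_pot_tv_of_tendsto_A (α := fun ℓ => PObs q ℓ)
    (L := fun ℓ => gwL q lam d ℓ) hq hlik hA'
  refine this.congr fun ℓ => ?_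
  exact (gwAdvantage_eq hq hc hd ℓ).symm

/-- Poisson tree, the pointwise variant. -/
theorem tendsto_gwAdvantage_of_pointwise (hq : q ≠ 0) (hmu : 0 < C.mu) {d lam : ℝ} (hd0 : 0 < d)
    (hc : ChanOK q lam) (hlam : lam ≠ 0) (hdl : d * lam ^ 2 ≤ 1)
    (hpt : ∀ p ∈ Sx q, 0 ≤ C.Xi (T q lam p)) :
    Tendsto (gwAdvantage q lam d) atTop (nhds 0) := by
  have hd : 0 ≤ d := hd0.le
  have hlik : ∀ ℓ, IsLik (gwL q lam d ℓ) := fun ℓ => isLik_gwL hq hc hd ℓ
  have hsym : ∀ ℓ, SymLik (gwL q lam d ℓ) := fun ℓ => symLik_gwL hq hc hd ℓ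
  have hgood : ∀ ℓ, Good C (contract lam (gwL q lam d ℓ)) := fun ℓ => by
    refine ⟨isLik_contract hq hc (hlik ℓ), symLik_contract hq hc (hsym ℓ), ?_⟩
    rw [pot_contract hq]
    exact pot_nonneg (hlik ℓ) (BddS.comp_T hq hc C.bdd_Xi) hpt
  have hA : Tendsto (fun n => Pot (A q) (gwL q lam d n)) atTop (nhds 0) := by
    refine tendsto_zero_of_cubic_recursion (c := kap d * (2 * C.mu * lam ^ 6)) ?_
      (fun n => pot_A_nonneg (hlik _)) fun n => pot_A_gwL_succ_le C hq hd hc hdl n (hgood n)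
    have : 0 < lam ^ 6 := by positivity
    have := kap_pos hd0
    positivity
  have := tendsto_pot_tv_of_tendsto_A (α := fun ℓ => PObs q ℓ)
    (L := fun ℓ => gwL q lam d ℓ) hq hlik hA
  refine this.congr fun ℓ => ?_
  exact (gwAdvantage_eq hq hc hd ℓ).symm

end Crest.Agent.PottsTree
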