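import Mathlib

/-!
# The tail for `q = 3`, `λ < 0`: the one-dimensional inequalities

Pure real analysis: the functions `f1`, `f3`, and the rational check which excludes a positive limit.
-/

set_option linter.unusedVariables false

namespace Crest.Agent.PottsTree.CertQ3.T48

/-- the kernel of the `t`-recursion, with the constant damping `E₀ = 29/5`, `c = 101/50` -/
noncomputable def f1 (x : ℝ) : ℝ :=
  2500 / 39491 * Real.exp (101 / 50 * x) - 250 / 2929 + 250 / 11339 * Real.exp (-(29 / 5 * x))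

/-- the kernel of the `r²`-recursion -/
noncomputable def f3 (x : ℝ) : ℝ := 2500 / 10201 * (Real.exp (101 / 50 * x) - 1 - 101 / 50 * x)

lemma exp_le_poly {u : ℝ} (h0 : 0 ≤ u) (h1 : u ≤ 1) :
    Real.exp u ≤ 1 + u + u ^ 2 / 2 + u ^ 3 / 6 + 5 / 96 * u ^ 4 := by
  have := Real.exp_bound' h0 h1 (n := 4) (by norm_num)
  simp only [Finset.sum_range_succ, Finset.sum_range_zero, Nat.factorial] at this
  norm_num at this
  linarith

/-- `x ∙ (1 - (63/50) x + (217/100) x²)` -/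
noncomputable def psi (x : ℝ) : ℝ := x * (1 - 63 / 50 * x + 217 / 100 * x ^ 2)

lemma psi_nonneg {x : ℝ} (h0 : 0 ≤ x) : 0 ≤ psi x := by
  unfold psi
  refine mul_nonneg h0 ?_
  nlinarith [sq_nonneg (x - 3 / 10)]

lemma psi_le {x x0 : ℝ} (h0 : 0 ≤ x) (h1 : x ≤ x0) (h2 : x0 ≤ 2 / 5) : psi x ≤ psi x0 := by
  unfold psi
  have e : x0 * (1 - 63 / 50 * x0 + 217 / 100 * x0 ^ 2) - x * (1 - 63 / 50 * x + 217 / 100 * x ^ 2) =
      (x0 - x) * (1 - 63 / 50 * (x0 + x) + 217 / 100 * (x0 ^ 2 + x0 * x + x ^ 2)) := by ring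
  have h3 : 0 ≤ x0 := h0.trans h1
  have h4 : 0 ≤ (x0 - x) * (1 - 63 / 50 * (x0 + x) + 217 / 100 * (x0 ^ 2 + x0 * x + x ^ 2)) := by
    refine mul_nonneg (by linarith) ?_
    nlinarith [sq_nonneg (x0 + x - 2 / 5), sq_nonneg (x0 - x)]
  linarith

lemma exp_le_poly6 {u : ℝ} (h0 : 0 ≤ u) (h1 : u ≤ 1) :
    Real.exp u ≤ 1 + u + u ^ 2 / 2 + u ^ 3 / 6 + u ^ 4 / 24 + u ^ 5 / 120 + 7 / 4320 * u ^ 6 := by
  have := Real.exp_bound' h0 h1 (n := 6) (by norm_num)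
  simp only [Finset.sum_range_succ, Finset.sum_range_zero, Nat.factorial] at this
  norm_num at this
  linarith

/-- the refined bound of `f1` -/
lemma f1_le_psi {x : ℝ} (h0 : 0 ≤ x) (h1 : x ≤ 2 / 5) : f1 x ≤ x / 2 * psi x := by
  have he1 := exp_le_poly6 (u := 101 / 50 * x) (by positivity) (by linarith)
  set z := 29 / 5 * x with hz
  have hz0 : 0 ≤ z := by positivity
  have hQ : 1 + z + z ^ 2 / 2 + z ^ 3 / 6 + z ^ 4 / 24 + z ^ 5 / 120 + z ^ 6 / 720 ≤ Real.exp z := by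
    have := Real.sum_le_exp_of_nonneg hz0 7
    simp only [Finset.sum_range_succ, Finset.sum_range_zero, Nat.factorial] at this
    norm_num at this
    linarith
  set Q := 1 + z + z ^ 2 / 2 + z ^ 3 / 6 + z ^ 4 / 24 + z ^ 5 / 120 + z ^ 6 / 720 with hQdef
  have hQ0 : 0 < Q := by positivity
  have he2 : Real.exp (-z) * Q ≤ 1 := by
    have h2 : Real.exp (-z) * Real.exp z = 1 := by rw [← Real.exp_add]; simp
    have h3 : Real.exp (-z) * Q ≤ Real.exp (-z) * Real.exp z :=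
      mul_le_mul_of_nonneg_left hQ (Real.exp_pos _).le
    linarith
  set U := 1 + (101 / 50 * x) + (101 / 50 * x) ^ 2 / 2 + (101 / 50 * x) ^ 3 / 6 +
    (101 / 50 * x) ^ 4 / 24 + (101 / 50 * x) ^ 5 / 120 + 7 / 4320 * (101 / 50 * x) ^ 6 with hU
  have key : (2500 / 39491 * U - 250 / 2929 - x / 2 * psi x) * Q + 250 / 11339 ≤ 0 := by
    have e : (2500 / 39491 * U - 250 / 2929 - x / 2 * psi x) * Q + 250 / 11339 =
        - (x ^ 4 * (89 / 60000 + 17951939 / 15000000 * x + 60636879341053 / 10557000000000 * x ^ 2 +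
          698447909727917 / 52785000000000 * x ^ 3 +
          15195383229330433 / 527850000000000 * x ^ 4 +
          142298003723942387 / 7917750000000000 * x ^ 5 +
          x ^ 6 * (1702199058949835801 / 31671000000000000 -
            5222872860111602803 / 3958875000000000000 * x -
            43761570188340086747 / 118766250000000000000 * x ^ 2))) := by
      simp only [hQdef, hz, hU, psi]
      ring
    rw [e]
    have h3 : 0 ≤ 1702199058949835801 / 31671000000000000 -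
        5222872860111602803 / 3958875000000000000 * x -
        43761570188340086747 / 118766250000000000000 * x ^ 2 := by
      nlinarith
    have : 0 ≤ x ^ 4 * (89 / 60000 + 17951939 / 15000000 * x +
          60636879341053 / 10557000000000 * x ^ 2 +
          698447909727917 / 52785000000000 * x ^ 3 +
          15195383229330433 / 527850000000000 * x ^ 4 +
          142298003723942387 / 7917750000000000 * x ^ 5 +
          x ^ 6 * (1702199058949835801 / 31671000000000000 -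
            5222872860111602803 / 3958875000000000000 * x -
            43761570188340086747 / 118766250000000000000 * x ^ 2)) := by
      positivity
    linarith
  have hmul : (f1 x - x / 2 * psi x) * Q ≤ 0 := by
    simp only [f1]
    rw [← hz]
    have h4 : 250 / 11339 * Real.exp (-z) * Q ≤ 250 / 11339 := by
      have := mul_le_mul_of_nonneg_left he2 (show (0 : ℝ) ≤ 250 / 11339 by norm_num)
      linarith
    have h5 := mul_le_mul_of_nonneg_right he1 hQ0.le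
    have h6 : 0 ≤ (2500 / 39491 : ℝ) := by norm_num
    have h7 := mul_le_mul_of_nonneg_left h5 h6
    nlinarith
  by_contra hcon
  rw [not_le] at hcon
  have : 0 < (f1 x - x / 2 * psi x) * Q := mul_pos (by linarith) hQ0
  linarith

lemma f3_le {x : ℝ} (h0 : 0 ≤ x) (h1 : x ≤ 2 / 5) :
    f3 x ≤ x ^ 2 / 2 * (1 + 101 / 50 * x / 3 + 5 / 48 * (101 / 50 * x) ^ 2) := by
  have he1 := exp_le_poly (u := 101 / 50 * x) (by positivity) (by linarith)
  simp only [f3]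
  nlinarith

lemma f3_nonneg (x : ℝ) : 0 ≤ f3 x := by
  have := Real.add_one_le_exp (101 / 50 * x)
  simp only [f3]
  linarith

lemma f1_cont : Continuous f1 := by
  unfold f1
  fun_prop

lemma f3_cont : Continuous f3 := by
  unfold f3
  fun_prop

/-- lower bound of `1 - exp (-z)` -/
lemma one_sub_exp_ge {z z₀ G₀ : ℝ} (h0 : 0 ≤ z) (h1 : z ≤ z₀)
    (hG : G₀ * (1 + z₀ + z₀ ^ 2 / 2) ≤ 1 + z₀ / 2) (hG₀ : 0 ≤ G₀) :
    G₀ * z ≤ 1 - Real.exp (-z) := by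
  have hQ : 1 + z + z ^ 2 / 2 ≤ Real.exp z := by
    have := Real.sum_le_exp_of_nonneg h0 3
    simp only [Finset.sum_range_succ, Finset.sum_range_zero, Nat.factorial] at this
    norm_num at this
    linarith
  set Q := 1 + z + z ^ 2 / 2 with hQdef
  have hQ0 : 0 < Q := by positivity
  have he2 : Real.exp (-z) * Q ≤ 1 := by
    have h2 : Real.exp (-z) * Real.exp z = 1 := by rw [← Real.exp_add]; simp
    have h3 : Real.exp (-z) * Q ≤ Real.exp (-z) * Real.exp z :=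
      mul_le_mul_of_nonneg_left hQ (Real.exp_pos _).le
    linarith
  have hG2 : G₀ * Q ≤ 1 + z / 2 := by
    have hz₀ : 0 ≤ z₀ := h0.trans h1
    have hQ₀ : 0 < 1 + z₀ + z₀ ^ 2 / 2 := by positivity
    -- G₀ Q Q₀ ≤ (1+z₀/2) Q, and (1+z/2) Q₀ ≤ (1+z₀/2) Q : use G₀ ≤ (1+z₀/2)/Q₀
    have h3 : G₀ ≤ (1 + z₀ / 2) / (1 + z₀ + z₀ ^ 2 / 2) := by
      rw [le_div_iff₀ hQ₀]
      exact hG
    -- the function (1+z/2)/Q is antitone
    have h4 : (1 + z₀ / 2) / (1 + z₀ + z₀ ^ 2 / 2) ≤ (1 + z / 2) / Q := by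
      rw [div_le_div_iff₀ hQ₀ hQ0]
      have e : (1 + z / 2) * (1 + z₀ + z₀ ^ 2 / 2) - (1 + z₀ / 2) * Q =
          (z₀ - z) * (1 / 2 + (z + z₀) / 2 + z * z₀ / 4) := by
        simp only [hQdef]
        ring
      have h6 : 0 ≤ (z₀ - z) * (1 / 2 + (z + z₀) / 2 + z * z₀ / 4) := by
        have : 0 ≤ z₀ - z := by linarith
        positivity
      linarith
    have h5 : G₀ ≤ (1 + z / 2) / Q := h3.trans h4
    rw [le_div_iff₀ hQ0] at h5
    exact h5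
  nlinarith [mul_nonneg hG₀ h0]

/-- The rational check for a cell `s ∈ [s₁, s₂]`, `x ≤ x0`. -/
structure Cell (s₁ s₂ x0 G₀ Φ Y P P' : ℝ) : Prop where
  s₁_pos : 0 < s₁
  s₁_le : s₁ ≤ s₂
  s₂_le : s₂ ≤ 1 / 2
  x0_pos : 0 < x0
  x0_le : x0 ≤ 2 / 5
  G₀_nonneg : 0 ≤ G₀
  hG : G₀ * (1 + (29 / 5 + 26 / 5 * s₂) * x0 + ((29 / 5 + 26 / 5 * s₂) * x0) ^ 2 / 2) ≤
    1 + (29 / 5 + 26 / 5 * s₂) * x0 / 2
  hΦ : 1 + 101 / 50 * x0 / 3 + 5 / 48 * (101 / 50 * x0) ^ 2 ≤ Φ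
  hD : 0 < 1 + s₁ * G₀ - 29 / 10 * s₂ * psi x0
  hY : 31 / 10 * psi x0 ≤ Y * (1 + s₁ * G₀ - 29 / 10 * s₂ * psi x0)
  hP : (5 / 2 + 2 * s₂ * Y) * Φ ≤ P * (1 - s₂ ^ 2)
  hmain : 2 * s₂ * Y + 2 * s₂ ^ 2 * x0 * P < 2 / 5
  hP' : (5 / 2 + 2 * s₂) * Φ ≤ P' * (1 - s₂ ^ 2)
  halt : 2 * s₂ ^ 2 * x0 * P' < 2 / 5
  hv : (29 / 5 + 26 / 5 * s₂) * (s₂ ^ 2 * x0) ≤ 1

section Cell

variable {s₁ s₂ x0 G₀ Φ Y P P' : ℝ}

lemma Cell.phi_bound (h : Cell s₁ s₂ x0 G₀ Φ Y P P') {x : ℝ} (hx0 : 0 ≤ x) (hx : x ≤ x0) :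
    f3 x ≤ x ^ 2 / 2 * Φ := by
  have h1 := f3_le hx0 (hx.trans h.x0_le)
  refine h1.trans (mul_le_mul_of_nonneg_left ?_ (by positivity))
  refine le_trans ?_ h.hΦ
  have : (101 / 50 * x) ^ 2 ≤ (101 / 50 * x0) ^ 2 :=
    pow_le_pow_left₀ (by positivity) (by linarith) 2
  linarith

lemma Cell.Y_nonneg (h : Cell s₁ s₂ x0 G₀ Φ Y P P') : 0 ≤ Y := by
  by_contra hcon
  rw [not_le] at hcon
  have := mul_neg_of_neg_of_pos hcon h.hD
  have h2 := h.hY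
  have h3 := psi_nonneg h.x0_pos.le
  linarith

lemma Cell.Phi_pos (h : Cell s₁ s₂ x0 G₀ Φ Y P P') : 0 < Φ := by
  have h1 := h.hΦ
  have := h.x0_pos
  have : 0 ≤ (101 / 50 * x0) ^ 2 := by positivity
  linarith

lemma Cell.one_sub_pos {s : ℝ} (h : Cell s₁ s₂ x0 G₀ Φ Y P P') (hs : s ≤ s₂) (hs0 : 0 ≤ s) :
    0 < 1 - s ^ 2 := by
  have h2 := h.s₂_le
  nlinarith

lemma Cell.s₂_pos (h : Cell s₁ s₂ x0 G₀ Φ Y P P') : 0 < s₂ := h.s₁_pos.trans_le h.s₁_le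

lemma Cell.P_nonneg (h : Cell s₁ s₂ x0 G₀ Φ Y P P') : 0 ≤ P := by
  by_contra hcon
  rw [not_le] at hcon
  have h10 := h.hP
  have hY := h.Y_nonneg
  have hΦ := h.Phi_pos
  have h0 := h.x0_pos
  have hs := h.s₂_pos
  have h11 : 0 ≤ (5 / 2 + 2 * s₂ * Y) * Φ := by positivity
  have h12 := h.one_sub_pos le_rfl hs.le
  have := mul_neg_of_neg_of_pos hcon h12
  linarith

lemma Cell.P'_nonneg (h : Cell s₁ s₂ x0 G₀ Φ Y P P') : 0 ≤ P' := by
  by_contra hcon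
  rw [not_le] at hcon
  have h10 := h.hP'
  have hΦ := h.Phi_pos
  have hs := h.s₂_pos
  have h11 : 0 ≤ (5 / 2 + 2 * s₂) * Φ := by positivity
  have h12 := h.one_sub_pos le_rfl hs.le
  have := mul_neg_of_neg_of_pos hcon h12
  linarith

/-- the first step: `τ ≤ Y x` -/
lemma Cell.tau_le (h : Cell s₁ s₂ x0 G₀ Φ Y P P') {s x τ : ℝ} (hs1 : s₁ ≤ s) (hs2 : s ≤ s₂)
    (hx0 : 0 < x) (hx : x ≤ x0) (hτ : 0 < τ)
    (hT : τ ≤ -(s * τ / ((29 / 5 + 26 / 5 * s) * x)) * (1 - Real.exp (-((29 / 5 + 26 / 5 * s) * x))) +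
      (31 / 5 + 29 / 5 * (s * τ / x)) * f1 x) : τ ≤ Y * x := by
  have hs0 : 0 < s := h.s₁_pos.trans_le hs1
  have hE : 0 < 29 / 5 + 26 / 5 * s := by positivity
  set E := 29 / 5 + 26 / 5 * s with hEdef
  have hz0 : 0 ≤ E * x := by positivity
  have hE2 : E ≤ 29 / 5 + 26 / 5 * s₂ := by
    simp only [hEdef]
    linarith
  have hz : E * x ≤ (29 / 5 + 26 / 5 * s₂) * x0 :=
    mul_le_mul hE2 hx hx0.le (hE.le.trans hE2)
  have hG := one_sub_exp_ge hz0 hz h.hG h.G₀_nonneg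
  have hψ0 := psi_nonneg h.x0_pos.le
  set ψ := psi x0 with hψ
  set w := s * τ / x with hw
  have hw0 : 0 ≤ w := by positivity
  have hwx : w * x = s * τ := by
    simp only [hw]
    field_simp
  have h1 : s * τ * G₀ ≤ (s * τ / (E * x)) * (1 - Real.exp (-(E * x))) := by
    have e : s * τ * G₀ = (s * τ / (E * x)) * (G₀ * (E * x)) := by
      field_simp
    rw [e]
    exact mul_le_mul_of_nonneg_left hG (by positivity)
  have hf : f1 x ≤ x / 2 * ψ := by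
    refine (f1_le_psi hx0.le (hx.trans h.x0_le)).trans ?_
    exact mul_le_mul_of_nonneg_left (psi_le hx0.le hx h.x0_le) (by positivity)
  have h2 : (31 / 5 + 29 / 5 * w) * f1 x ≤ 31 / 10 * ψ * x + 29 / 10 * (s * τ) * ψ := by
    have := mul_le_mul_of_nonneg_left hf (show 0 ≤ 31 / 5 + 29 / 5 * w by positivity)
    refine this.trans (le_of_eq ?_)
    rw [← hwx]
    ring
  have hT2 : τ ≤ - (s * τ * G₀) + (31 / 10 * ψ * x + 29 / 10 * (s * τ) * ψ) := by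
    have e : -(s * τ / (E * x)) * (1 - Real.exp (-(E * x))) =
        - ((s * τ / (E * x)) * (1 - Real.exp (-(E * x)))) := by ring
    rw [e] at hT
    linarith
  have hD := h.hD
  have h3 : τ * (1 + s₁ * G₀ - 29 / 10 * s₂ * ψ) ≤ 31 / 10 * ψ * x := by
    have h4 : s₁ * G₀ ≤ s * G₀ := mul_le_mul_of_nonneg_right hs1 h.G₀_nonneg
    have h5 : s * ψ ≤ s₂ * ψ := mul_le_mul_of_nonneg_right hs2 hψ0
    have h6 : τ * (s₁ * G₀) ≤ τ * (s * G₀) := mul_le_mul_of_nonneg_left h4 hτ.le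
    have h7 : τ * (s * ψ) ≤ τ * (s₂ * ψ) := mul_le_mul_of_nonneg_left h5 hτ.le
    have e : τ * (1 + s₁ * G₀ - 29 / 10 * s₂ * ψ) =
        τ + τ * (s₁ * G₀) - 29 / 10 * (τ * (s₂ * ψ)) := by ring
    have e2 : 29 / 10 * (s * τ) * ψ = 29 / 10 * (τ * (s * ψ)) := by ring
    have e3 : s * τ * G₀ = τ * (s * G₀) := by ring
    rw [e]
    rw [e2, e3] at hT2
    linarith
  have h4 : τ * (1 + s₁ * G₀ - 29 / 10 * s₂ * ψ) ≤
      (Y * x) * (1 + s₁ * G₀ - 29 / 10 * s₂ * ψ) := by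
    have := mul_le_mul_of_nonneg_left h.hY hx0.le
    calc _ ≤ 31 / 10 * ψ * x := h3
      _ = x * (31 / 10 * ψ) := by ring
      _ ≤ x * (Y * (1 + s₁ * G₀ - 29 / 10 * s₂ * ψ)) := this
      _ = _ := by ring
  exact le_of_mul_le_mul_right h4 hD

/-- the second step: `m ≤ P x²` -/
lemma Cell.m_le (h : Cell s₁ s₂ x0 G₀ Φ Y P P') {s x τ m : ℝ} (hs1 : s₁ ≤ s) (hs2 : s ≤ s₂)
    (hx0 : 0 < x) (hx : x ≤ x0) (hτ : 0 < τ) (hτY : τ ≤ Y * x)
    (hM : m ≤ s ^ 2 * m + (5 + 4 * (s * τ / x)) * f3 x) : m ≤ P * x ^ 2 := by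
  have hs0 : 0 < s := h.s₁_pos.trans_le hs1
  have hs2nn : 0 < s₂ := hs0.trans_le hs2
  have hY0 := h.Y_nonneg
  have hΦ0 := h.Phi_pos
  have h1s := h.one_sub_pos hs2 hs0.le
  have hP0 := h.P_nonneg
  set w := s * τ / x with hw
  have hw0 : 0 ≤ w := by positivity
  have hwY : w ≤ s₂ * Y := by
    simp only [hw]
    rw [div_le_iff₀ hx0]
    have h6 : s * τ ≤ s₂ * (Y * x) := mul_le_mul hs2 hτY hτ.le hs2nn.le
    linarith
  have h3 : (5 + 4 * w) * f3 x ≤ (5 + 4 * w) * (x ^ 2 / 2 * Φ) :=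
    mul_le_mul_of_nonneg_left (h.phi_bound hx0.le hx) (by positivity)
  have h4 : (5 + 4 * w) * (x ^ 2 / 2 * Φ) = x ^ 2 * ((5 / 2 + 2 * w) * Φ) := by ring
  have h6 : x ^ 2 * ((5 / 2 + 2 * w) * Φ) ≤ x ^ 2 * ((5 / 2 + 2 * s₂ * Y) * Φ) := by
    refine mul_le_mul_of_nonneg_left (mul_le_mul_of_nonneg_right (by linarith) hΦ0.le) (by positivity)
  have h9 := mul_le_mul_of_nonneg_left h.hP (show 0 ≤ x ^ 2 by positivity)
  have h10 : P * x ^ 2 * (1 - s₂ ^ 2) ≤ P * x ^ 2 * (1 - s ^ 2) := by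
    have h11 : s ^ 2 ≤ s₂ ^ 2 := pow_le_pow_left₀ hs0.le hs2 2
    have h12 : 0 ≤ P * x ^ 2 := by positivity
    exact mul_le_mul_of_nonneg_left (by linarith) h12
  have h12 : m * (1 - s ^ 2) ≤ P * x ^ 2 * (1 - s ^ 2) := by
    have e1 : m * (1 - s ^ 2) = m - s ^ 2 * m := by ring
    have e3 : x ^ 2 * (P * (1 - s₂ ^ 2)) = P * x ^ 2 * (1 - s₂ ^ 2) := by ring
    rw [e1]
    rw [e3] at h9
    linarith
  exact le_of_mul_le_mul_right h12 h1s

/-- A positive limit of `t` with the limit inequalities: the cone functional is positive. -/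
lemma Cell.pos_of_pos (h : Cell s₁ s₂ x0 G₀ Φ Y P P') {s x τ m : ℝ} (hs1 : s₁ ≤ s) (hs2 : s ≤ s₂)
    (hx0 : 0 < x) (hx : x ≤ x0) (hτ : 0 < τ)
    (hT : τ ≤ -(s * τ / ((29 / 5 + 26 / 5 * s) * x)) * (1 - Real.exp (-((29 / 5 + 26 / 5 * s) * x))) +
      (31 / 5 + 29 / 5 * (s * τ / x)) * f1 x)
    (hM : m ≤ s ^ 2 * m + (5 + 4 * (s * τ / x)) * f3 x) :
    0 < 2 / 5 * x - 2 * s * τ - 2 * s ^ 2 * m := by
  have hs0 : 0 < s := h.s₁_pos.trans_le hs1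
  have hs2nn : 0 < s₂ := hs0.trans_le hs2
  have hτY := h.tau_le hs1 hs2 hx0 hx hτ hT
  have hmP := h.m_le hs1 hs2 hx0 hx hτ hτY hM
  have hY0 := h.Y_nonneg
  have hP0 := h.P_nonneg
  have hm1 := h.hmain
  have hx2 : x ^ 2 ≤ x * x0 := by
    rw [sq]
    exact mul_le_mul_of_nonneg_left hx hx0.le
  have h3 : 2 * s * τ ≤ 2 * s₂ * Y * x := by
    have := mul_le_mul hs2 hτY hτ.le hs2nn.le
    linarith
  have h4 : 2 * s ^ 2 * m ≤ 2 * s₂ ^ 2 * P * x ^ 2 := by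
    have h11 : s ^ 2 ≤ s₂ ^ 2 := pow_le_pow_left₀ hs0.le hs2 2
    by_cases hm0 : 0 ≤ m
    · have := mul_le_mul h11 hmP hm0 (by positivity)
      linarith
    · rw [not_le] at hm0
      have h12 : 2 * s ^ 2 * m ≤ 0 :=
        mul_nonpos_of_nonneg_of_nonpos (by positivity) hm0.le
      have h13 : 0 ≤ 2 * s₂ ^ 2 * P * x ^ 2 := by positivity
      linarith
  have h6 : 2 * s₂ ^ 2 * P * x ^ 2 ≤ 2 * s₂ ^ 2 * P * (x * x0) :=
    mul_le_mul_of_nonneg_left hx2 (by positivity)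
  have h7 : x * (2 * s₂ * Y + 2 * s₂ ^ 2 * x0 * P) < x * (2 / 5) :=
    mul_lt_mul_of_pos_left hm1 hx0
  have e : x * (2 * s₂ * Y + 2 * s₂ ^ 2 * x0 * P) =
      2 * s₂ * Y * x + 2 * s₂ ^ 2 * P * (x * x0) := by ring
  rw [e] at h7
  linarith

/-- A nonpositive limit of `t`. -/
lemma Cell.pos_of_nonpos (h : Cell s₁ s₂ x0 G₀ Φ Y P P') {s x τ m : ℝ} (hs1 : s₁ ≤ s) (hs2 : s ≤ s₂)
    (hx0 : 0 < x) (hx : x ≤ x0) (hτ : τ ≤ 0)
    (hM : m ≤ s ^ 2 * m + (5 + 4 * s) * f3 x) :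
    0 < 2 / 5 * x - 2 * s * τ - 2 * s ^ 2 * m := by
  have hs0 : 0 < s := h.s₁_pos.trans_le hs1
  have hΦ0 := h.Phi_pos
  have h1s := h.one_sub_pos hs2 hs0.le
  have hs2nn : 0 < s₂ := hs0.trans_le hs2
  have hP0 := h.P'_nonneg
  have hmP : m ≤ P' * x ^ 2 := by
    have h3 : (5 + 4 * s) * f3 x ≤ (5 + 4 * s) * (x ^ 2 / 2 * Φ) :=
      mul_le_mul_of_nonneg_left (h.phi_bound hx0.le hx) (by positivity)
    have h9 : (5 + 4 * s) * (x ^ 2 / 2 * Φ) ≤ (5 / 2 + 2 * s₂) * Φ * x ^ 2 := by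
      have e : (5 + 4 * s) * (x ^ 2 / 2 * Φ) = (5 / 2 + 2 * s) * Φ * x ^ 2 := by ring
      rw [e]
      have h10 : (5 / 2 + 2 * s) * Φ ≤ (5 / 2 + 2 * s₂) * Φ :=
        mul_le_mul_of_nonneg_right (by linarith) hΦ0.le
      exact mul_le_mul_of_nonneg_right h10 (by positivity)
    have h9' := mul_le_mul_of_nonneg_right h.hP' (show 0 ≤ x ^ 2 by positivity)
    have h10 : P' * x ^ 2 * (1 - s₂ ^ 2) ≤ P' * x ^ 2 * (1 - s ^ 2) := by
      have h11 : s ^ 2 ≤ s₂ ^ 2 := pow_le_pow_left₀ hs0.le hs2 2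
      have h12 : 0 ≤ P' * x ^ 2 := by positivity
      exact mul_le_mul_of_nonneg_left (by linarith) h12
    have h12 : m * (1 - s ^ 2) ≤ P' * x ^ 2 * (1 - s ^ 2) := by
      have e1 : m * (1 - s ^ 2) = m - s ^ 2 * m := by ring
      have e3 : P' * (1 - s₂ ^ 2) * x ^ 2 = P' * x ^ 2 * (1 - s₂ ^ 2) := by ring
      rw [e1]
      rw [e3] at h9'
      linarith
    exact le_of_mul_le_mul_right h12 h1s
  have hx2 : x ^ 2 ≤ x * x0 := by
    rw [sq]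
    exact mul_le_mul_of_nonneg_left hx hx0.le
  have h4 : 2 * s ^ 2 * m ≤ 2 * s₂ ^ 2 * P' * x ^ 2 := by
    have h11 : s ^ 2 ≤ s₂ ^ 2 := pow_le_pow_left₀ hs0.le hs2 2
    by_cases hm0 : 0 ≤ m
    · have := mul_le_mul h11 hmP hm0 (by positivity)
      linarith
    · rw [not_le] at hm0
      have h12 : 2 * s ^ 2 * m ≤ 0 :=
        mul_nonpos_of_nonneg_of_nonpos (by positivity) hm0.le
      have h13 : 0 ≤ 2 * s₂ ^ 2 * P' * x ^ 2 := by positivity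
      linarith
  have h6 : 2 * s₂ ^ 2 * P' * x ^ 2 ≤ 2 * s₂ ^ 2 * P' * (x * x0) :=
    mul_le_mul_of_nonneg_left hx2 (by positivity)
  have h7 : x * (2 * s₂ ^ 2 * x0 * P') < x * (2 / 5) := mul_lt_mul_of_pos_left h.halt hx0
  have e : x * (2 * s₂ ^ 2 * x0 * P') = 2 * s₂ ^ 2 * P' * (x * x0) := by ring
  rw [e] at h7
  have h8 : 0 ≤ -(2 * s * τ) := by
    have : 0 ≤ 2 * s * (-τ) := by
      have : 0 ≤ -τ := by linarith
      positivity
    linarith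
  linarith

end Cell

end Crest.Agent.PottsTree.CertQ3.T48
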