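import Crest.Agent.Lib.PottsTree.CertQ3
import Crest.Agent.Lib.PottsTree.Tail
import Crest.Agent.Lib.PottsTree.Tail48A

/-!
# The tail for `q = 3`, `λ < 0`: moments of stars

Three functionals `r`, `t`, `r²`, with three pair bounds; closed forms for the moments of the star
powers, and their averages over a law of the number of children.
-/

set_option linter.unusedVariables false
set_option linter.unusedSimpArgs false

noncomputable section

namespace Crest.Agent.PottsTree.CertQ3.T48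

open Filter Finset
open Crest.Agent.PottsTree
open Crest.ProbabilityR.Broadcast
open ConeData Cmp

/-- `r²` -/
def ss (p : Fin 3 → ℝ) : ℝ := rr p ^ 2

/-- The three pair bounds. -/
structure Pair48 : Prop where
  P1 : ∀ p ∈ Sx 3, ∀ r ∈ Sx 3, B rr p r ≤ rr p + rr r + 101 / 50 * (rr p * rr r)
  P2 : ∀ p ∈ Sx 3, ∀ r ∈ Sx 3, B tt p r ≤ tt p + tt r + 31 / 5 * (rr p * rr r) -
      29 / 5 * (rr p * tt r + tt p * rr r) + 26 / 5 * (tt p * tt r)
  P3 : ∀ p ∈ Sx 3, ∀ r ∈ Sx 3, B ss p r ≤ ss p + ss r + 5 * (rr p * rr r) + 8 * (tt p * tt r)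

/-! ### pointwise -/

lemma tt_le_rr {p : Fin 3 → ℝ} (hp : p ∈ Sx 3) : tt p ≤ rr p := by
  obtain ⟨u, v, c, hu, hv, hc, he, h1, h2⟩ := exists_chamber hp
  rw [h1, h2]
  exact tU_le hu hv hc he

lemma neg_half_le_tt {p : Fin 3 → ℝ} (hp : p ∈ Sx 3) : - (rr p / 2) ≤ tt p := by
  obtain ⟨u, v, c, hu, hv, hc, he, h1, h2⟩ := exists_chamber hp
  rw [h1, h2]
  have e : rU u v + 2 * tU u v = 3 * u ^ 2 * (u + 2 * v) + 3 * c * rU u v := by
    have h3 : rU u v = rU u v * (u + 2 * v + 3 * c) := by rw [he, mul_one]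
    have : rU u v + 2 * tU u v = rU u v * (u + 2 * v + 3 * c) + 2 * tU u v := by rw [← h3]
    rw [this]
    simp only [rU, tU]
    ring
  have h4 := rU_nonneg u v
  have h5 : 0 ≤ 3 * u ^ 2 * (u + 2 * v) + 3 * c * rU u v := by positivity
  linarith

lemma bddS_rr : BddS (q := 3) rr :=
  ⟨1, fun p hp => by
    rw [abs_of_nonneg (rr_nonneg hp)]
    exact rr_le_one hp⟩

lemma bddS_tt : BddS (q := 3) tt :=
  ⟨15, fun p hp => by
    obtain ⟨h1, h2⟩ := tt_bound hp
    rw [abs_le]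
    constructor <;> linarith⟩

lemma ss_nonneg (p : Fin 3 → ℝ) : 0 ≤ ss p := sq_nonneg _

lemma bddS_ss : BddS (q := 3) ss :=
  ⟨1, fun p hp => by
    have h1 := rr_nonneg hp
    have h2 := rr_le_one hp
    rw [abs_of_nonneg (ss_nonneg p)]
    simp only [ss]
    nlinarith⟩

lemma convexOn_rr : ConvexOn ℝ (Sx 3) rr := by
  have h := (convexOn_A (q := 3)).smul (show (0 : ℝ) ≤ 1 / 2 by norm_num)
  refine h.congr fun p hp => ?_
  simp only [Pi.smul_apply, smul_eq_mul, A_eq hp]
  ring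

lemma convexOn_ss : ConvexOn ℝ (Sx 3) ss := by
  have h := convexOn_rr.pow (fun p hp => rr_nonneg hp) 2
  refine h.congr fun p hp => ?_
  simp [ss]

/-- `3 r + t = (9/2) ∑ p_i³ - 1/2` on the simplex -/
lemma three_rr_add_tt {p : Fin 3 → ℝ} (hp : p ∈ Sx 3) :
    3 * rr p + tt p = 9 / 2 * (p 0 ^ 3 + p 1 ^ 3 + p 2 ^ 3) - 1 / 2 := by
  obtain ⟨p0, p1, p2, hs⟩ := sx3 hp
  have hz : p 2 = 1 - p 0 - p 1 := by linarith
  simp only [tt, GG, rr, e2v, hz]
  ring

/-- `3 r + t` -/
def rt3 (p : Fin 3 → ℝ) : ℝ := 3 * rr p + tt p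

lemma bddS_rt3 : BddS (q := 3) rt3 := (bddS_rr.const_mul 3).add bddS_tt

lemma convexOn_rt3 : ConvexOn ℝ (Sx 3) rt3 := by
  have hc : ConvexOn ℝ (Sx 3) (fun p : Fin 3 → ℝ => 9 / 2 * (p 0 ^ 3 + p 1 ^ 3 + p 2 ^ 3) - 1 / 2) := by
    refine ⟨convex_stdSimplex ℝ (Fin 3), ?_⟩
    intro x hx y hy a b ha hb hab
    have key : ∀ i : Fin 3, (a • x + b • y) i ^ 3 ≤ a * x i ^ 3 + b * y i ^ 3 := by
      intro i
      have h := (convexOn_pow (𝕜 := ℝ) 3).2 (Set.mem_Ici.2 (hx.1 i)) (Set.mem_Ici.2 (hy.1 i)) ha hb hab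
      simpa using h
    have k0 := key 0
    have k1 := key 1
    have k2 := key 2
    simp only [smul_eq_mul]
    have e : a * (1 / 2) + b * (1 / 2) = 1 / 2 := by
      rw [← add_mul, hab, one_mul]
    nlinarith
  refine hc.congr fun p hp => ?_
  simp only [rt3]
  exact (three_rr_add_tt hp).symm

lemma rt3_nonneg {p : Fin 3 → ℝ} (hp : p ∈ Sx 3) : 0 ≤ rt3 p := by
  have h1 := neg_half_le_tt hp
  have h2 := rr_nonneg hp
  simp only [rt3]
  linarith

lemma rr_unif : rr (fun _ => 1 / ((3 : ℕ) : ℝ)) = 0 := by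
  simp only [rr, e2v]
  norm_num

lemma tt_unif : tt (fun _ => 1 / ((3 : ℕ) : ℝ)) = 0 := by
  simp only [tt, GG, rr, e2v]
  norm_num

lemma ss_unif : ss (fun _ => 1 / ((3 : ℕ) : ℝ)) = 0 := by
  simp only [ss, rr, e2v]
  norm_num

/-! ### moments -/

section Moments

variable {Ω : Type*} {L : Ω → Fin 3 → ℝ}

lemma pot_rr_nonneg (hL : IsLik L) : 0 ≤ Pot rr L := pot_nonneg hL bddS_rr fun p hp => rr_nonneg hp

lemma pot_ss_nonneg (hL : IsLik L) : 0 ≤ Pot ss L := pot_nonneg hL bddS_ss fun p _ => ss_nonneg p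

lemma pot_tt_le (hL : IsLik L) : Pot tt L ≤ Pot rr L := pot_mono hL bddS_tt bddS_rr fun p hp => tt_le_rr hp

lemma neg_half_le_pot_tt (hL : IsLik L) : - (Pot rr L / 2) ≤ Pot tt L := by
  have h := pot_mono hL (bddS_rr.const_mul (-(1 / 2))) bddS_tt (f := fun p => -(1 / 2) * rr p)
    (fun p hp => by
      have := neg_half_le_tt hp
      linarith)
  rw [pot_const_mul] at h
  linarith

lemma pot_rt3 (hL : IsLik L) : Pot rt3 L = 3 * Pot rr L + Pot tt L := by
  have h := pot_add hL (bddS_rr.const_mul 3) bddS_tt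
  rw [pot_const_mul] at h
  exact h

lemma pot_rr_contract (lam : ℝ) (hL : IsLik L) : Pot rr (contract lam L) = lam ^ 2 * Pot rr L := by
  rw [pot_contract (by norm_num), ← pot_const_mul]
  exact pot_congr hL fun p hp => (T_forms hp lam).1

lemma pot_tt_contract (lam : ℝ) (hL : IsLik L) : Pot tt (contract lam L) = lam ^ 3 * Pot tt L := by
  rw [pot_contract (by norm_num), ← pot_const_mul]
  exact pot_congr hL fun p hp => (T_forms hp lam).2

lemma pot_ss_contract (lam : ℝ) (hL : IsLik L) : Pot ss (contract lam L) = lam ^ 4 * Pot ss L := by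
  rw [pot_contract (by norm_num), ← pot_const_mul]
  refine pot_congr hL fun p hp => ?_
  simp only [ss, (T_forms hp lam).1]
  ring

lemma pot_XiQ_eq (hL : IsLik L) :
    Pot XiQ L = 2 / 5 * Pot rr L + 2 * Pot tt L - 2 * Pot ss L := by
  have h : XiQ = fun p => (2 / 5 * rr p + 2 * tt p) + (-2) * ss p := by
    funext p
    simp only [XiQ, ss]
    ring
  rw [h, pot_add hL ((bddS_rr.const_mul _).add (bddS_tt.const_mul _)) (bddS_ss.const_mul _),
    pot_add hL (bddS_rr.const_mul _) (bddS_tt.const_mul _), pot_const_mul, pot_const_mul,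
    pot_const_mul]
  ring

lemma pot_XiQ_contract (s : ℝ) (hL : IsLik L) :
    Pot XiQ (contract (-s) L) =
      s ^ 2 * (2 / 5 * Pot rr L - 2 * s * Pot tt L - 2 * s ^ 2 * Pot ss L) := by
  rw [pot_contract (by norm_num)]
  have h : (fun p => XiQ (T 3 (-s) p)) =
      fun p => XiQ (T 3 (-s) p) := rfl
  have h2 : Pot (fun p => XiQ (T 3 (-s) p)) L =
      Pot (fun p => s ^ 2 * (2 / 5 * rr p - 2 * s * tt p - 2 * s ^ 2 * ss p)) L := by
    refine pot_congr hL fun p hp => ?_
    simp only [XiQ, ss, (T_forms hp (-s)).1, (T_forms hp (-s)).2]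
    ring
  rw [h2, pot_const_mul]
  have h3 : (fun p => 2 / 5 * rr p - 2 * s * tt p - 2 * s ^ 2 * ss p) =
      fun p => (2 / 5 * rr p + (-(2 * s)) * tt p) + (-(2 * s ^ 2)) * ss p := by
    funext p
    ring
  rw [h3, pot_add hL ((bddS_rr.const_mul _).add (bddS_tt.const_mul _)) (bddS_ss.const_mul _),
    pot_add hL (bddS_rr.const_mul _) (bddS_tt.const_mul _), pot_const_mul, pot_const_mul,
    pot_const_mul]
  ring

end Moments

/-! ### one star -/

section Star

variable {Ω Ω' : Type*} {L : Ω → Fin 3 → ℝ} {L' : Ω' → Fin 3 → ℝ}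

lemma pot_rr_star_le (hP : Pair48) (hL : IsLik L) (hL' : IsLik L') (hS' : SymLik L') :
    Pot rr (star L L') ≤ Pot rr L + Pot rr L' + 101 / 50 * (Pot rr L * Pot rr L') := by
  have key := pot_star_le_sum (ι := Fin 3) (q := 3) (by norm_num) hL hL' hS' bddS_rr Finset.univ
    (u := ![rr, fun _ => 1, fun p => 101 / 50 * rr p])
    (v := ![fun _ => 1, rr, rr])
    (fun k _ => by
      fin_cases k
      · exact bddS_rr
      · exact BddS.const _
      · exact bddS_rr.const_mul _)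
    (fun k _ => by
      fin_cases k
      · exact BddS.const _
      · exact bddS_rr
      · exact bddS_rr)
    (fun p hp r hr => by
      have := hP.P1 p hp r hr
      simp only [Fin.sum_univ_succ, Fin.sum_univ_zero, Matrix.cons_val_zero,
        Matrix.cons_val_succ, Matrix.cons_val_fin_one]
      linarith)
  simp only [Fin.sum_univ_succ, Fin.sum_univ_zero, Matrix.cons_val_zero, Matrix.cons_val_succ,
    Matrix.cons_val_fin_one] at key
  rw [pot_const (by norm_num) hL, pot_const (by norm_num) hL'] at key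
  simp only [pot_const_mul] at key
  linarith

lemma pot_tt_star_le (hP : Pair48) (hL : IsLik L) (hL' : IsLik L') (hS' : SymLik L') :
    Pot tt (star L L') ≤ Pot tt L + Pot tt L' + 31 / 5 * (Pot rr L * Pot rr L') -
      29 / 5 * (Pot rr L * Pot tt L' + Pot tt L * Pot rr L') + 26 / 5 * (Pot tt L * Pot tt L') := by
  have key := pot_star_le_sum (ι := Fin 6) (q := 3) (by norm_num) hL hL' hS' bddS_tt Finset.univ
    (u := ![tt, fun _ => 1, fun p => 31 / 5 * rr p, fun p => -(29 / 5) * rr p,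
      fun p => -(29 / 5) * tt p, fun p => 26 / 5 * tt p])
    (v := ![fun _ => 1, tt, rr, tt, rr, tt])
    (fun k _ => by
      fin_cases k
      · exact bddS_tt
      · exact BddS.const _
      · exact bddS_rr.const_mul _
      · exact bddS_rr.const_mul _
      · exact bddS_tt.const_mul _
      · exact bddS_tt.const_mul _)
    (fun k _ => by
      fin_cases k
      · exact BddS.const _
      · exact bddS_tt
      · exact bddS_rr
      · exact bddS_tt
      · exact bddS_rr
      · exact bddS_tt)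
    (fun p hp r hr => by
      have := hP.P2 p hp r hr
      simp only [Fin.sum_univ_succ, Fin.sum_univ_zero, Matrix.cons_val_zero,
        Matrix.cons_val_succ, Matrix.cons_val_fin_one]
      linarith)
  simp only [Fin.sum_univ_succ, Fin.sum_univ_zero, Matrix.cons_val_zero, Matrix.cons_val_succ,
    Matrix.cons_val_fin_one] at key
  rw [pot_const (by norm_num) hL, pot_const (by norm_num) hL'] at key
  simp only [pot_const_mul] at key
  linarith

lemma pot_ss_star_le (hP : Pair48) (hL : IsLik L) (hL' : IsLik L') (hS' : SymLik L') :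
    Pot ss (star L L') ≤ Pot ss L + Pot ss L' + 5 * (Pot rr L * Pot rr L') +
      8 * (Pot tt L * Pot tt L') := by
  have key := pot_star_le_sum (ι := Fin 4) (q := 3) (by norm_num) hL hL' hS' bddS_ss Finset.univ
    (u := ![ss, fun _ => 1, fun p => 5 * rr p, fun p => 8 * tt p])
    (v := ![fun _ => 1, ss, rr, tt])
    (fun k _ => by
      fin_cases k
      · exact bddS_ss
      · exact BddS.const _
      · exact bddS_rr.const_mul _
      · exact bddS_tt.const_mul _)
    (fun k _ => by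
      fin_cases k
      · exact BddS.const _
      · exact bddS_ss
      · exact bddS_rr
      · exact bddS_tt)
    (fun p hp r hr => by
      have := hP.P3 p hp r hr
      simp only [Fin.sum_univ_succ, Fin.sum_univ_zero, Matrix.cons_val_zero,
        Matrix.cons_val_succ, Matrix.cons_val_fin_one]
      linarith)
  simp only [Fin.sum_univ_succ, Fin.sum_univ_zero, Matrix.cons_val_zero, Matrix.cons_val_succ,
    Matrix.cons_val_fin_one] at key
  rw [pot_const (by norm_num) hL, pot_const (by norm_num) hL'] at key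
  simp only [pot_const_mul] at key
  linarith

end Star

/-! ### closed forms for star powers -/

section Pow

variable {Ω : Type*} {y : Ω → Fin 3 → ℝ}

/-- the first moment -/
lemma pot_rr_starPow_le (hP : Pair48) (hy : IsLik y) (hS : SymLik y) (j : ℕ) :
    Pot rr (starPow y j) ≤ 50 / 101 * ((1 + 101 / 50 * Pot rr y) ^ j - 1) := by
  set ρ := Pot rr y with hρ
  have hρ0 : 0 ≤ ρ := pot_rr_nonneg hy
  induction j with
  | zero =>
    rw [pot_starPow_zero y (by norm_num), rr_unif]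
    simp
  | succ j ih =>
    rw [pot_congr_starPow_succ]
    have h := pot_rr_star_le hP hy (isLik_starPow hy j) (symLik_starPow (by norm_num) hy hS j)
    rw [← hρ] at h
    set a := Pot rr (starPow y j)
    rw [pow_succ]
    set U := (1 + 101 / 50 * ρ) ^ j
    have h1 : ρ * a ≤ ρ * (50 / 101 * (U - 1)) := mul_le_mul_of_nonneg_left ih hρ0
    nlinarith

/-- the auxiliary function `D` -/
def DD (ρ : ℝ) (j : ℕ) : ℝ :=
  2500 / 39491 * (1 + 101 / 50 * ρ) ^ j - 250 / 2929 + 250 / 11339 * (1 - 29 / 5 * ρ) ^ j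

lemma DD_zero (ρ : ℝ) : DD ρ 0 = 0 := by
  simp only [DD]
  norm_num

lemma DD_succ (ρ : ℝ) (j : ℕ) :
    DD ρ (j + 1) = (1 - 29 / 5 * ρ) * DD ρ j + ρ * (50 / 101 * ((1 + 101 / 50 * ρ) ^ j - 1)) := by
  simp only [DD, pow_succ]
  ring

lemma DD_nonneg {ρ : ℝ} (h0 : 0 ≤ ρ) (h1 : 29 / 5 * ρ ≤ 1) (j : ℕ) : 0 ≤ DD ρ j := by
  induction j with
  | zero => rw [DD_zero]
  | succ j ih =>
    rw [DD_succ]
    have h2 : 1 ≤ (1 + 101 / 50 * ρ) ^ j := one_le_pow₀ (by linarith)
    have h3 : 0 ≤ (1 - 29 / 5 * ρ) * DD ρ j := mul_nonneg (by linarith) ih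
    have h4 : 0 ≤ ρ * (50 / 101 * ((1 + 101 / 50 * ρ) ^ j - 1)) :=
      mul_nonneg h0 (by linarith)
    linarith

/-- the auxiliary function `C` -/
def CC (E ρ : ℝ) (j : ℕ) : ℝ := (1 - (1 - E * ρ) ^ j) / (E * ρ)

lemma CC_zero (E ρ : ℝ) : CC E ρ 0 = 0 := by
  simp [CC]

lemma CC_succ {E ρ : ℝ} (h : E * ρ ≠ 0) (j : ℕ) :
    CC E ρ (j + 1) = (1 - E * ρ) * CC E ρ j + 1 := by
  simp only [CC, pow_succ]
  generalize E * ρ = e at h
  generalize (1 - e) ^ j = V
  field_simp
  ring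

lemma CC_nonneg {E ρ : ℝ} (h : 0 < E * ρ) (h1 : E * ρ ≤ 1) (j : ℕ) : 0 ≤ CC E ρ j := by
  induction j with
  | zero => rw [CC_zero]
  | succ j ih =>
    rw [CC_succ h.ne']
    have := mul_nonneg (sub_nonneg.2 h1) ih
    linarith

/-- the `t`-moment -/
lemma pot_tt_starPow_le (hP : Pair48) (hy : IsLik y) (hS : SymLik y) {s : ℝ} (hs : 0 ≤ s)
    (hρ0 : 0 < Pot rr y) (hθ : Pot tt y ≤ 0) (hθs : - Pot tt y ≤ s * Pot rr y)
    (hv : (29 / 5 + 26 / 5 * s) * Pot rr y ≤ 1) (j : ℕ) :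
    Pot tt (starPow y j) ≤ Pot tt y * CC (29 / 5 + 26 / 5 * s) (Pot rr y) j +
      (31 / 5 - 29 / 5 * (Pot tt y / Pot rr y)) * DD (Pot rr y) j := by
  set ρ := Pot rr y with hρ
  set θ := Pot tt y with hθdef
  set E := 29 / 5 + 26 / 5 * s with hE
  have hE0 : 0 < E := by positivity
  have hEρ : 0 < E * ρ := mul_pos hE0 hρ0
  set κ := 31 / 5 - 29 / 5 * (θ / ρ) with hκ
  have hκ0 : 0 ≤ κ := by
    have : θ / ρ ≤ 0 := div_nonpos_of_nonpos_of_nonneg hθ hρ0.le
    simp only [hκ]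
    linarith
  have hκρ : κ * ρ = 31 / 5 * ρ - 29 / 5 * θ := by
    simp only [hκ]
    field_simp
  have h295 : 29 / 5 * ρ ≤ 1 := by
    have : 26 / 5 * s * ρ ≥ 0 := by positivity
    nlinarith
  induction j with
  | zero =>
    rw [pot_starPow_zero y (by norm_num), tt_unif, CC_zero, DD_zero]
    simp
  | succ j ih =>
    rw [pot_congr_starPow_succ]
    have h := pot_tt_star_le hP hy (isLik_starPow hy j) (symLik_starPow (by norm_num) hy hS j)
    rw [← hρ, ← hθdef] at h
    have ha := pot_rr_starPow_le hP hy hS j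
    rw [← hρ] at ha
    set a := Pot rr (starPow y j)
    set τ := Pot tt (starPow y j)
    rw [CC_succ hEρ.ne', DD_succ]
    have hC := CC_nonneg hEρ hv j
    have hD := DD_nonneg hρ0.le h295 j
    set C := CC E ρ j
    set D := DD ρ j
    set U := (1 + 101 / 50 * ρ) ^ j
    set v := 1 - 29 / 5 * ρ + 26 / 5 * θ with hvdef
    have hv1 : 1 - E * ρ ≤ v := by
      simp only [hvdef, hE]
      nlinarith
    have hv2 : v ≤ 1 - 29 / 5 * ρ := by
      simp only [hvdef]
      linarith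
    have hv0 : 0 ≤ v := by linarith
    have h1 : v * τ ≤ v * (θ * C + κ * D) := mul_le_mul_of_nonneg_left ih hv0
    have h2 : θ * C * v ≤ θ * C * (1 - E * ρ) :=
      mul_le_mul_of_nonpos_left hv1 (mul_nonpos_of_nonpos_of_nonneg hθ hC)
    have h3 : κ * D * v ≤ κ * D * (1 - 29 / 5 * ρ) :=
      mul_le_mul_of_nonneg_left hv2 (mul_nonneg hκ0 hD)
    have h4 : (κ * ρ) * a ≤ (κ * ρ) * (50 / 101 * (U - 1)) :=
      mul_le_mul_of_nonneg_left ha (mul_nonneg hκ0 hρ0.le)
    rw [hκρ] at h4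
    have e1 : θ * ((1 - E * ρ) * C + 1) + κ * ((1 - 29 / 5 * ρ) * D + ρ * (50 / 101 * (U - 1))) =
        θ * C * (1 - E * ρ) + κ * D * (1 - 29 / 5 * ρ) + (κ * ρ) * (50 / 101 * (U - 1)) + θ := by
      ring
    rw [e1, hκρ]
    have e2 : θ + τ + 31 / 5 * (ρ * a) - 29 / 5 * (ρ * τ + θ * a) + 26 / 5 * (θ * τ) =
        v * τ + (31 / 5 * ρ - 29 / 5 * θ) * a + θ := by
      simp only [hvdef]
      ring
    have e3 : v * (θ * C + κ * D) = θ * C * v + κ * D * v := by ring
    linarith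

/-- the `r²`-moment -/
lemma pot_ss_starPow_le (hP : Pair48) (hy : IsLik y) (hS : SymLik y) {Km : ℝ} (hKm : 0 ≤ Km)
    (hcross : ∀ j, 8 * (Pot tt y * Pot tt (starPow y j)) ≤
      (Km - 5) * (Pot rr y * Pot rr (starPow y j))) (j : ℕ) :
    Pot ss (starPow y j) ≤ j * Pot ss y +
      Km * (2500 / 10201 * ((1 + 101 / 50 * Pot rr y) ^ j - 1) - 50 / 101 * (j * Pot rr y)) := by
  set ρ := Pot rr y with hρ
  have hρ0 : 0 ≤ ρ := pot_rr_nonneg hy
  induction j with
  | zero =>
    rw [pot_starPow_zero y (by norm_num), ss_unif]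
    simp
  | succ j ih =>
    rw [pot_congr_starPow_succ]
    have h := pot_ss_star_le hP hy (isLik_starPow hy j) (symLik_starPow (by norm_num) hy hS j)
    rw [← hρ] at h
    have ha := pot_rr_starPow_le hP hy hS j
    rw [← hρ] at ha
    have hc := hcross j
    set a := Pot rr (starPow y j)
    set τ := Pot tt (starPow y j)
    have h1 : (Km * ρ) * a ≤ (Km * ρ) * (50 / 101 * ((1 + 101 / 50 * ρ) ^ j - 1)) :=
      mul_le_mul_of_nonneg_left ha (mul_nonneg hKm hρ0)
    rw [pow_succ]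
    push_cast
    set U := (1 + 101 / 50 * ρ) ^ j
    nlinarith

end Pow

end Crest.Agent.PottsTree.CertQ3.T48

end
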