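import Crest.Agent.Lib.PottsTree.Tail48B

/-!
# The tail for `q = 3`, `λ < 0`: the level recursion and the limit argument

The moments `E r`, `E (3 r + t)`, `E r²` are antitone along the levels, so all three converge, and
their limits satisfy the level inequalities with the same numbers on both sides.  `Cell` then forces
the limit of `E Xi` of the contracted law to be positive if the limit of `E r` is.
-/

set_option linter.unusedVariables false
set_option linter.unusedSimpArgs false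

noncomputable section

namespace Crest.Agent.PottsTree.CertQ3.T48

open Filter Finset
open Crest.Agent.PottsTree
open Crest.ProbabilityR.Broadcast
open ConeData Cmp

/-! ### laws of the number of children -/

/-- A law of the number of children with mean `N` whose generating function is below the Poisson one. -/
structure ChildLaw (w : ℕ → ℝ) (N : ℝ) : Prop where
  nonneg : ∀ j, 0 ≤ w j
  sum_one : HasSum w 1
  mean : HasSum (fun j : ℕ => (j : ℝ) * w j) N
  pgf : ∀ z : ℝ, 0 ≤ z → ∃ S, HasSum (fun j => w j * z ^ j) S ∧ S ≤ Real.exp (N * (z - 1))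

lemma ChildLaw.tsum_le {w : ℕ → ℝ} {N : ℝ} (h : ChildLaw w N) {F : ℕ → ℝ}
    (hF : Summable fun j => w j * F j) {A₀ Bc A₁ A₂ A₃ z₁ z₂ z₃ : ℝ} (h1 : 0 ≤ A₁) (h2 : 0 ≤ A₂)
    (h3 : 0 ≤ A₃) (hz₁ : 0 ≤ z₁) (hz₂ : 0 ≤ z₂) (hz₃ : 0 ≤ z₃)
    (hle : ∀ j : ℕ, F j ≤ A₀ + Bc * j + A₁ * z₁ ^ j + A₂ * z₂ ^ j + A₃ * z₃ ^ j) :
    ∑' j, w j * F j ≤ A₀ + Bc * N + A₁ * Real.exp (N * (z₁ - 1)) + A₂ * Real.exp (N * (z₂ - 1)) +
      A₃ * Real.exp (N * (z₃ - 1)) := by
  obtain ⟨S₁, hS₁, hS₁'⟩ := h.pgf z₁ hz₁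
  obtain ⟨S₂, hS₂, hS₂'⟩ := h.pgf z₂ hz₂
  obtain ⟨S₃, hS₃, hS₃'⟩ := h.pgf z₃ hz₃
  have hR : HasSum (fun j : ℕ => A₀ * w j + Bc * ((j : ℝ) * w j) + A₁ * (w j * z₁ ^ j) +
      A₂ * (w j * z₂ ^ j) + A₃ * (w j * z₃ ^ j)) (A₀ * 1 + Bc * N + A₁ * S₁ + A₂ * S₂ + A₃ * S₃) :=
    (((h.sum_one.mul_left A₀).add (h.mean.mul_left Bc)).add (hS₁.mul_left A₁)).add
      (hS₂.mul_left A₂) |>.add (hS₃.mul_left A₃)
  have key := hasSum_le (fun j => ?_) hF.hasSum hR
  · have k1 := mul_le_mul_of_nonneg_left hS₁' h1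
    have k2 := mul_le_mul_of_nonneg_left hS₂' h2
    have k3 := mul_le_mul_of_nonneg_left hS₃' h3
    linarith
  · have := mul_le_mul_of_nonneg_left (hle j) (h.nonneg j)
    refine this.trans (le_of_eq ?_)
    ring

/-- The law of the next level as a mixture of star powers. -/
def MixOf (w : ℕ → ℝ) {Ω Ω' : Type*} (y : Ω → Fin 3 → ℝ) (Z : Ω' → Fin 3 → ℝ) : Prop :=
  ∀ f : (Fin 3 → ℝ) → ℝ, BddS f → Pot f Z = ∑' j, w j * Pot f (starPow y j)

lemma ChildLaw.summable_pot {w : ℕ → ℝ} {N : ℝ} (h : ChildLaw w N) {Ω : Type*}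
    {y : Ω → Fin 3 → ℝ} (hy : IsLik y) {f : (Fin 3 → ℝ) → ℝ} (hf : BddS f) :
    Summable fun j => w j * Pot f (starPow y j) := by
  obtain ⟨C, hC⟩ := hf
  refine Summable.of_norm_bounded (g := fun n => w n * C) (h.sum_one.summable.mul_right _)
    fun n => ?_
  rw [Real.norm_eq_abs, abs_mul, abs_of_nonneg (h.nonneg n)]
  exact mul_le_mul_of_nonneg_left (abs_pot_le (by norm_num) (isLik_starPow hy n) hC) (h.nonneg n)

/-! ### one level -/

section Level

variable {Ω Ω' : Type*} {L : Ω → Fin 3 → ℝ} {Z : Ω' → Fin 3 → ℝ} {w : ℕ → ℝ} {N s : ℝ}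

/-- The `t`-moment of the next level, when the `t`-moment of this level is positive. -/
lemma level_tt (hP : Pair48) (hL : IsLik L) (hS : SymLik L) (hc : ChanOK 3 (-s)) (hw : ChildLaw w N)
    (hNs : N * s ^ 2 = 1) (hs : 0 < s) (hmix : MixOf w (contract (-s) L) Z) (ha : 0 < Pot rr L)
    (hτ : 0 < Pot tt L) (hv : (29 / 5 + 26 / 5 * s) * (s ^ 2 * Pot rr L) ≤ 1) :
    Pot tt Z ≤ -(s * Pot tt L / ((29 / 5 + 26 / 5 * s) * Pot rr L)) *
        (1 - Real.exp (-((29 / 5 + 26 / 5 * s) * Pot rr L))) +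
      (31 / 5 + 29 / 5 * (s * Pot tt L / Pot rr L)) * f1 (Pot rr L) := by
  have hy := isLik_contract (by norm_num) hc hL
  have hSy := symLik_contract (by norm_num) hc hS
  have e1 := pot_rr_contract (-s) hL
  have e2 := pot_tt_contract (-s) hL
  have hle := pot_tt_le hL
  set y := contract (-s) L
  set a := Pot rr L with ha_def
  set τ := Pot tt L with hτ_def
  rw [show (-s) ^ 2 = s ^ 2 by ring] at e1
  rw [show (-s) ^ 3 = -s ^ 3 by ring] at e2
  set E := 29 / 5 + 26 / 5 * s with hE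
  have hE0 : 0 < E := by positivity
  have hs2 : 0 < s ^ 2 := by positivity
  have hs3 : 0 < s ^ 3 := by positivity
  have hρ : 0 < Pot rr y := by rw [e1]; positivity
  have hθ : Pot tt y ≤ 0 := by
    rw [e2]
    have : 0 < s ^ 3 * τ := by positivity
    linarith
  have hθs : - Pot tt y ≤ s * Pot rr y := by
    rw [e1, e2]
    have := mul_le_mul_of_nonneg_left hle hs3.le
    nlinarith
  have hv' : E * Pot rr y ≤ 1 := by rw [e1]; exact hv
  have hstep := pot_tt_starPow_le hP hy hSy hs.le hρ hθ hθs hv'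
  rw [← hE] at hstep
  rw [hmix tt bddS_tt]
  have hNρ : N * Pot rr y = a := by
    rw [e1]
    calc N * (s ^ 2 * a) = (N * s ^ 2) * a := by ring
      _ = a := by rw [hNs, one_mul]
  set ρ := Pot rr y with hρ_def
  set θ := Pot tt y with hθ_def
  have hκ : 31 / 5 - 29 / 5 * (θ / ρ) = 31 / 5 + 29 / 5 * (s * τ / a) := by
    rw [e1, e2]
    field_simp
    ring
  rw [hκ] at hstep
  set κ := 31 / 5 + 29 / 5 * (s * τ / a) with hκ_def
  have hκ0 : 0 ≤ κ := by
    have : 0 ≤ s * τ / a := by positivity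
    simp only [hκ_def]
    linarith
  have hEρ : 0 < E * ρ := by positivity
  have hθE : θ / (E * ρ) = -(s * τ / (E * a)) := by
    rw [e1, e2]
    field_simp
  have hA₁ : 0 ≤ -(θ / (E * ρ)) := by
    have : θ / (E * ρ) ≤ 0 := div_nonpos_of_nonpos_of_nonneg hθ hEρ.le
    linarith
  have h295 : 29 / 5 * ρ ≤ 1 := by
    have : 26 / 5 * s * ρ ≥ 0 := by positivity
    simp only [hE] at hv'
    nlinarith
  have key := hw.tsum_le (F := fun j => Pot tt (starPow y j)) (hw.summable_pot hy bddS_tt)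
    (A₀ := θ / (E * ρ) - κ * (250 / 2929)) (Bc := 0) (A₁ := -(θ / (E * ρ))) (z₁ := 1 - E * ρ)
    (A₂ := κ * (2500 / 39491)) (z₂ := 1 + 101 / 50 * ρ) (A₃ := κ * (250 / 11339))
    (z₃ := 1 - 29 / 5 * ρ)
    hA₁ (by positivity) (by positivity) (by linarith) (by positivity) (by linarith)
    (fun j => by
      refine (hstep j).trans (le_of_eq ?_)
      simp only [CC, DD]
      field_simp
      ring)
  refine key.trans (le_of_eq ?_)
  have x1 : N * (1 - E * ρ - 1) = -(E * a) := by rw [← hNρ]; ring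
  have x2 : N * (1 + 101 / 50 * ρ - 1) = 101 / 50 * a := by rw [← hNρ]; ring
  have x3 : N * (1 - 29 / 5 * ρ - 1) = -(29 / 5 * a) := by rw [← hNρ]; ring
  rw [x1, x2, x3, hθE]
  simp only [f1]
  ring

/-- The `r²`-moment of the next level. -/
lemma level_ss (hP : Pair48) (hL : IsLik L) (hS : SymLik L) (hc : ChanOK 3 (-s)) (hw : ChildLaw w N)
    (hNs : N * s ^ 2 = 1) (hmix : MixOf w (contract (-s) L) Z) {Km : ℝ} (hKm : 0 ≤ Km)
    (hcross : ∀ j, 8 * (Pot tt (contract (-s) L) * Pot tt (starPow (contract (-s) L) j)) ≤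
      (Km - 5) * (Pot rr (contract (-s) L) * Pot rr (starPow (contract (-s) L) j))) :
    Pot ss Z ≤ s ^ 2 * Pot ss L + Km * f3 (Pot rr L) := by
  have hy := isLik_contract (by norm_num) hc hL
  have hSy := symLik_contract (by norm_num) hc hS
  have e1 := pot_rr_contract (-s) hL
  have e3 := pot_ss_contract (-s) hL
  have hstep := pot_ss_starPow_le hP hy hSy hKm hcross
  rw [show (-s) ^ 2 = s ^ 2 by ring] at e1
  rw [show (-s) ^ 4 = s ^ 4 by ring] at e3
  set y := contract (-s) L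
  set a := Pot rr L with ha_def
  rw [hmix ss bddS_ss]
  have hρ0 : 0 ≤ Pot rr y := pot_rr_nonneg hy
  have hNρ : N * Pot rr y = a := by
    rw [e1]
    calc N * (s ^ 2 * a) = (N * s ^ 2) * a := by ring
      _ = a := by rw [hNs, one_mul]
  have hNμ : N * Pot ss y = s ^ 2 * Pot ss L := by
    rw [e3]
    calc N * (s ^ 4 * Pot ss L) = (N * s ^ 2) * (s ^ 2 * Pot ss L) := by ring
      _ = _ := by rw [hNs, one_mul]
  set ρ := Pot rr y
  set μ := Pot ss y
  have key := hw.tsum_le (F := fun j => Pot ss (starPow y j)) (hw.summable_pot hy bddS_ss)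
    (A₀ := -(Km * (2500 / 10201))) (Bc := μ - Km * (50 / 101 * ρ)) (A₁ := Km * (2500 / 10201))
    (z₁ := 1 + 101 / 50 * ρ) (A₂ := 0) (z₂ := 1) (A₃ := 0) (z₃ := 1)
    (by positivity) le_rfl le_rfl (by positivity) zero_le_one zero_le_one
    (fun j => by
      refine (hstep j).trans (le_of_eq ?_)
      ring)
  refine key.trans (le_of_eq ?_)
  have x2 : N * (1 + 101 / 50 * ρ - 1) = 101 / 50 * a := by rw [← hNρ]; ring
  rw [x2]
  simp only [f3]
  have e : (μ - Km * (50 / 101 * ρ)) * N = N * μ - Km * (50 / 101) * (N * ρ) := by ring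
  rw [e, hNρ, hNμ]
  ring

/-- The cross term when the `t`-moment is positive. -/
lemma cross_pos (hL : IsLik L) (hc : ChanOK 3 (-s)) (hs : 0 < s) (ha : 0 < Pot rr L)
    (hτ : 0 < Pot tt L) (j : ℕ) :
    8 * (Pot tt (contract (-s) L) * Pot tt (starPow (contract (-s) L) j)) ≤
      (5 + 4 * (s * Pot tt L / Pot rr L) - 5) *
        (Pot rr (contract (-s) L) * Pot rr (starPow (contract (-s) L) j)) := by
  have hy := isLik_contract (by norm_num) hc hL
  have e1 := pot_rr_contract (-s) hL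
  have e2 := pot_tt_contract (-s) hL
  rw [show (-s) ^ 2 = s ^ 2 by ring] at e1
  rw [show (-s) ^ 3 = -s ^ 3 by ring] at e2
  have h1 := neg_half_le_pot_tt (isLik_starPow hy j)
  rw [e1, e2]
  set A' := Pot rr (starPow (contract (-s) L) j)
  set T' := Pot tt (starPow (contract (-s) L) j)
  set a := Pot rr L
  set τ := Pot tt L
  have e : (5 + 4 * (s * τ / a) - 5) * (s ^ 2 * a * A') = 4 * (s ^ 3 * τ) * A' := by
    field_simp
    ring
  rw [e]
  have h2 : 0 < s ^ 3 * τ := by positivity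
  have := mul_le_mul_of_nonneg_left h1 h2.le
  nlinarith

/-- The cross term when the `t`-moment is not positive. -/
lemma cross_nonpos (hL : IsLik L) (hc : ChanOK 3 (-s)) (hs : 0 < s) (hτ : Pot tt L ≤ 0) (j : ℕ) :
    8 * (Pot tt (contract (-s) L) * Pot tt (starPow (contract (-s) L) j)) ≤
      (5 + 4 * s - 5) *
        (Pot rr (contract (-s) L) * Pot rr (starPow (contract (-s) L) j)) := by
  have hy := isLik_contract (by norm_num) hc hL
  have e1 := pot_rr_contract (-s) hL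
  have e2 := pot_tt_contract (-s) hL
  rw [show (-s) ^ 2 = s ^ 2 by ring] at e1
  rw [show (-s) ^ 3 = -s ^ 3 by ring] at e2
  have h1 := pot_tt_le (isLik_starPow hy j)
  have h0 := pot_rr_nonneg (isLik_starPow hy j)
  have h2 := neg_half_le_pot_tt hL
  rw [e1, e2]
  set A' := Pot rr (starPow (contract (-s) L) j)
  set T' := Pot tt (starPow (contract (-s) L) j)
  set a := Pot rr L
  set τ := Pot tt L
  have hs3 : 0 < s ^ 3 := by positivity
  have h3 : 0 ≤ -s ^ 3 * τ := by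
    have : s ^ 3 * τ ≤ 0 := mul_nonpos_of_nonneg_of_nonpos hs3.le hτ
    linarith
  have h4 : -s ^ 3 * τ * T' ≤ -s ^ 3 * τ * A' := mul_le_mul_of_nonneg_left h1 h3
  have h5 : -s ^ 3 * τ ≤ s ^ 3 * (a / 2) := by
    have := mul_le_mul_of_nonneg_left (show -τ ≤ a / 2 by linarith) hs3.le
    nlinarith
  have h6 := mul_le_mul_of_nonneg_right h5 h0
  have e : (5 + 4 * s - 5) * (s ^ 2 * a * A') = 8 * (s ^ 3 * (a / 2) * A') := by ring
  rw [e]
  linarith

/-- The `r²`-moment of the next level, without a sign condition. -/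
lemma level_ss_gen (hP : Pair48) (hL : IsLik L) (hS : SymLik L) (hc : ChanOK 3 (-s))
    (hw : ChildLaw w N) (hNs : N * s ^ 2 = 1) (hs : 0 < s) (hmix : MixOf w (contract (-s) L) Z)
    (ha : 0 < Pot rr L) :
    Pot ss Z ≤ s ^ 2 * Pot ss L + (5 + 4 * s) * f3 (Pot rr L) := by
  rcases lt_or_ge 0 (Pot tt L) with hτ | hτ
  · have h1 := level_ss hP hL hS hc hw hNs hmix (Km := 5 + 4 * (s * Pot tt L / Pot rr L))
      (by positivity) (cross_pos hL hc hs ha hτ)
    have h2 : s * Pot tt L / Pot rr L ≤ s := by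
      rw [div_le_iff₀ ha]
      exact mul_le_mul_of_nonneg_left (pot_tt_le hL) hs.le
    have h3 := mul_le_mul_of_nonneg_right (show 5 + 4 * (s * Pot tt L / Pot rr L) ≤
      5 + 4 * s by linarith) (f3_nonneg (Pot rr L))
    linarith
  · exact level_ss hP hL hS hc hw hNs hmix (by positivity) (cross_nonpos hL hc hs hτ)

end Level

/-! ### the limit argument -/

section Limit

variable {Ω : ℕ → Type} {L : ∀ n, Ω n → Fin 3 → ℝ}

/-- **The abstract tail.** -/
theorem tendsto_A_of_cell (hP : Pair48) (hL : ∀ n, IsLik (L n)) (hS : ∀ n, SymLik (L n))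
    {s N : ℝ} {w : ℕ → ℝ} (hw : ChildLaw w N) (hNs : N * s ^ 2 = 1)
    (hmix : ∀ n, MixOf w (contract (-s) (L n)) (L (n + 1))) (hdom : ∀ n, Dom (L (n + 1)) (L n))
    {s₁ s₂ x0 G₀ Φ Y Pc Pc' : ℝ} (hcell : Cell s₁ s₂ x0 G₀ Φ Y Pc Pc') (hs1 : s₁ ≤ s) (hs2 : s ≤ s₂)
    {ℓ₀ : ℕ} (h0 : Pot rr (L ℓ₀) ≤ x0) {c : ℝ} (hc : 0 < c)
    (hrec : ∀ n, Good coneData3 (contract (-s) (L n)) →
      Pot (A 3) (L (n + 1)) ≤ Pot (A 3) (L n) - c * (Pot (A 3) (L n)) ^ 3) :
    Tendsto (fun n => Pot (A 3) (L n)) atTop (nhds 0) := by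
  have hs : 0 < s := hcell.s₁_pos.trans_le hs1
  have hs12 : s ≤ 1 / 2 := hs2.trans hcell.s₂_le
  have hchan : ChanOK 3 (-s) := by
    intro i j
    unfold channel
    split_ifs <;> norm_num <;> linarith
  have hA2 : ∀ n, Pot (A 3) (L n) = 2 * Pot rr (L n) := fun n => by
    rw [← pot_const_mul]
    exact pot_congr (hL n) fun p hp => A_eq hp
  simp only [hA2] at hrec ⊢
  -- the three limits
  have ha_anti : Antitone fun n => Pot rr (L n) :=
    antitone_nat_of_succ_le fun n => hdom n rr bddS_rr convexOn_rr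
  have hb_anti : Antitone fun n => Pot rt3 (L n) :=
    antitone_nat_of_succ_le fun n => hdom n rt3 bddS_rt3 convexOn_rt3
  have hm_anti : Antitone fun n => Pot ss (L n) :=
    antitone_nat_of_succ_le fun n => hdom n ss bddS_ss convexOn_ss
  have ha_lim := tendsto_atTop_ciInf ha_anti ⟨0, by
    rintro _ ⟨n, rfl⟩
    exact pot_rr_nonneg (hL n)⟩
  have hb_lim := tendsto_atTop_ciInf hb_anti ⟨0, by
    rintro _ ⟨n, rfl⟩
    exact pot_nonneg (hL n) bddS_rt3 fun p hp => rt3_nonneg hp⟩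
  have hm_lim := tendsto_atTop_ciInf hm_anti ⟨0, by
    rintro _ ⟨n, rfl⟩
    exact pot_ss_nonneg (hL n)⟩
  set x := ⨅ n, Pot rr (L n) with hx_def
  set bb := ⨅ n, Pot rt3 (L n)
  set M := ⨅ n, Pot ss (L n)
  have hx0 : 0 ≤ x := le_ciInf fun n => pot_rr_nonneg (hL n)
  rcases hx0.eq_or_lt with hx | hx
  · have := ha_lim.const_mul 2
    rw [← hx, mul_zero] at this
    exact this
  exfalso
  set T := bb - 3 * x with hT_def
  have hτ_lim : Tendsto (fun n => Pot tt (L n)) atTop (nhds T) := by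
    have := hb_lim.sub (ha_lim.const_mul 3)
    refine this.congr fun n => ?_
    rw [pot_rt3 (hL n)]
    ring
  have ha_ge : ∀ n, x ≤ Pot rr (L n) := fun n => ciInf_le ⟨0, by
    rintro _ ⟨n, rfl⟩
    exact pot_rr_nonneg (hL n)⟩ n
  have ha_pos : ∀ n, 0 < Pot rr (L n) := fun n => hx.trans_le (ha_ge n)
  have hxx0 : x ≤ x0 := (ha_ge ℓ₀).trans h0
  have ha_le : ∀ n, ℓ₀ ≤ n → Pot rr (L n) ≤ x0 := fun n hn => (ha_anti hn).trans h0
  have hs0 : 0 ≤ s := hs.le
  have hs20 : 0 ≤ s₂ := hs0.trans hs2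
  have hv : ∀ n, ℓ₀ ≤ n → (29 / 5 + 26 / 5 * s) * (s ^ 2 * Pot rr (L n)) ≤ 1 := fun n hn => by
    refine le_trans ?_ hcell.hv
    have h1 : 29 / 5 + 26 / 5 * s ≤ 29 / 5 + 26 / 5 * s₂ := by linarith
    have h2 : s ^ 2 ≤ s₂ ^ 2 := pow_le_pow_left₀ hs0 hs2 2
    have h3 : s ^ 2 * Pot rr (L n) ≤ s₂ ^ 2 * x0 :=
      mul_le_mul h2 (ha_le n hn) (ha_pos n).le (by positivity)
    exact mul_le_mul h1 h3 (mul_nonneg (by positivity) (ha_pos n).le) (by positivity)
  -- the limit of the shifted sequences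
  have hτ_lim' : Tendsto (fun n => Pot tt (L (n + 1))) atTop (nhds T) :=
    (tendsto_add_atTop_iff_nat 1).2 hτ_lim
  have hm_lim' : Tendsto (fun n => Pot ss (L (n + 1))) atTop (nhds M) :=
    (tendsto_add_atTop_iff_nat 1).2 hm_lim
  have hf1 : Tendsto (fun n => f1 (Pot rr (L n))) atTop (nhds (f1 x)) :=
    f1_cont.continuousAt.tendsto.comp ha_lim
  have hf3 : Tendsto (fun n => f3 (Pot rr (L n))) atTop (nhds (f3 x)) :=
    f3_cont.continuousAt.tendsto.comp ha_lim
  -- the key positivity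
  have hpos : 0 < 2 / 5 * x - 2 * s * T - 2 * s ^ 2 * M := by
    have hM_gen : M ≤ s ^ 2 * M + (5 + 4 * s) * f3 x := by
      refine le_of_tendsto_of_tendsto hm_lim' ((hm_lim.const_mul _).add (hf3.const_mul _)) ?_
      filter_upwards with n
      exact level_ss_gen hP (hL n) (hS n) hchan hw hNs hs (hmix n) (ha_pos n)
    rcases lt_or_ge 0 T with hTpos | hTnon
    · have hev : ∀ᶠ n in atTop, 0 < Pot tt (L n) ∧ ℓ₀ ≤ n :=
        (hτ_lim.eventually (lt_mem_nhds hTpos)).and (eventually_ge_atTop ℓ₀)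
      set E := 29 / 5 + 26 / 5 * s with hE
      have hE0 : 0 < E := by positivity
      have hEx : E * x ≠ 0 := by positivity
      have hr1 : Tendsto (fun n => s * Pot tt (L n) / Pot rr (L n)) atTop (nhds (s * T / x)) :=
        (hτ_lim.const_mul s).div ha_lim hx.ne'
      have hr2 : Tendsto (fun n => s * Pot tt (L n) / (E * Pot rr (L n))) atTop
          (nhds (s * T / (E * x))) :=
        (hτ_lim.const_mul s).div (ha_lim.const_mul E) hEx
      have hr3 : Tendsto (fun n => Real.exp (-(E * Pot rr (L n)))) atTop (nhds (Real.exp (-(E * x)))) :=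
        Real.continuous_exp.continuousAt.tendsto.comp (ha_lim.const_mul E).neg
      have hTb : T ≤ -(s * T / (E * x)) * (1 - Real.exp (-(E * x))) +
          (31 / 5 + 29 / 5 * (s * T / x)) * f1 x := by
        refine le_of_tendsto_of_tendsto hτ_lim'
          ((hr2.neg.mul (tendsto_const_nhds.sub hr3)).add
            ((tendsto_const_nhds.add (hr1.const_mul _)).mul hf1)) ?_
        filter_upwards [hev] with n hn
        exact level_tt hP (hL n) (hS n) hchan hw hNs hs (hmix n) (ha_pos n) hn.1 (hv n hn.2)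
      have hMb : M ≤ s ^ 2 * M + (5 + 4 * (s * T / x)) * f3 x := by
        refine le_of_tendsto_of_tendsto hm_lim'
          ((hm_lim.const_mul _).add
            ((tendsto_const_nhds.add (hr1.const_mul _)).mul hf3)) ?_
        filter_upwards [hev] with n hn
        exact level_ss hP (hL n) (hS n) hchan hw hNs (hmix n)
          (Km := 5 + 4 * (s * Pot tt (L n) / Pot rr (L n)))
          (by
            have : 0 ≤ s * Pot tt (L n) / Pot rr (L n) :=
              div_nonneg (mul_nonneg hs0 hn.1.le) (ha_pos n).le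
            linarith)
          (cross_pos (hL n) hchan hs (ha_pos n) hn.1)
      exact hcell.pos_of_pos hs1 hs2 hx hxx0 hTpos hTb hMb
    · exact hcell.pos_of_nonpos hs1 hs2 hx hxx0 hTnon hM_gen
  -- hence eventually in the cone
  have hW : Tendsto (fun n => 2 / 5 * Pot rr (L n) - 2 * s * Pot tt (L n) - 2 * s ^ 2 * Pot ss (L n))
      atTop (nhds (2 / 5 * x - 2 * s * T - 2 * s ^ 2 * M)) :=
    ((ha_lim.const_mul _).sub (hτ_lim.const_mul _)).sub (hm_lim.const_mul _)
  have hev : ∀ᶠ n in atTop, 0 < 2 / 5 * Pot rr (L n) - 2 * s * Pot tt (L n) -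
      2 * s ^ 2 * Pot ss (L n) := hW.eventually (lt_mem_nhds hpos)
  have hfin : 2 * x ≤ 2 * x - c * (2 * x) ^ 3 := by
    have ha_lim' : Tendsto (fun n => Pot rr (L (n + 1))) atTop (nhds x) :=
      (tendsto_add_atTop_iff_nat 1).2 ha_lim
    refine le_of_tendsto_of_tendsto (ha_lim'.const_mul 2)
      ((ha_lim.const_mul 2).sub (((ha_lim.const_mul 2).pow 3).const_mul c)) ?_
    filter_upwards [hev] with n hn
    refine hrec n ⟨isLik_contract (by norm_num) hchan (hL n),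
      symLik_contract (by norm_num) hchan (hS n), ?_⟩
    show 0 ≤ Pot XiQ (contract (-s) (L n))
    rw [pot_XiQ_contract s (hL n)]
    positivity
  have : 0 < c * (2 * x) ^ 3 := by positivity
  linarith

end Limit

/-! ### the two trees -/

/-- the law of the number of children of the regular tree -/
def deltaW (b : ℕ) (j : ℕ) : ℝ := if j = b then 1 else 0

lemma childLaw_delta (b : ℕ) : ChildLaw (deltaW b) b where
  nonneg j := by
    unfold deltaW
    split_ifs <;> norm_num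
  sum_one := hasSum_ite_eq (β := ℕ) (α := ℝ) b 1
  mean := by
    have h := hasSum_ite_eq (β := ℕ) (α := ℝ) b (b : ℝ)
    have e : (fun j : ℕ => (j : ℝ) * deltaW b j) = fun j => if j = b then (b : ℝ) else 0 := by
      funext j
      unfold deltaW
      split_ifs with hj
      · simp [hj]
      · simp
    rw [e]
    exact h
  pgf z hz := by
    refine ⟨z ^ b, ?_, ?_⟩
    · have h := hasSum_ite_eq (β := ℕ) (α := ℝ) b (z ^ b)
      have e : (fun j : ℕ => deltaW b j * z ^ j) = fun j => if j = b then z ^ b else 0 := by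
        funext j
        unfold deltaW
        split_ifs with hj
        · simp [hj]
        · simp
      rw [e]
      exact h
    · have h1 : z ≤ Real.exp (z - 1) := by linarith [Real.add_one_le_exp (z - 1)]
      calc z ^ b ≤ Real.exp (z - 1) ^ b := pow_le_pow_left₀ hz h1 b
        _ = Real.exp ((b : ℝ) * (z - 1)) := (Real.exp_nat_mul _ _).symm

lemma childLaw_poi {d : ℝ} (hd : 0 ≤ d) : ChildLaw (poi d) d where
  nonneg := poi_nonneg hd
  sum_one := hasSum_poi d
  mean := hasSum_mul_poi d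
  pgf z hz := by
    refine ⟨Real.exp (d * (z - 1)), ?_, le_rfl⟩
    have h := (hasSum_poi (d * z)).mul_left (Real.exp (d * (z - 1)))
    rw [mul_one] at h
    refine h.congr_fun ?_ |> id
    intro j
    exact poi_mul_pow d z j

lemma mixOf_reg (b ℓ : ℕ) (lam : ℝ) :
    MixOf (deltaW b) (contract lam (regL 3 b lam ℓ)) (regL 3 b lam (ℓ + 1)) := by
  intro f hf
  rw [pot_regL_succ, tsum_eq_single b]
  · simp [deltaW]
  · intro j hj
    simp [deltaW, hj]

lemma mixOf_gw {d lam : ℝ} (hd : 0 ≤ d) (hc : ChanOK 3 lam) (ℓ : ℕ) :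
    MixOf (poi d) (contract lam (gwL 3 lam d ℓ)) (gwL 3 lam d (ℓ + 1)) := by
  intro f hf
  rw [gwL_succ]
  exact pot_poisMix hd (isLik_contract (by norm_num) hc (isLik_gwL (by norm_num) hc hd ℓ)) hf

lemma chanOK_neg {s : ℝ} (h0 : 0 ≤ s) (h1 : s ≤ 1 / 2) : ChanOK 3 (-s) := by
  intro i j
  unfold channel
  split_ifs <;> norm_num <;> linarith

/-- **The tail on the regular tree.** -/
theorem tendsto_advantage_of_cell (hP : Pair48) {b : ℕ} (hb : 2 ≤ b) {s : ℝ}
    (hNs : (b : ℝ) * s ^ 2 = 1) {s₁ s₂ x0 G₀ Φ Y Pc Pc' : ℝ}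
    (hcell : Cell s₁ s₂ x0 G₀ Φ Y Pc Pc') (hs1 : s₁ ≤ s) (hs2 : s ≤ s₂) {ℓ₀ : ℕ}
    (h0 : Pot rr (regL 3 b (-s) ℓ₀) ≤ x0) :
    Tendsto (advantage 3 b (-s)) atTop (nhds 0) := by
  have hs : 0 < s := hcell.s₁_pos.trans_le hs1
  have hc := chanOK_neg hs.le (hs2.trans hcell.s₂_le)
  have hq : (3 : ℕ) ≠ 0 := by norm_num
  have hlik : ∀ ℓ, IsLik (regL 3 b (-s) ℓ) := fun ℓ => isLik_regL hq hc b ℓ
  have hsym : ∀ ℓ, SymLik (regL 3 b (-s) ℓ) := fun ℓ => symLik_regL hq hc b ℓ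
  have hbl : (b : ℝ) * (-s) ^ 2 ≤ 1 := by
    rw [show (-s) ^ 2 = s ^ 2 by ring, hNs]
  have hA := tendsto_A_of_cell (Ω := fun ℓ => (Fin ℓ → Fin b) → Fin 3)
    (L := fun ℓ => regL 3 b (-s) ℓ) hP hlik hsym (childLaw_delta b) hNs
    (fun n => mixOf_reg b n (-s)) (fun n => dom_regL_succ hq hc b n) hcell hs1 hs2 h0
    (c := 2 * coneData3.mu * (-s) ^ 6)
    (by
      have h6 : 0 < (-s) ^ 6 := by
        rw [show (-s) ^ 6 = s ^ 6 by ring]
        positivity
      have hmu : 0 < coneData3.mu := by norm_num [coneData3]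
      positivity)
    (fun n hg => pot_A_regL_succ_le coneData3 hq hb hbl n hg (hlik n))
  have := tendsto_pot_tv_of_tendsto_A (α := fun ℓ => (Fin ℓ → Fin b) → Fin 3)
    (L := fun ℓ => regL 3 b (-s) ℓ) hq hlik hA
  refine this.congr fun ℓ => ?_
  exact (advantage_eq hq b (-s) ℓ (hlik ℓ)).symm

/-- **The tail on the Poisson tree.** -/
theorem tendsto_gwAdvantage_of_cell (hP : Pair48) {d : ℝ} (hd0 : 0 < d) {s : ℝ}
    (hNs : d * s ^ 2 = 1) {s₁ s₂ x0 G₀ Φ Y Pc Pc' : ℝ}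
    (hcell : Cell s₁ s₂ x0 G₀ Φ Y Pc Pc') (hs1 : s₁ ≤ s) (hs2 : s ≤ s₂) {ℓ₀ : ℕ}
    (h0 : Pot rr (gwL 3 (-s) d ℓ₀) ≤ x0) :
    Tendsto (gwAdvantage 3 (-s) d) atTop (nhds 0) := by
  have hs : 0 < s := hcell.s₁_pos.trans_le hs1
  have hc := chanOK_neg hs.le (hs2.trans hcell.s₂_le)
  have hq : (3 : ℕ) ≠ 0 := by norm_num
  have hd := hd0.le
  have hlik : ∀ ℓ, IsLik (gwL 3 (-s) d ℓ) := fun ℓ => isLik_gwL hq hc hd ℓ
  have hsym : ∀ ℓ, SymLik (gwL 3 (-s) d ℓ) := fun ℓ => symLik_gwL hq hc hd ℓ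
  have hdl : d * (-s) ^ 2 ≤ 1 := by
    rw [show (-s) ^ 2 = s ^ 2 by ring, hNs]
  have hA := tendsto_A_of_cell (Ω := fun ℓ => PObs 3 ℓ)
    (L := fun ℓ => gwL 3 (-s) d ℓ) hP hlik hsym (childLaw_poi hd) hNs
    (fun n => mixOf_gw hd hc n) (fun n => dom_gwL_succ hq hc hd n) hcell hs1 hs2 h0
    (c := kap d * (2 * coneData3.mu * (-s) ^ 6))
    (by
      have h6 : 0 < (-s) ^ 6 := by
        rw [show (-s) ^ 6 = s ^ 6 by ring]
        positivity
      have hmu : 0 < coneData3.mu := by norm_num [coneData3]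
      have := kap_pos hd0
      positivity)
    (fun n hg => pot_A_gwL_succ_le coneData3 hq hd hc hdl n hg)
  have := tendsto_pot_tv_of_tendsto_A (α := fun ℓ => PObs 3 ℓ)
    (L := fun ℓ => gwL 3 (-s) d ℓ) hq hlik hA
  refine this.congr fun ℓ => ?_
  exact (gwAdvantage_eq hq hc hd ℓ).symm

end Crest.Agent.PottsTree.CertQ3.T48

end
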