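import Crest.Agent.Lib.PottsTree.Glue244
import Crest.Agent.Lib.PottsTree.Tail48C

/-!
# The tail for `q = 3`, `λ < 0`: glue

Large degree: pointwise.  Small degree: `Cell` and a bound at one level.  Everything together gives
`Target244`, hence `S0244`.
-/

set_option linter.unusedVariables false
set_option linter.unusedSimpArgs false

noncomputable section

namespace Crest.Agent.PottsTree.CertQ3.T48

open Filter Finset
open Crest.Agent.PottsTree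
open Crest.ProbabilityR.Broadcast
open ConeData Cmp

lemma XiQ_T_nonneg {s : ℝ} (hs : 0 ≤ s) (h : s + s ^ 2 ≤ 1 / 5) {p : Fin 3 → ℝ} (hp : p ∈ Sx 3) :
    0 ≤ XiQ (T 3 (-s) p) := by
  obtain ⟨h2, h3⟩ := T_forms hp (-s)
  have h4 := rr_nonneg hp
  have h5 := rr_le_one hp
  have h6 := tt_le_rr hp
  simp only [XiQ, h2, h3]
  have e : 2 / 5 * ((-s) ^ 2 * rr p) + 2 * ((-s) ^ 3 * tt p) - 2 * ((-s) ^ 2 * rr p) ^ 2 =
      s ^ 2 * (2 / 5 * rr p - 2 * s * tt p - 2 * s ^ 2 * rr p ^ 2) := by ring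
  rw [e]
  have h7 : s * tt p ≤ s * rr p := mul_le_mul_of_nonneg_left h6 hs
  have h8 : rr p ^ 2 ≤ rr p := by nlinarith
  have h9 : s ^ 2 * rr p ^ 2 ≤ s ^ 2 * rr p := mul_le_mul_of_nonneg_left h8 (sq_nonneg s)
  have h10 : (s + s ^ 2) * rr p ≤ 1 / 5 * rr p := mul_le_mul_of_nonneg_right h h4
  refine mul_nonneg (sq_nonneg s) ?_
  nlinarith

/-- `s = 1 / √D` -/
lemma crit_sq {D : ℝ} (hD : 0 < D) : D * (1 / Real.sqrt D) ^ 2 = 1 := by
  rw [div_pow, Real.sq_sqrt hD.le]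
  field_simp

lemma crit_pos {D : ℝ} (hD : 0 < D) : 0 < 1 / Real.sqrt D := by
  have := Real.sqrt_pos.2 hD
  positivity

lemma small_of_large {D : ℝ} (hD : 343 / 10 ≤ D) :
    1 / Real.sqrt D + (1 / Real.sqrt D) ^ 2 ≤ 1 / 5 := by
  have hD0 : 0 < D := by linarith
  have h1 := crit_sq hD0
  have h2 := crit_pos hD0
  set s := 1 / Real.sqrt D
  have h3 : s ^ 2 ≤ 10 / 343 := by
    have : 343 / 10 * s ^ 2 ≤ D * s ^ 2 := mul_le_mul_of_nonneg_right hD (sq_nonneg s)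
    linarith
  have h4 : s ≤ 171 / 1000 := by
    by_contra hcon
    rw [not_le] at hcon
    nlinarith
  nlinarith

theorem reg_large {b : ℕ} (hb : 35 ≤ b) :
    Tendsto (advantage 3 b (-(1 / Real.sqrt b))) atTop (nhds 0) := by
  have hb' : (35 : ℝ) ≤ b := by exact_mod_cast hb
  have hD : (343 / 10 : ℝ) ≤ b := by linarith
  have hb0 : (0 : ℝ) < b := by linarith
  have hs := crit_pos hb0
  have h1 := crit_sq hb0
  have h2 := small_of_large hD
  have h12 : 1 / Real.sqrt b ≤ 1 / 2 := by nlinarith [sq_nonneg (1 / Real.sqrt b)]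
  refine tendsto_advantage_of_pointwise coneData3 (by norm_num) (by norm_num [coneData3])
    (by omega) (chanOK_neg hs.le h12) (by
      have := hs.ne'
      simpa using this) (by
      rw [show (-(1 / Real.sqrt b)) ^ 2 = (1 / Real.sqrt b) ^ 2 by ring, h1]) ?_
  intro p hp
  exact XiQ_T_nonneg hs.le h2 hp

theorem gw_large {d : ℝ} (hd : 343 / 10 ≤ d) :
    Tendsto (gwAdvantage 3 (-(1 / Real.sqrt d)) d) atTop (nhds 0) := by
  have hd0 : 0 < d := by linarith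
  have hs := crit_pos hd0
  have h1 := crit_sq hd0
  have h2 := small_of_large hd
  have h12 : 1 / Real.sqrt d ≤ 1 / 2 := by nlinarith [sq_nonneg (1 / Real.sqrt d)]
  refine tendsto_gwAdvantage_of_pointwise coneData3 (by norm_num) (by norm_num [coneData3])
    hd0 (chanOK_neg hs.le h12) (by
      have := hs.ne'
      simpa using this) (by
      rw [show (-(1 / Real.sqrt d)) ^ 2 = (1 / Real.sqrt d) ^ 2 by ring, h1]) ?_
  intro p hp
  exact XiQ_T_nonneg hs.le h2 hp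

lemma pot_rr_eq {Ω : Type*} {L : Ω → Fin 3 → ℝ} (hL : IsLik L) : Pot rr L = Pot (A 3) L / 2 := by
  have : Pot (A 3) L = 2 * Pot rr L := by
    rw [← pot_const_mul]
    exact pot_congr hL fun p hp => A_eq hp
  rw [this]
  ring

/-- the position of `1 / √D` in a cell -/
lemma crit_mem {D s₁ s₂ : ℝ} (hD : 0 < D) (h₁ : s₁ ^ 2 * D ≤ 1) (h₂ : 1 ≤ s₂ ^ 2 * D)
    (h₀ : 0 ≤ s₂) : s₁ ≤ 1 / Real.sqrt D ∧ 1 / Real.sqrt D ≤ s₂ := by
  have h1 := crit_sq hD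
  have h2 := crit_pos hD
  set s := 1 / Real.sqrt D
  constructor
  · by_contra hcon
    rw [not_le] at hcon
    have : s ^ 2 < s₁ ^ 2 := by nlinarith
    nlinarith
  · by_contra hcon
    rw [not_le] at hcon
    have : s₂ ^ 2 < s ^ 2 := by nlinarith
    nlinarith

/-- **A regular case is closed by one cell and a bound at one level** (the bound may be for a larger
`|λ|`). -/
theorem reg_cell (hP : Pair48) {b : ℕ} (hb : 2 ≤ b) {s₁ s₂ x0 G₀ Φ Y Pc Pc' s0 : ℝ}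
    (hcell : Cell s₁ s₂ x0 G₀ Φ Y Pc Pc') (h₁ : s₁ ^ 2 * b ≤ 1) (h₂ : 1 ≤ s₂ ^ 2 * b)
    (hs0 : s0 ≤ 1 / 2) (hs0' : 1 ≤ s0 ^ 2 * b) (hs00 : 0 ≤ s0) {ℓ₀ : ℕ}
    (h0 : Pot (A 3) (regL 3 b (-s0) ℓ₀) ≤ 2 * x0) :
    Tendsto (advantage 3 b (-(1 / Real.sqrt b))) atTop (nhds 0) := by
  have hb0 : (0 : ℝ) < b := by
    have : (2 : ℝ) ≤ b := by exact_mod_cast hb
    linarith
  have hs := crit_pos hb0
  have hq : (3 : ℕ) ≠ 0 := by norm_num
  obtain ⟨hm1, hm2⟩ := crit_mem hb0 h₁ h₂ (hcell.s₁_pos.le.trans hcell.s₁_le)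
  have hle := (crit_mem hb0 (s₁ := 0) (by norm_num) hs0' hs00).2
  have hs00' : 0 < s0 := hs.trans_le hle
  have hc0 := chanOK_neg hs00 hs0
  set s := 1 / Real.sqrt b with hsdef
  set c := s / s0
  have hc1 : 0 ≤ c := by positivity
  have hc2 : c ≤ 1 := (div_le_one hs00').2 hle
  have e : c * (-s0) = -s := by
    simp only [c]
    field_simp
  have hdom := dom_regL_compare hq hc0 hc1 hc2 (le_refl b) ℓ₀
  rw [e] at hdom
  have h3 : Pot rr (regL 3 b (-s) ℓ₀) ≤ x0 := by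
    rw [pot_rr_eq (isLik_regL hq (chanOK_neg hs.le (hm2.trans hcell.s₂_le)) b ℓ₀)]
    have := hdom (A 3) bddS_A convexOn_A
    linarith
  exact tendsto_advantage_of_cell hP hb (crit_sq hb0) hcell hm1 hm2 h3

/-- **A Poisson cell is closed by one cell and a bound at one level.** -/
theorem gw_cell (hP : Pair48) {d1 d2 s₁ s₂ x0 G₀ Φ Y Pc Pc' s0 : ℝ} (hd1 : 0 < d1)
    (hcell : Cell s₁ s₂ x0 G₀ Φ Y Pc Pc') (h₁ : s₁ ^ 2 * d2 ≤ 1) (h₂ : 1 ≤ s₂ ^ 2 * d1)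
    (hs0 : s0 ≤ 1 / 2) (hs0' : 1 ≤ s0 ^ 2 * d1) (hs00 : 0 ≤ s0) {ℓ₀ : ℕ}
    (h0 : Pot (A 3) (gwL 3 (-s0) d2 ℓ₀) ≤ 2 * x0) {d : ℝ} (hd : d1 ≤ d) (hd' : d ≤ d2) :
    Tendsto (gwAdvantage 3 (-(1 / Real.sqrt d)) d) atTop (nhds 0) := by
  have hd0 : 0 < d := hd1.trans_le hd
  have hs := crit_pos hd0
  have hq : (3 : ℕ) ≠ 0 := by norm_num
  have hs2sq := sq_nonneg s₂
  have h₁' : s₁ ^ 2 * d ≤ 1 := (mul_le_mul_of_nonneg_left hd' (sq_nonneg s₁)).trans h₁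
  have h₂' : 1 ≤ s₂ ^ 2 * d := h₂.trans (mul_le_mul_of_nonneg_left hd (sq_nonneg s₂))
  obtain ⟨hm1, hm2⟩ := crit_mem hd0 h₁' h₂' (hcell.s₁_pos.le.trans hcell.s₁_le)
  have hs0'' : 1 ≤ s0 ^ 2 * d := hs0'.trans (mul_le_mul_of_nonneg_left hd (sq_nonneg s0))
  have hle := (crit_mem hd0 (s₁ := 0) (by norm_num) hs0'' hs00).2
  have hs00' : 0 < s0 := hs.trans_le hle
  have hc0 := chanOK_neg hs00 hs0
  set s := 1 / Real.sqrt d with hsdef
  set c := s / s0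
  have hc1 : 0 ≤ c := by positivity
  have hc2 : c ≤ 1 := (div_le_one hs00').2 hle
  have e : c * (-s0) = -s := by
    simp only [c]
    field_simp
  have hdom := dom_gwL_compare hq hc0 hc1 hc2 hd0.le hd' ℓ₀
  rw [e] at hdom
  have h3 : Pot rr (gwL 3 (-s) d ℓ₀) ≤ x0 := by
    rw [pot_rr_eq (isLik_gwL hq (chanOK_neg hs.le (hm2.trans hcell.s₂_le)) hd0.le ℓ₀)]
    have := hdom (A 3) bddS_A convexOn_A
    linarith
  exact tendsto_gwAdvantage_of_cell hP hd0 (crit_sq hd0) hcell hm1 hm2 h3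

/-- **The assembly.** -/
theorem target244_of_cover
    (hreg : ∀ b : ℕ, 4 ≤ b → b ≤ 34 → Tendsto (advantage 3 b (-(1 / Real.sqrt b))) atTop (nhds 0))
    (hgw : ∀ d : ℝ, 4 ≤ d → d ≤ 343 / 10 →
      Tendsto (gwAdvantage 3 (-(1 / Real.sqrt d)) d) atTop (nhds 0)) : Target244 := by
  refine ⟨coneTarget3, fun B hB => ?_, fun D hD => ?_⟩
  · rcases le_or_gt B 34 with h | h
    · exact hreg B hB h
    · exact reg_large (by omega)
  · rcases le_or_gt D (343 / 10) with h | h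
    · exact hgw D hD h
    · exact gw_large h.le

end Crest.Agent.PottsTree.CertQ3.T48

end
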