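import Crest.Agent.Lib.PottsTree.Tail48D
import Crest.Agent.Lib.PottsTree.CertQ3Pair48

/-!
# The tail for `q = 3`, `λ < 0`: the pair bounds are proved
-/

set_option linter.unusedVariables false
set_option linter.unusedSimpArgs false

noncomputable section

namespace Crest.Agent.PottsTree.CertQ3.T48

open Filter
open Crest.Agent.PottsTree
open Crest.ProbabilityR.Broadcast

/-- A regular case is closed by one cell and a bound at one level. -/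
theorem reg_closed {b : ℕ} (hb : 2 ≤ b) {s₁ s₂ x0 G₀ Φ Y Pc Pc' s0 : ℝ}
    (hcell : Cell s₁ s₂ x0 G₀ Φ Y Pc Pc') (h₁ : s₁ ^ 2 * b ≤ 1) (h₂ : 1 ≤ s₂ ^ 2 * b)
    (hs0 : s0 ≤ 1 / 2) (hs0' : 1 ≤ s0 ^ 2 * b) (hs00 : 0 ≤ s0) {ℓ₀ : ℕ}
    (h0 : Pot (A 3) (regL 3 b (-s0) ℓ₀) ≤ 2 * x0) :
    Tendsto (advantage 3 b (-(1 / Real.sqrt b))) atTop (nhds 0) :=
  reg_cell pair48 hb hcell h₁ h₂ hs0 hs0' hs00 h0

/-- A Poisson cell is closed by one cell and a bound at one level. -/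
theorem gw_closed {d1 d2 s₁ s₂ x0 G₀ Φ Y Pc Pc' s0 : ℝ} (hd1 : 0 < d1)
    (hcell : Cell s₁ s₂ x0 G₀ Φ Y Pc Pc') (h₁ : s₁ ^ 2 * d2 ≤ 1) (h₂ : 1 ≤ s₂ ^ 2 * d1)
    (hs0 : s0 ≤ 1 / 2) (hs0' : 1 ≤ s0 ^ 2 * d1) (hs00 : 0 ≤ s0) {ℓ₀ : ℕ}
    (h0 : Pot (A 3) (gwL 3 (-s0) d2 ℓ₀) ≤ 2 * x0) {d : ℝ} (hd : d1 ≤ d) (hd' : d ≤ d2) :
    Tendsto (gwAdvantage 3 (-(1 / Real.sqrt d)) d) atTop (nhds 0) :=
  gw_cell pair48 hd1 hcell h₁ h₂ hs0 hs0' hs00 h0 hd hd'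

end Crest.Agent.PottsTree.CertQ3.T48

end
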