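import Crest.Agent.Lib.PottsTree.Poisson

/-!
# What the certificates must provide for `λ ≥ 0`
-/

namespace Crest.Agent.PottsTree

open Filter
open Crest.ProbabilityR.Broadcast

/-- The pointwise statement that gives non-reconstruction up to the Kesten–Stigum bound for
`0 ≤ λ ≤ 1`. -/
def ConeTarget (q : ℕ) : Prop :=
  ∃ C : ConeData q, 0 < C.mu ∧ (∀ a, 0 ≤ C.Xi (baseL q a)) ∧
    ∀ lam : ℝ, 0 ≤ lam → lam ≤ 1 → ∀ p ∈ Sx q, lam ^ 3 * C.Xi p ≤ C.Xi (T q lam p)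

theorem regular_of_target {q : ℕ} (hq : q ≠ 0) (h : ConeTarget q) (b : ℕ) (hb : 2 ≤ b) (lam : ℝ)
    (h0 : 0 ≤ lam) (h1 : lam ≤ 1) (hbl : (b : ℝ) * lam ^ 2 ≤ 1) :
    Tendsto (advantage q b lam) atTop (nhds 0) := by
  obtain ⟨C, hmu, hv, hrad⟩ := h
  exact tendsto_advantage_of_cone C hq hmu hv hb h0 h1 hbl (hrad lam h0 h1)

theorem poisson_of_target {q : ℕ} (hq : q ≠ 0) (h : ConeTarget q) (d : ℝ) (hd : 0 < d) (lam : ℝ)
    (h0 : 0 ≤ lam) (h1 : lam ≤ 1) (hdl : d * lam ^ 2 ≤ 1) :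
    Tendsto (gwAdvantage q lam d) atTop (nhds 0) := by
  obtain ⟨C, hmu, hv, hrad⟩ := h
  exact tendsto_gwAdvantage_of_cone C hq hmu hv hd h0 h1 hdl (hrad lam h0 h1)

/-- `S0245` follows from `ConeTarget 4`. -/
theorem s0245_of_target (h : ConeTarget 4) :
    (∀ b : ℕ, 2 ≤ b → ∀ lam : ℝ, 0 ≤ lam → lam ≤ 1 → (b : ℝ) * lam ^ 2 ≤ 1 →
      Tendsto (advantage 4 b lam) atTop (nhds 0)) ∧
    (∀ d : ℝ, 0 < d → ∀ lam : ℝ, 0 ≤ lam → lam ≤ 1 → d * lam ^ 2 ≤ 1 →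
      Tendsto (gwAdvantage 4 lam d) atTop (nhds 0)) :=
  ⟨fun b hb lam h0 h1 hbl => regular_of_target (by norm_num) h b hb lam h0 h1 hbl,
   fun d hd lam h0 h1 hdl => poisson_of_target (by norm_num) h d hd lam h0 h1 hdl⟩

end Crest.Agent.PottsTree
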