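import Crest.Agent.Lib.PottsTree.Regular
import Crest.Prelude.Def_TreeBroadcast

/-!
# Broadcasting on a general locally finite tree: subtree experiments

`H k u i τ` is the probability, given the spin `i` at the vertex `u`, that the spins at the
descendants of `u` at distance `k` agree with the total assignment `τ`, defined top-down.  The main
results: `levelLaw` is `H` at the root; the experiment at `u` is a star of the contracted experiments
at the children, in any order; all experiments are symmetric likelihood families.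
-/

namespace Crest.Agent.PottsTree

open Finset
open Crest.ProbabilityR.Broadcast Crest.ProbabilityR.TreeBroadcast

variable {V : Type*} [DecidableEq V] (T : LocFinTree V)

/-! ### Descendants -/

lemma mem_children_iff {u c : V} : c ∈ T.children u ↔ T.depth c = T.depth u + 1 ∧ T.parent c = u := by
  simp [LocFinTree.children, T.mem_level_iff]

lemma ne_root_of_depth_pos {w : V} (h : 0 < T.depth w) : w ≠ T.root := by
  rintro rfl
  have := (T.depth_eq_zero_iff T.root).2 rfl
  omega

lemma depth_iterate_parent {w : V} {k : ℕ} (h : k ≤ T.depth w) :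
    T.depth (T.parent^[k] w) + k = T.depth w := by
  induction k with
  | zero => simp
  | succ k ih =>
    have h1 := ih (by omega)
    rw [Function.iterate_succ_apply']
    have hne : T.parent^[k] w ≠ T.root := ne_root_of_depth_pos T (by omega)
    have := T.depth_parent _ hne
    omega

/-- descendants of `u` at distance `k` -/
def desc : ℕ → V → Finset V
  | 0, u => {u}
  | k + 1, u => (T.children u).biUnion (desc k)

lemma mem_desc {k : ℕ} {u w : V} :
    w ∈ desc T k u ↔ T.depth w = T.depth u + k ∧ T.parent^[k] w = u := by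
  induction k generalizing u with
  | zero =>
    simp only [desc, mem_singleton, add_zero, Function.iterate_zero, id_eq]
    constructor
    · rintro rfl; exact ⟨rfl, rfl⟩
    · rintro ⟨_, rfl⟩; rfl
  | succ k ih =>
    simp only [desc, mem_biUnion, ih, mem_children_iff]
    constructor
    · rintro ⟨c, ⟨h1, h2⟩, h3, h4⟩
      refine ⟨by omega, ?_⟩
      rw [Function.iterate_succ_apply', h4, h2]
    · rintro ⟨h1, h2⟩
      refine ⟨T.parent^[k] w, ⟨?_, ?_⟩, ?_, rfl⟩
      · have := depth_iterate_parent T (w := w) (k := k) (by omega)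
        omega
      · rwa [Function.iterate_succ_apply'] at h2
      · have := depth_iterate_parent T (w := w) (k := k) (by omega)
        omega

lemma iterate_parent_eq_root {w : V} : T.parent^[T.depth w] w = T.root := by
  have h := depth_iterate_parent T (w := w) (k := T.depth w) le_rfl
  exact (T.depth_eq_zero_iff _).1 (by omega)

lemma mem_desc_root {n : ℕ} {w : V} : w ∈ desc T n T.root ↔ w ∈ T.level n := by
  rw [mem_desc, T.mem_level_iff, (T.depth_eq_zero_iff T.root).2 rfl]
  constructor
  · rintro ⟨h, -⟩; omega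
  · rintro rfl
    exact ⟨by omega, iterate_parent_eq_root T⟩

lemma disjoint_desc {k : ℕ} {c c' : V} (h : c ≠ c') : Disjoint (desc T k c) (desc T k c') := by
  refine Finset.disjoint_left.2 fun w hw hw' => h ?_
  rw [← (mem_desc T).1 hw |>.2, (mem_desc T).1 hw' |>.2]

/-! ### Extensions of assignments -/

variable {q : ℕ} [NeZero q]

/-- extension by `0` of an assignment on a finite set of vertices -/
def ext (S : Finset V) (σ : S → Fin q) : V → Fin q :=
  fun w => if h : w ∈ S then σ ⟨w, h⟩ else 0

@[simp] lemma ext_of_mem {S : Finset V} (σ : S → Fin q) {w : V} (h : w ∈ S) :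
    ext S σ w = σ ⟨w, h⟩ := by simp [ext, h]

lemma ext_subtype (S : Finset V) (σ : S → Fin q) (w : S) : ext S σ w.1 = σ w := by
  simp [ext, w.2]

/-- A function of total assignments depends only on the spins in `S`. -/
def Dep (S : Finset V) {β : Type*} (F : (V → Fin q) → β) : Prop :=
  ∀ τ τ' : V → Fin q, (∀ w ∈ S, τ w = τ' w) → F τ = F τ'

/-- The equivalence splitting an assignment on a disjoint union. -/
def unionEquiv {S S₁ S₂ : Finset V} (hS : ∀ w, w ∈ S ↔ w ∈ S₁ ∨ w ∈ S₂) (hd : Disjoint S₁ S₂) :
    (S → Fin q) ≃ (S₁ → Fin q) × (S₂ → Fin q) where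
  toFun σ := (fun w => σ ⟨w.1, (hS _).2 (Or.inl w.2)⟩, fun w => σ ⟨w.1, (hS _).2 (Or.inr w.2)⟩)
  invFun p := fun w => if h : w.1 ∈ S₁ then p.1 ⟨w.1, h⟩ else
    p.2 ⟨w.1, ((hS _).1 w.2).resolve_left h⟩
  left_inv σ := by
    funext w
    by_cases h : w.1 ∈ S₁ <;> simp [h]
  right_inv p := by
    rcases p with ⟨p₁, p₂⟩
    ext w
    · simp [w.2]
    · have : w.1 ∉ S₁ := Finset.disjoint_right.1 hd w.2
      simp [this]

lemma ext_unionEquiv_left {S S₁ S₂ : Finset V} (hS : ∀ w, w ∈ S ↔ w ∈ S₁ ∨ w ∈ S₂)
    (hd : Disjoint S₁ S₂) (σ : S → Fin q) {w : V} (hw : w ∈ S₁) :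
    ext S₁ (unionEquiv hS hd σ).1 w = ext S σ w := by
  have : w ∈ S := (hS _).2 (Or.inl hw)
  simp [hw, this, unionEquiv]

lemma ext_unionEquiv_right {S S₁ S₂ : Finset V} (hS : ∀ w, w ∈ S ↔ w ∈ S₁ ∨ w ∈ S₂)
    (hd : Disjoint S₁ S₂) (σ : S → Fin q) {w : V} (hw : w ∈ S₂) :
    ext S₂ (unionEquiv hS hd σ).2 w = ext S σ w := by
  have : w ∈ S := (hS _).2 (Or.inr hw)
  simp [hw, this, unionEquiv]

/-- Independent sums over disjoint sets. -/
lemma sum_ext_mul {S S₁ S₂ : Finset V} (hS : ∀ w, w ∈ S ↔ w ∈ S₁ ∨ w ∈ S₂) (hd : Disjoint S₁ S₂)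
    {G₁ G₂ : (V → Fin q) → ℝ} (h₁ : Dep S₁ G₁) (h₂ : Dep S₂ G₂) :
    ∑ σ : S → Fin q, G₁ (ext S σ) * G₂ (ext S σ) =
      (∑ σ : S₁ → Fin q, G₁ (ext S₁ σ)) * ∑ σ : S₂ → Fin q, G₂ (ext S₂ σ) := by
  rw [Finset.sum_mul_sum, ← Finset.sum_product']
  refine Finset.sum_bijective (unionEquiv hS hd) (unionEquiv hS hd).bijective (by simp) ?_
  intro σ _
  congr 1
  · exact h₁ _ _ fun w hw => (ext_unionEquiv_left hS hd σ hw).symm
  · exact h₂ _ _ fun w hw => (ext_unionEquiv_right hS hd σ hw).symm

lemma dep_prod {ι : Type*} (A : Finset ι) (S : ι → Finset V) {G : ι → (V → Fin q) → ℝ}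
    {S' : Finset V} (hS : ∀ c ∈ A, S c ⊆ S') (hG : ∀ c ∈ A, Dep (S c) (G c)) :
    Dep S' (fun τ => ∏ c ∈ A, G c τ) := by
  intro τ τ' h
  exact Finset.prod_congr rfl fun c hc => hG c hc τ τ' fun w hw => h w (hS c hc hw)

/-- Independent sums over a disjoint family. -/
lemma sum_ext_prod {ι : Type*} [DecidableEq ι] (A : Finset ι) (S : ι → Finset V)
    (hd : ∀ c ∈ A, ∀ c' ∈ A, c ≠ c' → Disjoint (S c) (S c')) (G : ι → (V → Fin q) → ℝ)
    (hG : ∀ c ∈ A, Dep (S c) (G c)) :
    ∑ σ : A.biUnion S → Fin q, ∏ c ∈ A, G c (ext (A.biUnion S) σ) =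
      ∏ c ∈ A, ∑ σ : S c → Fin q, G c (ext (S c) σ) := by
  classical
  induction A using Finset.induction_on with
  | empty => simp
  | insert a A ha ih =>
    have hdis : Disjoint (S a) (A.biUnion S) := by
      refine Finset.disjoint_biUnion_right _ _ _ |>.2 fun c hc => ?_
      exact hd a (mem_insert_self _ _) c (mem_insert_of_mem hc) (fun h => ha (h ▸ hc))
    have hS : ∀ w, w ∈ (insert a A).biUnion S ↔ w ∈ S a ∨ w ∈ A.biUnion S := by
      intro w
      simp [Finset.biUnion_insert]
    have hdep : Dep (A.biUnion S) (fun τ => ∏ c ∈ A, G c τ) :=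
      dep_prod A S (fun c hc => Finset.subset_biUnion_of_mem S hc)
        fun c hc => hG c (mem_insert_of_mem hc)
    simp only [Finset.prod_insert ha]
    rw [sum_ext_mul hS hdis (hG a (mem_insert_self _ _)) hdep,
      ih (fun c hc c' hc' => hd c (mem_insert_of_mem hc) c' (mem_insert_of_mem hc'))
        (fun c hc => hG c (mem_insert_of_mem hc))]


/-! ### The laws `H` -/

section H

variable (q) (lam : ℝ)

/-- `H k u i τ`: the probability, given the spin `i` at `u`, of the spins `τ` at the descendants of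
`u` at distance `k`. -/
noncomputable def H : ℕ → V → Fin q → (V → Fin q) → ℝ
  | 0, u, i, τ => if τ u = i then 1 else 0
  | k + 1, u, i, τ => ∏ c ∈ T.children u, ∑ j, channel q lam i j * H k c j τ

lemma H_dep (k : ℕ) (u : V) (i : Fin q) : Dep (desc T k u) (H T q lam k u i) := by
  induction k generalizing u i with
  | zero =>
    intro τ τ' h
    simp [H, h u (by simp [desc])]
  | succ k ih =>
    intro τ τ' h
    simp only [H]
    refine Finset.prod_congr rfl fun c hc => Finset.sum_congr rfl fun j _ => ?_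
    rw [ih c j τ τ' fun w hw => h w (Finset.mem_biUnion.2 ⟨c, hc, hw⟩)]

lemma parent_mem_desc {k : ℕ} {c w : V} (hw : w ∈ desc T (k + 1) c) : T.parent w ∈ desc T k c := by
  rw [mem_desc] at hw ⊢
  obtain ⟨h1, h2⟩ := hw
  have hne : w ≠ T.root := ne_root_of_depth_pos T (by omega)
  have := T.depth_parent w hne
  refine ⟨by omega, ?_⟩
  rwa [Function.iterate_succ_apply] at h2

lemma desc_one (u : V) : desc T 1 u = T.children u := by
  ext w
  simp [desc]

/-- The sum over the assignments of one vertex. -/
lemma sum_singleton_assign (u : V) (G : Fin q → ℝ) :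
    ∑ σ : ({u} : Finset V) → Fin q, G (σ ⟨u, by simp⟩) = ∑ i, G i := by
  refine Finset.sum_bijective (fun σ : ({u} : Finset V) → Fin q => σ ⟨u, by simp⟩) ?_
    (by simp) (by simp)
  constructor
  · intro σ σ' h
    funext w
    have hw : w = ⟨u, by simp⟩ := Subtype.ext (Finset.mem_singleton.1 w.2)
    rw [hw]
    exact h
  · intro i
    exact ⟨fun _ => i, rfl⟩

/-- the level-by-level recursion -/
lemma H_forward (k : ℕ) (u : V) (i : Fin q) (τ : V → Fin q) :
    H T q lam (k + 1) u i τ = ∑ σ : desc T k u → Fin q, H T q lam k u i (ext _ σ) *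
      ∏ w ∈ desc T (k + 1) u, channel q lam (ext _ σ (T.parent w)) (τ w) := by
  induction k generalizing u i with
  | zero =>
    have h1 : ∀ σ : desc T 0 u → Fin q, ∀ w ∈ desc T 1 u,
        channel q lam (ext _ σ (T.parent w)) (τ w) = channel q lam (σ ⟨u, by simp [desc]⟩) (τ w) := by
      intro σ w hw
      have hp : T.parent w = u := by
        rw [desc_one, mem_children_iff] at hw
        exact hw.2
      have : u ∈ desc T 0 u := by simp [desc]
      rw [hp, ext_of_mem σ this]
    have h2 : ∀ σ : desc T 0 u → Fin q, H T q lam 0 u i (ext _ σ) =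
        if σ ⟨u, by simp [desc]⟩ = i then 1 else 0 := by
      intro σ
      have : u ∈ desc T 0 u := by simp [desc]
      simp only [H, ext_of_mem σ this]
    have h3 : ∀ σ : desc T 0 u → Fin q, H T q lam 0 u i (ext _ σ) *
        ∏ w ∈ desc T 1 u, channel q lam (ext _ σ (T.parent w)) (τ w) =
        (if σ ⟨u, by simp [desc]⟩ = i then 1 else 0) *
        ∏ w ∈ desc T 1 u, channel q lam (σ ⟨u, by simp [desc]⟩) (τ w) := by
      intro σ
      rw [h2 σ, Finset.prod_congr rfl (h1 σ)]
    simp only [h3]
    rw [show (∑ σ : desc T 0 u → Fin q, (if σ ⟨u, by simp [desc]⟩ = i then (1 : ℝ) else 0) *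
        ∏ w ∈ desc T 1 u, channel q lam (σ ⟨u, by simp [desc]⟩) (τ w)) =
        ∑ j, (if j = i then (1 : ℝ) else 0) * ∏ w ∈ desc T 1 u, channel q lam j (τ w) from
      sum_singleton_assign q u
        (fun j => (if j = i then (1 : ℝ) else 0) * ∏ w ∈ desc T 1 u, channel q lam j (τ w))]
    simp only [ite_mul, one_mul, zero_mul, Finset.sum_ite_eq', Finset.mem_univ, if_true]
    rw [desc_one]
    simp only [H]
    refine Finset.prod_congr rfl fun c _ => ?_
    simp
  | succ k ih =>
    have hP : ∀ c, Dep (desc T k c) (fun τ' : V → Fin q =>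
        ∏ w ∈ desc T (k + 1) c, channel q lam (τ' (T.parent w)) (τ w)) := by
      intro c τ₁ τ₂ h
      exact Finset.prod_congr rfl fun w hw => by rw [h _ (parent_mem_desc T hw)]
    have hG : ∀ c ∈ T.children u, Dep (desc T k c) (fun τ' : V → Fin q =>
        (∑ j, channel q lam i j * H T q lam k c j τ') *
          ∏ w ∈ desc T (k + 1) c, channel q lam (τ' (T.parent w)) (τ w)) := by
      intro c _ τ₁ τ₂ h
      have h1 := hP c τ₁ τ₂ h
      dsimp only at h1 ⊢
      rw [h1]
      congr 1
      exact Finset.sum_congr rfl fun j _ => by rw [H_dep T q lam k c j τ₁ τ₂ h]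
    have hsum := sum_ext_prod (T.children u) (desc T k)
      (fun c _ c' _ hne => disjoint_desc T hne) _ hG
    have hLHS : H T q lam (k + 1 + 1) u i τ = ∏ c ∈ T.children u, ∑ σ : desc T k c → Fin q,
        (∑ j, channel q lam i j * H T q lam k c j (ext _ σ)) *
          ∏ w ∈ desc T (k + 1) c, channel q lam (ext _ σ (T.parent w)) (τ w) := by
      show ∏ c ∈ T.children u, ∑ j, channel q lam i j * H T q lam (k + 1) c j τ = _
      refine Finset.prod_congr rfl fun c _ => ?_
      simp only [ih c, Finset.mul_sum, Finset.sum_mul]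
      rw [Finset.sum_comm]
      refine Finset.sum_congr rfl fun σ _ => Finset.sum_congr rfl fun j _ => ?_
      ring
    rw [hLHS, ← hsum]
    refine Finset.sum_congr rfl fun σ _ => ?_
    rw [Finset.prod_mul_distrib]
    congr 1
    show _ = ∏ w ∈ (T.children u).biUnion (desc T (k + 1)), _
    rw [Finset.prod_biUnion fun c _ c' _ hne => disjoint_desc T hne]
    rfl

/-- the total mass -/
lemma sum_H (hq : q ≠ 0) (k : ℕ) (u : V) (i : Fin q) :
    ∑ σ : desc T k u → Fin q, H T q lam k u i (ext _ σ) = 1 := by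
  induction k generalizing u i with
  | zero =>
    have h2 : ∀ σ : desc T 0 u → Fin q, H T q lam 0 u i (ext _ σ) =
        if σ ⟨u, by simp [desc]⟩ = i then 1 else 0 := by
      intro σ
      have : u ∈ desc T 0 u := by simp [desc]
      simp only [H, ext_of_mem σ this]
    simp only [h2]
    rw [show (∑ σ : desc T 0 u → Fin q, (if σ ⟨u, by simp [desc]⟩ = i then (1 : ℝ) else 0)) =
        ∑ j, (if j = i then (1 : ℝ) else 0) from
      sum_singleton_assign q u (fun j => (if j = i then (1 : ℝ) else 0))]
    simp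
  | succ k ih =>
    have hG : ∀ c ∈ T.children u, Dep (desc T k c) (fun τ' : V → Fin q =>
        ∑ j, channel q lam i j * H T q lam k c j τ') := by
      intro c _ τ₁ τ₂ h
      exact Finset.sum_congr rfl fun j _ => by rw [H_dep T q lam k c j τ₁ τ₂ h]
    have hsum := sum_ext_prod (T.children u) (desc T k)
      (fun c _ c' _ hne => disjoint_desc T hne) _ hG
    refine Eq.trans hsum ?_
    refine Finset.prod_eq_one fun c _ => ?_
    rw [Finset.sum_comm]
    simp only [← Finset.mul_sum, ih c, mul_one]
    exact sum_channel hq lam i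

lemma H_nonneg (hc : ChanOK q lam) (k : ℕ) (u : V) (i : Fin q) (τ : V → Fin q) :
    0 ≤ H T q lam k u i τ := by
  induction k generalizing u i with
  | zero =>
    simp only [H]
    split_ifs <;> norm_num
  | succ k ih =>
    exact Finset.prod_nonneg fun c _ => Finset.sum_nonneg fun j _ => mul_nonneg (hc i j) (ih c j)

end H

/-! ### Experiments at a vertex -/

section Fam

variable (q) (lam : ℝ)

/-- the family of likelihood vectors of a function of the total assignment, observed on `S` -/
noncomputable def fam (S : Finset V) (F : Fin q → (V → Fin q) → ℝ) : (S → Fin q) → Fin q → ℝ :=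
  fun σ i => F i (ext S σ)

/-- the experiment at `u` with the spins at distance `k` -/
noncomputable def lik (k : ℕ) (u : V) : (desc T k u → Fin q) → Fin q → ℝ :=
  fam q (desc T k u) (H T q lam k u)

lemma isLik_lik (hq : q ≠ 0) (hc : ChanOK q lam) (k : ℕ) (u : V) : IsLik (lik T q lam k u) where
  nonneg σ i := H_nonneg T q lam hc k u i _
  summable i := (hasSum_fintype _).summable
  sum_one i := by
    rw [tsum_fintype]
    exact sum_H T q lam hq k u i

/-- the product over a set `A` of children of the contracted experiments of depth `k` -/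
noncomputable def ApF (k : ℕ) (A : Finset V) (i : Fin q) (τ : V → Fin q) : ℝ :=
  ∏ c ∈ A, ∑ j, channel q lam i j * H T q lam k c j τ

/-- the experiment of the set `A` of children with the spins at distance `k` -/
noncomputable def Ap (k : ℕ) (A : Finset V) : (A.biUnion (desc T k) → Fin q) → Fin q → ℝ :=
  fam q (A.biUnion (desc T k)) (ApF T q lam k A)

lemma lik_succ (k : ℕ) (u : V) :
    lik T q lam (k + 1) u = Ap T q lam k (T.children u) := rfl

lemma Ap_insert_apply {k : ℕ} {a : V} {A : Finset V} (ha : a ∉ A)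
    (hS : ∀ w, w ∈ (insert a A).biUnion (desc T k) ↔ w ∈ desc T k a ∨ w ∈ A.biUnion (desc T k))
    (hd : Disjoint (desc T k a) (A.biUnion (desc T k)))
    (σ : (insert a A).biUnion (desc T k) → Fin q) :
    star (contract lam (lik T q lam k a)) (Ap T q lam k A) (unionEquiv hS hd σ) =
      Ap T q lam k (insert a A) σ := by
  funext i
  simp only [star, Ap, fam, ApF, contract, chan, lik, Finset.prod_insert ha]
  congr 1
  · refine Finset.sum_congr rfl fun j _ => ?_
    rw [H_dep T q lam k a j _ _ fun w hw => ext_unionEquiv_left hS hd σ hw]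
  · refine Finset.prod_congr rfl fun c hc => Finset.sum_congr rfl fun j _ => ?_
    rw [H_dep T q lam k c j _ _ fun w hw =>
      ext_unionEquiv_right hS hd σ (Finset.mem_biUnion.2 ⟨c, hc, hw⟩)]

lemma disjoint_desc_biUnion {k : ℕ} {a : V} {A : Finset V} (ha : a ∉ A) :
    Disjoint (desc T k a) (A.biUnion (desc T k)) := by
  refine Finset.disjoint_biUnion_right _ _ _ |>.2 fun c hc => ?_
  exact disjoint_desc T (fun h => ha (h ▸ hc))

lemma mem_insert_biUnion {k : ℕ} {a : V} {A : Finset V} (w : V) :
    w ∈ (insert a A).biUnion (desc T k) ↔ w ∈ desc T k a ∨ w ∈ A.biUnion (desc T k) := by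
  simp [Finset.biUnion_insert]

/-- The star decomposition at a vertex. -/
noncomputable def ApEquiv (k : ℕ) {a : V} {A : Finset V} (ha : a ∉ A) :
    ((insert a A).biUnion (desc T k) → Fin q) ≃
      (desc T k a → Fin q) × (A.biUnion (desc T k) → Fin q) :=
  unionEquiv (mem_insert_biUnion T) (disjoint_desc_biUnion T ha)

lemma Ap_insert {k : ℕ} {a : V} {A : Finset V} (ha : a ∉ A)
    (σ : (insert a A).biUnion (desc T k) → Fin q) :
    star (contract lam (lik T q lam k a)) (Ap T q lam k A) (ApEquiv T q k ha σ) =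
      Ap T q lam k (insert a A) σ :=
  Ap_insert_apply T q lam ha _ _ σ

/-- the unique assignment on the empty set -/
lemma Ap_empty (k : ℕ) (σ : (∅ : Finset V).biUnion (desc T k) → Fin q) :
    Ap T q lam k ∅ σ = fun _ => 1 := by
  funext i
  simp [Ap, fam, ApF]

lemma not_mem_empty_biUnion (k : ℕ) (w : (∅ : Finset V).biUnion (desc T k)) : False := by
  obtain ⟨c, hc, _⟩ := Finset.mem_biUnion.1 w.2
  exact absurd hc (Finset.notMem_empty _)

instance instUniqueEmpty (k : ℕ) : Unique ((∅ : Finset V).biUnion (desc T k) → Fin q) :=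
  { default := fun w => (not_mem_empty_biUnion T k w).elim
    uniq := fun σ => by
      funext w
      exact (not_mem_empty_biUnion T k w).elim }

lemma isLik_Ap_empty (k : ℕ) : IsLik (Ap T q lam k ∅) where
  nonneg σ i := by
    rw [Ap_empty]
    norm_num
  summable i := (hasSum_fintype _).summable
  sum_one i := by
    rw [tsum_fintype, Fintype.sum_unique, Ap_empty]

lemma pot_Ap_empty (hq : q ≠ 0) (k : ℕ) (f : (Fin q → ℝ) → ℝ) :
    Pot f (Ap T q lam k ∅) = f (fun _ => 1 / (q : ℝ)) := by
  have hq' : (q : ℝ) ≠ 0 := by exact_mod_cast hq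
  simp only [Pot]
  rw [tsum_fintype, Fintype.sum_unique, Ap_empty]
  have h1 : post (fun _ : Fin q => (1 : ℝ)) = fun _ => 1 / (q : ℝ) := by
    funext i
    simp [post, mass]
  simp only [hom, h1]
  simp [mass]
  field_simp

lemma pot_Ap_insert {k : ℕ} {a : V} {A : Finset V} (ha : a ∉ A) (f : (Fin q → ℝ) → ℝ) :
    Pot f (Ap T q lam k (insert a A)) =
      Pot f (star (contract lam (lik T q lam k a)) (Ap T q lam k A)) :=
  pot_congr_equiv (ApEquiv T q k ha).symm (fun w => by
    rw [← Ap_insert T q lam ha, Equiv.apply_symm_apply]) f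

lemma symLik_Ap_empty (hq : q ≠ 0) (k : ℕ) : SymLik (Ap T q lam k ∅) := by
  intro π g _
  rw [pot_Ap_empty T q lam hq, pot_Ap_empty T q lam hq]
  rfl

end Fam

/-! ### The cone along the tree -/

section Cone

variable (q) (lam : ℝ)

variable (C : ConeData q)

/-- The observation of the spin at `u` itself. -/
def lik0Equiv (u : V) : (desc T 0 u → Fin q) ≃ Fin q where
  toFun σ := σ ⟨u, by simp [desc]⟩
  invFun i := fun _ => i
  left_inv σ := by
    funext w
    have hw : w = ⟨u, by simp [desc]⟩ := Subtype.ext (Finset.mem_singleton.1 w.2)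
    rw [hw]
  right_inv i := rfl

lemma lik_zero (u : V) (σ : desc T 0 u → Fin q) :
    baseL q (lik0Equiv T q u σ) = lik T q lam 0 u σ := by
  funext i
  have : u ∈ desc T 0 u := by simp [desc]
  simp [baseL, lik, fam, H, lik0Equiv, ext_of_mem σ this]

/-- Every vertex experiment is in the cone. -/
theorem good_lik (hq : q ≠ 0) (hv : ∀ a, 0 ≤ C.Xi (baseL q a)) (hc : ChanOK q lam) {c : ℝ}
    (hc0 : 0 ≤ c) (hrad : ∀ p ∈ Sx q, c * C.Xi p ≤ C.Xi (PottsTree.T q lam p)) (k : ℕ) :
    (∀ u, Good C (lik T q lam k u)) ∧ ∀ A : Finset V, Good C (Ap T q lam k A) := by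
  have step : ∀ k, (∀ u, Good C (lik T q lam k u)) → ∀ A : Finset V, Good C (Ap T q lam k A) := by
    intro k hk A
    induction A using Finset.induction_on with
    | empty =>
      refine ⟨isLik_Ap_empty T q lam k, symLik_Ap_empty T q lam hq k, ?_⟩
      rw [pot_Ap_empty T q lam hq]
      exact C.unif
    | insert a A ha ih =>
      have hs := ConeData.good_star C hq (good_contract C hq hc hc0 hrad (hk a)) ih
      refine ⟨IsLik.congr_equiv (ApEquiv T q k ha).symm (fun w => ?_) hs.lik,
        SymLik.congr_equiv (ApEquiv T q k ha).symm (fun w => ?_) hs.sym, ?_⟩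
      · rw [← Ap_insert T q lam ha, Equiv.apply_symm_apply]
      · rw [← Ap_insert T q lam ha, Equiv.apply_symm_apply]
      · rw [pot_congr_equiv (ApEquiv T q k ha).symm (fun w => by
          rw [← Ap_insert T q lam ha, Equiv.apply_symm_apply])]
        exact hs.cone
  induction k with
  | zero =>
    have hu : ∀ u, Good C (lik T q lam 0 u) := by
      intro u
      have h := good_baseL C hq hv
      exact ⟨IsLik.congr_equiv (lik0Equiv T q u).symm (fun a => by
          rw [← lik_zero T q lam, Equiv.apply_symm_apply]) h.lik,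
        SymLik.congr_equiv (lik0Equiv T q u).symm (fun a => by
          rw [← lik_zero T q lam, Equiv.apply_symm_apply]) h.sym,
        by
          rw [pot_congr_equiv (lik0Equiv T q u).symm (fun a => by
            rw [← lik_zero T q lam, Equiv.apply_symm_apply])]
          exact h.cone⟩
    exact ⟨hu, step 0 hu⟩
  | succ k ih =>
    have hu : ∀ u, Good C (lik T q lam (k + 1) u) := fun u => by
      rw [lik_succ]
      exact ih.2 _
    exact ⟨hu, step (k + 1) hu⟩

/-- The pair inequality along the tree: adding a child to a set of children. -/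
theorem pot_A_Ap_insert_le (hq : q ≠ 0) (hv : ∀ a, 0 ≤ C.Xi (baseL q a)) (hc : ChanOK q lam) {c : ℝ}
    (hc0 : 0 ≤ c) (hrad : ∀ p ∈ Sx q, c * C.Xi p ≤ C.Xi (PottsTree.T q lam p)) (k : ℕ)
    {a : V} {A' : Finset V} (ha : a ∉ A') :
    Pot (PottsTree.A q) (Ap T q lam k (insert a A')) ≤
      lam ^ 2 * Pot (PottsTree.A q) (lik T q lam k a) + Pot (PottsTree.A q) (Ap T q lam k A') -
      C.mu * (lam ^ 2 * Pot (PottsTree.A q) (lik T q lam k a) * Pot (PottsTree.A q) (Ap T q lam k A') *
        (lam ^ 2 * Pot (PottsTree.A q) (lik T q lam k a) + Pot (PottsTree.A q) (Ap T q lam k A'))) := by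
  have hg := good_lik T q lam C hq hv hc hc0 hrad k
  have h := ConeData.pot_A_star_le C hq (good_contract C hq hc hc0 hrad (hg.1 a)) (hg.2 A')
  rw [pot_A_contract hq lam (hg.1 a).lik] at h
  rwa [← pot_Ap_insert T q lam ha] at h

end Cone

/-! ### The level laws of the prelude -/

section Level

variable (q) (lam : ℝ)

lemma root_mem_desc_zero : T.root ∈ T.level 0 :=
  (T.mem_level_iff 0 T.root).2 ((T.depth_eq_zero_iff T.root).2 rfl)

lemma level_eq_desc (n : ℕ) : T.level n = desc T n T.root := by
  ext w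
  rw [mem_desc_root]

/-- `levelLaw` is `H` at the root. -/
theorem levelLaw_eq (n : ℕ) (i : Fin q) (τ : T.level n → Fin q) :
    levelLaw q T lam n i τ = H T q lam n T.root i (ext _ τ) := by
  induction n generalizing i with
  | zero =>
    have h : T.root ∈ T.level 0 := root_mem_desc_zero T
    simp only [levelLaw, H, ext_of_mem τ h]
  | succ n ih =>
    have key : ∀ S : Finset V, S = desc T n T.root → ∀ S' : Finset V, S' = desc T (n + 1) T.root →
        ∀ τ'' : V → Fin q,
        H T q lam (n + 1) T.root i τ'' = ∑ σ : S → Fin q, H T q lam n T.root i (ext _ σ) *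
          ∏ w ∈ S', channel q lam (ext _ σ (T.parent w)) (τ'' w) := by
      rintro S rfl S' rfl τ''
      exact H_forward T q lam n T.root i τ''
    rw [key _ (level_eq_desc T n) _ (level_eq_desc T (n + 1))]
    simp only [levelLaw, ih]
    refine Finset.sum_congr rfl fun σ _ => ?_
    congr 1
    rw [← Finset.prod_coe_sort (T.level (n + 1))]
    refine Finset.prod_congr rfl fun w _ => ?_
    have hp : T.parent w.1 ∈ T.level n := by
      rw [T.mem_level_iff]
      have h1 := (T.mem_level_iff _ _).1 w.2
      have hne : w.1 ≠ T.root := ne_root_of_depth_pos T (by omega)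
      have := T.depth_parent w.1 hne
      omega
    rw [ext_of_mem σ hp, ext_of_mem τ w.2]

lemma pot_lik_root_eq (hq : q ≠ 0) (hc : ChanOK q lam) (n : ℕ) :
    treeAdvantage q T lam n = Pot (tv q) (lik T q lam n T.root) := by
  have hL : IsLik (fam q (T.level n) (H T q lam n T.root)) := by
    have e := level_eq_desc T n
    rw [e]
    exact isLik_lik T q lam hq hc n T.root
  have h1 : treeAdvantage q T lam n = Pot (tv q) (fam q (T.level n) (H T q lam n T.root)) := by
    rw [pot_tv_eq hq hL, tsum_fintype]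
    simp only [treeAdvantage, fam, levelLaw_eq]
  rw [h1, lik, level_eq_desc]

end Level

end Crest.Agent.PottsTree
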