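import Crest.Agent.Lib.PottsTree.Compare
import Crest.Agent.Lib.PottsTree.Mono

/-!
# Upper bounds for symmetric experiments by finite laws on a fixed table of points

`Bnd g L μ`: every admissible functional (bounded, convex, symmetric) has, under the posterior of `L`,
a mean at most `∑ i, μ i * f (g i)`.  This relation is stable under contraction, star, Poisson
mixtures and moving mass to a vertex, so that a fixed finite table of points carries a verified
recursion.
-/

namespace Crest.Agent.PottsTree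

open Finset Filter
open Crest.ProbabilityR.Broadcast
open ConeData
open Cmp

variable {q : ℕ}

/-- admissible functionals: bounded, convex and symmetric -/
def Adm (f : (Fin q → ℝ) → ℝ) : Prop :=
  BddS f ∧ ConvexOn ℝ (Sx q) f ∧ ∀ π : Equiv.Perm (Fin q), ∀ p ∈ Sx q, f (rel π p) = f p

/-- upper bound of an experiment by a finite (signed) law on the table `g` -/
def Bnd {Ω ι : Type*} [Fintype ι] (g : ι → Fin q → ℝ) (L : Ω → Fin q → ℝ) (μ : ι → ℝ) : Prop :=
  ∀ f : (Fin q → ℝ) → ℝ, Adm f → Pot f L ≤ ∑ i, μ i * f (g i)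

/-! ### Admissible functionals -/

lemma adm_A : Adm (A q) := by
  refine ⟨bddS_A, convexOn_A, fun π p _ => ?_⟩
  simp only [A, rel]
  rw [Equiv.sum_comp π (fun i => p i ^ 2)]

lemma adm_tv (hq : q ≠ 0) : Adm (tv q) := by
  refine ⟨bddS_tv hq, convexOn_tv, fun π p _ => ?_⟩
  simp only [tv, rel]
  rw [Equiv.sum_comp π (fun i => |p i - 1 / (q : ℝ)|)]

lemma adm_comp_T (hq : q ≠ 0) {lam : ℝ} (hc : ChanOK q lam) {f : (Fin q → ℝ) → ℝ} (hf : Adm f) :
    Adm (fun p => f (T q lam p)) := by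
  refine ⟨BddS.comp_T hq hc hf.1, convexOn_comp_T hq hc hf.2.1, fun π p hp => ?_⟩
  show f (T q lam (rel π p)) = _
  rw [T_rel, hf.2.2 π _ (T_mem hq hc hp)]

lemma rel_rel (σ π : Equiv.Perm (Fin q)) (r : Fin q → ℝ) : rel π (rel σ r) = rel (σ * π) r := rfl

lemma rel_add_smul (π : Equiv.Perm (Fin q)) (a b : ℝ) (r r' : Fin q → ℝ) :
    rel π (a • r + b • r') = a • rel π r + b • rel π r' := rfl

/-- Convexity of a finite sum. -/
lemma convexOn_sum_fun {ι : Type*} (s : Finset ι) {F : ι → (Fin q → ℝ) → ℝ}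
    (h : ∀ i ∈ s, ConvexOn ℝ (Sx q) (F i)) : ConvexOn ℝ (Sx q) (fun p => ∑ i ∈ s, F i p) := by
  classical
  induction s using Finset.induction_on with
  | empty =>
    simpa using (convexOn_const (0 : ℝ) (convex_stdSimplex ℝ (Fin q)))
  | insert a s ha ih =>
    simp only [Finset.sum_insert ha]
    exact (h a (Finset.mem_insert_self _ _)).add (ih fun i hi => h i (Finset.mem_insert_of_mem hi))

lemma convexOn_rel {f : (Fin q → ℝ) → ℝ} (π : Equiv.Perm (Fin q)) (hf : ConvexOn ℝ (Sx q) f) :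
    ConvexOn ℝ (Sx q) (fun r => f (rel π r)) := by
  refine ⟨convex_stdSimplex ℝ (Fin q), fun x hx y hy a b ha hb hab => ?_⟩
  simp only [smul_eq_mul]
  rw [rel_add_smul]
  simpa using hf.2 (rel_mem π hx) (rel_mem π hy) ha hb hab

lemma inv_card_perm_nonneg : (0 : ℝ) ≤ ((Fintype.card (Equiv.Perm (Fin q)) : ℝ))⁻¹ := by positivity

/-- `B f p ·` is admissible. -/
lemma adm_B_right {f : (Fin q → ℝ) → ℝ} (hf : Adm f) {p : Fin q → ℝ} (hp : p ∈ Sx q) :
    Adm (fun r => B f p r) := by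
  refine ⟨bddS_B hf.1 hp, ?_, fun σ r _ => ?_⟩
  · have h1 : ConvexOn ℝ (Sx q) (fun r => ∑ π : Equiv.Perm (Fin q), (q : ℝ) * K f p (rel π r)) := by
      refine convexOn_sum_fun _ fun π _ => ?_
      have hq0 : (0 : ℝ) ≤ q := by positivity
      exact (convexOn_rel π (convexOn_K hf.2.1 hp)).smul hq0
    exact h1.smul inv_card_perm_nonneg
  · show B f p (rel σ r) = B f p r
    simp only [B, rel_rel]
    congr 1
    exact Equiv.sum_comp (Equiv.mulLeft σ) (fun π => (q : ℝ) * K f p (rel π r))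

lemma sp_comm (p r : Fin q → ℝ) : sp p r = sp r p := by
  funext i
  simp only [sp, mul_comm]

lemma K_comm (f : (Fin q → ℝ) → ℝ) (p r : Fin q → ℝ) : K f p r = K f r p := by
  simp only [K, sp_comm p r, mul_comm (p _)]

lemma K_congr {f g : (Fin q → ℝ) → ℝ} (hfg : ∀ x ∈ Sx q, f x = g x) {p r : Fin q → ℝ}
    (hp : p ∈ Sx q) (hr : r ∈ Sx q) : K f p r = K g p r := by
  by_cases h : ∑ j, p j * r j = 0
  · simp [K, h]
  · simp only [K]
    rw [hfg _ (sp_mem hp hr h)]

/-- `B f · r` is admissible. -/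
lemma adm_B_left {f : (Fin q → ℝ) → ℝ} (hf : Adm f) {r : Fin q → ℝ} (hr : r ∈ Sx q) :
    Adm (fun p => B f p r) := by
  refine ⟨?_, ?_, fun σ p hp => ?_⟩
  · obtain ⟨C, hC⟩ := id hf.1
    exact ⟨q * C, fun p hp => abs_B_le hC hp hr⟩
  · have h1 : ConvexOn ℝ (Sx q) (fun p => ∑ π : Equiv.Perm (Fin q), (q : ℝ) * K f p (rel π r)) := by
      refine convexOn_sum_fun _ fun π _ => ?_
      have hq0 : (0 : ℝ) ≤ q := by positivity
      have h2 : ConvexOn ℝ (Sx q) (fun p => K f p (rel π r)) := by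
        simp only [K_comm f _ (rel π r)]
        exact convexOn_K hf.2.1 (rel_mem π hr)
      exact h2.smul hq0
    exact h1.smul inv_card_perm_nonneg
  · show B f (rel σ p) r = B f p r
    simp only [B]
    congr 1
    have key : ∀ π : Equiv.Perm (Fin q), K f (rel σ p) (rel π r) = K f p (rel (π * σ⁻¹) r) := by
      intro π
      have e : rel π r = rel σ (rel (π * σ⁻¹) r) := by
        rw [rel_rel]
        congr 1
        group
      rw [e, ← K_rel]
      exact K_congr (fun x hx => hf.2.2 σ x hx) hp (rel_mem _ hr)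
    simp only [key]
    exact Equiv.sum_comp (Equiv.mulRight σ⁻¹) (fun π => (q : ℝ) * K f p (rel π r))

/-! ### Vertices -/

lemma baseL_eq_single (a : Fin q) : baseL q a = Pi.single a (1 : ℝ) := by
  funext i
  simp only [baseL, Pi.single_apply]
  by_cases h : a = i
  · simp [h]
  · simp [h, Ne.symm h]

lemma adm_vertex_eq {f : (Fin q → ℝ) → ℝ} (hf : Adm f) (a b : Fin q) :
    f (baseL q a) = f (baseL q b) := by
  have h := hf.2.2 (Equiv.swap a b) (baseL q b) (baseL_mem b)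
  rw [rel_baseL] at h
  simpa using h

/-- A vertex is the maximum of an admissible functional. -/
lemma le_vertex {f : (Fin q → ℝ) → ℝ} (hf : Adm f) {p : Fin q → ℝ} (hp : p ∈ Sx q) (a : Fin q) :
    f p ≤ f (baseL q a) := by
  have h := hf.2.1.map_sum_le (t := Finset.univ) (w := fun b => p b) (p := fun b => baseL q b)
    (fun b _ => hp.1 b) hp.2 (fun b _ => baseL_mem b)
  simp only [smul_eq_mul] at h
  rw [← eq_sum_baseL] at h
  refine h.trans (le_of_eq ?_)
  simp only [adm_vertex_eq hf _ a]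
  rw [← Finset.sum_mul, hp.2, one_mul]

lemma pot_le_vertex {Ω : Type*} {L : Ω → Fin q → ℝ} (hq : q ≠ 0) (hL : IsLik L)
    {f : (Fin q → ℝ) → ℝ} (hf : Adm f) (a : Fin q) : Pot f L ≤ f (baseL q a) := by
  have := pot_mono hL hf.1 (BddS.const (f (baseL q a))) fun p hp => le_vertex hf hp a
  rwa [pot_const hq hL] at this

lemma pot_baseL_adm {f : (Fin q → ℝ) → ℝ} (hq : q ≠ 0) (hf : Adm f) (a : Fin q) :
    Pot f (baseL q) = f (baseL q a) := by
  have hq' : (q : ℝ) ≠ 0 := by exact_mod_cast hq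
  rw [pot_baseL]
  simp only [adm_vertex_eq hf _ a]
  simp
  field_simp

/-! ### The relation `Bnd` -/

section Bnd

variable {Ω Ω' ι : Type*} [Fintype ι] {g : ι → Fin q → ℝ} {L : Ω → Fin q → ℝ}
  {L' : Ω' → Fin q → ℝ} {μ μ' : ι → ℝ}

lemma Bnd.of_dom (h : Bnd g L μ) (hd : Dom L' L) : Bnd g L' μ := fun f hf =>
  (hd f hf.1 hf.2.1).trans (h f hf)

lemma Bnd.of_pot_eq (h : Bnd g L μ) (he : ∀ f, Adm f → Pot f L' = Pot f L) : Bnd g L' μ :=
  fun f hf => (he f hf).le.trans (h f hf)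

/-- the starting point: a vertex of the table carries all the mass -/
lemma bnd_base (hq : q ≠ 0) {i0 : ι} [DecidableEq ι] {a : Fin q} (hi0 : g i0 = baseL q a)
    (hμ : ∀ i, μ i = if i = i0 then 1 else 0) : Bnd g (baseL q) μ := by
  intro f hf
  rw [pot_baseL_adm hq hf a]
  simp only [hμ, ite_mul, one_mul, zero_mul, Finset.sum_ite_eq', Finset.mem_univ, if_true, hi0]
  exact le_rfl

/-- contraction -/
lemma bnd_contract (hq : q ≠ 0) {lam : ℝ} (hc : ChanOK q lam) (h : Bnd g L μ) (hμ : ∀ i, 0 ≤ μ i)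
    {C : ι → ι → ℝ}
    (hC : ∀ i, ∀ f : (Fin q → ℝ) → ℝ, Adm f → f (T q lam (g i)) ≤ ∑ k, C i k * f (g k)) :
    Bnd g (contract lam L) (fun k => ∑ i, μ i * C i k) := by
  intro f hf
  rw [pot_contract hq]
  refine (h _ (adm_comp_T hq hc hf)).trans ?_
  calc ∑ i, μ i * f (T q lam (g i)) ≤ ∑ i, μ i * ∑ k, C i k * f (g k) :=
        Finset.sum_le_sum fun i _ => mul_le_mul_of_nonneg_left (hC i f hf) (hμ i)
    _ = ∑ k, (∑ i, μ i * C i k) * f (g k) := by
        simp only [Finset.mul_sum, Finset.sum_mul]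
        rw [Finset.sum_comm]
        exact Finset.sum_congr rfl fun k _ => Finset.sum_congr rfl fun i _ => by ring

/-- star -/
lemma bnd_star (hq : q ≠ 0) (h : Bnd g L μ) (h' : Bnd g L' μ') (hμ : ∀ i, 0 ≤ μ i)
    (hμ' : ∀ i, 0 ≤ μ' i) (hL : IsLik L) (hL' : IsLik L') (hS' : SymLik L')
    (hg : ∀ i, g i ∈ Sx q) {V : ι → ι → ι → ℝ}
    (hV : ∀ i j, ∀ f : (Fin q → ℝ) → ℝ, Adm f → B f (g i) (g j) ≤ ∑ k, V i j k * f (g k)) :
    Bnd g (star L L') (fun k => ∑ i, ∑ j, μ i * μ' j * V i j k) := by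
  intro f hf
  obtain ⟨C, hC⟩ := id hf.1
  rw [pot_star_sym hq hL hL' hS' hf.1]
  have hb1 : BddS (fun p => Pot (B f p) L') :=
    bddS_pot_of_bdd hq hL' (fun p hp r hr => abs_B_le hC hp hr)
  have hb2 : ∀ j, BddS (fun p => B f p (g j)) := fun j =>
    ⟨q * C, fun p hp => abs_B_le hC hp (hg j)⟩
  have hb3 : BddS (fun p => ∑ j, μ' j * B f p (g j)) :=
    BddS.sum _ fun j _ => (hb2 j).const_mul _
  have step1 : Pot (fun p => Pot (B f p) L') L ≤ Pot (fun p => ∑ j, μ' j * B f p (g j)) L :=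
    pot_mono hL hb1 hb3 fun p hp => h' _ (adm_B_right hf hp)
  have step2 : Pot (fun p => ∑ j, μ' j * B f p (g j)) L = ∑ j, μ' j * Pot (fun p => B f p (g j)) L := by
    rw [pot_sum hL _ fun j _ => (hb2 j).const_mul _]
    exact Finset.sum_congr rfl fun j _ => pot_const_mul _
  rw [step2] at step1
  refine step1.trans ?_
  calc ∑ j, μ' j * Pot (fun p => B f p (g j)) L
      ≤ ∑ j, μ' j * ∑ i, μ i * ∑ k, V i j k * f (g k) := by
        refine Finset.sum_le_sum fun j _ => mul_le_mul_of_nonneg_left ?_ (hμ' j)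
        refine (h _ (adm_B_left hf (hg j))).trans ?_
        exact Finset.sum_le_sum fun i _ => mul_le_mul_of_nonneg_left (hV i j f hf) (hμ i)
    _ = ∑ k, (∑ i, ∑ j, μ i * μ' j * V i j k) * f (g k) := by
        simp only [Finset.mul_sum, Finset.sum_mul]
        have hR : ∑ k, ∑ i, ∑ j, μ i * μ' j * V i j k * f (g k) =
            ∑ i, ∑ j, ∑ k, μ i * μ' j * V i j k * f (g k) := by
          rw [Finset.sum_comm]
          exact Finset.sum_congr rfl fun i _ => Finset.sum_comm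
        rw [hR, Finset.sum_comm]
        exact Finset.sum_congr rfl fun i _ => Finset.sum_congr rfl fun j _ =>
          Finset.sum_congr rfl fun k _ => by ring

/-- moving mass to a vertex -/
lemma bnd_upgrade [DecidableEq ι] (h : Bnd g L μ) (hg : ∀ i, g i ∈ Sx q) {i0 : ι} {a : Fin q}
    (hi0 : g i0 = baseL q a) (hsum : ∑ i, μ i = ∑ i, μ' i) (hle : ∀ i, i ≠ i0 → μ' i ≤ μ i) :
    Bnd g L μ' := by
  intro f hf
  refine (h f hf).trans ?_
  set F := f (baseL q a) with hF
  have hmax : ∀ i, f (g i) ≤ F := fun i => le_vertex hf (hg i) a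
  have key : ∀ i, (μ i - μ' i) * f (g i) ≤ (μ i - μ' i) * F := by
    intro i
    by_cases hi : i = i0
    · subst hi
      rw [hi0]
    · exact mul_le_mul_of_nonneg_left (hmax i) (by linarith [hle i hi])
  have h2 : ∑ i, (μ i - μ' i) * f (g i) ≤ ∑ i, (μ i - μ' i) * F :=
    Finset.sum_le_sum fun i _ => key i
  have h3 : ∑ i, (μ i - μ' i) * F = 0 := by
    rw [← Finset.sum_mul, Finset.sum_sub_distrib, hsum, sub_self, zero_mul]
  have h4 : ∑ i, (μ i - μ' i) * f (g i) = ∑ i, μ i * f (g i) - ∑ i, μ' i * f (g i) := by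
    rw [← Finset.sum_sub_distrib]
    exact Finset.sum_congr rfl fun i _ => by ring
  linarith

/-- Recursion for star powers. -/
lemma bnd_starPow_succ {k : ℕ} (h : Bnd g (star L (starPow L k)) μ) :
    Bnd g (starPow L (k + 1)) μ := fun f hf => by
  rw [pot_congr_starPow_succ]
  exact h f hf

lemma bnd_starPow_zero [DecidableEq ι] (hq : q ≠ 0) {i1 : ι} (hu : g i1 = fun _ => 1 / (q : ℝ))
    (hμ : ∀ i, μ i = if i = i1 then 1 else 0) : Bnd g (starPow L 0) μ := by
  intro f _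
  rw [pot_starPow_zero L hq]
  simp only [hμ, ite_mul, one_mul, zero_mul, Finset.sum_ite_eq', Finset.mem_univ, if_true, hu]
  exact le_rfl

lemma bnd_starPow_one (h : Bnd g L μ) : Bnd g (starPow L 1) μ := by
  intro f hf
  have e2 : ∀ w : Ω × (Fin 0 → Ω), L (Equiv.prodUnique Ω (Fin 0 → Ω) w) =
      star L (starPow L 0) w := by
    intro w
    funext i
    simp [star, starPow]
  rw [pot_congr_starPow_succ, ← pot_congr_equiv (Equiv.prodUnique Ω (Fin 0 → Ω)) e2 f]
  exact h f hf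

/-- A Poisson mixture: the tail and the slack in the weights go to the vertex. -/
lemma bnd_pois [DecidableEq ι] (hq : q ≠ 0) {d : ℝ} (hd : 0 ≤ d) (hL : IsLik L) (n : ℕ)
    {Q : ℕ → ι → ℝ} {c : ℕ → ℝ} (hQ : ∀ k ≤ n, Bnd g (starPow L k) (Q k))
    (hc0 : ∀ k ≤ n, 0 ≤ c k) (hc1 : ∀ k ≤ n, c k ≤ poi d k) {i0 : ι} {a : Fin q}
    (hi0 : g i0 = baseL q a) :
    Bnd g (poisMix d L) (fun i => ∑ k ∈ Finset.range (n + 1), c k * Q k i +
      if i = i0 then 1 - ∑ k ∈ Finset.range (n + 1), c k else 0) := by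
  intro f hf
  set F := f (baseL q a) with hF
  set e : ℕ → ℝ := fun k => if k ≤ n then c k else 0 with he
  set a' : ℕ → ℝ := fun k => Pot f (starPow L k) with ha'
  have hamax : ∀ k, a' k ≤ F := fun k => pot_le_vertex hq (isLik_starPow hL k) hf a
  have he1 : ∀ k, e k ≤ poi d k := by
    intro k
    simp only [he]
    split_ifs with h
    · exact hc1 k h
    · exact poi_nonneg hd k
  have hsupp : ∀ {u : ℕ → ℝ}, (∀ k, n < k → u k = 0) →
      HasSum u (∑ k ∈ Finset.range (n + 1), u k) := by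
    intro u hu
    refine hasSum_sum_of_ne_finset_zero fun k hk => hu k ?_
    simpa [Finset.mem_range, Nat.lt_succ_iff] using hk
  have H1 : HasSum (fun k => e k * a' k) (∑ k ∈ Finset.range (n + 1), e k * a' k) :=
    hsupp fun k hk => by simp [he, not_le.2 hk]
  have H2 : HasSum e (∑ k ∈ Finset.range (n + 1), e k) :=
    hsupp fun k hk => by simp [he, not_le.2 hk]
  have H3 := ((hasSum_poi d).sub H2).mul_right F
  have H4 := H1.add H3
  have hsumm := summable_poi_pot hq hd hL hf.1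
  have hle : ∑' k, poi d k * a' k ≤
      ∑ k ∈ Finset.range (n + 1), e k * a' k + (1 - ∑ k ∈ Finset.range (n + 1), e k) * F := by
    rw [← H4.tsum_eq]
    refine hsumm.tsum_le_tsum (fun k => ?_) H4.summable
    have h5 : (poi d k - e k) * a' k ≤ (poi d k - e k) * F :=
      mul_le_mul_of_nonneg_left (hamax k) (by linarith [he1 k])
    have h8 : poi d k * a' k = e k * a' k + (poi d k - e k) * a' k := by ring
    show poi d k * a' k ≤ e k * a' k + (poi d k - e k) * F
    linarith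
  have hee : ∀ k ∈ Finset.range (n + 1), e k = c k := fun k hk => by
    have : k ≤ n := Nat.lt_succ_iff.1 (Finset.mem_range.1 hk)
    simp [he, this]
  rw [Finset.sum_congr rfl fun k hk => by rw [hee k hk],
    Finset.sum_congr rfl hee] at hle
  rw [pot_poisMix hd hL hf.1]
  refine hle.trans ?_
  have hterm : ∀ k ∈ Finset.range (n + 1), c k * a' k ≤ c k * ∑ i, Q k i * f (g i) := fun k hk => by
    have hk' : k ≤ n := Nat.lt_succ_iff.1 (Finset.mem_range.1 hk)
    exact mul_le_mul_of_nonneg_left (hQ k hk' f hf) (hc0 k hk')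
  have h6 := Finset.sum_le_sum hterm
  have h7 : ∑ i, (∑ k ∈ Finset.range (n + 1), c k * Q k i +
      if i = i0 then 1 - ∑ k ∈ Finset.range (n + 1), c k else 0) * f (g i) =
      ∑ k ∈ Finset.range (n + 1), c k * ∑ i, Q k i * f (g i) +
        (1 - ∑ k ∈ Finset.range (n + 1), c k) * F := by
    simp only [add_mul, Finset.sum_add_distrib, ite_mul, zero_mul, Finset.sum_ite_eq',
      Finset.mem_univ, if_true, hi0]
    congr 1
    simp only [Finset.mul_sum, Finset.sum_mul]
    rw [Finset.sum_comm]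
    exact Finset.sum_congr rfl fun k _ => Finset.sum_congr rfl fun i _ => by ring
  rw [h7]
  linarith

/-- The two trees. -/
lemma bnd_regL_zero [DecidableEq ι] (hq : q ≠ 0) (b : ℕ) (lam : ℝ) {i0 : ι} {a : Fin q}
    (hi0 : g i0 = baseL q a) (hμ : ∀ i, μ i = if i = i0 then 1 else 0) :
    Bnd g (regL q b lam 0) μ := fun f hf => by
  rw [pot_regL_zero]
  exact bnd_base hq hi0 hμ f hf

lemma bnd_regL_succ {b ℓ : ℕ} {lam : ℝ}
    (h : Bnd g (starPow (contract lam (regL q b lam ℓ)) b) μ) :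
    Bnd g (regL q b lam (ℓ + 1)) μ := fun f hf => by
  rw [pot_regL_succ]
  exact h f hf

lemma bnd_gwL_zero [DecidableEq ι] (hq : q ≠ 0) (lam d : ℝ) {i0 : ι} {a : Fin q}
    (hi0 : g i0 = baseL q a) (hμ : ∀ i, μ i = if i = i0 then 1 else 0) :
    Bnd g (gwL q lam d 0) μ := by
  rw [gwL_zero]
  exact bnd_base hq hi0 hμ

lemma bnd_gwL_succ {ℓ : ℕ} {lam d : ℝ}
    (h : Bnd g (poisMix d (contract lam (gwL q lam d ℓ))) μ) :
    Bnd g (gwL q lam d (ℓ + 1)) μ := by
  rw [gwL_succ]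
  exact h

lemma pot_A_le_of_bnd (h : Bnd g L μ) : Pot (A q) L ≤ ∑ i, μ i * A q (g i) := h _ adm_A

lemma pot_tv_le_of_bnd (hq : q ≠ 0) (h : Bnd g L μ) : Pot (tv q) L ≤ ∑ i, μ i * tv q (g i) :=
  h _ (adm_tv hq)

end Bnd

/-- rounding: Jensen for a finite splitting -/
lemma jensen_round {J : Type*} (t : Finset J) {f : (Fin q → ℝ) → ℝ} (hf : ConvexOn ℝ (Sx q) f)
    {W : J → ℝ} {a : J → Fin q → ℝ} {x : Fin q → ℝ} {s : ℝ} (hW : ∀ j ∈ t, 0 ≤ W j)
    (hs : ∑ j ∈ t, W j = s) (hpos : 0 < s) (hmean : ∑ j ∈ t, W j • a j = s • x)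
    (ha : ∀ j ∈ t, a j ∈ Sx q) : s * f x ≤ ∑ j ∈ t, W j * f (a j) := by
  have h1 : ∑ j ∈ t, W j / s = 1 := by
    rw [← Finset.sum_div, hs, div_self hpos.ne']
  have hJ := hf.map_sum_le (t := t) (w := fun j => W j / s) (p := a)
    (fun j hj => div_nonneg (hW j hj) hpos.le) h1 ha
  have e : ∑ j ∈ t, (W j / s) • a j = x := by
    have : ∑ j ∈ t, (W j / s) • a j = s⁻¹ • ∑ j ∈ t, W j • a j := by
      rw [Finset.smul_sum]
      refine Finset.sum_congr rfl fun j _ => ?_
      rw [smul_smul]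
      congr 1
      field_simp
    rw [this, hmean, smul_smul, inv_mul_cancel₀ hpos.ne', one_smul]
  rw [e] at hJ
  have := mul_le_mul_of_nonneg_left hJ hpos.le
  refine this.trans (le_of_eq ?_)
  rw [Finset.mul_sum]
  refine Finset.sum_congr rfl fun j _ => ?_
  simp only [smul_eq_mul]
  field_simp

/-- A point as a mixture of points of the simplex. -/
lemma le_of_split {J : Type*} (t : Finset J) {f : (Fin q → ℝ) → ℝ} (hf : ConvexOn ℝ (Sx q) f)
    {W : J → ℝ} {a : J → Fin q → ℝ} {x : Fin q → ℝ} (hW : ∀ j ∈ t, 0 ≤ W j)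
    (ha : ∀ j ∈ t, a j ∈ Sx q) (hx : x ∈ Sx q) (hsum : ∀ l, x l = ∑ j ∈ t, W j * a j l) :
    f x ≤ ∑ j ∈ t, W j * f (a j) := by
  have hmass : ∑ j ∈ t, W j = 1 := by
    have h1 : ∑ l, x l = 1 := hx.2
    simp only [hsum] at h1
    rw [Finset.sum_comm] at h1
    rw [← h1]
    refine Finset.sum_congr rfl fun j hj => ?_
    rw [← Finset.mul_sum, (ha j hj).2, mul_one]
  have h := jensen_round t hf hW hmass one_pos (x := x) (a := a) (by
    funext l
    simp [Finset.sum_apply, hsum l]) ha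
  simpa using h

/-- The kernel of a product written as a mixture of points of the simplex (rounding on a grid): no
normalisation is needed, which also covers the case of an empty support. -/
lemma K_le_of_split {J : Type*} (t : Finset J) {f : (Fin q → ℝ) → ℝ} (hf : ConvexOn ℝ (Sx q) f)
    {W : J → ℝ} {a : J → Fin q → ℝ} {p r : Fin q → ℝ} (hW : ∀ j ∈ t, 0 ≤ W j)
    (ha : ∀ j ∈ t, a j ∈ Sx q) (hsum : ∀ l, p l * r l = ∑ j ∈ t, W j * a j l) :
    K f p r ≤ ∑ j ∈ t, W j * f (a j) := by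
  have hmass : ∑ l, p l * r l = ∑ j ∈ t, W j := by
    simp only [hsum]
    rw [Finset.sum_comm]
    refine Finset.sum_congr rfl fun j hj => ?_
    rw [← Finset.mul_sum, (ha j hj).2, mul_one]
  set s := ∑ l, p l * r l with hs
  by_cases hs0 : s = 0
  · have hz : ∀ j ∈ t, W j = 0 := by
      have h0 : ∑ j ∈ t, W j = 0 := by rw [← hmass, hs0]
      exact (Finset.sum_eq_zero_iff_of_nonneg hW).1 h0
    simp only [K, ← hs, hs0, zero_mul]
    rw [Finset.sum_eq_zero fun j hj => by rw [hz j hj, zero_mul]]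
  · have hpos : 0 < s := by
      have h0 : 0 ≤ s := by
        rw [hmass]
        exact Finset.sum_nonneg hW
      exact lt_of_le_of_ne h0 (Ne.symm hs0)
    refine jensen_round t hf hW hmass.symm hpos ?_ ha
    funext l
    simp only [Finset.sum_apply, Pi.smul_apply, smul_eq_mul, sp, ← hs]
    rw [← hsum l]
    field_simp

/-- The kernel of a symmetrised product from a mixture for each permutation. -/
lemma B_le_of_split {J : Type*} (t : Finset J) {f : (Fin q → ℝ) → ℝ} (hf : ConvexOn ℝ (Sx q) f)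
    {W : Equiv.Perm (Fin q) → J → ℝ} {a : Equiv.Perm (Fin q) → J → Fin q → ℝ} {p r : Fin q → ℝ}
    (hW : ∀ π, ∀ j ∈ t, 0 ≤ W π j) (ha : ∀ π, ∀ j ∈ t, a π j ∈ Sx q)
    (hsum : ∀ π l, p l * r (π l) = ∑ j ∈ t, W π j * a π j l) :
    B f p r ≤ ((Fintype.card (Equiv.Perm (Fin q)) : ℝ))⁻¹ *
      ∑ π : Equiv.Perm (Fin q), (q : ℝ) * ∑ j ∈ t, W π j * f (a π j) := by
  refine mul_le_mul_of_nonneg_left ?_ inv_card_perm_nonneg
  refine Finset.sum_le_sum fun π _ => mul_le_mul_of_nonneg_left ?_ (by positivity)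
  exact K_le_of_split t hf (hW π) (ha π) (hsum π)

/-- The kernel `B` in the case of three spins, as a sum over permutations. -/
lemma B_three' (f : (Fin 3 → ℝ) → ℝ) (p r : Fin 3 → ℝ) :
    B f p r = (1 / 2) * ∑ π : Equiv.Perm (Fin 3), K f p (rel π r) := by
  simp only [B]
  have hc : ((Fintype.card (Equiv.Perm (Fin 3)) : ℕ) : ℝ) = 6 := by
    simp [Fintype.card_perm]
    norm_num [Nat.factorial]
  rw [hc, ← Finset.mul_sum]
  push_cast
  ring

/-- The kernel `B` in the case of three spins, as a sum over permutations. -/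
lemma B_three (f : (Fin 3 → ℝ) → ℝ) (p r : Fin 3 → ℝ) :
    B f p r = (1 / 2) * ∑ π : Equiv.Perm (Fin 3), (∑ i, p i * r (π i)) * f (sp p (rel π r)) := by
  simp only [B, K]
  have hc : ((Fintype.card (Equiv.Perm (Fin 3)) : ℕ) : ℝ) = 6 := by
    simp [Fintype.card_perm]
    norm_num [Nat.factorial]
  rw [hc, ← Finset.mul_sum]
  simp only [rel]
  push_cast
  ring

end Crest.Agent.PottsTree
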