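import Crest.Agent.Lib.PottsTree.Upgrade

/-!
# The star of symmetric table-supported laws is a plain convolution

Let the table `g` be stable under relabelling: `Perm (Fin q)` acts on the index set with
`g (act π k) = rel π (g k)`, and let `μ` be invariant.  Put `ν k = q * g k a * μ k`, the law of the
posterior given the root spin `a`.  Then for admissible `f`

`∑∑ μ k * μ' l * B f (g k) (g' l) = ∑∑ ν k * ν' l * f (sp (g k) (g' l))`,

with no size-biasing and no sum over permutations left.  On a multiplicative table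
`sp (g k) (g' l) = g'' (add k l)`, so the star is a convolution.
-/

namespace Crest.Agent.PottsTree

open Finset
open ConeData
open Cmp

variable {q : ℕ}

/-- a table stable under relabelling -/
structure TableSym {ι : Type*} (g : ι → Fin q → ℝ) where
  act : Equiv.Perm (Fin q) → ι ≃ ι
  g_act : ∀ π k, g (act π k) = rel π (g k)
  act_mul : ∀ π σ k, act π (act σ k) = act (σ * π) k

/-- invariant weights -/
def TableSym.Inv {ι : Type*} {g : ι → Fin q → ℝ} (S : TableSym g) (μ : ι → ℝ) : Prop :=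
  ∀ π k, μ (S.act π k) = μ k

/-- the law given the root spin `a` -/
noncomputable def nuOf {ι : Type*} (a : Fin q) (g : ι → Fin q → ℝ) (μ : ι → ℝ) : ι → ℝ :=
  fun k => (q : ℝ) * g k a * μ k

section Basic

variable {ι ι' : Type*} {g : ι → Fin q → ℝ} {g' : ι' → Fin q → ℝ}
  {μ : ι → ℝ} {μ' : ι' → ℝ}

lemma sp_rel (π : Equiv.Perm (Fin q)) (p r : Fin q → ℝ) : sp (rel π p) (rel π r) = rel π (sp p r) := by
  funext i
  simp only [sp, rel]
  rw [Equiv.sum_comp π (fun j => p j * r j)]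

lemma nuOf_nonneg (a : Fin q) (hg : ∀ k, g k ∈ Sx q) (hμ : ∀ k, 0 ≤ μ k) (k : ι) :
    0 ≤ nuOf a g μ k :=
  mul_nonneg (mul_nonneg (Nat.cast_nonneg _) ((hg k).1 a)) (hμ k)

/-- pick a relabelling moving `a` to `b` -/
lemma exists_perm_apply (a b : Fin q) : ∃ π : Equiv.Perm (Fin q), π a = b :=
  ⟨Equiv.swap a b, Equiv.swap_apply_left a b⟩

/-- symmetrised weights -/
noncomputable def TableSym.symW (S : TableSym g) (w : ι → ℝ) : ι → ℝ :=
  fun k => ((Fintype.card (Equiv.Perm (Fin q)) : ℝ))⁻¹ * ∑ π, w (S.act π k)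

lemma TableSym.symW_inv (S : TableSym g) (w : ι → ℝ) : S.Inv (S.symW w) := by
  intro σ k
  simp only [TableSym.symW]
  congr 1
  simp only [S.act_mul]
  exact Equiv.sum_comp (Equiv.mulLeft σ) (fun π => w (S.act π k))

lemma TableSym.symW_nonneg (S : TableSym g) {w : ι → ℝ} (hw : ∀ k, 0 ≤ w k) (k : ι) :
    0 ≤ S.symW w k :=
  mul_nonneg inv_card_perm_nonneg (Finset.sum_nonneg fun _ _ => hw _)

variable [Fintype ι] [Fintype ι']

/-- The coordinate of the root may be moved: single sum. -/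
lemma sum_coord_eq (S : TableSym g) (hμ : S.Inv μ) {f : (Fin q → ℝ) → ℝ}
    (hf : ∀ π : Equiv.Perm (Fin q), ∀ p ∈ Sx q, f (rel π p) = f p) (hg : ∀ k, g k ∈ Sx q)
    (a b : Fin q) :
    ∑ k, g k b * μ k * f (g k) = ∑ k, g k a * μ k * f (g k) := by
  obtain ⟨π, hπ⟩ := exists_perm_apply a b
  rw [← Equiv.sum_comp (S.act π) (fun k => g k a * μ k * f (g k))]
  refine Finset.sum_congr rfl fun k _ => ?_
  rw [S.g_act π k, hμ π k, hf π _ (hg k)]
  simp [rel, hπ]

/-- The total mass is preserved. -/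
lemma sum_nuOf_eq (S : TableSym g) (hμ : S.Inv μ) (hg : ∀ k, g k ∈ Sx q) (a : Fin q) :
    ∑ k, nuOf a g μ k = ∑ k, μ k := by
  have h1 : ∀ b : Fin q, ∑ k, g k b * μ k * (1 : ℝ) = ∑ k, g k a * μ k * 1 := fun b =>
    sum_coord_eq (f := fun _ => (1 : ℝ)) S hμ (fun _ _ _ => rfl) hg a b
  have h2 : ∑ b : Fin q, ∑ k, g k b * μ k * (1 : ℝ) = ∑ k, μ k := by
    rw [Finset.sum_comm]
    refine Finset.sum_congr rfl fun k _ => ?_
    have : ∑ b, g k b = 1 := (hg k).2
    calc ∑ b, g k b * μ k * 1 = (∑ b, g k b) * μ k := by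
          rw [Finset.sum_mul]; exact Finset.sum_congr rfl fun b _ => by ring
      _ = μ k := by rw [this, one_mul]
  rw [← h2, Finset.sum_congr rfl fun b _ => h1 b]
  simp only [Finset.sum_const, Finset.card_univ, Fintype.card_fin, nsmul_eq_mul, nuOf, mul_one]
  rw [Finset.mul_sum]
  exact Finset.sum_congr rfl fun k _ => by ring

/-- The single law in terms of `ν`. -/
lemma sum_nuOf_mul (S : TableSym g) (hμ : S.Inv μ) {f : (Fin q → ℝ) → ℝ}
    (hf : ∀ π : Equiv.Perm (Fin q), ∀ p ∈ Sx q, f (rel π p) = f p) (hg : ∀ k, g k ∈ Sx q)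
    (a : Fin q) : ∑ k, nuOf a g μ k * f (g k) = ∑ k, μ k * f (g k) := by
  have h1 : ∀ b : Fin q, ∑ k, g k b * μ k * f (g k) = ∑ k, g k a * μ k * f (g k) := fun b =>
    sum_coord_eq S hμ hf hg a b
  have h2 : ∑ b : Fin q, ∑ k, g k b * μ k * f (g k) = ∑ k, μ k * f (g k) := by
    rw [Finset.sum_comm]
    refine Finset.sum_congr rfl fun k _ => ?_
    have : ∑ b, g k b = 1 := (hg k).2
    calc ∑ b, g k b * μ k * f (g k) = (∑ b, g k b) * (μ k * f (g k)) := by
          rw [Finset.sum_mul]; exact Finset.sum_congr rfl fun b _ => by ring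
      _ = μ k * f (g k) := by rw [this, one_mul]
  rw [← h2, Finset.sum_congr rfl fun b _ => h1 b]
  simp only [Finset.sum_const, Finset.card_univ, Fintype.card_fin, nsmul_eq_mul, nuOf]
  rw [Finset.mul_sum]
  exact Finset.sum_congr rfl fun k _ => by ring

/-- `Bnd` passes from `μ` to the law `ν` given the root. -/
lemma Bnd.nuOf {Ω : Type*} {L : Ω → Fin q → ℝ} (h : Bnd g L μ) (S : TableSym g)
    (hμ : S.Inv μ) (hg : ∀ k, g k ∈ Sx q) (a : Fin q) : Bnd g L (nuOf a g μ) := fun f hf => by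
  rw [sum_nuOf_mul S hμ hf.2.2 hg a]
  exact h f hf

lemma TableSym.sum_symW_mul (S : TableSym g) (w : ι → ℝ) {f : (Fin q → ℝ) → ℝ}
    (hf : ∀ π : Equiv.Perm (Fin q), ∀ p ∈ Sx q, f (rel π p) = f p) (hg : ∀ k, g k ∈ Sx q) :
    ∑ k, S.symW w k * f (g k) = ∑ k, w k * f (g k) := by
  have hc : ((Fintype.card (Equiv.Perm (Fin q)) : ℝ)) ≠ 0 := by
    exact_mod_cast (Fintype.card_pos (α := Equiv.Perm (Fin q))).ne'
  have h1 : ∀ π : Equiv.Perm (Fin q), ∑ k, w (S.act π k) * f (g k) = ∑ k, w k * f (g k) := by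
    intro π
    rw [← Equiv.sum_comp (S.act π) (fun k => w k * f (g k))]
    refine Finset.sum_congr rfl fun k _ => ?_
    rw [S.g_act π k, hf π _ (hg k)]
  simp only [TableSym.symW, mul_assoc, Finset.sum_mul]
  rw [← Finset.mul_sum, Finset.sum_comm, Finset.sum_congr rfl fun π _ => h1 π]
  simp only [Finset.sum_const, Finset.card_univ, nsmul_eq_mul]
  field_simp

/-- Any bound can be symmetrised. -/
lemma Bnd.symW {Ω : Type*} {L : Ω → Fin q → ℝ} {w : ι → ℝ} (h : Bnd g L w) (S : TableSym g)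
    (hg : ∀ k, g k ∈ Sx q) : Bnd g L (S.symW w) := fun f hf => by
  rw [S.sum_symW_mul w hf.2.2 hg]
  exact h f hf

/-- The sum over relabellings in `B` disappears against invariant weights. -/
lemma sum_B_eq_of_inv (S' : TableSym g') (hμ' : S'.Inv μ') (f : (Fin q → ℝ) → ℝ) (p : Fin q → ℝ) :
    ∑ l, μ' l * B f p (g' l) = ∑ l, μ' l * ((q : ℝ) * K f p (g' l)) := by
  have hc : ((Fintype.card (Equiv.Perm (Fin q)) : ℝ)) ≠ 0 := by
    exact_mod_cast (Fintype.card_pos (α := Equiv.Perm (Fin q))).ne'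
  have h1 : ∀ π : Equiv.Perm (Fin q),
      ∑ l, μ' l * ((q : ℝ) * K f p (rel π (g' l))) = ∑ l, μ' l * ((q : ℝ) * K f p (g' l)) := by
    intro π
    rw [← Equiv.sum_comp (S'.act π) (fun l => μ' l * ((q : ℝ) * K f p (g' l)))]
    refine Finset.sum_congr rfl fun l _ => ?_
    rw [S'.g_act π l, hμ' π l]
  have h2 : ∀ l, μ' l * B f p (g' l) = ((Fintype.card (Equiv.Perm (Fin q)) : ℝ))⁻¹ *
      ∑ π, μ' l * ((q : ℝ) * K f p (rel π (g' l))) := by
    intro l
    rw [B]
    calc μ' l * (((Fintype.card (Equiv.Perm (Fin q)) : ℝ))⁻¹ *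
          ∑ π : Equiv.Perm (Fin q), (q : ℝ) * K f p (rel π (g' l)))
        = ((Fintype.card (Equiv.Perm (Fin q)) : ℝ))⁻¹ *
          (μ' l * ∑ π : Equiv.Perm (Fin q), (q : ℝ) * K f p (rel π (g' l))) := by ring
      _ = _ := by rw [Finset.mul_sum]
  simp only [h2]
  rw [← Finset.mul_sum, Finset.sum_comm, Finset.sum_congr rfl fun π _ => h1 π]
  simp only [Finset.sum_const, Finset.card_univ, nsmul_eq_mul]
  rw [← mul_assoc, inv_mul_cancel₀ hc, one_mul]

/-- The coordinate of the root may be moved: double sum. -/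
lemma sum_coord_eq₂ (S : TableSym g) (S' : TableSym g') (hμ : S.Inv μ) (hμ' : S'.Inv μ')
    {f : (Fin q → ℝ) → ℝ} (hf : ∀ π : Equiv.Perm (Fin q), ∀ p ∈ Sx q, f (rel π p) = f p)
    (hg : ∀ k, g k ∈ Sx q) (hg' : ∀ k, g' k ∈ Sx q) (a b : Fin q) :
    ∑ k, ∑ l, μ k * μ' l * (g k b * g' l b) * f (sp (g k) (g' l)) =
      ∑ k, ∑ l, μ k * μ' l * (g k a * g' l a) * f (sp (g k) (g' l)) := by
  obtain ⟨π, hπ⟩ := exists_perm_apply a b
  rw [← Equiv.sum_comp (S.act π) (fun k => ∑ l, μ k * μ' l * (g k a * g' l a) * f (sp (g k) (g' l)))]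
  refine Finset.sum_congr rfl fun k _ => ?_
  rw [← Equiv.sum_comp (S'.act π) (fun l => μ (S.act π k) * μ' l *
    (g (S.act π k) a * g' l a) * f (sp (g (S.act π k)) (g' l)))]
  refine Finset.sum_congr rfl fun l _ => ?_
  rw [S.g_act π k, S'.g_act π l, hμ π k, hμ' π l, sp_rel]
  have e1 : rel π (g k) a = g k b := by simp [rel, hπ]
  have e2 : rel π (g' l) a = g' l b := by simp [rel, hπ]
  rw [e1, e2]
  by_cases h0 : g k b * g' l b = 0
  · simp [h0]
  · have hne : ∑ j, g k j * g' l j ≠ 0 := by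
      intro hs
      have := (Finset.sum_eq_zero_iff_of_nonneg
        (fun j _ => mul_nonneg ((hg k).1 j) ((hg' l).1 j))).1 hs b (Finset.mem_univ _)
      exact h0 this
    rw [hf π _ (sp_mem (hg k) (hg' l) hne)]

/-- **The convolution identity.** -/
lemma sum_B_eq_conv (S : TableSym g) (S' : TableSym g') (hμ : S.Inv μ) (hμ' : S'.Inv μ')
    {f : (Fin q → ℝ) → ℝ} (hf : ∀ π : Equiv.Perm (Fin q), ∀ p ∈ Sx q, f (rel π p) = f p)
    (hg : ∀ k, g k ∈ Sx q) (hg' : ∀ k, g' k ∈ Sx q) (a : Fin q) :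
    ∑ k, ∑ l, μ k * μ' l * B f (g k) (g' l) =
      ∑ k, ∑ l, nuOf a g μ k * nuOf a g' μ' l * f (sp (g k) (g' l)) := by
  have h1 : ∀ k, ∑ l, μ k * μ' l * B f (g k) (g' l) =
      (q : ℝ) * ∑ l, μ k * μ' l * K f (g k) (g' l) := by
    intro k
    have e := sum_B_eq_of_inv S' hμ' f (g k)
    calc ∑ l, μ k * μ' l * B f (g k) (g' l) = μ k * ∑ l, μ' l * B f (g k) (g' l) := by
          rw [Finset.mul_sum]
          exact Finset.sum_congr rfl fun l _ => by ring
      _ = μ k * ∑ l, μ' l * ((q : ℝ) * K f (g k) (g' l)) := by rw [e]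
      _ = (q : ℝ) * ∑ l, μ k * μ' l * K f (g k) (g' l) := by
          simp only [Finset.mul_sum]
          exact Finset.sum_congr rfl fun l _ => by ring
  have h2 : ∑ b : Fin q, ∑ k, ∑ l, μ k * μ' l * (g k b * g' l b) * f (sp (g k) (g' l)) =
      ∑ k, ∑ l, μ k * μ' l * K f (g k) (g' l) := by
    rw [Finset.sum_comm]
    refine Finset.sum_congr rfl fun k _ => ?_
    rw [Finset.sum_comm]
    refine Finset.sum_congr rfl fun l _ => ?_
    simp only [K, Finset.sum_mul, Finset.mul_sum]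
    exact Finset.sum_congr rfl fun j _ => by ring
  have h3 : ∑ b : Fin q, ∑ k, ∑ l, μ k * μ' l * (g k b * g' l b) * f (sp (g k) (g' l)) =
      (q : ℝ) * ∑ k, ∑ l, μ k * μ' l * (g k a * g' l a) * f (sp (g k) (g' l)) := by
    rw [Finset.sum_congr rfl fun b _ => sum_coord_eq₂ S S' hμ hμ' hf hg hg' a b]
    simp
  calc ∑ k, ∑ l, μ k * μ' l * B f (g k) (g' l)
      = (q : ℝ) * ∑ k, ∑ l, μ k * μ' l * K f (g k) (g' l) := by
        rw [Finset.mul_sum]
        exact Finset.sum_congr rfl fun k _ => h1 k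
    _ = (q : ℝ) * ((q : ℝ) * ∑ k, ∑ l, μ k * μ' l * (g k a * g' l a) * f (sp (g k) (g' l))) := by
        rw [← h2, h3]
    _ = _ := by
        simp only [Finset.mul_sum, nuOf]
        exact Finset.sum_congr rfl fun k _ => Finset.sum_congr rfl fun l _ => by ring

end Basic

/-! ### The star of two bounds -/

section Star

variable {Ω Ω' ι ι' ι'' : Type*} [Fintype ι] [Fintype ι'] [Fintype ι'']
  {g : ι → Fin q → ℝ} {g' : ι' → Fin q → ℝ} {g'' : ι'' → Fin q → ℝ}
  {L : Ω → Fin q → ℝ} {L' : Ω' → Fin q → ℝ} {μ : ι → ℝ} {μ' : ι' → ℝ}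

/-- a change of table -/
lemma Bnd.map (h : Bnd g L μ) (hμ : ∀ i, 0 ≤ μ i) {C : ι → ι'' → ℝ}
    (hC : ∀ i, ∀ f : (Fin q → ℝ) → ℝ, Adm f → f (g i) ≤ ∑ k, C i k * f (g'' k)) :
    Bnd g'' L (fun k => ∑ i, μ i * C i k) := by
  intro f hf
  refine (h f hf).trans ?_
  calc ∑ i, μ i * f (g i) ≤ ∑ i, μ i * ∑ k, C i k * f (g'' k) :=
        Finset.sum_le_sum fun i _ => mul_le_mul_of_nonneg_left (hC i f hf) (hμ i)
    _ = ∑ k, (∑ i, μ i * C i k) * f (g'' k) := by
        simp only [Finset.mul_sum, Finset.sum_mul]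
        rw [Finset.sum_comm]
        exact Finset.sum_congr rfl fun k _ => Finset.sum_congr rfl fun i _ => by ring

/-- The star of two experiments bounded on two tables. -/
lemma pot_star_le_double (hq : q ≠ 0) (h : Bnd g L μ) (h' : Bnd g' L' μ')
    (hμ' : ∀ i, 0 ≤ μ' i) (hL : IsLik L) (hL' : IsLik L') (hS' : SymLik L')
    (hg' : ∀ i, g' i ∈ Sx q) {f : (Fin q → ℝ) → ℝ} (hf : Adm f) :
    Pot f (star L L') ≤ ∑ k, ∑ l, μ k * μ' l * B f (g k) (g' l) := by
  obtain ⟨C, hC⟩ := id hf.1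
  rw [pot_star_sym hq hL hL' hS' hf.1]
  have hb1 : BddS (fun p => Pot (B f p) L') :=
    bddS_pot_of_bdd hq hL' (fun p hp r hr => abs_B_le hC hp hr)
  have hb2 : ∀ j, BddS (fun p => B f p (g' j)) := fun j =>
    ⟨q * C, fun p hp => abs_B_le hC hp (hg' j)⟩
  have hb3 : BddS (fun p => ∑ j, μ' j * B f p (g' j)) :=
    BddS.sum _ fun j _ => (hb2 j).const_mul _
  have step1 : Pot (fun p => Pot (B f p) L') L ≤ Pot (fun p => ∑ j, μ' j * B f p (g' j)) L :=
    pot_mono hL hb1 hb3 fun p hp => h' _ (adm_B_right hf hp)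
  have step2 : Pot (fun p => ∑ j, μ' j * B f p (g' j)) L =
      ∑ j, μ' j * Pot (fun p => B f p (g' j)) L := by
    rw [pot_sum hL _ fun j _ => (hb2 j).const_mul _]
    exact Finset.sum_congr rfl fun j _ => pot_const_mul _
  rw [step2] at step1
  refine step1.trans ?_
  calc ∑ j, μ' j * Pot (fun p => B f p (g' j)) L
      ≤ ∑ j, μ' j * ∑ i, μ i * B f (g i) (g' j) := by
        refine Finset.sum_le_sum fun j _ => mul_le_mul_of_nonneg_left ?_ (hμ' j)
        exact h _ (adm_B_left hf (hg' j))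
    _ = ∑ k, ∑ l, μ k * μ' l * B f (g k) (g' l) := by
        simp only [Finset.mul_sum]
        rw [Finset.sum_comm]
        exact Finset.sum_congr rfl fun k _ => Finset.sum_congr rfl fun l _ => by ring

/-- The star of two invariant laws, in terms of the laws given the root. -/
lemma pot_star_le_conv (hq : q ≠ 0) (S : TableSym g) (S' : TableSym g') (hI : S.Inv μ)
    (hI' : S'.Inv μ') (h : Bnd g L μ) (h' : Bnd g' L' μ')
    (hμ' : ∀ i, 0 ≤ μ' i) (hL : IsLik L) (hL' : IsLik L') (hS' : SymLik L')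
    (hg : ∀ i, g i ∈ Sx q) (hg' : ∀ i, g' i ∈ Sx q) (a : Fin q) {f : (Fin q → ℝ) → ℝ}
    (hf : Adm f) :
    Pot f (star L L') ≤ ∑ k, ∑ l, nuOf a g μ k * nuOf a g' μ' l * f (sp (g k) (g' l)) := by
  rw [← sum_B_eq_conv S S' hI hI' hf.2.2 hg hg' a]
  exact pot_star_le_double hq h h' hμ' hL hL' hS' hg' hf

/-- If the root coordinate of both points is positive then their product is in the simplex. -/
lemma sp_mem_of_coord {p r : Fin q → ℝ} (hp : p ∈ Sx q) (hr : r ∈ Sx q) {a : Fin q}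
    (h1 : p a ≠ 0) (h2 : r a ≠ 0) : sp p r ∈ Sx q := by
  refine sp_mem hp hr fun hs => ?_
  have := (Finset.sum_eq_zero_iff_of_nonneg
    (fun j _ => mul_nonneg (hp.1 j) (hr.1 j))).1 hs a (Finset.mem_univ _)
  exact mul_ne_zero h1 h2 this

/-- **Star with a general rule and lower bounds on the laws**: `w ≤ ν`, `w' ≤ ν'`; on pairs with
`w k w' l ≠ 0` the rule `R` gives an upper bound for the product point; the rest of the mass goes
to a vertex of the target table. -/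
lemma bnd_star_rule_le [DecidableEq ι''] (hq : q ≠ 0) (S : TableSym g) (S' : TableSym g')
    (hI : S.Inv μ) (hI' : S'.Inv μ') (h : Bnd g L μ) (h' : Bnd g' L' μ') (hμ : ∀ i, 0 ≤ μ i)
    (hμ' : ∀ i, 0 ≤ μ' i) (hL : IsLik L) (hL' : IsLik L') (hS' : SymLik L')
    (hg : ∀ i, g i ∈ Sx q) (hg' : ∀ i, g' i ∈ Sx q) (a : Fin q) {w : ι → ℝ} {w' : ι' → ℝ}
    (hw0 : ∀ k, 0 ≤ w k) (hw0' : ∀ l, 0 ≤ w' l) (hw : ∀ k, w k ≤ nuOf a g μ k)
    (hw' : ∀ l, w' l ≤ nuOf a g' μ' l) {R : ι → ι' → ι'' → ℝ}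
    (hR : ∀ k l, w k ≠ 0 → w' l ≠ 0 → ∀ f : (Fin q → ℝ) → ℝ, Adm f →
      f (sp (g k) (g' l)) ≤ ∑ m, R k l m * f (g'' m))
    {m0 : ι''} {b : Fin q} (hm0 : g'' m0 = baseL q b) :
    Bnd g'' (star L L') (fun m => ∑ k, ∑ l, w k * w' l * R k l m +
      if m = m0 then (∑ k, μ k) * (∑ l, μ' l) - (∑ k, w k) * (∑ l, w' l) else 0) := by
  intro f hf
  refine (pot_star_le_conv hq S S' hI hI' h h' hμ' hL hL' hS' hg hg' a hf).trans ?_
  set F := f (baseL q b) with hF
  set ν := nuOf a g μ with hν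
  set ν' := nuOf a g' μ' with hν'
  have hν0 : ∀ k, 0 ≤ ν k := fun k => nuOf_nonneg a hg hμ k
  have hν0' : ∀ l, 0 ≤ ν' l := fun l => nuOf_nonneg a hg' hμ' l
  have hpt : ∀ k l, ν k * ν' l * f (sp (g k) (g' l)) ≤
      w k * w' l * ∑ m, R k l m * f (g'' m) + (ν k * ν' l - w k * w' l) * F := by
    intro k l
    have hslack : 0 ≤ ν k * ν' l - w k * w' l := by
      have := mul_le_mul (hw k) (hw' l) (hw0' l) (hν0 k)
      linarith
    by_cases hz : ν k * ν' l = 0
    · have hz2 : w k * w' l = 0 := by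
        have := mul_nonneg (hw0 k) (hw0' l)
        linarith
      simp [hz, hz2]
    · have hc1 : g k a ≠ 0 := by
        intro h0
        apply hz
        simp [hν, nuOf, h0]
      have hc2 : g' l a ≠ 0 := by
        intro h0
        apply hz
        simp [hν', nuOf, h0]
      have hsp := sp_mem_of_coord (hg k) (hg' l) hc1 hc2
      have hV : f (sp (g k) (g' l)) ≤ F := le_vertex hf hsp b
      by_cases hz3 : w k * w' l = 0
      · rw [hz3]
        simp only [zero_mul, sub_zero, zero_add]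
        exact mul_le_mul_of_nonneg_left hV (mul_nonneg (hν0 k) (hν0' l))
      · have hne1 : w k ≠ 0 := left_ne_zero_of_mul hz3
        have hne2 : w' l ≠ 0 := right_ne_zero_of_mul hz3
        have h1 := hR k l hne1 hne2 f hf
        have hww := mul_nonneg (hw0 k) (hw0' l)
        have h2 := mul_le_mul_of_nonneg_left h1 hww
        have h3 := mul_le_mul_of_nonneg_left hV hslack
        nlinarith [h2, h3]
  have hsum : ∑ k, ν k = ∑ k, μ k := sum_nuOf_eq S hI hg a
  have hsum' : ∑ l, ν' l = ∑ l, μ' l := sum_nuOf_eq S' hI' hg' a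
  calc ∑ k, ∑ l, ν k * ν' l * f (sp (g k) (g' l))
      ≤ ∑ k, ∑ l, (w k * w' l * ∑ m, R k l m * f (g'' m) + (ν k * ν' l - w k * w' l) * F) :=
        Finset.sum_le_sum fun k _ => Finset.sum_le_sum fun l _ => hpt k l
    _ = ∑ m, (∑ k, ∑ l, w k * w' l * R k l m +
          if m = m0 then (∑ k, μ k) * (∑ l, μ' l) - (∑ k, w k) * (∑ l, w' l) else 0) *
            f (g'' m) := by
        have e1 : ∑ k, ∑ l, w k * w' l * ∑ m, R k l m * f (g'' m) =
            ∑ m, (∑ k, ∑ l, w k * w' l * R k l m) * f (g'' m) := by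
          symm
          simp only [Finset.mul_sum, Finset.sum_mul]
          rw [Finset.sum_comm]
          refine Finset.sum_congr rfl fun k _ => ?_
          rw [Finset.sum_comm]
          exact Finset.sum_congr rfl fun l _ => Finset.sum_congr rfl fun m _ => by ring
        have e2 : ∑ k, ∑ l, (ν k * ν' l - w k * w' l) * F =
            ((∑ k, μ k) * (∑ l, μ' l) - (∑ k, w k) * (∑ l, w' l)) * F := by
          rw [← hsum, ← hsum', Finset.sum_mul_sum, Finset.sum_mul_sum, sub_mul,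
            Finset.sum_mul, Finset.sum_mul]
          simp only [Finset.sum_mul, sub_mul, Finset.sum_sub_distrib]
        have e3 : ∑ m, (if m = m0 then (∑ k, μ k) * (∑ l, μ' l) - (∑ k, w k) * (∑ l, w' l)
            else 0) * f (g'' m) = ((∑ k, μ k) * (∑ l, μ' l) - (∑ k, w k) * (∑ l, w' l)) * F := by
          simp only [ite_mul, zero_mul, Finset.sum_ite_eq', Finset.mem_univ, if_true, hm0]
          rfl
        simp only [Finset.sum_add_distrib, add_mul]
        rw [e1, e2, e3]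

/-- **Star as a convolution with lower bounds.**  The pairs on which the product point is a point
of the target table are given by `add`, the leftover mass goes to a vertex. -/
lemma bnd_star_conv_le [DecidableEq ι''] (hq : q ≠ 0) (S : TableSym g) (S' : TableSym g')
    (hI : S.Inv μ) (hI' : S'.Inv μ') (h : Bnd g L μ) (h' : Bnd g' L' μ') (hμ : ∀ i, 0 ≤ μ i)
    (hμ' : ∀ i, 0 ≤ μ' i) (hL : IsLik L) (hL' : IsLik L') (hS' : SymLik L')
    (hg : ∀ i, g i ∈ Sx q) (hg' : ∀ i, g' i ∈ Sx q) (a : Fin q) {w : ι → ℝ} {w' : ι' → ℝ}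
    (hw0 : ∀ k, 0 ≤ w k) (hw0' : ∀ l, 0 ≤ w' l) (hw : ∀ k, w k ≤ nuOf a g μ k)
    (hw' : ∀ l, w' l ≤ nuOf a g' μ' l) {add : ι → ι' → ι''}
    (hadd : ∀ k l, w k ≠ 0 → w' l ≠ 0 → sp (g k) (g' l) = g'' (add k l))
    {m0 : ι''} {b : Fin q} (hm0 : g'' m0 = baseL q b) :
    Bnd g'' (star L L') (fun m => ∑ k, ∑ l, (if add k l = m then w k * w' l else 0) +
      if m = m0 then (∑ k, μ k) * (∑ l, μ' l) - (∑ k, w k) * (∑ l, w' l) else 0) := by
  have hrule : ∀ k l, w k ≠ 0 → w' l ≠ 0 → ∀ f : (Fin q → ℝ) → ℝ, Adm f →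
      f (sp (g k) (g' l)) ≤ ∑ m, (if add k l = m then (1 : ℝ) else 0) * f (g'' m) := by
    intro k l h1 h2 f _
    simp only [ite_mul, one_mul, zero_mul, Finset.sum_ite_eq, Finset.mem_univ, if_true]
    rw [hadd k l h1 h2]
  have := bnd_star_rule_le (R := fun k l m => if add k l = m then (1 : ℝ) else 0) hq S S' hI hI'
    h h' hμ hμ' hL hL' hS' hg hg' a hw0 hw0' hw hw' hrule hm0
  simpa only [mul_ite, mul_one, mul_zero] using this

/-- **Star as an exact convolution.** -/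
lemma bnd_star_conv [DecidableEq ι''] (hq : q ≠ 0) (S : TableSym g) (S' : TableSym g')
    (hI : S.Inv μ) (hI' : S'.Inv μ') (h : Bnd g L μ) (h' : Bnd g' L' μ')
    (hμ' : ∀ i, 0 ≤ μ' i) (hL : IsLik L) (hL' : IsLik L') (hS' : SymLik L')
    (hg : ∀ i, g i ∈ Sx q) (hg' : ∀ i, g' i ∈ Sx q) (a : Fin q) {add : ι → ι' → ι''}
    (hadd : ∀ k l, g k a ≠ 0 → g' l a ≠ 0 → sp (g k) (g' l) = g'' (add k l)) :
    Bnd g'' (star L L') (fun m => ∑ k, ∑ l,
      if add k l = m then nuOf a g μ k * nuOf a g' μ' l else 0) := by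
  intro f hf
  refine (pot_star_le_conv hq S S' hI hI' h h' hμ' hL hL' hS' hg hg' a hf).trans (le_of_eq ?_)
  have hpt : ∀ k l, nuOf a g μ k * nuOf a g' μ' l * f (sp (g k) (g' l)) =
      nuOf a g μ k * nuOf a g' μ' l * f (g'' (add k l)) := by
    intro k l
    by_cases h1 : g k a = 0
    · simp [nuOf, h1]
    by_cases h2 : g' l a = 0
    · simp [nuOf, h2]
    rw [hadd k l h1 h2]
  simp only [hpt, Finset.sum_mul, ite_mul, zero_mul]
  symm
  rw [Finset.sum_comm]
  refine Finset.sum_congr rfl fun k _ => ?_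
  rw [Finset.sum_comm]
  refine Finset.sum_congr rfl fun l _ => ?_
  simp

end Star

/-! ### Star powers -/

section StarPow

variable {Ω ι ι' ι'' : Type*} [Fintype ι] [Fintype ι'] [Fintype ι'']
  {g : ι → Fin q → ℝ} {g' : ι' → Fin q → ℝ} {g'' : ι'' → Fin q → ℝ} {L : Ω → Fin q → ℝ}
  {μ : ι → ℝ} {μ' : ι' → ℝ}

/-- one more factor in a star power, as a convolution with lower bounds -/
lemma bnd_starPow_succ_conv_le [DecidableEq ι''] (hq : q ≠ 0) {k : ℕ} (S : TableSym g)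
    (S' : TableSym g') (hI : S.Inv μ) (hI' : S'.Inv μ') (h : Bnd g L μ)
    (h' : Bnd g' (starPow L k) μ') (hμ : ∀ i, 0 ≤ μ i) (hμ' : ∀ i, 0 ≤ μ' i) (hL : IsLik L)
    (hS : SymLik L)
    (hg : ∀ i, g i ∈ Sx q) (hg' : ∀ i, g' i ∈ Sx q) (a : Fin q) {w : ι → ℝ} {w' : ι' → ℝ}
    (hw0 : ∀ k, 0 ≤ w k) (hw0' : ∀ l, 0 ≤ w' l) (hw : ∀ k, w k ≤ nuOf a g μ k)
    (hw' : ∀ l, w' l ≤ nuOf a g' μ' l) {add : ι → ι' → ι''}
    (hadd : ∀ k l, w k ≠ 0 → w' l ≠ 0 → sp (g k) (g' l) = g'' (add k l))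
    {m0 : ι''} {b : Fin q} (hm0 : g'' m0 = baseL q b) :
    Bnd g'' (starPow L (k + 1)) (fun m => ∑ k, ∑ l, (if add k l = m then w k * w' l else 0) +
      if m = m0 then (∑ k, μ k) * (∑ l, μ' l) - (∑ k, w k) * (∑ l, w' l) else 0) :=
  bnd_starPow_succ (bnd_star_conv_le hq S S' hI hI' h h' hμ hμ' hL (isLik_starPow hL k)
    (symLik_starPow hq hL hS k) hg hg' a hw0 hw0' hw hw' hadd hm0)

end StarPow

end Crest.Agent.PottsTree
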